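import Vale.Agent.P161C.Plan
import Mathlib.Analysis.SpecialFunctions.Artanh

/-!
# P161C, module ALG1
-/

namespace Vale.Agent.P161C

universe u

namespace ALG1

/-- addition formula for the hyperbolic tangent -/
theorem tanh_add (x y : ℝ) :
    Real.tanh (x + y) = (Real.tanh x + Real.tanh y) / (1 + Real.tanh x * Real.tanh y) := by
  have hx := Real.cosh_pos x
  have hy := Real.cosh_pos y
  have hxy := Real.cosh_pos (x + y)
  have h1 : Real.tanh x = Real.sinh x / Real.cosh x := Real.tanh_eq_sinh_div_cosh x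
  have h2 : Real.tanh y = Real.sinh y / Real.cosh y := Real.tanh_eq_sinh_div_cosh y
  have h4 : 1 + Real.tanh x * Real.tanh y = Real.cosh (x + y) / (Real.cosh x * Real.cosh y) := by
    rw [h1, h2, Real.cosh_add]
    field_simp
  have h5 : Real.tanh x + Real.tanh y = Real.sinh (x + y) / (Real.cosh x * Real.cosh y) := by
    rw [h1, h2, Real.sinh_add]
    field_simp
  rw [h4, h5, Real.tanh_eq_sinh_div_cosh]
  field_simp

/-- `at'` is an inverse of `tanh` -/
theorem tanh_at {z : ℝ} (h1 : -1 < z) (h2 : z < 1) : Real.tanh (at' z) = z := by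
  have h := Real.tanh_artanh (x := z) ⟨h1, h2⟩
  have h3 : Real.artanh z = at' z := by
    rw [Real.artanh_eq_half_log ⟨h1.le, h2.le⟩, at']
    ring
  rwa [h3] at h

theorem tanh_ff {θ l : ℝ} (h0 : 0 < θ) (h1 : θ < 1) :
    Real.tanh (ff θ l) = θ * Real.tanh l := by
  have ha := Real.neg_one_lt_tanh l
  have hb := Real.tanh_lt_one l
  refine tanh_at ?_ ?_
  · nlinarith
  · nlinarith

theorem theta_lt {V : Type u} {G : SimpleGraph V} {d : ℕ} {θ : ℝ} (h : Crit G d θ) : θ < 1 := by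
  by_contra hc
  push Not at hc
  have h1 := h.crit
  have h2 : (3 : ℝ) ≤ d := by exact_mod_cast h.hd
  nlinarith

/-- the outgoing map -/
noncomputable def H (θ m x : ℝ) : ℝ :=
  (x * (1 - θ ^ 2) + m * θ * (1 - x ^ 2)) / (1 - θ ^ 2 * x ^ 2)

theorem den_pos {θ x : ℝ} (h0 : 0 < θ) (h1 : θ < 1) (hx : |x| ≤ 1) : 0 < 1 - θ ^ 2 * x ^ 2 := by
  have h2 : x ^ 2 ≤ 1 := by
    rw [← sq_abs]
    nlinarith [abs_nonneg x]
  nlinarith [sq_nonneg x, mul_pos h0 h0]

theorem den_le {θ x : ℝ} : 1 - θ ^ 2 * x ^ 2 ≤ 1 := by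
  nlinarith [mul_nonneg (sq_nonneg θ) (sq_nonneg x)]

theorem H_sub {θ m x y : ℝ} (h0 : 0 < θ) (h1 : θ < 1) (hx : |x| ≤ 1) (hy : |y| ≤ 1) :
    H θ m x - H θ m y = (1 - θ ^ 2) * (x - y) * (1 + θ ^ 2 * x * y - m * θ * (x + y))
      / ((1 - θ ^ 2 * x ^ 2) * (1 - θ ^ 2 * y ^ 2)) := by
  have hdx := (den_pos h0 h1 hx).ne'
  have hdy := (den_pos h0 h1 hy).ne'
  unfold H
  rw [div_sub_div _ _ hdx hdy]
  congr 1
  ring

theorem bracket {θ m x y : ℝ} (h0 : 0 < θ) (h1 : θ < 1) (hx : |x| ≤ 1) (hy : |y| ≤ 1)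
    (hm : |m| ≤ 1) : (1 - θ) ^ 2 ≤ 1 + θ ^ 2 * x * y - m * θ * (x + y) := by
  rw [abs_le] at hx hy hm
  have hx1 : -θ ≤ θ * x := by nlinarith
  have hx2 : θ * x ≤ θ := by nlinarith
  have hy1 : -θ ≤ θ * y := by nlinarith
  have hy2 : θ * y ≤ θ := by nlinarith
  -- linear in `m`: check `m = 1` and `m = -1`
  have e1 : (1 - θ) ^ 2 ≤ 1 + θ ^ 2 * x * y - θ * (x + y) := by
    have : (1 - θ) * (1 - θ) ≤ (1 - θ * x) * (1 - θ * y) :=
      mul_le_mul (by linarith) (by linarith) (by linarith) (by linarith)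
    nlinarith
  have e2 : (1 - θ) ^ 2 ≤ 1 + θ ^ 2 * x * y + θ * (x + y) := by
    have : (1 - θ) * (1 - θ) ≤ (1 + θ * x) * (1 + θ * y) :=
      mul_le_mul (by linarith) (by linarith) (by linarith) (by linarith)
    nlinarith
  nlinarith [mul_le_mul_of_nonneg_left e1 (by linarith : (0:ℝ) ≤ (1 + m) / 2),
    mul_le_mul_of_nonneg_left e2 (by linarith : (0:ℝ) ≤ (1 - m) / 2)]

theorem H_expand {θ m x y : ℝ} (h0 : 0 < θ) (h1 : θ < 1) (hx : |x| ≤ 1) (hy : |y| ≤ 1)
    (hm : |m| ≤ 1) : (1 - θ ^ 2) * (1 - θ) ^ 2 * |x - y| ≤ |H θ m x - H θ m y| := by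
  have hdx := den_pos h0 h1 hx
  have hdy := den_pos h0 h1 hy
  have hb := bracket h0 h1 hx hy hm
  have hb0 : 0 ≤ 1 + θ ^ 2 * x * y - m * θ * (x + y) := le_trans (sq_nonneg _) hb
  have hθ : 0 < 1 - θ ^ 2 := by nlinarith
  rw [H_sub h0 h1 hx hy, abs_div, abs_mul, abs_mul, abs_of_pos hθ, abs_of_nonneg hb0,
    abs_of_pos (mul_pos hdx hdy), le_div_iff₀ (mul_pos hdx hdy)]
  have hle : (1 - θ ^ 2 * x ^ 2) * (1 - θ ^ 2 * y ^ 2) ≤ 1 := by
    have := mul_le_mul (den_le (θ := θ) (x := x)) (den_le (θ := θ) (x := y)) hdy.le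
      (zero_le_one)
    simpa using this
  have hpos : 0 ≤ (1 - θ ^ 2) * (1 - θ) ^ 2 * |x - y| := by positivity
  calc (1 - θ ^ 2) * (1 - θ) ^ 2 * |x - y| * ((1 - θ ^ 2 * x ^ 2) * (1 - θ ^ 2 * y ^ 2))
      ≤ (1 - θ ^ 2) * (1 - θ) ^ 2 * |x - y| * 1 := mul_le_mul_of_nonneg_left hle hpos
    _ = (1 - θ ^ 2) * |x - y| * (1 - θ) ^ 2 := by ring
    _ ≤ (1 - θ ^ 2) * |x - y| * (1 + θ ^ 2 * x * y - m * θ * (x + y)) :=
        mul_le_mul_of_nonneg_left hb (by positivity)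

theorem H_m {θ m n x : ℝ} (h0 : 0 < θ) (h1 : θ < 1) (hx : |x| ≤ 1) :
    |H θ m x - H θ n x| ≤ |m - n| := by
  have hdx := den_pos h0 h1 hx
  have hx2 : x ^ 2 ≤ 1 := by
    rw [← sq_abs]
    nlinarith [abs_nonneg x]
  have e : H θ m x - H θ n x = (θ * (1 - x ^ 2) / (1 - θ ^ 2 * x ^ 2)) * (m - n) := by
    unfold H
    field_simp
    ring
  rw [e, abs_mul]
  have h2 : |θ * (1 - x ^ 2) / (1 - θ ^ 2 * x ^ 2)| ≤ 1 := by
    rw [abs_of_nonneg (div_nonneg (mul_nonneg h0.le (by linarith)) hdx.le), div_le_one hdx]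
    nlinarith [sq_nonneg x, mul_nonneg (sub_nonneg.2 h1.le) (sub_nonneg.2 hx2),
      mul_nonneg h0.le (sq_nonneg x)]
  calc |θ * (1 - x ^ 2) / (1 - θ ^ 2 * x ^ 2)| * |m - n| ≤ 1 * |m - n| :=
        mul_le_mul_of_nonneg_right h2 (abs_nonneg _)
    _ = |m - n| := one_mul _

theorem exists_root {θ m b : ℝ} (h0 : 0 < θ) (h1 : θ < 1) (hb : |b| ≤ 1) :
    ∃ x : ℝ, |x| ≤ 1 ∧ H θ m x = b := by
  have hθ : 0 < 1 - θ ^ 2 := by nlinarith
  have hcont : ContinuousOn (H θ m) (Set.Icc (-1) 1) := by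
    unfold H
    refine ContinuousOn.div (by fun_prop) (by fun_prop) ?_
    intro x hx
    exact (den_pos h0 h1 (abs_le.2 hx)).ne'
  have hm1 : H θ m (-1) = -1 := by
    unfold H
    rw [div_eq_iff (by nlinarith)]
    ring
  have hp1 : H θ m 1 = 1 := by
    unfold H
    rw [div_eq_iff (by nlinarith)]
    ring
  have h := intermediate_value_Icc (by norm_num : (-1:ℝ) ≤ 1) hcont
  rw [hm1, hp1] at h
  obtain ⟨x, hx, hx2⟩ := h (abs_le.1 hb)
  exact ⟨x, abs_le.2 hx, hx2⟩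

/-- clamping to `[-1,1]` -/
noncomputable def cl (x : ℝ) : ℝ := max (-1) (min 1 x)

theorem abs_cl (x : ℝ) : |cl x| ≤ 1 := by
  unfold cl
  rw [abs_le]
  exact ⟨le_max_left _ _, max_le (by norm_num) (min_le_left _ _)⟩

theorem cl_eq {x : ℝ} (h : |x| ≤ 1) : cl x = x := by
  rw [abs_le] at h
  unfold cl
  rw [min_eq_right h.2, max_eq_right h.1]

theorem cl_lip (x y : ℝ) : |cl x - cl y| ≤ |x - y| := by
  unfold cl
  calc |max (-1) (min 1 x) - max (-1) (min 1 y)|
      = |max (min 1 x) (-1) - max (min 1 y) (-1)| := by rw [max_comm, max_comm (-1)]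
    _ ≤ |min 1 x - min 1 y| := abs_max_sub_max_le_abs _ _ _
    _ ≤ max |(1:ℝ) - 1| |x - y| := abs_min_sub_min_le_max _ _ _ _
    _ = |x - y| := by simp

end ALG1

open ALG1

theorem alg1 : S_ALG1.{u} := by
  intro V G d θ hc
  have h0 := hc.pos
  have h1 := theta_lt hc
  have hθ : 0 < 1 - θ ^ 2 := by nlinarith
  have hK : 0 < (1 - θ ^ 2) * (1 - θ) ^ 2 := by
    have : 0 < 1 - θ := by linarith
    positivity
  have hex : ∀ a b : ℝ, ∃ x : ℝ, |x| ≤ 1 ∧ H θ (cl a) x = cl b := fun a b =>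
    exists_root h0 h1 (abs_cl b)
  choose Γ hΓ1 hΓ2 using hex
  refine ⟨Γ, ?_, ?_⟩
  · intro a b a' b'
    have e1 := H_expand h0 h1 (hΓ1 a b) (hΓ1 a' b') (abs_cl a)
    have e2 : |H θ (cl a) (Γ a b) - H θ (cl a) (Γ a' b')| ≤ |a - a'| + |b - b'| := by
      have e3 : H θ (cl a) (Γ a b) - H θ (cl a) (Γ a' b')
          = (cl b - cl b') - (H θ (cl a) (Γ a' b') - H θ (cl a') (Γ a' b')) := by
        rw [hΓ2 a b, hΓ2 a' b']
        ring
      rw [e3]
      calc |cl b - cl b' - (H θ (cl a) (Γ a' b') - H θ (cl a') (Γ a' b'))|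
          ≤ |cl b - cl b'| + |H θ (cl a) (Γ a' b') - H θ (cl a') (Γ a' b')| := abs_sub _ _
        _ ≤ |b - b'| + |cl a - cl a'| := add_le_add (cl_lip _ _) (H_m h0 h1 (hΓ1 a' b'))
        _ ≤ |b - b'| + |a - a'| := by linarith [cl_lip a a']
        _ = |a - a'| + |b - b'| := add_comm _ _
    rw [one_div, ← div_eq_inv_mul, le_div_iff₀ hK]
    linarith
  · intro y L hL u p hup
    classical
    have hne : p ≠ u := hup.ne'
    have hfu : (G.neighborSet u).Finite := Set.finite_of_ncard_pos (by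
      rw [hc.reg]; have := hc.hd; omega)
    have hfp : (G.neighborSet p).Finite := Set.finite_of_ncard_pos (by
      rw [hc.reg]; have := hc.hd; omega)
    have key : ∀ a b : V, G.Adj a b → L a a = L a b + ff θ (L b a) := by
      intro a b hab
      have hfa : (G.neighborSet a).Finite := Set.finite_of_ncard_pos (by
        rw [hc.reg]; have := hc.hd; omega)
      have hmem : ∀ x, x ∈ nb G a ↔ G.Adj a x := by
        intro x
        unfold nb
        rw [dif_pos hfa]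
        simp
      have h2 := hL a a
      have h3 := hL a b
      have h4 : (nb G a).erase a = nb G a := Finset.erase_eq_of_notMem (by
        rw [hmem]; exact G.irrefl)
      have h5 : ∑ c ∈ nb G a, ff θ (L c a)
          = ff θ (L b a) + ∑ c ∈ (nb G a).erase b, ff θ (L c a) :=
        (Finset.add_sum_erase _ _ ((hmem b).2 hab)).symm
      have h4' : ∑ c ∈ (nb G a).erase a, ff θ (L c a) = ∑ c ∈ nb G a, ff θ (L c a) := by
        rw [h4]
      have h2' : L a a = y a + ∑ c ∈ (nb G a).erase a, ff θ (L c a) := by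
        convert h2
      have h3' : L a b = y a + ∑ c ∈ (nb G a).erase b, ff θ (L c a) := by
        convert h3
      rw [h2', h4', h5, h3']
      ring
    have ku := key u p hup
    have kp := key p u hup.symm
    set x := Real.tanh (L p u) with hx
    set x' := Real.tanh (L u p) with hx'
    have bx := Real.abs_tanh_lt_one (L p u)
    have bx' := Real.abs_tanh_lt_one (L u p)
    rw [← hx] at bx
    rw [← hx'] at bx'
    have mu : Real.tanh (L u u) = (x' + θ * x) / (1 + x' * (θ * x)) := by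
      rw [ku, ALG1.tanh_add, tanh_ff h0 h1]
    have mp : Real.tanh (L p p) = (x + θ * x') / (1 + x * (θ * x')) := by
      rw [kp, ALG1.tanh_add, tanh_ff h0 h1]
    have bu := (Real.abs_tanh_lt_one (L u u)).le
    have bp := (Real.abs_tanh_lt_one (L p p)).le
    have hxx : |x' * x| < 1 := by
      rw [abs_mul]
      nlinarith [abs_nonneg x, abs_nonneg x']
    have hd1 : 0 < 1 + x' * (θ * x) := by
      rw [abs_lt] at hxx
      nlinarith
    have hdx := den_pos h0 h1 bx.le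
    have hd2 : 1 + x * (θ * x') = 1 + x' * (θ * x) := by ring
    rw [hd2] at mp
    have mu' : Real.tanh (L u u) * (1 + x' * (θ * x)) = x' + θ * x := by
      rw [mu, div_mul_cancel₀ _ hd1.ne']
    have mp' : Real.tanh (L p p) * (1 + x' * (θ * x)) = x + θ * x' := by
      rw [mp, div_mul_cancel₀ _ hd1.ne']
    have hH : H θ (Real.tanh (L u u)) x = Real.tanh (L p p) := by
      unfold H
      rw [div_eq_iff hdx.ne']
      apply mul_left_cancel₀ hd1.ne'
      linear_combination (θ * (1 - x ^ 2)) * mu' - (1 - θ ^ 2 * x ^ 2) * mp'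
    have e1 := H_expand h0 h1 bx.le (hΓ1 (Real.tanh (L u u)) (Real.tanh (L p p))) bu
    have e2 := hΓ2 (Real.tanh (L u u)) (Real.tanh (L p p))
    rw [cl_eq bu, cl_eq bp] at e2
    rw [hH, e2, sub_self, abs_zero] at e1
    have e3 : |x - Γ (Real.tanh (L u u)) (Real.tanh (L p p))| ≤ 0 := by
      by_contra hcon
      push Not at hcon
      have := mul_pos hK hcon
      linarith
    have e4 := abs_nonneg (x - Γ (Real.tanh (L u u)) (Real.tanh (L p p)))
    have e5 := abs_eq_zero.1 (le_antisymm e3 e4)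
    linarith

end Vale.Agent.P161C
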