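import Vale.Agent.P161C.AlgGp

/-!
# Real algebra of the BP recursion
-/

namespace Vale.Agent.P161C

open MeasureTheory Vale.Agent.P161 Filter Topology

universe u

theorem tanh_add' (a b : ℝ) :
    Real.tanh (a + b) = (Real.tanh a + Real.tanh b) / (1 + Real.tanh a * Real.tanh b) := by
  have ha := Real.cosh_pos a
  have hb := Real.cosh_pos b
  have hab := Real.cosh_pos (a + b)
  rw [Real.tanh_eq_sinh_div_cosh, Real.tanh_eq_sinh_div_cosh, Real.tanh_eq_sinh_div_cosh,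
    Real.sinh_add, Real.cosh_add]
  rw [Real.cosh_add] at hab
  have h1 : 1 + Real.sinh a / Real.cosh a * (Real.sinh b / Real.cosh b)
      = (Real.cosh a * Real.cosh b + Real.sinh a * Real.sinh b) / (Real.cosh a * Real.cosh b) := by
    field_simp
  have h2 : Real.sinh a / Real.cosh a + Real.sinh b / Real.cosh b
      = (Real.sinh a * Real.cosh b + Real.cosh a * Real.sinh b) / (Real.cosh a * Real.cosh b) := by
    field_simp
  rw [h1, h2]
  field_simp

theorem tanh_lt (x : ℝ) : Real.tanh x < 1 := by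
  rw [Real.tanh_eq_sinh_div_cosh, div_lt_one (Real.cosh_pos x)]
  exact Real.sinh_lt_cosh x

theorem lt_tanh (x : ℝ) : -1 < Real.tanh x := by
  have := tanh_lt (-x)
  rw [Real.tanh_neg] at this
  linarith

theorem tanh_sq_lt (x : ℝ) : Real.tanh x ^ 2 < 1 := by
  have h1 := tanh_lt x
  have h2 := lt_tanh x
  nlinarith

theorem tanh_at' {x : ℝ} (h1 : -1 < x) (h2 : x < 1) : Real.tanh (at' x) = x := by
  have h := Real.tanh_artanh (x := x) ⟨h1, h2⟩
  rw [Real.artanh_eq_half_log ⟨h1.le, h2.le⟩] at h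
  rw [at', div_eq_inv_mul, ← one_div]
  exact h

theorem Crit.sq_le {V : Type u} {G : SimpleGraph V} {d : ℕ} {θ : ℝ} (h : Crit G d θ) :
    θ ^ 2 ≤ 1 / 2 := by
  have h1 := h.crit
  have h2 : (3 : ℝ) ≤ d := by exact_mod_cast h.hd
  have h3 : 0 ≤ θ ^ 2 := sq_nonneg θ
  nlinarith

theorem Crit.lt_one {V : Type u} {G : SimpleGraph V} {d : ℕ} {θ : ℝ} (h : Crit G d θ) :
    θ < 1 := by
  have h1 := h.sq_le
  have h2 := h.pos
  nlinarith

theorem tanh_ff {θ : ℝ} (h0 : 0 < θ) (h1 : θ < 1) (l : ℝ) :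
    Real.tanh (ff θ l) = θ * Real.tanh l := by
  have ha := tanh_lt l
  have hb := lt_tanh l
  apply tanh_at' <;> nlinarith

open Classical in
theorem mem_nb {V : Type u} {G : SimpleGraph V} {d : ℕ} {θ : ℝ} (h : Crit G d θ) (v u : V) :
    u ∈ nb G v ↔ G.Adj v u := by
  have hf : (G.neighborSet v).Finite := by
    apply neighborSet_finite (d := d) (by have := h.hd; omega) h.reg
  unfold nb
  rw [dif_pos hf, Set.Finite.mem_toFinset, SimpleGraph.mem_neighborSet]

open Classical in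
theorem bps_self {V : Type u} {G : SimpleGraph V} {d : ℕ} {θ : ℝ} (h : Crit G d θ) {y : V → ℝ}
    {L : V → V → ℝ} (hL : BPS G θ y L) (u : V) : L u u = y u + ∑ c ∈ nb G u, ff θ (L c u) := by
  rw [hL u u, Finset.erase_eq_of_notMem]
  rw [mem_nb h]
  exact G.irrefl

open Classical in
/-- the full field at an end of an edge -/
theorem bps_edge {V : Type u} {G : SimpleGraph V} {d : ℕ} {θ : ℝ} (h : Crit G d θ) {y : V → ℝ}
    {L : V → V → ℝ} (hL : BPS G θ y L) {u p : V} (hup : G.Adj u p) :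
    L u u = L u p + ff θ (L p u) := by
  rw [bps_self h hL u, hL u p]
  have hp : p ∈ nb G u := (mem_nb h u p).2 hup
  rw [← Finset.add_sum_erase _ _ hp]
  ring

theorem bps_tanh {V : Type u} {G : SimpleGraph V} {d : ℕ} {θ : ℝ} (h : Crit G d θ) {y : V → ℝ}
    {L : V → V → ℝ} (hL : BPS G θ y L) {u p : V} (hup : G.Adj u p) :
    Real.tanh (L u u) = (Real.tanh (L u p) + θ * Real.tanh (L p u))
      / (1 + θ * Real.tanh (L u p) * Real.tanh (L p u)) := by
  rw [bps_edge h hL hup, tanh_add', tanh_ff h.pos h.lt_one]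
  congr 1
  ring

section real

variable {θ M X : ℝ}

theorem den_pos (h0 : 0 < θ) (h1 : θ < 1) (hM : -1 < M) (hM' : M < 1) (hX : -1 < X) (hX' : X < 1) :
    0 < 1 + θ * M * X := by
  have h2 : |θ * M * X| < 1 := by
    rw [abs_mul, abs_mul, abs_of_pos h0]
    have h3 : |M| < 1 := abs_lt.2 ⟨hM, hM'⟩
    have h4 : |X| < 1 := abs_lt.2 ⟨hX, hX'⟩
    have h5 : θ * |M| ≤ θ := by nlinarith [abs_nonneg M]
    have h6 : θ * |M| * |X| ≤ θ * |M| := by
      have : 0 ≤ θ * |M| := by positivity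
      nlinarith [abs_nonneg X]
    linarith
  linarith [(abs_lt.1 h2).1]

theorem den2_pos (h0 : 0 < θ) (h1 : θ < 1) (hM : -1 < M) (hM' : M < 1) :
    0 < 1 - θ ^ 2 * M ^ 2 := by
  have h3 : θ ^ 2 < 1 := by nlinarith
  have h4 : M ^ 2 < 1 := by nlinarith
  nlinarith [sq_nonneg θ, sq_nonneg M]

/-- the magnetisation at one end is an affine function of that at the other end -/
theorem affine_edge (h0 : 0 < θ) (h1 : θ < 1) (hM : -1 < M) (hM' : M < 1) (hX : -1 < X)
    (hX' : X < 1) :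
    (M + θ * X) / (1 + θ * M * X)
      = (M * (1 - θ ^ 2) + θ * (1 - M ^ 2) * ((X + θ * M) / (1 + θ * X * M)))
        / (1 - θ ^ 2 * M ^ 2) := by
  have h2 := den_pos h0 h1 hM hM' hX hX'
  have h3 := den2_pos h0 h1 hM hM'
  rw [show 1 + θ * X * M = 1 + θ * M * X by ring, eq_div_iff h3.ne', div_mul_eq_mul_div,
    div_eq_iff h2.ne']
  have e : (X + θ * M) / (1 + θ * M * X) * (1 + θ * M * X) = X + θ * M :=
    div_mul_cancel₀ _ h2.ne'
  linear_combination (-(θ * (1 - M ^ 2))) * e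

theorem one_sub_sq (h0 : 0 < θ) (h1 : θ < 1) (hM : -1 < M) (hM' : M < 1) (hX : -1 < X)
    (hX' : X < 1) :
    1 - ((M + θ * X) / (1 + θ * M * X)) ^ 2
      = (1 - M ^ 2) * (1 - θ ^ 2 * X ^ 2) / (1 + θ * M * X) ^ 2 := by
  have h2 := den_pos h0 h1 hM hM' hX hX'
  rw [div_pow, eq_div_iff (by positivity), sub_mul, div_mul_cancel₀ _ (by positivity)]
  ring

theorem tt_pos (h0 : 0 < θ) (h1 : θ < 1) (hM : -1 < M) (hM' : M < 1) : 0 < tt θ (M ^ 2) := by
  unfold tt
  have h3 := den2_pos h0 h1 hM hM'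
  have h4 : 0 < 1 - M ^ 2 := by nlinarith
  positivity

theorem tt_le_one (h0 : 0 < θ) (h1 : θ < 1) (hM : -1 < M) (hM' : M < 1) : tt θ (M ^ 2) ≤ 1 := by
  unfold tt
  have h3 := den2_pos h0 h1 hM hM'
  rw [div_le_one h3]
  have h3 : θ ^ 2 < 1 := by nlinarith
  nlinarith [sq_nonneg M]

theorem exp_gg (h0 : 0 < θ) (h1 : θ < 1) (hM : -1 < M) (hM' : M < 1) :
    Real.exp (-gg θ (M ^ 2)) = √(tt θ (M ^ 2)) := by
  have h := tt_pos h0 h1 hM hM'
  unfold gg
  rw [Real.sqrt_eq_rpow, Real.rpow_def_of_pos h]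
  congr 1
  ring

end real

theorem exp_ell {θ : ℝ} (h0 : 0 < θ) (h1 : θ < 1) {V : Type u} (L : V → V → ℝ) (u p : V) :
    Real.exp (-ell θ L u p)
      = √(tt θ (Real.tanh (L u p) ^ 2)) * √(tt θ (Real.tanh (L p u) ^ 2)) := by
  rw [ell, neg_add, Real.exp_add, exp_gg h0 h1 (lt_tanh _) (tanh_lt _),
    exp_gg h0 h1 (lt_tanh _) (tanh_lt _)]

theorem ell_comm {θ : ℝ} {V : Type u} (L : V → V → ℝ) (u p : V) : ell θ L u p = ell θ L p u := by
  rw [ell, ell, add_comm]

/-- the weight of an edge changes the base point -/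
theorem bet_edge {V : Type u} {G : SimpleGraph V} {d : ℕ} {θ : ℝ} (h : Crit G d θ) {y : V → ℝ}
    {L : V → V → ℝ} (hL : BPS G θ y L) {u p : V} (hup : G.Adj u p) :
    bet L u * Real.exp (-ell θ L u p) = tt θ (Real.tanh (L u p) ^ 2) * bet L p := by
  have h0 := h.pos
  have h1 := h.lt_one
  rw [exp_ell h0 h1]
  have e1 := bps_tanh h hL hup
  have e2 := bps_tanh h hL hup.symm
  obtain ⟨M, hM⟩ : ∃ M, M = Real.tanh (L u p) := ⟨_, rfl⟩
  obtain ⟨X, hX⟩ : ∃ X, X = Real.tanh (L p u) := ⟨_, rfl⟩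
  have a1 := lt_tanh (L u p)
  have a2 := tanh_lt (L u p)
  have a3 := lt_tanh (L p u)
  have a4 := tanh_lt (L p u)
  rw [← hM] at a1 a2
  rw [← hX] at a3 a4
  unfold bet
  rw [e1, e2, ← hM, ← hX, one_sub_sq h0 h1 a1 a2 a3 a4, one_sub_sq h0 h1 a3 a4 a1 a2]
  have t1 := tt_pos h0 h1 a1 a2
  have t2 := tt_pos h0 h1 a3 a4
  have d1 := den_pos h0 h1 a1 a2 a3 a4
  have d2 := den2_pos h0 h1 a1 a2
  have d3 := den2_pos h0 h1 a3 a4
  have p1 : 0 < 1 - M ^ 2 := by nlinarith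
  have p2 : 0 < 1 - X ^ 2 := by nlinarith
  have key : √((1 - M ^ 2) * (1 - θ ^ 2 * X ^ 2) / (1 + θ * M * X) ^ 2) * √(tt θ (X ^ 2))
      = √(tt θ (M ^ 2)) * √((1 - X ^ 2) * (1 - θ ^ 2 * M ^ 2) / (1 + θ * X * M) ^ 2) := by
    rw [← Real.sqrt_mul (by positivity), ← Real.sqrt_mul (by positivity)]
    congr 1
    unfold tt
    have : 1 + θ * X * M = 1 + θ * M * X := by ring
    rw [this, div_mul_div_comm, div_mul_div_comm, div_eq_div_iff (by positivity) (by positivity)]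
    ring
  calc _ = √(tt θ (M ^ 2)) * (√((1 - M ^ 2) * (1 - θ ^ 2 * X ^ 2) / (1 + θ * M * X) ^ 2)
        * √(tt θ (X ^ 2))) := by ring
    _ = (√(tt θ (M ^ 2)) * √(tt θ (M ^ 2)))
        * √((1 - X ^ 2) * (1 - θ ^ 2 * M ^ 2) / (1 + θ * X * M) ^ 2) := by rw [key]; ring
    _ = _ := by rw [Real.mul_self_sqrt t1.le]

open Classical in
theorem SS_cons {V : Type u} {G : SimpleGraph V} {θ : ℝ} (hG : G.IsTree) (L : V → V → ℝ)
    {v v' w : V} (hv : G.Adj v v') (hd : G.dist v w = G.dist v' w + 1) :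
    SS G θ L v w = ell θ L v v' + SS G θ L v' w := by
  unfold SS
  rw [hd, Finset.sum_range_succ', add_comm]
  congr 1
  · rw [gp_zero hG, gp_cons hG hv hd (by omega), gp_zero hG]
  · apply Finset.sum_congr rfl
    intro i hi
    have hi' := Finset.mem_range.1 hi
    rw [gp_cons hG hv hd (i := i + 1) (by omega), gp_cons hG hv hd (i := i) (by omega)]

/-- recursion for the covariance along an edge towards `w` -/
theorem cov_cons {V : Type u} {G : SimpleGraph V} {d : ℕ} {θ : ℝ} (h : Crit G d θ) {y : V → ℝ}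
    {L : V → V → ℝ} (hL : BPS G θ y L) {v v' w : V} (hv : G.Adj v v')
    (hd : G.dist v w = G.dist v' w + 1) :
    cov G θ L v w = θ * tt θ (Real.tanh (L v v') ^ 2) * cov G θ L v' w := by
  unfold cov
  rw [SS_cons h.tree L hv hd, hd, neg_add, Real.exp_add]
  have := bet_edge h hL hv
  calc _ = (bet L v * Real.exp (-ell θ L v v')) * bet L w * θ ^ (G.dist v' w + 1)
        * Real.exp (-SS G θ L v' w) := by ring
    _ = _ := by rw [this]; ring

theorem cov_self {V : Type u} {G : SimpleGraph V} (θ : ℝ) (L : V → V → ℝ) (w : V) :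
    cov G θ L w w = 1 - Real.tanh (L w w) ^ 2 := by
  have h1 := tanh_sq_lt (L w w)
  unfold cov SS bet
  rw [G.dist_self, Finset.range_zero, Finset.sum_empty, Real.mul_self_sqrt (by linarith)]
  simp

end Vale.Agent.P161C
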