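import Vale.Agent.P161C.Plan
import Vale.Agent.P161C.Alg

/-!
# ALG2: the jump identity
-/

namespace Vale.Agent.P161C

open MeasureTheory Vale.Agent.P161 Filter Topology

universe u

theorem alg2 : S_ALG2.{u} := by
  intro V G d θ h y y' L L' w ψ hL hL' hy hout v
  have h0 := h.pos
  have h1 := h.lt_one
  obtain ⟨n, hn⟩ : ∃ n, n = G.dist v w := ⟨_, rfl⟩
  induction n generalizing v with
  | zero =>
    have hv : v = w := h.tree.connected.dist_eq_zero_iff.1 hn.symm
    subst hv
    have e1 : L' v v = L v v + ψ := by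
      rw [bps_self h hL' v, bps_self h hL v, hy v, if_pos rfl]
      have : ∑ c ∈ nb G v, ff θ (L' c v) = ∑ c ∈ nb G v, ff θ (L c v) := by
        apply Finset.sum_congr rfl
        intro c hc
        have hvc := (mem_nb h v c).1 hc
        rw [hout c v hvc.symm (by rw [G.dist_self, SimpleGraph.dist_eq_one_iff_adj.2 hvc])]
      rw [this]
      ring
    rw [e1, tanh_add', cov_self]
    have hden : 1 + Real.tanh (L v v) * Real.tanh ψ ≠ 0 := by
      have a1 := lt_tanh (L v v)
      have a2 := tanh_lt (L v v)
      have a3 := lt_tanh ψ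
      have a4 := tanh_lt ψ
      have : |Real.tanh (L v v) * Real.tanh ψ| < 1 := by
        rw [abs_mul]
        have b1 : |Real.tanh (L v v)| < 1 := abs_lt.2 ⟨a1, a2⟩
        have b2 : |Real.tanh ψ| < 1 := abs_lt.2 ⟨a3, a4⟩
        have b3 := abs_nonneg (Real.tanh (L v v))
        have b4 := abs_nonneg (Real.tanh ψ)
        nlinarith
      have := (abs_lt.1 this).1
      linarith
    rw [eq_div_iff hden, sub_mul, div_mul_cancel₀ _ hden]
    ring
  | succ n ih =>
    obtain ⟨v', ha, hv'⟩ := exists_closer h.tree.connected hn.symm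
    have hd : G.dist v w = G.dist v' w + 1 := by omega
    have hM : L' v v' = L v v' := by
      apply hout v v' ha
      rw [G.dist_comm (u := w), G.dist_comm (u := w)]
      exact hd
    have ih' := ih v' hv'.symm
    rw [cov_cons h hL ha hd]
    have e1 := bps_tanh h hL ha
    have e2 := bps_tanh h hL' ha
    have e3 := bps_tanh h hL ha.symm
    have e4 := bps_tanh h hL' ha.symm
    rw [hM] at e2 e4
    have aM := lt_tanh (L v v')
    have aM' := tanh_lt (L v v')
    rw [affine_edge h0 h1 aM aM' (lt_tanh _) (tanh_lt _), ← e3] at e1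
    rw [affine_edge h0 h1 aM aM' (lt_tanh _) (tanh_lt _), ← e4] at e2
    rw [e1, e2]
    have d2 := den2_pos h0 h1 aM aM'
    have e5 : (Real.tanh (L v v') * (1 - θ ^ 2)
          + θ * (1 - Real.tanh (L v v') ^ 2) * Real.tanh (L' v' v'))
          / (1 - θ ^ 2 * Real.tanh (L v v') ^ 2)
        - (Real.tanh (L v v') * (1 - θ ^ 2)
          + θ * (1 - Real.tanh (L v v') ^ 2) * Real.tanh (L v' v'))
          / (1 - θ ^ 2 * Real.tanh (L v v') ^ 2)
        = θ * tt θ (Real.tanh (L v v') ^ 2)
          * (Real.tanh (L' v' v') - Real.tanh (L v' v')) := by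
      unfold tt
      rw [← sub_div, mul_div_assoc']
      rw [div_mul_eq_mul_div]
      congr 1
      ring
    rw [e5, ih']
    ring

end Vale.Agent.P161C
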