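import Vale.Agent.P161C.Plan
import Vale.Agent.P161C.Alg

/-!
# ALG3: elementary properties of `cov` and `ell`
-/

namespace Vale.Agent.P161C

open MeasureTheory Vale.Agent.P161 Filter Topology

universe u

theorem gg_nonneg {θ M : ℝ} (h0 : 0 < θ) (h1 : θ < 1) (hM : -1 < M) (hM' : M < 1) :
    0 ≤ gg θ (M ^ 2) := by
  have h2 := tt_pos h0 h1 hM hM'
  have h3 := tt_le_one h0 h1 hM hM'
  have h4 := Real.log_nonpos h2.le h3
  unfold gg
  linarith

theorem ell_nonneg {θ : ℝ} (h0 : 0 < θ) (h1 : θ < 1) {V : Type u} (L : V → V → ℝ) (u p : V) :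
    0 ≤ ell θ L u p :=
  add_nonneg (gg_nonneg h0 h1 (lt_tanh _) (tanh_lt _)) (gg_nonneg h0 h1 (lt_tanh _) (tanh_lt _))

theorem tt_le {θ M : ℝ} (h0 : 0 < θ) (h1 : θ < 1) (hM : -1 < M) (hM' : M < 1) :
    tt θ (M ^ 2) ≤ 1 - (1 - θ ^ 2) * M ^ 2 := by
  have h2 := den2_pos h0 h1 hM hM'
  unfold tt
  rw [div_le_iff₀ h2]
  have h3 : 0 ≤ θ ^ 2 * (1 - θ ^ 2) * (M ^ 2) ^ 2 := by
    have : 0 ≤ 1 - θ ^ 2 := by nlinarith
    positivity
  nlinarith

theorem exp_neg_two_ell_le {θ : ℝ} (h0 : 0 < θ) (h1 : θ < 1) {V : Type u} (L : V → V → ℝ)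
    (u p : V) : Real.exp (-2 * ell θ L u p) ≤ 1 - (1 - θ ^ 2) * Real.tanh (L p u) ^ 2 := by
  have e : Real.exp (-2 * ell θ L u p) = Real.exp (-ell θ L u p) ^ 2 := by
    rw [← Real.exp_nat_mul]
    congr 1
    push_cast
    ring
  have t1 := tt_pos h0 h1 (lt_tanh (L u p)) (tanh_lt (L u p))
  have t2 := tt_pos h0 h1 (lt_tanh (L p u)) (tanh_lt (L p u))
  have t3 := tt_le_one h0 h1 (lt_tanh (L u p)) (tanh_lt (L u p))
  have t4 := tt_le h0 h1 (lt_tanh (L p u)) (tanh_lt (L p u))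
  rw [e, exp_ell h0 h1, mul_pow, Real.sq_sqrt t1.le, Real.sq_sqrt t2.le]
  nlinarith

theorem SS_comm {V : Type u} {G : SimpleGraph V} {θ : ℝ} (hG : G.IsTree) (L : V → V → ℝ)
    (v w : V) : SS G θ L v w = SS G θ L w v := by
  unfold SS
  rw [G.dist_comm (u := w) (v := v)]
  rw [← Finset.sum_range_reflect]
  apply Finset.sum_congr rfl
  intro i hi
  have hi' := Finset.mem_range.1 hi
  rw [ell_comm]
  have e1 := gp_rev hG v w (i := G.dist v w - 1 - i) (by omega)
  have e2 := gp_rev hG v w (i := G.dist v w - 1 - i + 1) (by omega)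
  rw [← e1, ← e2]
  have f1 : G.dist v w - (G.dist v w - 1 - i) = i + 1 := by omega
  have f2 : G.dist v w - (G.dist v w - 1 - i + 1) = i := by omega
  rw [f1, f2]

theorem bet_nonneg {V : Type u} (L : V → V → ℝ) (v : V) : 0 ≤ bet L v := Real.sqrt_nonneg _

theorem bet_le_one {V : Type u} (L : V → V → ℝ) (v : V) : bet L v ≤ 1 := by
  unfold bet
  rw [Real.sqrt_le_one]
  have := sq_nonneg (Real.tanh (L v v))
  linarith

theorem SS_nonneg {V : Type u} {G : SimpleGraph V} {θ : ℝ} (h0 : 0 < θ) (h1 : θ < 1)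
    (L : V → V → ℝ) (v w : V) : 0 ≤ SS G θ L v w :=
  Finset.sum_nonneg fun _ _ => ell_nonneg h0 h1 _ _ _

theorem cov_nonneg {V : Type u} {G : SimpleGraph V} {θ : ℝ} (h0 : 0 < θ) (L : V → V → ℝ)
    (v w : V) : 0 ≤ cov G θ L v w := by
  unfold cov
  have := bet_nonneg L v
  have := bet_nonneg L w
  positivity

theorem exp_neg_two_SS_le {V : Type u} {G : SimpleGraph V} {θ : ℝ} (h0 : 0 < θ) (h1 : θ < 1)
    (L : V → V → ℝ) (v w : V) :
    Real.exp (-2 * SS G θ L v w) ≤ pw G θ (fun _ u p => Real.tanh (L u p)) v w := by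
  unfold SS pw
  rw [Finset.mul_sum, Real.exp_sum]
  apply Finset.prod_le_prod
  · intro i _
    exact (Real.exp_pos _).le
  · intro i _
    exact exp_neg_two_ell_le h0 h1 L _ _

theorem alg3 : S_ALG3.{u} := by
  intro V G d θ h
  have h0 := h.pos
  have h1 := h.lt_one
  refine ⟨fun L u p => ⟨ell_nonneg h0 h1 L u p, exp_neg_two_ell_le h0 h1 L u p⟩,
    fun L v w => ⟨cov_nonneg h0 L v w, ?_, ?_⟩⟩
  · unfold cov
    rw [SS_comm h.tree, G.dist_comm]
    ring
  · have e : cov G θ L v w ^ 2 = (bet L v * bet L w) ^ 2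
        * (θ ^ (2 * G.dist v w) * Real.exp (-2 * SS G θ L v w)) := by
      unfold cov
      have : Real.exp (-2 * SS G θ L v w) = Real.exp (-SS G θ L v w) ^ 2 := by
        rw [← Real.exp_nat_mul]
        congr 1
        push_cast
        ring
      rw [this, pow_mul']
      ring
    rw [e]
    have b1 := bet_nonneg L v
    have b2 := bet_nonneg L w
    have b3 := bet_le_one L v
    have b4 := bet_le_one L w
    have b5 : (bet L v * bet L w) ^ 2 ≤ 1 := by
      have : bet L v * bet L w ≤ 1 := by nlinarith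
      have : 0 ≤ bet L v * bet L w := by positivity
      nlinarith
    have b6 := exp_neg_two_SS_le (G := G) h0 h1 L v w
    have b7 : θ ^ (2 * G.dist v w) * Real.exp (-2 * SS G θ L v w)
        ≤ θ ^ (2 * G.dist v w) * pw G θ (fun _ u p => Real.tanh (L u p)) v w :=
      mul_le_mul_of_nonneg_left b6 (by positivity)
    have b8 : 0 ≤ θ ^ (2 * G.dist v w) * Real.exp (-2 * SS G θ L v w) := by positivity
    calc _ ≤ 1 * (θ ^ (2 * G.dist v w) * Real.exp (-2 * SS G θ L v w)) :=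
          mul_le_mul_of_nonneg_right b5 b8
      _ ≤ _ := by rw [one_mul]; exact b7

end Vale.Agent.P161C
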