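import Vale.Agent.P161C.Defs
import Vale.Agent.P161.Tree

/-!
# Geodesics in a tree: the vertices `gp G v w i`
-/

namespace Vale.Agent.P161C

open MeasureTheory Vale.Agent.P161 Filter Topology

universe u

variable {V : Type u} {G : SimpleGraph V}

theorem geo_unique (hG : G.IsTree) {v w x x' : V}
    (h1 : G.dist v x + G.dist x w = G.dist v w) (h2 : G.dist v x' + G.dist x' w = G.dist v w)
    (h : G.dist v x = G.dist v x') : x = x' := by
  obtain ⟨p, hp⟩ := hG.connected.exists_walk_length_eq_dist v x
  obtain ⟨q, hq⟩ := hG.connected.exists_walk_length_eq_dist x w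
  obtain ⟨p', hp'⟩ := hG.connected.exists_walk_length_eq_dist v x'
  obtain ⟨q', hq'⟩ := hG.connected.exists_walk_length_eq_dist x' w
  have e1 : (p.append q).length = G.dist v w := by
    rw [SimpleGraph.Walk.length_append]; omega
  have e2 : (p'.append q').length = G.dist v w := by
    rw [SimpleGraph.Walk.length_append]; omega
  have a1 := SimpleGraph.Walk.isPath_of_length_eq_dist _ e1
  have a2 := SimpleGraph.Walk.isPath_of_length_eq_dist _ e2
  have : (⟨_, a1⟩ : G.Path v w) = ⟨_, a2⟩ := (hG.isAcyclic.subsingleton_path v w).elim _ _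
  have h3 : p.append q = p'.append q' := congrArg Subtype.val this
  have h4 := congrArg (fun r : G.Walk v w => r.getVert (G.dist v x)) h3
  simp only [SimpleGraph.Walk.getVert_append, hp, hp', h, lt_irrefl, if_false, Nat.sub_self,
    SimpleGraph.Walk.getVert_zero] at h4
  exact h4

theorem exists_geo (hG : G.IsTree) (v w : V) {i : ℕ} (hi : i ≤ G.dist v w) :
    ∃ x, G.dist v x = i ∧ G.dist v x + G.dist x w = G.dist v w := by
  obtain ⟨n, hn⟩ : ∃ n, n = G.dist v w := ⟨_, rfl⟩
  induction i generalizing v n with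
  | zero => exact ⟨v, by simp, by simp⟩
  | succ i ih =>
    obtain ⟨m, rfl⟩ : ∃ m, n = m + 1 := ⟨n - 1, by omega⟩
    obtain ⟨v', h1, h2⟩ := exists_closer hG.connected hn.symm
    obtain ⟨x, h3, h4⟩ := ih v' (by omega) m h2.symm
    have t1 := hG.connected.dist_triangle (u := v) (v := v') (w := x)
    rw [SimpleGraph.dist_eq_one_iff_adj.2 h1] at t1
    have t2 := hG.connected.dist_triangle (u := v) (v := x) (w := w)
    exact ⟨x, by omega, by omega⟩

theorem gp_spec (hG : G.IsTree) {v w : V} {i : ℕ} (hi : i ≤ G.dist v w) :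
    G.dist v (gp G v w i) = i ∧ G.dist v (gp G v w i) + G.dist (gp G v w i) w = G.dist v w := by
  unfold gp
  rw [dif_pos (exists_geo hG v w hi)]
  exact (exists_geo hG v w hi).choose_spec

theorem gp_eq (hG : G.IsTree) {v w x : V} {i : ℕ} (h1 : G.dist v x = i)
    (h2 : G.dist v x + G.dist x w = G.dist v w) : gp G v w i = x := by
  have h := gp_spec hG (v := v) (w := w) (i := i) (by omega)
  exact geo_unique hG h.2 h2 (h.1.trans h1.symm)

theorem gp_zero (hG : G.IsTree) (v w : V) : gp G v w 0 = v :=
  gp_eq hG (by simp) (by simp)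

theorem gp_last (hG : G.IsTree) (v w : V) : gp G v w (G.dist v w) = w :=
  gp_eq hG rfl (by simp)

/-- prepend a vertex -/
theorem gp_cons (hG : G.IsTree) {v v' w : V} (h : G.Adj v v') (hd : G.dist v w = G.dist v' w + 1)
    {i : ℕ} (hi : i ≤ G.dist v' w) : gp G v w (i + 1) = gp G v' w i := by
  have h1 := gp_spec hG hi
  have t1 := hG.connected.dist_triangle (u := v) (v := v') (w := gp G v' w i)
  rw [SimpleGraph.dist_eq_one_iff_adj.2 h] at t1
  have t2 := hG.connected.dist_triangle (u := v) (v := gp G v' w i) (w := w)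
  exact gp_eq hG (by omega) (by omega)

/-- append a vertex -/
theorem gp_snoc (hG : G.IsTree) {v w w' : V} (h : G.Adj w w') (hd : G.dist v w' = G.dist v w + 1)
    {i : ℕ} (hi : i ≤ G.dist v w) : gp G v w' i = gp G v w i := by
  have h1 := gp_spec hG hi
  have t1 := hG.connected.dist_triangle (u := gp G v w i) (v := w) (w := w')
  rw [SimpleGraph.dist_eq_one_iff_adj.2 h] at t1
  have t2 := hG.connected.dist_triangle (u := v) (v := gp G v w i) (w := w')
  exact gp_eq hG (by omega) (by omega)

/-- reverse a geodesic -/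
theorem gp_rev (hG : G.IsTree) (v w : V) {i : ℕ} (hi : i ≤ G.dist v w) :
    gp G w v (G.dist v w - i) = gp G v w i := by
  have h1 := gp_spec hG hi
  have c1 := G.dist_comm (u := w) (v := gp G v w i)
  have c2 := G.dist_comm (u := w) (v := v)
  have c3 := G.dist_comm (u := gp G v w i) (v := v)
  exact gp_eq hG (by omega) (by omega)

theorem gp_adj (hG : G.IsTree) {v w : V} {i : ℕ} (hi : i < G.dist v w) :
    G.Adj (gp G v w i) (gp G v w (i + 1)) := by
  obtain ⟨n, hn⟩ : ∃ n, n = G.dist v w := ⟨_, rfl⟩
  induction i generalizing v n with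
  | zero =>
    obtain ⟨m, rfl⟩ : ∃ m, n = m + 1 := ⟨n - 1, by omega⟩
    obtain ⟨v', h1, h2⟩ := exists_closer hG.connected hn.symm
    rw [gp_zero hG, gp_cons hG h1 (by omega) (by omega), gp_zero hG]
    exact h1
  | succ i ih =>
    obtain ⟨m, rfl⟩ : ∃ m, n = m + 1 := ⟨n - 1, by omega⟩
    obtain ⟨v', h1, h2⟩ := exists_closer hG.connected hn.symm
    rw [gp_cons hG h1 (by omega) (i := i + 1) (by omega), gp_cons hG h1 (by omega) (by omega)]
    exact ih (by omega) m h2.symm

/-- distances from a third vertex: `gp G v w i` for an automorphism -/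
theorem gp_map (hG : G.IsTree) (g : G ≃g G) {v w : V} {i : ℕ} (hi : i ≤ G.dist v w) :
    gp G (g v) (g w) i = g (gp G v w i) := by
  have hd : ∀ a b : V, G.dist (g a) (g b) = G.dist a b := by
    intro a b
    have h1 : ∀ (f : G ≃g G) (a b : V), G.dist (f a) (f b) ≤ G.dist a b := by
      intro f a b
      obtain ⟨p, hp⟩ := hG.connected.exists_walk_length_eq_dist a b
      rw [← hp]
      have := SimpleGraph.dist_le (p.map f.toHom)
      rw [SimpleGraph.Walk.length_map] at this
      exact this
    apply le_antisymm (h1 g a b)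
    have := h1 g.symm (g a) (g b)
    simpa using this
  have h1 := gp_spec hG hi
  exact gp_eq hG (by rw [hd]; exact h1.1) (by rw [hd, hd, hd]; exact h1.2)

end Vale.Agent.P161C
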