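import Vale.Agent.P161C.Post

/-!
# P161 critical point: assembly
-/

namespace Vale.Agent.P161C

open MeasureTheory Vale.Agent.P161 Filter Topology PO

universe u

/-- the conditional variance of a variable bounded by one is at most one -/
lemma condVar_le_one {Ω : Type*} {m m0 : MeasurableSpace Ω} {P : Measure Ω}
    [IsProbabilityMeasure P] (hm : m ≤ m0) {f : Ω → ℝ} (hf : Measurable f) (hb : ∀ x, |f x| ≤ 1) :
    ∫ x, (f x - (P[f | m]) x) ^ 2 ∂P ≤ 1 := by
  have hfi : Integrable f P := integrable_bdd hf hb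
  have hMm : StronglyMeasurable[m] (P[f | m]) := stronglyMeasurable_condExp
  have hMb : ∀ᵐ x ∂P, |(P[f | m]) x| ≤ 1 := by
    have h1 : P[f | m] ≤ᵐ[P] P[fun _ => (1 : ℝ) | m] :=
      condExp_mono hfi (integrable_const _) (Eventually.of_forall fun x => (abs_le.1 (hb x)).2)
    have h2 : P[fun _ => (-1 : ℝ) | m] ≤ᵐ[P] P[f | m] :=
      condExp_mono (integrable_const _) hfi (Eventually.of_forall fun x => (abs_le.1 (hb x)).1)
    rw [condExp_const hm] at h1 h2
    filter_upwards [h1, h2] with x h3 h4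
    exact abs_le.2 ⟨h4, h3⟩
  -- clipped version
  set W : Ω → ℝ := fun x => max (-1) (min 1 ((P[f | m]) x)) with hW
  have hWm : Measurable[m] W := by
    have : Measurable[m] (P[f | m]) := hMm.measurable
    exact Measurable.max measurable_const (Measurable.min measurable_const this)
  have hWb : ∀ x, |W x| ≤ 1 := by
    intro x
    rw [abs_le]
    exact ⟨le_max_left _ _, max_le (by norm_num) (min_le_left _ _)⟩
  have hWe : W =ᵐ[P] P[f | m] := by
    filter_upwards [hMb] with x hx
    have h := abs_le.1 hx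
    show max (-1) (min 1 ((P[f | m]) x)) = _
    rw [min_eq_right h.2, max_eq_right h.1]
  have h0 := orth hm hfi hWm hWb hWe
  have hWm' : Measurable W := hWm.mono hm le_rfl
  have e : ∫ x, (f x - (P[f | m]) x) ^ 2 ∂P = ∫ x, ((f x) ^ 2 - W x ^ 2 - 2 * ((f x - W x) * W x)) ∂P := by
    apply integral_congr_ae
    filter_upwards [hWe] with x hx
    rw [← hx]; ring
  have i1 : Integrable (fun x => (f x) ^ 2) P := integrable_bdd (hf.pow_const 2) (B := 1) fun x => by
    rw [abs_pow]; exact pow_le_one₀ (abs_nonneg _) (hb x)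
  have i2 : Integrable (fun x => W x ^ 2) P := integrable_bdd (hWm'.pow_const 2) (B := 1) fun x => by
    rw [abs_pow]; exact pow_le_one₀ (abs_nonneg _) (hWb x)
  have i3 : Integrable (fun x => (f x - W x) * W x) P :=
    integrable_bdd ((hf.sub hWm').mul hWm') (B := 2 * 1) fun x => by
      rw [abs_mul]
      apply mul_le_mul _ (hWb x) (abs_nonneg _) (by norm_num)
      have h1 := abs_le.1 (hb x)
      have h2 := abs_le.1 (hWb x)
      rw [abs_le]; constructor <;> linarith [h1.1, h1.2, h2.1, h2.2]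
  have i12 : Integrable (fun x => (f x) ^ 2 - W x ^ 2) P := i1.sub i2
  have i3' : Integrable (fun x => 2 * ((f x - W x) * W x)) P := i3.const_mul 2
  rw [e, integral_sub i12 i3', integral_sub i1 i2, integral_const_mul, h0]
  have h1 : ∫ x, (f x) ^ 2 ∂P ≤ 1 := by
    calc ∫ x, (f x) ^ 2 ∂P ≤ ∫ _, (1 : ℝ) ∂P := by
          apply integral_mono i1 (integrable_const _)
          intro x
          show f x ^ 2 ≤ 1
          rw [← sq_abs]; exact pow_le_one₀ (abs_nonneg _) (hb x)
      _ = 1 := by simp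
  have h2 : 0 ≤ ∫ x, W x ^ 2 ∂P := integral_nonneg fun x => sq_nonneg _
  linarith

lemma meas_mt (hBASE : S_BASE.{u}) {V : Type u} {G : SimpleGraph V} {d : ℕ} {θ : ℝ}
    (h : Crit G d θ) (s : ℝ) (o : V) : Measurable fun ω : Om V => mt G θ s ω o := by
  have h1 := (hBASE h).1 o o
  have h2 : Measurable fun ω : Om V => (s, ω) := measurable_prodMk_left
  have h3 := h1.comp h2
  have e : (fun ω : Om V => mt G θ s ω o)
      = Real.tanh ∘ ((fun q : ℝ × Om V => Lt G θ q.1 q.2 o o) ∘ fun ω => (s, ω)) := rfl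
  rw [e]
  exact measurable_tanh.comp h3

theorem asm (hDYN : S_DYN.{u}) (hGRON : S_GRON) (hFIN : S_FIN.{u}) (hEQUI : S_EQUI.{u})
    (hBASE : S_BASE.{u}) {V : Type u} {G : SimpleGraph V} {d : ℕ} {θ : ℝ} (h : Crit G d θ)
    {μ : Measure (V → Bool)} (hμ : IsFreeIsing G θ μ) : IsFactorOfIID G μ := by
  apply hFIN h hμ
  intro o T hT
  have hne : Nonempty V := ⟨o⟩
  have hprob : IsProbabilityMeasure μ := isProb_of_isFreeIsing hμ
  have hpp : IsProbabilityMeasure (PP μ) := by unfold PP; infer_instance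
  obtain ⟨C, Cq, Q, ρ, hC, hCq, hρ, hQ, hineq⟩ := hDYN h T hT hμ o
  have hinv := (hEQUI h).2.2.2.1
  refine hGRON T (fun s => hG G θ μ (GG G θ s) o s) Q ρ C Cq hT hC hCq hρ ?_ hQ hineq
  intro s
  constructor
  · exact integral_nonneg fun ω => sq_nonneg _
  · exact condVar_le_one (hinv s).le (meas_mt hBASE h s o) fun ω => (Real.abs_tanh_lt_one _).le

end Vale.Agent.P161C
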