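import Vale.Agent.P161C.Plan

/-!
# P161 critical point: basic facts about `at'`, `ff`, `msg`
-/

namespace Vale.Agent.P161C.PO

open MeasureTheory Vale.Agent.P161 Filter Topology

universe u

lemma at'_eq {x : ℝ} (hx : |x| < 1) : at' x = Real.artanh x := by
  have h := abs_lt.1 hx
  rw [Real.artanh_eq_half_log ⟨h.1.le, h.2.le⟩]
  unfold at'
  ring

lemma at'_tanh (x : ℝ) : at' (Real.tanh x) = x := by
  rw [at'_eq (Real.abs_tanh_lt_one x), Real.artanh_tanh]

lemma tanh_at' {x : ℝ} (hx : |x| < 1) : Real.tanh (at' x) = x := by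
  rw [at'_eq hx, Real.tanh_artanh ⟨(abs_lt.1 hx).1, (abs_lt.1 hx).2⟩]

lemma at'_neg (x : ℝ) : at' (-x) = - at' x := by
  unfold at'
  have : (1 + -x) / (1 - -x) = ((1 + x) / (1 - x))⁻¹ := by
    rw [inv_div, sub_neg_eq_add, ← sub_eq_add_neg]
  rw [this, Real.log_inv]
  ring

lemma at'_zero : at' 0 = 0 := by unfold at'; simp

lemma measurable_at' : Measurable at' := by
  unfold at'
  fun_prop

lemma continuousAt_at' {x : ℝ} (hx : |x| < 1) : ContinuousAt at' x := by
  have h := abs_lt.1 hx
  unfold at'
  have h1 : (1 - x) ≠ 0 := by linarith [h.2]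
  have h2 : (1 + x) / (1 - x) ≠ 0 := by
    apply div_ne_zero _ h1
    linarith [h.1]
  apply ContinuousAt.div_const
  have h3 : ContinuousAt (fun x : ℝ => (1 + x) / (1 - x)) x :=
    ContinuousAt.div (by fun_prop) (by fun_prop) h1
  exact ContinuousAt.log h3 h2

lemma continuous_tanh : Continuous Real.tanh := by
  have : Real.tanh = fun x => Real.sinh x / Real.cosh x := by
    funext x; exact Real.tanh_eq_sinh_div_cosh x
  rw [this]
  exact Real.continuous_sinh.div Real.continuous_cosh fun x => (Real.cosh_pos x).ne'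

lemma measurable_tanh : Measurable Real.tanh := continuous_tanh.measurable

lemma measurable_ff (θ : ℝ) : Measurable (ff θ) := by
  unfold ff
  exact measurable_at'.comp (measurable_tanh.const_mul θ)

lemma at'_mono {x y : ℝ} (hx : -1 < x) (hy : y < 1) (hxy : x ≤ y) : at' x ≤ at' y := by
  rw [at'_eq (abs_lt.2 ⟨hx, hxy.trans_lt hy⟩), at'_eq (abs_lt.2 ⟨hx.trans_le hxy, hy⟩)]
  exact Real.artanh_le_artanh hx hy hxy

lemma at'_nonneg {x : ℝ} (h0 : 0 ≤ x) (h1 : x < 1) : 0 ≤ at' x := by
  rw [← at'_zero]
  exact at'_mono (by norm_num) h1 h0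

lemma abs_at'_le {x r : ℝ} (hr : r < 1) (hx : |x| ≤ r) : |at' x| ≤ at' r := by
  have h := abs_le.1 hx
  rw [abs_le]
  constructor
  · rw [← at'_neg]
    exact at'_mono (by linarith) (by linarith [h.2]) h.1
  · exact at'_mono (by linarith [h.1]) hr h.2

lemma abs_ff_le {θ : ℝ} (h0 : 0 ≤ θ) (h1 : θ < 1) (l : ℝ) : |ff θ l| ≤ at' θ := by
  apply abs_at'_le h1
  rw [abs_mul, abs_of_nonneg h0]
  have := (Real.abs_tanh_lt_one l).le
  nlinarith

lemma ff_neg (θ l : ℝ) : ff θ (-l) = - ff θ l := by
  unfold ff
  rw [Real.tanh_neg, mul_neg, at'_neg]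

lemma continuous_ff {θ : ℝ} (h0 : 0 ≤ θ) (h1 : θ < 1) : Continuous (ff θ) := by
  rw [continuous_iff_continuousAt]
  intro l
  have h : |θ * Real.tanh l| < 1 := by
    rw [abs_mul, abs_of_nonneg h0]
    have := Real.abs_tanh_lt_one l
    have := abs_nonneg (Real.tanh l)
    nlinarith
  exact (continuousAt_at' h).comp (f := fun l => θ * Real.tanh l)
    (continuous_tanh.continuousAt.const_mul θ |> fun h => by simpa using h)

variable {V : Type u} {G : SimpleGraph V} {d : ℕ} {θ : ℝ}

lemma Crit.th_lt (h : Crit G d θ) : θ < 1 := by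
  have h1 := h.crit
  have h2 : (3 : ℝ) ≤ d := by exact_mod_cast h.hd
  by_contra h3
  push Not at h3
  nlinarith

lemma Crit.countable (h : Crit G d θ) : Countable V :=
  countable_tree h.tree.connected (by have := h.hd; omega) h.reg

lemma Crit.fin (h : Crit G d θ) (v : V) : (G.neighborSet v).Finite :=
  neighborSet_finite (by have := h.hd; omega) h.reg v

lemma Crit.mem_nb (h : Crit G d θ) {v w : V} : w ∈ nb G v ↔ G.Adj v w := by
  unfold nb
  rw [dif_pos (Crit.fin h v)]
  simp

lemma Crit.card_nb (h : Crit G d θ) (v : V) : (nb G v).card = d := by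
  rw [← h.reg v]
  unfold nb
  rw [dif_pos (Crit.fin h v)]
  exact (Set.ncard_eq_toFinset_card _ _).symm

open Classical in
lemma msg_succ (n : ℕ) (y : V → ℝ) (u p : V) :
    msg G θ (n + 1) y u p = y u + ∑ c ∈ (nb G u).erase p, ff θ (msg G θ n y c u) := rfl

lemma abs_msg_le (h : Crit G d θ) (n : ℕ) (y : V → ℝ) (u p : V) :
    |msg G θ n y u p| ≤ |y u| + d * at' θ := by
  classical
  have ha : 0 ≤ at' θ := at'_nonneg h.pos.le (Crit.th_lt h)
  cases n with
  | zero =>
    show |y u| ≤ _
    have : 0 ≤ (d : ℝ) * at' θ := by positivity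
    linarith
  | succ n =>
    rw [msg_succ]
    refine (abs_add_le _ _).trans (add_le_add le_rfl ?_)
    refine (Finset.abs_sum_le_sum_abs _ _).trans ?_
    refine (Finset.sum_le_card_nsmul _ _ (at' θ) fun c _ => abs_ff_le h.pos.le (Crit.th_lt h) _).trans ?_
    rw [nsmul_eq_mul]
    apply mul_le_mul_of_nonneg_right _ ha
    have : ((nb G u).erase p).card ≤ (nb G u).card := Finset.card_erase_le
    rw [Crit.card_nb h] at this
    exact_mod_cast this

lemma measurable_msg (θ : ℝ) (n : ℕ) (u p : V) : Measurable fun y : V → ℝ => msg G θ n y u p := by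
  classical
  induction n generalizing u p with
  | zero => exact measurable_pi_apply u
  | succ n ih =>
    simp only [msg_succ]
    refine (measurable_pi_apply u).add (Finset.measurable_sum _ fun c _ => ?_)
    exact (measurable_ff θ).comp (ih c u)

lemma side_step (h : Crit G d θ) {u p c w : V} (hup : G.Adj u p) (huc : G.Adj u c) (hcp : c ≠ p)
    (hw : w ∈ side G c u) : w ∈ side G u p := by
  have hw' : G.dist u w = G.dist c w + 1 := hw
  rcases dist_split h.tree hup w with h1 | h1
  · exact h1
  · exfalso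
    apply hcp
    apply closer_unique h.tree (r := w) huc hup hw' h1

lemma msg_congr (h : Crit G d θ) (n : ℕ) (y y' : V → ℝ) (u p : V) (hup : u = p ∨ G.Adj u p)
    (hy : ∀ w, G.dist u w ≤ n → (u = p ∨ w ∈ side G u p) → y w = y' w) :
    msg G θ n y u p = msg G θ n y' u p := by
  classical
  induction n generalizing u p with
  | zero =>
    show y u = y' u
    apply hy u (by simp)
    rcases hup with h1 | h1
    · exact Or.inl h1
    · exact Or.inr (self_mem_side h1)
  | succ n ih =>
    rw [msg_succ, msg_succ]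
    congr 1
    · apply hy u (by simp)
      rcases hup with h1 | h1
      · exact Or.inl h1
      · exact Or.inr (self_mem_side h1)
    · apply Finset.sum_congr rfl
      intro c hc
      rw [Finset.mem_erase, Crit.mem_nb h] at hc
      congr 1
      apply ih c u (Or.inr hc.2.symm)
      intro w hw1 hw2
      rcases hw2 with hw2 | hw2
      · exact absurd hw2.symm hc.2.ne
      · have hw3 : G.dist u w = G.dist c w + 1 := hw2
        apply hy w (by omega)
        rcases hup with h1 | h1
        · exact Or.inl h1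
        · exact Or.inr (side_step h h1 hc.2 hc.1 hw2)

/-- messages towards a non-neighbour -/
lemma msg_nonadj (h : Crit G d θ) (n : ℕ) (y : V → ℝ) {u p : V} (hup : ¬ G.Adj u p) :
    msg G θ n y u p = msg G θ n y u u := by
  classical
  cases n with
  | zero => rfl
  | succ n =>
    rw [msg_succ, msg_succ]
    have h1 : (nb G u).erase p = nb G u := by
      apply Finset.erase_eq_of_notMem
      rw [Crit.mem_nb h]; exact hup
    have h2 : (nb G u).erase u = nb G u := by
      apply Finset.erase_eq_of_notMem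
      rw [Crit.mem_nb h]; exact G.loopless.irrefl u
    rw [h1, h2]

/-- the limit of a convergent sequence of messages -/
lemma Lm_of_tendsto {y : V → ℝ} {u p : V} {l : ℝ}
    (h : Tendsto (fun n => msg G θ n y u p) atTop (𝓝 l)) : Lm G θ y u p = l := by
  unfold Lm
  rw [h.limsup_eq, h.liminf_eq]
  ring

/-- the BP equations in the limit -/
lemma BPS_of_tendsto (h : Crit G d θ) {y : V → ℝ}
    (hy : ∀ u p, Tendsto (fun n => msg G θ n y u p) atTop (𝓝 (Lm G θ y u p))) :
    BPS G θ y (Lm G θ y) := by
  classical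
  intro u p
  have h1 := (hy u p).comp (tendsto_add_atTop_nat 1)
  have h2 : Tendsto (fun n => msg G θ (n + 1) y u p) atTop
      (𝓝 (y u + ∑ c ∈ (nb G u).erase p, ff θ (Lm G θ y c u))) := by
    simp only [msg_succ]
    apply Tendsto.add tendsto_const_nhds
    apply tendsto_finsetSum
    intro c _
    exact ((continuous_ff h.pos.le (Crit.th_lt h)).tendsto _).comp (hy c u)
  exact tendsto_nhds_unique h1 h2

end Vale.Agent.P161C.PO
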