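import Vale.Agent.P161C.Bas

/-!
# P161 critical point, module BASE: measurability and deterministic bounds
-/

namespace Vale.Agent.P161C.BaseM

open MeasureTheory Vale.Agent.P161 Filter Topology
open Vale.Agent.P161C.PO

universe u

variable {V : Type u} {G : SimpleGraph V} {d : ℕ} {θ : ℝ}

lemma measurable_Lm (u p : V) : Measurable fun y : V → ℝ => Lm G θ y u p := by
  unfold Lm
  apply Measurable.div_const
  exact (Measurable.limsup fun n => measurable_msg θ n u p).add
    (Measurable.liminf fun n => measurable_msg θ n u p)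

lemma measurable_dl : Measurable dl := by
  unfold dl
  fun_prop

lemma measurable_Qc3 : Measurable fun p : ℝ × ℝ × I01 => Qc p.1 p.2.1 p.2.2 := by
  unfold Qc
  refine continuous_projIcc.measurable.comp ?_
  fun_prop

lemma measurable_Fc3 : Measurable fun p : ℝ × ℝ × I01 => Fc p.1 p.2.1 p.2.2 := by
  unfold Fc
  refine continuous_projIcc.measurable.comp ?_
  fun_prop

lemma measurable_lab (k : V × ℕ) : Measurable fun ω : Om V => ω.2.1 k :=
  (measurable_pi_apply k).comp (measurable_fst.comp measurable_snd)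

lemma measurable_noi (k : V × ℕ) : Measurable fun ω : Om V => ω.2.2 k :=
  (measurable_pi_apply k).comp (measurable_snd.comp measurable_snd)

lemma measurable_spin (v : V) : Measurable fun ω : Om V => ω.1 v :=
  (measurable_pi_apply v).comp measurable_fst

lemma measurable_dlk (k : V × ℕ) : Measurable fun ω : Om V => dl (ω.2.1 k) :=
  measurable_dl.comp (measurable_lab k)

lemma measurable_kap (k : V × ℕ) : Measurable fun ω : Om V => kap ω.2.1 k := by
  unfold kap
  exact measurable_const.add (measurable_subtype_coe.comp (measurable_lab k))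

lemma measurable_obs (k : V × ℕ) : Measurable fun ω : Om V => obs ω k := by
  unfold obs
  have h1 : Measurable fun ω : Om V => Qc (dl (ω.2.1 k)) 1 (ω.2.2 k) :=
    measurable_Qc3.comp ((measurable_dlk k).prodMk (measurable_const.prodMk (measurable_noi k)))
  refine Measurable.ite ?_ h1 (unitInterval.continuous_symm.measurable.comp h1)
  exact measurableSet_eq_fun (measurable_spin k.1) measurable_const

lemma measurable_ep (k : V × ℕ) : Measurable fun ω : Om V => ep ω k := by
  unfold ep
  exact (measurable_dlk k).mul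
    (((measurable_subtype_coe.comp (measurable_obs k)).const_mul 2).sub_const 1)

lemma measurable_yt (w : V) : Measurable fun q : ℝ × Om V => yt q.1 q.2 w := by
  classical
  have h1 : Measurable fun r : ℕ × (ℝ × Om V) =>
      ∑ j ∈ Finset.range r.1, if kap r.2.2.2.1 (w, j) < r.2.1 then at' (ep r.2.2 (w, j)) else 0 := by
    refine measurable_from_prod_countable_right fun n => ?_
    show Measurable fun y : ℝ × Om V => ∑ j ∈ Finset.range n,
      if kap y.2.2.1 (w, j) < y.1 then at' (ep y.2 (w, j)) else 0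
    refine Finset.measurable_sum (Finset.range n) fun j _ => ?_
    refine Measurable.ite ?_ ?_ measurable_const
    · exact measurableSet_lt ((measurable_kap (w, j)).comp measurable_snd) measurable_fst
    · exact measurable_at'.comp ((measurable_ep (w, j)).comp measurable_snd)
  have h2 : Measurable fun q : ℝ × Om V => ((⌈q.1⌉₊, q) : ℕ × (ℝ × Om V)) :=
    (Nat.measurable_ceil.comp measurable_fst).prodMk measurable_id
  have h3 : (fun q : ℝ × Om V => yt q.1 q.2 w) = (fun r : ℕ × (ℝ × Om V) =>
      ∑ j ∈ Finset.range r.1, if kap r.2.2.2.1 (w, j) < r.2.1 then at' (ep r.2.2 (w, j)) else 0)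
        ∘ (fun q : ℝ × Om V => ((⌈q.1⌉₊, q) : ℕ × (ℝ × Om V))) := by
    funext q
    simp only [yt, fld, Function.comp_apply]
    refine Finset.sum_congr rfl fun j _ => ?_
    by_cases hk : kap q.2.2.1 (w, j) < q.1
    · rw [if_pos hk, if_pos (show (w, j) ∈ Is q.2.2.1 q.1 from hk)]
    · rw [if_neg hk, if_neg (show (w, j) ∉ Is q.2.2.1 q.1 from hk)]
  rw [h3]
  exact h1.comp h2

lemma measurable_Lt (u p : V) : Measurable fun q : ℝ × Om V => Lt G θ q.1 q.2 u p := by
  unfold Lt
  exact (measurable_Lm u p).comp (measurable_pi_lambda _ fun w => measurable_yt w)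

lemma measurable_mt (v : V) : Measurable fun q : ℝ × Om V => mt G θ q.1 q.2 v := by
  unfold mt Mm
  exact measurable_tanh.comp (measurable_Lt v v)

lemma measurable_kid (k : V × ℕ) : Measurable fun ω : Om V => ((kap ω.2.1 k, ω) : ℝ × Om V) :=
  (measurable_kap k).prodMk measurable_id

lemma measurable_mtk (v : V) (k : V × ℕ) :
    Measurable fun ω : Om V => mt G θ (kap ω.2.1 k) ω v := by
  have h := (measurable_mt (G := G) (θ := θ) v).comp (measurable_kid k)
  simpa only [Function.comp_def] using h

lemma measurable_ytk (v : V) (k : V × ℕ) :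
    Measurable fun ω : Om V => yt (kap ω.2.1 k) ω v := by
  have h := (measurable_yt v).comp (measurable_kid k)
  simpa only [Function.comp_def] using h

lemma measurable_inn (k : V × ℕ) : Measurable fun ω : Om V => inn G θ ω k := by
  have h1 : Measurable fun ω : Om V => mt G θ (kap ω.2.1 k) ω k.1 := measurable_mtk k.1 k
  have h2 : Measurable fun ω : Om V =>
      ((dl (ω.2.1 k), mt G θ (kap ω.2.1 k) ω k.1, obs ω k) : ℝ × ℝ × I01) :=
    (measurable_dlk k).prodMk (h1.prodMk (measurable_obs k))
  exact measurable_Fc3.comp h2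

lemma measurable_Jm (v : V) (k : V × ℕ) : Measurable fun ω : Om V => Jm G θ ω v k := by
  classical
  have h1 : Measurable fun ω : Om V => (fun w => yt (kap ω.2.1 k) ω w
      + if w = k.1 then at' (ep ω k) else 0) := by
    refine measurable_pi_lambda _ fun w => ?_
    refine Measurable.add (measurable_ytk w k) ?_
    by_cases hw : w = k.1
    · simp only [if_pos hw]
      exact measurable_at'.comp (measurable_ep k)
    · simp only [if_neg hw]
      exact measurable_const
  have h2 : Measurable fun y : V → ℝ => Mm G θ y v v := measurable_tanh.comp (measurable_Lm v v)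
  have h3 : Measurable fun ω : Om V => Mm G θ (fun w => yt (kap ω.2.1 k) ω w
      + if w = k.1 then at' (ep ω k) else 0) v v := h2.comp h1
  unfold Jm
  exact h3.sub (measurable_mtk v k)

lemma measurable_trG (s : ℝ) : Measurable (trG (V := V) G θ s) := by
  classical
  refine measurable_pi_lambda _ fun k => ?_
  unfold trG
  refine Measurable.ite ?_ ?_ measurable_const
  · exact measurableSet_lt (measurable_kap k) measurable_const
  · exact (measurable_subtype_coe.comp (measurable_lab k)).prodMk
      (measurable_subtype_coe.comp (measurable_inn k))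

lemma dl_nonneg (t : I01) : 0 ≤ dl t := Real.sqrt_nonneg _

lemma dl_le (t : I01) : dl t ≤ 1 / 2 := by
  unfold dl
  rw [Real.sqrt_le_left (by norm_num)]
  nlinarith [sq_nonneg ((t : ℝ) - 1 / 2)]

lemma abs_ep_le (ω : Om V) (k : V × ℕ) : |ep ω k| ≤ 1 / 2 := by
  unfold ep
  rw [abs_mul, abs_of_nonneg (dl_nonneg _)]
  have h1 := (obs ω k).2.1
  have h2 := (obs ω k).2.2
  have h3 : |2 * ((obs ω k : I01) : ℝ) - 1| ≤ 1 := by rw [abs_le]; constructor <;> linarith
  nlinarith [dl_le (ω.2.1 k), dl_nonneg (ω.2.1 k), abs_nonneg (2 * ((obs ω k : I01) : ℝ) - 1)]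

lemma abs_fld_le (J : ℕ) (I : Set (V × ℕ)) (ω : Om V) (w : V) :
    |fld J I ω w| ≤ J * at' (1 / 2) := by
  classical
  unfold fld
  have h0 : 0 ≤ at' (1 / 2) := at'_nonneg (by norm_num) (by norm_num)
  refine (Finset.abs_sum_le_sum_abs _ _).trans ?_
  refine (Finset.sum_le_card_nsmul _ _ (at' (1 / 2)) fun j _ => ?_).trans ?_
  · split_ifs
    · exact abs_at'_le (by norm_num) (abs_ep_le ω _)
    · simpa using h0
  · rw [nsmul_eq_mul, Finset.card_range]

lemma abs_Lm_le (h : Crit G d θ) (y : V → ℝ) (u p : V) (B : ℝ) (hB : |y u| ≤ B) :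
    |Lm G θ y u p| ≤ B + d * at' θ := by
  have hb : ∀ n, |msg G θ n y u p| ≤ B + d * at' θ := fun n =>
    (abs_msg_le h n y u p).trans (by linarith)
  set M := B + d * at' θ
  have hu : IsBoundedUnder (· ≤ ·) atTop (fun n => msg G θ n y u p) :=
    isBoundedUnder_of ⟨M, fun n => (abs_le.1 (hb n)).2⟩
  have hl : IsBoundedUnder (· ≥ ·) atTop (fun n => msg G θ n y u p) :=
    isBoundedUnder_of ⟨-M, fun n => (abs_le.1 (hb n)).1⟩
  have h1 : limsup (fun n => msg G θ n y u p) atTop ≤ M :=
    limsup_le_of_le hl.isCoboundedUnder_le (Eventually.of_forall fun n => (abs_le.1 (hb n)).2)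
  have h2 : -M ≤ liminf (fun n => msg G θ n y u p) atTop :=
    le_liminf_of_le hu.isCoboundedUnder_ge (Eventually.of_forall fun n => (abs_le.1 (hb n)).1)
  have h3 : liminf (fun n => msg G θ n y u p) atTop ≤ limsup (fun n => msg G θ n y u p) atTop :=
    liminf_le_limsup hu hl
  unfold Lm
  rw [abs_le]
  constructor <;> linarith

lemma tanh_bound (M : ℝ) (hM : 0 ≤ M) : ∃ m : ℝ, 0 < m ∧ m < 1 ∧ ∀ x : ℝ, |x| ≤ M →
    |Real.tanh x| ≤ m := by
  have hc : IsCompact (Set.Icc (-M) M) := isCompact_Icc
  obtain ⟨x0, _, hx0⟩ := hc.exists_isMaxOn ⟨0, by simp [hM]⟩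
    (continuous_tanh.abs.continuousOn)
  refine ⟨max |Real.tanh x0| (1 / 2), lt_max_of_lt_right (by norm_num),
    max_lt (Real.abs_tanh_lt_one x0) (by norm_num), fun x hx => ?_⟩
  exact (hx0 (abs_le.1 hx)).trans (le_max_left _ _)

lemma Lt_bound (h : Crit G d θ) (T : ℝ) : ∃ m : ℝ, 0 < m ∧ m < 1 ∧
    ∀ (s : ℝ) (ω : Om V) (u p : V), s ≤ T → |Real.tanh (Lt G θ s ω u p)| ≤ m := by
  have h0 : 0 ≤ at' (1 / 2) := at'_nonneg (by norm_num) (by norm_num)
  have h1 : 0 ≤ at' θ := at'_nonneg h.pos.le (Crit.th_lt h)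
  obtain ⟨m, hm0, hm1, hm⟩ := tanh_bound (⌈T⌉₊ * at' (1 / 2) + d * at' θ) (by positivity)
  refine ⟨m, hm0, hm1, fun s ω u p hs => hm _ ?_⟩
  unfold Lt
  apply abs_Lm_le h
  unfold yt
  refine (abs_fld_le _ _ ω u).trans ?_
  apply mul_le_mul_of_nonneg_right _ h0
  exact_mod_cast Nat.ceil_mono hs

theorem base : S_BASE.{u} := by
  intro V G d θ h
  exact ⟨measurable_Lt, measurable_inn, measurable_Jm, measurable_trG, Lt_bound h⟩

end Vale.Agent.P161C.BaseM
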