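import Vale.Agent.P161.Prod

/-!
# Conditional expectations of bounded functions: clamping, orthogonality, minimality, invariance
-/

namespace Vale.Agent.P161C.CE

open MeasureTheory Filter Topology

variable {Ω : Type*} {𝒢 m0 : MeasurableSpace Ω} {P : Measure Ω} [IsProbabilityMeasure P]

lemma integral_mp {φ : Ω → Ω} (hφ : MeasurePreserving φ P P) {f : Ω → ℝ}
    (hf : AEStronglyMeasurable f P) : ∫ ω, f (φ ω) ∂P = ∫ ω, f ω ∂P := by
  have h1 : AEStronglyMeasurable f (P.map φ) := by rw [hφ.map_eq]; exact hf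
  rw [← integral_map hφ.measurable.aemeasurable h1, hφ.map_eq]

/-- conditional expectations commute with measure preserving maps that fix the sigma-algebra -/
lemma condExp_comp (h𝒢 : 𝒢 ≤ m0) {φ : Ω → Ω} (hφ : MeasurePreserving φ P P)
    (hc : 𝒢.comap φ = 𝒢) {f : Ω → ℝ} (hf : Integrable f P) :
    (fun ω => (P[f|𝒢]) (φ ω)) =ᵐ[P] P[fun ω => f (φ ω)|𝒢] := by
  have hfi : Integrable (fun ω => f (φ ω)) P := hφ.integrable_comp_of_integrable hf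
  apply ae_eq_condExp_of_forall_setIntegral_eq h𝒢 hfi
  · intro s _ _
    exact (hφ.integrable_comp_of_integrable integrable_condExp).integrableOn
  · intro s hs _
    have hs' : MeasurableSet[𝒢.comap φ] s := by rw [hc]; exact hs
    obtain ⟨t, ht, rfl⟩ := hs'
    have key : ∀ g : Ω → ℝ, Integrable g P →
        ∫ ω in φ ⁻¹' t, g (φ ω) ∂P = ∫ ω in t, g ω ∂P := by
      intro g hg
      rw [← integral_indicator (hφ.measurable (h𝒢 t ht)), ← integral_indicator (h𝒢 t ht)]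
      have := integral_mp hφ (f := t.indicator g) (hg.indicator (h𝒢 t ht)).aestronglyMeasurable
      rw [← this]
      rfl
    rw [key _ integrable_condExp, key _ hf, setIntegral_condExp h𝒢 hf ht]
  · have hm : Measurable[𝒢, 𝒢] φ := by
      intro t ht
      have h1 : MeasurableSet[𝒢.comap φ] (φ ⁻¹' t) := ⟨t, ht, rfl⟩
      rw [hc] at h1
      exact h1
    have h2 : StronglyMeasurable[𝒢] (fun ω => (P[f|𝒢]) (φ ω)) :=
      stronglyMeasurable_condExp.comp_measurable hm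
    exact h2.aestronglyMeasurable

/-- orthogonality -/
lemma orth (h𝒢 : 𝒢 ≤ m0) {f g : Ω → ℝ} (hf : Integrable f P) (hg : StronglyMeasurable[𝒢] g)
    {B : ℝ} (hB : ∀ᵐ ω ∂P, |g ω| ≤ B) : ∫ ω, (f ω - (P[f|𝒢]) ω) * g ω ∂P = 0 := by
  have hg' : AEStronglyMeasurable g P := (hg.mono h𝒢).aestronglyMeasurable
  have hfg : Integrable (f * g) P := hf.mul_bdd (c := B) hg' hB
  have hbg : Integrable (fun ω => (P[f|𝒢]) ω * g ω) P :=
    (integrable_condExp (m := 𝒢) (μ := P) (f := f)).mul_bdd (c := B) hg' hB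
  have h1 := condExp_mul_of_stronglyMeasurable_right hg hfg hf
  have h2 : ∫ ω, (P[f * g|𝒢]) ω ∂P = ∫ ω, (f * g) ω ∂P := integral_condExp h𝒢
  have h3 : ∫ ω, (P[f * g|𝒢]) ω ∂P = ∫ ω, (P[f|𝒢]) ω * g ω ∂P := integral_congr_ae h1
  have h4 : ∫ ω, (f ω - (P[f|𝒢]) ω) * g ω ∂P
      = ∫ ω, (f * g) ω ∂P - ∫ ω, (P[f|𝒢]) ω * g ω ∂P := by
    rw [← integral_sub hfg hbg]
    apply integral_congr_ae
    filter_upwards with ω
    simp only [Pi.mul_apply]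
    ring
  rw [h4, ← h2, h3, sub_self]

lemma condExp_bdd (h𝒢 : 𝒢 ≤ m0) {f : Ω → ℝ} (hf : Integrable f P) {a b : ℝ}
    (ha : ∀ᵐ ω ∂P, a ≤ f ω) (hb : ∀ᵐ ω ∂P, f ω ≤ b) :
    ∀ᵐ ω ∂P, a ≤ (P[f|𝒢]) ω ∧ (P[f|𝒢]) ω ≤ b := by
  have h1 : P[fun _ => a|𝒢] ≤ᵐ[P] P[f|𝒢] := condExp_mono (integrable_const a) hf ha
  have h2 : P[f|𝒢] ≤ᵐ[P] P[fun _ => b|𝒢] := condExp_mono hf (integrable_const b) hb
  rw [condExp_const h𝒢] at h1 h2
  filter_upwards [h1, h2] with ω h1 h2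
  exact ⟨h1, h2⟩

lemma condExp_abs_le (h𝒢 : 𝒢 ≤ m0) {f : Ω → ℝ} (hf : Measurable f) {B : ℝ}
    (hB : ∀ ω, |f ω| ≤ B) : ∀ᵐ ω ∂P, |(P[f|𝒢]) ω| ≤ B := by
  have h := condExp_bdd (P := P) h𝒢 (Vale.Agent.P161.integrable_of_bdd hf hB) (a := -B) (b := B)
    (Eventually.of_forall fun ω => (abs_le.1 (hB ω)).1)
    (Eventually.of_forall fun ω => (abs_le.1 (hB ω)).2)
  filter_upwards [h] with ω h
  exact abs_le.2 h

/-- the conditional expectation minimises the mean square distance -/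
lemma l2min (h𝒢 : 𝒢 ≤ m0) {f g : Ω → ℝ} (hf : Measurable f) {B : ℝ} (hB : ∀ ω, |f ω| ≤ B)
    (hg : Measurable[𝒢] g) {C : ℝ} (hC : ∀ᵐ ω ∂P, |g ω| ≤ C) :
    ∫ ω, (f ω - (P[f|𝒢]) ω) ^ 2 ∂P ≤ ∫ ω, (f ω - g ω) ^ 2 ∂P := by
  have hfi : Integrable f P := Vale.Agent.P161.integrable_of_bdd hf hB
  have hb := condExp_abs_le (P := P) h𝒢 hf hB
  have hbs : StronglyMeasurable[𝒢] (P[f|𝒢]) := stronglyMeasurable_condExp
  have hgs : StronglyMeasurable[𝒢] g := hg.stronglyMeasurable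
  have hds : StronglyMeasurable[𝒢] (fun ω => (P[f|𝒢]) ω - g ω) := hbs.sub hgs
  have hd : ∀ᵐ ω ∂P, |(P[f|𝒢]) ω - g ω| ≤ B + C := by
    filter_upwards [hb, hC] with ω h1 h2
    exact (abs_sub _ _).trans (add_le_add h1 h2)
  have h0 := orth h𝒢 hfi hds hd
  have fm : AEStronglyMeasurable f P := hf.aestronglyMeasurable
  have bm : AEStronglyMeasurable (P[f|𝒢]) P := (hbs.mono h𝒢).aestronglyMeasurable
  have gm : AEStronglyMeasurable g P := (hgs.mono h𝒢).aestronglyMeasurable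
  have i1 : Integrable (fun ω => (f ω - (P[f|𝒢]) ω) ^ 2) P := by
    refine Integrable.of_bound ((fm.sub bm).pow 2) ((2 * B) ^ 2) ?_
    filter_upwards [hb] with ω h1
    rw [Real.norm_eq_abs, abs_pow]
    have h2 := (abs_sub (f ω) ((P[f|𝒢]) ω)).trans (add_le_add (hB ω) h1)
    apply pow_le_pow_left₀ (abs_nonneg _)
    linarith
  have i2 : Integrable (fun ω => (f ω - (P[f|𝒢]) ω) * ((P[f|𝒢]) ω - g ω)) P := by
    refine Integrable.of_bound ((fm.sub bm).mul (bm.sub gm)) ((2 * B) * (B + C)) ?_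
    filter_upwards [hb, hd] with ω h1 h3
    rw [Real.norm_eq_abs, abs_mul]
    have h2 := (abs_sub (f ω) ((P[f|𝒢]) ω)).trans (add_le_add (hB ω) h1)
    have h4 := abs_nonneg (f ω - (P[f|𝒢]) ω)
    apply mul_le_mul (by linarith) h3 (abs_nonneg _) (by linarith)
  have i3 : Integrable (fun ω => ((P[f|𝒢]) ω - g ω) ^ 2) P := by
    refine Integrable.of_bound ((bm.sub gm).pow 2) ((B + C) ^ 2) ?_
    filter_upwards [hd] with ω h1
    rw [Real.norm_eq_abs, abs_pow]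
    exact pow_le_pow_left₀ (abs_nonneg _) h1 2
  have e : ∫ ω, (f ω - g ω) ^ 2 ∂P = ∫ ω, (f ω - (P[f|𝒢]) ω) ^ 2 ∂P
      + 2 * ∫ ω, (f ω - (P[f|𝒢]) ω) * ((P[f|𝒢]) ω - g ω) ∂P
      + ∫ ω, ((P[f|𝒢]) ω - g ω) ^ 2 ∂P := by
    have i4 : Integrable (fun ω => (f ω - (P[f|𝒢]) ω) ^ 2
        + 2 * ((f ω - (P[f|𝒢]) ω) * ((P[f|𝒢]) ω - g ω))) P := i1.add (i2.const_mul 2)
    rw [← integral_const_mul, ← integral_add i1 (i2.const_mul 2), ← integral_add i4 i3]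
    congr 1
    funext ω
    ring
  rw [e, h0]
  have h5 : 0 ≤ ∫ ω, ((P[f|𝒢]) ω - g ω) ^ 2 ∂P := integral_nonneg fun ω => sq_nonneg _
  linarith

/-- conditional expectation, clamped to `[0, B]` -/
noncomputable def ce (P : Measure Ω) (𝒢 : MeasurableSpace Ω) (B : ℝ) (f : Ω → ℝ) : Ω → ℝ :=
  fun ω => max 0 (min B ((P[f|𝒢]) ω))

omit [IsProbabilityMeasure P] in
lemma ce_meas (B : ℝ) (f : Ω → ℝ) : Measurable[𝒢] (ce P 𝒢 B f) := by
  have h : Measurable[𝒢] (P[f|𝒢]) := stronglyMeasurable_condExp.measurable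
  exact measurable_const.max (measurable_const.min h)

omit [IsProbabilityMeasure P] in
lemma ce_nonneg (B : ℝ) (f : Ω → ℝ) (ω : Ω) : 0 ≤ ce P 𝒢 B f ω := le_max_left _ _

omit [IsProbabilityMeasure P] in
lemma ce_le {B : ℝ} (hB : 0 ≤ B) (f : Ω → ℝ) (ω : Ω) : ce P 𝒢 B f ω ≤ B :=
  max_le hB (min_le_left _ _)

lemma ce_ae (h𝒢 : 𝒢 ≤ m0) {B : ℝ} {f : Ω → ℝ} (hf : Integrable f P) (h0 : ∀ ω, 0 ≤ f ω)
    (h1 : ∀ ω, f ω ≤ B) : ce P 𝒢 B f =ᵐ[P] P[f|𝒢] := by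
  have h := condExp_bdd h𝒢 hf (Eventually.of_forall h0) (Eventually.of_forall h1)
  filter_upwards [h] with ω h
  unfold ce
  rw [min_eq_right h.2, max_eq_right h.1]

lemma ce_comp (h𝒢 : 𝒢 ≤ m0) {φ : Ω → Ω} (hφ : MeasurePreserving φ P P)
    (hc : 𝒢.comap φ = 𝒢) (B : ℝ) {f : Ω → ℝ} (hf : Integrable f P) :
    (fun ω => ce P 𝒢 B f (φ ω)) =ᵐ[P] ce P 𝒢 B (fun ω => f (φ ω)) := by
  filter_upwards [condExp_comp h𝒢 hφ hc hf] with ω h
  unfold ce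
  rw [h]

lemma ce_orth (h𝒢 : 𝒢 ≤ m0) {B : ℝ} {f : Ω → ℝ} (hf : Integrable f P) (h0 : ∀ ω, 0 ≤ f ω)
    (h1 : ∀ ω, f ω ≤ B) {g : Ω → ℝ} (hg : Measurable[𝒢] g) {C : ℝ} (hC : ∀ ω, |g ω| ≤ C) :
    ∫ ω, (f ω - ce P 𝒢 B f ω) * g ω ∂P = 0 := by
  rw [← orth h𝒢 hf hg.stronglyMeasurable (Eventually.of_forall hC)]
  apply integral_congr_ae
  filter_upwards [ce_ae h𝒢 hf h0 h1] with ω h
  rw [h]

end Vale.Agent.P161C.CE
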