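import Vale.Agent.P161C.Plan

/-! # Module PDK: positive semidefinite radial kernels on a regular tree -/

namespace Vale.Agent.P161C

open MeasureTheory Vale.Agent.P161 Filter Topology

universe u

namespace PDK

variable {V : Type u} {G : SimpleGraph V} {d : ℕ} {θ : ℝ}

lemma mem_nb (h : Crit G d θ) {u v : V} : v ∈ nb G u ↔ G.Adj u v := by
  have hf := neighborSet_finite (G := G) (d := d) (by have := h.hd; omega) h.reg u
  simp [nb, hf]

lemma card_nb (h : Crit G d θ) (u : V) : (nb G u).card = d := by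
  have hf := neighborSet_finite (G := G) (d := d) (by have := h.hd; omega) h.reg u
  rw [nb, dif_pos hf, ← Set.ncard_eq_toFinset_card _ hf, h.reg]

lemma mem_sph (h : Crit G d θ) {u v : V} {k : ℕ} : v ∈ sphF G u k ↔ G.dist u v = k := by
  have hf : {w | G.dist u w = k}.Finite := by
    have := sph_finite h.tree.connected (d := d) (by have := h.hd; omega) h.reg u k
    refine this.subset ?_
    intro w hw
    show G.dist w u = k
    rw [SimpleGraph.dist_comm]
    exact hw
  simp [sphF, hf]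

/-- the neighbour closer to `v` is unique -/
lemma closer_unique (hG : G.IsTree) {u v x p : V} (hx : G.Adj u x) (hp : G.Adj u p)
    (h1 : G.dist x v + 1 = G.dist u v) (h2 : G.dist p v + 1 = G.dist u v) : x = p := by
  by_contra hne
  have e1 : G.dist u p = 1 := SimpleGraph.dist_eq_one_iff_adj.2 hp
  rcases dist_split hG hx.symm p with h | h
  · have : G.dist x p = 0 := by omega
    exact hne ((hG.connected.dist_eq_zero_iff).1 this)
  · have h3 := dist_cross hG hx.symm (w := v) (u := p) (by omega) h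
    have h4 : G.dist v p = G.dist p v := G.dist_comm
    omega

/-- the branch of `u` away from its neighbour `p`, at depth `k` -/
noncomputable def Br (G : SimpleGraph V) (u p : V) (k : ℕ) : Finset V :=
  (sphF G u k).filter fun v => G.dist p v = k + 1

lemma mem_Br (h : Crit G d θ) {u p v : V} {k : ℕ} :
    v ∈ Br G u p k ↔ G.dist u v = k ∧ G.dist p v = k + 1 := by
  rw [Br, Finset.mem_filter, mem_sph h]

lemma Br_succ (h : Crit G d θ) {u p : V} (hp : G.Adj u p) (k : ℕ) [DecidableEq V] :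
    Br G u p (k + 1) = ((nb G u).erase p).biUnion fun x => Br G x u k := by
  ext v
  simp only [mem_Br h, Finset.mem_biUnion, Finset.mem_erase, mem_nb h]
  constructor
  · rintro ⟨h1, h2⟩
    obtain ⟨x, hx1, hx2⟩ := exists_closer h.tree.connected h1
    refine ⟨x, ⟨?_, hx1⟩, hx2, h1⟩
    rintro rfl
    omega
  · rintro ⟨x, ⟨hxp, hx⟩, h1, h2⟩
    refine ⟨h2, ?_⟩
    rcases dist_split h.tree hp v with h3 | h3
    · omega
    · exfalso
      exact hxp (closer_unique (v := v) h.tree hx hp (by omega) (by omega))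

lemma card_Br (h : Crit G d θ) (k : ℕ) : ∀ {u p : V}, G.Adj u p →
    (Br G u p k).card = (d - 1) ^ k := by
  classical
  induction k with
  | zero =>
    intro u p hp
    have : Br G u p 0 = {u} := by
      ext v
      rw [mem_Br h, Finset.mem_singleton]
      constructor
      · rintro ⟨h1, -⟩
        exact ((h.tree.connected.dist_eq_zero_iff).1 h1).symm
      · rintro rfl
        exact ⟨SimpleGraph.dist_self, SimpleGraph.dist_eq_one_iff_adj.2 hp.symm⟩
    rw [this]; simp
  | succ k ih =>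
    intro u p hp
    rw [Br_succ h hp k, Finset.card_biUnion]
    · rw [Finset.sum_congr rfl fun x hx => ih (u := x) (p := u)
        ((mem_nb h).1 (Finset.mem_of_mem_erase hx)).symm]
      rw [Finset.sum_const, Finset.card_erase_of_mem ((mem_nb h).2 hp), card_nb h,
        smul_eq_mul, pow_succ]
      ring
    · intro x hx y hy hxy
      rw [Function.onFun, Finset.disjoint_left]
      intro v hv1 hv2
      rw [mem_Br h] at hv1 hv2
      have hx' := (mem_nb h).1 (Finset.mem_of_mem_erase hx)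
      have hy' := (mem_nb h).1 (Finset.mem_of_mem_erase hy)
      exact hxy (closer_unique (v := v) h.tree hx' hy' (by omega) (by omega))

/-- decomposition of a sphere along an edge -/
lemma sum_sph_succ (h : Crit G d θ) {u p : V} (hp : G.Adj u p) (k : ℕ) (φ : V → ℝ) :
    ∑ v ∈ sphF G u (k + 1), φ v = ∑ v ∈ Br G u p (k + 1), φ v + ∑ v ∈ Br G p u k, φ v := by
  classical
  rw [← Finset.sum_union]
  · refine Finset.sum_congr ?_ fun _ _ => rfl
    ext v
    rw [Finset.mem_union, mem_Br h, mem_Br h, mem_sph h]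
    have := dist_split h.tree hp v
    omega
  · rw [Finset.disjoint_left]
    intro v hv1 hv2
    rw [mem_Br h] at hv1 hv2
    omega

lemma sum_sph_zero (h : Crit G d θ) (u : V) (φ : V → ℝ) :
    ∑ v ∈ sphF G u 0, φ v = φ u := by
  have : sphF G u 0 = {u} := by
    ext v
    rw [mem_sph h, Finset.mem_singleton]
    constructor
    · intro h1
      exact ((h.tree.connected.dist_eq_zero_iff).1 h1).symm
    · rintro rfl
      exact SimpleGraph.dist_self
  rw [this, Finset.sum_singleton]

lemma sum_Br_zero (h : Crit G d θ) {u p : V} (hp : G.Adj u p) (φ : V → ℝ) :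
    ∑ v ∈ Br G u p 0, φ v = φ u := by
  have : Br G u p 0 = {u} := by
    ext v
    rw [mem_Br h, Finset.mem_singleton]
    constructor
    · rintro ⟨h1, -⟩
      exact ((h.tree.connected.dist_eq_zero_iff).1 h1).symm
    · rintro rfl
      exact ⟨SimpleGraph.dist_self, SimpleGraph.dist_eq_one_iff_adj.2 hp.symm⟩
  rw [this, Finset.sum_singleton]

lemma exists_adj (h : Crit G d θ) (u : V) : ∃ p, G.Adj u p := by
  have h1 := card_nb h u
  have h2 : (nb G u).Nonempty := by
    rw [← Finset.card_pos, h1]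
    have := h.hd; omega
  obtain ⟨p, hp⟩ := h2
  exact ⟨p, (mem_nb h).1 hp⟩

/-- far branch sum -/
lemma sum_Br_far (h : Crit G d θ) {u p w : V} (hp : G.Adj u p)
    (hw : G.dist u w = G.dist p w + 1) (k : ℕ) (D : ℕ → ℝ) :
    ∑ v ∈ Br G u p k, D (G.dist v w) = ((d - 1 : ℕ) : ℝ) ^ k * D (G.dist u w + k) := by
  rw [Finset.sum_congr rfl (g := fun _ => D (G.dist u w + k)), Finset.sum_const, card_Br h k hp,
    nsmul_eq_mul]
  · push_cast; rfl
  · intro v hv
    rw [mem_Br h] at hv
    have := dist_cross h.tree hp (w := v) (u := w) (by omega) hw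
    congr 1
    omega

/-- spherical sums of a radial kernel are radial -/
lemma radial (h : Crit G d θ) (D : ℕ → ℝ) (k : ℕ) :
    ∃ R : ℕ → ℝ, ∀ u w : V, ∑ v ∈ sphF G u k, D (G.dist v w) = R (G.dist u w) := by
  induction k with
  | zero =>
    refine ⟨D, fun u w => ?_⟩
    rw [sum_sph_zero h]
  | succ k ih =>
    obtain ⟨R, hR⟩ := ih
    refine ⟨fun n => if n = 0 then
        (((d - 1 : ℕ) : ℝ) ^ (k + 1) + ((d - 1 : ℕ) : ℝ) ^ k) * D (k + 1)
      else ((d - 1 : ℕ) : ℝ) ^ (k + 1) * D (n + (k + 1)) + R (n - 1)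
        - (if k = 0 then 0 else ((d - 1 : ℕ) : ℝ) ^ (k - 1) * D (n + (k - 1))), fun u w => ?_⟩
    by_cases hn : G.dist u w = 0
    · rw [hn]
      simp only [if_true]
      have huw : u = w := (h.tree.connected.dist_eq_zero_iff).1 hn
      subst huw
      obtain ⟨p, hp⟩ := exists_adj h u
      rw [sum_sph_succ h hp]
      have e1 : ∀ v ∈ Br G u p (k + 1), D (G.dist v u) = D (k + 1) := by
        intro v hv
        rw [mem_Br h] at hv
        rw [G.dist_comm, hv.1]
      have e2 : ∀ v ∈ Br G p u k, D (G.dist v u) = D (k + 1) := by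
        intro v hv
        rw [mem_Br h] at hv
        rw [G.dist_comm, hv.2]
      rw [Finset.sum_congr rfl e1, Finset.sum_congr rfl e2, Finset.sum_const, Finset.sum_const,
        card_Br h _ hp, card_Br h _ hp.symm, nsmul_eq_mul, nsmul_eq_mul]
      push_cast
      ring
    · simp only [hn, if_false]
      obtain ⟨m, hm⟩ : ∃ m, G.dist u w = m + 1 := ⟨G.dist u w - 1, by omega⟩
      obtain ⟨p, hp, hpw⟩ := exists_closer h.tree.connected hm
      have hw : G.dist u w = G.dist p w + 1 := by omega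
      rw [sum_sph_succ h hp, sum_Br_far h hp hw]
      have hpn : G.dist p w = G.dist u w - 1 := by omega
      have key : ∑ v ∈ Br G p u k, D (G.dist v w) = R (G.dist u w - 1)
          - (if k = 0 then 0 else ((d - 1 : ℕ) : ℝ) ^ (k - 1) * D (G.dist u w + (k - 1))) := by
        cases k with
        | zero =>
          rw [sum_Br_zero h hp.symm, if_pos rfl, sub_zero, ← hpn, ← hR, sum_sph_zero h]
        | succ k =>
          rw [if_neg (Nat.succ_ne_zero k)]
          have := hR p w
          rw [sum_sph_succ h hp.symm, sum_Br_far h hp hw] at this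
          rw [← hpn, ← this]
          simp only [Nat.add_sub_cancel]
          ring
      rw [key]
      ring

lemma b_real (h : Crit G d θ) : ((d - 1 : ℕ) : ℝ) * θ ^ 2 = 1 := by
  have := h.crit
  have h2 : 1 ≤ d := by have := h.hd; omega
  rw [Nat.cast_sub h2, Nat.cast_one]
  exact this

lemma b_pow (h : Crit G d θ) (k : ℕ) : ((d - 1 : ℕ) : ℝ) ^ k * (θ ^ k * θ ^ k) = 1 := by
  have := b_real h
  calc ((d - 1 : ℕ) : ℝ) ^ k * (θ ^ k * θ ^ k) = (((d - 1 : ℕ) : ℝ) * θ ^ 2) ^ k := by
        rw [mul_pow, ← pow_mul, ← pow_add]; congr 2; ring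
    _ = 1 := by rw [this, one_pow]

lemma b_ge (h : Crit G d θ) : (1 : ℝ) ≤ ((d - 1 : ℕ) : ℝ) := by
  have := h.hd
  exact_mod_cast (by omega : 1 ≤ d - 1)

/-- sums of `θ^dist` over spheres -/
lemma sph_decay (h : Crit G d θ) (k : ℕ) : ∀ e f : V,
    ∑ w ∈ sphF G f k, θ ^ (G.dist w e) * θ ^ k ≤ 2 * (k + 1) * θ ^ (G.dist f e) := by
  have hθ := h.pos
  have hb := b_ge h
  induction k with
  | zero =>
    intro e f
    rw [sum_sph_zero h]
    have : 0 < θ ^ (G.dist f e) := pow_pos hθ _
    push_cast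
    nlinarith
  | succ k ih =>
    intro e f
    by_cases hn : G.dist f e = 0
    · have hfe : f = e := (h.tree.connected.dist_eq_zero_iff).1 hn
      subst hfe
      obtain ⟨p, hp⟩ := exists_adj h f
      rw [sum_sph_succ h hp]
      have e1 : ∀ v ∈ Br G f p (k + 1), θ ^ (G.dist v f) * θ ^ (k + 1)
          = θ ^ (k + 1) * θ ^ (k + 1) := by
        intro v hv
        rw [mem_Br h] at hv
        rw [G.dist_comm, hv.1]
      have e2 : ∀ v ∈ Br G p f k, θ ^ (G.dist v f) * θ ^ (k + 1)
          = θ ^ (k + 1) * θ ^ (k + 1) := by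
        intro v hv
        rw [mem_Br h] at hv
        rw [G.dist_comm, hv.2]
      rw [Finset.sum_congr rfl e1, Finset.sum_congr rfl e2, Finset.sum_const, Finset.sum_const,
        card_Br h _ hp, card_Br h _ hp.symm, nsmul_eq_mul, nsmul_eq_mul, hn]
      have h1 := b_pow h (k + 1)
      have h2 : (((d - 1) ^ k : ℕ) : ℝ) ≤ ((d - 1 : ℕ) : ℝ) ^ (k + 1) := by
        push_cast
        exact pow_le_pow_right₀ hb (Nat.le_succ k)
      have h3 : 0 < θ ^ (k + 1) * θ ^ (k + 1) := by positivity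
      have h4 : (((d - 1) ^ k : ℕ) : ℝ) * (θ ^ (k + 1) * θ ^ (k + 1)) ≤ 1 := by
        rw [← h1]
        exact mul_le_mul_of_nonneg_right h2 h3.le
      have h5 : (((d - 1) ^ (k + 1) : ℕ) : ℝ) * (θ ^ (k + 1) * θ ^ (k + 1)) = 1 := by
        rw [← h1]; push_cast; ring
      rw [h5]
      push_cast
      have : (0 : ℝ) ≤ (k : ℝ) := Nat.cast_nonneg k
      simp only [pow_zero, mul_one]
      push_cast at h4
      linarith
    · obtain ⟨m, hm⟩ : ∃ m, G.dist f e = m + 1 := ⟨G.dist f e - 1, by omega⟩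
      obtain ⟨p, hp, hpw⟩ := exists_closer h.tree.connected hm
      have hw : G.dist f e = G.dist p e + 1 := by omega
      rw [← Finset.sum_mul, sum_sph_succ h hp, sum_Br_far h hp hw (k + 1) (fun n => θ ^ n)]
      have h1 : ∑ v ∈ Br G p f k, θ ^ (G.dist v e) ≤ ∑ v ∈ sphF G p k, θ ^ (G.dist v e) := by
        refine Finset.sum_le_sum_of_subset_of_nonneg (Finset.filter_subset _ _) ?_
        intro v _ _
        positivity
      have h2 := ih e p
      rw [← Finset.sum_mul] at h2
      have h3 := b_pow h (k + 1)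
      have h4 : θ ^ (G.dist f e) = θ ^ (G.dist p e) * θ := by rw [hw, pow_succ]
      have h5 : 0 < θ ^ (G.dist p e) := pow_pos hθ _
      have h6 : (∑ v ∈ Br G p f k, θ ^ (G.dist v e)) * θ ^ (k + 1)
          ≤ 2 * (k + 1) * θ ^ (G.dist f e) := by
        calc (∑ v ∈ Br G p f k, θ ^ (G.dist v e)) * θ ^ (k + 1)
            ≤ (∑ v ∈ sphF G p k, θ ^ (G.dist v e)) * θ ^ (k + 1) :=
              mul_le_mul_of_nonneg_right h1 (by positivity)
          _ = ((∑ v ∈ sphF G p k, θ ^ (G.dist v e)) * θ ^ k) * θ := by rw [pow_succ]; ring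
          _ ≤ (2 * (k + 1) * θ ^ (G.dist p e)) * θ := mul_le_mul_of_nonneg_right h2 hθ.le
          _ = _ := by rw [h4]; ring
      have h7 : ((d - 1 : ℕ) : ℝ) ^ (k + 1) * θ ^ (G.dist f e + (k + 1)) * θ ^ (k + 1)
          = θ ^ (G.dist f e) := by
        rw [pow_add]
        calc _ = θ ^ (G.dist f e) * (((d - 1 : ℕ) : ℝ) ^ (k + 1)
              * (θ ^ (k + 1) * θ ^ (k + 1))) := by ring
          _ = _ := by rw [h3, mul_one]
      rw [add_mul, h7]
      have h8 : 0 < θ ^ (G.dist f e) := pow_pos hθ _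
      push_cast
      nlinarith

/-! ## The form -/

/-- the bilinear form of the kernel -/
noncomputable def BD (G : SimpleGraph V) (D : ℕ → ℝ) :
    (V →₀ ℝ) →ₗ[ℝ] (V →₀ ℝ) →ₗ[ℝ] ℝ :=
  Finsupp.linearCombination ℝ fun u =>
    (Finsupp.linearCombination ℝ (fun w => D (G.dist u w)) : (V →₀ ℝ) →ₗ[ℝ] ℝ)

/-- the sphere operator -/
noncomputable def Sk (G : SimpleGraph V) (k : ℕ) : (V →₀ ℝ) →ₗ[ℝ] (V →₀ ℝ) :=
  Finsupp.linearCombination ℝ fun u => ∑ w ∈ sphF G u k, Finsupp.single w (1 : ℝ)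

lemma BD_single (D : ℕ → ℝ) (u w : V) (a c : ℝ) :
    BD G D (Finsupp.single u a) (Finsupp.single w c) = a * c * D (G.dist u w) := by
  simp only [BD, Finsupp.linearCombination_single, LinearMap.smul_apply, smul_eq_mul]
  ring

lemma Sk_single (u : V) (a : ℝ) (k : ℕ) :
    Sk G k (Finsupp.single u a) = a • ∑ w ∈ sphF G u k, Finsupp.single w (1 : ℝ) := by
  simp only [Sk, Finsupp.linearCombination_single]

lemma BD_symm (D : ℕ → ℝ) (f g : V →₀ ℝ) : BD G D f g = BD G D g f := by
  induction f using Finsupp.induction_linear with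
  | zero => simp
  | add f1 f2 h1 h2 => rw [map_add, LinearMap.add_apply, h1, h2, map_add]
  | single u a =>
    induction g using Finsupp.induction_linear with
    | zero => simp
    | add g1 g2 h1 h2 => rw [map_add, h1, h2, map_add, LinearMap.add_apply]
    | single w c =>
      rw [BD_single, BD_single, G.dist_comm]
      ring

lemma Sk_adj (h : Crit G d θ) (D : ℕ → ℝ) (k : ℕ) (f g : V →₀ ℝ) :
    BD G D (Sk G k f) g = BD G D f (Sk G k g) := by
  obtain ⟨R, hR⟩ := radial h D k
  induction f using Finsupp.induction_linear with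
  | zero => simp
  | add f1 f2 h1 h2 => rw [map_add, map_add, LinearMap.add_apply, h1, h2, map_add,
      LinearMap.add_apply]
  | single u a =>
    induction g using Finsupp.induction_linear with
    | zero => simp
    | add g1 g2 h1 h2 => rw [map_add, h1, h2, map_add, map_add]
    | single w c =>
      rw [Sk_single, Sk_single]
      simp only [map_smul, map_sum, LinearMap.smul_apply, LinearMap.sum_apply, BD_single,
        smul_eq_mul, one_mul, mul_one]
      rw [← Finset.mul_sum, ← Finset.mul_sum, hR]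
      have : ∑ i ∈ sphF G w k, D (G.dist u i) = R (G.dist u w) := by
        rw [G.dist_comm, ← hR]
        exact Finset.sum_congr rfl fun i _ => by rw [G.dist_comm]
      rw [this]
      ring

lemma BD_self_nonneg {D : ℕ → ℝ}
    (hD : ∀ (S : Finset V) (c : V → ℝ), 0 ≤ ∑ u ∈ S, ∑ w ∈ S, c u * c w * D (G.dist u w))
    (f : V →₀ ℝ) : 0 ≤ BD G D f f := by
  have h1 := hD f.support f
  have h2 : BD G D f f = ∑ u ∈ f.support, ∑ w ∈ f.support, f u * f w * D (G.dist u w) := by
    rw [BD, Finsupp.linearCombination_apply, Finsupp.sum, LinearMap.sum_apply]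
    refine Finset.sum_congr rfl fun u _ => ?_
    rw [LinearMap.smul_apply, Finsupp.linearCombination_apply, Finsupp.sum, smul_eq_mul,
      Finset.mul_sum]
    refine Finset.sum_congr rfl fun w _ => ?_
    rw [smul_eq_mul]
    ring
  rw [h2]
  exact h1

lemma BD_cs {D : ℕ → ℝ}
    (hD : ∀ (S : Finset V) (c : V → ℝ), 0 ≤ ∑ u ∈ S, ∑ w ∈ S, c u * c w * D (G.dist u w))
    (f g : V →₀ ℝ) : BD G D f g ^ 2 ≤ BD G D f f * BD G D g g := by
  have key : ∀ t : ℝ, 0 ≤ BD G D g g * (t * t) + (2 * BD G D f g) * t + BD G D f f := by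
    intro t
    have := BD_self_nonneg hD (f + t • g)
    have e : BD G D (f + t • g) (f + t • g)
        = BD G D g g * (t * t) + (2 * BD G D f g) * t + BD G D f f := by
      simp only [map_add, map_smul, LinearMap.add_apply, LinearMap.smul_apply, smul_eq_mul]
      rw [BD_symm D g f]
      ring
    rw [← e]
    exact this
  have := discrim_le_zero key
  rw [discrim] at this
  nlinarith

lemma pow_adj (h : Crit G d θ) (D : ℕ → ℝ) (k j : ℕ) : ∀ f g : V →₀ ℝ,
    BD G D ((Sk G k ^ j) f) g = BD G D f ((Sk G k ^ j) g) := by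
  induction j with
  | zero => intro f g; simp
  | succ j ih =>
    intro f g
    rw [pow_succ', Module.End.mul_apply, Sk_adj h, ih, ← Module.End.mul_apply, ← pow_succ,
      ← pow_succ']

/-- the weight functional -/
noncomputable def Wt (G : SimpleGraph V) (θ : ℝ) (o : V) : (V →₀ ℝ) →ₗ[ℝ] ℝ :=
  Finsupp.linearCombination ℝ fun w => θ ^ (G.dist w o)

lemma Sk_nonneg (k : ℕ) {f : V →₀ ℝ} (hf : ∀ v, 0 ≤ f v) (v : V) : 0 ≤ Sk G k f v := by
  classical
  rw [Sk, Finsupp.linearCombination_apply, Finsupp.sum, Finsupp.finsetSum_apply]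
  refine Finset.sum_nonneg fun u _ => ?_
  rw [Finsupp.smul_apply, smul_eq_mul, Finsupp.finsetSum_apply]
  refine mul_nonneg (hf u) (Finset.sum_nonneg fun w _ => ?_)
  rw [Finsupp.single_apply]
  split_ifs <;> norm_num

lemma Wt_Sk (h : Crit G d θ) (o : V) (k : ℕ) {f : V →₀ ℝ} (hf : ∀ v, 0 ≤ f v) :
    Wt G θ o (Sk G k f) * θ ^ k ≤ 2 * (k + 1) * Wt G θ o f := by
  have e1 : Wt G θ o (Sk G k f)
      = ∑ u ∈ f.support, f u * ∑ w ∈ sphF G u k, θ ^ (G.dist w o) := by
    rw [Sk, Finsupp.linearCombination_apply, Finsupp.sum, map_sum]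
    refine Finset.sum_congr rfl fun u _ => ?_
    rw [map_smul, map_sum, smul_eq_mul]
    congr 1
    refine Finset.sum_congr rfl fun w _ => ?_
    rw [Wt, Finsupp.linearCombination_single, one_smul]
  have e2 : Wt G θ o f = ∑ u ∈ f.support, f u * θ ^ (G.dist u o) := by
    rw [Wt, Finsupp.linearCombination_apply, Finsupp.sum]
    rfl
  rw [e1, e2, Finset.mul_sum, Finset.sum_mul]
  refine Finset.sum_le_sum fun u _ => ?_
  have := sph_decay h k o u
  rw [← Finset.sum_mul] at this
  calc f u * (∑ w ∈ sphF G u k, θ ^ (G.dist w o)) * θ ^ k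
      = f u * ((∑ w ∈ sphF G u k, θ ^ (G.dist w o)) * θ ^ k) := by ring
    _ ≤ f u * (2 * (k + 1) * θ ^ (G.dist u o)) := mul_le_mul_of_nonneg_left this (hf u)
    _ = _ := by ring

lemma abs_BD_le {D : ℕ → ℝ} {K0 : ℝ} (hK : ∀ k, |D k| ≤ K0 * θ ^ k) (o : V) {f : V →₀ ℝ}
    (hf : ∀ v, 0 ≤ f v) : |BD G D f (Finsupp.single o 1)| ≤ K0 * Wt G θ o f := by
  have e1 : BD G D f (Finsupp.single o 1) = ∑ u ∈ f.support, f u * D (G.dist u o) := by
    rw [BD, Finsupp.linearCombination_apply, Finsupp.sum, LinearMap.sum_apply]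
    refine Finset.sum_congr rfl fun u _ => ?_
    rw [LinearMap.smul_apply, Finsupp.linearCombination_single, one_smul, smul_eq_mul]
  have e2 : Wt G θ o f = ∑ u ∈ f.support, f u * θ ^ (G.dist u o) := by
    rw [Wt, Finsupp.linearCombination_apply, Finsupp.sum]
    rfl
  rw [e1, e2, Finset.mul_sum]
  refine (Finset.abs_sum_le_sum_abs _ _).trans (Finset.sum_le_sum fun u _ => ?_)
  rw [abs_mul, abs_of_nonneg (hf u)]
  calc f u * |D (G.dist u o)| ≤ f u * (K0 * θ ^ (G.dist u o)) :=
        mul_le_mul_of_nonneg_left (hK _) (hf u)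
    _ = _ := by ring

/-- an elementary growth argument -/
lemma le_of_pow_bound {x c0 K0 L : ℝ} (hc : 0 < c0) (hL : 0 < L)
    (hb : ∀ m : ℕ, x ^ (2 ^ m) * c0 ≤ K0 * (L * c0) ^ (2 ^ m)) : x ≤ L * c0 := by
  by_contra hcon
  push Not at hcon
  have hLc : 0 < L * c0 := mul_pos hL hc
  set q := x / (L * c0) with hq
  have hq1 : 1 < q := (one_lt_div hLc).2 hcon
  have h1 : ∀ m : ℕ, q ^ (2 ^ m) ≤ K0 / c0 := by
    intro m
    rw [hq, div_pow, div_le_div_iff₀ (by positivity) hc]
    exact hb m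
  obtain ⟨n, hn⟩ := pow_unbounded_of_one_lt (K0 / c0) hq1
  have h2 : q ^ n ≤ q ^ (2 ^ n) := pow_le_pow_right₀ hq1.le (Nat.lt_two_pow_self).le
  have := h1 n
  linarith

end PDK

open PDK in
theorem pdk : S_PDK.{u} := by
  intro V G d θ h D hD K0 hK k
  have hθ := h.pos
  have hne : Nonempty V := h.tree.connected.nonempty
  obtain ⟨o⟩ := hne
  set δ : V →₀ ℝ := Finsupp.single o 1 with hδ
  have hδ0 : ∀ v, 0 ≤ δ v := by
    classical
    intro v
    rw [hδ, Finsupp.single_apply]
    split_ifs <;> norm_num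
  -- iterates are nonnegative
  have hnn : ∀ j : ℕ, ∀ v, 0 ≤ ((Sk G k ^ j) δ) v := by
    intro j
    induction j with
    | zero => simpa using hδ0
    | succ j ih =>
      intro v
      rw [pow_succ', Module.End.mul_apply]
      exact Sk_nonneg k ih v
  set L : ℝ := 2 * (k + 1) / θ ^ k with hL
  have hθk : 0 < θ ^ k := pow_pos hθ k
  have hLpos : 0 < L := by positivity
  have hW : ∀ j : ℕ, Wt G θ o ((Sk G k ^ j) δ) ≤ L ^ j := by
    intro j
    induction j with
    | zero =>
      simp [Wt, hδ, SimpleGraph.dist_self]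
    | succ j ih =>
      rw [pow_succ', Module.End.mul_apply]
      have h1 := Wt_Sk h o k (hnn j)
      have h2 : Wt G θ o (Sk G k ((Sk G k ^ j) δ)) ≤ L * Wt G θ o ((Sk G k ^ j) δ) := by
        rw [hL, div_mul_eq_mul_div, le_div_iff₀ hθk]
        exact h1
      refine h2.trans ?_
      rw [pow_succ']
      exact mul_le_mul_of_nonneg_left ih hLpos.le
  have hK0 : 0 ≤ K0 := by
    have := hK 0
    simp only [pow_zero, mul_one] at this
    exact (abs_nonneg _).trans this
  set c : ℕ → ℝ := fun j => BD G D ((Sk G k ^ j) δ) δ with hc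
  have hc0 : c 0 = D 0 := by
    simp [hc, hδ, BD_single, SimpleGraph.dist_self]
  have hD0 : 0 ≤ D 0 := by
    rw [← hc0]
    simpa [hc] using BD_self_nonneg hD δ
  have hcb : ∀ j, |c j| ≤ K0 * L ^ j := fun j =>
    (abs_BD_le hK o (hnn j)).trans (mul_le_mul_of_nonneg_left (hW j) hK0)
  have hsq : ∀ j, c j ^ 2 ≤ c (2 * j) * D 0 := by
    intro j
    have h1 := BD_cs hD ((Sk G k ^ j) δ) δ
    have h2 : BD G D ((Sk G k ^ j) δ) ((Sk G k ^ j) δ) = c (2 * j) := by
      rw [← pow_adj h, ← Module.End.mul_apply, ← pow_add, ← two_mul]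
    have h3 : BD G D δ δ = D 0 := by rw [← hc0]; simp [hc]
    rw [h2, h3] at h1
    exact h1
  have hpow : ∀ m : ℕ, |c 1| ^ (2 ^ m) * D 0 ≤ |c (2 ^ m)| * D 0 ^ (2 ^ m) := by
    intro m
    induction m with
    | zero => simp
    | succ m ih =>
      rcases hD0.eq_or_lt with h0 | h0
      · rw [← h0]; simp
      · have h1 := hsq (2 ^ m)
        have e : 2 * 2 ^ m = 2 ^ (m + 1) := by ring
        rw [e] at h1
        have h2 : |c (2 ^ m)| ^ 2 ≤ |c (2 ^ (m + 1))| * D 0 := by
          rw [sq_abs]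
          exact h1.trans (mul_le_mul_of_nonneg_right (le_abs_self _) hD0)
        have h3 : (|c 1| ^ (2 ^ m) * D 0) ^ 2 ≤ (|c (2 ^ m)| * D 0 ^ (2 ^ m)) ^ 2 :=
          pow_le_pow_left₀ (by positivity) ih 2
        have h4 : |c 1| ^ (2 ^ (m + 1)) * D 0 * D 0 ≤ |c (2 ^ (m + 1))| * D 0 ^ (2 ^ (m + 1)) * D 0 := by
          calc |c 1| ^ (2 ^ (m + 1)) * D 0 * D 0 = (|c 1| ^ (2 ^ m) * D 0) ^ 2 := by
                rw [pow_succ 2 m, pow_mul]; ring
            _ ≤ (|c (2 ^ m)| * D 0 ^ (2 ^ m)) ^ 2 := h3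
            _ = |c (2 ^ m)| ^ 2 * D 0 ^ (2 ^ (m + 1)) := by
                rw [pow_succ 2 m, pow_mul (D 0)]; ring
            _ ≤ (|c (2 ^ (m + 1))| * D 0) * D 0 ^ (2 ^ (m + 1)) :=
                mul_le_mul_of_nonneg_right h2 (by positivity)
            _ = _ := by ring
        exact le_of_mul_le_mul_right h4 h0
  -- the bound for `c 1`
  have hc1 : |c 1| ≤ L * D 0 := by
    rcases hD0.eq_or_lt with h0 | h0
    · have h1 := hsq 1
      rw [← h0, mul_zero] at h1
      have : c 1 = 0 := by nlinarith [sq_nonneg (c 1)]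
      rw [this, ← h0]; simp
    · refine le_of_pow_bound (K0 := K0) h0 hLpos fun m => ?_
      refine (hpow m).trans ?_
      rw [mul_pow, ← mul_assoc]
      exact mul_le_mul_of_nonneg_right (hcb _) (by positivity)
  -- evaluate `c 1`
  have hcard : (((d - 1 : ℕ) : ℝ)) ^ k ≤ ((sphF G o k).card : ℝ) := by
    obtain ⟨p, hp⟩ := exists_adj h o
    have h1 : (Br G o p k).card ≤ (sphF G o k).card := Finset.card_le_card (Finset.filter_subset _ _)
    rw [card_Br h k hp] at h1
    exact_mod_cast h1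
  have hc1' : c 1 = (sphF G o k).card * D k := by
    simp only [hc, pow_one]
    rw [hδ, Sk_single, one_smul, map_sum, LinearMap.sum_apply]
    rw [Finset.sum_congr rfl (g := fun _ => D k), Finset.sum_const, nsmul_eq_mul]
    intro w hw
    rw [mem_sph h] at hw
    rw [BD_single, G.dist_comm, hw]; ring
  have h1 : ((d - 1 : ℕ) : ℝ) ^ k * |D k| ≤ L * D 0 := by
    refine le_trans ?_ hc1
    rw [hc1', abs_mul, abs_of_nonneg (Nat.cast_nonneg (α := ℝ) (sphF G o k).card)]
    exact mul_le_mul_of_nonneg_right hcard (abs_nonneg _)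
  have h2 := b_pow h k
  calc |D k| = (((d - 1 : ℕ) : ℝ) ^ k * |D k|) * (θ ^ k * θ ^ k) := by
        rw [mul_right_comm, h2, one_mul]
    _ ≤ (L * D 0) * (θ ^ k * θ ^ k) := mul_le_mul_of_nonneg_right h1 (by positivity)
    _ = 2 * (k + 1) * θ ^ k * D 0 := by
        rw [hL]
        field_simp

end Vale.Agent.P161C
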