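import Vale.Agent.P161C.HOM
import Vale.Agent.P161C.PDK
import Vale.Agent.P161C.Bas
import Vale.Agent.P161.Efron
import Vale.Agent.P161.Limit

/-!
# P161: above the threshold the free Ising measure is not a factor of IID
-/

namespace Vale.Agent.P161C.CV

open MeasureTheory Vale.Agent.P161 Filter Topology

universe u

variable {V : Type u} {G : SimpleGraph V} {d : ℕ} {θ : ℝ} {μ : Measure (V → Bool)}

/-! ### the two-point function -/

lemma sp_sq (b : Bool) : sp b * sp b = 1 := by cases b <;> norm_num [sp]

lemma abs_sp (b : Bool) : |sp b| = 1 := by cases b <;> simp [sp]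

lemma measurable_sp : Measurable sp := measurable_of_countable _

lemma conn_singleton (G : SimpleGraph V) (a : V) :
    (G.induce ((({a} : Finset V)) : Set V)).Connected := by
  have h := (SimpleGraph.Walk.nil : G.Walk a a).connected_induce_support
  have e : {v | v ∈ (SimpleGraph.Walk.nil : G.Walk a a).support} = ((({a} : Finset V)) : Set V) := by
    ext v; simp
  rw [e] at h
  exact h

lemma integral_sp [IsProbabilityMeasure μ] (h : IsFreeIsing G θ μ) (v : V) :
    ∫ σ, sp (σ v) ∂μ = 0 := by
  classical
  have key : ∀ b : Bool, μ {σ | σ v = b} = ENNReal.ofReal (1 / 2) := by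
    intro b
    have h1 := h {v} (conn_singleton G v) (fun _ => b)
    have e1 : {σ : V → Bool | ∀ u ∈ ({v} : Finset V), σ u = b} = {σ | σ v = b} := by
      ext σ; simp
    rw [e1] at h1
    rw [h1]
    have e2 : (({v} : Finset V).sym2.filter fun e => e ∈ G.edgeSet) = ∅ := by
      rw [Finset.filter_eq_empty_iff]
      intro e he
      rw [Finset.sym2_singleton, Finset.mem_singleton] at he
      subst he
      simp
    rw [e2, Finset.prod_empty, mul_one]
  have hm : MeasurableSet {σ : V → Bool | σ v = true} :=
    measurableSet_eq_fun (measurable_pi_apply v) measurable_const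
  have e : ∀ σ : V → Bool, sp (σ v) = 2 * ({σ : V → Bool | σ v = true}.indicator 1 σ) - 1 := by
    intro σ
    by_cases hσ : σ v = true
    · simp only [Set.indicator, Set.mem_ofPred_eq, hσ, if_true, sp, Pi.one_apply]; norm_num
    · have : σ v = false := by simpa using hσ
      simp only [Set.indicator, Set.mem_ofPred_eq, this, sp, Pi.one_apply]; norm_num
  simp only [e]
  rw [integral_sub _ (integrable_const _), integral_const_mul, integral_indicator_one hm]
  · rw [Measure.real, key true, ENNReal.toReal_ofReal (by norm_num)]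
    simp
  · apply Integrable.const_mul
    exact (integrable_const (1 : ℝ)).indicator hm

lemma two_point [IsProbabilityMeasure μ] (hG : G.IsTree) (h : IsFreeIsing G θ μ) (h0 : 0 ≤ θ)
    (h1 : θ ≤ 1) (n : ℕ) : ∀ v w : V, G.dist v w = n →
      ∫ σ, sp (σ v) * sp (σ w) ∂μ = θ ^ n := by
  classical
  induction n with
  | zero =>
    intro v w hvw
    rw [hG.connected.dist_eq_zero_iff] at hvw
    subst hvw
    simp [sp_sq]
  | succ n ih =>
    intro v w hvw
    obtain ⟨c, hc, hcw⟩ := exists_closer hG.connected hvw
    have hw : w ∈ side G c v := by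
      show G.dist v w = G.dist c w + 1
      omega
    obtain ⟨B, hSB, hcB, hB, hBc⟩ := exists_conn hG hc.symm {w} (fun u hu => by
      rw [Finset.mem_singleton] at hu; subst hu; exact hw)
    have hm := markov hG h h0 h1 hc (A := {v}) (B := B)
      (fun u hu => by rw [Finset.mem_singleton] at hu; subst hu; exact self_mem_side hc)
      hB (Finset.mem_singleton_self v) hcB (conn_singleton G v) hBc
      (F := fun σ => sp (σ v)) (H := fun σ => sp (σ w))
      (fun σ σ' hσ => by rw [hσ v (Finset.mem_singleton_self v)])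
      (fun σ σ' hσ => by rw [hσ w (hSB (Finset.mem_singleton_self w))])
    rw [hm, integral_sp h v, zero_mul, zero_add, ih c w hcw]
    simp only [sp_sq]
    simp [pow_succ, mul_comm]

/-! ### local approximations -/

/-- balls -/
def Bl (G : SimpleGraph V) (v : V) (n : ℕ) : Set V := {w | G.dist v w ≤ n}

lemma dist_iso (hG : G.Connected) (g : G ≃g G) (v w : V) : G.dist (g v) (g w) = G.dist v w := by
  apply le_antisymm
  · obtain ⟨p, hp⟩ := hG.exists_walk_length_eq_dist v w
    rw [← hp, ← SimpleGraph.Walk.length_map g.toHom p]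
    exact SimpleGraph.dist_le _
  · obtain ⟨p, hp⟩ := hG.exists_walk_length_eq_dist (g v) (g w)
    have := SimpleGraph.dist_le (p.map g.symm.toHom)
    rw [SimpleGraph.Walk.length_map, hp] at this
    simpa using this

/-- action on labels -/
def Tg (g : G ≃g G) (x : V → I01) : V → I01 := fun v => x (g.symm v)

lemma mp_Tg (g : G ≃g G) : MeasurePreserving (Tg g) (lamI V) (lamI V) := by
  refine ⟨?_, ?_⟩
  · unfold Tg; fun_prop
  · unfold lamI Tg
    exact Measure.map_infinitePi_infinitePi_of_inj
      (P := fun _ : V => (volume : Measure I01)) g.symm.injective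

lemma mix_Tg (hG : G.Connected) (g : G ≃g G) (v : V) (n : ℕ) (x y : V → I01) :
    mix (Bl G (g v) n) (Tg g x) (Tg g y) = Tg g (mix (Bl G v n) x y) := by
  funext u
  have e : u ∈ Bl G (g v) n ↔ g.symm u ∈ Bl G v n := by
    show G.dist (g v) u ≤ n ↔ G.dist v (g.symm u) ≤ n
    rw [← dist_iso hG g v (g.symm u)]
    simp
  show mix (Bl G (g v) n) (Tg g x) (Tg g y) u = mix (Bl G v n) x y (g.symm u)
  by_cases h : u ∈ Bl G (g v) n
  · rw [mix_mem h, mix_mem (e.1 h)]; rfl
  · rw [mix_notMem h, mix_notMem (fun h2 => h (e.2 h2))]; rfl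

/-- equivariance of the local approximations -/
lemma gS_equi (hG : G.Connected) (g : G ≃g G) (v : V) (n : ℕ) {f f' : (V → I01) → ℝ}
    (hff : ∀ᵐ x ∂(lamI V), f' (Tg g x) = f x) :
    ∀ᵐ x ∂(lamI V), gS f' (Bl G (g v) n) (Tg g x) = gS f (Bl G v n) x := by
  have h1 : ∀ᵐ p ∂((lamI V).prod (lamI V)),
      f' (Tg g (mix (Bl G v n) p.1 p.2)) = f (mix (Bl G v n) p.1 p.2) :=
    (mp_mix (Bl G v n)).quasiMeasurePreserving.ae hff
  have h2 := Measure.ae_ae_of_ae_prod h1
  filter_upwards [h2] with x hx
  unfold gS
  rw [← (mp_Tg g).integral_comp' (f := ⟨⟨Tg g, Tg g.symm, fun x => by funext v; simp [Tg],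
    fun x => by funext v; simp [Tg]⟩, (mp_Tg g).measurable, (mp_Tg g.symm).measurable⟩)]
  apply integral_congr_ae
  filter_upwards [hx] with y hy
  rw [← hy, ← mix_Tg hG]
  rfl

/-- covariance of two local approximations -/
noncomputable def cv (f f' : (V → I01) → ℝ) (S S' : Set V) : ℝ :=
  ∫ x, gS f S x * gS f' S' x ∂(lamI V)

lemma cv_equi (hG : G.Connected) (g : G ≃g G) (v w : V) (n : ℕ) {f f' h h' : (V → I01) → ℝ}
    (hf : ∀ᵐ x ∂(lamI V), f' (Tg g x) = f x) (hh : ∀ᵐ x ∂(lamI V), h' (Tg g x) = h x) :
    cv f' h' (Bl G (g v) n) (Bl G (g w) n) = cv f h (Bl G v n) (Bl G w n) := by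
  unfold cv
  rw [← (mp_Tg g).integral_comp' (f := ⟨⟨Tg g, Tg g.symm, fun x => by funext v; simp [Tg],
    fun x => by funext v; simp [Tg]⟩, (mp_Tg g).measurable, (mp_Tg g.symm).measurable⟩)]
  apply integral_congr_ae
  filter_upwards [gS_equi hG g v n hf, gS_equi hG g w n hh] with x h1 h2
  show gS f' (Bl G (g v) n) (Tg g x) * gS h' (Bl G (g w) n) (Tg g x) = _
  rw [h1, h2]

lemma mix_mix_left (S : Set V) (x y z : V → I01) : mix S (mix S x y) z = mix S x z := by
  funext u
  by_cases h : u ∈ S
  · rw [mix_mem h, mix_mem h, mix_mem h]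
  · rw [mix_notMem h, mix_notMem h]

lemma mix_mix_disj {S S' : Set V} (hd : ∀ u ∈ S, u ∉ S') (x y z : V → I01) :
    mix S' (mix S x y) z = mix S' y z := by
  funext u
  by_cases h : u ∈ S'
  · rw [mix_mem h, mix_mem h, mix_notMem (fun h2 => hd u h2 h)]
  · rw [mix_notMem h, mix_notMem h]

/-- independence over disjoint sets -/
lemma cv_disj {S S' : Set V} (hd : ∀ u ∈ S, u ∉ S') {f f' : (V → I01) → ℝ} (hf : Measurable f)
    (hf' : Measurable f') :
    cv f f' S S' = (∫ x, gS f S x ∂(lamI V)) * ∫ x, gS f' S' x ∂(lamI V) := by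
  unfold cv
  have h1 : Measurable fun x => gS f S x * gS f' S' x := (measurable_gS hf S).mul (measurable_gS hf' S')
  rw [← (mp_mix S).map_eq, integral_map (measurable_mix S).aemeasurable h1.aestronglyMeasurable]
  have e : ∀ p : (V → I01) × (V → I01), gS f S (mix S p.1 p.2) * gS f' S' (mix S p.1 p.2)
      = gS f S p.1 * gS f' S' p.2 := by
    intro p
    unfold gS
    simp only [mix_mix_left, mix_mix_disj hd]
  simp only [e]
  rw [(mp_mix S).map_eq]
  exact integral_prod_mul (gS f S) (gS f' S')

/-- mean of the local approximation -/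
lemma integral_gS {f : (V → I01) → ℝ} (hf : Measurable f) {B : ℝ} (hB : ∀ x, |f x| ≤ B)
    (S : Set V) : ∫ x, gS f S x ∂(lamI V) = ∫ x, f x ∂(lamI V) := by
  have h2 : ∫ x, f x ∂(lamI V) = ∫ p, f (mix S p.1 p.2) ∂((lamI V).prod (lamI V)) := by
    conv_lhs => rw [← (mp_mix S).map_eq]
    rw [integral_map (measurable_mix S).aemeasurable hf.aestronglyMeasurable]
  rw [h2, integral_prod]
  · rfl
  · exact integrable_of_bdd (hf.comp (measurable_mix S)) fun _ => hB _

/-! ### convergence of the local approximations -/

lemma gS_condExp {f : (V → I01) → ℝ} (hf : Measurable f) {B : ℝ} (hB : ∀ x, |f x| ≤ B)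
    (S : Set V) (z : V → I01) :
    gS f S =ᵐ[lamI V] (lamI V)[f | MeasurableSpace.comap (fun x => mix S x z) inferInstance] := by
  classical
  have hm : Measurable fun x : V → I01 => mix S x z :=
    (measurable_mix S).comp (measurable_id.prodMk measurable_const)
  have hfi : Integrable f (lamI V) := integrable_of_bdd hf hB
  have hgi : Integrable (gS f S) (lamI V) := integrable_of_bdd (measurable_gS hf S) (abs_gS_le hB S)
  apply ae_eq_condExp_of_forall_setIntegral_eq hm.comap_le hfi
  · intro s _ _
    exact hgi.integrableOn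
  · rintro s ⟨t, ht, rfl⟩ _
    have hs : MeasurableSet ((fun x : V → I01 => mix S x z) ⁻¹' t) := hm ht
    rw [← integral_indicator hs, ← integral_indicator hs]
    have h2 : ∫ x, ((fun x : V → I01 => mix S x z) ⁻¹' t).indicator f x ∂(lamI V)
        = ∫ p, ((fun x : V → I01 => mix S x z) ⁻¹' t).indicator f (mix S p.1 p.2)
          ∂((lamI V).prod (lamI V)) := by
      conv_lhs => rw [← (mp_mix S).map_eq]
      rw [integral_map (measurable_mix S).aemeasurable (hf.indicator hs).aestronglyMeasurable]
    rw [h2, integral_prod]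
    · apply integral_congr_ae
      refine Eventually.of_forall fun x => ?_
      have e : ∀ y, ((fun x : V → I01 => mix S x z) ⁻¹' t).indicator f (mix S x y)
          = if mix S x z ∈ t then f (mix S x y) else 0 := by
        intro y
        unfold Set.indicator
        simp only [Set.mem_preimage, mix_mix_left]
      simp only [e]
      unfold gS Set.indicator
      by_cases hx : mix S x z ∈ t
      · simp [hx]
      · simp [hx]
    · apply integrable_of_bdd ((hf.indicator hs).comp (measurable_mix S)) (B := B)
      intro p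
      show |((fun x : V → I01 => mix S x z) ⁻¹' t).indicator f (mix S p.1 p.2)| ≤ B
      unfold Set.indicator
      split_ifs
      · exact hB _
      · rw [abs_zero]; exact (abs_nonneg _).trans (hB z)
  · have e : gS f S = (gS f S) ∘ fun x => mix S x z := by
      funext x
      unfold gS
      simp only [Function.comp, mix_mix_left]
    have : Measurable[MeasurableSpace.comap (fun x => mix S x z) inferInstance] (gS f S) := by
      rw [e]
      exact (measurable_gS hf S).comp (Measurable.of_comap_le le_rfl)
    exact this.stronglyMeasurable.aestronglyMeasurable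

lemma gS_tendsto {f : (V → I01) → ℝ} (hf : Measurable f) {B : ℝ}
    (hB : ∀ x, |f x| ≤ B) (v : V) :
    ∀ᵐ x ∂(lamI V), Tendsto (fun n => gS f (Bl G v n) x) atTop (𝓝 (f x)) := by
  let z : V → I01 := fun _ => 0
  have hm : ∀ S : Set V, Measurable fun x : V → I01 => mix S x z := fun S =>
    (measurable_mix S).comp (measurable_id.prodMk measurable_const)
  let ℱ : Filtration ℕ (inferInstance : MeasurableSpace (V → I01)) :=
    { seq := fun n => MeasurableSpace.comap (fun x => mix (Bl G v n) x z) inferInstance
      mono' := by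
        intro m n hmn
        have e : (fun x : V → I01 => mix (Bl G v m) x z)
            = (fun x => mix (Bl G v m) x z) ∘ (fun x => mix (Bl G v n) x z) := by
          funext x u
          by_cases h : u ∈ Bl G v m
          · have h' : u ∈ Bl G v n := le_trans (show G.dist v u ≤ m from h) hmn
            show mix (Bl G v m) x z u = mix (Bl G v m) (mix (Bl G v n) x z) z u
            rw [mix_mem h, mix_mem h, mix_mem h']
          · show mix (Bl G v m) x z u = mix (Bl G v m) (mix (Bl G v n) x z) z u
            rw [mix_notMem h, mix_notMem h]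
        show MeasurableSpace.comap (fun x : V → I01 => mix (Bl G v m) x z) inferInstance
          ≤ MeasurableSpace.comap (fun x : V → I01 => mix (Bl G v n) x z) inferInstance
        rw [e, ← MeasurableSpace.comap_comp]
        exact MeasurableSpace.comap_mono (hm _).comap_le
      le' := fun n => (hm _).comap_le }
  have hL := tendsto_ae_condExp (μ := lamI V) (ℱ := ℱ) f
  have hall : ∀ᵐ x ∂(lamI V), ∀ n, gS f (Bl G v n) x = ((lamI V)[f | ℱ n]) x :=
    ae_all_iff.2 fun n => gS_condExp hf hB (Bl G v n) z
  have hsup : (⨆ n, ℱ n) = (inferInstance : MeasurableSpace (V → I01)) := by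
    apply le_antisymm (iSup_le fun n => ℱ.le n)
    have hid : Measurable[⨆ n, ℱ n] (fun x : V → I01 => x) := by
      rw [@measurable_pi_iff]
      intro u
      have h1 : Measurable[ℱ (G.dist v u)] fun x : V → I01 => x u := by
        have e2 : (fun x : V → I01 => x u) = (fun x : V → I01 => x u) ∘
            (fun x => mix (Bl G v (G.dist v u)) x z) := by
          funext x
          show x u = mix (Bl G v (G.dist v u)) x z u
          rw [mix_mem (show u ∈ Bl G v (G.dist v u) from le_refl (G.dist v u))]
        rw [e2]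
        exact (measurable_pi_apply u).comp (Measurable.of_comap_le le_rfl)
      exact h1.mono (le_iSup (fun n => (ℱ n : MeasurableSpace (V → I01))) _) le_rfl
    have h3 := hid.comap_le
    have h4 : MeasurableSpace.comap (fun x : V → I01 => x) inferInstance
        = (inferInstance : MeasurableSpace (V → I01)) := MeasurableSpace.comap_id
    rwa [h4] at h3
  rw [hsup] at hL
  have he : (lamI V)[f | (inferInstance : MeasurableSpace (V → I01))] = f :=
    condExp_of_stronglyMeasurable le_rfl hf.stronglyMeasurable (integrable_of_bdd hf hB)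
  rw [he] at hL
  filter_upwards [hL, hall] with x h1 h2
  exact Tendsto.congr (fun n => (h2 n).symm) h1

/-! ### the correlation bound for factors of IID -/

lemma exists_dist (h : Crit G d θ) (v : V) (k : ℕ) : ∃ w, G.dist v w = k := by
  classical
  induction k with
  | zero => exact ⟨v, SimpleGraph.dist_self⟩
  | succ k ih =>
    obtain ⟨w, hw⟩ := ih
    have hcard : 1 < (nb G w).card := by
      rw [PO.Crit.card_nb h]; have := h.hd; omega
    obtain ⟨a, ha, c, hc, hac⟩ := Finset.one_lt_card.1 hcard
    rw [PO.Crit.mem_nb h] at ha hc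
    by_contra hcon
    push Not at hcon
    have key : ∀ x, G.Adj w x → G.dist w v = G.dist x v + 1 := by
      intro x hx
      rcases dist_split h.tree hx v with h1 | h1
      · exfalso
        apply hcon x
        rw [G.dist_comm, h1, G.dist_comm, hw]
      · exact h1
    exact hac (closer_unique h.tree ha hc (key a ha) (key c hc))

lemma correlation (h : Crit G d θ) {f : V → (V → I01) → ℝ} (hf : ∀ v, Measurable (f v))
    (hB : ∀ v x, |f v x| ≤ 1) (h0 : ∀ v, ∫ x, f v x ∂(lamI V) = 0)
    (heq : ∀ (g : G ≃g G) (v : V), ∀ᵐ x ∂(lamI V), f (g v) (Tg g x) = f v x) (v w : V) :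
    |∫ x, f v x * f w x ∂(lamI V)| ≤ 2 * (G.dist v w + 1) * θ ^ G.dist v w := by
  classical
  have hconn := h.tree.connected
  have hpos := h.pos
  have hlt := PO.Crit.th_lt h
  -- the value at level n
  have hbound : ∀ (n : ℕ) (v w : V), |cv (f v) (f w) (Bl G v n) (Bl G w n)| ≤ 1 := by
    intro n v w
    unfold cv
    have h1 : ∀ x, |gS (f v) (Bl G v n) x * gS (f w) (Bl G w n) x| ≤ 1 := by
      intro x
      rw [abs_mul]
      exact mul_le_one₀ (abs_gS_le (hB v) _ x) (abs_nonneg _) (abs_gS_le (hB w) _ x)
    have h2 := norm_integral_le_of_norm_le_const (μ := lamI V)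
      (f := fun x => gS (f v) (Bl G v n) x * gS (f w) (Bl G w n) x) (C := 1)
      (Eventually.of_forall fun x => h1 x)
    simpa using h2
  have hlev : ∀ (n : ℕ) (v w : V), |cv (f v) (f w) (Bl G v n) (Bl G w n)|
      ≤ 2 * (G.dist v w + 1) * θ ^ G.dist v w := by
    intro n v w
    have hrad : ∀ a b a' b' : V, G.dist a b = G.dist a' b' →
        cv (f a) (f b) (Bl G a n) (Bl G b n) = cv (f a') (f b') (Bl G a' n) (Bl G b' n) := by
      intro a b a' b' hd
      obtain ⟨g, hga, hgb⟩ := hom h a b a' b' hd
      rw [← hga, ← hgb]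
      exact (cv_equi hconn g a b n (heq g a) (heq g b)).symm
    let D : ℕ → ℝ := fun k => if hk : ∃ p : V × V, G.dist p.1 p.2 = k then
      cv (f hk.choose.1) (f hk.choose.2) (Bl G hk.choose.1 n) (Bl G hk.choose.2 n) else 0
    have hD : ∀ a b : V, D (G.dist a b) = cv (f a) (f b) (Bl G a n) (Bl G b n) := by
      intro a b
      have hk : ∃ p : V × V, G.dist p.1 p.2 = G.dist a b := ⟨(a, b), rfl⟩
      show (if hk : ∃ p : V × V, G.dist p.1 p.2 = G.dist a b then
        cv (f hk.choose.1) (f hk.choose.2) (Bl G hk.choose.1 n) (Bl G hk.choose.2 n) else 0) = _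
      rw [dif_pos hk]
      exact hrad _ _ _ _ hk.choose_spec
    have hpsd : ∀ (S : Finset V) (c : V → ℝ),
        0 ≤ ∑ a ∈ S, ∑ b ∈ S, c a * c b * D (G.dist a b) := by
      intro S c
      have hint : ∀ a b, Integrable (fun x => c a * c b *
          (gS (f a) (Bl G a n) x * gS (f b) (Bl G b n) x)) (lamI V) := by
        intro a b
        apply Integrable.const_mul
        apply integrable_of_bdd ((measurable_gS (hf a) _).mul (measurable_gS (hf b) _)) (B := 1)
        intro x
        show |gS (f a) (Bl G a n) x * gS (f b) (Bl G b n) x| ≤ 1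
        rw [abs_mul]
        exact mul_le_one₀ (abs_gS_le (hB a) _ x) (abs_nonneg _) (abs_gS_le (hB b) _ x)
      have e : ∑ a ∈ S, ∑ b ∈ S, c a * c b * D (G.dist a b)
          = ∫ x, (∑ a ∈ S, c a * gS (f a) (Bl G a n) x) ^ 2 ∂(lamI V) := by
        have e1 : ∀ x, (∑ a ∈ S, c a * gS (f a) (Bl G a n) x) ^ 2
            = ∑ a ∈ S, ∑ b ∈ S, c a * c b * (gS (f a) (Bl G a n) x * gS (f b) (Bl G b n) x) := by
          intro x
          rw [sq, Finset.sum_mul_sum]
          apply Finset.sum_congr rfl; intro a _
          apply Finset.sum_congr rfl; intro b _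
          ring
        simp only [e1]
        rw [integral_finsetSum]
        · apply Finset.sum_congr rfl; intro a _
          rw [integral_finsetSum]
          · apply Finset.sum_congr rfl; intro b _
            rw [integral_const_mul, hD]
            rfl
          · intro b _; exact hint a b
        · intro a _
          exact integrable_finsetSum _ fun b _ => hint a b
      rw [e]
      exact integral_nonneg fun x => sq_nonneg _
    have hdec : ∀ k, |D k| ≤ (θ ^ (2 * n))⁻¹ * θ ^ k := by
      intro k
      have hp : 0 < θ ^ (2 * n) := pow_pos hpos _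
      by_cases hk : ∃ p : V × V, G.dist p.1 p.2 = k
      · obtain ⟨p, hp2⟩ := hk
        rw [← hp2, hD]
        by_cases hle : G.dist p.1 p.2 ≤ 2 * n
        · refine (hbound n _ _).trans ?_
          rw [inv_mul_eq_div, le_div_iff₀ hp, one_mul]
          exact pow_le_pow_of_le_one hpos.le hlt.le hle
        · have hz : cv (f p.1) (f p.2) (Bl G p.1 n) (Bl G p.2 n) = 0 := by
            rw [cv_disj _ (hf _) (hf _), integral_gS (hf _) (hB _), h0, zero_mul]
            intro u hu hu'
            have h1 : G.dist p.1 u ≤ n := hu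
            have h2 : G.dist p.2 u ≤ n := hu'
            have h3 := hconn.dist_triangle (u := p.1) (v := u) (w := p.2)
            rw [G.dist_comm (u := u)] at h3
            omega
          rw [hz, abs_zero]
          positivity
      · show |if hk : ∃ p : V × V, G.dist p.1 p.2 = k then
          cv (f hk.choose.1) (f hk.choose.2) (Bl G hk.choose.1 n) (Bl G hk.choose.2 n) else 0| ≤ _
        rw [dif_neg hk, abs_zero]
        positivity
    have h1 := pdk h D hpsd _ hdec (G.dist v w)
    rw [hD] at h1
    have h2 : D 0 ≤ 1 := by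
      have h3 := hD v v
      rw [SimpleGraph.dist_self] at h3
      rw [h3]
      exact (le_abs_self _).trans (hbound n v v)
    refine h1.trans ?_
    have h3 : 0 ≤ 2 * ((G.dist v w : ℝ) + 1) * θ ^ G.dist v w := by positivity
    nlinarith
  -- the limit
  have hlim : Tendsto (fun n => cv (f v) (f w) (Bl G v n) (Bl G w n)) atTop
      (𝓝 (∫ x, f v x * f w x ∂(lamI V))) := by
    unfold cv
    apply tendsto_integral_of_dominated_convergence (fun _ => 1)
    · intro n
      exact ((measurable_gS (hf v) _).mul (measurable_gS (hf w) _)).aestronglyMeasurable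
    · exact integrable_const _
    · intro n
      refine Eventually.of_forall fun x => ?_
      rw [Real.norm_eq_abs, abs_mul]
      exact mul_le_one₀ (abs_gS_le (hB v) _ x) (abs_nonneg _) (abs_gS_le (hB w) _ x)
    · filter_upwards [gS_tendsto (hf v) (hB v) v, gS_tendsto (hf w) (hB w) w]
        with x h1 h2
      exact h1.mul h2
  exact le_of_tendsto hlim.abs (Eventually.of_forall fun n => hlev n v w)

/-- above the threshold the free Ising measure is not a factor of IID -/
theorem not_factor {d : ℕ} (hd : 3 ≤ d) (hG : G.IsTree) (hreg : ∀ v, (G.neighborSet v).ncard = d)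
    (hθ : 1 / √((d : ℝ) - 1) < θ) (hθ1 : θ ≤ 1) (h : IsFreeIsing G θ μ) :
    ¬ IsFactorOfIID G μ := by
  rintro ⟨Φ, hΦ, hlaw, hequi⟩
  have hd3 : (3 : ℝ) ≤ d := by exact_mod_cast hd
  set t : ℝ := 1 / √((d : ℝ) - 1) with ht
  have hs : 0 < √((d : ℝ) - 1) := Real.sqrt_pos.2 (by linarith)
  have ht0 : 0 < t := by positivity
  have hcrit : Crit G d t := by
    refine ⟨hd, hG, hreg, ht0, ?_⟩
    rw [ht, div_pow, one_pow, Real.sq_sqrt (by linarith)]
    field_simp
    exact div_self (by linarith)
  obtain ⟨v⟩ := hG.connected.nonempty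
  have hne : Nonempty V := ⟨v⟩
  have hprob : IsProbabilityMeasure μ := isProb_of_isFreeIsing h
  have hm : ∀ u : V, Measurable fun x => sp (Φ x u) := fun u =>
    measurable_sp.comp ((measurable_pi_apply u).comp hΦ)
  have hlaw' : (lamI V).map Φ = μ := hlaw
  have h0 : ∀ u : V, ∫ x, sp (Φ x u) ∂(lamI V) = 0 := by
    intro u
    have h1 := integral_sp h u
    rw [← hlaw', integral_map hΦ.aemeasurable] at h1
    · exact h1
    · exact (measurable_sp.comp (measurable_pi_apply u)).aestronglyMeasurable
  have hcorr : ∀ k : ℕ, θ ^ k ≤ 2 * (k + 1) * t ^ k := by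
    intro k
    obtain ⟨w, hw⟩ := exists_dist hcrit v k
    have h1 := correlation hcrit (f := fun u x => sp (Φ x u)) hm
      (fun u x => (abs_sp _).le) h0 (by
        intro g u
        filter_upwards [hequi g] with x hx
        show sp (Φ (fun v => x (g.symm v)) (g u)) = _
        rw [hx]
        simp) v w
    have h2 := two_point hG h (ht0.le.trans hθ.le) hθ1 k v w hw
    have hms : Measurable fun σ : V → Bool => sp (σ v) * sp (σ w) :=
      (measurable_sp.comp (measurable_pi_apply v)).mul (measurable_sp.comp (measurable_pi_apply w))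
    rw [← hlaw', integral_map hΦ.aemeasurable hms.aestronglyMeasurable] at h2
    rw [hw] at h1
    have h3 : ∫ x, sp (Φ x v) * sp (Φ x w) ∂(lamI V) = θ ^ k := h2
    rw [h3] at h1
    exact (le_abs_self _).trans h1
  have hr : 1 < θ / t := (one_lt_div ht0).2 hθ
  have hlim := (tendsto_pow_const_div_const_pow_of_one_lt 1 hr)
  have hlim2 := (tendsto_pow_const_div_const_pow_of_one_lt 0 hr)
  have hlim3 := (hlim.add hlim2).const_mul 2
  rw [add_zero, mul_zero] at hlim3
  obtain ⟨k, hk⟩ := ((tendsto_order.1 hlim3).2 1 one_pos).exists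
  have h4 := hcorr k
  have h5 : 0 < (θ / t) ^ k := by positivity
  have h6 : (θ / t) ^ k ≤ 2 * (k + 1) := by
    rw [div_pow, div_le_iff₀ (by positivity)]
    exact h4
  rw [pow_one, pow_zero, ← add_div, ← mul_div_assoc, div_lt_one h5] at hk
  linarith

end Vale.Agent.P161C.CV
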