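import Vale.Agent.P161C.Defs
import Vale.Agent.P161.IsingUniq

/-!
# Tools: disintegration with respect to the labels, locality in one label
-/

namespace Vale.Agent.P161C

open MeasureTheory Vale.Agent.P161 Filter Topology

universe u

variable {V : Type u}

namespace Dis

instance : IsProbabilityMeasure (lam V) := by unfold lam; infer_instance

lemma mem_sphF {G : SimpleGraph V} {d : ℕ} {θ : ℝ} (hc : Crit G d θ) {v w : V} {k : ℕ} :
    w ∈ sphF G v k ↔ G.dist v w = k := by
  have hfin : {w | G.dist v w = k}.Finite := by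
    have h := sph_finite hc.tree.connected (by have := hc.hd; omega : 1 ≤ d) hc.reg v k
    have e : sph G v k = {w | G.dist v w = k} := by
      ext w; simp [sph, G.dist_comm]
    rwa [e] at h
  unfold sphF
  rw [dif_pos hfin]
  simp

lemma countable {G : SimpleGraph V} {d : ℕ} {θ : ℝ} (hc : Crit G d θ) : Countable V :=
  countable_tree hc.tree.connected (by have := hc.hd; omega : 1 ≤ d) hc.reg

lemma crit_pos {G : SimpleGraph V} {d : ℕ} {θ : ℝ} (hc : Crit G d θ) : 0 < θ := hc.pos

lemma crit_lt {G : SimpleGraph V} {d : ℕ} {θ : ℝ} (hc : Crit G d θ) : θ < 1 := by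
  have h1 := hc.crit
  have h2 := hc.pos
  have h3 : (3 : ℝ) ≤ d := by exact_mod_cast hc.hd
  by_contra h
  push Not at h
  nlinarith [mul_le_mul h h (by norm_num) h2.le]

lemma isProb {G : SimpleGraph V} {d : ℕ} {θ : ℝ} (hc : Crit G d θ) {μ : Measure (V → Bool)}
    (hμ : IsFreeIsing G θ μ) : IsProbabilityMeasure μ := by
  have := hc.tree.connected.nonempty
  exact isProb_of_isFreeIsing hμ

instance isProb_PP {μ : Measure (V → Bool)} [IsProbabilityMeasure μ] :
    IsProbabilityMeasure (PP μ) := by unfold PP; infer_instance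

/-- `PP` seen as: first the labels, then the spins and the noise -/
lemma mp_PP (μ : Measure (V → Bool)) [IsProbabilityMeasure μ] :
    MeasurePreserving (fun q : (V × ℕ → I01) × ((V → Bool) × (V × ℕ → I01)) =>
      ((q.2.1, (q.1, q.2.2)) : Om V)) ((lam V).prod (μ.prod (lam V))) (PP μ) := by
  have h1 : MeasurePreserving
      (MeasurableEquiv.prodAssoc (α := V × ℕ → I01) (β := V → Bool) (γ := V × ℕ → I01)).symm
      ((lam V).prod (μ.prod (lam V))) (((lam V).prod μ).prod (lam V)) :=
    (measurePreserving_prodAssoc (lam V) μ (lam V)).symm _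
  have h2 : MeasurePreserving (Prod.map Prod.swap id)
      (((lam V).prod μ).prod (lam V)) ((μ.prod (lam V)).prod (lam V)) :=
    (Measure.measurePreserving_swap (μ := lam V) (ν := μ)).prod
      (MeasurePreserving.id (lam V))
  have h3 := measurePreserving_prodAssoc μ (lam V) (lam V)
  exact (h3.comp h2).comp h1

lemma measurable_rearr : Measurable (fun q : (V × ℕ → I01) × ((V → Bool) × (V × ℕ → I01)) =>
      ((q.2.1, (q.1, q.2.2)) : Om V)) := by fun_prop

lemma lintegral_PP (μ : Measure (V → Bool)) [IsProbabilityMeasure μ] (f : Om V → ENNReal)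
    (hf : Measurable f) :
    ∫⁻ ω, f ω ∂(PP μ) = ∫⁻ U, ∫⁻ p, f (p.1, (U, p.2)) ∂(μ.prod (lam V)) ∂(lam V) := by
  rw [← (mp_PP μ).lintegral_comp hf, lintegral_prod]
  exact (hf.comp measurable_rearr).aemeasurable

lemma integral_PP (μ : Measure (V → Bool)) [IsProbabilityMeasure μ] (f : Om V → ℝ)
    (hf : Measurable f) {B : ℝ} (hB : ∀ ω, |f ω| ≤ B) :
    ∫ ω, f ω ∂(PP μ) = ∫ U, ∫ p, f (p.1, (U, p.2)) ∂(μ.prod (lam V)) ∂(lam V) := by
  rw [← (mp_PP μ).map_eq, integral_map measurable_rearr.aemeasurable hf.aestronglyMeasurable,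
    integral_prod]
  exact integrable_of_bdd (hf.comp measurable_rearr) (fun q => hB _)

lemma ae_PP (μ : Measure (V → Bool)) [IsProbabilityMeasure μ] {P : Om V → Prop}
    (h : ∀ᵐ ω ∂(PP μ), P ω) :
    ∀ᵐ U ∂(lam V), ∀ᵐ p ∂(μ.prod (lam V)), P (p.1, (U, p.2)) := by
  have := (mp_PP μ).quasiMeasurePreserving.ae h
  exact Measure.ae_ae_of_ae_prod this

/-- a property which holds for almost all `p`, for every `U`, holds almost surely -/
lemma ae_PP_of (μ : Measure (V → Bool)) [IsProbabilityMeasure μ] {P : Om V → Prop}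
    (hm : MeasurableSet {ω | P ω})
    (h : ∀ U, ∀ᵐ p ∂(μ.prod (lam V)), P (p.1, (U, p.2))) : ∀ᵐ ω ∂(PP μ), P ω := by
  have h1 : ∀ᵐ q ∂((lam V).prod (μ.prod (lam V))), P (q.2.1, (q.1, q.2.2)) := by
    rw [ae_iff]
    have hm' : MeasurableSet {q : (V × ℕ → I01) × ((V → Bool) × (V × ℕ → I01)) |
        ¬ P (q.2.1, (q.1, q.2.2))} := measurable_rearr hm.compl
    rw [Measure.prod_apply hm']
    simp only [lintegral_eq_zero_iff (measurable_measure_prodMk_left hm')]
    filter_upwards with U
    have := h U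
    rw [ae_iff] at this
    exact this
  rw [← (mp_PP μ).map_eq]
  exact (ae_map_iff measurable_rearr.aemeasurable hm).2 h1

/-! ### one label -/

open Classical in
/-- change the label of the event `k` -/
noncomputable def updU (ω : Om V) (k : V × ℕ) (r : I01) : Om V :=
  (ω.1, (Function.update ω.2.1 k r, ω.2.2))

lemma measurable_updU (k : V × ℕ) : Measurable fun q : Om V × I01 => updU q.1 k q.2 := by
  classical
  unfold updU
  have h := measurable_upd (ι := V × ℕ) k
  have h2 : Measurable fun q : Om V × I01 => Function.update q.1.2.1 k q.2 := by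
    have h3 : Measurable fun q : Om V × I01 => (q.1.2.1, q.2) := by fun_prop
    exact h.comp h3
  refine Measurable.prodMk (by fun_prop) (Measurable.prodMk ?_ (by fun_prop))
  convert h2 using 1

lemma lintegral_updU (μ : Measure (V → Bool)) [IsProbabilityMeasure μ] (k : V × ℕ)
    (f : Om V → ENNReal) (hf : Measurable f) :
    ∫⁻ ω, f ω ∂(PP μ) = ∫⁻ ω, (∫⁻ r : I01, f (updU ω k r)) ∂(PP μ) := by
  classical
  have hm : Measurable fun q : Om V × I01 => f (updU q.1 k q.2) := hf.comp (measurable_updU k)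
  rw [lintegral_PP μ f hf, lintegral_PP μ _ hm.lintegral_prod_right']
  have h1 : ∀ g : (V × ℕ → I01) → ENNReal, Measurable g →
      ∫⁻ U, g U ∂(lam V) = ∫⁻ U, (∫⁻ t : I01, g (Function.update U k t)) ∂(lam V) :=
    fun g hg => lintegral_upd k g hg
  have hm1 : Measurable fun q : (V × ℕ → I01) × ((V → Bool) × (V × ℕ → I01)) =>
      f (q.2.1, (q.1, q.2.2)) := hf.comp measurable_rearr
  rw [h1 _ hm1.lintegral_prod_right']
  apply lintegral_congr
  intro U
  have hm2 : Measurable fun q : I01 × ((V → Bool) × (V × ℕ → I01)) =>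
      f (q.2.1, (Function.update U k q.1, q.2.2)) := by
    apply hf.comp
    have h3 : Measurable fun q : I01 × ((V → Bool) × (V × ℕ → I01)) =>
        Function.update U k q.1 := by
      have h := measurable_upd (ι := V × ℕ) k
      have h4 : Measurable fun q : I01 × ((V → Bool) × (V × ℕ → I01)) => (U, q.1) := by fun_prop
      exact h.comp h4
    exact Measurable.prodMk (by fun_prop) (Measurable.prodMk h3 (by fun_prop))
  rw [lintegral_lintegral_swap hm2.aemeasurable]
  apply lintegral_congr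
  intro p
  apply lintegral_congr
  intro r
  unfold updU
  congr!

/-- `F s` depends on the label of `k` only through the event that the time of `k` is `< s` -/
def LocalAt (k : V × ℕ) (F : ℝ → Om V → ENNReal) : Prop :=
  ∀ (s : ℝ) (ω : Om V) (r r' : I01), s ≤ k.2 + (r : ℝ) → s ≤ k.2 + (r' : ℝ) →
    F s (updU ω k r) = F s (updU ω k r')

lemma volume_Ici (r : I01) : (volume : Measure I01) (Set.Ici r) = ENNReal.ofReal (1 - r) := by
  rw [unitInterval.volume_Ici]

/-- the disintegration inequality for one random time -/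
theorem lintegral_local (μ : Measure (V → Bool)) [IsProbabilityMeasure μ] (k : V × ℕ)
    (F : ℝ → Om V → ENNReal) (hF : Measurable (Function.uncurry F)) (hloc : LocalAt k F) :
    ∫⁻ ω, ENNReal.ofReal (dl (ω.2.1 k) ^ 2) * F (kap ω.2.1 k) ω ∂(PP μ)
      ≤ ∫⁻ r : I01, ENNReal.ofReal r * ∫⁻ ω, F (k.2 + (r : ℝ)) ω ∂(PP μ) := by
  classical
  have hdl : Measurable dl := by unfold dl; fun_prop
  have hkap : Measurable fun ω : Om V => kap ω.2.1 k := by unfold kap; fun_prop
  have hFk : Measurable fun ω : Om V => F (kap ω.2.1 k) ω := by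
    exact hF.comp (hkap.prodMk measurable_id)
  have hm : Measurable fun ω : Om V =>
      ENNReal.ofReal (dl (ω.2.1 k) ^ 2) * F (kap ω.2.1 k) ω := by
    apply Measurable.mul _ hFk
    apply Measurable.ennreal_ofReal
    exact (hdl.comp (by fun_prop : Measurable fun ω : Om V => ω.2.1 k)).pow_const 2
  rw [lintegral_updU μ k _ hm]
  have hFu : Measurable fun q : (I01 × Om V) × I01 =>
      F (k.2 + (q.1.1 : ℝ)) (updU q.1.2 k q.2) := by
    have h1 : Measurable fun q : (I01 × Om V) × I01 => updU q.1.2 k q.2 :=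
      (measurable_updU k).comp (by fun_prop :
        Measurable fun q : (I01 × Om V) × I01 => (q.1.2, q.2))
    have h2 : Measurable fun q : (I01 × Om V) × I01 => ((k.2 : ℝ) + (q.1.1 : ℝ)) := by fun_prop
    exact hF.comp (h2.prodMk h1)
  have hstep : ∀ ω : Om V, ∀ r : I01,
      ENNReal.ofReal (dl ((updU ω k r).2.1 k) ^ 2) * F (kap (updU ω k r).2.1 k) (updU ω k r)
        ≤ ENNReal.ofReal r * ∫⁻ r' : I01, F (k.2 + (r : ℝ)) (updU ω k r') := by
    intro ω r
    have e1 : (updU ω k r).2.1 k = r := by simp [updU]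
    have e2 : kap (updU ω k r).2.1 k = k.2 + (r : ℝ) := by simp [kap, e1]
    rw [e1, e2]
    have hr0 : 0 ≤ (r : ℝ) := r.2.1
    have hr1 : 0 ≤ 1 - (r : ℝ) := by linarith [r.2.2]
    have e3 : dl r ^ 2 = (r : ℝ) * (1 - r) := by
      unfold dl; rw [Real.sq_sqrt (mul_nonneg hr0 hr1)]
    rw [e3, ENNReal.ofReal_mul hr0, mul_assoc]
    gcongr
    rw [← volume_Ici r]
    calc (volume : Measure I01) (Set.Ici r) * F (k.2 + (r : ℝ)) (updU ω k r)
        = ∫⁻ r' in Set.Ici r, F (k.2 + (r : ℝ)) (updU ω k r) := by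
          rw [setLIntegral_const, mul_comm]
      _ = ∫⁻ r' in Set.Ici r, F (k.2 + (r : ℝ)) (updU ω k r') := by
          apply setLIntegral_congr_fun measurableSet_Ici
          intro r' hr'
          apply hloc
          · exact le_rfl
          · have : (r : ℝ) ≤ r' := hr'
            linarith
      _ ≤ ∫⁻ r' : I01, F (k.2 + (r : ℝ)) (updU ω k r') := setLIntegral_le_lintegral _ _
  have hmA : Measurable fun q : I01 × Om V =>
      ∫⁻ r' : I01, F (k.2 + (q.1 : ℝ)) (updU q.2 k r') := hFu.lintegral_prod_right'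
  calc ∫⁻ ω, (∫⁻ r : I01, ENNReal.ofReal (dl ((updU ω k r).2.1 k) ^ 2)
          * F (kap (updU ω k r).2.1 k) (updU ω k r)) ∂(PP μ)
      ≤ ∫⁻ ω, (∫⁻ r : I01, ENNReal.ofReal r
          * ∫⁻ r' : I01, F (k.2 + (r : ℝ)) (updU ω k r')) ∂(PP μ) := by
        apply lintegral_mono
        intro ω
        apply lintegral_mono
        intro r
        exact hstep ω r
    _ = ∫⁻ r : I01, ∫⁻ ω, ENNReal.ofReal r
          * (∫⁻ r' : I01, F (k.2 + (r : ℝ)) (updU ω k r')) ∂(PP μ) := by
        apply lintegral_lintegral_swap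
        apply Measurable.aemeasurable
        apply Measurable.mul (by fun_prop)
        exact hmA.comp measurable_swap
    _ = ∫⁻ r : I01, ENNReal.ofReal r * ∫⁻ ω, F (k.2 + (r : ℝ)) ω ∂(PP μ) := by
        apply lintegral_congr
        intro r
        have hFr : Measurable fun ω : Om V => F (k.2 + (r : ℝ)) ω :=
          hF.comp (measurable_const.prodMk measurable_id)
        have hmr : Measurable fun ω : Om V =>
            ∫⁻ r' : I01, F (k.2 + (r : ℝ)) (updU ω k r') :=
          hmA.comp ((measurable_const (a := r)).prodMk (measurable_id (α := Om V)))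
        rw [lintegral_const_mul _ hmr, ← lintegral_updU μ k _ hFr]

/-! ### locality of the fields -/

/-- the field at time `s` does not depend on the label of an event of time `≥ s` -/
lemma yt_updU (s : ℝ) (ω : Om V) (k : V × ℕ) (r r' : I01) (hr : s ≤ k.2 + (r : ℝ))
    (hr' : s ≤ k.2 + (r' : ℝ)) : yt s (updU ω k r) = yt s (updU ω k r') := by
  classical
  funext w
  unfold yt fld
  apply Finset.sum_congr rfl
  intro j _
  by_cases hk : (w, j) = k
  · have h1 : ¬ ((w, j) ∈ Is (updU ω k r).2.1 s) := by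
      simp only [Is, Set.mem_ofPred_eq, kap, updU, hk, Function.update_self, not_lt]
      simpa [← hk] using hr
    have h2 : ¬ ((w, j) ∈ Is (updU ω k r').2.1 s) := by
      simp only [Is, Set.mem_ofPred_eq, kap, updU, hk, Function.update_self, not_lt]
      simpa [← hk] using hr'
    rw [if_neg h1, if_neg h2]
  · have e1 : (updU ω k r).2.1 (w, j) = ω.2.1 (w, j) := by
      simp [updU, Function.update_of_ne hk]
    have e2 : (updU ω k r').2.1 (w, j) = ω.2.1 (w, j) := by
      simp [updU, Function.update_of_ne hk]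
    have h1 : ((w, j) ∈ Is (updU ω k r).2.1 s) ↔ ((w, j) ∈ Is (updU ω k r').2.1 s) := by
      simp only [Is, Set.mem_ofPred_eq, kap, e1, e2]
    have h2 : ep (updU ω k r) (w, j) = ep (updU ω k r') (w, j) := by
      unfold ep obs
      rw [e1, e2]
      rfl
    simp only [h1, h2]

lemma Lt_updU (G : SimpleGraph V) (θ s : ℝ) (ω : Om V) (k : V × ℕ) (r r' : I01)
    (hr : s ≤ k.2 + (r : ℝ)) (hr' : s ≤ k.2 + (r' : ℝ)) :
    Lt G θ s (updU ω k r) = Lt G θ s (updU ω k r') := by
  unfold Lt
  rw [yt_updU s ω k r r' hr hr']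

/-- `yt s` is the field of the events before `s` in any large number of rounds -/
lemma yt_eq_fld (s : ℝ) (ω : Om V) (J : ℕ) (hJ : s ≤ J) : yt s ω = fld J (Is ω.2.1 s) ω := by
  classical
  funext w
  unfold yt fld
  have hle : ⌈s⌉₊ ≤ J := Nat.ceil_le.2 hJ
  apply Finset.sum_subset (Finset.range_mono hle)
  intro j _ hj
  rw [Finset.mem_range, not_lt, Nat.ceil_le] at hj
  rw [if_neg]
  simp only [Is, Set.mem_ofPred_eq, kap, not_lt]
  have : 0 ≤ ((ω.2.1 (w, j) : I01) : ℝ) := (ω.2.1 (w, j)).2.1
  linarith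

end Dis

end Vale.Agent.P161C
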