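import Vale.Agent.P161C.Defs

/-!
# Geodesics in a tree
-/

namespace Vale.Agent.P161C

open MeasureTheory Vale.Agent.P161 Filter Topology

universe u

variable {V : Type u}

namespace Geo

lemma exists_geo {G : SimpleGraph V} (hG : G.Connected) (v w : V) (i : ℕ) (hi : i ≤ G.dist v w) :
    ∃ x, G.dist v x = i ∧ G.dist v x + G.dist x w = G.dist v w := by
  induction i with
  | zero => exact ⟨v, by simp, by simp⟩
  | succ i ih =>
    obtain ⟨x, h1, h2⟩ := ih (by omega)
    obtain ⟨x', h3, h4⟩ := exists_closer hG (v := x) (u := w) (n := G.dist v w - i - 1) (by omega)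
    have t1 := hG.dist_triangle (u := v) (v := x) (w := x')
    have t2 := hG.dist_triangle (u := v) (v := x') (w := w)
    rw [SimpleGraph.dist_eq_one_iff_adj.2 h3] at t1
    exact ⟨x', by omega, by omega⟩

lemma gp_spec {G : SimpleGraph V} (hG : G.Connected) {v w : V} {i : ℕ} (hi : i ≤ G.dist v w) :
    G.dist v (gp G v w i) = i ∧ G.dist v (gp G v w i) + G.dist (gp G v w i) w = G.dist v w := by
  have h := exists_geo hG v w i hi
  unfold gp
  rw [dif_pos h]
  exact h.choose_spec

lemma geo_unique {G : SimpleGraph V} (hG : G.IsTree) {v w : V} (m : ℕ) :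
    ∀ x x' : V, G.dist v x + G.dist x w = G.dist v w → G.dist v x' + G.dist x' w = G.dist v w →
      G.dist x w = m → G.dist x' w = m → x = x' := by
  induction m with
  | zero =>
    intro x x' _ _ h3 h4
    rw [hG.connected.dist_eq_zero_iff] at h3 h4
    rw [h3, h4]
  | succ m ih =>
    intro x x' h1 h2 h3 h4
    obtain ⟨y, hy, hy'⟩ := exists_closer hG.connected h3
    obtain ⟨z, hz, hz'⟩ := exists_closer hG.connected h4
    have t1 := hG.connected.dist_triangle (u := v) (v := x) (w := y)
    have t2 := hG.connected.dist_triangle (u := v) (v := y) (w := w)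
    have t3 := hG.connected.dist_triangle (u := v) (v := x') (w := z)
    have t4 := hG.connected.dist_triangle (u := v) (v := z) (w := w)
    rw [SimpleGraph.dist_eq_one_iff_adj.2 hy] at t1
    rw [SimpleGraph.dist_eq_one_iff_adj.2 hz] at t3
    have hyz : y = z := ih y z (by omega) (by omega) hy' hz'
    subst hyz
    apply closer_unique hG (r := v) hy.symm hz.symm
    · rw [G.dist_comm (u := y), G.dist_comm (u := x)]; omega
    · rw [G.dist_comm (u := y), G.dist_comm (u := x')]; omega

lemma eq_gp {G : SimpleGraph V} (hG : G.IsTree) {v w x : V} {i : ℕ} (h1 : G.dist v x = i)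
    (h2 : G.dist v x + G.dist x w = G.dist v w) : x = gp G v w i := by
  have hi : i ≤ G.dist v w := by omega
  obtain ⟨h3, h4⟩ := gp_spec hG.connected hi
  exact geo_unique hG (G.dist x w) x _ h2 h4 rfl (by omega)

lemma gp_zero {G : SimpleGraph V} (hG : G.IsTree) (v w : V) : gp G v w 0 = v :=
  (eq_gp hG (by simp) (by simp)).symm

lemma gp_last {G : SimpleGraph V} (hG : G.IsTree) (v w : V) : gp G v w (G.dist v w) = w :=
  (eq_gp hG rfl (by simp)).symm

lemma gp_adj {G : SimpleGraph V} (hG : G.IsTree) {v w : V} {i : ℕ} (hi : i < G.dist v w) :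
    G.Adj (gp G v w i) (gp G v w (i + 1)) := by
  obtain ⟨h1, h2⟩ := gp_spec hG.connected (v := v) (w := w) (i := i) (by omega)
  obtain ⟨y, hy, hy'⟩ := exists_closer hG.connected (v := gp G v w i) (u := w)
    (n := G.dist v w - i - 1) (by omega)
  have t1 := hG.connected.dist_triangle (u := v) (v := gp G v w i) (w := y)
  have t2 := hG.connected.dist_triangle (u := v) (v := y) (w := w)
  rw [SimpleGraph.dist_eq_one_iff_adj.2 hy] at t1
  have : y = gp G v w (i + 1) := eq_gp hG (by omega) (by omega)
  rwa [← this]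

lemma gp_rev {G : SimpleGraph V} (hG : G.IsTree) {v w : V} {i : ℕ} (hi : i ≤ G.dist v w) :
    gp G w v i = gp G v w (G.dist v w - i) := by
  have hi' : i ≤ G.dist w v := by rwa [G.dist_comm]
  obtain ⟨h1, h2⟩ := gp_spec hG.connected hi'
  rw [G.dist_comm (u := w) (v := gp G w v i), G.dist_comm (u := w) (v := v),
    G.dist_comm (v := v)] at h2
  rw [G.dist_comm] at h1
  exact eq_gp hG (by omega) (by omega)

end Geo

end Vale.Agent.P161C
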