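import Vale.Agent.P161C.Plan
import Vale.Agent.P161C.Geo
import Vale.Agent.P161C.Dis

/-!
# The covariance is a Lipschitz function of the magnetisations along the geodesic
-/

namespace Vale.Agent.P161C

open MeasureTheory Vale.Agent.P161 Filter Topology

universe u

variable {V : Type u}

namespace CovLip

lemma abs_prod_sub_prod_le (n : ℕ) (a b : ℕ → ℝ) (ha : ∀ i, 0 ≤ a i ∧ a i ≤ 1)
    (hb : ∀ i, 0 ≤ b i ∧ b i ≤ 1) :
    |∏ i ∈ Finset.range n, a i - ∏ i ∈ Finset.range n, b i|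
      ≤ ∑ i ∈ Finset.range n, |a i - b i| := by
  induction n with
  | zero => simp
  | succ n ih =>
    rw [Finset.prod_range_succ, Finset.prod_range_succ, Finset.sum_range_succ]
    set A := ∏ i ∈ Finset.range n, a i
    set B := ∏ i ∈ Finset.range n, b i
    have hA0 : 0 ≤ A := Finset.prod_nonneg fun i _ => (ha i).1
    have hA1 : A ≤ 1 := Finset.prod_le_one (fun i _ => (ha i).1) fun i _ => (ha i).2
    have e : A * a n - B * b n = (A - B) * b n + A * (a n - b n) := by ring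
    rw [e]
    refine (abs_add_le _ _).trans (add_le_add ?_ ?_)
    · rw [abs_mul, abs_of_nonneg (hb n).1]
      calc |A - B| * b n ≤ |A - B| * 1 := by gcongr; exact (hb n).2
        _ ≤ _ := by rw [mul_one]; exact ih
    · rw [abs_mul, abs_of_nonneg hA0]
      calc A * |a n - b n| ≤ 1 * |a n - b n| := by gcongr
        _ = _ := one_mul _

lemma abs_mul_sub_mul_le {a b a' b' : ℝ} (h1 : 0 ≤ a ∧ a ≤ 1) (h2 : 0 ≤ b' ∧ b' ≤ 1) :
    |a * b - a' * b'| ≤ |a - a'| + |b - b'| := by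
  have e : a * b - a' * b' = (a - a') * b' + a * (b - b') := by ring
  rw [e]
  refine (abs_add_le _ _).trans (add_le_add ?_ ?_)
  · rw [abs_mul, abs_of_nonneg h2.1]
    calc |a - a'| * b' ≤ |a - a'| * 1 := by gcongr; exact h2.2
      _ = _ := mul_one _
  · rw [abs_mul, abs_of_nonneg h1.1]
    calc a * |b - b'| ≤ 1 * |b - b'| := by gcongr; exact h1.2
      _ = _ := one_mul _

lemma sqrt_lip {a b c : ℝ} (hc : 0 < c) (ha : c ≤ a) (hb : c ≤ b) :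
    |√a - √b| ≤ |a - b| / (2 * √c) := by
  have h1 : √c ≤ √a := Real.sqrt_le_sqrt ha
  have h2 : √c ≤ √b := Real.sqrt_le_sqrt hb
  have h0 : 0 < √c := Real.sqrt_pos.2 hc
  have e : a - b = (√a - √b) * (√a + √b) := by
    have h3 := Real.mul_self_sqrt (hc.le.trans ha)
    have h4 := Real.mul_self_sqrt (hc.le.trans hb)
    nlinarith
  rw [le_div_iff₀ (by positivity), e, abs_mul, abs_of_pos (show 0 < √a + √b by linarith)]
  gcongr
  linarith

/-- the factor of one message -/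
noncomputable def sM (θ M : ℝ) : ℝ := Real.exp (-gg θ (M ^ 2))

lemma tt_bounds {θ m0 M : ℝ} (h0 : 0 < θ) (h1 : θ < 1) (hm1 : m0 < 1) (hM : |M| ≤ m0) :
    1 - m0 ^ 2 ≤ tt θ (M ^ 2) ∧ tt θ (M ^ 2) ≤ 1 := by
  have hm0 : 0 ≤ m0 := (abs_nonneg M).trans hM
  have hz : M ^ 2 ≤ m0 ^ 2 := by rw [← sq_abs M]; gcongr
  have hz1 : m0 ^ 2 < 1 := by nlinarith
  have hz0 : 0 ≤ M ^ 2 := sq_nonneg M
  have ht : θ ^ 2 < 1 := by nlinarith
  have hden : 0 < 1 - θ ^ 2 * M ^ 2 := by nlinarith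
  unfold tt
  constructor
  · rw [le_div_iff₀ hden]
    have : 0 ≤ θ ^ 2 * M ^ 2 := by positivity
    nlinarith
  · rw [div_le_one hden]
    nlinarith

lemma sM_eq {θ m0 M : ℝ} (h0 : 0 < θ) (h1 : θ < 1) (hm1 : m0 < 1) (hM : |M| ≤ m0) :
    sM θ M = √(tt θ (M ^ 2)) := by
  have hm0 : 0 ≤ m0 := (abs_nonneg M).trans hM
  obtain ⟨h2, _⟩ := tt_bounds h0 h1 hm1 hM
  have h3 : 0 < tt θ (M ^ 2) := by nlinarith
  unfold sM gg
  rw [show -(-Real.log (tt θ (M ^ 2)) / 2) = Real.log (tt θ (M ^ 2)) / 2 by ring, Real.exp_half,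
    Real.exp_log h3]

lemma sM_unit {θ m0 M : ℝ} (h0 : 0 < θ) (h1 : θ < 1) (hm1 : m0 < 1) (hM : |M| ≤ m0) :
    0 ≤ sM θ M ∧ sM θ M ≤ 1 := by
  refine ⟨(Real.exp_pos _).le, ?_⟩
  rw [sM_eq h0 h1 hm1 hM, Real.sqrt_le_left (by norm_num)]
  simpa using (tt_bounds h0 h1 hm1 hM).2

lemma abs_sq_sub_sq_le {m0 M M' : ℝ} (hm1 : m0 < 1) (hM : |M| ≤ m0) (hM' : |M'| ≤ m0) :
    |M ^ 2 - M' ^ 2| ≤ 2 * |M - M'| := by
  rw [sq_sub_sq, abs_mul]
  gcongr
  exact (abs_add_le _ _).trans (by linarith)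

lemma sM_lip {θ m0 M M' : ℝ} (h0 : 0 < θ) (h1 : θ < 1) (hm1 : m0 < 1) (hM : |M| ≤ m0)
    (hM' : |M'| ≤ m0) :
    |sM θ M - sM θ M'| ≤ 1 / ((1 - θ ^ 2) * √(1 - m0 ^ 2)) * |M - M'| := by
  have hm0 : 0 ≤ m0 := (abs_nonneg M).trans hM
  have hc : 0 < 1 - m0 ^ 2 := by nlinarith
  have ht : θ ^ 2 < 1 := by nlinarith
  rw [sM_eq h0 h1 hm1 hM, sM_eq h0 h1 hm1 hM']
  refine (sqrt_lip hc (tt_bounds h0 h1 hm1 hM).1 (tt_bounds h0 h1 hm1 hM').1).trans ?_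
  have hz : M ^ 2 ≤ 1 := by
    have : M ^ 2 ≤ m0 ^ 2 := by rw [← sq_abs M]; gcongr
    linarith
  have hz' : M' ^ 2 ≤ 1 := by
    have : M' ^ 2 ≤ m0 ^ 2 := by rw [← sq_abs M']; gcongr
    linarith
  have hd : 1 - θ ^ 2 ≤ 1 - θ ^ 2 * M ^ 2 := by nlinarith [sq_nonneg θ]
  have hd' : 1 - θ ^ 2 ≤ 1 - θ ^ 2 * M' ^ 2 := by nlinarith [sq_nonneg θ]
  have hp : 0 < 1 - θ ^ 2 := by linarith
  have e : tt θ (M ^ 2) - tt θ (M' ^ 2)
      = (1 - θ ^ 2) * (M' ^ 2 - M ^ 2) / ((1 - θ ^ 2 * M ^ 2) * (1 - θ ^ 2 * M' ^ 2)) := by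
    unfold tt
    have a1 : (1 - θ ^ 2 * M ^ 2) ≠ 0 := by linarith
    have a2 : (1 - θ ^ 2 * M' ^ 2) ≠ 0 := by linarith
    rw [div_sub_div _ _ a1 a2]
    congr 1
    ring
  have h3 : |tt θ (M ^ 2) - tt θ (M' ^ 2)| ≤ 2 * |M - M'| / (1 - θ ^ 2) := by
    rw [e, abs_div, abs_mul, abs_of_pos hp,
      abs_of_pos (mul_pos (hp.trans_le hd) (hp.trans_le hd')), div_le_div_iff₀
        (mul_pos (hp.trans_le hd) (hp.trans_le hd')) hp]
    have h4 := abs_sq_sub_sq_le hm1 hM hM'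
    rw [abs_sub_comm] at h4
    calc (1 - θ ^ 2) * |M' ^ 2 - M ^ 2| * (1 - θ ^ 2)
        ≤ (1 - θ ^ 2) * (2 * |M - M'|) * (1 - θ ^ 2) := by gcongr
      _ = 2 * |M - M'| * ((1 - θ ^ 2) * (1 - θ ^ 2)) := by ring
      _ ≤ 2 * |M - M'| * ((1 - θ ^ 2 * M ^ 2) * (1 - θ ^ 2 * M' ^ 2)) := by
          have := hp.le.trans hd
          gcongr
  have hs : 0 < √(1 - m0 ^ 2) := Real.sqrt_pos.2 hc
  calc |tt θ (M ^ 2) - tt θ (M' ^ 2)| / (2 * √(1 - m0 ^ 2))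
      ≤ 2 * |M - M'| / (1 - θ ^ 2) / (2 * √(1 - m0 ^ 2)) := by gcongr
    _ = _ := by field_simp

lemma bet_lip {m0 M M' : ℝ} (hm1 : m0 < 1) (hM : |M| ≤ m0)
    (hM' : |M'| ≤ m0) :
    |√(1 - M ^ 2) - √(1 - M' ^ 2)| ≤ 1 / √(1 - m0 ^ 2) * |M - M'| := by
  have hm0 : 0 ≤ m0 := (abs_nonneg M).trans hM
  have hc : 0 < 1 - m0 ^ 2 := by nlinarith
  have hz : M ^ 2 ≤ m0 ^ 2 := by rw [← sq_abs M]; gcongr
  have hz' : M' ^ 2 ≤ m0 ^ 2 := by rw [← sq_abs M']; gcongr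
  refine (sqrt_lip hc (by linarith) (by linarith)).trans ?_
  have h4 := abs_sq_sub_sq_le hm1 hM hM'
  have hs : 0 < √(1 - m0 ^ 2) := Real.sqrt_pos.2 hc
  rw [show 1 - M ^ 2 - (1 - M' ^ 2) = -(M ^ 2 - M' ^ 2) by ring, abs_neg]
  calc |M ^ 2 - M' ^ 2| / (2 * √(1 - m0 ^ 2)) ≤ 2 * |M - M'| / (2 * √(1 - m0 ^ 2)) := by gcongr
    _ = _ := by field_simp

/-- factor of the edge `i` -/
noncomputable def eF (G : SimpleGraph V) (θ : ℝ) (L : V → V → ℝ) (v w : V) (i : ℕ) : ℝ :=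
  sM θ (Real.tanh (L (gp G v w i) (gp G v w (i + 1))))
    * sM θ (Real.tanh (L (gp G v w (i + 1)) (gp G v w i)))

lemma cov_eq (G : SimpleGraph V) (θ : ℝ) (L : V → V → ℝ) (v w : V) :
    cov G θ L v w = (bet L v * bet L w) * (θ ^ (G.dist v w)
      * ∏ i ∈ Finset.range (G.dist v w), eF G θ L v w i) := by
  unfold cov SS
  rw [← Finset.sum_neg_distrib, Real.exp_sum, mul_assoc]
  congr 2
  apply Finset.prod_congr rfl
  intro i _
  unfold eF ell sM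
  rw [← Real.exp_add]
  congr 1
  ring

lemma bet_unit (L : V → V → ℝ) (v : V) : 0 ≤ bet L v ∧ bet L v ≤ 1 := by
  unfold bet
  refine ⟨Real.sqrt_nonneg _, ?_⟩
  rw [Real.sqrt_le_left (by norm_num)]
  nlinarith [sq_nonneg (Real.tanh (L v v))]

lemma cov_lip1 {G : SimpleGraph V} {d : ℕ} {θ : ℝ} (hc : Crit G d θ) {m0 : ℝ}
    (hm1 : m0 < 1) (v w : V) (L L' : V → V → ℝ) (hL : ∀ u p, |Real.tanh (L u p)| ≤ m0)
    (hL' : ∀ u p, |Real.tanh (L' u p)| ≤ m0) :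
    |cov G θ L v w - cov G θ L' v w|
      ≤ (|bet L v - bet L' v| + |bet L w - bet L' w|)
        + ∑ i ∈ Finset.range (G.dist v w), |eF G θ L v w i - eF G θ L' v w i| := by
  have h0 := hc.pos
  have h1 := Dis.crit_lt hc
  have hu : ∀ (L : V → V → ℝ), (∀ u p, |Real.tanh (L u p)| ≤ m0) →
      ∀ i, 0 ≤ eF G θ L v w i ∧ eF G θ L v w i ≤ 1 := by
    intro L hL i
    have a1 := sM_unit h0 h1 hm1 (hL (gp G v w i) (gp G v w (i + 1)))
    have a2 := sM_unit h0 h1 hm1 (hL (gp G v w (i + 1)) (gp G v w i))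
    exact ⟨mul_nonneg a1.1 a2.1, mul_le_one₀ a1.2 a2.1 a2.2⟩
  have hθ : 0 ≤ θ ^ (G.dist v w) ∧ θ ^ (G.dist v w) ≤ 1 :=
    ⟨pow_nonneg h0.le _, pow_le_one₀ h0.le h1.le⟩
  have hP : ∀ (L : V → V → ℝ), (∀ u p, |Real.tanh (L u p)| ≤ m0) →
      0 ≤ ∏ i ∈ Finset.range (G.dist v w), eF G θ L v w i ∧
      ∏ i ∈ Finset.range (G.dist v w), eF G θ L v w i ≤ 1 := fun L hL =>
    ⟨Finset.prod_nonneg fun i _ => (hu L hL i).1,
      Finset.prod_le_one (fun i _ => (hu L hL i).1) fun i _ => (hu L hL i).2⟩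
  have hb := bet_unit L v
  have hb2 := bet_unit L w
  have hb' := bet_unit L' v
  have hb2' := bet_unit L' w
  rw [cov_eq, cov_eq]
  have hP' := hP L' hL'
  refine (abs_mul_sub_mul_le (a := bet L v * bet L w) (a' := bet L' v * bet L' w)
    ⟨mul_nonneg hb.1 hb2.1, mul_le_one₀ hb.2 hb2.1 hb2.2⟩
    ⟨mul_nonneg hθ.1 hP'.1, mul_le_one₀ hθ.2 hP'.1 hP'.2⟩).trans ?_
  apply add_le_add
  · exact abs_mul_sub_mul_le hb hb2'
  · rw [← mul_sub, abs_mul, abs_of_nonneg hθ.1]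
    calc θ ^ G.dist v w * |∏ i ∈ Finset.range (G.dist v w), eF G θ L v w i
          - ∏ i ∈ Finset.range (G.dist v w), eF G θ L' v w i|
        ≤ 1 * |∏ i ∈ Finset.range (G.dist v w), eF G θ L v w i
          - ∏ i ∈ Finset.range (G.dist v w), eF G θ L' v w i| := by gcongr; exact hθ.2
      _ ≤ _ := by
        rw [one_mul]
        exact abs_prod_sub_prod_le _ _ _ (hu L hL) (hu L' hL')

/-- the covariance is Lipschitz in the magnetisations -/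
theorem cov_lip (hA : S_ALG1.{u}) {G : SimpleGraph V} {d : ℕ} {θ : ℝ} (hc : Crit G d θ) {m0 : ℝ}
    (hm0 : 0 < m0) (hm1 : m0 < 1) (v w : V) :
    ∃ C : ℝ, 0 ≤ C ∧ ∀ (y y' : V → ℝ) (L L' : V → V → ℝ), BPS G θ y L → BPS G θ y' L' →
      (∀ u p, |Real.tanh (L u p)| ≤ m0) → (∀ u p, |Real.tanh (L' u p)| ≤ m0) →
      (cov G θ L v w - cov G θ L' v w) ^ 2 ≤ C * ∑ i ∈ Finset.range (G.dist v w + 1),
        (Real.tanh (L (gp G v w i) (gp G v w i))
          - Real.tanh (L' (gp G v w i) (gp G v w i))) ^ 2 := by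
  obtain ⟨Γ, hΓ, hΓ2⟩ := hA hc
  have h0 := hc.pos
  have h1 := Dis.crit_lt hc
  have hc0 : 0 < 1 - m0 ^ 2 := by nlinarith
  have hs : 0 < √(1 - m0 ^ 2) := Real.sqrt_pos.2 hc0
  have ht : 0 < 1 - θ ^ 2 := by nlinarith
  set n := G.dist v w with hn
  set c1 : ℝ := 1 / √(1 - m0 ^ 2) with hc1
  set c2 : ℝ := 1 / ((1 - θ ^ 2) * √(1 - m0 ^ 2)) with hc2
  set c3 : ℝ := 1 / ((1 - θ ^ 2) * (1 - θ) ^ 2) with hc3
  have p1 : 0 < c1 := by positivity
  have p2 : 0 < c2 := by positivity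
  have p3 : 0 < c3 := by
    have : 0 < 1 - θ := by linarith
    positivity
  refine ⟨(2 * c1 + 4 * c2 * c3) ^ 2 * (n + 1), by positivity, ?_⟩
  intro y y' L L' hB hB' hL hL'
  set D : ℕ → ℝ := fun i => |Real.tanh (L (gp G v w i) (gp G v w i))
          - Real.tanh (L' (gp G v w i) (gp G v w i))| with hD
  have hD0 : ∀ i, 0 ≤ D i := fun i => abs_nonneg _
  have hsumD : ∀ i ≤ n, D i ≤ ∑ i ∈ Finset.range (n + 1), D i := fun i hi =>
    Finset.single_le_sum (fun i _ => hD0 i) (Finset.mem_range.2 (by omega))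
  set SD : ℝ := ∑ i ∈ Finset.range (n + 1), D i with hSD
  -- messages
  have hmsg : ∀ i < n, |Real.tanh (L (gp G v w i) (gp G v w (i + 1)))
        - Real.tanh (L' (gp G v w i) (gp G v w (i + 1)))| ≤ c3 * (D i + D (i + 1)) ∧
      |Real.tanh (L (gp G v w (i + 1)) (gp G v w i))
        - Real.tanh (L' (gp G v w (i + 1)) (gp G v w i))| ≤ c3 * (D i + D (i + 1)) := by
    intro i hi
    have hadj := Geo.gp_adj hc.tree (v := v) (w := w) (i := i) hi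
    constructor
    · rw [hΓ2 y L hB _ _ hadj.symm, hΓ2 y' L' hB' _ _ hadj.symm]
      refine (hΓ _ _ _ _).trans ?_
      rw [add_comm (D i)]
    · rw [hΓ2 y L hB _ _ hadj, hΓ2 y' L' hB' _ _ hadj]
      exact hΓ _ _ _ _
  have heF : ∀ i ∈ Finset.range n, |eF G θ L v w i - eF G θ L' v w i|
      ≤ 2 * c2 * c3 * (D i + D (i + 1)) := by
    intro i hi
    rw [Finset.mem_range] at hi
    obtain ⟨m1, m2⟩ := hmsg i hi
    unfold eF
    refine (abs_mul_sub_mul_le (sM_unit h0 h1 hm1 (hL _ _)) (sM_unit h0 h1 hm1 (hL' _ _))).trans ?_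
    have a1 := sM_lip h0 h1 hm1 (hL (gp G v w i) (gp G v w (i + 1)))
      (hL' (gp G v w i) (gp G v w (i + 1)))
    have a2 := sM_lip h0 h1 hm1 (hL (gp G v w (i + 1)) (gp G v w i))
      (hL' (gp G v w (i + 1)) (gp G v w i))
    have a3 := mul_le_mul_of_nonneg_left m1 p2.le
    have a4 := mul_le_mul_of_nonneg_left m2 p2.le
    have : 2 * c2 * c3 * (D i + D (i + 1)) = c2 * (c3 * (D i + D (i + 1)))
      + c2 * (c3 * (D i + D (i + 1))) := by ring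
    linarith
  have hbet : ∀ x : V, |bet L x - bet L' x| ≤ c1 * |Real.tanh (L x x) - Real.tanh (L' x x)| :=
    fun x => bet_lip hm1 (hL x x) (hL' x x)
  have hv : |bet L v - bet L' v| ≤ c1 * SD := by
    refine (hbet v).trans ?_
    gcongr
    have := hsumD 0 (Nat.zero_le _)
    simp only [hD, Geo.gp_zero hc.tree] at this
    exact this
  have hw : |bet L w - bet L' w| ≤ c1 * SD := by
    refine (hbet w).trans ?_
    gcongr
    have := hsumD n le_rfl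
    simp only [hD, hn, Geo.gp_last hc.tree] at this
    exact this
  have hsum : ∑ i ∈ Finset.range n, |eF G θ L v w i - eF G θ L' v w i| ≤ 4 * c2 * c3 * SD := by
    calc ∑ i ∈ Finset.range n, |eF G θ L v w i - eF G θ L' v w i|
        ≤ ∑ i ∈ Finset.range n, 2 * c2 * c3 * (D i + D (i + 1)) := Finset.sum_le_sum heF
      _ = 2 * c2 * c3 * (∑ i ∈ Finset.range n, D i + ∑ i ∈ Finset.range n, D (i + 1)) := by
          rw [← Finset.mul_sum, Finset.sum_add_distrib]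
      _ ≤ 2 * c2 * c3 * (SD + SD) := by
          gcongr
          · rw [hSD, Finset.sum_range_succ]; linarith [hD0 n]
          · rw [hSD, Finset.sum_range_succ']; linarith [hD0 0]
      _ = 4 * c2 * c3 * SD := by ring
  have hmain := cov_lip1 hc hm1 v w L L' hL hL'
  have hfin : |cov G θ L v w - cov G θ L' v w| ≤ (2 * c1 + 4 * c2 * c3) * SD := by
    rw [← hn] at hmain
    linarith
  have hCS : SD ^ 2 ≤ (n + 1) * ∑ i ∈ Finset.range (n + 1), D i ^ 2 := by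
    have := sq_sum_le_card_mul_sum_sq (s := Finset.range (n + 1)) (f := D)
    simpa using this
  calc (cov G θ L v w - cov G θ L' v w) ^ 2 = |cov G θ L v w - cov G θ L' v w| ^ 2 :=
        (sq_abs _).symm
    _ ≤ ((2 * c1 + 4 * c2 * c3) * SD) ^ 2 := by gcongr
    _ = (2 * c1 + 4 * c2 * c3) ^ 2 * SD ^ 2 := by ring
    _ ≤ (2 * c1 + 4 * c2 * c3) ^ 2 * ((n + 1) * ∑ i ∈ Finset.range (n + 1), D i ^ 2) := by gcongr
    _ = (2 * c1 + 4 * c2 * c3) ^ 2 * (n + 1) * ∑ i ∈ Finset.range (n + 1),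
        (Real.tanh (L (gp G v w i) (gp G v w i))
          - Real.tanh (L' (gp G v w i) (gp G v w i))) ^ 2 := by
        simp only [hD, sq_abs]
        ring

end CovLip

end Vale.Agent.P161C
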