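import Vale.Agent.P161C.FixU

/-!
# DYNA: the jumps may be computed with the quantities at the grid times
-/

namespace Vale.Agent.P161C

open MeasureTheory Vale.Agent.P161 Filter Topology

universe u

variable {V : Type u}

namespace DYNA

open FixU

open Classical in
/-- the integrand -/
noncomputable def IK (G : SimpleGraph V) (θ : ℝ) (v : V) (T : ℕ) (K : ℕ) (k : V × ℕ)
    (ω : Om V) : ℝ :=
  if 1 / (K : ℝ) ≤ kap ω.2.1 k ∧ kap ω.2.1 k < T then (Jm G θ ω v k - JK G θ K ω v k) ^ 2 else 0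

variable {G : SimpleGraph V} {d : ℕ} {θ : ℝ}

lemma IK_nonneg (v : V) (T K : ℕ) (k : V × ℕ) (ω : Om V) : 0 ≤ IK G θ v T K k ω := by
  unfold IK; split_ifs <;> positivity

lemma abs_mt_le (s : ℝ) (ω : Om V) (v : V) : |mt G θ s ω v| ≤ 1 := (abs_tanh_lt _).le

lemma abs_Jm_le (ω : Om V) (v : V) (k : V × ℕ) : |Jm G θ ω v k| ≤ 2 := by
  unfold Jm
  refine (abs_sub _ _).trans ?_
  have h1 : |Mm G θ (fun w => yt (kap ω.2.1 k) ω w
    + (open Classical in if w = k.1 then at' (ep ω k) else 0)) v v| ≤ 1 := (abs_tanh_lt _).le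
  have h2 := abs_mt_le (G := G) (θ := θ) (kap ω.2.1 k) ω v
  linarith

lemma abs_JK_le (hA3 : S_ALG3.{u}) (hPhi : S_PHI) (hc : Crit G d θ) (K : ℕ) (ω : Om V) (v : V)
    (k : V × ℕ) : |JK G θ K ω v k| ≤ 1 := by
  unfold JK
  rw [abs_mul]
  have h1 := cov_unit hA3 hc (Lt G θ (gt K (kap ω.2.1 k)) ω) v k.1
  have h2 := hPhi.1 (dl (ω.2.1 k)) (mt G θ (gt K (kap ω.2.1 k)) ω k.1) (inn G θ ω k)
    (dl_nonneg _) (dl_le _) (abs_mt_le _ _ _)
  have h3 := dl_le (ω.2.1 k)
  rw [abs_of_nonneg h1.1]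
  exact mul_le_one₀ h1.2 (abs_nonneg _) (by linarith)

lemma IK_le (hA3 : S_ALG3.{u}) (hPhi : S_PHI) (hc : Crit G d θ) (v : V) (T K : ℕ) (k : V × ℕ)
    (ω : Om V) : IK G θ v T K k ω ≤ 9 := by
  unfold IK
  split_ifs
  · have h1 := abs_Jm_le (G := G) (θ := θ) ω v k
    have h2 := abs_JK_le hA3 hPhi hc K ω v k
    rw [abs_le] at h1 h2
    nlinarith
  · norm_num

lemma measurable_JK (hB : S_BASE.{u}) (hPhi : S_PHI) (hc : Crit G d θ) (K : ℕ) (v : V)
    (k : V × ℕ) : Measurable fun ω : Om V => JK G θ K ω v k := by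
  unfold JK
  have h1 : Measurable fun ω : Om V => gt K (kap ω.2.1 k) :=
    (measurable_gt K).comp (measurable_kap k)
  have h2 := measurable_cov hB hc h1 measurable_id v k.1
  have h3 := measurable_mt hB hc h1 measurable_id k.1
  have h4 := (hB hc).2.1 k
  have h5 : Measurable fun ω : Om V => dl (ω.2.1 k) :=
    measurable_dl.comp (by fun_prop : Measurable fun ω : Om V => ω.2.1 k)
  have h6 : Measurable fun ω : Om V =>
      (dl (ω.2.1 k), (mt G θ (gt K (kap ω.2.1 k)) ω k.1, inn G θ ω k)) :=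
    h5.prodMk (h3.prodMk h4)
  have h7 := hPhi.2.2.2.comp h6
  exact h2.mul h7

lemma measurable_IK (hB : S_BASE.{u}) (hPhi : S_PHI) (hc : Crit G d θ) (v : V) (T K : ℕ)
    (k : V × ℕ) : Measurable (IK G θ v T K k) := by
  unfold IK
  apply Measurable.ite
  · exact (measurableSet_le measurable_const (measurable_kap k)).inter
      (measurableSet_lt (measurable_kap k) measurable_const)
  · exact (((hB hc).2.2.1 v k).sub (measurable_JK hB hPhi hc K v k)).pow_const 2
  · exact measurable_const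

/-- the elementary bound for the difference of two jumps -/
lemma sq_diff_le {c c' φ φ' m δ : ℝ} (hc' : 0 ≤ c' ∧ c' ≤ 1)
    (hδ0 : 0 ≤ δ) (hδ : δ ≤ 1 / 2)
    (hφ : |φ| ≤ 2 * δ) (hd : |φ - φ'| ≤ 16 * δ ^ 2 * |m|) :
    (c * φ - c' * φ') ^ 2 ≤ 2 * (c - c') ^ 2 + 32 * m ^ 2 := by
  have h1 : φ ^ 2 ≤ 1 := by
    rw [← sq_abs φ]
    have : |φ| ≤ 1 := by linarith
    nlinarith [abs_nonneg φ]
  have h2 : (φ - φ') ^ 2 ≤ 16 * m ^ 2 := by
    rw [← sq_abs (φ - φ'), ← sq_abs m]
    have h3 : |φ - φ'| ≤ 4 * |m| := by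
      refine hd.trans ?_
      have : 16 * δ ^ 2 ≤ 4 := by nlinarith
      have := abs_nonneg m
      nlinarith
    have := abs_nonneg (φ - φ')
    nlinarith [abs_nonneg m]
  have h4 : c' ^ 2 ≤ 1 := by nlinarith
  have e : c * φ - c' * φ' = (c - c') * φ + c' * (φ - φ') := by ring
  rw [e]
  have h5 : ((c - c') * φ + c' * (φ - φ')) ^ 2
      ≤ 2 * ((c - c') ^ 2 * φ ^ 2) + 2 * (c' ^ 2 * (φ - φ') ^ 2) := by
    nlinarith [sq_nonneg ((c - c') * φ - c' * (φ - φ'))]
  have h6 : (c - c') ^ 2 * φ ^ 2 ≤ (c - c') ^ 2 * 1 := by gcongr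
  have h7 : c' ^ 2 * (φ - φ') ^ 2 ≤ 1 * (16 * m ^ 2) := by gcongr
  linarith

/-- convergence for fixed labels and a fixed event -/
lemma conv_fix (hP : S_POST.{u}) (hA1 : S_ALG1.{u}) (hA3 : S_ALG3.{u}) (hPhi : S_PHI)
    (hB : S_BASE.{u}) (hc : Crit G d θ) {μ : Measure (V → Bool)} (hμ : IsFreeIsing G θ μ)
    (v : V) (T : ℕ) (k : V × ℕ) (U : V × ℕ → I01)
    (hJ : ∀ᵐ p ∂(μ.prod (lam V)), ∀ v, Jm G θ (p.1, (U, p.2)) v k
      = cov G θ (Lt G θ (kap U k) (p.1, (U, p.2))) v k.1
        * phi (dl (U k)) (mt G θ (kap U k) (p.1, (U, p.2)) k.1) (inn G θ (p.1, (U, p.2)) k)) :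
    Tendsto (fun K : ℕ => ∫ p, IK G θ v T K k (p.1, (U, p.2)) ∂(μ.prod (lam V))) atTop (𝓝 0) := by
  have := Dis.isProb hc hμ
  by_cases hT : kap U k < T
  swap
  · have : (fun K : ℕ => ∫ p, IK G θ v T K k (p.1, (U, p.2)) ∂(μ.prod (lam V))) = fun _ => 0 := by
      funext K
      apply integral_eq_zero_of_ae
      filter_upwards with p
      unfold IK
      rw [if_neg (fun h => hT h.2)]
      rfl
    rw [this]
    exact tendsto_const_nhds
  · obtain ⟨m0, hm0, hm1, hm⟩ := (hB hc).2.2.2.2 T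
    obtain ⟨C, hC0, hC⟩ := CovLip.cov_lip hA1 hc hm0 hm1 v k.1
    have ht0 : 0 ≤ kap U k := by
      unfold kap
      have := (U k).2.1
      positivity
    set t := kap U k with ht
    set n := G.dist v k.1 with hn
    -- the upper bound
    set B : ℕ → ℝ := fun K => 2 * (C * ∑ i ∈ Finset.range (n + 1),
        ∫ p, (mt G θ t (p.1, (U, p.2)) (gp G v k.1 i)
          - mt G θ (gt K t) (p.1, (U, p.2)) (gp G v k.1 i)) ^ 2 ∂(μ.prod (lam V)))
      + 32 * ∫ p, (mt G θ t (p.1, (U, p.2)) k.1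
          - mt G θ (gt K t) (p.1, (U, p.2)) k.1) ^ 2 ∂(μ.prod (lam V)) with hBdef
    have hBlim : Tendsto B atTop (𝓝 0) := by
      have h1 : Tendsto (fun K => 2 * (C * ∑ i ∈ Finset.range (n + 1),
        ∫ p, (mt G θ t (p.1, (U, p.2)) (gp G v k.1 i)
          - mt G θ (gt K t) (p.1, (U, p.2)) (gp G v k.1 i)) ^ 2 ∂(μ.prod (lam V)))) atTop
          (𝓝 (2 * (C * ∑ i ∈ Finset.range (n + 1), 0))) :=
        (Tendsto.const_mul _ (tendsto_finsetSum _ fun i _ =>
          conv_m hP hc hμ U ht0 (gp G v k.1 i))).const_mul _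
      have h2 : Tendsto (fun K => 32 * ∫ p, (mt G θ t (p.1, (U, p.2)) k.1
          - mt G θ (gt K t) (p.1, (U, p.2)) k.1) ^ 2 ∂(μ.prod (lam V))) atTop (𝓝 (32 * 0)) :=
        (conv_m hP hc hμ U ht0 k.1).const_mul _
      have h3 := h1.add h2
      simpa using h3
    refine squeeze_zero (fun K => integral_nonneg fun p => IK_nonneg v T K k _) (fun K => ?_) hBlim
    -- measurability
    have hmt : ∀ (s : ℝ) (x : V), Measurable fun p : (V → Bool) × (V × ℕ → I01) =>
        mt G θ s (p.1, (U, p.2)) x := fun s x =>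
      measurable_mt hB hc measurable_const (by fun_prop) x
    have hint : ∀ x : V, Integrable (fun p => (mt G θ t (p.1, (U, p.2)) x
          - mt G θ (gt K t) (p.1, (U, p.2)) x) ^ 2) (μ.prod (lam V)) := by
      intro x
      refine integrable_of_bdd (((hmt t x).sub (hmt (gt K t) x)).pow_const 2) (B := 4) fun p => ?_
      have h1 := abs_mt_le (G := G) (θ := θ) t (p.1, (U, p.2)) x
      have h2 := abs_mt_le (G := G) (θ := θ) (gt K t) (p.1, (U, p.2)) x
      rw [abs_of_nonneg (sq_nonneg _)]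
      rw [abs_le] at h1 h2
      nlinarith
    have hpt : ∀ᵐ p ∂(μ.prod (lam V)), IK G θ v T K k (p.1, (U, p.2))
        ≤ 2 * (C * ∑ i ∈ Finset.range (n + 1),
            (mt G θ t (p.1, (U, p.2)) (gp G v k.1 i)
              - mt G θ (gt K t) (p.1, (U, p.2)) (gp G v k.1 i)) ^ 2)
          + 32 * (mt G θ t (p.1, (U, p.2)) k.1
            - mt G θ (gt K t) (p.1, (U, p.2)) k.1) ^ 2 := by
      filter_upwards [hJ, ae_bps hP hc hμ U t, ae_bps hP hc hμ U (gt K t)] with p h1 h2 h3
      have hsum : 0 ≤ ∑ i ∈ Finset.range (n + 1),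
            (mt G θ t (p.1, (U, p.2)) (gp G v k.1 i)
              - mt G θ (gt K t) (p.1, (U, p.2)) (gp G v k.1 i)) ^ 2 :=
        Finset.sum_nonneg fun i _ => sq_nonneg _
      unfold IK
      split_ifs with hif
      · have hcl := hC _ _ _ _ h2 h3 (fun u p' => hm _ _ _ _ hT.le)
          (fun u p' => hm _ _ _ _ ((gt_le K ht0).trans hT.le))
        have hb := sq_diff_le (c := cov G θ (Lt G θ t (p.1, (U, p.2))) v k.1) (cov_unit hA3 hc (Lt G θ (gt K t) (p.1, (U, p.2))) v k.1)
          (dl_nonneg (U k)) (dl_le (U k))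
          (hPhi.1 (dl (U k)) (mt G θ t (p.1, (U, p.2)) k.1) (inn G θ (p.1, (U, p.2)) k)
            (dl_nonneg _) (dl_le _) (abs_mt_le _ _ _))
          (hPhi.2.1 (dl (U k)) (mt G θ t (p.1, (U, p.2)) k.1)
            (mt G θ (gt K t) (p.1, (U, p.2)) k.1) (inn G θ (p.1, (U, p.2)) k)
            (dl_nonneg _) (dl_le _) (abs_mt_le _ _ _) (abs_mt_le _ _ _))
        rw [h1 v]
        unfold JK
        refine hb.trans ?_
        have hcl' : (cov G θ (Lt G θ t (p.1, (U, p.2))) v k.1
            - cov G θ (Lt G θ (gt K t) (p.1, (U, p.2))) v k.1) ^ 2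
            ≤ C * ∑ i ∈ Finset.range (n + 1),
            (mt G θ t (p.1, (U, p.2)) (gp G v k.1 i)
              - mt G θ (gt K t) (p.1, (U, p.2)) (gp G v k.1 i)) ^ 2 := hcl
        linarith
      · positivity
    have hIKm : Measurable fun p : (V → Bool) × (V × ℕ → I01) =>
        IK G θ v T K k (p.1, (U, p.2)) :=
      (measurable_IK hB hPhi hc v T K k).comp (by fun_prop)
    have hIKi : Integrable (fun p => IK G θ v T K k (p.1, (U, p.2))) (μ.prod (lam V)) :=
      integrable_of_bdd hIKm (B := 9) fun p => by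
        rw [abs_of_nonneg (IK_nonneg v T K k _)]
        exact IK_le hA3 hPhi hc v T K k _
    have hI1 : Integrable (fun p => ∑ i ∈ Finset.range (n + 1),
            (mt G θ t (p.1, (U, p.2)) (gp G v k.1 i)
              - mt G θ (gt K t) (p.1, (U, p.2)) (gp G v k.1 i)) ^ 2) (μ.prod (lam V)) :=
      integrable_finsetSum _ fun i _ => hint _
    calc ∫ p, IK G θ v T K k (p.1, (U, p.2)) ∂(μ.prod (lam V))
        ≤ ∫ p, (2 * (C * ∑ i ∈ Finset.range (n + 1),
            (mt G θ t (p.1, (U, p.2)) (gp G v k.1 i)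
              - mt G θ (gt K t) (p.1, (U, p.2)) (gp G v k.1 i)) ^ 2)
          + 32 * (mt G θ t (p.1, (U, p.2)) k.1
            - mt G θ (gt K t) (p.1, (U, p.2)) k.1) ^ 2) ∂(μ.prod (lam V)) :=
          integral_mono_ae hIKi (((hI1.const_mul C).const_mul 2).add ((hint _).const_mul 32)) hpt
      _ = B K := by
          rw [integral_add ((hI1.const_mul C).const_mul 2) ((hint _).const_mul 32),
            integral_const_mul, integral_const_mul, integral_const_mul,
            integral_finsetSum _ fun i _ => hint _]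

/-- convergence for a fixed event -/
lemma conv_one (hP : S_POST.{u}) (hA1 : S_ALG1.{u}) (hA3 : S_ALG3.{u}) (hPhi : S_PHI)
    (hB : S_BASE.{u}) (hJ : S_JUMP.{u}) (hc : Crit G d θ) {μ : Measure (V → Bool)}
    (hμ : IsFreeIsing G θ μ) (v : V) (T : ℕ) (k : V × ℕ) :
    Tendsto (fun K : ℕ => ∫ ω, IK G θ v T K k ω ∂(PP μ)) atTop (𝓝 0) := by
  have := Dis.isProb hc hμ
  have h9 : ∀ K ω, |IK G θ v T K k ω| ≤ 9 := fun K ω => by
    rw [abs_of_nonneg (IK_nonneg v T K k _)]
    exact IK_le hA3 hPhi hc v T K k _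
  have e : (fun K : ℕ => ∫ ω, IK G θ v T K k ω ∂(PP μ))
      = fun K : ℕ => ∫ U, (∫ p, IK G θ v T K k (p.1, (U, p.2)) ∂(μ.prod (lam V))) ∂(lam V) := by
    funext K
    exact Dis.integral_PP μ _ (measurable_IK hB hPhi hc v T K k) (h9 K)
  rw [e]
  have hae := Dis.ae_PP μ ((hJ hc hμ).1 k)
  have h0 : (0 : ℝ) = ∫ _ : V × ℕ → I01, (0 : ℝ) ∂(lam V) := by simp
  rw [h0]
  apply tendsto_integral_of_dominated_convergence (fun _ => 9)
  · intro K
    have hm : Measurable fun q : (V × ℕ → I01) × ((V → Bool) × (V × ℕ → I01)) =>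
        IK G θ v T K k (q.2.1, (q.1, q.2.2)) :=
      (measurable_IK hB hPhi hc v T K k).comp Dis.measurable_rearr
    exact hm.stronglyMeasurable.integral_prod_right'.aestronglyMeasurable
  · exact integrable_const _
  · intro K
    filter_upwards with U
    have h10 := norm_integral_le_of_norm_le_const (μ := μ.prod (lam V)) (C := 9)
      (f := fun p => IK G θ v T K k (p.1, (U, p.2)))
      (Eventually.of_forall fun p => by rw [Real.norm_eq_abs]; exact h9 K _)
    simpa using h10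
  · filter_upwards [hae] with U hU
    exact conv_fix hP hA1 hA3 hPhi hB hc hμ v T k U hU

/-! ### the tail -/

lemma pw_unit (hc : Crit G d θ) (M : ℕ → V → V → ℝ) (hM : ∀ j u p, |M j u p| ≤ 1) (v w : V) :
    0 ≤ pw G θ M v w ∧ pw G θ M v w ≤ 1 := by
  have h0 := hc.pos
  have h1 := Dis.crit_lt hc
  have hf : ∀ j : ℕ, 0 ≤ (1 - (1 - θ ^ 2) * M (j + 1) (gp G v w (j + 1)) (gp G v w j) ^ 2) ∧
      (1 - (1 - θ ^ 2) * M (j + 1) (gp G v w (j + 1)) (gp G v w j) ^ 2) ≤ 1 := by
    intro j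
    have h2 := hM (j + 1) (gp G v w (j + 1)) (gp G v w j)
    have h3 : M (j + 1) (gp G v w (j + 1)) (gp G v w j) ^ 2 ≤ 1 := by
      rw [← sq_abs]; nlinarith [abs_nonneg (M (j + 1) (gp G v w (j + 1)) (gp G v w j))]
    have h4 : θ ^ 2 < 1 := by nlinarith
    have h5 := sq_nonneg (M (j + 1) (gp G v w (j + 1)) (gp G v w j))
    have h6 := sq_nonneg θ
    constructor <;> nlinarith
  exact ⟨Finset.prod_nonneg fun j _ => (hf j).1, Finset.prod_le_one (fun j _ => (hf j).1)
    fun j _ => (hf j).2⟩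

/-- the sum of the squared covariances over a sphere -/
lemma sphere_sum (hA3 : S_ALG3.{u}) (hB : S_BASE.{u}) (hc : Crit G d θ)
    {μ : Measure (V → Bool)} [IsProbabilityMeasure μ] (v : V) (s : ℝ) (n : ℕ) {X : ℝ}
    (hX : ∫ ω, θ ^ (2 * n) * ∑ w ∈ sphF G v n,
          pw G θ (fun _ u p => Real.tanh (Lt G θ s ω u p)) v w ∂(PP μ) ≤ X) :
    ∫⁻ ω, ENNReal.ofReal (∑ w ∈ sphF G v n, cov G θ (Lt G θ s ω) v w ^ 2) ∂(PP μ)
      ≤ ENNReal.ofReal X := by
  have hm : Measurable fun ω : Om V => θ ^ (2 * n) * ∑ w ∈ sphF G v n,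
          pw G θ (fun _ u p => Real.tanh (Lt G θ s ω u p)) v w := by
    apply Measurable.const_mul
    apply Finset.measurable_sum
    intro w _
    unfold pw
    apply Finset.measurable_prod
    intro j _
    have := measurable_tLt hB hc (measurable_const (a := s)) (measurable_id (α := Om V))
      (gp G v w (j + 1)) (gp G v w j)
    simp only [id] at this
    fun_prop
  have hpw : ∀ ω w, 0 ≤ pw G θ (fun _ u p => Real.tanh (Lt G θ s ω u p)) v w ∧
      pw G θ (fun _ u p => Real.tanh (Lt G θ s ω u p)) v w ≤ 1 := fun ω w =>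
    pw_unit hc _ (fun _ _ _ => (abs_tanh_lt _).le) v w
  have hnn : ∀ ω : Om V, 0 ≤ θ ^ (2 * n) * ∑ w ∈ sphF G v n,
          pw G θ (fun _ u p => Real.tanh (Lt G θ s ω u p)) v w := fun ω =>
    mul_nonneg (pow_nonneg hc.pos.le _) (Finset.sum_nonneg fun w _ => (hpw ω w).1)
  have hint : Integrable (fun ω : Om V => θ ^ (2 * n) * ∑ w ∈ sphF G v n,
          pw G θ (fun _ u p => Real.tanh (Lt G θ s ω u p)) v w) (PP μ) := by
    refine integrable_of_bdd hm (B := θ ^ (2 * n) * (sphF G v n).card) fun ω => ?_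
    rw [abs_of_nonneg (hnn ω)]
    apply mul_le_mul_of_nonneg_left _ (pow_nonneg hc.pos.le _)
    calc ∑ w ∈ sphF G v n, pw G θ (fun _ u p => Real.tanh (Lt G θ s ω u p)) v w
        ≤ ∑ w ∈ sphF G v n, (1 : ℝ) := Finset.sum_le_sum fun w _ => (hpw ω w).2
      _ = _ := by simp
  calc ∫⁻ ω, ENNReal.ofReal (∑ w ∈ sphF G v n, cov G θ (Lt G θ s ω) v w ^ 2) ∂(PP μ)
      ≤ ∫⁻ ω, ENNReal.ofReal (θ ^ (2 * n) * ∑ w ∈ sphF G v n,
          pw G θ (fun _ u p => Real.tanh (Lt G θ s ω u p)) v w) ∂(PP μ) := by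
        apply lintegral_mono
        intro ω
        apply ENNReal.ofReal_le_ofReal
        rw [Finset.mul_sum]
        apply Finset.sum_le_sum
        intro w hw
        have h1 := ((hA3 hc).2 (Lt G θ s ω) v w).2.2
        rwa [(Dis.mem_sphF hc).1 hw] at h1
    _ = ENNReal.ofReal (∫ ω, θ ^ (2 * n) * ∑ w ∈ sphF G v n,
          pw G θ (fun _ u p => Real.tanh (Lt G θ s ω u p)) v w ∂(PP μ)) := by
        rw [ofReal_integral_eq_lintegral_ofReal hint (Eventually.of_forall hnn)]
    _ ≤ ENNReal.ofReal X := ENNReal.ofReal_le_ofReal hX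

open Classical in
/-- the dominating functional -/
noncomputable def FK (G : SimpleGraph V) (θ : ℝ) (v w : V) (T K : ℕ) (s : ℝ) (ω : Om V) : ENNReal :=
  if 1 / (K : ℝ) ≤ s ∧ s < T then
    ENNReal.ofReal (8 * (cov G θ (Lt G θ s ω) v w ^ 2 + cov G θ (Lt G θ (gt K s) ω) v w ^ 2))
  else 0

lemma measurable_FK (hB : S_BASE.{u}) (hc : Crit G d θ) (v w : V) (T K : ℕ) :
    Measurable (Function.uncurry (FK G θ v w T K)) := by
  have h1 : Measurable fun q : ℝ × Om V => cov G θ (Lt G θ q.1 q.2) v w :=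
    measurable_cov hB hc measurable_fst measurable_snd v w
  have h2 : Measurable fun q : ℝ × Om V => cov G θ (Lt G θ (gt K q.1) q.2) v w :=
    measurable_cov hB hc ((measurable_gt K).comp measurable_fst) measurable_snd v w
  have h3 : Function.uncurry (FK G θ v w T K) = fun q : ℝ × Om V =>
      (open Classical in if 1 / (K : ℝ) ≤ q.1 ∧ q.1 < T then
    ENNReal.ofReal (8 * (cov G θ (Lt G θ q.1 q.2) v w ^ 2
      + cov G θ (Lt G θ (gt K q.1) q.2) v w ^ 2))
  else 0) := by
    funext q; rfl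
  rw [h3]
  apply Measurable.ite
  · exact (measurableSet_le measurable_const measurable_fst).inter
      (measurableSet_lt measurable_fst measurable_const)
  · exact (((h1.pow_const 2).add (h2.pow_const 2)).const_mul 8).ennreal_ofReal
  · exact measurable_const

lemma local_FK (v w : V) (T K : ℕ) (k : V × ℕ) : Dis.LocalAt k (FK G θ v w T K) := by
  intro s ω r r' hr hr'
  unfold FK
  split_ifs with h
  · have hs : 0 ≤ s := le_trans (by positivity) h.1
    rw [Dis.Lt_updU G θ s ω k r r' hr hr', Dis.Lt_updU G θ (gt K s) ω k r r'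
      ((gt_le K hs).trans hr) ((gt_le K hs).trans hr')]
  · rfl

/-- one event, through the disintegration -/
lemma one_event (hPhi : S_PHI) (hB : S_BASE.{u}) (hJ : S_JUMP.{u})
    (hc : Crit G d θ) {μ : Measure (V → Bool)} (hμ : IsFreeIsing G θ μ) (v w : V) (j T K : ℕ) :
    ∫⁻ ω, ENNReal.ofReal (IK G θ v T K (w, j) ω) ∂(PP μ)
      ≤ ∫⁻ r : I01, ENNReal.ofReal r * ∫⁻ ω, FK G θ v w T K (j + (r : ℝ)) ω ∂(PP μ) := by
  have := Dis.isProb hc hμ
  refine le_trans ?_ (Dis.lintegral_local μ (w, j) (FK G θ v w T K) (measurable_FK hB hc v w T K)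
    (local_FK v w T K (w, j)))
  apply lintegral_mono_ae
  filter_upwards [(hJ hc hμ).1 (w, j)] with ω hω
  unfold IK FK
  by_cases hif : 1 / (K : ℝ) ≤ kap ω.2.1 (w, j) ∧ kap ω.2.1 (w, j) < T
  · rw [if_pos hif, if_pos hif, ← ENNReal.ofReal_mul (sq_nonneg _)]
    apply ENNReal.ofReal_le_ofReal
    rw [hω v]
    unfold JK
    set c := cov G θ (Lt G θ (kap ω.2.1 (w, j)) ω) v w
    set c' := cov G θ (Lt G θ (gt K (kap ω.2.1 (w, j))) ω) v w
    set φ := phi (dl (ω.2.1 (w, j))) (mt G θ (kap ω.2.1 (w, j)) ω w) (inn G θ ω (w, j)) with hφ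
    set φ' := phi (dl (ω.2.1 (w, j))) (mt G θ (gt K (kap ω.2.1 (w, j))) ω w)
      (inn G θ ω (w, j)) with hφ'
    set δ := dl (ω.2.1 (w, j)) with hδ
    have h1 : |φ| ≤ 2 * δ := hPhi.1 _ _ _ (dl_nonneg _) (dl_le _) (abs_mt_le _ _ _)
    have h2 : |φ'| ≤ 2 * δ := hPhi.1 _ _ _ (dl_nonneg _) (dl_le _) (abs_mt_le _ _ _)
    have h3 : φ ^ 2 ≤ 4 * δ ^ 2 := by
      rw [← sq_abs φ]; nlinarith [abs_nonneg φ]
    have h4 : φ' ^ 2 ≤ 4 * δ ^ 2 := by
      rw [← sq_abs φ']; nlinarith [abs_nonneg φ']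
    have h5 : c ^ 2 * φ ^ 2 ≤ c ^ 2 * (4 * δ ^ 2) := by gcongr
    have h6 : c' ^ 2 * φ' ^ 2 ≤ c' ^ 2 * (4 * δ ^ 2) := by gcongr
    show (c * φ - c' * φ') ^ 2 ≤ δ ^ 2 * (8 * (c ^ 2 + c' ^ 2))
    nlinarith [sq_nonneg (c * φ + c' * φ')]
  · rw [if_neg hif, if_neg hif]
    simp

/-- the bound of the contribution of a sphere -/
noncomputable def Gn (c : ℝ) (n : ℕ) : ENNReal :=
  ∫⁻ r : I01, ENNReal.ofReal r * ENNReal.ofReal (32 * (1 - c / 2 * r) ^ n)

lemma tsum_Gn {c : ℝ} (hc0 : 0 < c) (hc1 : c ≤ 1 / 2) : ∑' n, Gn c n ≠ ⊤ := by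
  unfold Gn
  have hm : ∀ n : ℕ, Measurable fun r : I01 =>
      ENNReal.ofReal r * ENNReal.ofReal (32 * (1 - c / 2 * r) ^ n) := by
    intro n; fun_prop
  rw [← lintegral_tsum fun n => (hm n).aemeasurable]
  apply ne_top_of_le_ne_top (b := ENNReal.ofReal (64 / c)) ENNReal.ofReal_ne_top
  calc ∫⁻ r : I01, ∑' n, ENNReal.ofReal r * ENNReal.ofReal (32 * (1 - c / 2 * r) ^ n)
      ≤ ∫⁻ _ : I01, ENNReal.ofReal (64 / c) := by
        apply lintegral_mono
        intro r
        have hr0 : 0 ≤ (r : ℝ) := r.2.1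
        have hr1 : (r : ℝ) ≤ 1 := r.2.2
        rcases hr0.eq_or_lt with h | h
        · simp [← h]
        · have hx0 : 0 ≤ 1 - c / 2 * r := by nlinarith
          have hx1 : 1 - c / 2 * r < 1 := by nlinarith [mul_pos hc0 h]
          have hs := summable_geometric_of_lt_one hx0 hx1
          have e : ∀ n : ℕ, ENNReal.ofReal r * ENNReal.ofReal (32 * (1 - c / 2 * r) ^ n)
              = ENNReal.ofReal (r * 32 * (1 - c / 2 * r) ^ n) := by
            intro n
            rw [← ENNReal.ofReal_mul hr0, mul_assoc]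
          simp_rw [e]
          rw [← ENNReal.ofReal_tsum_of_nonneg (fun n => by positivity) (hs.mul_left _),
            tsum_mul_left, tsum_geometric_of_lt_one hx0 hx1]
          apply ENNReal.ofReal_le_ofReal
          rw [show (1 : ℝ) - (1 - c / 2 * r) = c / 2 * r by ring]
          have : (r : ℝ) * 32 * (c / 2 * r)⁻¹ = 64 / c := by field_simp; ring
          rw [this]
    _ = ENNReal.ofReal (64 / c) := by simp

/-- contribution of a sphere -/
lemma sphere_bound (hA3 : S_ALG3.{u}) (hPhi : S_PHI) (hB : S_BASE.{u}) (hJ : S_JUMP.{u})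
    (hc : Crit G d θ) {μ : Measure (V → Bool)} (hμ : IsFreeIsing G θ μ) (v : V) (T : ℕ) {c : ℝ}
    (hc0 : 0 < c) (hc1 : c ≤ 1 / 2)
    (hTR : ∀ s : ℝ, 0 < s → s ≤ T → ∀ (k : ℕ),
      ∫ ω, θ ^ (2 * k) * ∑ w ∈ sphF G v k,
          pw G θ (fun _ u p => Real.tanh (Lt G θ s ω u p)) v w ∂(PP μ)
        ≤ 2 * (1 - c * min s 1) ^ k) (j n : ℕ) {K : ℕ} (hK : 1 ≤ K) :
    ∑ w ∈ sphF G v n, ∫⁻ ω, ENNReal.ofReal (IK G θ v T K (w, j) ω) ∂(PP μ) ≤ Gn c n := by
  have := Dis.isProb hc hμ
  have hK' : (0 : ℝ) < K := by exact_mod_cast hK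
  have hmF : ∀ w (r : I01), Measurable fun ω => FK G θ v w T K (j + (r : ℝ)) ω := fun w r =>
    (measurable_FK hB hc v w T K).comp (measurable_const.prodMk measurable_id)
  have hmR : ∀ w, Measurable fun r : I01 => ∫⁻ ω, FK G θ v w T K (j + (r : ℝ)) ω ∂(PP μ) := by
    intro w
    have h1 : Measurable fun q : I01 × Om V => FK G θ v w T K (j + (q.1 : ℝ)) q.2 := by
      have h2 : Measurable fun q : I01 × Om V => ((j : ℝ) + (q.1 : ℝ), q.2) := by fun_prop
      exact (measurable_FK hB hc v w T K).comp h2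
    exact h1.lintegral_prod_right'
  calc ∑ w ∈ sphF G v n, ∫⁻ ω, ENNReal.ofReal (IK G θ v T K (w, j) ω) ∂(PP μ)
      ≤ ∑ w ∈ sphF G v n, ∫⁻ r : I01, ENNReal.ofReal r
          * ∫⁻ ω, FK G θ v w T K (j + (r : ℝ)) ω ∂(PP μ) :=
        Finset.sum_le_sum fun w _ => one_event hPhi hB hJ hc hμ v w j T K
    _ = ∫⁻ r : I01, ENNReal.ofReal r
          * ∫⁻ ω, ∑ w ∈ sphF G v n, FK G θ v w T K (j + (r : ℝ)) ω ∂(PP μ) := by
        have hmm : ∀ w, Measurable fun r : I01 => ENNReal.ofReal r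
            * ∫⁻ ω, FK G θ v w T K (j + (r : ℝ)) ω ∂(PP μ) := fun w =>
          Measurable.mul (by fun_prop) (hmR w)
        rw [← lintegral_finsetSum _ (fun w _ => hmm w)]
        apply lintegral_congr
        intro r
        rw [lintegral_finsetSum _ (fun w _ => hmF w r), Finset.mul_sum]
    _ ≤ ∫⁻ r : I01, ENNReal.ofReal r * ENNReal.ofReal (32 * (1 - c / 2 * r) ^ n) := by
        apply lintegral_mono
        intro r
        apply mul_le_mul_right
        have hr0 : 0 ≤ (r : ℝ) := r.2.1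
        have hr1 : (r : ℝ) ≤ 1 := r.2.2
        set s : ℝ := j + (r : ℝ) with hs
        have hrs : (r : ℝ) ≤ s := by
          have : (0 : ℝ) ≤ j := by positivity
          linarith
        by_cases hif : 1 / (K : ℝ) ≤ s ∧ s < T
        swap
        · have : ∀ ω, ∑ w ∈ sphF G v n, FK G θ v w T K s ω = 0 := by
            intro ω
            apply Finset.sum_eq_zero
            intro w _
            unfold FK
            rw [if_neg hif]
          simp_rw [this]
          simp
        have hs0 : 0 < s := lt_of_lt_of_le (by positivity) hif.1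
        have hg0 := half_le_gt (K := K) (by omega) hif.1
        have hg1 := gt_le K hs0.le
        have hg2 : 0 < gt K s := by linarith
        have e : ∀ ω, ∑ w ∈ sphF G v n, FK G θ v w T K s ω
            = 8 * ENNReal.ofReal (∑ w ∈ sphF G v n, cov G θ (Lt G θ s ω) v w ^ 2)
              + 8 * ENNReal.ofReal (∑ w ∈ sphF G v n, cov G θ (Lt G θ (gt K s) ω) v w ^ 2) := by
          intro ω
          have h8 : (8 : ENNReal) = ENNReal.ofReal 8 := by simp
          have hn1 : 0 ≤ ∑ w ∈ sphF G v n, cov G θ (Lt G θ s ω) v w ^ 2 :=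
            Finset.sum_nonneg fun w _ => sq_nonneg _
          have hn2 : 0 ≤ ∑ w ∈ sphF G v n, cov G θ (Lt G θ (gt K s) ω) v w ^ 2 :=
            Finset.sum_nonneg fun w _ => sq_nonneg _
          rw [h8, ← ENNReal.ofReal_mul (by norm_num), ← ENNReal.ofReal_mul (by norm_num),
            ← ENNReal.ofReal_add (by positivity) (by positivity), ← mul_add,
            ← Finset.sum_add_distrib, Finset.mul_sum,
            ENNReal.ofReal_sum_of_nonneg (fun w _ => by positivity)]
          apply Finset.sum_congr rfl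
          intro w _
          unfold FK
          rw [if_pos hif]
        simp_rw [e]
        have hms : ∀ s' : ℝ, Measurable fun ω : Om V =>
            ENNReal.ofReal (∑ w ∈ sphF G v n, cov G θ (Lt G θ s' ω) v w ^ 2) := by
          intro s'
          apply Measurable.ennreal_ofReal
          apply Finset.measurable_sum
          intro w _
          exact (measurable_cov hB hc measurable_const measurable_id v w).pow_const 2
        rw [lintegral_add_left ((hms s).const_mul 8), lintegral_const_mul _ (hms s),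
          lintegral_const_mul _ (hms (gt K s))]
        have b1 := sphere_sum hA3 hB hc (μ := μ) v s n (hTR s hs0 hif.2.le n)
        have b2 := sphere_sum hA3 hB hc (μ := μ) v (gt K s) n
          (hTR (gt K s) hg2 (hg1.trans hif.2.le) n)
        have hx0 : 0 ≤ 1 - c / 2 * r := by nlinarith
        have hm1 : (r : ℝ) ≤ min s 1 := le_min hrs hr1
        have hm2 : (r : ℝ) / 2 ≤ min (gt K s) 1 := le_min (by linarith) (by linarith)
        have hm3 : min s 1 ≤ 1 := min_le_right _ _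
        have hm4 : min (gt K s) 1 ≤ 1 := min_le_right _ _
        have p1 : 2 * (1 - c * min s 1) ^ n ≤ 2 * (1 - c / 2 * r) ^ n := by
          apply mul_le_mul_of_nonneg_left _ (by norm_num)
          apply pow_le_pow_left₀ (by nlinarith)
          nlinarith
        have p2 : 2 * (1 - c * min (gt K s) 1) ^ n ≤ 2 * (1 - c / 2 * r) ^ n := by
          apply mul_le_mul_of_nonneg_left _ (by norm_num)
          apply pow_le_pow_left₀ (by nlinarith)
          nlinarith
        calc 8 * ∫⁻ ω, ENNReal.ofReal (∑ w ∈ sphF G v n, cov G θ (Lt G θ s ω) v w ^ 2) ∂(PP μ)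
              + 8 * ∫⁻ ω, ENNReal.ofReal
                (∑ w ∈ sphF G v n, cov G θ (Lt G θ (gt K s) ω) v w ^ 2) ∂(PP μ)
            ≤ 8 * ENNReal.ofReal (2 * (1 - c / 2 * r) ^ n)
              + 8 * ENNReal.ofReal (2 * (1 - c / 2 * r) ^ n) := by
              gcongr
              · exact b1.trans (ENNReal.ofReal_le_ofReal p1)
              · exact b2.trans (ENNReal.ofReal_le_ofReal p2)
          _ = ENNReal.ofReal (32 * (1 - c / 2 * r) ^ n) := by
              have h8 : (8 : ENNReal) = ENNReal.ofReal 8 := by simp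
              rw [h8, ← ENNReal.ofReal_mul (by norm_num), ← ENNReal.ofReal_add (by positivity)
                (by positivity)]
              congr 1
              ring
    _ = Gn c n := rfl

end DYNA

open DYNA in
theorem dyna (hP : S_POST.{u}) (hT : S_TRANS.{u}) (hPhi : S_PHI) (hA1 : S_ALG1.{u})
    (hA3 : S_ALG3.{u}) (hB : S_BASE.{u}) (hJ : S_JUMP.{u}) : S_DYNA.{u} := by
  classical
  intro V G d θ hc μ hμ v T ε hε
  have := Dis.isProb hc hμ
  have := Dis.countable hc
  obtain ⟨c, hc0, hc1, Cq, hCq, hTR⟩ := hT hc T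
  have hTR2 : ∀ s : ℝ, 0 < s → s ≤ T → ∀ (k : ℕ),
      ∫ ω, θ ^ (2 * k) * ∑ w ∈ sphF G v k,
          pw G θ (fun _ u p => Real.tanh (Lt G θ s ω u p)) v w ∂(PP μ)
        ≤ 2 * (1 - c * min s 1) ^ k := fun s h0 h1 k => (hTR hμ s h0 h1).2.1 v k
  -- choice of the radius
  have htail : Tendsto (fun R => (T : ENNReal) * ∑' m, Gn c (m + R)) atTop (𝓝 (T * 0)) :=
    ENNReal.Tendsto.const_mul (ENNReal.tendsto_sum_nat_add (Gn c) (tsum_Gn hc0 hc1))
      (Or.inr (ENNReal.natCast_ne_top T))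
  rw [mul_zero] at htail
  have hε2 : (0 : ENNReal) < ENNReal.ofReal (ε / 2) := by
    rw [ENNReal.ofReal_pos]; linarith
  obtain ⟨R, hR⟩ := ((tendsto_order.1 htail).2 _ hε2).exists
  -- the finite part
  set S0 : Finset (V × ℕ) := ((Finset.range R).biUnion fun n => sphF G v n) ×ˢ Finset.range T
    with hS0
  have hconv : Tendsto (fun K : ℕ => ∑ k ∈ S0, ∫ ω, IK G θ v T K k ω ∂(PP μ)) atTop
      (𝓝 (∑ k ∈ S0, 0)) :=
    tendsto_finsetSum _ fun k _ => conv_one hP hA1 hA3 hPhi hB hJ hc hμ v T k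
  rw [Finset.sum_const_zero] at hconv
  obtain ⟨K1, hK1⟩ := eventually_atTop.1 ((tendsto_order.1 hconv).2 (ε / 2) (by linarith))
  refine ⟨max K1 1, fun K hK S => ?_⟩
  have hKK1 : K1 ≤ K := (le_max_left _ _).trans hK
  have hK1' : 1 ≤ K := (le_max_right _ _).trans hK
  set a : V × ℕ → ℝ := fun k => ∫ ω, IK G θ v T K k ω ∂(PP μ) with ha
  have ha0 : ∀ k, 0 ≤ a k := fun k => integral_nonneg fun ω => IK_nonneg v T K k ω
  have hIKm := fun k => measurable_IK (G := G) (θ := θ) hB hPhi hc v T K k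
  have haA : ∀ k, ENNReal.ofReal (a k) = ∫⁻ ω, ENNReal.ofReal (IK G θ v T K k ω) ∂(PP μ) := by
    intro k
    apply ofReal_integral_eq_lintegral_ofReal
    · exact integrable_of_bdd (hIKm k) (B := 9) fun ω => by
        rw [abs_of_nonneg (IK_nonneg v T K k ω)]
        exact IK_le hA3 hPhi hc v T K k ω
    · exact Eventually.of_forall fun ω => IK_nonneg v T K k ω
  have hbig : ∀ k : V × ℕ, T ≤ k.2 → a k = 0 := by
    intro k hk
    apply integral_eq_zero_of_ae
    filter_upwards with ω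
    unfold IK
    rw [if_neg]
    · rfl
    · rintro ⟨_, h2⟩
      unfold kap at h2
      have h3 : (T : ℝ) ≤ k.2 := by exact_mod_cast hk
      have h4 : 0 ≤ (ω.2.1 k : ℝ) := (ω.2.1 k).2.1
      linarith
  -- the tail
  set S1 : Finset (V × ℕ) := S.filter fun k => k.2 < T ∧ R ≤ G.dist v k.1 with hS1
  have hsplit : ∑ k ∈ S, a k ≤ ∑ k ∈ S0, a k + ∑ k ∈ S1, a k := by
    rw [← Finset.sum_filter_add_sum_filter_not S (fun k => k.2 < T ∧ R ≤ G.dist v k.1)]
    rw [add_comm]
    apply add_le_add_left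
    have h1 : ∑ k ∈ S.filter (fun k => ¬ (k.2 < T ∧ R ≤ G.dist v k.1)), a k
        = ∑ k ∈ (S.filter (fun k => ¬ (k.2 < T ∧ R ≤ G.dist v k.1))).filter (fun k => k.2 < T),
          a k := by
      symm
      apply Finset.sum_subset (Finset.filter_subset _ _)
      intro k _ hk
      apply hbig
      by_contra h
      push Not at h
      exact hk (by
        rw [Finset.mem_filter]
        exact ⟨by assumption, h⟩)
    rw [h1]
    apply Finset.sum_le_sum_of_subset_of_nonneg
    · intro k hk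
      rw [Finset.mem_filter, Finset.mem_filter] at hk
      obtain ⟨⟨_, h2⟩, h3⟩ := hk
      have h4 : G.dist v k.1 < R := by
        by_contra h
        push Not at h
        exact h2 ⟨h3, h⟩
      rw [hS0, Finset.mem_product, Finset.mem_biUnion, Finset.mem_range]
      exact ⟨⟨G.dist v k.1, Finset.mem_range.2 h4, (Dis.mem_sphF hc).2 rfl⟩, h3⟩
    · intro k _ _; exact ha0 k
  have htl : ∑ k ∈ S1, a k ≤ ε / 2 := by
    have h1 : ENNReal.ofReal (∑ k ∈ S1, a k) ≤ ENNReal.ofReal (ε / 2) := by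
      refine le_trans ?_ hR.le
      rw [ENNReal.ofReal_sum_of_nonneg fun k _ => ha0 k]
      obtain ⟨M, hM⟩ : ∃ M, ∀ k ∈ S1, G.dist v k.1 < M + R := by
        refine ⟨S1.sup (fun k => G.dist v k.1) + 1, fun k hk => ?_⟩
        have := Finset.le_sup (f := fun k : V × ℕ => G.dist v k.1) hk
        omega
      have hmaps : ∀ k ∈ S1, G.dist v k.1 - R ∈ Finset.range M := by
        intro k hk
        have := hM k hk
        have h2 := (Finset.mem_filter.1 hk).2.2
        rw [Finset.mem_range]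
        omega
      rw [← Finset.sum_fiberwise_of_maps_to hmaps]
      calc ∑ m ∈ Finset.range M, ∑ k ∈ S1 with G.dist v k.1 - R = m, ENNReal.ofReal (a k)
          ≤ ∑ m ∈ Finset.range M, T * Gn c (m + R) := by
            apply Finset.sum_le_sum
            intro m _
            calc ∑ k ∈ S1 with G.dist v k.1 - R = m, ENNReal.ofReal (a k)
                ≤ ∑ k ∈ sphF G v (m + R) ×ˢ Finset.range T, ENNReal.ofReal (a k) := by
                  apply Finset.sum_le_sum_of_subset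
                  intro k hk
                  rw [Finset.mem_filter] at hk
                  obtain ⟨hk1, hk2⟩ := hk
                  have h2 := (Finset.mem_filter.1 hk1).2
                  rw [Finset.mem_product, Dis.mem_sphF hc, Finset.mem_range]
                  exact ⟨by omega, h2.1⟩
              _ = ∑ j ∈ Finset.range T, ∑ w ∈ sphF G v (m + R), ENNReal.ofReal (a (w, j)) := by
                  rw [Finset.sum_product_right]
              _ ≤ ∑ j ∈ Finset.range T, Gn c (m + R) := by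
                  apply Finset.sum_le_sum
                  intro j _
                  simp_rw [haA]
                  exact sphere_bound hA3 hPhi hB hJ hc hμ v T hc0 hc1 hTR2 j (m + R) hK1'
              _ = T * Gn c (m + R) := by simp
        _ = T * ∑ m ∈ Finset.range M, Gn c (m + R) := by rw [Finset.mul_sum]
        _ ≤ T * ∑' m, Gn c (m + R) := by
            gcongr
            exact ENNReal.sum_le_tsum _
    exact (ENNReal.ofReal_le_ofReal_iff (by linarith)).1 h1
  have hfin := hK1 K hKK1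
  have : ∑ k ∈ S, a k ≤ ε := by
    have h5 : ∑ k ∈ S0, a k < ε / 2 := hfin
    linarith
  exact this

end Vale.Agent.P161C
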