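import Vale.Agent.P161C.DecGeo

/-!
# P161 critical: module DECA
-/

namespace Vale.Agent.P161C

open MeasureTheory Vale.Agent.P161 Filter Topology

universe u

namespace Dec

lemma tanh_sq_eq (x : ℝ) : Real.tanh x ^ 2 = 1 - 1 / Real.cosh x ^ 2 := by
  have h := Real.cosh_sq x
  have h1 : 0 < Real.cosh x := Real.cosh_pos x
  rw [Real.tanh_eq_sinh_div_cosh, div_pow]
  field_simp
  linarith

lemma tanh_sq_le {x y : ℝ} (h : |x| ≤ |y|) : Real.tanh x ^ 2 ≤ Real.tanh y ^ 2 := by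
  rw [tanh_sq_eq, tanh_sq_eq]
  have h1 : 0 < Real.cosh x := Real.cosh_pos x
  have h2 : Real.cosh x ≤ Real.cosh y := Real.cosh_le_cosh.2 h
  have h3 : 1 / Real.cosh y ^ 2 ≤ 1 / Real.cosh x ^ 2 := by
    apply one_div_le_one_div_of_le (by positivity)
    exact pow_le_pow_left₀ h1.le h2 2
  linarith

lemma tanh_sq_add (A B : ℝ) :
    Real.tanh B ^ 2 ≤ Real.tanh (A + B) ^ 2 + Real.tanh (A - B) ^ 2 := by
  have h1 := sq_nonneg (Real.tanh (A + B))
  have h2 := sq_nonneg (Real.tanh (A - B))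
  rcases le_total 0 (A * B) with h | h
  · have : |B| ≤ |A + B| := sq_le_sq.1 (by nlinarith [sq_nonneg A])
    have := tanh_sq_le this
    linarith
  · have : |B| ≤ |A - B| := sq_le_sq.1 (by nlinarith [sq_nonneg A])
    have := tanh_sq_le this
    linarith

lemma tanh_sq_lt (x : ℝ) : Real.tanh x ^ 2 < 1 :=
  (sq_lt_one_iff_abs_lt_one _).mpr (Real.abs_tanh_lt_one x)

variable {V : Type u} {G : SimpleGraph V} {d : ℕ} {θ : ℝ}

/-- edges inside a branch -/
def inE (G : SimpleGraph V) (c u : V) : Set (Sym2 V) := {a | ∀ x ∈ a, x ∈ side G c u}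

lemma step (hC : Crit G d θ) (ν : Measure ℝ) [IsProbabilityMeasure ν] {u p c : V}
    (huc : G.Adj u c) (hcp : c ≠ p) (m : ℕ) (κ : ℝ)
    (hκ : κ ≤ ∫ e, Real.tanh (msgh G θ m e c u) ^ 2 ∂(EE G θ ν)) (Ψ : En V → ℝ)
    (hΨm : Measurable Ψ) (hΨ0 : ∀ e, 0 ≤ Ψ e) (hΨ1 : ∀ e, Ψ e ≤ 1)
    (hΨ : ∀ e e' : En V, (∀ a, a ≠ s(u, c) → a ∉ inE G c u → e.1 a = e'.1 a) →
      (∀ x, x ∉ side G c u → e.2 x = e'.2 x) → Ψ e = Ψ e') :
    ∫ e, (1 - (1 - θ ^ 2) * Real.tanh (msgh G θ (m + 1) e u p) ^ 2) * Ψ e ∂(EE G θ ν)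
      ≤ (1 - (1 - θ ^ 2) * ((1 - θ) / 2) * θ ^ 2 * κ) * ∫ e, Ψ e ∂(EE G θ ν) := by
  classical
  have hprob := EE_prob (G := G) hC ν
  have hθ := theta_lt hC
  have hθ0 := hC.pos
  have hT1m : ∀ (n : ℕ) (x y : V), Measurable fun e : En V => Real.tanh (msgh G θ n e x y) ^ 2 :=
    fun n x y => (measurable_tanh.comp (measurable_msgh n x y)).pow_const 2
  have ha : s(u, c) ∈ G.edgeSet := huc
  set Φ : En V → ℝ := fun e =>
    (1 - (1 - θ ^ 2) * Real.tanh (msgh G θ (m + 1) e u p) ^ 2) * Ψ e with hΦ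
  have hΦm : Measurable Φ := (measurable_const.sub ((hT1m (m + 1) u p).const_mul _)).mul hΨm
  have hf01 : ∀ x : ℝ, 0 ≤ 1 - (1 - θ ^ 2) * Real.tanh x ^ 2 ∧
      1 - (1 - θ ^ 2) * Real.tanh x ^ 2 ≤ 1 := by
    intro x
    have h1 := tanh_sq_lt x
    have h2 := sq_nonneg (Real.tanh x)
    have h3 := sq_nonneg θ
    constructor <;> nlinarith [hθ.2]
  have hΦb : ∀ e, |Φ e| ≤ 1 := by
    intro e
    rw [hΦ]
    show |(1 - (1 - θ ^ 2) * Real.tanh (msgh G θ (m + 1) e u p) ^ 2) * Ψ e| ≤ 1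
    have h1 := hf01 (msgh G θ (m + 1) e u p)
    rw [abs_of_nonneg (mul_nonneg h1.1 (hΨ0 e))]
    nlinarith [h1.1, h1.2, hΨ0 e, hΨ1 e]
  -- the message after changing the sign of the edge
  set A : En V → ℝ := fun e => e.2 u + ∑ c' ∈ ((nb G u).erase p).erase c,
    sp (e.1 s(u, c')) * ff θ (msgh G θ m e c' u) with hA
  have hmsg : ∀ (e : En V) (b : Bool), msgh G θ (m + 1) (Function.update e.1 s(u, c) b, e.2) u p
      = A e + sp b * ff θ (msgh G θ m e c u) := by
    intro e b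
    have hcmem : c ∈ (nb G u).erase p := by
      rw [Finset.mem_erase, mem_nb hC]; exact ⟨hcp, huc⟩
    have hmc : ∀ c' : V, G.Adj u c' →
        msgh G θ m (Function.update e.1 s(u, c) b, e.2) c' u = msgh G θ m e c' u := by
      intro c' hc'
      refine msgh_congr hC m hc'.symm _ _ (fun x _ => rfl) fun a haa => ?_
      show Function.update e.1 s(u, c) b a = e.1 a
      rw [Function.update_of_ne]
      rintro rfl
      exact self_notMem_side (haa u (Sym2.mem_mk_left u c))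
    show e.2 u + ∑ c' ∈ (nb G u).erase p, sp (Function.update e.1 s(u, c) b s(u, c'))
      * ff θ (msgh G θ m (Function.update e.1 s(u, c) b, e.2) c' u) = _
    rw [← Finset.add_sum_erase _ _ hcmem, Function.update_self, hmc c huc, hA]
    have h1 : ∑ c' ∈ ((nb G u).erase p).erase c, sp (Function.update e.1 s(u, c) b s(u, c'))
        * ff θ (msgh G θ m (Function.update e.1 s(u, c) b, e.2) c' u)
        = ∑ c' ∈ ((nb G u).erase p).erase c, sp (e.1 s(u, c')) * ff θ (msgh G θ m e c' u) := by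
      refine Finset.sum_congr rfl fun c' hc' => ?_
      rw [Finset.mem_erase, Finset.mem_erase, mem_nb hC] at hc'
      rw [hmc c' hc'.2.2, Function.update_of_ne]
      intro h
      rw [Sym2.eq_iff] at h
      rcases h with h | h
      · exact hc'.1 h.2
      · exact huc.ne h.1
    rw [h1]
    ring
  have hΨu : ∀ (e : En V) (b : Bool), Ψ (Function.update e.1 s(u, c) b, e.2) = Ψ e := by
    intro e b
    refine hΨ _ _ (fun a h1 _ => ?_) fun _ _ => rfl
    show Function.update e.1 s(u, c) b a = e.1 a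
    rw [Function.update_of_ne h1]
  set T : En V → ℝ := fun e => Real.tanh (msgh G θ m e c u) ^ 2 with hT
  set κ' : ℝ := (1 - θ ^ 2) * ((1 - θ) / 2) * θ ^ 2 with hκ'
  have hκ'0 : 0 ≤ κ' := by
    rw [hκ']
    have h1 : 0 ≤ 1 - θ ^ 2 := by linarith [hθ.2]
    have h2 : 0 ≤ (1 - θ) / 2 := by linarith [hθ.1]
    positivity
  have hint : Integrable (fun e => Ψ e) (EE G θ ν) :=
    integrable_of_bdd (B := 1) hΨm fun e => by rw [abs_of_nonneg (hΨ0 e)]; exact hΨ1 e
  have hintT : Integrable (fun e => T e * Ψ e) (EE G θ ν) := by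
    refine integrable_of_bdd (B := 1) ((hT1m m c u).mul hΨm) fun e => ?_
    have h1 := (tanh_sq_lt (msgh G θ m e c u)).le
    have h2 := sq_nonneg (Real.tanh (msgh G θ m e c u))
    rw [abs_of_nonneg (mul_nonneg h2 (hΨ0 e))]
    nlinarith [hΨ0 e, hΨ1 e]
  have e1 : ∫ e, Φ e ∂(EE G θ ν) ≤ ∫ e, (Ψ e - κ' * (T e * Ψ e)) ∂(EE G θ ν) := by
    rw [edgeEE hC ν ha Φ hΦm hΦb]
    refine integral_mono_of_nonneg (Eventually.of_forall fun e => ?_)
      (hint.sub (hintT.const_mul _)) (Eventually.of_forall fun e => ?_)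
    · have h1 : ∀ b, 0 ≤ Φ (Function.update e.1 s(u, c) b, e.2) := fun b =>
        mul_nonneg (hf01 _).1 (hΨ0 _)
      have h2 : 0 ≤ (1 - θ) / 2 := by linarith [hθ.1]
      show 0 ≤ (1 + θ) / 2 * Φ (Function.update e.1 s(u, c) true, e.2)
        + (1 - θ) / 2 * Φ (Function.update e.1 s(u, c) false, e.2)
      have := h1 true
      have := h1 false
      positivity
    · show (1 + θ) / 2 * Φ (Function.update e.1 s(u, c) true, e.2)
        + (1 - θ) / 2 * Φ (Function.update e.1 s(u, c) false, e.2) ≤ Ψ e - κ' * (T e * Ψ e)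
      have h1 : ∀ b, Φ (Function.update e.1 s(u, c) b, e.2)
          = (1 - (1 - θ ^ 2) * Real.tanh (A e + sp b * ff θ (msgh G θ m e c u)) ^ 2) * Ψ e := by
        intro b
        show (1 - (1 - θ ^ 2) * Real.tanh (msgh G θ (m + 1)
          (Function.update e.1 s(u, c) b, e.2) u p) ^ 2) * Ψ (Function.update e.1 s(u, c) b, e.2) = _
        rw [hmsg, hΨu]
      rw [h1, h1]
      have h2 : sp true = 1 := by simp [sp]
      have h3 : sp false = -1 := by simp [sp]
      rw [h2, h3, one_mul, neg_one_mul, ← sub_eq_add_neg]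
      have h4 := tanh_sq_add (A e) (ff θ (msgh G θ m e c u))
      rw [tanh_ff hθ0.le hθ.1, mul_pow] at h4
      set t1 := Real.tanh (A e + ff θ (msgh G θ m e c u)) ^ 2 with ht1
      set t2 := Real.tanh (A e - ff θ (msgh G θ m e c u)) ^ 2 with ht2
      have h5 : 0 ≤ t1 := sq_nonneg _
      have h6 : 0 ≤ t2 := sq_nonneg _
      have h7 : (1 + θ) / 2 * (1 - (1 - θ ^ 2) * t1) + (1 - θ) / 2 * (1 - (1 - θ ^ 2) * t2)
          ≤ 1 - κ' * T e := by
        have h8 : (1 - θ) / 2 * (θ ^ 2 * T e) ≤ (1 - θ) / 2 * (t1 + t2) :=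
          mul_le_mul_of_nonneg_left h4 (by linarith [hθ.1])
        have h9 : (1 - θ) / 2 * (t1 + t2) ≤ (1 + θ) / 2 * t1 + (1 - θ) / 2 * t2 := by
          nlinarith
        have h10 : 0 ≤ 1 - θ ^ 2 := by linarith [hθ.2]
        have h11 := mul_le_mul_of_nonneg_left (h8.trans h9) h10
        rw [hκ']
        nlinarith [h11]
      calc (1 + θ) / 2 * ((1 - (1 - θ ^ 2) * t1) * Ψ e)
            + (1 - θ) / 2 * ((1 - (1 - θ ^ 2) * t2) * Ψ e)
          = ((1 + θ) / 2 * (1 - (1 - θ ^ 2) * t1) + (1 - θ) / 2 * (1 - (1 - θ ^ 2) * t2)) * Ψ e := by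
            ring
        _ ≤ (1 - κ' * T e) * Ψ e := mul_le_mul_of_nonneg_right h7 (hΨ0 e)
        _ = Ψ e - κ' * (T e * Ψ e) := by ring
  have e2 : ∫ e, T e * Ψ e ∂(EE G θ ν) = (∫ e, T e ∂(EE G θ ν)) * ∫ e, Ψ e ∂(EE G θ ν) := by
    refine indEE hC ν (inE G c u) (side G c u) T Ψ (hT1m m c u) hΨm (BT := 1) (BΨ := 1)
      (fun e => ?_) (fun e => ?_) (fun e e' h1 h2 => ?_) (fun e e' h1 h2 => ?_)
    · rw [abs_of_nonneg (sq_nonneg _)]
      exact (tanh_sq_lt _).le
    · rw [abs_of_nonneg (hΨ0 e)]; exact hΨ1 e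
    · show Real.tanh (msgh G θ m e c u) ^ 2 = Real.tanh (msgh G θ m e' c u) ^ 2
      rw [msgh_congr hC m huc.symm e e' h2 h1]
    · exact hΨ e e' (fun a _ h3 => h1 a h3) h2
  refine e1.trans ?_
  rw [integral_sub hint (hintT.const_mul _), integral_const_mul, e2]
  have h1 : 0 ≤ ∫ e, Ψ e ∂(EE G θ ν) := integral_nonneg hΨ0
  have h2 := mul_le_mul_of_nonneg_right hκ h1
  have h3 := mul_le_mul_of_nonneg_left h2 hκ'0
  nlinarith [h3]

lemma exists_third (hC : Crit G d θ) {u p : V} (hup : G.Adj u p) (q : V) :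
    ∃ c, G.Adj u c ∧ c ≠ p ∧ c ≠ q := by
  classical
  have h1 : 0 < (((nb G u).erase p).erase q).card := by
    have h2 := card_erase_nb hC hup
    have h3 := Finset.pred_card_le_card_erase (s := (nb G u).erase p) (a := q)
    have h4 := hC.hd
    have h5 : ((nb G u).erase p).card = d - 1 := by
      rw [← h2]
    omega
  obtain ⟨c, hc⟩ := Finset.card_pos.1 h1
  rw [Finset.mem_erase, Finset.mem_erase, mem_nb hC] at hc
  exact ⟨c, hc.2.2, hc.2.1, hc.1⟩

/-- the factors along a geodesic -/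
noncomputable def fj (G : SimpleGraph V) (θ : ℝ) (D : ℕ → ℕ) (v w : V) (j : ℕ) (e : En V) : ℝ :=
  1 - (1 - θ ^ 2) * Real.tanh (msgh G θ (D (j + 1)) e (gp G v w (j + 1)) (gp G v w j)) ^ 2

lemma fj_mem (hC : Crit G d θ) (D : ℕ → ℕ) (v w : V) (j : ℕ) (e : En V) :
    0 ≤ fj G θ D v w j e ∧ fj G θ D v w j e ≤ 1 := by
  have hθ := theta_lt hC
  unfold fj
  have h1 := tanh_sq_lt (msgh G θ (D (j + 1)) e (gp G v w (j + 1)) (gp G v w j))
  have h2 := sq_nonneg (Real.tanh (msgh G θ (D (j + 1)) e (gp G v w (j + 1)) (gp G v w j)))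
  have h3 := sq_nonneg θ
  constructor <;> nlinarith [hθ.2]

lemma measurable_fj (D : ℕ → ℕ) (v w : V) (j : ℕ) : Measurable (fj G θ D v w j) := by
  unfold fj
  exact measurable_const.sub (((measurable_tanh.comp (measurable_msgh _ _ _)).pow_const 2).const_mul _)

lemma side_nested (hC : Crit G d θ) (v w : V) (m : ℕ) :
    ∀ k : ℕ, m + k + 1 ≤ G.dist v w →
      side G (gp G v w (m + k + 1)) (gp G v w (m + k)) ⊆ side G (gp G v w (m + 1)) (gp G v w m) := by
  intro k
  induction k with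
  | zero => intro _; exact le_refl _
  | succ k ih =>
    intro h
    refine Set.Subset.trans ?_ (ih (by omega))
    have h1 : G.Adj (gp G v w (m + k)) (gp G v w (m + k + 1)) := gp_adj hC.tree (by omega)
    have h2 : G.Adj (gp G v w (m + k + 1)) (gp G v w (m + k + 1 + 1)) :=
      gp_adj hC.tree (by omega)
    refine side_sub hC.tree h1.symm h2 ?_
    intro h3
    have h4 := (gp_spec hC.tree (v := v) (w := w) (i := m + k + 1 + 1) (by omega)).1
    have h5 := (gp_spec hC.tree (v := v) (w := w) (i := m + k) (by omega)).1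
    have h6 : gp G v w (m + k + 1 + 1) = gp G v w (m + k) := h3
    rw [h6, h5] at h4
    omega

lemma fj_congr (hC : Crit G d θ) (D : ℕ → ℕ) (v w : V) {j : ℕ} (hj : j < G.dist v w)
    (e e' : En V)
    (h1 : ∀ x ∈ side G (gp G v w (j + 1)) (gp G v w j), e.2 x = e'.2 x)
    (h2 : ∀ a ∈ inE G (gp G v w (j + 1)) (gp G v w j), e.1 a = e'.1 a) :
    fj G θ D v w j e = fj G θ D v w j e' := by
  unfold fj
  rw [msgh_congr hC _ (gp_adj hC.tree hj).symm e e' h1 h2]

open Classical in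
lemma prod_bound (hC : Crit G d θ) (ν : Measure ℝ) [IsProbabilityMeasure ν] (v w : V) (D : ℕ → ℕ)
    (N κ : ℝ) (hN0 : 0 ≤ N) (hκ1 : (1 - θ ^ 2) * ((1 - θ) / 2) * θ ^ 2 * κ ≤ 1)
    (hκ : ∀ (m : ℕ) (c u : V), G.Adj c u → N ≤ m →
      κ ≤ ∫ e, Real.tanh (msgh G θ m e c u) ^ 2 ∂(EE G θ ν)) :
    ∀ k m : ℕ, m + k = G.dist v w →
      ∫ e, ∏ j ∈ Finset.Ico m (G.dist v w), fj G θ D v w j e ∂(EE G θ ν)
        ≤ ∏ j ∈ Finset.Ico m (G.dist v w),
          (if 1 + N ≤ (D (j + 1) : ℝ) then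
            (1 - (1 - θ ^ 2) * ((1 - θ) / 2) * θ ^ 2 * κ) else 1) := by
  have hprob := EE_prob (G := G) hC ν
  set ρ : ℝ := 1 - (1 - θ ^ 2) * ((1 - θ) / 2) * θ ^ 2 * κ with hρ
  have hρ0 : 0 ≤ ρ := by rw [hρ]; linarith
  intro k
  induction k with
  | zero =>
    intro m hm
    rw [Nat.add_zero] at hm
    rw [hm, Finset.Ico_self]
    simp
  | succ k ih =>
    intro m hm
    have hlt : m < G.dist v w := by omega
    have ihm := ih (m + 1) (by omega)
    set n := G.dist v w with hn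
    set Ψ : En V → ℝ := fun e => ∏ j ∈ Finset.Ico (m + 1) n, fj G θ D v w j e with hΨ
    have hΨ0 : ∀ e, 0 ≤ Ψ e := fun e => Finset.prod_nonneg fun j _ => (fj_mem hC D v w j e).1
    have hΨ1 : ∀ e, Ψ e ≤ 1 := fun e => Finset.prod_le_one (fun j _ => (fj_mem hC D v w j e).1)
      fun j _ => (fj_mem hC D v w j e).2
    have hΨm : Measurable Ψ := Finset.measurable_prod _ fun j _ => measurable_fj D v w j
    have hΨi : Integrable Ψ (EE G θ ν) :=
      integrable_of_bdd (B := 1) hΨm fun e => by rw [abs_of_nonneg (hΨ0 e)]; exact hΨ1 e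
    have hI0 : 0 ≤ ∫ e, Ψ e ∂(EE G θ ν) := integral_nonneg hΨ0
    have e1 : ∀ e, ∏ j ∈ Finset.Ico m n, fj G θ D v w j e = fj G θ D v w m e * Ψ e := fun e =>
      Finset.prod_eq_prod_Ico_succ_bot hlt _
    simp only [e1]
    rw [Finset.prod_eq_prod_Ico_succ_bot hlt]
    have main : ∫ e, fj G θ D v w m e * Ψ e ∂(EE G θ ν)
        ≤ (if 1 + N ≤ (D (m + 1) : ℝ) then ρ else 1) * ∫ e, Ψ e ∂(EE G θ ν) := by
      split_ifs with hD
      · have hup : G.Adj (gp G v w (m + 1)) (gp G v w m) := (gp_adj hC.tree hlt).symm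
        obtain ⟨c, huc, hcp, hcq⟩ := exists_third hC hup (gp G v w (m + 1 + 1))
        -- the depth is positive
        have hsub : ∀ j, m + 1 ≤ j → j < n →
            side G (gp G v w (j + 1)) (gp G v w j) ⊆
              side G (gp G v w (m + 1 + 1)) (gp G v w (m + 1)) := by
          intro j h1 h2
          have h3 := side_nested hC v w (m + 1) (j - (m + 1)) (by omega)
          have h4 : m + 1 + (j - (m + 1)) = j := by omega
          rw [h4] at h3
          exact h3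
        have hΨc : ∀ e e' : En V,
            (∀ a, a ≠ s(gp G v w (m + 1), c) → a ∉ inE G c (gp G v w (m + 1)) →
              e.1 a = e'.1 a) →
            (∀ x, x ∉ side G c (gp G v w (m + 1)) → e.2 x = e'.2 x) → Ψ e = Ψ e' := by
          intro e e' h1 h2
          refine Finset.prod_congr rfl fun j hj => ?_
          rw [Finset.mem_Ico] at hj
          have h3 := hsub j hj.1 hj.2
          have hadj : G.Adj (gp G v w (m + 1)) (gp G v w (m + 1 + 1)) :=
            gp_adj hC.tree (by omega)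
          refine fj_congr hC D v w hj.2 e e' (fun x hx => ?_) fun a ha => ?_
          · exact h2 x (side_disj hC.tree hadj huc (Ne.symm hcq) (h3 hx))
          · refine h1 a ?_ ?_
            · rintro rfl
              exact self_notMem_side (h3 (ha _ (Sym2.mem_mk_left _ _)))
            · intro h4
              obtain ⟨x, y⟩ := a
              have hx : x ∈ s(x, y) := Sym2.mem_mk_left x y
              exact side_disj hC.tree hadj huc (Ne.symm hcq) (h3 (ha x hx)) (h4 x hx)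
        rcases Nat.eq_zero_or_pos (D (m + 1)) with h0 | h0
        · exfalso
          rw [h0] at hD
          push_cast at hD
          linarith
        · obtain ⟨m', hm'⟩ : ∃ m', D (m + 1) = m' + 1 := ⟨D (m + 1) - 1, by omega⟩
          have hN : N ≤ (m' : ℝ) := by
            rw [hm'] at hD
            push_cast at hD
            linarith
          have hs := step hC ν huc hcp m' κ (hκ m' c _ huc.symm hN) Ψ hΨm hΨ0 hΨ1 hΨc
          have e2 : ∀ e, fj G θ D v w m e
              = 1 - (1 - θ ^ 2) * Real.tanh (msgh G θ (m' + 1) e (gp G v w (m + 1))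
                (gp G v w m)) ^ 2 := by
            intro e
            unfold fj
            rw [hm']
          simp only [e2]
          exact hs
      · rw [one_mul]
        refine integral_mono_of_nonneg (Eventually.of_forall fun e => ?_) hΨi
          (Eventually.of_forall fun e => ?_)
        · exact mul_nonneg (fj_mem hC D v w m e).1 (hΨ0 e)
        · exact mul_le_of_le_one_left (hΨ0 e) (fj_mem hC D v w m e).2
    refine main.trans (mul_le_mul_of_nonneg_left ihm ?_)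
    split_ifs
    · exact hρ0
    · exact zero_le_one

end Dec

open Dec in
theorem deca (hMOM : S_MOM.{u}) : S_DECA.{u} := by
  intro V G d θ hC Y
  classical
  obtain ⟨p0, Cq, hp0, -, hM⟩ := hMOM hC Y
  have hθ := theta_lt hC
  have hθ0 := hC.pos
  set c0 : ℝ := (1 - θ ^ 2) * ((1 - θ) / 2) * θ ^ 2 with hc0
  have hc0pos : 0 < c0 := by
    have h1 : 0 < 1 - θ ^ 2 := by linarith [hθ.2]
    have h2 : 0 < (1 - θ) / 2 := by linarith [hθ.1]
    positivity
  have hc01 : c0 ≤ 1 := by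
    have h1 : 1 - θ ^ 2 ≤ 1 := by nlinarith
    have h2 : (1 - θ) / 2 ≤ 1 := by linarith
    have h3 : θ ^ 2 ≤ 1 := by linarith [hθ.2]
    have h4 : 0 ≤ (1 - θ) / 2 := by linarith [hθ.1]
    have h5 : 0 ≤ 1 - θ ^ 2 := by linarith [hθ.2]
    calc c0 ≤ 1 * 1 * 1 := by
          rw [hc0]
          exact mul_le_mul (mul_le_mul h1 h2 h4 (by norm_num)) h3 (by positivity) (by norm_num)
      _ = 1 := by norm_num
  refine ⟨min (c0 * (min p0 1 / 4)) (1 / 2), ?_, min_le_right _ _, fun ν hA hk0 => ?_⟩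
  · have : 0 < min p0 1 := lt_min hp0 one_pos
    exact lt_min (by positivity) (by norm_num)
  set c : ℝ := min (c0 * (min p0 1 / 4)) (1 / 2) with hc
  have hprobν := hA.prob
  have hprob := EE_prob (G := G) hC ν
  have hs0 : 0 < √(k0 ν) := Real.sqrt_pos.2 hk0
  have hk01 : k0 ν ≤ 1 := by
    have : k0 ν ≤ ∫ _y, (1 : ℝ) ∂ν := by
      refine integral_mono_of_nonneg (Eventually.of_forall fun y => sq_nonneg _)
        (integrable_const _) (Eventually.of_forall fun y => (tanh_sq_lt y).le)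
    simpa using this
  have hs1 : √(k0 ν) ≤ 1 := by
    rw [Real.sqrt_le_one]
    exact hk01
  have hκ : ∀ (m : ℕ) (c u : V), G.Adj c u → 2 / √(k0 ν) ≤ m →
      min p0 1 * (√(k0 ν) / 4) ≤ ∫ e, Real.tanh (msgh G θ m e c u) ^ 2 ∂(EE G θ ν) := by
    intro m x y hxy hm
    have h1 := (hM ν hA hk0).1 m x y hxy hm
    have hmeas : Measurable fun e : En V => Real.tanh (msgh G θ m e x y) ^ 2 :=
      (measurable_tanh.comp (measurable_msgh m x y)).pow_const 2
    have hint : Integrable (fun e : En V => Real.tanh (msgh G θ m e x y) ^ 2) (EE G θ ν) :=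
      integrable_of_bdd (B := 1) hmeas fun e => by
        rw [abs_of_nonneg (sq_nonneg _)]; exact (tanh_sq_lt _).le
    have h2 := mul_meas_ge_le_integral_of_nonneg
      (Eventually.of_forall fun e => sq_nonneg (Real.tanh (msgh G θ m e x y))) hint (√(k0 ν) / 4)
    refine le_trans ?_ h2
    rw [mul_comm]
    exact mul_le_mul_of_nonneg_left ((min_le_left _ _).trans h1) (by positivity)
  have hρle : 1 - c0 * (min p0 1 * (√(k0 ν) / 4)) ≤ 1 - c * √(k0 ν) := by
    have h1 : c ≤ c0 * (min p0 1 / 4) := min_le_left _ _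
    nlinarith
  have hκ1 : c0 * (min p0 1 * (√(k0 ν) / 4)) ≤ 1 := by
    have h1 : min p0 1 ≤ 1 := min_le_right _ _
    have h2 : 0 < min p0 1 := lt_min hp0 one_pos
    have h3 : min p0 1 * (√(k0 ν) / 4) ≤ 1 := by nlinarith
    have h4 : 0 ≤ min p0 1 * (√(k0 ν) / 4) := by positivity
    nlinarith
  have hr0 : 0 ≤ 1 - c * √(k0 ν) := by
    have h1 : c ≤ 1 / 2 := min_le_right _ _
    nlinarith
  have hN0 : 0 ≤ 2 / √(k0 ν) := by positivity
  -- along a geodesic
  have key : ∀ (D : ℕ → ℕ) (v w : V),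
      ∫ e, pw G θ (fun j u p => Real.tanh (msgh G θ (D j) e u p)) v w ∂(EE G θ ν)
        ≤ (1 - c * √(k0 ν)) ^ ((Finset.Icc 1 (G.dist v w)).filter
            fun j => 1 + 2 / √(k0 ν) ≤ (D j : ℝ)).card := by
    intro D v w
    have h1 := prod_bound hC ν v w D (2 / √(k0 ν)) _ hN0 hκ1 hκ (G.dist v w) 0 (by omega)
    have e1 : ∀ e : En V, pw G θ (fun j u p => Real.tanh (msgh G θ (D j) e u p)) v w
        = ∏ j ∈ Finset.Ico 0 (G.dist v w), fj G θ D v w j e := by
      intro e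
      unfold pw fj
      rw [Finset.range_eq_Ico]
    simp only [e1]
    refine h1.trans ?_
    have h2 : ∏ j ∈ Finset.Ico 0 (G.dist v w), (if 1 + 2 / √(k0 ν) ≤ (D (j + 1) : ℝ) then
        (1 - c0 * (min p0 1 * (√(k0 ν) / 4))) else 1)
        ≤ ∏ j ∈ Finset.Ico 0 (G.dist v w), (if 1 + 2 / √(k0 ν) ≤ (D (j + 1) : ℝ) then
        (1 - c * √(k0 ν)) else 1) := by
      refine Finset.prod_le_prod (fun j _ => ?_) fun j _ => ?_
      · split_ifs
        · linarith
        · exact zero_le_one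
      · split_ifs
        · exact hρle
        · exact le_rfl
    refine h2.trans (le_of_eq ?_)
    rw [← Finset.prod_filter, Finset.prod_const]
    congr 1
    refine Finset.card_bij (fun j _ => j + 1) ?_ ?_ ?_
    · intro j hj
      rw [Finset.mem_filter, Finset.mem_Ico] at hj
      rw [Finset.mem_filter, Finset.mem_Icc]
      exact ⟨⟨by omega, by omega⟩, hj.2⟩
    · intro i _ j _ h
      omega
    · intro j hj
      rw [Finset.mem_filter, Finset.mem_Icc] at hj
      refine ⟨j - 1, ?_, by omega⟩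
      have h3 : j - 1 + 1 = j := by omega
      rw [Finset.mem_filter, Finset.mem_Ico, h3]
      exact ⟨⟨by omega, by omega⟩, hj.2⟩
  have hpwm : ∀ (D : ℕ → ℕ) (v w : V), Measurable fun e : En V =>
      pw G θ (fun j u p => Real.tanh (msgh G θ (D j) e u p)) v w := by
    intro D v w
    unfold pw
    refine Finset.measurable_prod _ fun j _ => ?_
    exact measurable_const.sub
      (((measurable_tanh.comp (measurable_msgh _ _ _)).pow_const 2).const_mul _)
  have hpw01 : ∀ (D : ℕ → ℕ) (v w : V) (e : En V),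
      0 ≤ pw G θ (fun j u p => Real.tanh (msgh G θ (D j) e u p)) v w ∧
      pw G θ (fun j u p => Real.tanh (msgh G θ (D j) e u p)) v w ≤ 1 := by
    intro D v w e
    unfold pw
    exact ⟨Finset.prod_nonneg fun j _ => (fj_mem hC D v w j e).1,
      Finset.prod_le_one (fun j _ => (fj_mem hC D v w j e).1) fun j _ => (fj_mem hC D v w j e).2⟩
  have hpwi : ∀ (D : ℕ → ℕ) (v w : V), Integrable (fun e : En V =>
      pw G θ (fun j u p => Real.tanh (msgh G θ (D j) e u p)) v w) (EE G θ ν) := by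
    intro D v w
    refine integrable_of_bdd (B := 1) (hpwm D v w) fun e => ?_
    rw [abs_of_nonneg (hpw01 D v w e).1]
    exact (hpw01 D v w e).2
  have hbθ : ∀ k : ℕ, θ ^ (2 * k) * ((d : ℝ) - 1) ^ k = 1 := by
    intro k
    rw [pow_mul, ← mul_pow, mul_comm, hC.crit, one_pow]
  refine ⟨fun D o k => ?_, fun n u p k hup hn => ?_⟩
  · rw [integral_const_mul, integral_finset_sum _ fun w _ => hpwi D o w]
    have h1 : ∑ w ∈ sphF G o k, ∫ e, pw G θ (fun j u p => Real.tanh (msgh G θ (D j) e u p)) o w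
          ∂(EE G θ ν)
        ≤ ∑ _w ∈ sphF G o k, (1 - c * √(k0 ν)) ^ ((Finset.Icc 1 k).filter
            fun j => 1 + 2 / √(k0 ν) ≤ (D j : ℝ)).card := by
      refine Finset.sum_le_sum fun w hw => ?_
      have h2 := key D o w
      rw [(mem_sphF hC).1 hw] at h2
      exact h2
    rw [Finset.sum_const, nsmul_eq_mul] at h1
    have h3 : (0 : ℝ) ≤ θ ^ (2 * k) := pow_nonneg hθ0.le _
    have h4 : (0 : ℝ) ≤ (1 - c * √(k0 ν)) ^ ((Finset.Icc 1 k).filter
            fun j => 1 + 2 / √(k0 ν) ≤ (D j : ℝ)).card := pow_nonneg hr0 _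
    calc _ ≤ θ ^ (2 * k) * (((sphF G o k).card : ℝ) * (1 - c * √(k0 ν)) ^
            ((Finset.Icc 1 k).filter fun j => 1 + 2 / √(k0 ν) ≤ (D j : ℝ)).card) :=
          mul_le_mul_of_nonneg_left h1 h3
      _ ≤ θ ^ (2 * k) * ((2 * ((d : ℝ) - 1) ^ k) * (1 - c * √(k0 ν)) ^
            ((Finset.Icc 1 k).filter fun j => 1 + 2 / √(k0 ν) ≤ (D j : ℝ)).card) := by
          refine mul_le_mul_of_nonneg_left (mul_le_mul_of_nonneg_right ?_ h4) h3
          exact card_sphF_le hC o k
      _ = 2 * (θ ^ (2 * k) * ((d : ℝ) - 1) ^ k) * (1 - c * √(k0 ν)) ^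
            ((Finset.Icc 1 k).filter fun j => 1 + 2 / √(k0 ν) ≤ (D j : ℝ)).card := by ring
      _ = _ := by rw [hbθ, mul_one]
  · unfold aa
    rw [integral_const_mul, integral_finset_sum _ fun w _ => hpwi (fun _ => n) u w]
    have h1 : ∑ w ∈ brF G u p k, ∫ e, pw G θ (fun _ u p => Real.tanh (msgh G θ n e u p)) u w
          ∂(EE G θ ν)
        ≤ ∑ _w ∈ brF G u p k, (1 - c * √(k0 ν)) ^ k := by
      refine Finset.sum_le_sum fun w hw => ?_
      have h2 := key (fun _ => n) u w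
      rw [((mem_brF hC).1 hw).1] at h2
      have h3 : ((Finset.Icc 1 k).filter fun _j => 1 + 2 / √(k0 ν) ≤ (n : ℝ)).card = k := by
        rw [Finset.filter_true_of_mem fun _ _ => hn]
        simp
      rw [h3] at h2
      exact h2
    rw [Finset.sum_const, nsmul_eq_mul] at h1
    have h3 : (0 : ℝ) ≤ θ ^ (2 * k) := pow_nonneg hθ0.le _
    have h4 : (0 : ℝ) ≤ (1 - c * √(k0 ν)) ^ k := pow_nonneg hr0 _
    have h5 : ((brF G u p k).card : ℝ) ≤ ((d : ℝ) - 1) ^ k := by
      have h6 := card_brF_le hC hup k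
      have h7 : ((brF G u p k).card : ℝ) ≤ (((d - 1) ^ k : ℕ) : ℝ) := by exact_mod_cast h6
      rw [Nat.cast_pow, Nat.cast_sub (by have := hC.hd; omega), Nat.cast_one] at h7
      exact h7
    calc _ ≤ θ ^ (2 * k) * (((brF G u p k).card : ℝ) * (1 - c * √(k0 ν)) ^ k) :=
          mul_le_mul_of_nonneg_left h1 h3
      _ ≤ θ ^ (2 * k) * (((d : ℝ) - 1) ^ k * (1 - c * √(k0 ν)) ^ k) := by
          exact mul_le_mul_of_nonneg_left (mul_le_mul_of_nonneg_right h5 h4) h3
      _ = (θ ^ (2 * k) * ((d : ℝ) - 1) ^ k) * (1 - c * √(k0 ν)) ^ k := by ring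
      _ = _ := by rw [hbθ, one_mul]

end Vale.Agent.P161C
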