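import Vale.Agent.P161C.DecA

/-!
# P161 critical: module DECB
-/

namespace Vale.Agent.P161C

open MeasureTheory Vale.Agent.P161 Filter Topology

universe u

namespace Dec

variable {V : Type u} {G : SimpleGraph V} {d : ℕ} {θ : ℝ}

/-- independence of the branches -/
lemma prodEE (hC : Crit G d θ) (ν : Measure ℝ) [IsProbabilityMeasure ν] (u : V)
    (F : V → En V → ℝ) (B : ℝ) (hFm : ∀ c, Measurable (F c)) (hF0 : ∀ c e, 0 ≤ F c e)
    (hFB : ∀ c e, F c e ≤ B)
    (hF : ∀ c, G.Adj u c → ∀ e e' : En V, (∀ a ∈ inE G c u, e.1 a = e'.1 a) →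
      (∀ x ∈ side G c u, e.2 x = e'.2 x) → F c e = F c e') (s : Finset V)
    (hs : ∀ c ∈ s, G.Adj u c) :
    ∫ e, ∏ c ∈ s, F c e ∂(EE G θ ν) = ∏ c ∈ s, ∫ e, F c e ∂(EE G θ ν) := by
  classical
  have hprob := EE_prob (G := G) hC ν
  induction s using Finset.induction_on with
  | empty => simp
  | insert c s hcs ih =>
    have huc := hs c (Finset.mem_insert_self _ _)
    have hs' : ∀ x ∈ s, G.Adj u x := fun x hx => hs x (Finset.mem_insert_of_mem hx)
    simp only [Finset.prod_insert hcs]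
    rw [← ih hs']
    have hB0 : 0 ≤ B ^ s.card := by
      rcases s.eq_empty_or_nonempty with h | ⟨x, hx⟩
      · rw [h]; simp
      · apply pow_nonneg
        by_contra hneg
        have e : En V := (fun _ => true, fun _ => 0)
        have := hF0 x e
        have := hFB x e
        linarith
    refine indEE hC ν (inE G c u) (side G c u) (F c) (fun e => ∏ x ∈ s, F x e) (hFm c)
      (Finset.measurable_prod _ fun x _ => hFm x) (BT := B) (BΨ := B ^ s.card)
      (fun e => ?_) (fun e => ?_) (fun e e' h1 h2 => hF c huc e e' h1 h2) (fun e e' h1 h2 => ?_)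
    · rw [abs_of_nonneg (hF0 c e)]; exact hFB c e
    · rw [abs_of_nonneg (Finset.prod_nonneg fun x _ => hF0 x e)]
      refine (Finset.prod_le_prod (fun x _ => hF0 x e) fun x _ => hFB x e).trans ?_
      rw [Finset.prod_const]
    · refine Finset.prod_congr rfl fun x hx => ?_
      have hxc : x ≠ c := fun h => hcs (h ▸ hx)
      refine hF x (hs' x hx) e e' (fun a ha => h1 a ?_) fun y hy => h2 y ?_
      · intro h4
        obtain ⟨y, z⟩ := a
        have hy : y ∈ s(y, z) := Sym2.mem_mk_left y z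
        exact side_disj hC.tree (hs' x hx) huc hxc (ha y hy) (h4 y hy)
      · exact side_disj hC.tree (hs' x hx) huc hxc hy

/-- the branch averages of the model messages -/
noncomputable def ah (G : SimpleGraph V) (θ : ℝ) (n : ℕ) (u p : V) (k : ℕ) (e : En V) : ℝ :=
  aa G θ (fun u p => Real.tanh (msgh G θ n e u p)) u p k

lemma pw_mem (hC : Crit G d θ) (n : ℕ) (v w : V) (e : En V) :
    0 ≤ pw G θ (fun _ u p => Real.tanh (msgh G θ n e u p)) v w ∧
      pw G θ (fun _ u p => Real.tanh (msgh G θ n e u p)) v w ≤ 1 := by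
  unfold pw
  exact ⟨Finset.prod_nonneg fun j _ => (fj_mem hC (fun _ => n) v w j e).1,
    Finset.prod_le_one (fun j _ => (fj_mem hC (fun _ => n) v w j e).1)
      fun j _ => (fj_mem hC (fun _ => n) v w j e).2⟩

lemma measurable_ah (n : ℕ) (u p : V) (k : ℕ) : Measurable (ah G θ n u p k) := by
  unfold ah aa
  refine (Finset.measurable_sum _ fun w _ => ?_).const_mul _
  unfold pw
  refine Finset.measurable_prod _ fun j _ => ?_
  exact measurable_const.sub
    (((measurable_tanh.comp (measurable_msgh _ _ _)).pow_const 2).const_mul _)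

lemma ah_mem (hC : Crit G d θ) (n : ℕ) {u p : V} (hup : G.Adj u p) (k : ℕ) (e : En V) :
    0 ≤ ah G θ n u p k e ∧ ah G θ n u p k e ≤ 1 := by
  have hθ0 := hC.pos
  have hbθ : θ ^ (2 * k) * ((d : ℝ) - 1) ^ k = 1 := by
    rw [pow_mul, ← mul_pow, mul_comm, hC.crit, one_pow]
  unfold ah aa
  constructor
  · exact mul_nonneg (pow_nonneg hθ0.le _) (Finset.sum_nonneg fun w _ => (pw_mem hC n u w e).1)
  · have h1 : ∑ w ∈ brF G u p k, pw G θ (fun _ u p => Real.tanh (msgh G θ n e u p)) u w
        ≤ ∑ _w ∈ brF G u p k, (1 : ℝ) := Finset.sum_le_sum fun w _ => (pw_mem hC n u w e).2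
    rw [Finset.sum_const, nsmul_eq_mul, mul_one] at h1
    have h5 : ((brF G u p k).card : ℝ) ≤ ((d : ℝ) - 1) ^ k := by
      have h6 := card_brF_le hC hup k
      have h7 : ((brF G u p k).card : ℝ) ≤ (((d - 1) ^ k : ℕ) : ℝ) := by exact_mod_cast h6
      rw [Nat.cast_pow, Nat.cast_sub (by have := hC.hd; omega), Nat.cast_one] at h7
      exact h7
    calc _ ≤ θ ^ (2 * k) * ((d : ℝ) - 1) ^ k :=
          mul_le_mul_of_nonneg_left (h1.trans h5) (pow_nonneg hθ0.le _)
      _ = 1 := hbθ

open Classical in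
lemma ah_succ (hC : Crit G d θ) (n : ℕ) {u p : V} (hup : G.Adj u p) (k : ℕ) (e : En V) :
    ah G θ n u p (k + 1) e ≤ θ ^ 2 * ∑ c ∈ (nb G u).erase p, ah G θ n c u k e := by
  have hθ0 := hC.pos
  unfold ah aa
  rw [← Finset.mul_sum, ← mul_assoc, ← pow_add]
  have e1 : 2 * (k + 1) = 2 + 2 * k := by ring
  rw [e1]
  refine mul_le_mul_of_nonneg_left ?_ (pow_nonneg hθ0.le _)
  rw [brF_succ hC hup]
  rw [Finset.sum_biUnion]
  · refine Finset.sum_le_sum fun c hc => ?_
    rw [Finset.mem_erase, mem_nb hC] at hc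
    refine Finset.sum_le_sum fun w hw => ?_
    rw [mem_brF hC] at hw
    rw [pw_first hC.tree hc.2 hw.2]
    refine mul_le_of_le_one_left (pw_mem hC n c w e).1 ?_
    have h1 := sq_nonneg (Real.tanh (msgh G θ n e c u))
    have h2 := (theta_lt hC).2
    nlinarith
  · intro c hc c' hc' hne
    have hc := Finset.mem_coe.1 hc
    have hc' := Finset.mem_coe.1 hc'
    rw [Finset.mem_erase, mem_nb hC] at hc hc'
    show Disjoint (brF G c u k) (brF G c' u k)
    rw [Finset.disjoint_left]
    intro w hw hw'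
    rw [mem_brF hC] at hw hw'
    exact side_disj hC.tree hc.2 hc'.2 hne hw.2 hw'.2

lemma ah_congr (hC : Crit G d θ) (n k : ℕ) {c u : V} (huc : G.Adj u c) (e e' : En V)
    (h1 : ∀ a ∈ inE G c u, e.1 a = e'.1 a) (h2 : ∀ x ∈ side G c u, e.2 x = e'.2 x) :
    ah G θ n c u k e = ah G θ n c u k e' := by
  unfold ah aa
  congr 1
  refine Finset.sum_congr rfl fun w hw => ?_
  rw [mem_brF hC] at hw
  unfold pw
  refine Finset.prod_congr rfl fun j hj => ?_
  rw [Finset.mem_range] at hj
  have hw' : G.dist u w = G.dist c w + 1 := hw.2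
  -- the geodesic from `c` to `w` stays in the branch
  have hf := gp_first hC.tree huc hw.2
  have hsub := side_nested hC u w 0 (j + 1) (by omega)
  rw [Nat.zero_add, Nat.zero_add, hf.1, gp_zero hC.tree] at hsub
  have e1 : gp G c w (j + 1) = gp G u w (j + 1 + 1) := hf.2 (j + 1) (by omega)
  have e2 : gp G c w j = gp G u w (j + 1) := hf.2 j (by omega)
  rw [e1, e2]
  have hadj : G.Adj (gp G u w (j + 1)) (gp G u w (j + 1 + 1)) := gp_adj hC.tree (by omega)
  show 1 - (1 - θ ^ 2) * Real.tanh (msgh G θ n e (gp G u w (j + 1 + 1)) (gp G u w (j + 1))) ^ 2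
    = 1 - (1 - θ ^ 2) * Real.tanh (msgh G θ n e' (gp G u w (j + 1 + 1)) (gp G u w (j + 1))) ^ 2
  rw [msgh_congr hC n hadj.symm e e' (fun x hx => h2 x (hsub hx))
    fun a ha => h1 a fun x hx => hsub (ha x hx)]

lemma exp_bound (hC : Crit G d θ) (ν : Measure ℝ) [IsProbabilityMeasure ν] (n : ℕ) (ρ : ℝ)
    (hρ : ∀ (u p : V) (k : ℕ), G.Adj u p → ∫ e, ah G θ n u p k e ∂(EE G θ ν) ≤ ρ ^ k) (j : ℕ) :
    ∀ (i : ℕ) (u p : V), G.Adj u p →
      ∫ e, Real.exp (((d : ℝ) - 1) ^ i * ah G θ n u p (i + j) e) ∂(EE G θ ν)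
        ≤ Real.exp (2 * ((d : ℝ) - 1) ^ i * ρ ^ j) := by
  classical
  have hprob := EE_prob (G := G) hC ν
  have hdR : (3 : ℝ) ≤ d := by exact_mod_cast hC.hd
  have hint : ∀ (t : ℝ) (u p : V) (k : ℕ), 0 ≤ t → G.Adj u p →
      Integrable (fun e => Real.exp (t * ah G θ n u p k e)) (EE G θ ν) := by
    intro t u p k ht hup
    refine integrable_of_bdd (B := Real.exp t)
      (Real.measurable_exp.comp ((measurable_ah n u p k).const_mul t)) fun e => ?_
    rw [abs_of_nonneg (Real.exp_pos _).le]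
    apply Real.exp_le_exp.2
    have := ah_mem hC n hup k e
    nlinarith [this.1, this.2]
  intro i
  induction i with
  | zero =>
    intro u p hup
    have hi : Integrable (ah G θ n u p (0 + j)) (EE G θ ν) :=
      integrable_of_bdd (B := 1) (measurable_ah n u p _) fun e => by
        rw [abs_of_nonneg (ah_mem hC n hup _ e).1]; exact (ah_mem hC n hup _ e).2
    have h1 : ∫ e, Real.exp (((d : ℝ) - 1) ^ 0 * ah G θ n u p (0 + j) e) ∂(EE G θ ν)
        ≤ ∫ e, (1 + 2 * ah G θ n u p (0 + j) e) ∂(EE G θ ν) := by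
      refine integral_mono_of_nonneg (Eventually.of_forall fun e => (Real.exp_pos _).le)
        ((integrable_const _).add (hi.const_mul _)) (Eventually.of_forall fun e => ?_)
      have h2 := ah_mem hC n hup (0 + j) e
      show Real.exp (((d : ℝ) - 1) ^ 0 * ah G θ n u p (0 + j) e) ≤ 1 + 2 * ah G θ n u p (0 + j) e
      rw [pow_zero, one_mul]
      set x := ah G θ n u p (0 + j) e
      have h3 := Real.abs_exp_sub_one_le (x := x) (by rw [abs_of_nonneg h2.1]; exact h2.2)
      rw [abs_of_nonneg h2.1] at h3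
      linarith [(abs_le.1 h3).2]
    refine h1.trans ?_
    rw [integral_add (integrable_const _) (hi.const_mul _), integral_const_mul]
    have h4 := hρ u p (0 + j) hup
    rw [Nat.zero_add] at h4 ⊢
    have h5 := Real.add_one_le_exp (2 * ((d : ℝ) - 1) ^ 0 * ρ ^ j)
    simp only [integral_const, probReal_univ, one_smul]
    rw [pow_zero] at h5 ⊢
    linarith
  | succ i ih =>
    intro u p hup
    have hb0 : (0 : ℝ) ≤ (d : ℝ) - 1 := by linarith
    have hbi : (0 : ℝ) ≤ ((d : ℝ) - 1) ^ i := pow_nonneg hb0 i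
    have h1 : ∀ e, Real.exp (((d : ℝ) - 1) ^ (i + 1) * ah G θ n u p (i + 1 + j) e)
        ≤ ∏ c ∈ (nb G u).erase p, Real.exp (((d : ℝ) - 1) ^ i * ah G θ n c u (i + j) e) := by
      intro e
      rw [← Real.exp_sum, Real.exp_le_exp, ← Finset.mul_sum]
      have h2 := ah_succ hC n hup (i + j) e
      have e1 : i + 1 + j = i + j + 1 := by ring
      rw [e1]
      calc ((d : ℝ) - 1) ^ (i + 1) * ah G θ n u p (i + j + 1) e
          ≤ ((d : ℝ) - 1) ^ (i + 1) * (θ ^ 2 * ∑ c ∈ (nb G u).erase p, ah G θ n c u (i + j) e) :=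
            mul_le_mul_of_nonneg_left h2 (pow_nonneg hb0 _)
        _ = ((d : ℝ) - 1) ^ i * ((((d : ℝ) - 1) * θ ^ 2) *
              ∑ c ∈ (nb G u).erase p, ah G θ n c u (i + j) e) := by ring
        _ = _ := by rw [hC.crit, one_mul]
    set F : V → En V → ℝ := fun c e =>
      if G.Adj u c then Real.exp (((d : ℝ) - 1) ^ i * ah G θ n c u (i + j) e) else 0 with hFdef
    have hFc : ∀ c, G.Adj u c → F c = fun e =>
        Real.exp (((d : ℝ) - 1) ^ i * ah G θ n c u (i + j) e) := by
      intro c hc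
      funext e
      show (if G.Adj u c then _ else _) = _
      rw [if_pos hc]
    have hFm : ∀ c, Measurable (F c) := by
      intro c
      by_cases hc : G.Adj u c
      · rw [hFc c hc]
        exact Real.measurable_exp.comp ((measurable_ah n c u _).const_mul _)
      · have : F c = fun _ => 0 := by
          funext e
          show (if G.Adj u c then _ else _) = _
          rw [if_neg hc]
        rw [this]; exact measurable_const
    have hF0 : ∀ c e, 0 ≤ F c e := by
      intro c e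
      show 0 ≤ (if G.Adj u c then Real.exp (((d : ℝ) - 1) ^ i * ah G θ n c u (i + j) e) else 0)
      split_ifs
      · exact (Real.exp_pos _).le
      · exact le_rfl
    have hFB : ∀ c e, F c e ≤ Real.exp (((d : ℝ) - 1) ^ i) := by
      intro c e
      show (if G.Adj u c then Real.exp (((d : ℝ) - 1) ^ i * ah G θ n c u (i + j) e) else 0) ≤ _
      split_ifs with hc
      · apply Real.exp_le_exp.2
        have := ah_mem hC n hc.symm (i + j) e
        nlinarith [this.1, this.2]
      · exact (Real.exp_pos _).le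
    have h3 := prodEE hC ν u F _ hFm hF0 hFB (fun c hc e e' he1 he2 => by
      rw [hFc c hc]
      show Real.exp (((d : ℝ) - 1) ^ i * ah G θ n c u (i + j) e)
        = Real.exp (((d : ℝ) - 1) ^ i * ah G θ n c u (i + j) e')
      rw [ah_congr hC n (i + j) hc e e' he1 he2]) ((nb G u).erase p)
      (fun c hc => by rw [Finset.mem_erase, mem_nb hC] at hc; exact hc.2)
    have h4 : ∀ e, ∏ c ∈ (nb G u).erase p, Real.exp (((d : ℝ) - 1) ^ i * ah G θ n c u (i + j) e)
        = ∏ c ∈ (nb G u).erase p, F c e := by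
      intro e
      refine Finset.prod_congr rfl fun c hc => ?_
      rw [Finset.mem_erase, mem_nb hC] at hc
      rw [hFc c hc.2]
    have h5 : ∫ e, Real.exp (((d : ℝ) - 1) ^ (i + 1) * ah G θ n u p (i + 1 + j) e) ∂(EE G θ ν)
        ≤ ∏ c ∈ (nb G u).erase p, ∫ e, F c e ∂(EE G θ ν) := by
      rw [← h3]
      refine integral_mono_of_nonneg (Eventually.of_forall fun e => (Real.exp_pos _).le) ?_
        (Eventually.of_forall fun e => (h1 e).trans (le_of_eq (h4 e)))
      refine integrable_of_bdd (B := Real.exp (((d : ℝ) - 1) ^ i) ^ ((nb G u).erase p).card)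
        (Finset.measurable_prod _ fun c _ => hFm c) fun e => ?_
      rw [abs_of_nonneg (Finset.prod_nonneg fun c _ => hF0 c e)]
      refine (Finset.prod_le_prod (fun c _ => hF0 c e) fun c _ => hFB c e).trans ?_
      rw [Finset.prod_const]
    refine h5.trans ?_
    have h6 : ∏ c ∈ (nb G u).erase p, ∫ e, F c e ∂(EE G θ ν)
        ≤ ∏ _c ∈ (nb G u).erase p, Real.exp (2 * ((d : ℝ) - 1) ^ i * ρ ^ j) := by
      refine Finset.prod_le_prod (fun c _ => integral_nonneg (hF0 c)) fun c hc => ?_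
      rw [Finset.mem_erase, mem_nb hC] at hc
      rw [hFc c hc.2]
      exact ih c u hc.2.symm
    refine h6.trans (le_of_eq ?_)
    have hcard : ((nb G u).erase p).card = d - 1 := by
      rw [← card_erase_nb hC hup]
    rw [Finset.prod_const, hcard, ← Real.exp_nat_mul, Nat.cast_sub (by have := hC.hd; omega)]
    congr 1
    push_cast
    ring

end Dec

open Dec in
theorem decb (hDECA : S_DECA.{u}) : S_DECB.{u} := by
  intro V G d θ hC Y
  classical
  obtain ⟨c, hc0, hc2, hD⟩ := hDECA hC Y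
  refine ⟨c, hc0, hc2, fun ν hA hk0 n u p k hup hn => ?_⟩
  have hprobν := hA.prob
  have hprob := EE_prob (G := G) hC ν
  have hdR : (3 : ℝ) ≤ d := by exact_mod_cast hC.hd
  have hθ := theta_lt hC
  have hθ0 := hC.pos
  have hk01 : k0 ν ≤ 1 := by
    have : k0 ν ≤ ∫ _y, (1 : ℝ) ∂ν := by
      refine integral_mono_of_nonneg (Eventually.of_forall fun y => sq_nonneg _)
        (integrable_const _) (Eventually.of_forall fun y => (tanh_sq_lt y).le)
    simpa using this
  have hs1 : √(k0 ν) ≤ 1 := by rw [Real.sqrt_le_one]; exact hk01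
  have hs0 : 0 < √(k0 ν) := Real.sqrt_pos.2 hk0
  set ρ : ℝ := 1 - c * √(k0 ν) with hρ
  have hρ0 : 0 ≤ ρ := by rw [hρ]; nlinarith
  set r : ℝ := max ρ θ with hr
  have hexp := exp_bound hC ν n ρ (fun u p k hup => (hD ν hA hk0).2 n u p k hup hn) (k / 2)
    (k - k / 2) u p hup
  have hij : k - k / 2 + k / 2 = k := by omega
  rw [hij] at hexp
  set b : ℝ := (d : ℝ) - 1 with hb
  have hb2 : (2 : ℝ) ≤ b := by rw [hb]; linarith
  set a : ℝ := 4 * r ^ (k / 2) with ha
  have hbi : (0 : ℝ) < b ^ (k - k / 2) := pow_pos (by linarith) _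
  have h1 : (EE G θ ν).real {e | a < ah G θ n u p k e}
      ≤ (EE G θ ν).real {e | Real.exp (b ^ (k - k / 2) * a)
          ≤ Real.exp (b ^ (k - k / 2) * ah G θ n u p k e)} := by
    refine measureReal_mono fun e he => ?_
    show Real.exp _ ≤ Real.exp _
    exact Real.exp_le_exp.2 (mul_le_mul_of_nonneg_left (le_of_lt he) hbi.le)
  have hint : Integrable (fun e => Real.exp (b ^ (k - k / 2) * ah G θ n u p k e)) (EE G θ ν) := by
    refine integrable_of_bdd (B := Real.exp (b ^ (k - k / 2)))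
      (Real.measurable_exp.comp ((measurable_ah n u p k).const_mul _)) fun e => ?_
    rw [abs_of_nonneg (Real.exp_pos _).le]
    apply Real.exp_le_exp.2
    have := ah_mem hC n hup k e
    nlinarith [this.1, this.2]
  have h2 := mul_meas_ge_le_integral_of_nonneg
    (Eventually.of_forall fun e => (Real.exp_pos (b ^ (k - k / 2) * ah G θ n u p k e)).le) hint
    (Real.exp (b ^ (k - k / 2) * a))
  have h3 := h2.trans hexp
  have h4 : (EE G θ ν).real {e | Real.exp (b ^ (k - k / 2) * a)
      ≤ Real.exp (b ^ (k - k / 2) * ah G θ n u p k e)}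
      ≤ Real.exp (2 * b ^ (k - k / 2) * ρ ^ (k / 2) - b ^ (k - k / 2) * a) := by
    rw [Real.exp_sub, le_div_iff₀ (Real.exp_pos _), mul_comm]
    exact h3
  show (EE G θ ν).real {e | a < ah G θ n u p k e} ≤ _
  refine (h1.trans h4).trans (Real.exp_le_exp.2 ?_)
  have h5 : ρ ^ (k / 2) ≤ r ^ (k / 2) := pow_le_pow_left₀ hρ0 (le_max_left _ _) _
  have h6 : (√2) ^ (k / 2) ≤ b ^ (k - k / 2) * r ^ (k / 2) := by
    have h7 : √2 ≤ b * θ := by
      apply Real.sqrt_le_iff.2
      refine ⟨by positivity, ?_⟩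
      have : (b * θ) ^ 2 = b * (b * θ ^ 2) := by ring
      rw [this, hC.crit, mul_one]
      exact hb2
    calc (√2) ^ (k / 2) ≤ (b * θ) ^ (k / 2) := pow_le_pow_left₀ (Real.sqrt_nonneg _) h7 _
      _ = b ^ (k / 2) * θ ^ (k / 2) := mul_pow _ _ _
      _ ≤ b ^ (k - k / 2) * r ^ (k / 2) := by
          refine mul_le_mul (pow_le_pow_right₀ (by linarith) (by omega))
            (pow_le_pow_left₀ hθ0.le (le_max_right _ _) _) (pow_nonneg hθ0.le _) hbi.le
  have h8 := mul_le_mul_of_nonneg_left h5 hbi.le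
  rw [ha]
  nlinarith

end Vale.Agent.P161C
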