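import Vale.Agent.P161C.Plan

/-!
# P161 critical: infrastructure for DECA and DECB
(independence in the environment, geometry of geodesics, dependence of the messages)
-/

namespace Vale.Agent.P161C

open MeasureTheory Vale.Agent.P161 Filter Topology

universe u

namespace Dec

/-! ## Infinite products -/

section Prod

variable {ι α : Type*} [MeasurableSpace α]

open Classical in
/-- take the coordinates in `S` from `x`, the others from `y` -/
noncomputable def mixI (S : Set ι) (x y : ι → α) : ι → α := fun k => if k ∈ S then x k else y k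

omit [MeasurableSpace α] in
lemma mixI_mem {S : Set ι} {k : ι} (h : k ∈ S) (x y : ι → α) : mixI S x y k = x k := by
  unfold mixI; rw [if_pos h]

omit [MeasurableSpace α] in
lemma mixI_notMem {S : Set ι} {k : ι} (h : k ∉ S) (x y : ι → α) : mixI S x y k = y k := by
  unfold mixI; rw [if_neg h]

lemma measurable_mixI (S : Set ι) :
    Measurable fun p : (ι → α) × (ι → α) => mixI S p.1 p.2 := by
  rw [measurable_pi_iff]
  intro k
  by_cases h : k ∈ S
  · simp only [mixI_mem h]; fun_prop
  · simp only [mixI_notMem h]; fun_prop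

lemma mp_mixI (μ : ι → Measure α) [∀ i, IsProbabilityMeasure (μ i)] (S : Set ι) :
    MeasurePreserving (fun p : (ι → α) × (ι → α) => mixI S p.1 p.2)
      ((Measure.infinitePi μ).prod (Measure.infinitePi μ)) (Measure.infinitePi μ) where
  measurable := measurable_mixI S
  map_eq := by
    classical
    refine Measure.eq_infinitePi _ fun s t ht => ?_
    rw [Measure.map_apply (measurable_mixI S)
      (.pi (Finset.countable_toSet _) fun _ _ => ht _)]
    have e : (fun p : (ι → α) × (ι → α) => mixI S p.1 p.2) ⁻¹' ((s : Set ι).pi t)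
        = (((s.filter (· ∈ S) : Finset ι) : Set ι).pi t) ×ˢ
          (((s.filter (· ∉ S) : Finset ι) : Set ι).pi t) := by
      ext p
      simp only [Set.mem_preimage, Set.mem_pi, Finset.mem_coe, Set.mem_prod, Finset.mem_filter]
      constructor
      · intro h
        refine ⟨fun i hi => ?_, fun i hi => ?_⟩
        · have := h i hi.1
          rwa [mixI_mem hi.2] at this
        · have := h i hi.1
          rwa [mixI_notMem hi.2] at this
      · rintro ⟨h1, h2⟩ i hi
        by_cases hiS : i ∈ S
        · rw [mixI_mem hiS]; exact h1 i ⟨hi, hiS⟩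
        · rw [mixI_notMem hiS]; exact h2 i ⟨hi, hiS⟩
    rw [e, Measure.prod_prod]
    rw [Measure.infinitePi_pi _ (fun i _ => ht i), Measure.infinitePi_pi _ (fun i _ => ht i),
      Finset.prod_filter_mul_prod_filter_not]

/-- functions of disjoint sets of coordinates are independent -/
lemma indI (μ : ι → Measure α) [∀ i, IsProbabilityMeasure (μ i)] (S : Set ι)
    (T Ψ : (ι → α) → ℝ) (hTm : Measurable T) (hΨm : Measurable Ψ)
    (hT : ∀ x x', (∀ i ∈ S, x i = x' i) → T x = T x')
    (hΨ : ∀ x x', (∀ i, i ∉ S → x i = x' i) → Ψ x = Ψ x') :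
    ∫ x, T x * Ψ x ∂(Measure.infinitePi μ)
      = (∫ x, T x ∂(Measure.infinitePi μ)) * ∫ x, Ψ x ∂(Measure.infinitePi μ) := by
  have h1 : ∫ x, T x * Ψ x ∂(Measure.infinitePi μ)
      = ∫ p : (ι → α) × (ι → α), T (mixI S p.1 p.2) * Ψ (mixI S p.1 p.2)
          ∂((Measure.infinitePi μ).prod (Measure.infinitePi μ)) := by
    have h2 := integral_map (μ := (Measure.infinitePi μ).prod (Measure.infinitePi μ))
      (measurable_mixI S).aemeasurable (f := fun x => T x * Ψ x)
      (hTm.mul hΨm).aestronglyMeasurable
    rw [(mp_mixI μ S).map_eq] at h2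
    exact h2
  rw [h1, ← integral_prod_mul]
  refine integral_congr_ae (Eventually.of_forall fun p => ?_)
  show T (mixI S p.1 p.2) * Ψ (mixI S p.1 p.2) = T p.1 * Ψ p.2
  rw [hT (mixI S p.1 p.2) p.1 fun i hi => mixI_mem hi _ _,
    hΨ (mixI S p.1 p.2) p.2 fun i hi => mixI_notMem hi _ _]

lemma measurable_updI [DecidableEq ι] (k : ι) :
    Measurable fun p : (ι → α) × α => Function.update p.1 k p.2 := by
  rw [measurable_pi_iff]
  intro j
  by_cases h : j = k
  · subst h
    simpa using measurable_snd
  · simp only [Function.update_of_ne h]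
    fun_prop

lemma mp_updI [DecidableEq ι] (μ : ι → Measure α) [∀ i, IsProbabilityMeasure (μ i)] (k : ι) :
    MeasurePreserving (fun p : (ι → α) × α => Function.update p.1 k p.2)
      ((Measure.infinitePi μ).prod (μ k)) (Measure.infinitePi μ) where
  measurable := measurable_updI k
  map_eq := by
    refine Measure.eq_infinitePi _ fun s t ht => ?_
    rw [Measure.map_apply (measurable_updI k)
      (.pi (Finset.countable_toSet _) fun _ _ => ht _)]
    by_cases hk : k ∈ s
    · have e : (fun p : (ι → α) × α => Function.update p.1 k p.2) ⁻¹' ((s : Set ι).pi t)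
          = (((s.erase k : Finset ι) : Set ι).pi t) ×ˢ (t k) := by
        ext p
        simp only [Set.mem_preimage, Set.mem_pi, Finset.mem_coe, Set.mem_prod, Finset.mem_erase]
        constructor
        · intro h
          refine ⟨fun i hi => ?_, ?_⟩
          · have := h i hi.2
            rwa [Function.update_of_ne hi.1] at this
          · simpa using h k hk
        · rintro ⟨h1, h2⟩ i hi
          by_cases hik : i = k
          · subst hik; simpa using h2
          · rw [Function.update_of_ne hik]; exact h1 i ⟨hik, hi⟩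
      rw [e, Measure.prod_prod, Measure.infinitePi_pi _ (fun i _ => ht i),
        Finset.prod_erase_mul s (fun i => (μ i) (t i)) hk]
    · have e : (fun p : (ι → α) × α => Function.update p.1 k p.2) ⁻¹' ((s : Set ι).pi t)
          = ((s : Set ι).pi t) ×ˢ (Set.univ : Set α) := by
        ext p
        simp only [Set.mem_preimage, Set.mem_pi, Finset.mem_coe, Set.mem_prod, Set.mem_univ,
          and_true]
        constructor
        · intro h i hi
          have := h i hi
          rwa [Function.update_of_ne (fun h : i = k => hk (h ▸ hi))] at this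
        · intro h i hi
          rw [Function.update_of_ne (fun h : i = k => hk (h ▸ hi))]
          exact h i hi
      rw [e, Measure.prod_prod, Measure.infinitePi_pi _ (fun i _ => ht i), measure_univ, mul_one]

lemma integral_updI [DecidableEq ι] (μ : ι → Measure α) [∀ i, IsProbabilityMeasure (μ i)] (k : ι)
    (f : (ι → α) → ℝ) (hf : Measurable f) {B : ℝ} (hB : ∀ x, |f x| ≤ B) :
    ∫ x, f x ∂(Measure.infinitePi μ)
      = ∫ x, (∫ t, f (Function.update x k t) ∂(μ k)) ∂(Measure.infinitePi μ) := by
  rw [← integral_prod (fun p : (ι → α) × α => f (Function.update p.1 k p.2)),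
    ← (mp_updI μ k).map_eq, integral_map (measurable_updI k).aemeasurable hf.aestronglyMeasurable,
    (mp_updI μ k).map_eq]
  exact integrable_of_bdd (hf.comp (measurable_updI k)) (fun p => hB _)

end Prod

/-! ## The environment -/

variable {V : Type u} {G : SimpleGraph V} {d : ℕ} {θ : ℝ}

lemma theta_lt (hC : Crit G d θ) : θ < 1 ∧ θ ^ 2 ≤ 1 / 2 := by
  have h1 : (3 : ℝ) ≤ d := by exact_mod_cast hC.hd
  have h2 := hC.crit
  have h3 : θ ^ 2 ≤ 1 / 2 := by nlinarith [sq_nonneg θ]
  refine ⟨?_, h3⟩
  nlinarith [hC.pos]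

open Classical in
/-- law of an edge sign -/
noncomputable def ew (G : SimpleGraph V) (θ : ℝ) (e : Sym2 V) : Measure Bool :=
  if e ∈ G.edgeSet then bern θ else Measure.dirac true

lemma ew_prob (h0 : |θ| ≤ 1) (e : Sym2 V) : IsProbabilityMeasure (ew G θ e) := by
  unfold ew
  split_ifs
  · exact bern_isProb h0
  · infer_instance

lemma etaLaw_eq : etaLaw G θ = Measure.infinitePi (ew G θ) := rfl

lemma abs_theta (hC : Crit G d θ) : |θ| ≤ 1 := by
  rw [abs_of_pos hC.pos]; exact (theta_lt hC).1.le

/-- the environment -/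
abbrev En (V : Type u) := (Sym2 V → Bool) × (V → ℝ)

lemma EE_prob (hC : Crit G d θ) (ν : Measure ℝ) [IsProbabilityMeasure ν] :
    IsProbabilityMeasure (EE G θ ν) := by
  have := ew_prob (G := G) (abs_theta hC)
  unfold EE
  rw [etaLaw_eq]
  infer_instance

/-- independence in the environment -/
lemma indEE (hC : Crit G d θ) (ν : Measure ℝ) [IsProbabilityMeasure ν] (SE : Set (Sym2 V))
    (SV : Set V) (T Ψ : En V → ℝ) (hTm : Measurable T) (hΨm : Measurable Ψ)
    {BT BΨ : ℝ} (hTb : ∀ e, |T e| ≤ BT) (hΨb : ∀ e, |Ψ e| ≤ BΨ)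
    (hT : ∀ e e' : En V, (∀ a ∈ SE, e.1 a = e'.1 a) → (∀ x ∈ SV, e.2 x = e'.2 x) → T e = T e')
    (hΨ : ∀ e e' : En V, (∀ a, a ∉ SE → e.1 a = e'.1 a) → (∀ x, x ∉ SV → e.2 x = e'.2 x) →
      Ψ e = Ψ e') :
    ∫ e, T e * Ψ e ∂(EE G θ ν) = (∫ e, T e ∂(EE G θ ν)) * ∫ e, Ψ e ∂(EE G θ ν) := by
  have hp := ew_prob (G := G) (abs_theta hC)
  set A : Measure (Sym2 V → Bool) := Measure.infinitePi (ew G θ) with hA
  set B : Measure (V → ℝ) := Measure.infinitePi (fun _ : V => ν) with hB
  have hEE : EE G θ ν = A.prod B := rfl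
  rw [hEE]
  have hTi : Integrable T (A.prod B) := integrable_of_bdd hTm hTb
  have hΨi : Integrable Ψ (A.prod B) := integrable_of_bdd hΨm hΨb
  have hm : Measurable fun e => T e * Ψ e := hTm.mul hΨm
  have hTΨi : Integrable (fun e => T e * Ψ e) (A.prod B) := by
    refine integrable_of_bdd (B := BT * BΨ) hm fun e => ?_
    rw [abs_mul]
    exact mul_le_mul (hTb e) (hΨb e) (abs_nonneg _) ((abs_nonneg _).trans (hTb e))
  rw [integral_prod_symm _ hTΨi, integral_prod_symm _ hTi, integral_prod_symm _ hΨi]
  have h1 : ∀ y : V → ℝ, ∫ x, T (x, y) * Ψ (x, y) ∂A = (∫ x, T (x, y) ∂A) * ∫ x, Ψ (x, y) ∂A := by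
    intro y
    refine indI (ew G θ) SE (fun x => T (x, y)) (fun x => Ψ (x, y))
      (hTm.comp (measurable_id.prodMk measurable_const))
      (hΨm.comp (measurable_id.prodMk measurable_const)) ?_ ?_
    · intro x x' h
      exact hT _ _ h fun _ _ => rfl
    · intro x x' h
      exact hΨ _ _ h fun _ _ => rfl
  simp only [h1]
  refine indI (fun _ : V => ν) SV (fun y => ∫ x, T (x, y) ∂A) (fun y => ∫ x, Ψ (x, y) ∂A)
    ?_ ?_ ?_ ?_
  · exact (hTm.stronglyMeasurable.integral_prod_left' (μ := A)).measurable
  · exact (hΨm.stronglyMeasurable.integral_prod_left' (μ := A)).measurable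
  · intro y y' h
    show ∫ x, T (x, y) ∂A = ∫ x, T (x, y') ∂A
    congr 1
    funext x
    exact hT _ _ (fun _ _ => rfl) h
  · intro y y' h
    show ∫ x, Ψ (x, y) ∂A = ∫ x, Ψ (x, y') ∂A
    congr 1
    funext x
    exact hΨ _ _ (fun _ _ => rfl) h

lemma integral_bern {t : ℝ} (ht : |t| ≤ 1) (f : Bool → ℝ) :
    ∫ b, f b ∂(bern t) = (1 + t) / 2 * f true + (1 - t) / 2 * f false := by
  have h := abs_le.1 ht
  unfold bern
  rw [integral_add_measure, integral_smul_measure, integral_smul_measure, integral_dirac,
    integral_dirac, ENNReal.toReal_ofReal (by linarith), ENNReal.toReal_ofReal (by linarith)]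
  · simp
  · exact (integrable_dirac (by simp)).smul_measure ENNReal.ofReal_ne_top
  · exact (integrable_dirac (by simp)).smul_measure ENNReal.ofReal_ne_top

open Classical in
/-- resampling one edge sign -/
lemma edgeEE (hC : Crit G d θ) (ν : Measure ℝ) [IsProbabilityMeasure ν] {a : Sym2 V}
    (ha : a ∈ G.edgeSet) (Φ : En V → ℝ) (hΦ : Measurable Φ) {B : ℝ} (hB : ∀ e, |Φ e| ≤ B) :
    ∫ e, Φ e ∂(EE G θ ν) = ∫ e, ((1 + θ) / 2 * Φ (Function.update e.1 a true, e.2)
      + (1 - θ) / 2 * Φ (Function.update e.1 a false, e.2)) ∂(EE G θ ν) := by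
  have hp := ew_prob (G := G) (abs_theta hC)
  set A : Measure (Sym2 V → Bool) := Measure.infinitePi (ew G θ) with hA
  set Bm : Measure (V → ℝ) := Measure.infinitePi (fun _ : V => ν) with hBm
  have hEE : EE G θ ν = A.prod Bm := rfl
  have hup : ∀ b : Bool, Measurable fun e : En V => Φ (Function.update e.1 a b, e.2) := by
    intro b
    refine hΦ.comp (Measurable.prodMk ?_ measurable_snd)
    exact (measurable_updI a).comp (measurable_fst.prodMk measurable_const)
  have hθ := theta_lt hC
  have hθ0 := hC.pos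
  rw [hEE, integral_prod_symm _ (integrable_of_bdd hΦ hB), integral_prod_symm]
  · congr 1
    funext y
    rw [integral_updI (ew G θ) a (fun x => Φ (x, y))
      (hΦ.comp (measurable_id.prodMk measurable_const)) (fun x => hB _)]
    congr 1
    funext x
    have : ew G θ a = bern θ := by unfold ew; rw [if_pos ha]
    rw [this, integral_bern (abs_theta hC)]
  · refine integrable_of_bdd (B := B) (((hup true).const_mul _).add ((hup false).const_mul _)) ?_
    intro e
    have h1 := hB (Function.update e.1 a true, e.2)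
    have h2 := hB (Function.update e.1 a false, e.2)
    rw [abs_le] at h1 h2 ⊢
    constructor
    · nlinarith [h1.1, h2.1, hθ.1]
    · nlinarith [h1.2, h2.2, hθ.1]

end Dec

end Vale.Agent.P161C
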