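import Vale.Agent.P161C.DecBase

/-!
# P161 critical: geometry of geodesics and dependence of the messages
-/

namespace Vale.Agent.P161C

open MeasureTheory Vale.Agent.P161 Filter Topology

universe u

namespace Dec

variable {V : Type u} {G : SimpleGraph V} {d : ℕ} {θ : ℝ}

/-! ## Sides -/

lemma child_side (hG : G.IsTree) {u p c : V} (hup : G.Adj u p) (huc : G.Adj u c) (hcp : c ≠ p) :
    c ∈ side G u p := by
  rcases mem_side_or hG hup c with h | h
  · exact h
  · exact absurd (adj_cross hG hup (self_mem_side hup) h huc).2 hcp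

lemma side_sub (hG : G.IsTree) {u p c : V} (hup : G.Adj u p) (huc : G.Adj u c) (hcp : c ≠ p) :
    side G c u ⊆ side G u p := by
  intro x hx
  rcases mem_side_or hG hup x with h | h
  · exact h
  · exfalso
    have h1 := child_side hG hup huc hcp
    have h2 := dist_cross hG hup (w := c) (u := x) h1 h
    have h3 : G.dist u x = G.dist c x + 1 := hx
    have h4 : G.dist u x = G.dist p x + 1 := h
    have h5 : G.dist u c = 1 := SimpleGraph.dist_eq_one_iff_adj.2 huc
    omega

lemma side_disj (hG : G.IsTree) {u c c' x : V} (hc : G.Adj u c) (hc' : G.Adj u c') (hne : c ≠ c')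
    (hx : x ∈ side G c u) : x ∉ side G c' u := by
  intro hx'
  have h1 : x ∈ side G u c := side_sub hG hc hc' hne.symm hx'
  exact side_disjoint hx h1

lemma self_notMem_side {u c : V} : u ∉ side G c u := by
  intro h
  have h1 : G.dist u u = G.dist c u + 1 := h
  rw [SimpleGraph.dist_self] at h1
  omega

/-! ## Geodesics -/

lemma gp_exists (hG : G.IsTree) {v w : V} {i : ℕ} (hi : i ≤ G.dist v w) :
    ∃ x, G.dist v x = i ∧ G.dist v x + G.dist x w = G.dist v w := by
  obtain ⟨p, hp⟩ := hG.connected.exists_walk_length_eq_dist v w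
  refine ⟨p.getVert i, ?_⟩
  have h1 := SimpleGraph.dist_le (p.take i)
  have h2 := SimpleGraph.dist_le (p.drop i)
  have h3 := hG.connected.dist_triangle (u := v) (v := p.getVert i) (w := w)
  rw [SimpleGraph.Walk.take_length] at h1
  rw [SimpleGraph.Walk.drop_length] at h2
  omega

lemma gp_spec (hG : G.IsTree) {v w : V} {i : ℕ} (hi : i ≤ G.dist v w) :
    G.dist v (gp G v w i) = i ∧ G.dist v (gp G v w i) + G.dist (gp G v w i) w = G.dist v w := by
  have h := gp_exists hG hi
  unfold gp
  rw [dif_pos h]
  exact h.choose_spec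

lemma geo_unique (hG : G.IsTree) {v w x y : V} (hxy : G.dist v x = G.dist v y)
    (hx : G.dist v x + G.dist x w = G.dist v w) (hy : G.dist v y + G.dist y w = G.dist v w) :
    x = y := by
  obtain ⟨p1, hp1⟩ := hG.connected.exists_walk_length_eq_dist v x
  obtain ⟨p2, hp2⟩ := hG.connected.exists_walk_length_eq_dist x w
  obtain ⟨q1, hq1⟩ := hG.connected.exists_walk_length_eq_dist v y
  obtain ⟨q2, hq2⟩ := hG.connected.exists_walk_length_eq_dist y w
  have hP : (p1.append p2).IsPath := by
    apply SimpleGraph.Walk.isPath_of_length_eq_dist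
    rw [SimpleGraph.Walk.length_append]; omega
  have hQ : (q1.append q2).IsPath := by
    apply SimpleGraph.Walk.isPath_of_length_eq_dist
    rw [SimpleGraph.Walk.length_append]; omega
  have h : (⟨p1.append p2, hP⟩ : G.Path v w) = ⟨q1.append q2, hQ⟩ :=
    (hG.isAcyclic.subsingleton_path v w).elim _ _
  have h2 : p1.append p2 = q1.append q2 := congrArg Subtype.val h
  have h3 : (p1.append p2).getVert p1.length = x := by
    rw [SimpleGraph.Walk.getVert_append]; simp
  have h4 : (q1.append q2).getVert q1.length = y := by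
    rw [SimpleGraph.Walk.getVert_append]; simp
  rw [← h3, ← h4, h2]
  congr 1
  omega

lemma gp_eq (hG : G.IsTree) {v w x : V} {i : ℕ} (hi : i ≤ G.dist v w) (h1 : G.dist v x = i)
    (h2 : G.dist v x + G.dist x w = G.dist v w) : gp G v w i = x := by
  have h := gp_spec hG hi
  exact geo_unique hG (h.1.trans h1.symm) h.2 h2

lemma gp_zero (hG : G.IsTree) (v w : V) : gp G v w 0 = v :=
  gp_eq hG (Nat.zero_le _) (SimpleGraph.dist_self) (by rw [SimpleGraph.dist_self]; omega)

lemma gp_last (hG : G.IsTree) (v w : V) : gp G v w (G.dist v w) = w :=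
  gp_eq hG le_rfl rfl (by rw [SimpleGraph.dist_self (v := w)]; omega)

lemma gp_adj (hG : G.IsTree) {v w : V} {i : ℕ} (hi : i < G.dist v w) :
    G.Adj (gp G v w i) (gp G v w (i + 1)) := by
  obtain ⟨p, hp⟩ := hG.connected.exists_walk_length_eq_dist v w
  have key : ∀ j, j ≤ G.dist v w → gp G v w j = p.getVert j := by
    intro j hj
    have h1 := SimpleGraph.dist_le (p.take j)
    have h2 := SimpleGraph.dist_le (p.drop j)
    have h3 := hG.connected.dist_triangle (u := v) (v := p.getVert j) (w := w)
    rw [SimpleGraph.Walk.take_length] at h1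
    rw [SimpleGraph.Walk.drop_length] at h2
    exact gp_eq hG hj (by omega) (by omega)
  rw [key i hi.le, key (i + 1) hi]
  exact p.adj_getVert_succ (by omega)

/-- the first step -/
lemma gp_first (hG : G.IsTree) {u c w : V} (huc : G.Adj u c) (hw : w ∈ side G c u) :
    gp G u w 1 = c ∧ ∀ i, i ≤ G.dist c w → gp G c w i = gp G u w (i + 1) := by
  have h0 : G.dist u w = G.dist c w + 1 := hw
  have h1 : G.dist u c = 1 := SimpleGraph.dist_eq_one_iff_adj.2 huc
  refine ⟨gp_eq hG (by omega) h1 (by omega), fun i hi => ?_⟩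
  symm
  have h2 := gp_spec hG hi
  have h3 := hG.connected.dist_triangle (u := u) (v := c) (w := gp G c w i)
  have h4 := hG.connected.dist_triangle (u := u) (v := gp G c w i) (w := w)
  exact gp_eq hG (by omega) (by omega) (by omega)

lemma pw_first (hG : G.IsTree) {u c w : V} (huc : G.Adj u c) (hw : w ∈ side G c u)
    (M : V → V → ℝ) :
    pw G θ (fun _ => M) u w = (1 - (1 - θ ^ 2) * M c u ^ 2) * pw G θ (fun _ => M) c w := by
  have h0 : G.dist u w = G.dist c w + 1 := hw
  have h := gp_first hG huc hw
  unfold pw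
  rw [h0, Finset.prod_range_succ', mul_comm]
  congr 1
  · rw [gp_zero hG, Nat.zero_add, h.1]
  · refine Finset.prod_congr rfl fun i hi => ?_
    have hi' := Finset.mem_range.1 hi
    rw [h.2 i (by omega), h.2 (i + 1) (by omega)]

/-! ## Neighbours and spheres -/

lemma mem_nb (hC : Crit G d θ) {u c : V} : c ∈ nb G u ↔ G.Adj u c := by
  have hf : (G.neighborSet u).Finite := neighborSet_finite (by have := hC.hd; omega) hC.reg u
  unfold nb
  rw [dif_pos hf, Set.Finite.mem_toFinset]
  rfl

lemma card_nb (hC : Crit G d θ) (u : V) : (nb G u).card = d := by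
  have hf : (G.neighborSet u).Finite := neighborSet_finite (by have := hC.hd; omega) hC.reg u
  unfold nb
  rw [dif_pos hf, ← Set.ncard_eq_toFinset_card _ hf, hC.reg]

lemma sph_fin (hC : Crit G d θ) (v : V) (k : ℕ) : {w | G.dist v w = k}.Finite := by
  have h := sph_finite hC.tree.connected (by have := hC.hd; omega) hC.reg v k
  refine h.subset fun w hw => ?_
  show G.dist w v = k
  rw [SimpleGraph.dist_comm]
  exact hw

lemma mem_sphF (hC : Crit G d θ) {v w : V} {k : ℕ} : w ∈ sphF G v k ↔ G.dist v w = k := by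
  unfold sphF
  rw [dif_pos (sph_fin hC v k), Set.Finite.mem_toFinset]
  rfl

lemma mem_brF (hC : Crit G d θ) {u p w : V} {k : ℕ} :
    w ∈ brF G u p k ↔ G.dist u w = k ∧ w ∈ side G u p := by
  classical
  unfold brF
  rw [Finset.mem_filter, mem_sphF hC]

open Classical in
lemma brF_succ (hC : Crit G d θ) {u p : V} (hup : G.Adj u p) (k : ℕ) :
    brF G u p (k + 1) = ((nb G u).erase p).biUnion fun c => brF G c u k := by
  ext w
  rw [mem_brF hC, Finset.mem_biUnion]
  constructor
  · rintro ⟨h1, h2⟩
    have h3 := gp_spec hC.tree (v := u) (w := w) (i := 1) (by omega)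
    have h4 : G.Adj u (gp G u w 1) := SimpleGraph.dist_eq_one_iff_adj.1 h3.1
    have h5 : w ∈ side G (gp G u w 1) u := by
      show G.dist u w = G.dist (gp G u w 1) w + 1
      omega
    refine ⟨gp G u w 1, ?_, ?_⟩
    · rw [Finset.mem_erase, mem_nb hC]
      refine ⟨?_, h4⟩
      intro h6
      rw [h6] at h5
      exact side_disjoint h2 h5
    · rw [mem_brF hC]
      exact ⟨by omega, h5⟩
  · rintro ⟨c, hc, hw⟩
    rw [Finset.mem_erase, mem_nb hC] at hc
    rw [mem_brF hC] at hw
    have h1 : G.dist u w = G.dist c w + 1 := hw.2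
    exact ⟨by omega, side_sub hC.tree hup hc.2 hc.1 hw.2⟩

lemma card_erase_nb (hC : Crit G d θ) {u p : V} (hup : G.Adj u p) :
    (open Classical in ((nb G u).erase p).card) = d - 1 := by
  classical
  rw [Finset.card_erase_of_mem ((mem_nb hC).2 hup), card_nb hC]

lemma card_brF_le (hC : Crit G d θ) {u p : V} (hup : G.Adj u p) (k : ℕ) :
    (brF G u p k).card ≤ (d - 1) ^ k := by
  classical
  induction k generalizing u p with
  | zero =>
    have : brF G u p 0 ⊆ {u} := by
      intro w hw
      rw [mem_brF hC] at hw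
      rw [Finset.mem_singleton]
      exact ((hC.tree.connected.dist_eq_zero_iff).1 hw.1).symm
    simpa using Finset.card_le_card this
  | succ k ih =>
    rw [brF_succ hC hup]
    refine Finset.card_biUnion_le.trans ?_
    calc ∑ c ∈ (nb G u).erase p, (brF G c u k).card ≤ ∑ _c ∈ (nb G u).erase p, (d - 1) ^ k := by
          refine Finset.sum_le_sum fun c hc => ?_
          rw [Finset.mem_erase, mem_nb hC] at hc
          exact ih hc.2.symm
      _ = (d - 1) ^ (k + 1) := by
          rw [Finset.sum_const, card_erase_nb hC hup, smul_eq_mul, pow_succ]; ring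

lemma card_sphF_le (hC : Crit G d θ) (v : V) (k : ℕ) :
    ((sphF G v k).card : ℝ) ≤ 2 * ((d : ℝ) - 1) ^ k := by
  have hd := hC.hd
  have hdR : (3 : ℝ) ≤ d := by exact_mod_cast hd
  have h := sph_ncard_le hC.tree.connected (by omega : 2 ≤ d) hC.reg v
  have e : ∀ k, (sphF G v k).card = (sph G v k).ncard := by
    intro k
    rw [← Set.ncard_coe_finset]
    congr 1
    ext w
    rw [Finset.mem_coe, mem_sphF hC, SimpleGraph.dist_comm]
    rfl
  rcases Nat.eq_zero_or_pos k with hk | hk
  · subst hk
    have : sphF G v 0 ⊆ {v} := by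
      intro w hw
      rw [mem_sphF hC] at hw
      rw [Finset.mem_singleton]
      exact ((hC.tree.connected.dist_eq_zero_iff).1 hw).symm
    have h1 := Finset.card_le_card this
    rw [Finset.card_singleton] at h1
    have h2 : ((sphF G v 0).card : ℝ) ≤ 1 := by exact_mod_cast h1
    simp only [pow_zero]
    linarith
  · obtain ⟨n, rfl⟩ : ∃ n, k = n + 1 := ⟨k - 1, by omega⟩
    have h1 := (h n).2
    rw [← e] at h1
    have h2 : ((sphF G v (n + 1)).card : ℝ) ≤ ((d * (d - 1) ^ n : ℕ) : ℝ) := by exact_mod_cast h1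
    rw [Nat.cast_mul, Nat.cast_pow, Nat.cast_sub (by omega), Nat.cast_one] at h2
    refine h2.trans ?_
    rw [pow_succ]
    have h3 : (0 : ℝ) ≤ ((d : ℝ) - 1) ^ n := pow_nonneg (by linarith) n
    nlinarith

/-! ## Dependence and measurability of the messages -/

lemma msgh_congr (hC : Crit G d θ) (n : ℕ) {u p : V} (hup : G.Adj u p) (e e' : En V)
    (h1 : ∀ x ∈ side G u p, e.2 x = e'.2 x)
    (h2 : ∀ a : Sym2 V, (∀ x ∈ a, x ∈ side G u p) → e.1 a = e'.1 a) :
    msgh G θ n e u p = msgh G θ n e' u p := by
  classical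
  induction n generalizing u p with
  | zero => exact h1 u (self_mem_side hup)
  | succ n ih =>
    unfold msgh
    rw [h1 u (self_mem_side hup)]
    congr 1
    refine Finset.sum_congr rfl fun c hc => ?_
    rw [Finset.mem_erase, mem_nb hC] at hc
    have h3 := side_sub hC.tree hup hc.2 hc.1
    rw [h2 s(u, c), ih hc.2.symm (fun x hx => h1 x (h3 hx)) (fun a ha => h2 a fun x hx =>
      h3 (ha x hx))]
    intro x hx
    rcases Sym2.mem_iff.1 hx with h | h
    · rw [h]; exact self_mem_side hup
    · rw [h]; exact child_side hC.tree hup hc.2 hc.1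

lemma measurable_tanh : Measurable Real.tanh := by
  have : Real.tanh = fun x => Real.sinh x / Real.cosh x := by
    funext x; exact Real.tanh_eq_sinh_div_cosh x
  rw [this]
  exact Real.continuous_sinh.measurable.div Real.continuous_cosh.measurable

lemma measurable_ff : Measurable (ff θ) := by
  unfold ff at'
  have h : Measurable Real.tanh := measurable_tanh
  fun_prop

lemma measurable_msgh (n : ℕ) (u p : V) : Measurable fun e : En V => msgh G θ n e u p := by
  induction n generalizing u p with
  | zero =>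
    unfold msgh
    exact (measurable_pi_apply u).comp measurable_snd
  | succ n ih =>
    unfold msgh
    refine ((measurable_pi_apply u).comp measurable_snd).add (Finset.measurable_sum _ fun c _ => ?_)
    refine Measurable.mul ?_ (measurable_ff.comp (ih c u))
    have h : Measurable sp := measurable_of_countable _
    exact h.comp ((measurable_pi_apply s(u, c)).comp measurable_fst)

lemma tanh_at' {x : ℝ} (hx : |x| < 1) : Real.tanh (at' x) = x := by
  have h := abs_lt.1 hx
  unfold at'
  rw [Real.tanh_eq_sinh_div_cosh, Real.sinh_eq, Real.cosh_eq]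
  have h1 : 0 < (1 + x) / (1 - x) := div_pos (by linarith) (by linarith)
  set t := Real.log ((1 + x) / (1 - x)) / 2 with ht
  have h2 : Real.exp t * Real.exp t = (1 + x) / (1 - x) := by
    rw [← Real.exp_add, ht, add_halves, Real.exp_log h1]
  have h3 : 0 < Real.exp t := Real.exp_pos t
  have h4 : Real.exp (-t) = (Real.exp t)⁻¹ := Real.exp_neg t
  have h5 : (1 - x) ≠ 0 := by linarith
  rw [h4]
  rw [eq_div_iff h5] at h2
  rw [div_eq_iff (by positivity)]
  field_simp
  nlinarith

lemma tanh_ff (h0 : 0 ≤ θ) (h1 : θ < 1) (l : ℝ) : Real.tanh (ff θ l) = θ * Real.tanh l := by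
  unfold ff
  refine tanh_at' ?_
  rw [abs_mul, abs_of_nonneg h0]
  have := Real.abs_tanh_lt_one l
  have h2 := abs_nonneg (Real.tanh l)
  nlinarith

end Dec

end Vale.Agent.P161C
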