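import Vale.Agent.P161.Core
import Vale.Agent.P161.IsingInf
import Vale.Agent.P161.Exists

/-!
# The critical point of the free Ising measure on a regular tree: definitions

`b = d - 1`, `b θ² = 1`.  See notes/P161crit.md.
-/

namespace Vale.Agent.P161C

open MeasureTheory Vale.Agent.P161 Filter Topology

universe u

variable {V : Type u}

/-- the critical setting: `G` is a `d`-regular tree, `d ≥ 3`, `θ = (d-1)^{-1/2}` -/
structure Crit (G : SimpleGraph V) (d : ℕ) (θ : ℝ) : Prop where
  hd : 3 ≤ d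
  tree : G.IsTree
  reg : ∀ v, (G.neighborSet v).ncard = d
  pos : 0 < θ
  crit : ((d : ℝ) - 1) * θ ^ 2 = 1

/-! ## Belief propagation -/

/-- `artanh` -/
noncomputable def at' (x : ℝ) : ℝ := Real.log ((1 + x) / (1 - x)) / 2

/-- the message through an edge -/
noncomputable def ff (θ l : ℝ) : ℝ := at' (θ * Real.tanh l)

open Classical in
/-- the finite set of neighbours -/
noncomputable def nb (G : SimpleGraph V) (v : V) : Finset V :=
  if h : (G.neighborSet v).Finite then h.toFinset else ∅

open Classical in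
/-- log-likelihood message of depth `n` from `u` towards `p` (`p = u`: all the neighbours of `u`
are used), for the field `y` -/
noncomputable def msg (G : SimpleGraph V) (θ : ℝ) : ℕ → (V → ℝ) → V → V → ℝ
  | 0, y, u, _ => y u
  | n + 1, y, u, p => y u + ∑ c ∈ (nb G u).erase p, ff θ (msg G θ n y c u)

/-- the limiting message (defined so that it is odd in `y`) -/
noncomputable def Lm (G : SimpleGraph V) (θ : ℝ) (y : V → ℝ) (u p : V) : ℝ :=
  (limsup (fun n => msg G θ n y u p) atTop + liminf (fun n => msg G θ n y u p) atTop) / 2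

/-- the cavity magnetisation of `u` in the direction away from `p`; `Mm G θ y v v` is the
magnetisation of `v` -/
noncomputable def Mm (G : SimpleGraph V) (θ : ℝ) (y : V → ℝ) (u p : V) : ℝ :=
  Real.tanh (Lm G θ y u p)

open Classical in
/-- a solution `L` of the BP equations for the field `y` -/
def BPS (G : SimpleGraph V) (θ : ℝ) (y : V → ℝ) (L : V → V → ℝ) : Prop :=
  ∀ u p, L u p = y u + ∑ c ∈ (nb G u).erase p, ff θ (L c u)

open Classical in
/-- the vertex at distance `i` from `v` on the geodesic from `v` to `w` -/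
noncomputable def gp (G : SimpleGraph V) (v w : V) (i : ℕ) : V :=
  if h : ∃ x, G.dist v x = i ∧ G.dist v x + G.dist x w = G.dist v w then h.choose else w

open Classical in
/-- the sphere -/
noncomputable def sphF (G : SimpleGraph V) (v : V) (k : ℕ) : Finset V :=
  if h : {w | G.dist v w = k}.Finite then h.toFinset else ∅

open Classical in
/-- vertices at distance `k` from `u` in the branch of `u` away from `p` -/
noncomputable def brF (G : SimpleGraph V) (u p : V) (k : ℕ) : Finset V :=
  (sphF G u k).filter fun w => w ∈ side G u p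

/-- the function `t(z) = (1-z)/(1-θ²z)` -/
noncomputable def tt (θ z : ℝ) : ℝ := (1 - z) / (1 - θ ^ 2 * z)

/-- the function `g(z) = -log t(z) / 2` -/
noncomputable def gg (θ z : ℝ) : ℝ := -Real.log (tt θ z) / 2

/-- logarithmic edge weight for cavity messages `L` -/
noncomputable def ell (θ : ℝ) (L : V → V → ℝ) (u p : V) : ℝ :=
  gg θ (Real.tanh (L u p) ^ 2) + gg θ (Real.tanh (L p u) ^ 2)

/-- sum of the edge weights along the geodesic -/
noncomputable def SS (G : SimpleGraph V) (θ : ℝ) (L : V → V → ℝ) (v w : V) : ℝ :=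
  ∑ i ∈ Finset.range (G.dist v w), ell θ L (gp G v w i) (gp G v w (i + 1))

/-- `√(1 - m_v²)` -/
noncomputable def bet (L : V → V → ℝ) (v : V) : ℝ := √(1 - Real.tanh (L v v) ^ 2)

/-- the covariance of the spins at `v` and `w`, in terms of a BP solution -/
noncomputable def cov (G : SimpleGraph V) (θ : ℝ) (L : V → V → ℝ) (v w : V) : ℝ :=
  bet L v * bet L w * θ ^ (G.dist v w) * Real.exp (-SS G θ L v w)

/-- the outward weight of the path from `v` to `w`: the product over `j = 1, ..., n` of
`1 - (1-θ²) M_j²`, with `M_j = M j u_j u_{j-1}` -/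
noncomputable def pw (G : SimpleGraph V) (θ : ℝ) (M : ℕ → V → V → ℝ) (v w : V) : ℝ :=
  ∏ j ∈ Finset.range (G.dist v w),
    (1 - (1 - θ ^ 2) * M (j + 1) (gp G v w (j + 1)) (gp G v w j) ^ 2)

/-- the average of the outward weights over the branch of `u` away from `p`, at depth `k` -/
noncomputable def aa (G : SimpleGraph V) (θ : ℝ) (M : V → V → ℝ) (u p : V) (k : ℕ) : ℝ :=
  θ ^ (2 * k) * ∑ w ∈ brF G u p k, pw G θ (fun _ => M) u w

/-! ## The planted model -/

/-- spins, labels, noise -/
abbrev Om (V : Type u) := (V → Bool) × ((V × ℕ → I01) × (V × ℕ → I01))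

/-- the planted measure -/
noncomputable def PP (μ : Measure (V → Bool)) : Measure (Om V) := μ.prod ((lam V).prod (lam V))

/-- strength of an observation with label `t` -/
noncomputable def dl (t : I01) : ℝ := √((t : ℝ) * (1 - t))

/-- time of the event `k` -/
noncomputable def kap (U : V × ℕ → I01) (k : V × ℕ) : ℝ := k.2 + (U k : ℝ)

/-- the observation at the event `k` -/
noncomputable def obs (ω : Om V) (k : V × ℕ) : I01 :=
  if ω.1 k.1 then Qc (dl (ω.2.1 k)) 1 (ω.2.2 k)
  else unitInterval.symm (Qc (dl (ω.2.1 k)) 1 (ω.2.2 k))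

/-- the centred observation `δ (2X - 1)` -/
noncomputable def ep (ω : Om V) (k : V × ℕ) : ℝ := dl (ω.2.1 k) * (2 * (obs ω k : ℝ) - 1)

open Classical in
/-- the field produced by the events in `I` (rounds `< J`) -/
noncomputable def fld (J : ℕ) (I : Set (V × ℕ)) (ω : Om V) (w : V) : ℝ :=
  ∑ j ∈ Finset.range J, if (w, j) ∈ I then at' (ep ω (w, j)) else 0

/-- events before time `s` -/
def Is (U : V × ℕ → I01) (s : ℝ) : Set (V × ℕ) := {k | kap U k < s}

/-- the field at time `s` -/
noncomputable def yt (s : ℝ) (ω : Om V) : V → ℝ := fld ⌈s⌉₊ (Is ω.2.1 s) ω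

/-- the messages at time `s` -/
noncomputable def Lt (G : SimpleGraph V) (θ s : ℝ) (ω : Om V) : V → V → ℝ := Lm G θ (yt s ω)

/-- the posterior mean of the spin at `v` at time `s` -/
noncomputable def mt (G : SimpleGraph V) (θ s : ℝ) (ω : Om V) (v : V) : ℝ :=
  Mm G θ (yt s ω) v v

/-- the innovation of the event `k` -/
noncomputable def inn (G : SimpleGraph V) (θ : ℝ) (ω : Om V) (k : V × ℕ) : I01 :=
  Fc (dl (ω.2.1 k)) (mt G θ (kap ω.2.1 k) ω k.1) (obs ω k)

/-- size of a jump: `δ(2Q-1)/(1+δm(2Q-1))` with `Q` the quantile -/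
noncomputable def phi (δ m : ℝ) (x : I01) : ℝ :=
  δ * (2 * (Qc δ m x : ℝ) - 1) / (1 + m * (δ * (2 * (Qc δ m x : ℝ) - 1)))

open Classical in
/-- the jump of the posterior mean of the spin at `v` at the event `k` -/
noncomputable def Jm (G : SimpleGraph V) (θ : ℝ) (ω : Om V) (v : V) (k : V × ℕ) : ℝ :=
  Mm G θ (fun w => yt (kap ω.2.1 k) ω w + if w = k.1 then at' (ep ω k) else 0) v v
    - mt G θ (kap ω.2.1 k) ω v

/-- the grid time below `t`, mesh `1/K` -/
noncomputable def gt (K : ℕ) (t : ℝ) : ℝ := ((⌊(K : ℝ) * t⌋₊ : ℕ) : ℝ) / K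

/-- the jump, computed with the covariance and the magnetisation at the grid time -/
noncomputable def JK (G : SimpleGraph V) (θ : ℝ) (K : ℕ) (ω : Om V) (v : V) (k : V × ℕ) : ℝ :=
  cov G θ (Lt G θ (gt K (kap ω.2.1 k)) ω) v k.1
    * phi (dl (ω.2.1 k)) (mt G θ (gt K (kap ω.2.1 k)) ω k.1) (inn G θ ω k)

/-- `Z` depends only on the labels and on the observations before the event `k` -/
def PastDep {α : Type*} (k : V × ℕ) (Z : Om V → α) : Prop :=
  ∀ ω ω' : Om V, ω.2.1 = ω'.2.1 →
    (∀ k', kap ω.2.1 k' < kap ω.2.1 k → obs ω k' = obs ω' k') → Z ω = Z ω'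

open Classical in
/-- the innovations before time `s`, with their labels -/
noncomputable def trG (G : SimpleGraph V) (θ s : ℝ) (ω : Om V) : V × ℕ → ℝ × ℝ := fun k =>
  if kap ω.2.1 k < s then ((ω.2.1 k : ℝ), (inn G θ ω k : ℝ)) else (2, 2)

/-- the sigma-algebra of the innovations before time `s` -/
noncomputable def GG (G : SimpleGraph V) (θ s : ℝ) : MeasurableSpace (Om V) :=
  MeasurableSpace.comap (trG G θ s) inferInstance

/-! ## Symmetries -/

/-- action of a permutation of the vertices -/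
def act (g : V ≃ V) (ω : Om V) : Om V :=
  (fun v => ω.1 (g.symm v),
    (fun k => ω.2.1 (g.symm k.1, k.2), fun k => ω.2.2 (g.symm k.1, k.2)))

/-- the global flip -/
def flp (ω : Om V) : Om V := (fun v => !ω.1 v, ω.2)

/-- the standard sigma-algebra -/
abbrev stdM (V : Type u) : MeasurableSpace (Om V) := inferInstance

/-- an invariant sub-sigma-algebra -/
structure InvG (G : SimpleGraph V) (𝒢 : MeasurableSpace (Om V)) : Prop where
  le : 𝒢 ≤ stdM V
  act : ∀ g : G ≃g G, 𝒢.comap (act g.toEquiv) = 𝒢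
  flp : 𝒢.comap flp = 𝒢

/-- squared distance of the posterior mean at `o` (time `s`) to the `𝒢`-measurable functions -/
noncomputable def hG (G : SimpleGraph V) (θ : ℝ) (μ : Measure (V → Bool))
    (𝒢 : MeasurableSpace (Om V)) (o : V) (s : ℝ) : ℝ :=
  ∫ ω, (mt G θ s ω o - (PP μ)[fun ω => mt G θ s ω o | 𝒢] ω) ^ 2 ∂(PP μ)

/-- conditional variance of the logarithmic edge weight -/
noncomputable def QG (G : SimpleGraph V) (θ : ℝ) (μ : Measure (V → Bool))
    (𝒢 : MeasurableSpace (Om V)) (s : ℝ) (a c : V) : ℝ :=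
  ∫ ω, (ell θ (Lt G θ s ω) a c
    - (PP μ)[fun ω => ell θ (Lt G θ s ω) a c | 𝒢] ω) ^ 2 ∂(PP μ)

/-! ## The iid environment -/

/-- do the two ends of an edge agree? -/
def agr (σ : V → Bool) : Sym2 V → Bool :=
  Sym2.lift ⟨fun u v => σ u == σ v, by
    intro u v
    show (σ u == σ v) = (σ v == σ u)
    cases σ u <;> cases σ v <;> rfl⟩

open Classical in
/-- the edge signs of a spin configuration -/
noncomputable def etaF (G : SimpleGraph V) (σ : V → Bool) (e : Sym2 V) : Bool :=
  if e ∈ G.edgeSet then agr σ e else true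

open Classical in
/-- the law of the edge signs -/
noncomputable def etaLaw (G : SimpleGraph V) (θ : ℝ) : Measure (Sym2 V → Bool) :=
  Measure.infinitePi fun e => if e ∈ G.edgeSet then bern θ else Measure.dirac true

open Classical in
/-- gauge-fixed messages: edge signs `e.1`, gauge-fixed fields `e.2` -/
noncomputable def msgh (G : SimpleGraph V) (θ : ℝ) :
    ℕ → (Sym2 V → Bool) × (V → ℝ) → V → V → ℝ
  | 0, e, u, _ => e.2 u
  | n + 1, e, u, p =>
    e.2 u + ∑ c ∈ (nb G u).erase p, sp (e.1 s(u, c)) * ff θ (msgh G θ n e c u)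

/-- the environment law for the single-site field law `ν` -/
noncomputable def EE (G : SimpleGraph V) (θ : ℝ) (ν : Measure ℝ) :
    Measure ((Sym2 V → Bool) × (V → ℝ)) :=
  (etaLaw G θ).prod (Measure.infinitePi fun _ : V => ν)

/-- admissible single-site laws (of gauge-fixed log-likelihood fields): bounded, Nishimori -/
structure Adm (ν : Measure ℝ) (Y : ℝ) : Prop where
  prob : IsProbabilityMeasure ν
  bdd : ∀ᵐ y ∂ν, |y| ≤ Y
  nish : ∀ φ : ℝ → ℝ, Measurable φ → (∀ x, |φ x| ≤ 1) → (∀ x, φ (-x) = -φ x) →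
    ∫ y, φ y ∂ν = ∫ y, Real.tanh y * φ y ∂ν

/-- second moment of `tanh` of the single-site field -/
noncomputable def k0 (ν : Measure ℝ) : ℝ := ∫ y, Real.tanh y ^ 2 ∂ν

/-- gauge-fixed field at time `s` -/
noncomputable def yh (s : ℝ) (ω : Om V) (w : V) : ℝ := sp (ω.1 w) * yt s ω w

/-- error term -/
noncomputable def err (N : ℕ) : ℝ :=
  ∑' n : ℕ, ((n : ℝ) + N + 1) ^ 2 * Real.exp (-2 * (√2) ^ ((n + N) / 4))

end Vale.Agent.P161C
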