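import Vale.Agent.P161C.DynE

/-!
# DYN: the integral inequality
-/

namespace Vale.Agent.P161C

open MeasureTheory Vale.Agent.P161 Filter Topology

universe u

section

variable {V : Type u} {G : SimpleGraph V} {θ : ℝ} {d : ℕ}

lemma abs_XX_int (hB : Bas G θ) {μ : Measure (V → Bool)} [IsProbabilityMeasure μ]
    (v : V) (k : V × ℕ) (t : ℝ) :
    Integrable (fun ω : Om V => i1 (kap ω.2.1 k < t) * Jm G θ ω v k ^ 2) (PP μ) := by
  have hm1 : Measurable fun ω : Om V => i1 (kap ω.2.1 k < t) :=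
    measurable_i1 (measurableSet_lt (measurable_kap k) measurable_const)
  refine integrable_bdd (hm1.mul ((hB.J v k).pow_const 2)) (B := 1 * 4) fun ω => ?_
  rw [abs_mul]
  refine mul_le_mul (abs_i1_le _) ?_ (abs_nonneg _) zero_le_one
  have := abs_Jm_le (G := G) (θ := θ) ω v k
  rw [abs_pow]
  nlinarith [abs_nonneg (Jm G θ ω v k)]

/-- sum over the labels in one window -/
lemma window_sum (hc : Crit G d θ) (hB : Bas G θ) {μ : Measure (V → Bool)}
    [IsProbabilityMeasure μ]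
    (hle : ∀ s, GG G θ s ≤ (inferInstance : MeasurableSpace (Om V)))
    {K i : ℕ} (hK : 0 < K) (hi : 0 < i) {A M : V → Om V → ℝ}
    (hA : ∀ (w : V), Measurable[GG G θ ((i : ℝ) / K)] (A w))
    (hM : ∀ (w : V), Measurable[GG G θ ((i : ℝ) / K)] (M w))
    (hA1 : ∀ w ω, |A w ω| ≤ 1) (hM1 : ∀ w ω, |M w ω| ≤ 1) (o : V) (S : Finset (V × ℕ))
    {R : ℝ} (hR : ∀ S' : Finset V, ∑ w ∈ S', ∫ ω, DD G θ ((i : ℝ) / K) (A w) (M w) o w ω ∂(PP μ)
      ≤ R) :
    ∑ k ∈ S, ∫ ω, i1 (win K i k ω)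
        * (dl (ω.2.1 k) ^ 2 * DD G θ ((i : ℝ) / K) (A k.1) (M k.1) o k.1 ω) ∂(PP μ)
      ≤ 2 * min ((i : ℝ) / K) 1 / K * R := by
  classical
  set s : ℝ := (i : ℝ) / K with hs
  have hs0 : 0 ≤ s := by positivity
  set c : ℝ := 2 * min s 1 / K with hc'
  have hc0 : 0 ≤ c := by positivity
  have hb : ∀ k ∈ S, ∫ ω, i1 (win K i k ω)
        * (dl (ω.2.1 k) ^ 2 * DD G θ s (A k.1) (M k.1) o k.1 ω) ∂(PP μ)
      ≤ (if (k.2 : ℝ) ≤ s ∧ s < k.2 + 1 then c * ∫ ω, DD G θ s (A k.1) (M k.1) o k.1 ω ∂(PP μ)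
          else 0) := by
    intro k _
    have h := window_bound (μ := μ) hK hi k
      (measurable_DD hB s ((hA k.1).mono (hle _) le_rfl) ((hM k.1).mono (hle _) le_rfl) o k.1)
      (fun ω => DD_nonneg s _ _ o k.1 ω) (fun ω => DD_le hc s (hA1 k.1) (hM1 k.1) o k.1 ω)
      (fun ω x x' hx hx' => DD_inv (hA k.1) (hM k.1) o k.1 k ω x x' hx hx')
    refine h.trans (le_of_eq ?_)
    split_ifs
    · rfl
    · simp
  refine (Finset.sum_le_sum hb).trans ?_
  rw [← Finset.sum_filter, ← Finset.mul_sum]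
  apply mul_le_mul_of_nonneg_left _ hc0
  have hinj : Set.InjOn (Prod.fst : V × ℕ → V)
      (↑(S.filter fun k => (k.2 : ℝ) ≤ s ∧ s < k.2 + 1) : Set (V × ℕ)) := by
    rintro ⟨w, j⟩ h1 ⟨w', j'⟩ h2 h3
    simp only [Finset.coe_filter, Set.mem_ofPred_eq] at h1 h2 h3
    have h4 : (j : ℝ) < j' + 1 := by linarith [h1.2.1, h2.2.2]
    have h5 : (j' : ℝ) < j + 1 := by linarith [h2.2.1, h1.2.2]
    have h4' : j < j' + 1 := by exact_mod_cast h4
    have h5' : j' < j + 1 := by exact_mod_cast h5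
    have : j = j' := by omega
    rw [this, h3]
  rw [← Finset.sum_image (f := fun w => ∫ ω, DD G θ s (A w) (M w) o w ω ∂(PP μ)) hinj]
  exact hR _

theorem main_est (hc : Crit G d θ) (hP : S_PHI) (hB : Bas G θ) {μ : Measure (V → Bool)}
    [IsProbabilityMeasure μ] (hJ2 : J2 G θ μ)
    (hle : ∀ s, GG G θ s ≤ (inferInstance : MeasurableSpace (Om V)))
    {K m T : ℕ} (hK : 0 < K) (hmT : m ≤ T * K) {A M : ℕ → V → Om V → ℝ}
    (hA : ∀ (i : ℕ) (w : V), Measurable[GG G θ ((i : ℝ) / K)] (A i w))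
    (hM : ∀ (i : ℕ) (w : V), Measurable[GG G θ ((i : ℝ) / K)] (M i w))
    (hA1 : ∀ i w ω, |A i w ω| ≤ 1) (hM1 : ∀ i w ω, |M i w ω| ≤ 1) (o : V)
    (hJ1 : ∀ k : V × ℕ, ∀ᵐ ω ∂(PP μ), Jm G θ ω o k
      = cov G θ (Lt G θ (kap ω.2.1 k) ω) o k.1
        * phi (dl (ω.2.1 k)) (mt G θ (kap ω.2.1 k) ω k.1) (inn G θ ω k))
    (S : Finset (V × ℕ)) {ε φ η : ℝ} {R : ℕ → ℝ}
    (hε : ∫ ω, (mt G θ ((m : ℝ) / K) ω o
      - ∑ k ∈ S, i1 (kap ω.2.1 k < (m : ℝ) / K) * Jm G θ ω o k) ^ 2 ∂(PP μ) ≤ ε)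
    (hφ : ∑ k ∈ S, ∫ ω, i1 (kap ω.2.1 k < 1 / (K : ℝ)) * Jm G θ ω o k ^ 2 ∂(PP μ) ≤ φ)
    (hη : ∑ k ∈ S, ∫ ω, i1 (1 / (K : ℝ) ≤ kap ω.2.1 k ∧ kap ω.2.1 k < T)
      * (Jm G θ ω o k - JK G θ K ω o k) ^ 2 ∂(PP μ) ≤ η)
    (hR : ∀ i ∈ Finset.Ico 1 m, ∀ S' : Finset V,
      ∑ w ∈ S', ∫ ω, DD G θ ((i : ℝ) / K) (A i w) (M i w) o w ω ∂(PP μ) ≤ R i) :
    hG G θ μ (GG G θ ((m : ℝ) / K)) o ((m : ℝ) / K)
      ≤ 2 * ε + 2 * (φ + 2 * η
        + 256 * ∑ i ∈ Finset.Ico 1 m, 2 * min ((i : ℝ) / K) 1 / K * R i) := by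
  have hK' : (0 : ℝ) < K := by exact_mod_cast hK
  set t : ℝ := (m : ℝ) / K with ht
  have hX : ∀ k, Inno G θ μ k (XX G θ K m A M o k) := fun k =>
    inno_XX hc hP hB hle hA hM hA1 hM1 o k (hJ1 k)
  -- the approximation
  set Y : Om V → ℝ := fun ω => ∑ k ∈ S, ∑ i ∈ Finset.Ico 1 m,
    term G θ K (A i k.1) (M i k.1) i k ω with hY
  have hYm : Measurable[GG G θ t] Y := by
    refine Finset.measurable_sum _ fun k _ => Finset.measurable_sum _ fun i hi => ?_
    refine measurable_term hP K i hK k (hA i k.1) (hM i k.1) ?_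
    have him : i < m := (Finset.mem_Ico.1 hi).2
    have : ((i : ℝ) + 1) ≤ m := by exact_mod_cast him
    rw [ht]; gcongr
  have hterm : ∀ k i ω, |term G θ K (A i k.1) (M i k.1) i k ω| ≤ 1 := by
    intro k i ω
    unfold term
    rw [abs_mul, abs_mul]
    have := mul_le_mul (abs_i1_le (win K i k ω))
      (mul_le_mul (hA1 i k.1 ω) (abs_phi_le hP (ω.2.1 k) (hM1 i k.1 ω) (inn G θ ω k))
        (abs_nonneg _) zero_le_one) (by positivity) zero_le_one
    simpa using this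
  have hYb : ∀ ω, |Y ω| ≤ ∑ k ∈ S, ∑ i ∈ Finset.Ico 1 m, (1 : ℝ) := by
    intro ω
    refine (Finset.abs_sum_le_sum_abs _ _).trans (Finset.sum_le_sum fun k _ => ?_)
    exact (Finset.abs_sum_le_sum_abs _ _).trans (Finset.sum_le_sum fun i _ => hterm k i ω)
  have hmtm : Measurable fun ω : Om V => mt G θ t ω o := measurable_mt_s hB t o
  have h1 : hG G θ μ (GG G θ t) o t ≤ ∫ ω, (mt G θ t ω o - Y ω) ^ 2 ∂(PP μ) := by
    unfold hG
    exact condExp_best (hle t) (f := fun ω => mt G θ t ω o) (g := Y) hmtm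
      (fun ω => abs_mt_le t ω o) hYm hYb
  refine h1.trans ?_
  set Rr : Om V → ℝ := fun ω => mt G θ t ω o
    - ∑ k ∈ S, i1 (kap ω.2.1 k < t) * Jm G θ ω o k with hRr
  have hm1 : ∀ k, Measurable fun ω : Om V => i1 (kap ω.2.1 k < t) := fun k =>
    measurable_i1 (measurableSet_lt (measurable_kap k) measurable_const)
  have hRm : Measurable Rr :=
    hmtm.sub (Finset.measurable_sum _ fun k _ => (hm1 k).mul (hB.J o k))
  have hRb : ∀ ω, |Rr ω| ≤ 1 + ∑ k ∈ S, (2 : ℝ) := by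
    intro ω
    simp only [hRr]
    refine (abs_sub _ _).trans (add_le_add (abs_mt_le t ω o) ?_)
    refine (Finset.abs_sum_le_sum_abs _ _).trans (Finset.sum_le_sum fun k _ => ?_)
    rw [abs_mul]
    have := mul_le_mul (abs_i1_le (kap ω.2.1 k < t)) (abs_Jm_le (G := G) (θ := θ) ω o k)
      (abs_nonneg _) zero_le_one
    simpa using this
  have hXm : Measurable fun ω : Om V => ∑ k ∈ S, XX G θ K m A M o k ω :=
    Finset.measurable_sum _ fun k _ => (hX k).meas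
  have hXb : ∃ B, ∀ ω : Om V, |∑ k ∈ S, XX G θ K m A M o k ω| ≤ B := by
    choose B hB' using fun k => (hX k).bdd
    exact ⟨∑ k ∈ S, B k, fun ω => (Finset.abs_sum_le_sum_abs _ _).trans
      (Finset.sum_le_sum fun k _ => hB' k ω)⟩
  obtain ⟨BX, hBX⟩ := hXb
  have e : ∀ ω, mt G θ t ω o - Y ω = Rr ω + ∑ k ∈ S, XX G θ K m A M o k ω := by
    intro ω
    simp only [hRr, hY, XX]
    rw [Finset.sum_sub_distrib]; ring
  have iR : Integrable (fun ω => Rr ω ^ 2) (PP μ) := by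
    refine integrable_bdd (hRm.pow_const 2) (B := (1 + ∑ k ∈ S, (2 : ℝ)) ^ 2) fun ω => ?_
    rw [abs_pow]
    exact pow_le_pow_left₀ (abs_nonneg _) (hRb ω) 2
  have iX : Integrable (fun ω => (∑ k ∈ S, XX G θ K m A M o k ω) ^ 2) (PP μ) := by
    refine integrable_bdd (hXm.pow_const 2) (B := BX ^ 2) fun ω => ?_
    rw [abs_pow]
    exact pow_le_pow_left₀ (abs_nonneg _) (hBX ω) 2
  have h2 : ∫ ω, (mt G θ t ω o - Y ω) ^ 2 ∂(PP μ)
      ≤ 2 * ∫ ω, Rr ω ^ 2 ∂(PP μ) + 2 * ∫ ω, (∑ k ∈ S, XX G θ K m A M o k ω) ^ 2 ∂(PP μ) := by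
    rw [← integral_const_mul, ← integral_const_mul, ← integral_add (iR.const_mul 2)
      (iX.const_mul 2)]
    apply integral_mono_of_nonneg (Eventually.of_forall fun ω => sq_nonneg _)
      ((iR.const_mul 2).add (iX.const_mul 2))
    refine Eventually.of_forall fun ω => ?_
    simp only [e, Pi.add_apply]
    nlinarith [sq_nonneg (Rr ω - ∑ k ∈ S, XX G θ K m A M o k ω)]
  rw [orth_sum hJ2 S _ hX] at h2
  -- the local bounds
  have iJK : ∀ k, Integrable (fun ω : Om V => i1 (1 / (K : ℝ) ≤ kap ω.2.1 k ∧ kap ω.2.1 k < T)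
      * (Jm G θ ω o k - JK G θ K ω o k) ^ 2) (PP μ) := by
    intro k
    have hm2 : Measurable fun ω : Om V => i1 (1 / (K : ℝ) ≤ kap ω.2.1 k ∧ kap ω.2.1 k < T) :=
      measurable_i1 ((measurableSet_le measurable_const (measurable_kap k)).inter
        (measurableSet_lt (measurable_kap k) measurable_const))
    refine integrable_bdd (hm2.mul (((hB.J o k).sub (measurable_JK hP hB K o k)).pow_const 2))
      (B := 1 * 3 ^ 2) fun ω => ?_
    rw [abs_mul, abs_pow]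
    refine mul_le_mul (abs_i1_le _) (pow_le_pow_left₀ (abs_nonneg _) ?_ 2) (by positivity)
      zero_le_one
    refine (abs_sub _ _).trans ?_
    have := abs_Jm_le (G := G) (θ := θ) ω o k
    have := abs_JK_le hc hP K o k ω
    linarith
  have iD : ∀ k i, Integrable (fun ω : Om V => i1 (win K i k ω)
      * (dl (ω.2.1 k) ^ 2 * DD G θ ((i : ℝ) / K) (A i k.1) (M i k.1) o k.1 ω)) (PP μ) := by
    intro k i
    have hdlm : Measurable fun ω : Om V => dl (ω.2.1 k) ^ 2 :=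
      (measurable_dl.comp (measurable_lab k)).pow_const 2
    refine integrable_bdd ((measurable_win K i k).mul (hdlm.mul (measurable_DD hB _
      ((hA i k.1).mono (hle _) le_rfl) ((hM i k.1).mono (hle _) le_rfl) o k.1)))
      (B := 1 * (1 * 8)) fun ω => ?_
    rw [abs_mul, abs_mul, abs_of_nonneg (sq_nonneg (dl (ω.2.1 k))),
      abs_of_nonneg (DD_nonneg _ _ _ _ _ _)]
    have hd1 : dl (ω.2.1 k) ^ 2 ≤ 1 := by
      have h1 := dl_nonnegDy (ω.2.1 k); have h2 := dl_le (ω.2.1 k); nlinarith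
    exact mul_le_mul (abs_i1_le _) (mul_le_mul hd1
      (DD_le hc _ (hA1 i k.1) (hM1 i k.1) o k.1 ω) (DD_nonneg _ _ _ _ _ _) zero_le_one)
      (mul_nonneg (sq_nonneg _) (DD_nonneg _ _ _ _ _ _)) zero_le_one
  have h3 : ∀ k ∈ S, ∫ ω, XX G θ K m A M o k ω ^ 2 ∂(PP μ)
      ≤ ∫ ω, i1 (kap ω.2.1 k < 1 / (K : ℝ)) * Jm G θ ω o k ^ 2 ∂(PP μ)
        + 2 * ∫ ω, i1 (1 / (K : ℝ) ≤ kap ω.2.1 k ∧ kap ω.2.1 k < T)
            * (Jm G θ ω o k - JK G θ K ω o k) ^ 2 ∂(PP μ)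
        + 256 * ∑ i ∈ Finset.Ico 1 m, ∫ ω, i1 (win K i k ω)
          * (dl (ω.2.1 k) ^ 2 * DD G θ ((i : ℝ) / K) (A i k.1) (M i k.1) o k.1 ω) ∂(PP μ) := by
    intro k _
    have iA := abs_XX_int hB (μ := μ) o k (1 / (K : ℝ))
    have iS : Integrable (fun ω : Om V => ∑ i ∈ Finset.Ico 1 m, i1 (win K i k ω)
          * (dl (ω.2.1 k) ^ 2 * DD G θ ((i : ℝ) / K) (A i k.1) (M i k.1) o k.1 ω)) (PP μ) :=
      integrable_finsetSum _ fun i _ => iD k i
    have iAB : Integrable (fun ω : Om V => i1 (kap ω.2.1 k < 1 / (K : ℝ)) * Jm G θ ω o k ^ 2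
        + 2 * (i1 (1 / (K : ℝ) ≤ kap ω.2.1 k ∧ kap ω.2.1 k < T)
            * (Jm G θ ω o k - JK G θ K ω o k) ^ 2)) (PP μ) := iA.add ((iJK k).const_mul 2)
    rw [← integral_finsetSum _ fun i _ => iD k i, ← integral_const_mul, ← integral_const_mul,
      ← integral_add iA ((iJK k).const_mul 2), ← integral_add iAB (iS.const_mul 256)]
    refine integral_mono_of_nonneg (Eventually.of_forall fun ω => sq_nonneg _)
      (iAB.add (iS.const_mul 256)) (Eventually.of_forall fun ω => ?_)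
    exact XX_sq_le hP hK hmT hM1 o k ω
  have h4 : ∑ k ∈ S, ∫ ω, XX G θ K m A M o k ω ^ 2 ∂(PP μ)
      ≤ φ + 2 * η + 256 * ∑ i ∈ Finset.Ico 1 m, 2 * min ((i : ℝ) / K) 1 / K * R i := by
    refine (Finset.sum_le_sum h3).trans ?_
    rw [Finset.sum_add_distrib, Finset.sum_add_distrib, ← Finset.mul_sum, ← Finset.mul_sum,
      Finset.sum_comm]
    have h5 : ∀ i ∈ Finset.Ico 1 m, ∑ k ∈ S, ∫ ω, i1 (win K i k ω)
          * (dl (ω.2.1 k) ^ 2 * DD G θ ((i : ℝ) / K) (A i k.1) (M i k.1) o k.1 ω) ∂(PP μ)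
        ≤ 2 * min ((i : ℝ) / K) 1 / K * R i := by
      intro i hi
      have hi0 : 0 < i := (Finset.mem_Ico.1 hi).1
      exact window_sum hc hB hle hK hi0 (hA i) (hM i) (hA1 i) (hM1 i) o S (hR i hi)
    have h6 := Finset.sum_le_sum h5
    linarith
  linarith

/-- the first events do not matter -/
lemma int_kap_lt_le {μ : Measure (V → Bool)} [IsProbabilityMeasure μ] {K : ℕ} (hK : 0 < K)
    (k : V × ℕ) : ∫ ω, i1 (kap ω.2.1 k < 1 / (K : ℝ)) ∂(PP μ) ≤ 1 / K := by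
  classical
  have hK' : (0 : ℝ) < K := by exact_mod_cast hK
  have hm : Measurable fun ω : Om V => i1 (kap ω.2.1 k < 1 / (K : ℝ)) :=
    measurable_i1 (measurableSet_lt (measurable_kap k) measurable_const)
  rw [integral_updL μ k _ hm (B := 1) (fun ω => abs_i1_le _)]
  have hI : Measurable fun ω : Om V =>
      ∫ x : I01, i1 (kap (updL ω k x).2.1 k < 1 / (K : ℝ)) :=
    ((hm.comp (measurable_updL k)).stronglyMeasurable.integral_prod_right').measurable
  have h1 : ∀ ω : Om V, ∫ x : I01, i1 (kap (updL ω k x).2.1 k < 1 / (K : ℝ)) ≤ 1 / K := by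
    intro ω
    have hm2 : MeasurableSet {x : I01 | (0 : ℝ) ≤ (x : ℝ) ∧ (x : ℝ) < 0 + 1 / (K : ℝ)} :=
      (measurableSet_le measurable_const measurable_subtype_coe).inter
        (measurableSet_lt measurable_subtype_coe measurable_const)
    refine le_trans ?_ (int_win_le (r := 0) (δ := 1 / (K : ℝ)) (by positivity))
    refine integral_mono_of_nonneg (Eventually.of_forall fun x => i1_nonneg _)
      (integrable_bdd (measurable_i1 hm2) fun x => abs_i1_le _) (Eventually.of_forall fun x => ?_)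
    have e : kap (updL ω k x).2.1 k = k.2 + (x : ℝ) := by
      simp only [kap, updL, Function.update_self]
    show i1 (kap (updL ω k x).2.1 k < 1 / (K : ℝ)) ≤ i1 ((0 : ℝ) ≤ (x : ℝ) ∧ (x : ℝ) < 0 + 1 / (K : ℝ))
    by_cases h : kap (updL ω k x).2.1 k < 1 / (K : ℝ)
    · rw [i1_true h, i1_true]
      have h0 := x.2.1
      have h2 : (0 : ℝ) ≤ k.2 := Nat.cast_nonneg _
      rw [e] at h
      exact ⟨h0, by linarith⟩
    · rw [i1_false h]; exact i1_nonneg _
  calc ∫ ω, (∫ x : I01, i1 (kap (updL ω k x).2.1 k < 1 / (K : ℝ))) ∂(PP μ)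
      ≤ ∫ _ω, (1 / (K : ℝ)) ∂(PP μ) := by
        refine integral_mono_of_nonneg (Eventually.of_forall fun ω =>
          integral_nonneg fun x => i1_nonneg _) (integrable_const _)
          (Eventually.of_forall h1)
    _ = 1 / K := by simp

end

open Classical in
theorem dyn (hSI : S_SI.{u}) (hJUMP : S_JUMP.{u}) (hSUMJ : S_SUMJ.{u}) (hPHI : S_PHI)
    (hBASE : S_BASE.{u}) (hEQUI : S_EQUI.{u}) (hDYNA : S_DYNA.{u}) : S_DYN.{u} := by
  intro V G d θ hc T hT μ hμ o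
  have : Nonempty V := ⟨o⟩
  have hprob : IsProbabilityMeasure μ := isProb_of_isFreeIsing hμ
  obtain ⟨hBL, hBinn, hBJ, htrG, -⟩ := hBASE hc
  have hB : Bas G θ := ⟨hBL, hBinn, hBJ⟩
  obtain ⟨-, -, -, hInv, -⟩ := hEQUI hc
  have hle : ∀ s, GG G θ s ≤ (inferInstance : MeasurableSpace (Om V)) := fun s =>
    (htrG s).comap_le
  obtain ⟨hJ1, hJ2, -⟩ := hJUMP hc hμ
  have hJ2' : J2 G θ μ := hJ2
  have hJ1' : ∀ k : V × ℕ, ∀ᵐ ω ∂(PP μ), Jm G θ ω o k
      = cov G θ (Lt G θ (kap ω.2.1 k) ω) o k.1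
        * phi (dl (ω.2.1 k)) (mt G θ (kap ω.2.1 k) ω k.1) (inn G θ ω k) := by
    intro k
    filter_upwards [hJ1 k] with ω hω
    exact hω o
  obtain ⟨C, Cq, hC, hCq, hmain⟩ := hSI hc T
  have hmain' := fun (s : ℝ) (hs : 0 < s) (hsT : s ≤ T) => hmain hμ s hs hsT (GG G θ s) (hInv s) o
  choose At Q hAtm hAt1 hQ0 hQ1 hQ2 hQ3 using hmain'
  -- the local approximations
  set A0 : ℝ → V → Om V → ℝ := fun s w ω =>
    if h : 0 < s ∧ s ≤ T then At s h.1 h.2 w ω else 0 with hA0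
  set M0 : ℝ → V → Om V → ℝ := fun s w ω =>
    max (-1) (min 1 (((PP μ)[fun ω => mt G θ s ω w | GG G θ s]) ω)) with hM0
  set Q0 : ℝ → ℝ := fun s => if h : 0 < s ∧ s ≤ T then Q s h.1 h.2 else 0 with hQ0d
  have hA0m : ∀ s w, Measurable[GG G θ s] (A0 s w) := by
    intro s w
    by_cases h : 0 < s ∧ s ≤ T
    · have e : A0 s w = At s h.1 h.2 w := by
        funext ω; simp only [hA0]; rw [dif_pos h]
      rw [e]; exact hAtm s h.1 h.2 w
    · have e : A0 s w = fun _ => 0 := by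
        funext ω; simp only [hA0]; rw [dif_neg h]
      rw [e]; exact measurable_const
  have hA01 : ∀ s w ω, |A0 s w ω| ≤ 1 := by
    intro s w ω
    simp only [hA0]
    split_ifs with h
    · exact hAt1 s h.1 h.2 w ω
    · simp
  have hM0m : ∀ s w, Measurable[GG G θ s] (M0 s w) := by
    intro s w
    have h1 : Measurable[GG G θ s] ((PP μ)[fun ω => mt G θ s ω w | GG G θ s]) :=
      stronglyMeasurable_condExp.measurable
    exact measurable_const.max (measurable_const.min h1)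
  have hM01 : ∀ s w ω, |M0 s w ω| ≤ 1 := by
    intro s w ω
    simp only [hM0]
    rw [abs_le]
    exact ⟨le_max_left _ _, max_le (by norm_num) (min_le_left _ _)⟩
  have hh1 : ∀ s, hG G θ μ (GG G θ s) o s ≤ 1 := by
    intro s
    unfold hG
    have h1 := condExp_best (P := PP μ) (hle s) (f := fun ω => mt G θ s ω o) (g := fun _ => 0)
      (B := 1) (B' := 0) (measurable_mt_s hB s o) (fun ω => abs_mt_le s ω o)
      (@measurable_const _ _ _ (GG G θ s) 0) (fun ω => by simp)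
    refine h1.trans ?_
    have h2 : ∫ ω : Om V, (mt G θ s ω o - 0) ^ 2 ∂(PP μ) ≤ ∫ _ω : Om V, (1 : ℝ) ∂(PP μ) := by
      refine integral_mono_of_nonneg (Eventually.of_forall fun ω => sq_nonneg _)
        (integrable_const _) (Eventually.of_forall fun ω => ?_)
      have := abs_mt_le (G := G) (θ := θ) s ω o
      simp only [sub_zero]
      rw [← sq_abs]
      nlinarith [abs_nonneg (mt G θ s ω o)]
    simpa using h2
  have hh0 : ∀ s, 0 ≤ hG G θ μ (GG G θ s) o s := fun s => by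
    unfold hG; exact integral_nonneg fun ω => sq_nonneg _
  -- the first events
  set F : ℕ → V × ℕ → ℝ := fun K k =>
    ∫ ω, i1 (kap ω.2.1 k < 1 / (K : ℝ)) * Jm G θ ω o k ^ 2 ∂(PP μ) with hF
  have hF0 : ∀ K k, 0 ≤ F K k := fun K k =>
    integral_nonneg fun ω => mul_nonneg (i1_nonneg _) (sq_nonneg _)
  have hFmono : ∀ K, 1 ≤ K → ∀ k, F K k ≤ F 1 k := by
    intro K hK k
    refine integral_mono_of_nonneg (Eventually.of_forall fun ω =>
      mul_nonneg (i1_nonneg _) (sq_nonneg _)) (abs_XX_int hB o k _)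
      (Eventually.of_forall fun ω => ?_)
    apply mul_le_mul_of_nonneg_right _ (sq_nonneg _)
    by_cases h : kap ω.2.1 k < 1 / (K : ℝ)
    · have hK' : (1 : ℝ) ≤ K := by exact_mod_cast hK
      have h2 : 1 / (K : ℝ) ≤ 1 / ((1 : ℕ) : ℝ) := by
        rw [Nat.cast_one]
        exact one_div_le_one_div_of_le one_pos hK'
      rw [i1_true h, i1_true (h.trans_le h2)]
    · rw [i1_false h]; exact i1_nonneg _
  have hFsum : ∀ S : Finset (V × ℕ), ∑ k ∈ S, F 1 k ≤ 4 := by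
    intro S
    obtain ⟨S0, hS0⟩ := hSUMJ hc hμ o 1 one_pos 1 one_pos
    have h1 := hS0 (S ∪ S0) Finset.subset_union_right
    have h2 : ∑ k ∈ S, F 1 k ≤ ∑ k ∈ S ∪ S0, F 1 k :=
      Finset.sum_le_sum_of_subset_of_nonneg Finset.subset_union_left fun k _ _ => hF0 1 k
    refine h2.trans ?_
    have hX : ∀ k, Inno G θ μ k (fun ω => i1 (kap ω.2.1 k < 1) * Jm G θ ω o k) := fun k =>
      inno_jump hc hPHI hB o k (hJ1' k) 1
    have h3 := orth_sum hJ2' (S ∪ S0) _ hX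
    have h4 : ∀ k, F 1 k = ∫ ω, (i1 (kap ω.2.1 k < 1) * Jm G θ ω o k) ^ 2 ∂(PP μ) := by
      intro k
      simp only [hF, Nat.cast_one, div_one]
      congr 1; funext ω
      rw [mul_pow, i1_sq]
    simp only [h4]
    rw [← h3]
    set Sg : Om V → ℝ := fun ω => ∑ k ∈ S ∪ S0, i1 (kap ω.2.1 k < 1) * Jm G θ ω o k with hSg
    have h5 : ∫ ω, (mt G θ 1 ω o - Sg ω) ^ 2 ∂(PP μ) ≤ 1 := by
      refine le_trans (le_of_eq ?_) h1
      congr 1; funext ω
      congr 2
      refine Finset.sum_congr rfl fun k _ => ?_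
      by_cases h : kap ω.2.1 k < 1
      · rw [i1_true h, if_pos h, one_mul]
      · rw [i1_false h, if_neg h, zero_mul]
    have hSgm : Measurable Sg := Finset.measurable_sum _ fun k _ => (hX k).meas
    have hSgb : ∀ ω, |Sg ω| ≤ ∑ k ∈ S ∪ S0, (2 : ℝ) := by
      intro ω
      refine (Finset.abs_sum_le_sum_abs _ _).trans (Finset.sum_le_sum fun k _ => ?_)
      rw [abs_mul]
      have := mul_le_mul (abs_i1_le (kap ω.2.1 k < 1)) (abs_Jm_le (G := G) (θ := θ) ω o k)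
        (abs_nonneg _) zero_le_one
      simpa using this
    have hmtm := measurable_mt_s hB (1 : ℝ) o
    have i1' : Integrable (fun ω => (mt G θ 1 ω o - Sg ω) ^ 2) (PP μ) := by
      refine integrable_bdd ((hmtm.sub hSgm).pow_const 2) (B := (1 + ∑ k ∈ S ∪ S0, (2 : ℝ)) ^ 2)
        fun ω => ?_
      rw [abs_pow]
      exact pow_le_pow_left₀ (abs_nonneg _)
        ((abs_sub _ _).trans (add_le_add (abs_mt_le 1 ω o) (hSgb ω))) 2
    have h6 : ∫ ω, Sg ω ^ 2 ∂(PP μ)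
        ≤ ∫ ω, (2 * 1 + 2 * (mt G θ 1 ω o - Sg ω) ^ 2) ∂(PP μ) := by
      refine integral_mono_of_nonneg (Eventually.of_forall fun ω => sq_nonneg _)
        ((integrable_const _).add (i1'.const_mul 2)) (Eventually.of_forall fun ω => ?_)
      have h7 := abs_mt_le (G := G) (θ := θ) 1 ω o
      have h8 : mt G θ 1 ω o ^ 2 ≤ 1 := by
        rw [← sq_abs]; nlinarith [abs_nonneg (mt G θ 1 ω o)]
      show Sg ω ^ 2 ≤ 2 * 1 + 2 * (mt G θ 1 ω o - Sg ω) ^ 2
      nlinarith [sq_nonneg (2 * mt G θ 1 ω o - Sg ω)]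
    refine h6.trans ?_
    have e7 : ∫ ω, (2 * 1 + 2 * (mt G θ 1 ω o - Sg ω) ^ 2) ∂(PP μ)
        = 2 * 1 + 2 * ∫ ω, (mt G θ 1 ω o - Sg ω) ^ 2 ∂(PP μ) := by
      rw [integral_add (integrable_const _) (i1'.const_mul 2),
        integral_const_mul (2 : ℝ) (fun ω => (mt G θ 1 ω o - Sg ω) ^ 2), integral_const]
      simp
    rw [e7]
    linarith
  have hFs : Summable (F 1) := summable_of_sum_le (fun k => hF0 1 k) hFsum
  have hFt : Tendsto (fun K => ∑' k, F K k) atTop (𝓝 0) := by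
    have h := tendsto_tsum_of_dominated_convergence (f := F) (g := fun _ => (0 : ℝ))
      (bound := F 1) (𝓕 := atTop) hFs (fun k => ?_) ?_
    · simpa using h
    · -- pointwise
      have h1 : ∀ K : ℕ, 1 ≤ K → F K k ≤ 4 * (1 / K) := by
        intro K hK
        have h2 : F K k ≤ ∫ ω, 4 * i1 (kap ω.2.1 k < 1 / (K : ℝ)) ∂(PP μ) := by
          have hm : Measurable fun ω : Om V => i1 (kap ω.2.1 k < 1 / (K : ℝ)) :=
            measurable_i1 (measurableSet_lt (measurable_kap k) measurable_const)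
          refine integral_mono_of_nonneg (Eventually.of_forall fun ω =>
            mul_nonneg (i1_nonneg _) (sq_nonneg _))
            ((integrable_bdd hm fun ω => abs_i1_le _).const_mul 4)
            (Eventually.of_forall fun ω => ?_)
          show i1 (kap ω.2.1 k < 1 / (K : ℝ)) * Jm G θ ω o k ^ 2
            ≤ 4 * i1 (kap ω.2.1 k < 1 / (K : ℝ))
          have h3 := abs_Jm_le (G := G) (θ := θ) ω o k
          have h4 : Jm G θ ω o k ^ 2 ≤ 4 := by
            rw [← sq_abs]; nlinarith [abs_nonneg (Jm G θ ω o k)]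
          nlinarith [i1_nonneg (kap ω.2.1 k < 1 / (K : ℝ))]
        refine h2.trans ?_
        rw [integral_const_mul]
        exact mul_le_mul_of_nonneg_left (int_kap_lt_le hK k) (by norm_num)
      have h5 : Tendsto (fun K : ℕ => 4 * (1 / (K : ℝ))) atTop (𝓝 0) := by
        have := (tendsto_one_div_atTop_nhds_zero_nat (𝕜 := ℝ)).const_mul 4
        simpa using this
      exact squeeze_zero' (Eventually.of_forall fun K => hF0 K k)
        (eventually_atTop.2 ⟨1, h1⟩) h5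
    · refine eventually_atTop.2 ⟨1, fun K hK k => ?_⟩
      rw [Real.norm_eq_abs, abs_of_nonneg (hF0 K k)]
      exact hFmono K hK k
  -- the grid error
  set Pj : ℕ → ℕ → Prop := fun K j => ∀ S : Finset (V × ℕ),
    ∑ k ∈ S, ∫ ω, i1 (1 / (K : ℝ) ≤ kap ω.2.1 k ∧ kap ω.2.1 k < T)
      * (Jm G θ ω o k - JK G θ K ω o k) ^ 2 ∂(PP μ) ≤ 1 / ((j : ℝ) + 1) with hPj
  have hPev : ∀ j : ℕ, ∀ᶠ K in atTop, Pj K j := by
    intro j
    obtain ⟨K0, hK0⟩ := hDYNA hc hμ o T (1 / ((j : ℝ) + 1)) (by positivity)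
    refine eventually_atTop.2 ⟨K0, fun K hK S => ?_⟩
    refine le_trans (le_of_eq ?_) (hK0 K hK S)
    refine Finset.sum_congr rfl fun k _ => ?_
    congr 1; funext ω
    by_cases h : 1 / (K : ℝ) ≤ kap ω.2.1 k ∧ kap ω.2.1 k < T
    · rw [i1_true h, if_pos h, one_mul]
    · rw [i1_false h, if_neg h, zero_mul]
  set jm : ℕ → ℕ := fun K => Nat.findGreatest (Pj K) K with hjm
  have hjt : Tendsto (fun K => (jm K : ℝ)) atTop atTop := by
    refine tendsto_natCast_atTop_atTop.comp (tendsto_atTop.2 fun j => ?_)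
    filter_upwards [hPev j, eventually_ge_atTop j] with K h1 h2
    exact Nat.le_findGreatest h2 h1
  refine ⟨1024 * C, Cq, Q0, fun K => 2 * ∑' k, F K k + 4 / ((jm K : ℝ) + 1), by positivity, hCq,
    ?_, ?_, ?_⟩
  · have h1 := hFt.const_mul 2
    have h2 : Tendsto (fun K => 4 / ((jm K : ℝ) + 1)) atTop (𝓝 0) :=
      (tendsto_atTop_add_const_right _ 1 hjt).const_div_atTop 4
    simpa using h1.add h2
  · intro s hs hsT
    have hcond : 0 < s ∧ s ≤ T := ⟨hs, hsT⟩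
    have e : Q0 s = Q s hs hsT := by simp only [hQ0d]; rw [dif_pos hcond]
    rw [e]
    have hCC : C ≤ 1024 * C := by linarith
    refine ⟨hQ0 s hs hsT, (hQ1 s hs hsT).trans (mul_le_mul_of_nonneg_right hCC (hh0 s)), ?_⟩
    intro hs1 l q hl hl1 hq
    refine (hQ2 s hs hsT hs1 l q hl hl1 hq).trans (mul_le_mul_of_nonneg_right hCC ?_)
    have := hh0 s
    have := hCq q
    positivity
  · intro K N m hK hm hmT
    have hK0 : 0 < K := hK
    have hK' : (0 : ℝ) < K := by exact_mod_cast hK0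
    have herr : 0 ≤ err N := tsum_nonneg fun n => by positivity
    set R : ℕ → ℝ := fun i => C * ((N + 1 + 1 / min ((i : ℝ) / K) 1)
        * hG G θ μ (GG G θ ((i : ℝ) / K)) o ((i : ℝ) / K)
      + ((N : ℝ) ^ 2 + 1 + 1 / (min ((i : ℝ) / K) 1) ^ 2) * Q0 ((i : ℝ) / K) + err N) with hRd
    have hiT : ∀ i ∈ Finset.Ico 1 m, 0 < (i : ℝ) / K ∧ (i : ℝ) / K ≤ T := by
      intro i hi
      obtain ⟨h1, h2⟩ := Finset.mem_Ico.1 hi
      have h3 : (0 : ℝ) < i := by exact_mod_cast h1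
      refine ⟨by positivity, ?_⟩
      rw [div_le_iff₀ hK']
      have : i ≤ T * K := by omega
      exact_mod_cast this
    have hQn : ∀ s, 0 ≤ Q0 s := by
      intro s
      simp only [hQ0d]
      split_ifs with h
      · exact hQ0 s h.1 h.2
      · exact le_rfl
    have hR0 : ∀ i ∈ Finset.Ico 1 m, 0 ≤ R i := by
      intro i hi
      have h1 := (hiT i hi).1
      have h2 := hh0 ((i : ℝ) / K)
      have h3 := hQn ((i : ℝ) / K)
      have h4 : 0 < min ((i : ℝ) / K) 1 := lt_min h1 one_pos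
      simp only [hRd]
      positivity
    have hRb : ∀ i ∈ Finset.Ico 1 m, ∀ S' : Finset V,
        ∑ w ∈ S', ∫ ω, DD G θ ((i : ℝ) / K) (A0 ((i : ℝ) / K) w) (M0 ((i : ℝ) / K) w) o w ω ∂(PP μ)
          ≤ R i := by
      intro i hi S'
      have hsi := hiT i hi
      have h1 := hQ3 ((i : ℝ) / K) hsi.1 hsi.2 N S'
      have e1 : Q0 ((i : ℝ) / K) = Q ((i : ℝ) / K) hsi.1 hsi.2 := by
        simp only [hQ0d]; rw [dif_pos hsi]
      simp only [hRd]
      rw [e1]
      refine le_trans (le_of_eq ?_) h1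
      refine Finset.sum_congr rfl fun w _ => ?_
      refine integral_congr_ae ?_
      have hb := ae_condExp_le (m := GG G θ ((i : ℝ) / K)) (P := PP μ)
        (f := fun ω => mt G θ ((i : ℝ) / K) ω w) (B := 1) (fun ω => abs_mt_le _ ω w)
      filter_upwards [hb] with ω hω
      have e2 : A0 ((i : ℝ) / K) w ω = At ((i : ℝ) / K) hsi.1 hsi.2 w ω := by
        simp only [hA0]; rw [dif_pos hsi]
      have e3 : M0 ((i : ℝ) / K) w ω
          = ((PP μ)[fun ω => mt G θ ((i : ℝ) / K) ω w | GG G θ ((i : ℝ) / K)]) ω := by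
        simp only [hM0]
        have h3 := abs_le.1 hω
        rw [min_eq_right h3.2, max_eq_right h3.1]
      unfold DD
      rw [e2, e3]
    have hsumR : 0 ≤ ∑ i ∈ Finset.Ico 1 m, min ((i : ℝ) / K) 1 * R i := by
      refine Finset.sum_nonneg fun i hi => mul_nonneg ?_ (hR0 i hi)
      exact le_min (hiT i hi).1.le zero_le_one
    have hrew : 1024 * C / K * ∑ i ∈ Finset.Ico 1 m, min ((i : ℝ) / K) 1 *
            ((N + 1 + 1 / min ((i : ℝ) / K) 1) * hG G θ μ (GG G θ ((i : ℝ) / K)) o ((i : ℝ) / K)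
              + ((N : ℝ) ^ 2 + 1 + 1 / (min ((i : ℝ) / K) 1) ^ 2) * Q0 ((i : ℝ) / K) + err N)
        = 1024 / K * ∑ i ∈ Finset.Ico 1 m, min ((i : ℝ) / K) 1 * R i := by
      simp only [hRd]
      rw [Finset.mul_sum, Finset.mul_sum]
      refine Finset.sum_congr rfl fun i _ => ?_
      ring
    rw [hrew]
    have hFK0 : 0 ≤ ∑' k, F K k := tsum_nonneg fun k => hF0 K k
    by_cases hj0 : jm K = 0
    · refine (hh1 _).trans ?_
      beta_reduce
      rw [hj0]
      have : 0 ≤ 1024 / (K : ℝ) * ∑ i ∈ Finset.Ico 1 m, min ((i : ℝ) / K) 1 * R i := by positivity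
      simp only [Nat.cast_zero, zero_add, div_one]
      linarith
    · have hPjm : Pj K (jm K) := Nat.findGreatest_of_ne_zero rfl hj0
      have hFKs : Summable (F K) :=
        Summable.of_nonneg_of_le (hF0 K) (hFmono K hK) hFs
      refine le_of_forall_pos_le_add fun ε hε => ?_
      have hm0 : (0 : ℝ) < m := by exact_mod_cast hm
      obtain ⟨S0, hS0⟩ := hSUMJ hc hμ o ((m : ℝ) / K) (by positivity) (ε / 2) (by positivity)
      have h1 := hS0 S0 (Finset.Subset.refl _)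
      have h2 : ∫ ω, (mt G θ ((m : ℝ) / K) ω o
          - ∑ k ∈ S0, i1 (kap ω.2.1 k < (m : ℝ) / K) * Jm G θ ω o k) ^ 2 ∂(PP μ) ≤ ε / 2 := by
        refine le_trans (le_of_eq ?_) h1
        congr 1; funext ω
        congr 2
        refine Finset.sum_congr rfl fun k _ => ?_
        by_cases h : kap ω.2.1 k < (m : ℝ) / K
        · rw [i1_true h, if_pos h, one_mul]
        · rw [i1_false h, if_neg h, zero_mul]
      have h3 := main_est (A := fun i w => A0 ((i : ℝ) / K) w) (M := fun i w => M0 ((i : ℝ) / K) w)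
        hc hPHI hB hJ2' hle hK0 hmT (fun i w => hA0m _ w)
        (fun i w => hM0m _ w) (fun i w ω => hA01 _ w ω) (fun i w ω => hM01 _ w ω) o hJ1' S0 h2
        (hFKs.sum_le_tsum S0 fun k _ => hF0 K k) (hPjm S0) hRb
      refine h3.trans (le_of_eq ?_)
      rw [Finset.mul_sum, Finset.mul_sum]
      have e4 : ∑ i ∈ Finset.Ico 1 m, 256 * (2 * min ((i : ℝ) / K) 1 / K * R i)
          = 1 / 2 * ∑ i ∈ Finset.Ico 1 m, 1024 / (K : ℝ) * (min ((i : ℝ) / K) 1 * R i) := by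
        rw [Finset.mul_sum]
        refine Finset.sum_congr rfl fun i _ => ?_
        ring
      rw [e4]
      ring

end Vale.Agent.P161C
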