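import Vale.Agent.P161C.Plan
import Vale.Agent.P161.Prod

/-!
# DYN, part A: projections, dependence on the past, resampling a label
-/

namespace Vale.Agent.P161C

open MeasureTheory Vale.Agent.P161 Filter Topology

universe u

variable {V : Type u} {G : SimpleGraph V} {θ : ℝ}

/-- indicator of a proposition -/
noncomputable def i1 (p : Prop) : ℝ := open Classical in if p then 1 else 0

lemma i1_true {p : Prop} (h : p) : i1 p = 1 := by unfold i1; simp [h]
lemma i1_false {p : Prop} (h : ¬ p) : i1 p = 0 := by unfold i1; simp [h]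
lemma i1_nonneg (p : Prop) : 0 ≤ i1 p := by unfold i1; split_ifs <;> norm_num
lemma i1_le_one (p : Prop) : i1 p ≤ 1 := by unfold i1; split_ifs <;> norm_num
lemma abs_i1_le (p : Prop) : |i1 p| ≤ 1 := by
  rw [abs_of_nonneg (i1_nonneg p)]; exact i1_le_one p
lemma i1_sq (p : Prop) : i1 p ^ 2 = i1 p := by unfold i1; split_ifs <;> norm_num
lemma i1_congr {p q : Prop} (h : p ↔ q) : i1 p = i1 q := by rw [propext h]

lemma measurable_i1 {α : Type*} {mα : MeasurableSpace α} {p : α → Prop}
    (hp : MeasurableSet {a | p a}) : Measurable fun a => i1 (p a) := by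
  classical
  unfold i1
  exact Measurable.ite hp measurable_const measurable_const

lemma integrable_bdd {α : Type*} {mα : MeasurableSpace α} {P : Measure α} [IsFiniteMeasure P]
    {f : α → ℝ} (hf : Measurable f) {B : ℝ} (hB : ∀ x, |f x| ≤ B) : Integrable f P :=
  Integrable.of_bound hf.aestronglyMeasurable B (Filter.Eventually.of_forall hB)

lemma ae_condExp_le {Ω : Type*} {m m0 : MeasurableSpace Ω} {P : Measure Ω}
    {f : Ω → ℝ} {B : ℝ} (hB : ∀ ω, |f ω| ≤ B) :
    ∀ᵐ ω ∂P, |(P[f|m]) ω| ≤ B := by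
  exact ae_bdd_abs_condExp_of_ae_bdd_abs (m := m) (μ := P) (f := f) (R := B)
    (Eventually.of_forall hB)

/-- the conditional expectation is the best approximation in mean square -/
lemma condExp_best {Ω : Type*} {m m0 : MeasurableSpace Ω} {P : Measure Ω} [IsProbabilityMeasure P]
    (hm : m ≤ m0) {f g : Ω → ℝ} {B B' : ℝ} (hf : Measurable[m0] f) (hfB : ∀ ω, |f ω| ≤ B)
    (hg : Measurable[m] g) (hgB : ∀ ω, |g ω| ≤ B') :
    ∫ ω, (f ω - (P[f|m]) ω) ^ 2 ∂P ≤ ∫ ω, (f ω - g ω) ^ 2 ∂P := by
  have hfi : Integrable f P := integrable_bdd hf hfB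
  set F := P[f|m] with hF
  have hFm : StronglyMeasurable[m] F := stronglyMeasurable_condExp
  have hFb : ∀ᵐ ω ∂P, |F ω| ≤ B := ae_condExp_le hfB
  have hFi : Integrable F P := integrable_condExp
  have hg0 : Measurable[m0] g := hg.mono hm le_rfl
  have hgi : Integrable g P := integrable_bdd hg0 hgB
  -- cross term
  set D : Ω → ℝ := fun ω => F ω - g ω with hD
  have hDm : StronglyMeasurable[m] D := hFm.sub hg.stronglyMeasurable
  have hDb : ∀ᵐ ω ∂P, ‖D ω‖ ≤ B + B' := by
    filter_upwards [hFb] with ω h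
    rw [Real.norm_eq_abs]
    exact (abs_sub _ _).trans (add_le_add h (hgB ω))
  have hfD : Integrable (fun ω => f ω * D ω) P := by
    have := hfi.bdd_mul (hDm.mono hm).aestronglyMeasurable hDb
    refine this.congr (Eventually.of_forall fun ω => ?_)
    simp [mul_comm]
  have hFD : Integrable (fun ω => F ω * D ω) P := by
    have := hFi.bdd_mul (hDm.mono hm).aestronglyMeasurable hDb
    refine this.congr (Eventually.of_forall fun ω => ?_)
    simp [mul_comm]
  have hcross : ∫ ω, (f ω - F ω) * D ω ∂P = 0 := by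
    have h1 : P[fun ω => f ω * D ω|m] =ᵐ[P] fun ω => F ω * D ω := by
      have := condExp_mul_of_stronglyMeasurable_right (μ := P) hDm (f := f) (g := D) hfD hfi
      exact this
    have h2 : ∫ ω, f ω * D ω ∂P = ∫ ω, F ω * D ω ∂P := by
      rw [← integral_condExp hm (f := fun ω => f ω * D ω)]
      exact integral_congr_ae h1
    have h3 : ∫ ω, (f ω - F ω) * D ω ∂P = ∫ ω, f ω * D ω ∂P - ∫ ω, F ω * D ω ∂P := by
      rw [← integral_sub hfD hFD]
      congr 1; funext ω; ring
    rw [h3, h2, sub_self]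
  have hD2 : Integrable (fun ω => D ω ^ 2) P := by
    have := (hFi.sub hgi).bdd_mul (hDm.mono hm).aestronglyMeasurable hDb
    refine this.congr (Eventually.of_forall fun ω => ?_)
    simp [hD, pow_two]
  have hfF : Integrable (fun ω => (f ω - F ω) ^ 2) P := by
    have hb : ∀ᵐ ω ∂P, ‖f ω - F ω‖ ≤ B + B := by
      filter_upwards [hFb] with ω h
      rw [Real.norm_eq_abs]
      exact (abs_sub _ _).trans (add_le_add (hfB ω) h)
    have := (hfi.sub hFi).bdd_mul (hfi.sub hFi).aestronglyMeasurable hb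
    refine this.congr (Eventually.of_forall fun ω => ?_)
    simp [pow_two]
  have hfFD : Integrable (fun ω => (f ω - F ω) * D ω) P := by
    refine (hfD.sub hFD).congr (Eventually.of_forall fun ω => ?_)
    simp; ring
  have e : ∫ ω, (f ω - g ω) ^ 2 ∂P
      = ∫ ω, (f ω - F ω) ^ 2 ∂P + 2 * ∫ ω, (f ω - F ω) * D ω ∂P + ∫ ω, D ω ^ 2 ∂P := by
    have i1 : Integrable (fun ω => (f ω - F ω) ^ 2 + 2 * ((f ω - F ω) * D ω)) P :=
      hfF.add (hfFD.const_mul 2)
    have e1 : ∫ ω, ((f ω - F ω) ^ 2 + 2 * ((f ω - F ω) * D ω)) ∂P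
        = ∫ ω, (f ω - F ω) ^ 2 ∂P + 2 * ∫ ω, (f ω - F ω) * D ω ∂P := by
      rw [integral_add hfF (hfFD.const_mul 2), integral_const_mul]
    rw [← e1, ← integral_add i1 hD2]
    congr 1; funext ω; simp only [hD]; ring
  rw [e, hcross]
  have : 0 ≤ ∫ ω, D ω ^ 2 ∂P := integral_nonneg fun ω => sq_nonneg _
  linarith

/-! ### elementary facts on labels -/

lemma dl_nonnegDy (t : I01) : 0 ≤ dl t := Real.sqrt_nonneg _

lemma dl_le (t : I01) : dl t ≤ 1 / 2 := by
  unfold dl
  have h0 := t.2.1
  have h1 := t.2.2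
  rw [show (1 / 2 : ℝ) = √((1 / 2) ^ 2) by rw [Real.sqrt_sq (by norm_num)]]
  apply Real.sqrt_le_sqrt
  nlinarith [sq_nonneg ((t : ℝ) - 1 / 2)]

lemma dl_sq (t : I01) : dl t ^ 2 = (t : ℝ) * (1 - t) := by
  unfold dl
  exact Real.sq_sqrt (mul_nonneg t.2.1 (sub_nonneg.2 t.2.2))

lemma measurable_dl : Measurable dl := by
  unfold dl
  fun_prop

lemma measurable_kap (k : V × ℕ) : Measurable fun ω : Om V => kap ω.2.1 k := by
  unfold kap
  have : Measurable fun ω : Om V => ω.2.1 k :=
    (measurable_pi_apply k).comp (measurable_fst.comp measurable_snd)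
  fun_prop

lemma kap_nonneg (U : V × ℕ → I01) (k : V × ℕ) : 0 ≤ kap U k := by
  unfold kap
  have := (U k).2.1
  positivity

/-! ### dependence on the past -/

lemma ep_congr {ω ω' : Om V} {k : V × ℕ} (hU : ω.2.1 = ω'.2.1) (h : obs ω k = obs ω' k) :
    ep ω k = ep ω' k := by
  unfold ep
  rw [hU, h]

lemma yt_congr {ω ω' : Om V} {s : ℝ} (hU : ω.2.1 = ω'.2.1)
    (h : ∀ k', kap ω.2.1 k' < s → obs ω k' = obs ω' k') : yt s ω = yt s ω' := by
  funext w
  unfold yt fld
  refine Finset.sum_congr rfl fun j _ => ?_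
  rw [← hU]
  by_cases hk : (w, j) ∈ Is ω.2.1 s
  · rw [if_pos hk, if_pos hk, ep_congr hU (h _ hk)]
  · rw [if_neg hk, if_neg hk]

lemma inn_congr {ω ω' : Om V} {k : V × ℕ} (hU : ω.2.1 = ω'.2.1)
    (h : ∀ k', kap ω.2.1 k' < kap ω.2.1 k → obs ω k' = obs ω' k') (hk : obs ω k = obs ω' k) :
    inn G θ ω k = inn G θ ω' k := by
  unfold inn mt
  rw [← hU, yt_congr hU h, hk]

lemma trG_congr {ω ω' : Om V} {s : ℝ} (hU : ω.2.1 = ω'.2.1)
    (h : ∀ k', kap ω.2.1 k' < s → obs ω k' = obs ω' k') : trG G θ s ω = trG G θ s ω' := by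
  funext k
  unfold trG
  rw [← hU]
  by_cases hk : kap ω.2.1 k < s
  · rw [if_pos hk, if_pos hk, inn_congr hU (fun k' h' => h k' (h'.trans hk)) (h k hk)]
  · rw [if_neg hk, if_neg hk]

/-- a `GG s`-measurable function is a function of `trG s` -/
lemma eq_of_trG {β : Type*} {mβ : MeasurableSpace β} [MeasurableSingletonClass β] {s : ℝ}
    {f : Om V → β} (hf : Measurable[GG G θ s] f)
    {ω ω' : Om V} (h : trG G θ s ω = trG G θ s ω') : f ω = f ω' := by
  have h1 : MeasurableSet[GG G θ s] (f ⁻¹' {f ω}) := hf (measurableSet_singleton _)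
  obtain ⟨S, -, hS⟩ := h1
  have h2 : ω ∈ f ⁻¹' {f ω} := rfl
  rw [← hS] at h2
  have h3 : ω' ∈ trG G θ s ⁻¹' S := by
    show trG G θ s ω' ∈ S
    rw [← h]; exact h2
  rw [hS] at h3
  exact (Set.mem_singleton_iff.1 h3).symm

open Classical in
/-- from the trace at time `t` to the trace at an earlier time -/
noncomputable def retr (s : ℝ) (x : V × ℕ → ℝ × ℝ) : V × ℕ → ℝ × ℝ := fun k =>
  if (x k).1 ≤ 1 ∧ k.2 + (x k).1 < s then x k else (2, 2)

lemma measurable_retr (s : ℝ) : Measurable (retr (V := V) s) := by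
  rw [measurable_pi_iff]
  intro k
  unfold retr
  refine Measurable.ite ?_ (measurable_pi_apply k) measurable_const
  have h1 : Measurable fun x : V × ℕ → ℝ × ℝ => (x k).1 := (measurable_pi_apply k).fst
  exact (measurableSet_le h1 measurable_const).inter
    (measurableSet_lt (h1.const_add _) measurable_const)

lemma trG_retr {s t : ℝ} (hst : s ≤ t) (ω : Om V) :
    trG G θ s ω = retr s (trG G θ t ω) := by
  funext k
  unfold retr trG
  by_cases h1 : kap ω.2.1 k < s
  · have h2 : kap ω.2.1 k < t := h1.trans_le hst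
    rw [if_pos h1, if_pos h2, if_pos]
    exact ⟨(ω.2.1 k).2.2, h1⟩
  · rw [if_neg h1]
    by_cases h2 : kap ω.2.1 k < t
    · rw [if_pos h2, if_neg]
      rintro ⟨-, h3⟩
      exact h1 h3
    · rw [if_neg h2, if_neg]
      rintro ⟨h3, -⟩
      norm_num at h3

lemma GG_mono {s t : ℝ} (hst : s ≤ t) : GG G θ s ≤ GG G θ t (V := V) := by
  unfold GG
  rintro S ⟨A, hA, rfl⟩
  refine ⟨retr s ⁻¹' A, measurable_retr s hA, ?_⟩
  ext ω
  simp only [Set.mem_preimage]
  rw [trG_retr hst]

/-! ### resampling a label -/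

open Classical in
/-- replace the label of `k` -/
noncomputable def updL (ω : Om V) (k : V × ℕ) (x : I01) : Om V :=
  (ω.1, (Function.update ω.2.1 k x, ω.2.2))

lemma measurable_updL (k : V × ℕ) : Measurable fun p : Om V × I01 => updL p.1 k p.2 := by
  classical
  unfold updL
  have h1 : Measurable fun p : Om V × I01 => (p.1.2.1, p.2) := by fun_prop
  have h2 : Measurable fun p : Om V × I01 => Function.update p.1.2.1 k p.2 :=
    (measurable_upd k).comp h1
  have h3 : Measurable fun p : Om V × I01 => p.1.1 := by fun_prop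
  have h4 : Measurable fun p : Om V × I01 => p.1.2.2 := by fun_prop
  exact h3.prodMk (h2.prodMk h4)

instance : IsProbabilityMeasure (lam V) := by unfold lam; infer_instance

instance {μ : Measure (V → Bool)} [IsProbabilityMeasure μ] : IsProbabilityMeasure (PP μ) := by
  unfold PP; infer_instance

lemma integral_updL (μ : Measure (V → Bool)) [IsProbabilityMeasure μ] (k : V × ℕ)
    (F : Om V → ℝ) (hF : Measurable F) {B : ℝ} (hB : ∀ ω, |F ω| ≤ B) :
    ∫ ω, F ω ∂(PP μ) = ∫ ω, (∫ x : I01, F (updL ω k x)) ∂(PP μ) := by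
  classical
  have hF' : Measurable fun p : Om V × I01 => F (updL p.1 k p.2) := hF.comp (measurable_updL k)
  have hI : Measurable fun ω : Om V => ∫ x : I01, F (updL ω k x) :=
    hF'.stronglyMeasurable.integral_prod_right.measurable
  have hIb : ∀ ω : Om V, |∫ x : I01, F (updL ω k x)| ≤ B := by
    intro ω
    have := norm_integral_le_of_norm_le_const (μ := (volume : Measure I01))
      (f := fun x : I01 => F (updL ω k x)) (C := B) (Eventually.of_forall fun x => hB _)
    simpa using this
  unfold PP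
  rw [integral_prod _ (integrable_bdd hF hB), integral_prod _ (integrable_bdd hI hIb)]
  congr 1; funext σ
  have hσ : Measurable fun q : (V × ℕ → I01) × (V × ℕ → I01) => F (σ, q) :=
    hF.comp (measurable_const.prodMk measurable_id)
  have hσI : Measurable fun q : (V × ℕ → I01) × (V × ℕ → I01) =>
      ∫ x : I01, F (updL (σ, q) k x) := hI.comp (measurable_const.prodMk measurable_id)
  rw [integral_prod_symm _ (integrable_bdd hσ fun q => hB _),
    integral_prod_symm _ (integrable_bdd hσI fun q => hIb _)]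
  congr 1; funext N
  have hN : Measurable fun U : V × ℕ → I01 => F (σ, (U, N)) :=
    hF.comp (measurable_const.prodMk (measurable_id.prodMk measurable_const))
  exact integral_upd (ι := V × ℕ) k (fun U => F (σ, (U, N))) hN (B := B) (fun U => hB _)

/-- two points which differ only in the label of `k`, with both times at least `s` -/
lemma yt_updL {ω : Om V} {k : V × ℕ} {s : ℝ} {x x' : I01} (hx : s ≤ k.2 + (x : ℝ))
    (hx' : s ≤ k.2 + (x' : ℝ)) : yt s (updL ω k x) = yt s (updL ω k x') := by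
  classical
  funext w
  unfold yt fld
  refine Finset.sum_congr rfl fun j _ => ?_
  by_cases hk : (w, j) = k
  · subst hk
    have h1 : (w, j) ∉ Is (updL ω (w, j) x).2.1 s := by
      simp only [Is, kap, updL, Set.mem_ofPred_eq, Function.update_self, not_lt]; exact hx
    have h2 : (w, j) ∉ Is (updL ω (w, j) x').2.1 s := by
      simp only [Is, kap, updL, Set.mem_ofPred_eq, Function.update_self, not_lt]; exact hx'
    rw [if_neg h1, if_neg h2]
  · have h1 : (w, j) ∈ Is (updL ω k x).2.1 s ↔ (w, j) ∈ Is (updL ω k x').2.1 s := by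
      simp only [Is, kap, updL, Set.mem_ofPred_eq, Function.update_of_ne hk]
    have h2 : ep (updL ω k x) (w, j) = ep (updL ω k x') (w, j) := by
      simp only [ep, obs, updL, Function.update_of_ne hk]
    rw [h2]
    by_cases h3 : (w, j) ∈ Is (updL ω k x).2.1 s
    · rw [if_pos h3, if_pos (h1.1 h3)]
    · rw [if_neg h3, if_neg (fun h => h3 (h1.2 h))]

lemma trG_updL {ω : Om V} {k : V × ℕ} {s : ℝ} {x x' : I01} (hx : s ≤ k.2 + (x : ℝ))
    (hx' : s ≤ k.2 + (x' : ℝ)) : trG G θ s (updL ω k x) = trG G θ s (updL ω k x') := by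
  classical
  funext l
  by_cases hk : l = k
  · subst hk
    unfold trG
    have h1 : ¬ kap (updL ω l x).2.1 l < s := by
      simp only [kap, updL, Function.update_self, not_lt]; exact hx
    have h2 : ¬ kap (updL ω l x').2.1 l < s := by
      simp only [kap, updL, Function.update_self, not_lt]; exact hx'
    rw [if_neg h1, if_neg h2]
  · unfold trG
    have e1 : kap (updL ω k x).2.1 l = kap (updL ω k x').2.1 l := by
      simp only [kap, updL, Function.update_of_ne hk]
    have e2 : (updL ω k x).2.1 l = (updL ω k x').2.1 l := by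
      simp only [updL, Function.update_of_ne hk]
    have e3 : obs (updL ω k x) l = obs (updL ω k x') l := by
      simp only [obs, updL, Function.update_of_ne hk]
    by_cases h1 : kap (updL ω k x).2.1 l < s
    · rw [if_pos h1, if_pos (e1 ▸ h1)]
      have e4 : inn G θ (updL ω k x) l = inn G θ (updL ω k x') l := by
        unfold inn mt
        rw [e2, e3, e1, yt_updL (h1.le.trans hx |> fun h => e1 ▸ h) (e1 ▸ h1.le.trans hx')]
      rw [e2, e4]
    · rw [if_neg h1, if_neg (e1 ▸ h1)]

end Vale.Agent.P161C
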