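import Vale.Agent.P161C.DynA

/-!
# DYN, part B: orthogonality of innovation terms
-/

namespace Vale.Agent.P161C

open MeasureTheory Vale.Agent.P161 Filter Topology

universe u

variable {V : Type u} {G : SimpleGraph V} {θ : ℝ} {d : ℕ}

lemma measurable_tanhDy : Measurable Real.tanh := by
  have : Real.tanh = fun x => Real.sinh x / Real.cosh x := by
    funext x; exact Real.tanh_eq_sinh_div_cosh x
  rw [this]
  exact Real.continuous_sinh.measurable.div Real.continuous_cosh.measurable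

lemma Crit.lt_oneDy (h : Crit G d θ) : θ < 1 := by
  have h1 : (3 : ℝ) ≤ d := by exact_mod_cast h.hd
  have h2 := h.crit
  have h3 := h.pos
  by_contra h4
  push Not at h4
  nlinarith

lemma measurable_cov {α : Type*} {mα : MeasurableSpace α} {L : α → V → V → ℝ}
    (hL : ∀ u p, Measurable fun a => L a u p) (v w : V) :
    Measurable fun a => cov G θ (L a) v w := by
  have ht : ∀ u p, Measurable fun a => Real.tanh (L a u p) := fun u p =>
    measurable_tanhDy.comp (hL u p)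
  have hb : ∀ u, Measurable fun a => bet (L a) u := by
    intro u
    unfold bet
    exact ((ht u u).pow_const 2).const_sub 1 |>.sqrt
  have hg : ∀ u p, Measurable fun a => gg θ (Real.tanh (L a u p) ^ 2) := by
    intro u p
    unfold gg tt
    have h1 := (ht u p).pow_const 2
    exact ((((h1.const_sub 1).div ((h1.const_mul (θ ^ 2)).const_sub 1)).log).neg).div_const 2
  have hS : Measurable fun a => SS G θ (L a) v w := by
    unfold SS ell
    exact Finset.measurable_sum _ fun i _ => (hg _ _).add (hg _ _)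
  unfold cov
  exact (((hb v).mul (hb w)).mul_const _).mul (hS.neg.exp)

lemma tanh_sq_ltDy (x : ℝ) : Real.tanh x ^ 2 < 1 := by
  have h1 := Real.abs_tanh_lt_one x
  have h2 := abs_nonneg (Real.tanh x)
  rw [← sq_abs]
  nlinarith

lemma abs_cov_le (h : Crit G d θ) (L : V → V → ℝ) (v w : V) : |cov G θ L v w| ≤ 1 := by
  have hθ0 := h.pos
  have hθ1 := h.lt_oneDy
  have hb : ∀ u, 0 ≤ bet L u ∧ bet L u ≤ 1 := by
    intro u
    unfold bet
    refine ⟨Real.sqrt_nonneg _, ?_⟩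
    rw [Real.sqrt_le_iff]
    exact ⟨zero_le_one, by nlinarith [sq_nonneg (Real.tanh (L u u))]⟩
  have hg : ∀ u p, 0 ≤ gg θ (Real.tanh (L u p) ^ 2) := by
    intro u p
    unfold gg tt
    have h1 := tanh_sq_ltDy (L u p)
    have h2 := sq_nonneg (Real.tanh (L u p))
    set z := Real.tanh (L u p) ^ 2
    have h3 : θ ^ 2 < 1 := by nlinarith
    have h4 : 0 < 1 - θ ^ 2 * z := by nlinarith
    have h5 : (1 - z) / (1 - θ ^ 2 * z) ≤ 1 := by
      rw [div_le_one h4]; nlinarith
    have h6 : 0 ≤ (1 - z) / (1 - θ ^ 2 * z) := div_nonneg (by linarith) h4.le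
    have := Real.log_nonpos h6 h5
    linarith
  have hS : 0 ≤ SS G θ L v w := by
    unfold SS ell
    exact Finset.sum_nonneg fun i _ => add_nonneg (hg _ _) (hg _ _)
  have he : Real.exp (-SS G θ L v w) ≤ 1 := by
    rw [Real.exp_le_one_iff]; linarith
  have hp : θ ^ G.dist v w ≤ 1 := pow_le_one₀ hθ0.le hθ1.le
  have hp0 : 0 ≤ θ ^ G.dist v w := pow_nonneg hθ0.le _
  unfold cov
  have e0 := (Real.exp_pos (-SS G θ L v w)).le
  rw [abs_of_nonneg (by have := (hb v).1; have := (hb w).1; positivity)]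
  calc bet L v * bet L w * θ ^ G.dist v w * Real.exp (-SS G θ L v w)
      ≤ 1 * 1 * 1 * 1 := by
        gcongr
        · exact (hb w).1
        · exact (hb v).2
        · exact (hb w).2
    _ = 1 := by norm_num

/-- an innovation term of the event `k` -/
structure Inno (G : SimpleGraph V) (θ : ℝ) (μ : Measure (V → Bool)) (k : V × ℕ)
    (X : Om V → ℝ) : Prop where
  meas : Measurable X
  bdd : ∃ B, ∀ ω, |X ω| ≤ B
  past : ∀ ω ω' : Om V, ω.2.1 = ω'.2.1 →
    (∀ k', kap ω.2.1 k' ≤ kap ω.2.1 k → obs ω k' = obs ω' k') → X ω = X ω'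
  repr : ∃ H : Om V → I01 → ℝ, Measurable (Function.uncurry H) ∧ (∃ B, ∀ ω x, |H ω x| ≤ B) ∧
    PastDep k H ∧ (∀ ω, ∫ x, H ω x = 0) ∧ ∀ᵐ ω ∂(PP μ), X ω = H ω (inn G θ ω k)

/-- the second statement of `S_JUMP` -/
def J2 (G : SimpleGraph V) (θ : ℝ) (μ : Measure (V → Bool)) : Prop :=
  ∀ (k : V × ℕ) (H : Om V → I01 → ℝ) (B : ℝ), Measurable (Function.uncurry H) →
      (∀ ω x, |H ω x| ≤ B) → PastDep k H →
      ∫ ω, H ω (inn G θ ω k) ∂(PP μ) = ∫ ω, (∫ x, H ω x) ∂(PP μ)

lemma orth1 {μ : Measure (V → Bool)} [IsProbabilityMeasure μ] (hJ : J2 G θ μ) {k k' : V × ℕ}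
    {X X' : Om V → ℝ} (hX : Inno G θ μ k X) (hX' : Inno G θ μ k' X') :
    ∫ ω, i1 (kap ω.2.1 k < kap ω.2.1 k') * (X ω * X' ω) ∂(PP μ) = 0 := by
  obtain ⟨B, hB⟩ := hX.bdd
  obtain ⟨H, hHm, ⟨B', hB'⟩, hHp, hH0, hHa⟩ := hX'.repr
  set H' : Om V → I01 → ℝ := fun ω x => i1 (kap ω.2.1 k < kap ω.2.1 k') * X ω * H ω x with hH'
  have hm1 : Measurable fun ω : Om V => i1 (kap ω.2.1 k < kap ω.2.1 k') :=
    measurable_i1 (measurableSet_lt (measurable_kap k) (measurable_kap k'))
  have hm : Measurable (Function.uncurry H') := by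
    have e : Function.uncurry H' = fun p : Om V × I01 =>
        i1 (kap p.1.2.1 k < kap p.1.2.1 k') * X p.1 * Function.uncurry H p := rfl
    rw [e]
    exact ((hm1.comp measurable_fst).mul (hX.meas.comp measurable_fst)).mul hHm
  have hB0 : ∀ ω, 0 ≤ B := fun ω => (abs_nonneg _).trans (hB ω)
  have hb : ∀ ω x, |H' ω x| ≤ 1 * B * B' := by
    intro ω x
    simp only [hH']
    rw [abs_mul, abs_mul]
    have h0 := hB0 ω
    exact mul_le_mul (mul_le_mul (abs_i1_le _) (hB ω) (abs_nonneg _) zero_le_one) (hB' ω x)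
      (abs_nonneg _) (by simpa using h0)
  have hp : PastDep k' H' := by
    intro ω ω' hU ho
    funext x
    simp only [hH']
    rw [hHp ω ω' hU ho, ← hU]
    by_cases hlt : kap ω.2.1 k < kap ω.2.1 k'
    · rw [hX.past ω ω' hU (fun l hl => ho l (hl.trans_lt hlt))]
    · rw [i1_false hlt]; ring
  have h1 := hJ k' H' _ hm hb hp
  have h2 : ∀ ω : Om V, ∫ x, H' ω x = 0 := by
    intro ω
    simp only [hH']
    rw [integral_const_mul, hH0, mul_zero]
  rw [show (∫ ω, (∫ x, H' ω x) ∂(PP μ)) = 0 by simp [h2]] at h1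
  rw [← h1]
  refine integral_congr_ae ?_
  filter_upwards [hHa] with ω hω
  simp only [hH']
  rw [hω]; ring

lemma ae_kap_ne {μ : Measure (V → Bool)} [IsProbabilityMeasure μ] {k k' : V × ℕ} (h : k ≠ k') :
    ∀ᵐ ω ∂(PP μ), kap ω.2.1 k ≠ kap ω.2.1 k' := by
  classical
  have hm : Measurable fun ω : Om V => i1 (kap ω.2.1 k = kap ω.2.1 k') :=
    measurable_i1 (measurableSet_eq_fun (measurable_kap k) (measurable_kap k'))
  have h1 := integral_updL μ k _ hm (B := 1) (fun ω => abs_i1_le _)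
  have h2 : ∀ ω : Om V, ∫ x : I01, i1 (kap (updL ω k x).2.1 k = kap (updL ω k x).2.1 k') = 0 := by
    intro ω
    have e : ∀ x : I01, i1 (kap (updL ω k x).2.1 k = kap (updL ω k x).2.1 k')
        = i1 (k.2 + (x : ℝ) = kap ω.2.1 k') := by
      intro x
      refine i1_congr ?_
      simp only [kap, updL, Function.update_self, Function.update_of_ne h.symm]
    simp only [e]
    have hae : ∀ᵐ x : I01, i1 (k.2 + (x : ℝ) = kap ω.2.1 k') = 0 := by
      have hs : Set.Subsingleton {x : I01 | k.2 + (x : ℝ) = kap ω.2.1 k'} := by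
        intro x hx y hy
        have hx' : k.2 + (x : ℝ) = kap ω.2.1 k' := hx
        have hy' : k.2 + (y : ℝ) = kap ω.2.1 k' := hy
        apply Subtype.ext
        linarith
      have hn : (volume : Measure I01) {x : I01 | k.2 + (x : ℝ) = kap ω.2.1 k'} = 0 :=
        hs.measure_zero _
      have hn' : ∀ᵐ x : I01, ¬ (k.2 + (x : ℝ) = kap ω.2.1 k') := by
        rw [ae_iff]
        simpa using hn
      filter_upwards [hn'] with x hx
      exact i1_false hx
    rw [integral_congr_ae hae]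
    simp
  rw [show (∫ ω, (∫ x : I01, i1 (kap (updL ω k x).2.1 k = kap (updL ω k x).2.1 k')) ∂(PP μ)) = 0 by
    simp [h2]] at h1
  rw [integral_eq_zero_iff_of_nonneg (fun ω => i1_nonneg _)
    (integrable_bdd hm fun ω => abs_i1_le _)] at h1
  filter_upwards [h1] with ω hω heq
  rw [i1_true heq] at hω
  simp at hω

lemma orth {μ : Measure (V → Bool)} [IsProbabilityMeasure μ] (hJ : J2 G θ μ) {k k' : V × ℕ}
    (hne : k ≠ k') {X X' : Om V → ℝ} (hX : Inno G θ μ k X) (hX' : Inno G θ μ k' X') :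
    ∫ ω, X ω * X' ω ∂(PP μ) = 0 := by
  have h1 := orth1 hJ hX hX'
  have h2 := orth1 hJ hX' hX
  obtain ⟨B, hB⟩ := hX.bdd
  obtain ⟨B', hB'⟩ := hX'.bdd
  have hB0 : ∀ ω, 0 ≤ B := fun ω => (abs_nonneg _).trans (hB ω)
  have hm1 : Measurable fun ω : Om V => i1 (kap ω.2.1 k < kap ω.2.1 k') :=
    measurable_i1 (measurableSet_lt (measurable_kap k) (measurable_kap k'))
  have hm2 : Measurable fun ω : Om V => i1 (kap ω.2.1 k' < kap ω.2.1 k) :=
    measurable_i1 (measurableSet_lt (measurable_kap k') (measurable_kap k))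
  have i1' : Integrable (fun ω => i1 (kap ω.2.1 k < kap ω.2.1 k') * (X ω * X' ω)) (PP μ) := by
    refine integrable_bdd (hm1.mul (hX.meas.mul hX'.meas)) (B := 1 * (B * B')) fun ω => ?_
    rw [abs_mul, abs_mul]
    exact mul_le_mul (abs_i1_le _) (mul_le_mul (hB ω) (hB' ω) (abs_nonneg _) (hB0 ω))
      (by positivity) zero_le_one
  have i2' : Integrable (fun ω => i1 (kap ω.2.1 k' < kap ω.2.1 k) * (X' ω * X ω)) (PP μ) := by
    refine integrable_bdd (hm2.mul (hX'.meas.mul hX.meas)) (B := 1 * (B' * B)) fun ω => ?_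
    have h0 : 0 ≤ B' := (abs_nonneg _).trans (hB' ω)
    rw [abs_mul, abs_mul]
    exact mul_le_mul (abs_i1_le _) (mul_le_mul (hB' ω) (hB ω) (abs_nonneg _) h0)
      (by positivity) zero_le_one
  have e : ∫ ω, X ω * X' ω ∂(PP μ)
      = ∫ ω, i1 (kap ω.2.1 k < kap ω.2.1 k') * (X ω * X' ω) ∂(PP μ)
        + ∫ ω, i1 (kap ω.2.1 k' < kap ω.2.1 k) * (X' ω * X ω) ∂(PP μ) := by
    rw [← integral_add i1' i2']
    refine integral_congr_ae ?_
    filter_upwards [ae_kap_ne (μ := μ) hne] with ω hω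
    rcases lt_or_gt_of_ne hω with h | h
    · rw [i1_true h, i1_false (not_lt.2 h.le)]; ring
    · rw [i1_true (p := kap ω.2.1 k' < kap ω.2.1 k) h, i1_false (not_lt.2 (le_of_lt h))]; ring
  rw [e, h1, h2, add_zero]

/-- Pythagoras -/
lemma orth_sum {μ : Measure (V → Bool)} [IsProbabilityMeasure μ] (hJ : J2 G θ μ)
    (S : Finset (V × ℕ)) (X : V × ℕ → Om V → ℝ) (hX : ∀ k, Inno G θ μ k (X k)) :
    ∫ ω, (∑ k ∈ S, X k ω) ^ 2 ∂(PP μ) = ∑ k ∈ S, ∫ ω, X k ω ^ 2 ∂(PP μ) := by
  classical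
  have hi : ∀ k l, Integrable (fun ω => X k ω * X l ω) (PP μ) := by
    intro k l
    obtain ⟨B, hB⟩ := (hX k).bdd
    obtain ⟨B', hB'⟩ := (hX l).bdd
    refine integrable_bdd ((hX k).meas.mul (hX l).meas) (B := B * B') fun ω => ?_
    rw [abs_mul]
    exact mul_le_mul (hB ω) (hB' ω) (abs_nonneg _) ((abs_nonneg _).trans (hB ω))
  have e : ∀ ω, (∑ k ∈ S, X k ω) ^ 2 = ∑ k ∈ S, ∑ l ∈ S, X k ω * X l ω := by
    intro ω
    rw [pow_two, Finset.sum_mul_sum]
  simp only [e]
  rw [integral_finsetSum _ fun k _ => integrable_finsetSum _ fun l _ => hi k l]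
  refine Finset.sum_congr rfl fun k hk => ?_
  rw [integral_finsetSum _ fun l _ => hi k l, Finset.sum_eq_single k]
  · congr 1; funext ω; ring
  · intro l _ hl
    exact orth hJ (Ne.symm hl) (hX k) (hX l)
  · intro h; exact absurd hk h

end Vale.Agent.P161C
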