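import Vale.Agent.P161C.DynB

/-!
# DYN, part C: the innovation terms
-/

namespace Vale.Agent.P161C

open MeasureTheory Vale.Agent.P161 Filter Topology

universe u

variable {V : Type u} {G : SimpleGraph V} {θ : ℝ} {d : ℕ}

lemma Inno.sub {μ : Measure (V → Bool)} {k : V × ℕ} {X Y : Om V → ℝ} (hX : Inno G θ μ k X)
    (hY : Inno G θ μ k Y) : Inno G θ μ k (fun ω => X ω - Y ω) where
  meas := hX.meas.sub hY.meas
  bdd := by
    obtain ⟨B, hB⟩ := hX.bdd
    obtain ⟨B', hB'⟩ := hY.bdd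
    exact ⟨B + B', fun ω => (abs_sub _ _).trans (add_le_add (hB ω) (hB' ω))⟩
  past := fun ω ω' hU h => by rw [hX.past ω ω' hU h, hY.past ω ω' hU h]
  repr := by
    obtain ⟨H, hm, ⟨B, hB⟩, hp, h0, ha⟩ := hX.repr
    obtain ⟨H', hm', ⟨B', hB'⟩, hp', h0', ha'⟩ := hY.repr
    refine ⟨fun ω x => H ω x - H' ω x, hm.sub hm',
      ⟨B + B', fun ω x => (abs_sub _ _).trans (add_le_add (hB ω x) (hB' ω x))⟩, ?_, ?_, ?_⟩
    · intro ω ω' hU h
      funext x
      show H ω x - H' ω x = H ω' x - H' ω' x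
      rw [hp ω ω' hU h, hp' ω ω' hU h]
    · intro ω
      have i1 : Integrable (fun x => H ω x) (volume : Measure I01) :=
        integrable_bdd (hm.comp (measurable_const.prodMk measurable_id)) (B := B) fun x => hB ω x
      have i2 : Integrable (fun x => H' ω x) (volume : Measure I01) :=
        integrable_bdd (hm'.comp (measurable_const.prodMk measurable_id)) (B := B')
          fun x => hB' ω x
      rw [integral_sub i1 i2, h0, h0', sub_zero]
    · filter_upwards [ha, ha'] with ω h1 h2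
      rw [h1, h2]

lemma Inno.sum {μ : Measure (V → Bool)} {k : V × ℕ} (S : Finset ℕ) {X : ℕ → Om V → ℝ}
    (hX : ∀ i ∈ S, Inno G θ μ k (X i)) : Inno G θ μ k (fun ω => ∑ i ∈ S, X i ω) := by
  classical
  induction S using Finset.induction_on with
  | empty =>
    refine ⟨by simp, ⟨0, fun ω => by simp⟩, fun _ _ _ _ => by simp,
      ⟨fun _ _ => 0, by
        have : Function.uncurry (fun (_ : Om V) (_ : I01) => (0 : ℝ)) = fun _ => 0 := rfl
        rw [this]; exact measurable_const, ⟨0, fun _ _ => by simp⟩, fun _ _ _ _ => rfl,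
        fun _ => by simp, Eventually.of_forall fun _ => by simp⟩⟩
  | insert i S hi ih =>
    have h1 := ih fun j hj => hX j (Finset.mem_insert_of_mem hj)
    have h2 := hX i (Finset.mem_insert_self i S)
    -- X i - (0 - sum)
    have h0 : Inno G θ μ k (fun _ => (0 : ℝ)) :=
      ⟨by simp, ⟨0, fun ω => by simp⟩, fun _ _ _ _ => by simp,
      ⟨fun _ _ => 0, by
        have : Function.uncurry (fun (_ : Om V) (_ : I01) => (0 : ℝ)) = fun _ => 0 := rfl
        rw [this]; exact measurable_const, ⟨0, fun _ _ => by simp⟩, fun _ _ _ _ => rfl,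
        fun _ => by simp, Eventually.of_forall fun _ => by simp⟩⟩
    have h3 := h2.sub (h0.sub h1)
    convert h3 using 2 with ω
    rw [Finset.sum_insert hi]; ring

/-- the first statement of `S_BASE` and so on -/
structure Bas (G : SimpleGraph V) (θ : ℝ) : Prop where
  L : ∀ u p : V, Measurable fun q : ℝ × Om V => Lt G θ q.1 q.2 u p
  inn : ∀ k, Measurable fun ω : Om V => inn G θ ω k
  J : ∀ (v : V) (k : V × ℕ), Measurable fun ω : Om V => Jm G θ ω v k

lemma mt_eq (s : ℝ) (ω : Om V) (v : V) : mt G θ s ω v = Real.tanh (Lt G θ s ω v v) := rfl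

lemma abs_mt_le (s : ℝ) (ω : Om V) (v : V) : |mt G θ s ω v| ≤ 1 :=
  (Real.abs_tanh_lt_one _).le

lemma measurable_mt (h : Bas G θ) (v : V) :
    Measurable fun q : ℝ × Om V => mt G θ q.1 q.2 v := by
  have e : (fun q : ℝ × Om V => mt G θ q.1 q.2 v) = fun q => Real.tanh (Lt G θ q.1 q.2 v v) := rfl
  rw [e]
  exact measurable_tanhDy.comp (h.L v v)

lemma abs_Jm_le (ω : Om V) (v : V) (k : V × ℕ) : |Jm G θ ω v k| ≤ 2 := by
  unfold Jm
  refine (abs_sub _ _).trans ?_
  have h1 := abs_mt_le (G := G) (θ := θ) (kap ω.2.1 k) ω v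
  have h2 : |Mm G θ (fun w => yt (kap ω.2.1 k) ω w
    + (open Classical in if w = k.1 then at' (ep ω k) else 0)) v v| ≤ 1 :=
    (Real.abs_tanh_lt_one _).le
  linarith

lemma measurable_lab (k : V × ℕ) : Measurable fun ω : Om V => ω.2.1 k :=
  (measurable_pi_apply k).comp (measurable_fst.comp measurable_snd)

lemma abs_phi_le (hP : S_PHI) (t : I01) {m : ℝ} (hm : |m| ≤ 1) (x : I01) :
    |phi (dl t) m x| ≤ 1 := by
  have h1 := hP.1 (dl t) m x (dl_nonnegDy t) (dl_le t) hm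
  have h2 := dl_le t
  linarith

lemma measurable_kap2 (k : V × ℕ) : Measurable fun p : Om V × I01 => (kap p.1.2.1 k, p.1) :=
  ((measurable_kap k).comp measurable_fst).prodMk measurable_fst

lemma measurable_covt (hB : Bas G θ) (v w : V) :
    Measurable fun q : ℝ × Om V => cov G θ (Lt G θ q.1 q.2) v w :=
  measurable_cov (L := fun q : ℝ × Om V => Lt G θ q.1 q.2) (fun u p => hB.L u p) v w

lemma measurable_cov_kap (hB : Bas G θ) (v : V) (k : V × ℕ) :
    Measurable fun p : Om V × I01 => cov G θ (Lt G θ (kap p.1.2.1 k) p.1) v k.1 := by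
  have h := (measurable_covt hB v k.1).comp (measurable_kap2 k)
  have e : (fun p : Om V × I01 => cov G θ (Lt G θ (kap p.1.2.1 k) p.1) v k.1)
      = (fun q : ℝ × Om V => cov G θ (Lt G θ q.1 q.2) v k.1)
        ∘ (fun p : Om V × I01 => (kap p.1.2.1 k, p.1)) := by
    funext p
    rfl
  rw [e]
  exact h

lemma measurable_mt_kap (hB : Bas G θ) (k : V × ℕ) :
    Measurable fun p : Om V × I01 => mt G θ (kap p.1.2.1 k) p.1 k.1 := by
  have h := (measurable_mt hB k.1).comp (measurable_kap2 k)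
  have e : (fun p : Om V × I01 => mt G θ (kap p.1.2.1 k) p.1 k.1)
      = (fun q : ℝ × Om V => mt G θ q.1 q.2 k.1)
        ∘ (fun p : Om V × I01 => (kap p.1.2.1 k, p.1)) := by
    funext p
    rfl
  rw [e]
  exact h

/-- the kernel of a jump -/
noncomputable def JH (G : SimpleGraph V) (θ : ℝ) (v : V) (k : V × ℕ) (t : ℝ) (ω : Om V)
    (x : I01) : ℝ :=
  i1 (kap ω.2.1 k < t) * (cov G θ (Lt G θ (kap ω.2.1 k) ω) v k.1
        * phi (dl (ω.2.1 k)) (mt G θ (kap ω.2.1 k) ω k.1) x)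

lemma measurable_JH (hP : S_PHI) (hB : Bas G θ) (v : V) (k : V × ℕ) (t : ℝ) :
    Measurable (Function.uncurry (JH G θ v k t)) := by
  have hm1 : Measurable fun ω : Om V => i1 (kap ω.2.1 k < t) :=
    measurable_i1 (measurableSet_lt (measurable_kap k) measurable_const)
  have hdl : Measurable fun p : Om V × I01 => dl (p.1.2.1 k) :=
    measurable_dl.comp ((measurable_lab k).comp measurable_fst)
  have hph : Measurable fun p : Om V × I01 =>
      phi (dl (p.1.2.1 k)) (mt G θ (kap p.1.2.1 k) p.1 k.1) p.2 :=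
    hP.2.2.2.comp (hdl.prodMk ((measurable_mt_kap hB k).prodMk measurable_snd))
  exact (hm1.comp measurable_fst).mul ((measurable_cov_kap hB v k).mul hph)

lemma abs_JH_le (hc : Crit G d θ) (hP : S_PHI) (v : V) (k : V × ℕ) (t : ℝ) (ω : Om V) (x : I01) :
    |JH G θ v k t ω x| ≤ 1 * (1 * 1) := by
  unfold JH
  rw [abs_mul, abs_mul]
  exact mul_le_mul (abs_i1_le _)
    (mul_le_mul (abs_cov_le hc _ _ _) (abs_phi_le hP _ (abs_mt_le _ _ _) _) (abs_nonneg _)
      zero_le_one) (by positivity) zero_le_one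

lemma past_JH (v : V) (k : V × ℕ) (t : ℝ) : PastDep k (JH G θ v k t) := by
  intro ω ω' hU h
  have h1 : yt (kap ω.2.1 k) ω = yt (kap ω.2.1 k) ω' := yt_congr hU h
  have h2 : Lt G θ (kap ω.2.1 k) ω = Lt G θ (kap ω.2.1 k) ω' := by unfold Lt; rw [h1]
  have h3 : mt G θ (kap ω.2.1 k) ω k.1 = mt G θ (kap ω.2.1 k) ω' k.1 := by unfold mt; rw [h1]
  funext x
  unfold JH
  rw [h2, h3, hU]

lemma int_JH (hP : S_PHI) (v : V) (k : V × ℕ) (t : ℝ) (ω : Om V) :
    ∫ x, JH G θ v k t ω x = 0 := by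
  unfold JH
  rw [integral_const_mul, integral_const_mul,
    hP.2.2.1 _ _ (dl_nonnegDy _) (dl_le _) (abs_mt_le _ _ _), mul_zero, mul_zero]

lemma past_Jm {ω ω' : Om V} {v : V} {k : V × ℕ} (hU : ω.2.1 = ω'.2.1)
    (h : ∀ k', kap ω.2.1 k' ≤ kap ω.2.1 k → obs ω k' = obs ω' k') :
    Jm G θ ω v k = Jm G θ ω' v k := by
  have h1 : yt (kap ω.2.1 k) ω = yt (kap ω.2.1 k) ω' :=
    yt_congr hU fun k' hk' => h k' hk'.le
  have h2 : ep ω k = ep ω' k := ep_congr hU (h k le_rfl)
  have h3 : mt G θ (kap ω.2.1 k) ω v = mt G θ (kap ω.2.1 k) ω' v := by unfold mt; rw [h1]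
  unfold Jm
  rw [h2, h3, h1, hU]

/-- the jump, before time `t` -/
lemma inno_jump (hc : Crit G d θ) (hP : S_PHI) (hB : Bas G θ) {μ : Measure (V → Bool)}
    (v : V) (k : V × ℕ)
    (hJ1 : ∀ᵐ ω ∂(PP μ), Jm G θ ω v k
      = cov G θ (Lt G θ (kap ω.2.1 k) ω) v k.1
        * phi (dl (ω.2.1 k)) (mt G θ (kap ω.2.1 k) ω k.1) (inn G θ ω k)) (t : ℝ) :
    Inno G θ μ k (fun ω => i1 (kap ω.2.1 k < t) * Jm G θ ω v k) where
  meas := (measurable_i1 (measurableSet_lt (measurable_kap k) measurable_const)).mul (hB.J v k)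
  bdd := ⟨1 * 2, fun ω => by
    rw [abs_mul]
    exact mul_le_mul (abs_i1_le _) (abs_Jm_le _ _ _) (abs_nonneg _) zero_le_one⟩
  past := fun ω ω' hU h => by rw [past_Jm hU h, hU]
  repr := ⟨JH G θ v k t, measurable_JH hP hB v k t, ⟨1 * (1 * 1), abs_JH_le hc hP v k t⟩,
    past_JH v k t, int_JH hP v k t, by
      filter_upwards [hJ1] with ω hω
      unfold JH
      rw [hω]⟩

/-- is the event `k` in the window `[i/K, (i+1)/K)`? -/
def win (K i : ℕ) (k : V × ℕ) (ω : Om V) : Prop :=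
  (i : ℝ) / K ≤ kap ω.2.1 k ∧ kap ω.2.1 k < ((i : ℝ) + 1) / K

lemma measurable_win (K i : ℕ) (k : V × ℕ) : Measurable fun ω : Om V => i1 (win K i k ω) :=
  measurable_i1 ((measurableSet_le measurable_const (measurable_kap k)).inter
    (measurableSet_lt (measurable_kap k) measurable_const))

/-- one term of the approximating sum -/
noncomputable def term (G : SimpleGraph V) (θ : ℝ) (K : ℕ) (A M : Om V → ℝ) (i : ℕ)
    (k : V × ℕ) (ω : Om V) : ℝ :=
  i1 (win K i k ω) * (A ω * phi (dl (ω.2.1 k)) (M ω) (inn G θ ω k))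

lemma inno_term (hP : S_PHI) (hB : Bas G θ) {μ : Measure (V → Bool)}
    (K i : ℕ) (k : V × ℕ) {A M : Om V → ℝ} (hle : GG G θ ((i : ℝ) / K) ≤
      (inferInstance : MeasurableSpace (Om V)))
    (hA : Measurable[GG G θ ((i : ℝ) / K)] A)
    (hM : Measurable[GG G θ ((i : ℝ) / K)] M) (hA1 : ∀ ω, |A ω| ≤ 1) (hM1 : ∀ ω, |M ω| ≤ 1) :
    Inno G θ μ k (term G θ K A M i k) := by
  have hA' : Measurable A := hA.mono hle le_rfl
  have hM' : Measurable M := hM.mono hle le_rfl
  have hm1 := measurable_win (V := V) K i k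
  have hdl : Measurable fun p : Om V × I01 => dl (p.1.2.1 k) :=
    measurable_dl.comp ((measurable_lab k).comp measurable_fst)
  have hph : Measurable fun p : Om V × I01 => phi (dl (p.1.2.1 k)) (M p.1) p.2 :=
    hP.2.2.2.comp (hdl.prodMk ((hM'.comp measurable_fst).prodMk measurable_snd))
  refine ⟨?_, ⟨1 * (1 * 1), fun ω => ?_⟩, ?_,
    ⟨fun ω x => i1 (win K i k ω) * (A ω * phi (dl (ω.2.1 k)) (M ω) x),
      ?_, ⟨1 * (1 * 1), ?_⟩, ?_, ?_, Eventually.of_forall fun ω => rfl⟩⟩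
  · exact hm1.mul (hA'.mul (hph.comp (measurable_id.prodMk (hB.inn k))))
  · unfold term
    rw [abs_mul, abs_mul]
    exact mul_le_mul (abs_i1_le _)
      (mul_le_mul (hA1 ω) (abs_phi_le hP _ (hM1 ω) _) (abs_nonneg _)
        zero_le_one) (by positivity) zero_le_one
  · intro ω ω' hU h
    unfold term
    have hw : win K i k ω ↔ win K i k ω' := by unfold win; rw [hU]
    by_cases hwi : win K i k ω
    · have h1 : trG G θ ((i : ℝ) / K) ω = trG G θ ((i : ℝ) / K) ω' :=
        trG_congr hU fun k' hk' => h k' (hk'.le.trans hwi.1)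
      rw [eq_of_trG hA h1, eq_of_trG hM h1, i1_congr hw, hU,
        inn_congr hU (fun k' hk' => h k' hk'.le) (h k le_rfl)]
    · rw [i1_false hwi, i1_false (fun h' => hwi (hw.2 h'))]; ring
  · exact (hm1.comp measurable_fst).mul ((hA'.comp measurable_fst).mul hph)
  · intro ω x
    rw [abs_mul, abs_mul]
    exact mul_le_mul (abs_i1_le _)
      (mul_le_mul (hA1 ω) (abs_phi_le hP _ (hM1 ω) _) (abs_nonneg _)
        zero_le_one) (by positivity) zero_le_one
  · intro ω ω' hU h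
    funext x
    show i1 (win K i k ω) * (A ω * phi (dl (ω.2.1 k)) (M ω) x)
      = i1 (win K i k ω') * (A ω' * phi (dl (ω'.2.1 k)) (M ω') x)
    have hw : win K i k ω ↔ win K i k ω' := by unfold win; rw [hU]
    by_cases hwi : win K i k ω
    · have h1 : trG G θ ((i : ℝ) / K) ω = trG G θ ((i : ℝ) / K) ω' :=
        trG_congr hU fun k' hk' => h k' (hk'.trans_le hwi.1)
      rw [eq_of_trG hA h1, eq_of_trG hM h1, i1_congr hw, hU]
    · rw [i1_false hwi, i1_false (fun h' => hwi (hw.2 h'))]; ring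
  · intro ω
    show ∫ x, i1 (win K i k ω) * (A ω * phi (dl (ω.2.1 k)) (M ω) x) = 0
    rw [integral_const_mul, integral_const_mul,
      hP.2.2.1 _ _ (dl_nonnegDy _) (dl_le _) (hM1 ω), mul_zero, mul_zero]

/-- the term is known at a later time -/
lemma measurable_term (hP : S_PHI) (K i : ℕ) (hK : 0 < K) (k : V × ℕ) {A M : Om V → ℝ}
    (hA : Measurable[GG G θ ((i : ℝ) / K)] A)
    (hM : Measurable[GG G θ ((i : ℝ) / K)] M) {t : ℝ} (ht : ((i : ℝ) + 1) / K ≤ t) :
    Measurable[GG G θ t] (term G θ K A M i k) := by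
  have hK' : (0 : ℝ) < K := by exact_mod_cast hK
  have hit : (i : ℝ) / K ≤ t := by
    refine le_trans ?_ ht
    gcongr; linarith
  have hA' : Measurable[GG G θ t] A := hA.mono (GG_mono hit) le_rfl
  have hM' : Measurable[GG G θ t] M := hM.mono (GG_mono hit) le_rfl
  have hT : Measurable[GG G θ t] fun ω : Om V => trG G θ t ω k := by
    have h1 : Measurable[GG G θ t] (trG G θ t) := comap_measurable _
    exact (measurable_pi_apply k).comp h1
  -- the function of the trace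
  let F : (ℝ × ℝ) × (ℝ × ℝ) → ℝ := fun q =>
    i1 (q.1.1 ≤ 1 ∧ (i : ℝ) / K ≤ k.2 + q.1.1 ∧ k.2 + q.1.1 < ((i : ℝ) + 1) / K)
      * (q.2.1 * phi (√(q.1.1 * (1 - q.1.1))) q.2.2 (Set.projIcc 0 1 zero_le_one q.1.2))
  have hF : Measurable F := by
    have hset : MeasurableSet {q : (ℝ × ℝ) × (ℝ × ℝ) |
        q.1.1 ≤ 1 ∧ (i : ℝ) / K ≤ k.2 + q.1.1 ∧ k.2 + q.1.1 < ((i : ℝ) + 1) / K} := by
      have h1 : Measurable fun q : (ℝ × ℝ) × (ℝ × ℝ) => q.1.1 := by fun_prop
      exact (measurableSet_le h1 measurable_const).inter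
        ((measurableSet_le measurable_const (h1.const_add _)).inter
          (measurableSet_lt (h1.const_add _) measurable_const))
    have h2 : Measurable fun q : (ℝ × ℝ) × (ℝ × ℝ) =>
        phi (√(q.1.1 * (1 - q.1.1))) q.2.2 (Set.projIcc 0 1 zero_le_one q.1.2) := by
      have h3 : Measurable fun q : (ℝ × ℝ) × (ℝ × ℝ) => √(q.1.1 * (1 - q.1.1)) := by fun_prop
      have h4 : Measurable fun q : (ℝ × ℝ) × (ℝ × ℝ) => q.2.2 := by fun_prop
      have h5 : Measurable fun q : (ℝ × ℝ) × (ℝ × ℝ) =>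
          (Set.projIcc 0 1 zero_le_one q.1.2 : I01) :=
        continuous_projIcc.measurable.comp (by fun_prop)
      exact hP.2.2.2.comp (h3.prodMk (h4.prodMk h5))
    have h6 : Measurable fun q : (ℝ × ℝ) × (ℝ × ℝ) => q.2.1 := by fun_prop
    exact (measurable_i1 hset).mul (h6.mul h2)
  have e : term G θ K A M i k = fun ω => F (trG G θ t ω k, (A ω, M ω)) := by
    funext ω
    unfold term
    simp only [F]
    by_cases hw : win K i k ω
    · have hk : kap ω.2.1 k < t := hw.2.trans_le ht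
      have h1 : trG G θ t ω k = ((ω.2.1 k : ℝ), (inn G θ ω k : ℝ)) := by
        unfold trG; rw [if_pos hk]
      have h2 : ((ω.2.1 k : ℝ) ≤ 1 ∧ (i : ℝ) / K ≤ k.2 + (ω.2.1 k : ℝ) ∧
          k.2 + (ω.2.1 k : ℝ) < ((i : ℝ) + 1) / K) := ⟨(ω.2.1 k).2.2, hw.1, hw.2⟩
      rw [h1, i1_true hw, i1_true h2]
      simp only
      rw [Set.projIcc_val]
      rfl
    · rw [i1_false hw]
      have h2 : ¬ ((trG G θ t ω k).1 ≤ 1 ∧ (i : ℝ) / K ≤ k.2 + (trG G θ t ω k).1 ∧
          k.2 + (trG G θ t ω k).1 < ((i : ℝ) + 1) / K) := by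
        unfold trG
        by_cases hk : kap ω.2.1 k < t
        · rw [if_pos hk]
          rintro ⟨-, h3⟩
          exact hw h3
        · rw [if_neg hk]
          rintro ⟨h3, -⟩
          norm_num at h3
      rw [i1_false h2]; ring
  rw [e]
  exact hF.comp (hT.prodMk (hA'.prodMk hM'))

end Vale.Agent.P161C
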