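import Vale.Agent.P161C.DynC

/-!
# DYN, part D: the density of a label, given that the event is still to come
-/

namespace Vale.Agent.P161C

open MeasureTheory Vale.Agent.P161 Filter Topology

universe u

variable {V : Type u} {G : SimpleGraph V} {θ : ℝ} {d : ℕ}

lemma integral_i1 {α : Type*} {mα : MeasurableSpace α} {P : Measure α} {p : α → Prop}
    (hp : MeasurableSet {a | p a}) : ∫ a, i1 (p a) ∂P = P.real {a | p a} := by
  classical
  have e : (fun a => i1 (p a)) = Set.indicator {a | p a} (1 : α → ℝ) := by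
    funext a
    by_cases h : p a
    · rw [i1_true h, Set.indicator_of_mem (show a ∈ {a | p a} from h)]; rfl
    · rw [i1_false h, Set.indicator_of_notMem (show a ∉ {a | p a} from h)]
  rw [e, integral_indicator_one hp]

lemma vol_I01 {A : Set ℝ} (hA : MeasurableSet A) :
    (volume : Measure I01) (Subtype.val ⁻¹' A) = volume (A ∩ Set.Icc 0 1) := by
  have h := unitInterval.measurePreserving_coe.measure_preimage hA.nullMeasurableSet
  rw [h, Measure.restrict_apply hA]

lemma int_ge {r : ℝ} (h0 : 0 ≤ r) (h1 : r ≤ 1) : ∫ x : I01, i1 (r ≤ (x : ℝ)) = 1 - r := by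
  rw [integral_i1 (measurableSet_le measurable_const measurable_subtype_coe)]
  have h := vol_I01 (A := Set.Ici r) measurableSet_Ici
  have e : (Subtype.val ⁻¹' Set.Ici r : Set I01) = {x : I01 | r ≤ (x : ℝ)} := rfl
  have e2 : Set.Ici r ∩ Set.Icc (0 : ℝ) 1 = Set.Icc r 1 := by
    ext x
    simp only [Set.mem_inter_iff, Set.mem_Ici, Set.mem_Icc]
    constructor
    · rintro ⟨a, b, c⟩; exact ⟨a, c⟩
    · rintro ⟨a, b⟩; exact ⟨a, h0.trans a, b⟩
  rw [e, e2, Real.volume_Icc] at h
  unfold Measure.real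
  rw [h, ENNReal.toReal_ofReal (by linarith)]

lemma int_win_le {r δ : ℝ} (hδ : 0 ≤ δ) :
    ∫ x : I01, i1 (r ≤ (x : ℝ) ∧ (x : ℝ) < r + δ) ≤ δ := by
  have hm : MeasurableSet {x : I01 | r ≤ (x : ℝ) ∧ (x : ℝ) < r + δ} :=
    (measurableSet_le measurable_const measurable_subtype_coe).inter
      (measurableSet_lt measurable_subtype_coe measurable_const)
  rw [integral_i1 hm]
  have h := vol_I01 (A := Set.Ico r (r + δ)) measurableSet_Ico
  have e : (Subtype.val ⁻¹' Set.Ico r (r + δ) : Set I01)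
      = {x : I01 | r ≤ (x : ℝ) ∧ (x : ℝ) < r + δ} := rfl
  rw [e] at h
  unfold Measure.real
  rw [h]
  have h2 : volume (Set.Ico r (r + δ) ∩ Set.Icc 0 1) ≤ ENNReal.ofReal δ := by
    refine (measure_mono Set.inter_subset_left).trans ?_
    rw [Real.volume_Ico]
    apply ENNReal.ofReal_le_ofReal; linarith
  calc (volume (Set.Ico r (r + δ) ∩ Set.Icc 0 1)).toReal ≤ (ENNReal.ofReal δ).toReal :=
        ENNReal.toReal_mono ENNReal.ofReal_ne_top h2
    _ = δ := ENNReal.toReal_ofReal hδ

/-- the density bound for one label -/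
lemma label_bound {K i j : ℕ} (hK : 0 < K) (hi : 0 < i) :
    ∫ x : I01, i1 ((i : ℝ) / K ≤ j + (x : ℝ) ∧ j + (x : ℝ) < ((i : ℝ) + 1) / K)
        * ((x : ℝ) * (1 - x))
      ≤ (if (j : ℝ) ≤ (i : ℝ) / K ∧ (i : ℝ) / K < j + 1 then 2 * min ((i : ℝ) / K) 1 / K else 0)
        * ∫ x : I01, i1 ((i : ℝ) / K ≤ j + (x : ℝ)) := by
  have hK' : (0 : ℝ) < K := by exact_mod_cast hK
  have hK1 : (1 : ℝ) ≤ K := by exact_mod_cast hK
  have hi' : (1 : ℝ) ≤ i := by exact_mod_cast hi
  set s : ℝ := (i : ℝ) / K with hs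
  have hs1 : 1 / (K : ℝ) ≤ s := by rw [hs]; gcongr
  have hs0 : 0 < s := by positivity
  have hsK : ((i : ℝ) + 1) / K = s + 1 / K := by rw [hs]; ring
  have hKi : 1 / (K : ℝ) ≤ 1 := by rw [div_le_one hK']; exact hK1
  have hKp : 0 < 1 / (K : ℝ) := by positivity
  rw [hsK]
  by_cases hj : (j : ℝ) ≤ s ∧ s < j + 1
  · rw [if_pos hj]
    set r := s - j with hr
    have hr0 : 0 ≤ r := by linarith [hj.1]
    have hr1 : r < 1 := by linarith [hj.2]
    have hj0 : (0 : ℝ) ≤ j := Nat.cast_nonneg j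
    have e1 : ∀ x : I01, i1 (s ≤ j + (x : ℝ)) = i1 (r ≤ (x : ℝ)) := fun x =>
      i1_congr ⟨fun h => by linarith, fun h => by linarith⟩
    have e2 : ∀ x : I01, i1 (s ≤ j + (x : ℝ) ∧ j + (x : ℝ) < s + 1 / K)
        = i1 (r ≤ (x : ℝ) ∧ (x : ℝ) < r + 1 / K) := fun x =>
      i1_congr ⟨fun h => ⟨by linarith [h.1], by linarith [h.2]⟩,
        fun h => ⟨by linarith [h.1], by linarith [h.2]⟩⟩
    simp only [e1, e2]
    rw [int_ge hr0 hr1.le]
    have hm : MeasurableSet {x : I01 | r ≤ (x : ℝ) ∧ (x : ℝ) < r + 1 / K} :=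
      (measurableSet_le measurable_const measurable_subtype_coe).inter
        (measurableSet_lt measurable_subtype_coe measurable_const)
    have h1 : ∫ x : I01, i1 (r ≤ (x : ℝ) ∧ (x : ℝ) < r + 1 / K) * ((x : ℝ) * (1 - x))
        ≤ ∫ x : I01, i1 (r ≤ (x : ℝ) ∧ (x : ℝ) < r + 1 / K) * ((r + 1 / K) * (1 - r)) := by
      apply integral_mono
      · refine integrable_bdd ((measurable_i1 hm).mul (by fun_prop)) (B := 1 * 1) fun x => ?_
        rw [abs_mul]
        refine mul_le_mul (abs_i1_le _) ?_ (abs_nonneg _) zero_le_one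
        have h0 := x.2.1
        have h1 := x.2.2
        rw [abs_of_nonneg (mul_nonneg h0 (sub_nonneg.2 h1))]
        nlinarith
      · exact (integrable_bdd (measurable_i1 hm) fun x => abs_i1_le _).mul_const _
      · intro x
        by_cases hx : r ≤ (x : ℝ) ∧ (x : ℝ) < r + 1 / K
        · simp only [i1_true hx, one_mul]
          have h0 := x.2.1
          have h1 := x.2.2
          apply mul_le_mul hx.2.le (by linarith [hx.1]) (by linarith) (by linarith)
        · simp only [i1_false hx, zero_mul]; exact le_rfl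
    rw [integral_mul_const] at h1
    have h2 := int_win_le (r := r) (δ := 1 / (K : ℝ)) hKp.le
    have h3 : r + 1 / (K : ℝ) ≤ 2 * min s 1 := by
      rcases le_total s 1 with h | h
      · rw [min_eq_left h]; linarith
      · rw [min_eq_right h]; linarith
    calc _ ≤ _ := h1
      _ ≤ (1 / K) * ((r + 1 / K) * (1 - r)) := by
          apply mul_le_mul_of_nonneg_right h2
          exact mul_nonneg (by linarith) (by linarith)
      _ ≤ (1 / K) * ((2 * min s 1) * (1 - r)) := by
          apply mul_le_mul_of_nonneg_left _ hKp.le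
          exact mul_le_mul_of_nonneg_right h3 (by linarith)
      _ = _ := by ring
  · rw [if_neg hj, zero_mul]
    apply le_of_eq
    have : ∀ x : I01, i1 (s ≤ j + (x : ℝ) ∧ j + (x : ℝ) < s + 1 / K) * ((x : ℝ) * (1 - x)) = 0 := by
      intro x
      have h0 := x.2.1
      have h1 := x.2.2
      by_cases hx : s ≤ j + (x : ℝ) ∧ j + (x : ℝ) < s + 1 / K
      · by_cases hjs : (j : ℝ) ≤ s
        · have : (j : ℝ) + 1 ≤ s := by
            by_contra h; exact hj ⟨hjs, by linarith⟩
          have hx1 : (x : ℝ) = 1 := by linarith [hx.1]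
          rw [hx1]; ring
        · exfalso
          push Not at hjs
          -- s < j, both multiples of 1/K
          have h3 : ((i : ℝ) + 1) ≤ j * K := by
            have : (i : ℝ) < j * K := by rw [hs, div_lt_iff₀ hK'] at hjs; exact hjs
            have : i < j * K := by exact_mod_cast this
            exact_mod_cast this
          have h4 : s + 1 / K ≤ j := by
            rw [← hsK, div_le_iff₀ hK']; exact h3
          linarith [hx.2]
      · rw [i1_false hx, zero_mul]
    simp only [this, integral_zero]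

/-- the density bound -/
lemma window_bound {μ : Measure (V → Bool)} [IsProbabilityMeasure μ] {K i : ℕ} (hK : 0 < K)
    (hi : 0 < i) (k : V × ℕ) {D : Om V → ℝ} {B : ℝ} (hD : Measurable D) (hD0 : ∀ ω, 0 ≤ D ω)
    (hDB : ∀ ω, D ω ≤ B)
    (hinv : ∀ (ω : Om V) (x x' : I01), (i : ℝ) / K ≤ k.2 + (x : ℝ) →
      (i : ℝ) / K ≤ k.2 + (x' : ℝ) → D (updL ω k x) = D (updL ω k x')) :
    ∫ ω, i1 (win K i k ω) * (dl (ω.2.1 k) ^ 2 * D ω) ∂(PP μ)
      ≤ (if (k.2 : ℝ) ≤ (i : ℝ) / K ∧ (i : ℝ) / K < k.2 + 1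
          then 2 * min ((i : ℝ) / K) 1 / K else 0) * ∫ ω, D ω ∂(PP μ) := by
  classical
  have hB : ∀ ω, |D ω| ≤ B := fun ω => by rw [abs_of_nonneg (hD0 ω)]; exact hDB ω
  set s : ℝ := (i : ℝ) / K with hs
  set c : ℝ := (if (k.2 : ℝ) ≤ s ∧ s < k.2 + 1 then 2 * min s 1 / K else 0) with hc
  have hdlm : Measurable fun ω : Om V => dl (ω.2.1 k) ^ 2 :=
    (measurable_dl.comp (measurable_lab k)).pow_const 2
  have hF : Measurable fun ω : Om V => i1 (win K i k ω) * (dl (ω.2.1 k) ^ 2 * D ω) :=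
    (measurable_win K i k).mul (hdlm.mul hD)
  have hd1 : ∀ t : I01, dl t ^ 2 ≤ 1 := fun t => by
    have h1 := dl_nonnegDy t; have h2 := dl_le t; nlinarith
  have hFB : ∀ ω : Om V, |i1 (win K i k ω) * (dl (ω.2.1 k) ^ 2 * D ω)| ≤ 1 * (1 * B) := by
    intro ω
    rw [abs_mul, abs_mul, abs_of_nonneg (sq_nonneg (dl (ω.2.1 k)))]
    have hB0 : 0 ≤ B := (abs_nonneg _).trans (hB ω)
    exact mul_le_mul (abs_i1_le _) (mul_le_mul (hd1 _) (hB ω) (abs_nonneg _) zero_le_one)
      (mul_nonneg (sq_nonneg _) (abs_nonneg _)) zero_le_one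
  rw [integral_updL μ k _ hF hFB, integral_updL μ k _ hD hB]
  set Dt : Om V → ℝ := fun ω => D (updL ω k 1) with hDt
  have hDtm : Measurable Dt := by
    have h1 := hD.comp (measurable_updL (V := V) k)
    exact h1.comp (measurable_id.prodMk measurable_const)
  set I : ℝ := ∫ x : I01, i1 (s ≤ k.2 + (x : ℝ) ∧ k.2 + (x : ℝ) < ((i : ℝ) + 1) / K)
        * ((x : ℝ) * (1 - x)) with hI
  set W : ℝ := ∫ x : I01, i1 (s ≤ k.2 + (x : ℝ)) with hW
  have hIW : I ≤ c * W := label_bound hK hi
  have e1 : ∀ ω : Om V, ∫ x : I01, i1 (win K i k (updL ω k x))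
      * (dl ((updL ω k x).2.1 k) ^ 2 * D (updL ω k x)) = I * Dt ω := by
    intro ω
    rw [hI, ← integral_mul_const]
    congr 1; funext x
    have h1 : win K i k (updL ω k x)
        ↔ (s ≤ k.2 + (x : ℝ) ∧ k.2 + (x : ℝ) < ((i : ℝ) + 1) / K) := by
      simp only [win, kap, updL, Function.update_self]; exact Iff.rfl
    have h2 : (updL ω k x).2.1 k = x := by simp [updL]
    rw [i1_congr h1, h2, dl_sq]
    by_cases hx : s ≤ k.2 + (x : ℝ) ∧ k.2 + (x : ℝ) < ((i : ℝ) + 1) / K
    · have h3 : s ≤ k.2 + ((1 : I01) : ℝ) := by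
        have := x.2.2
        simp only [Set.Icc.coe_one]
        linarith [hx.1]
      rw [hinv ω x 1 hx.1 h3]
      simp only [hDt]; ring
    · rw [i1_false hx]; ring
  have e2 : ∀ ω : Om V, W * Dt ω ≤ ∫ x : I01, D (updL ω k x) := by
    intro ω
    have hDx : Measurable fun x : I01 => D (updL ω k x) := by
      have h1 := hD.comp (measurable_updL (V := V) k)
      exact h1.comp (measurable_const.prodMk measurable_id)
    have hmx : Measurable fun x : I01 => i1 (s ≤ k.2 + (x : ℝ)) :=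
      measurable_i1 (measurableSet_le measurable_const (measurable_subtype_coe.const_add _))
    rw [hW, ← integral_mul_const]
    apply integral_mono
    · exact (integrable_bdd hmx fun x => abs_i1_le _).mul_const _
    · exact integrable_bdd hDx fun x => hB _
    · intro x
      by_cases hx : s ≤ k.2 + (x : ℝ)
      · have h3 : s ≤ k.2 + ((1 : I01) : ℝ) := by
          have := x.2.2
          simp only [Set.Icc.coe_one]
          linarith
        simp only [i1_true hx, one_mul, hDt]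
        rw [hinv ω x 1 hx h3]
      · simp only [i1_false hx, zero_mul]
        exact hD0 _
  simp only [e1]
  rw [integral_const_mul]
  have hDt0 : 0 ≤ ∫ ω, Dt ω ∂(PP μ) := integral_nonneg fun ω => hD0 _
  have hc0 : 0 ≤ c := by
    rw [hc]; split_ifs
    · have : 0 ≤ s := by positivity
      positivity
    · exact le_rfl
  have hIm : Measurable fun ω : Om V => ∫ x : I01, D (updL ω k x) :=
    ((hD.comp (measurable_updL k)).stronglyMeasurable.integral_prod_right').measurable
  have h4 : W * ∫ ω, Dt ω ∂(PP μ) ≤ ∫ ω, (∫ x : I01, D (updL ω k x)) ∂(PP μ) := by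
    rw [← integral_const_mul]
    apply integral_mono
    · exact (integrable_bdd hDtm fun ω => hB _).const_mul _
    · refine integrable_bdd hIm (B := B) fun ω => ?_
      have := norm_integral_le_of_norm_le_const (μ := (volume : Measure I01))
        (f := fun x : I01 => D (updL ω k x)) (C := B) (Eventually.of_forall fun x => hB _)
      simpa using this
    · exact e2
  calc I * ∫ ω, Dt ω ∂(PP μ) ≤ (c * W) * ∫ ω, Dt ω ∂(PP μ) :=
        mul_le_mul_of_nonneg_right hIW hDt0
    _ = c * (W * ∫ ω, Dt ω ∂(PP μ)) := by ring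
    _ ≤ c * ∫ ω, (∫ x : I01, D (updL ω k x)) ∂(PP μ) := mul_le_mul_of_nonneg_left h4 hc0

end Vale.Agent.P161C
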