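import Vale.Agent.P161C.DynD

/-!
# DYN, part E: the main estimate at a grid time
-/

namespace Vale.Agent.P161C

open MeasureTheory Vale.Agent.P161 Filter Topology

universe u

variable {V : Type u} {G : SimpleGraph V} {θ : ℝ} {d : ℕ}

/-- the local error -/
noncomputable def DD (G : SimpleGraph V) (θ : ℝ) (s : ℝ) (A M : Om V → ℝ) (o w : V)
    (ω : Om V) : ℝ :=
  (cov G θ (Lt G θ s ω) o w - A ω) ^ 2 + cov G θ (Lt G θ s ω) o w ^ 2 * (mt G θ s ω w - M ω) ^ 2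

lemma measurable_Lt_s (hB : Bas G θ) (s : ℝ) (u p : V) :
    Measurable fun ω : Om V => Lt G θ s ω u p := by
  have h := (hB.L u p).comp (measurable_const.prodMk measurable_id : Measurable
    fun ω : Om V => (s, ω))
  have e : (fun ω : Om V => Lt G θ s ω u p)
      = (fun q : ℝ × Om V => Lt G θ q.1 q.2 u p) ∘ (fun ω : Om V => (s, ω)) := by
    funext p; rfl
  rw [e]; exact h

lemma measurable_cov_s (hB : Bas G θ) (s : ℝ) (v w : V) :
    Measurable fun ω : Om V => cov G θ (Lt G θ s ω) v w :=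
  measurable_cov (L := fun ω : Om V => Lt G θ s ω) (fun u p => measurable_Lt_s hB s u p) v w

lemma measurable_mt_s (hB : Bas G θ) (s : ℝ) (v : V) :
    Measurable fun ω : Om V => mt G θ s ω v := by
  have e : (fun ω : Om V => mt G θ s ω v) = fun ω => Real.tanh (Lt G θ s ω v v) := rfl
  rw [e]
  exact measurable_tanhDy.comp (measurable_Lt_s hB s v v)

lemma measurable_DD (hB : Bas G θ) (s : ℝ) {A M : Om V → ℝ} (hA : Measurable A)
    (hM : Measurable M) (o w : V) : Measurable (DD G θ s A M o w) := by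
  unfold DD
  have h1 := measurable_cov_s hB s o w
  have h2 := measurable_mt_s hB s w
  exact ((h1.sub hA).pow_const 2).add ((h1.pow_const 2).mul ((h2.sub hM).pow_const 2))

lemma DD_nonneg (s : ℝ) (A M : Om V → ℝ) (o w : V) (ω : Om V) : 0 ≤ DD G θ s A M o w ω := by
  unfold DD; positivity

lemma sq_sub_le {a b : ℝ} (ha : |a| ≤ 1) (hb : |b| ≤ 1) : (a - b) ^ 2 ≤ 4 := by
  have h1 := abs_le.1 ha
  have h2 := abs_le.1 hb
  nlinarith [h1.1, h1.2, h2.1, h2.2]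

lemma DD_le (hc : Crit G d θ) (s : ℝ) {A M : Om V → ℝ} (hA : ∀ ω, |A ω| ≤ 1)
    (hM : ∀ ω, |M ω| ≤ 1) (o w : V) (ω : Om V) : DD G θ s A M o w ω ≤ 8 := by
  unfold DD
  have h1 := sq_sub_le (abs_cov_le hc (Lt G θ s ω) o w) (hA ω)
  have h2 := sq_sub_le (abs_mt_le (G := G) (θ := θ) s ω w) (hM ω)
  have h3 : cov G θ (Lt G θ s ω) o w ^ 2 ≤ 1 := by
    have := abs_cov_le hc (Lt G θ s ω) o w
    rw [← sq_abs]
    nlinarith [abs_nonneg (cov G θ (Lt G θ s ω) o w)]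
  have h4 := sq_nonneg (mt G θ s ω w - M ω)
  nlinarith [sq_nonneg (cov G θ (Lt G θ s ω) o w)]

lemma DD_inv {s : ℝ} {A M : Om V → ℝ} (hA : Measurable[GG G θ s] A)
    (hM : Measurable[GG G θ s] M) (o w : V) (k : V × ℕ) (ω : Om V) (x x' : I01)
    (hx : s ≤ k.2 + (x : ℝ)) (hx' : s ≤ k.2 + (x' : ℝ)) :
    DD G θ s A M o w (updL ω k x) = DD G θ s A M o w (updL ω k x') := by
  have h1 : yt s (updL ω k x) = yt s (updL ω k x') := yt_updL hx hx'
  have h2 : trG G θ s (updL ω k x) = trG G θ s (updL ω k x') := trG_updL hx hx'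
  have h3 : Lt G θ s (updL ω k x) = Lt G θ s (updL ω k x') := by unfold Lt; rw [h1]
  have h4 : mt G θ s (updL ω k x) w = mt G θ s (updL ω k x') w := by unfold mt; rw [h1]
  unfold DD
  rw [h3, h4, eq_of_trG hA h2, eq_of_trG hM h2]

lemma phi_diff (hP : S_PHI) (t : I01) {c a m1 m2 : ℝ} (h1 : |m1| ≤ 1) (h2 : |m2| ≤ 1) (x : I01) :
    (c * phi (dl t) m1 x - a * phi (dl t) m2 x) ^ 2
      ≤ 128 * (dl t ^ 2 * ((c - a) ^ 2 + c ^ 2 * (m1 - m2) ^ 2)) := by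
  have d0 := dl_nonnegDy t
  have d1 := dl_le t
  have p1 := hP.2.1 (dl t) m1 m2 x d0 d1 h1 h2
  have p2 := hP.1 (dl t) m2 x d0 d1 h2
  set δ := dl t
  set u := phi δ m1 x
  set w := phi δ m2 x
  have e : c * u - a * w = c * (u - w) + (c - a) * w := by ring
  rw [e]
  have h3 : (u - w) ^ 2 ≤ 256 * δ ^ 4 * (m1 - m2) ^ 2 := by
    have := pow_le_pow_left₀ (abs_nonneg _) p1 2
    rw [sq_abs] at this
    calc (u - w) ^ 2 ≤ (16 * δ ^ 2 * |m1 - m2|) ^ 2 := this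
      _ = 256 * δ ^ 4 * (m1 - m2) ^ 2 := by rw [mul_pow, sq_abs]; ring
  have h4 : w ^ 2 ≤ 4 * δ ^ 2 := by
    have := pow_le_pow_left₀ (abs_nonneg _) p2 2
    rw [sq_abs] at this
    linarith
  have h5 : δ ^ 2 ≤ 1 / 4 := by nlinarith
  have h6 : 256 * δ ^ 4 * (m1 - m2) ^ 2 ≤ 64 * δ ^ 2 * (m1 - m2) ^ 2 := by
    apply mul_le_mul_of_nonneg_right _ (sq_nonneg _)
    nlinarith [sq_nonneg δ]
  have h7 : (c * (u - w) + (c - a) * w) ^ 2
      ≤ 2 * (c ^ 2 * (u - w) ^ 2) + 2 * ((c - a) ^ 2 * w ^ 2) := by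
    nlinarith [sq_nonneg (c * (u - w) - (c - a) * w)]
  have h8 : c ^ 2 * (u - w) ^ 2 ≤ c ^ 2 * (64 * δ ^ 2 * (m1 - m2) ^ 2) :=
    mul_le_mul_of_nonneg_left (h3.trans h6) (sq_nonneg _)
  have h9 : (c - a) ^ 2 * w ^ 2 ≤ (c - a) ^ 2 * (4 * δ ^ 2) :=
    mul_le_mul_of_nonneg_left h4 (sq_nonneg _)
  nlinarith [mul_nonneg (sq_nonneg (c - a)) (sq_nonneg δ)]

/-- the full innovation term -/
noncomputable def XX (G : SimpleGraph V) (θ : ℝ) (K m : ℕ) (A M : ℕ → V → Om V → ℝ) (o : V)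
    (k : V × ℕ) (ω : Om V) : ℝ :=
  i1 (kap ω.2.1 k < (m : ℝ) / K) * Jm G θ ω o k
    - ∑ i ∈ Finset.Ico 1 m, term G θ K (A i k.1) (M i k.1) i k ω

lemma win_unique {K i j : ℕ} (hK : 0 < K) {k : V × ℕ} {ω : Om V} (h : win K i k ω)
    (h' : win K j k ω) : i = j := by
  have hK' : (0 : ℝ) < K := by exact_mod_cast hK
  obtain ⟨a, b⟩ := h
  obtain ⟨a', b'⟩ := h'
  have h1 : (i : ℝ) / K < ((j : ℝ) + 1) / K := a.trans_lt b'
  have h2 : (j : ℝ) / K < ((i : ℝ) + 1) / K := a'.trans_lt b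
  rw [div_lt_div_iff_of_pos_right hK'] at h1 h2
  have h3 : i < j + 1 := by exact_mod_cast h1
  have h4 : j < i + 1 := by exact_mod_cast h2
  omega

/-- pointwise bound -/
lemma XX_sq_le (hP : S_PHI) {K m T : ℕ} (hK : 0 < K) (hmT : m ≤ T * K)
    {A M : ℕ → V → Om V → ℝ} (hM1 : ∀ i w ω, |M i w ω| ≤ 1) (o : V) (k : V × ℕ) (ω : Om V) :
    XX G θ K m A M o k ω ^ 2
      ≤ i1 (kap ω.2.1 k < 1 / K) * Jm G θ ω o k ^ 2
        + 2 * (i1 (1 / (K : ℝ) ≤ kap ω.2.1 k ∧ kap ω.2.1 k < T)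
            * (Jm G θ ω o k - JK G θ K ω o k) ^ 2)
        + 256 * ∑ i ∈ Finset.Ico 1 m, i1 (win K i k ω)
            * (dl (ω.2.1 k) ^ 2 * DD G θ ((i : ℝ) / K) (A i k.1) (M i k.1) o k.1 ω) := by
  have hK' : (0 : ℝ) < K := by exact_mod_cast hK
  have hsum0 : 0 ≤ ∑ i ∈ Finset.Ico 1 m, i1 (win K i k ω)
      * (dl (ω.2.1 k) ^ 2 * DD G θ ((i : ℝ) / K) (A i k.1) (M i k.1) o k.1 ω) :=
    Finset.sum_nonneg fun i _ => mul_nonneg (i1_nonneg _)
      (mul_nonneg (sq_nonneg _) (DD_nonneg _ _ _ _ _ _))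
  have hj0 : 0 ≤ i1 (1 / (K : ℝ) ≤ kap ω.2.1 k ∧ kap ω.2.1 k < T)
            * (Jm G θ ω o k - JK G θ K ω o k) ^ 2 := mul_nonneg (i1_nonneg _) (sq_nonneg _)
  have hf0 : 0 ≤ i1 (kap ω.2.1 k < 1 / K) * Jm G θ ω o k ^ 2 :=
    mul_nonneg (i1_nonneg _) (sq_nonneg _)
  have hk0 := kap_nonneg ω.2.1 k
  rcases lt_or_ge (kap ω.2.1 k) (1 / K) with h1 | h1
  · -- no window
    have hz : ∑ i ∈ Finset.Ico 1 m, term G θ K (A i k.1) (M i k.1) i k ω = 0 := by
      refine Finset.sum_eq_zero fun i hi => ?_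
      have hi1 : 1 ≤ i := (Finset.mem_Ico.1 hi).1
      have : ¬ win K i k ω := by
        rintro ⟨a, -⟩
        have : (1 : ℝ) / K ≤ (i : ℝ) / K := by
          have : (1 : ℝ) ≤ i := by exact_mod_cast hi1
          gcongr
        linarith
      unfold term
      rw [i1_false this, zero_mul]
    unfold XX
    rw [hz, sub_zero, mul_pow, i1_sq]
    have : i1 (kap ω.2.1 k < (m : ℝ) / K) * Jm G θ ω o k ^ 2
        ≤ i1 (kap ω.2.1 k < 1 / K) * Jm G θ ω o k ^ 2 := by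
      rw [i1_true h1]
      exact mul_le_mul_of_nonneg_right (i1_le_one _) (sq_nonneg _)
    linarith
  rcases lt_or_ge (kap ω.2.1 k) ((m : ℝ) / K) with h2 | h2
  · set i0 : ℕ := ⌊(K : ℝ) * kap ω.2.1 k⌋₊ with hi0
    have hKk : 0 ≤ (K : ℝ) * kap ω.2.1 k := by positivity
    have hfl : (i0 : ℝ) ≤ K * kap ω.2.1 k := Nat.floor_le hKk
    have hfl2 : (K : ℝ) * kap ω.2.1 k < i0 + 1 := Nat.lt_floor_add_one _
    have hw : win K i0 k ω := by
      refine ⟨?_, ?_⟩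
      · rw [div_le_iff₀ hK']; linarith
      · rw [lt_div_iff₀ hK']; linarith
    have hi1 : 1 ≤ i0 := by
      apply Nat.le_floor
      rw [div_le_iff₀ hK'] at h1
      push_cast; linarith
    have him : i0 < m := by
      rw [lt_div_iff₀ hK'] at h2
      have : (i0 : ℝ) < m := by linarith
      exact_mod_cast this
    have hmem : i0 ∈ Finset.Ico 1 m := Finset.mem_Ico.2 ⟨hi1, him⟩
    have hs1 : ∑ i ∈ Finset.Ico 1 m, term G θ K (A i k.1) (M i k.1) i k ω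
        = A i0 k.1 ω * phi (dl (ω.2.1 k)) (M i0 k.1 ω) (inn G θ ω k) := by
      rw [Finset.sum_eq_single i0]
      · unfold term; rw [i1_true hw, one_mul]
      · intro i _ hne
        have : ¬ win K i k ω := fun h => hne (win_unique hK h hw)
        unfold term; rw [i1_false this, zero_mul]
      · intro h; exact absurd hmem h
    have hs2 : ∑ i ∈ Finset.Ico 1 m, i1 (win K i k ω)
            * (dl (ω.2.1 k) ^ 2 * DD G θ ((i : ℝ) / K) (A i k.1) (M i k.1) o k.1 ω)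
        = dl (ω.2.1 k) ^ 2 * DD G θ ((i0 : ℝ) / K) (A i0 k.1) (M i0 k.1) o k.1 ω := by
      rw [Finset.sum_eq_single i0]
      · rw [i1_true hw, one_mul]
      · intro i _ hne
        have : ¬ win K i k ω := fun h => hne (win_unique hK h hw)
        rw [i1_false this, zero_mul]
      · intro h; exact absurd hmem h
    have hT : kap ω.2.1 k < T := by
      refine h2.trans_le ?_
      rw [div_le_iff₀ hK']
      exact_mod_cast hmT
    have hJK : JK G θ K ω o k = cov G θ (Lt G θ ((i0 : ℝ) / K) ω) o k.1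
        * phi (dl (ω.2.1 k)) (mt G θ ((i0 : ℝ) / K) ω k.1) (inn G θ ω k) := by
      unfold JK gt
      rw [← hi0]
    unfold XX
    rw [hs1, hs2, i1_true h2, one_mul,
      i1_true (p := 1 / (K : ℝ) ≤ kap ω.2.1 k ∧ kap ω.2.1 k < T) ⟨h1, hT⟩, one_mul]
    have hpd := phi_diff hP (ω.2.1 k) (c := cov G θ (Lt G θ ((i0 : ℝ) / K) ω) o k.1)
      (a := A i0 k.1 ω) (abs_mt_le (G := G) (θ := θ) ((i0 : ℝ) / K) ω k.1) (hM1 i0 k.1 ω)
      (inn G θ ω k)
    rw [← hJK] at hpd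
    have hDDe : DD G θ ((i0 : ℝ) / K) (A i0 k.1) (M i0 k.1) o k.1 ω
      = (cov G θ (Lt G θ ((i0 : ℝ) / K) ω) o k.1 - A i0 k.1 ω) ^ 2
        + cov G θ (Lt G θ ((i0 : ℝ) / K) ω) o k.1 ^ 2
          * (mt G θ ((i0 : ℝ) / K) ω k.1 - M i0 k.1 ω) ^ 2 := rfl
    rw [hDDe]
    set a := Jm G θ ω o k
    set b := JK G θ K ω o k
    set c := A i0 k.1 ω * phi (dl (ω.2.1 k)) (M i0 k.1 ω) (inn G θ ω k)
    have h3 : (a - c) ^ 2 ≤ 2 * (a - b) ^ 2 + 2 * (b - c) ^ 2 := by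
      nlinarith [sq_nonneg ((a - b) - (b - c))]
    nlinarith
  · have hz : ∑ i ∈ Finset.Ico 1 m, term G θ K (A i k.1) (M i k.1) i k ω = 0 := by
      refine Finset.sum_eq_zero fun i hi => ?_
      have him : i < m := (Finset.mem_Ico.1 hi).2
      have : ¬ win K i k ω := by
        rintro ⟨-, a⟩
        have : ((i : ℝ) + 1) / K ≤ (m : ℝ) / K := by
          have : ((i : ℝ) + 1) ≤ m := by exact_mod_cast him
          gcongr
        linarith
      unfold term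
      rw [i1_false this, zero_mul]
    unfold XX
    rw [hz, i1_false (not_lt.2 h2)]
    nlinarith

lemma inno_XX (hc : Crit G d θ) (hP : S_PHI) (hB : Bas G θ) {μ : Measure (V → Bool)}
    (hle : ∀ s, GG G θ s ≤ (inferInstance : MeasurableSpace (Om V)))
    {K m : ℕ} {A M : ℕ → V → Om V → ℝ}
    (hA : ∀ (i : ℕ) (w : V), Measurable[GG G θ ((i : ℝ) / K)] (A i w))
    (hM : ∀ (i : ℕ) (w : V), Measurable[GG G θ ((i : ℝ) / K)] (M i w))
    (hA1 : ∀ i w ω, |A i w ω| ≤ 1) (hM1 : ∀ i w ω, |M i w ω| ≤ 1) (o : V) (k : V × ℕ)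
    (hJ1 : ∀ᵐ ω ∂(PP μ), Jm G θ ω o k
      = cov G θ (Lt G θ (kap ω.2.1 k) ω) o k.1
        * phi (dl (ω.2.1 k)) (mt G θ (kap ω.2.1 k) ω k.1) (inn G θ ω k)) :
    Inno G θ μ k (XX G θ K m A M o k) :=
  (inno_jump hc hP hB o k hJ1 ((m : ℝ) / K)).sub
    (Inno.sum (Finset.Ico 1 m) fun i _ =>
      inno_term hP hB K i k (hle _) (hA i k.1) (hM i k.1) (hA1 i k.1) (hM1 i k.1))

lemma abs_JK_le (hc : Crit G d θ) (hP : S_PHI) (K : ℕ) (o : V) (k : V × ℕ) (ω : Om V) :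
    |JK G θ K ω o k| ≤ 1 := by
  unfold JK
  rw [abs_mul]
  have := mul_le_mul (abs_cov_le hc (Lt G θ (gt K (kap ω.2.1 k)) ω) o k.1)
    (abs_phi_le hP (ω.2.1 k) (abs_mt_le (G := G) (θ := θ) (gt K (kap ω.2.1 k)) ω k.1)
      (inn G θ ω k)) (abs_nonneg _) zero_le_one
  simpa using this

lemma measurable_gt (K : ℕ) : Measurable (gt K) := by
  unfold gt
  have h1 : Measurable fun t : ℝ => ⌊(K : ℝ) * t⌋₊ :=
    Nat.measurable_floor.comp (measurable_id.const_mul _)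
  have h2 : Measurable fun n : ℕ => (n : ℝ) := measurable_from_nat
  exact (h2.comp h1).div_const _

lemma measurable_JK (hP : S_PHI) (hB : Bas G θ) (K : ℕ) (o : V) (k : V × ℕ) :
    Measurable fun ω : Om V => JK G θ K ω o k := by
  have hk : Measurable fun ω : Om V => (gt K (kap ω.2.1 k), ω) :=
    ((measurable_gt K).comp (measurable_kap k)).prodMk measurable_id
  have h1 : Measurable fun ω : Om V => cov G θ (Lt G θ (gt K (kap ω.2.1 k)) ω) o k.1 := by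
    have h := (measurable_covt hB o k.1).comp hk
    have e : (fun ω : Om V => cov G θ (Lt G θ (gt K (kap ω.2.1 k)) ω) o k.1)
      = (fun q : ℝ × Om V => cov G θ (Lt G θ q.1 q.2) o k.1)
        ∘ (fun ω : Om V => (gt K (kap ω.2.1 k), ω)) := by
      funext p; rfl
    rw [e]; exact h
  have h2 : Measurable fun ω : Om V => mt G θ (gt K (kap ω.2.1 k)) ω k.1 := by
    have h := (measurable_mt hB k.1).comp hk
    have e : (fun ω : Om V => mt G θ (gt K (kap ω.2.1 k)) ω k.1)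
      = (fun q : ℝ × Om V => mt G θ q.1 q.2 k.1)
        ∘ (fun ω : Om V => (gt K (kap ω.2.1 k), ω)) := by
      funext p; rfl
    rw [e]; exact h
  have h3 : Measurable fun ω : Om V => dl (ω.2.1 k) := measurable_dl.comp (measurable_lab k)
  have h4 : Measurable fun ω : Om V =>
      phi (dl (ω.2.1 k)) (mt G θ (gt K (kap ω.2.1 k)) ω k.1) (inn G θ ω k) := by
    have h := hP.2.2.2.comp (h3.prodMk (h2.prodMk (hB.inn k)))
    exact h
  unfold JK
  exact h1.mul h4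

end Vale.Agent.P161C
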