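import Vale.Agent.P161C.EnvD

/-!
# P161C, module ENV, part E: moments of the single-site law
-/

namespace Vale.Agent.P161C

open MeasureTheory Vale.Agent.P161 Filter Topology ProbabilityTheory

universe u

variable {V : Type u}

namespace ENV

lemma nish_nu (s : ℝ) (n : ℕ) (φ : ℝ → ℝ) (hφ : Measurable φ) (hb : ∀ x, |φ x| ≤ 1)
    (hodd : ∀ x, φ (-x) = -φ x) :
    ∫ y, φ y ∂(nu s n) = ∫ y, Real.tanh y * φ y ∂(nu s n) :=
  (RP_nu s n).nish measurable_neg measurable_id (fun _ => rfl) hφ hb hodd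

lemma tanh_sq_le (y : ℝ) : |Real.tanh y ^ 2| ≤ 1 := by
  rw [abs_pow]
  exact pow_le_one₀ (abs_nonneg _) (abs_tanh_le y)

lemma k0_mono (s : ℝ) (n : ℕ) : k0 (nu s n) ≤ k0 (nu s (n + 1)) := by
  set P := (nu s n).prod (nu1 s n) with hP
  have hRP : RP P (Prod.map (fun y => -y) fun y => -y) (fun p : ℝ × ℝ => p.1 + p.2) :=
    (RP_nu s n).prod (RP_nu1 s n) measurable_neg measurable_neg measurable_id measurable_id
  have mt1 : Measurable fun p : ℝ × ℝ => Real.tanh p.1 := measurable_tanh.comp measurable_fst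
  have mt2 : Measurable fun p : ℝ × ℝ => Real.tanh (p.1 + p.2) :=
    measurable_tanh.comp (by fun_prop)
  have h1 : ∫ p : ℝ × ℝ, Real.tanh p.1 ∂P = ∫ p : ℝ × ℝ, Real.tanh (p.1 + p.2) * Real.tanh p.1 ∂P :=
    hRP.nish (measurable_neg.prodMap measurable_neg) (by fun_prop)
      (fun p => by simp only [Prod.map]; ring) mt1 (C := 1) (fun p => abs_tanh_le _)
      (fun p => by simp only [Prod.map]; exact Real.tanh_neg _)
  have h2 : ∫ y, Real.tanh y ∂(nu s n) = ∫ y, Real.tanh y * Real.tanh y ∂(nu s n) :=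
    nish_nu s n Real.tanh measurable_tanh abs_tanh_le Real.tanh_neg
  have hk : k0 (nu s n) = ∫ y, Real.tanh y ∂(nu s n) := by
    rw [h2]; unfold k0
    refine integral_congr_ae (Eventually.of_forall fun y => ?_)
    simp only
    ring
  have h3 : ∫ p : ℝ × ℝ, Real.tanh p.1 ∂P = k0 (nu s n) := by
    rw [hk, hP]
    have := integral_map (μ := (nu s n).prod (nu1 s n)) (φ := Prod.fst) (f := Real.tanh)
      measurable_fst.aemeasurable measurable_tanh.aestronglyMeasurable
    rw [← this, Measure.map_fst_prod, measure_univ, one_smul]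
  have h4 : ∫ p : ℝ × ℝ, Real.tanh p.1 ^ 2 ∂P = k0 (nu s n) := by
    unfold k0
    have := integral_map (μ := (nu s n).prod (nu1 s n)) (φ := Prod.fst)
      (f := fun y => Real.tanh y ^ 2) measurable_fst.aemeasurable
      (measurable_tanh.pow_const 2).aestronglyMeasurable
    rw [hP, ← this, Measure.map_fst_prod, measure_univ, one_smul]
  have h5 : ∫ p : ℝ × ℝ, Real.tanh (p.1 + p.2) ^ 2 ∂P = k0 (nu s (n + 1)) := by
    unfold k0
    have := integral_map (μ := (nu s n).prod (nu1 s n)) (φ := fun p : ℝ × ℝ => p.1 + p.2)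
      (f := fun y => Real.tanh y ^ 2) (by fun_prop)
      (measurable_tanh.pow_const 2).aestronglyMeasurable
    rw [nu_succ, this]
  have i1 : Integrable (fun p : ℝ × ℝ => Real.tanh (p.1 + p.2) ^ 2) P :=
    integrable_bdd (C := 1) (mt2.pow_const 2) fun p => tanh_sq_le _
  have i2 : Integrable (fun p : ℝ × ℝ => Real.tanh p.1 ^ 2) P :=
    integrable_bdd (C := 1) (mt1.pow_const 2) fun p => tanh_sq_le _
  have i3 : Integrable (fun p : ℝ × ℝ => Real.tanh (p.1 + p.2) * Real.tanh p.1) P := by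
    refine integrable_bdd (C := 1) (mt2.mul mt1) fun p => ?_
    rw [abs_mul]
    exact mul_le_one₀ (abs_tanh_le _) (abs_nonneg _) (abs_tanh_le _)
  have h6 : 0 ≤ ∫ p : ℝ × ℝ, (Real.tanh (p.1 + p.2) - Real.tanh p.1) ^ 2 ∂P :=
    integral_nonneg fun p => sq_nonneg _
  have h7 : ∫ p : ℝ × ℝ, (Real.tanh (p.1 + p.2) - Real.tanh p.1) ^ 2 ∂P
      = ∫ p : ℝ × ℝ, Real.tanh (p.1 + p.2) ^ 2 ∂P
        - 2 * ∫ p : ℝ × ℝ, Real.tanh (p.1 + p.2) * Real.tanh p.1 ∂P
        + ∫ p : ℝ × ℝ, Real.tanh p.1 ^ 2 ∂P := by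
    rw [← integral_const_mul, ← integral_sub i1 (i3.const_mul 2), ← integral_add _ i2]
    · refine integral_congr_ae (Eventually.of_forall fun p => ?_)
      simp only
      ring
    · exact i1.sub (i3.const_mul 2)
  rw [h7, h5, ← h1, h3, h4] at h6
  linarith

lemma k0_one_le (s : ℝ) {n : ℕ} (hn : 1 ≤ n) : k0 (nu s 1) ≤ k0 (nu s n) := by
  induction n, hn using Nat.le_induction with
  | base => exact le_rfl
  | succ n _ ih => exact ih.trans (k0_mono s n)

lemma nu_one (s : ℝ) (φ : ℝ → ℝ) (hφ : Measurable φ) :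
    ∫ y, φ y ∂(nu s 1) = ∫ z : I01 × I01, φ (gf s 0 z) := by
  have h0 : HH s 1 = gf s 0 ∘ fun z : ℕ → I01 × I01 => z 0 := by
    funext z
    simp [HH]
  unfold nu
  rw [h0, ← Measure.map_map (measurable_gf s 0) (measurable_pi_apply 0)]
  have h1 : rho.map (fun z : ℕ → I01 × I01 => z 0) = (volume : Measure (I01 × I01)) :=
    (measurePreserving_eval_infinitePi
      (fun _ : ℕ => (volume : Measure I01).prod (volume : Measure I01)) 0).map_eq
  rw [h1, integral_map (measurable_gf s 0).aemeasurable hφ.aestronglyMeasurable]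

lemma inner_int (u : I01) :
    ∫ q : I01, (dl u * (2 * (Qc (dl u) 1 q : ℝ) - 1)) ^ 2 = (u : ℝ) * (1 - u) / 3 := by
  rw [integral_Qc (dl_abs u) (fun t : I01 => (dl u * (2 * (t : ℝ) - 1)) ^ 2) (by fun_prop)]
  have h := integral_I01
    (fun t => dl u ^ 2 * ((2 * t - 1) ^ 3 / 6) + dl u ^ 3 * ((2 * t - 1) ^ 4 / 8))
    (fun t => (1 + dl u * 1 * (2 * t - 1)) * (dl u * (2 * t - 1)) ^ 2) (by
      intro t
      have h1 := (((((hasDerivAt_id t).const_mul 2).sub_const 1).pow 3).div_const 6 |>.const_mul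
        (dl u ^ 2)).add
        (((((hasDerivAt_id t).const_mul 2).sub_const 1).pow 4).div_const 8 |>.const_mul
        (dl u ^ 3))
      refine h1.congr_deriv ?_
      simp only [id]
      ring) (by fun_prop)
  rw [h]
  have := dl_sq u
  rw [← this]
  ring

lemma outer_int {s : ℝ} (h0 : 0 ≤ s) (h1 : s ≤ 1) :
    ∫ u : I01, (if (u : ℝ) < s then (u : ℝ) * (1 - u) / 3 else 0) = s ^ 2 / 6 - s ^ 3 / 9 := by
  have h := unitInterval.measurePreserving_coe.integral_comp
    unitInterval.measurableEmbedding_coe (fun b : ℝ => if b < s then b * (1 - b) / 3 else 0)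
  rw [h]
  have e0 : (fun b : ℝ => if b < s then b * (1 - b) / 3 else 0)
      = (Set.Iio s).indicator (fun b : ℝ => b * (1 - b) / 3) := by
    funext b
    by_cases hb : b < s
    · rw [if_pos hb, Set.indicator_of_mem (by exact hb)]
    · rw [if_neg hb, Set.indicator_of_notMem (by exact hb)]
  rw [e0, integral_indicator measurableSet_Iio, Measure.restrict_restrict measurableSet_Iio]
  have e1 : Set.Iio s ∩ unitInterval = Set.Ico 0 s := by
    ext t
    simp only [Set.mem_inter_iff, Set.mem_Iio, Set.mem_Icc, Set.mem_Ico]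
    constructor
    · rintro ⟨a, b, c⟩; exact ⟨b, a⟩
    · rintro ⟨a, b⟩; exact ⟨b, a, by linarith⟩
  rw [e1, ← integral_Icc_eq_integral_Ico, integral_Icc_eq_integral_Ioc,
    ← intervalIntegral.integral_of_le h0]
  have hd : ∀ t : ℝ, HasDerivAt (fun t : ℝ => t ^ 2 / 6 - t ^ 3 / 9) (t * (1 - t) / 3) t := by
    intro t
    have h1 := ((hasDerivAt_pow 2 t).div_const 6).sub ((hasDerivAt_pow 3 t).div_const 9)
    refine h1.congr_deriv ?_
    norm_num
    ring
  rw [intervalIntegral.integral_eq_sub_of_hasDerivAt (fun t _ => hd t)]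
  · simp
  · apply Continuous.intervalIntegrable; fun_prop

lemma tanh_gf (s : ℝ) (u q : I01) : Real.tanh (gf s 0 (u, q)) =
    if (u : ℝ) < s then dl u * (2 * (Qc (dl u) 1 q : ℝ) - 1) else 0 := by
  unfold gf
  simp only [CharP.cast_eq_zero, zero_add]
  split_ifs
  · exact tanh_at' (eps_lt _ _)
  · exact Real.tanh_zero

lemma k0_one (s : ℝ) : k0 (nu s 1)
    = ∫ u : I01, (if (u : ℝ) < s then (u : ℝ) * (1 - u) / 3 else 0) := by
  unfold k0
  rw [nu_one s _ (measurable_tanh.pow_const 2)]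
  have hv : (volume : Measure (I01 × I01)) = (volume : Measure I01).prod volume := rfl
  rw [hv, integral_prod]
  · refine integral_congr_ae (Eventually.of_forall fun u => ?_)
    simp only
    simp_rw [tanh_gf]
    split_ifs
    · exact inner_int u
    · simp
  · refine integrable_bdd (C := 1)
      ((measurable_tanh.comp (measurable_gf s 0)).pow_const 2) fun z => tanh_sq_le _

lemma k0_one_of_le {s : ℝ} (h0 : 0 ≤ s) (h1 : s ≤ 1) :
    k0 (nu s 1) = s ^ 2 / 6 - s ^ 3 / 9 := by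
  rw [k0_one, outer_int h0 h1]

lemma k0_one_of_ge {s : ℝ} (h1 : 1 < s) : k0 (nu s 1) = 1 / 18 := by
  rw [k0_one]
  have e : ∀ u : I01, (if (u : ℝ) < s then (u : ℝ) * (1 - u) / 3 else 0)
      = (u : ℝ) * (1 - u) / 3 := by
    intro u
    exact if_pos (lt_of_le_of_lt u.2.2 h1)
  simp_rw [e]
  have h := integral_I01 (fun t => t ^ 2 / 6 - t ^ 3 / 9) (fun t => t * (1 - t) / 3) (by
    intro t
    have h1 := ((hasDerivAt_pow 2 t).div_const 6).sub ((hasDerivAt_pow 3 t).div_const 9)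
    refine h1.congr_deriv ?_
    norm_num
    ring) (by fun_prop)
  rw [h]
  norm_num

lemma ceil_eq_one {s : ℝ} (h0 : 0 < s) (h1 : s ≤ 1) : ⌈s⌉₊ = 1 := by
  rw [Nat.ceil_eq_iff (by norm_num)]
  constructor
  · simpa using h0
  · simpa using h1

lemma k0_lower {s : ℝ} (hs : 0 < s) : (min s 1) ^ 2 / 25 ≤ k0 (nu s ⌈s⌉₊) := by
  have hn : 1 ≤ ⌈s⌉₊ := Nat.one_le_ceil_iff.2 hs
  refine le_trans ?_ (k0_one_le s hn)
  rcases le_or_gt s 1 with h | h
  · rw [min_eq_left h, k0_one_of_le hs.le h]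
    nlinarith [pow_pos hs 2, mul_nonneg (pow_pos hs 2).le (sub_nonneg.2 h)]
  · rw [min_eq_right h.le, k0_one_of_ge h]
    norm_num

lemma k0_upper {s : ℝ} (hs : 0 < s) (h1 : s ≤ 1) : k0 (nu s ⌈s⌉₊) ≤ s ^ 2 := by
  rw [ceil_eq_one hs h1, k0_one_of_le hs.le h1]
  nlinarith [pow_pos hs 2, pow_pos hs 3]

lemma mom_upper {s : ℝ} (hs : 0 < s) (h1 : s ≤ 1) (q : ℕ) :
    ∫ y, Real.tanh y ^ (2 * q) ∂(nu s ⌈s⌉₊) ≤ s ^ q := by
  rw [ceil_eq_one hs h1, nu_one s _ (measurable_tanh.pow_const _)]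
  have hb : ∀ z : I01 × I01, Real.tanh (gf s 0 z) ^ (2 * q) ≤ s ^ q := by
    rintro ⟨u, p⟩
    rw [tanh_gf, pow_mul]
    refine pow_le_pow_left₀ (sq_nonneg _) ?_ q
    split_ifs with h
    · rw [mul_pow, dl_sq]
      have h2 : (2 * (Qc (dl u) 1 p : ℝ) - 1) ^ 2 ≤ 1 := by
        rw [← sq_abs]; exact pow_le_one₀ (abs_nonneg _) (two_sub_abs _)
      have h3 : 0 ≤ (u : ℝ) * (1 - u) := mul_nonneg u.2.1 (by linarith [u.2.2])
      have h4 : (u : ℝ) * (1 - u) ≤ s := by nlinarith [u.2.1, u.2.2]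
      nlinarith [sq_nonneg (2 * (Qc (dl u) 1 p : ℝ) - 1)]
    · simpa using hs.le
  calc ∫ z : I01 × I01, Real.tanh (gf s 0 z) ^ (2 * q) ≤ ∫ _ : I01 × I01, s ^ q := by
        refine integral_mono ?_ (integrable_const _) hb
        refine integrable_bdd (C := 1)
          ((measurable_tanh.comp (measurable_gf s 0)).pow_const _) fun z => ?_
        rw [abs_pow]
        exact pow_le_one₀ (abs_nonneg _) (abs_tanh_le _)
    _ = s ^ q := by simp

lemma adm_nu (s : ℝ) (n : ℕ) : Adm (nu s n) (n * at' (1 / 2)) where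
  prob := inferInstance
  bdd := by
    unfold nu
    have hm : MeasurableSet {y : ℝ | |y| ≤ n * at' (1 / 2)} :=
      measurableSet_le measurable_norm measurable_const
    rw [ae_map_iff (measurable_HH s n).aemeasurable hm]
    exact Eventually.of_forall fun z => HH_abs s n z
  nish := nish_nu s n

end ENV

end Vale.Agent.P161C
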