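import Vale.Agent.P161C.Plan
import Vale.Agent.P161C.EnvE

/-!
# P161C, module ENV
-/

namespace Vale.Agent.P161C

open MeasureTheory Vale.Agent.P161 Filter Topology ProbabilityTheory

universe u

theorem env : S_ENV.{u} := by
  intro V G d θ hC μ hμ s hs
  have h1 : θ ≤ 1 := by
    have h2 := hC.crit
    have h3 := hC.pos
    have h4 : (3 : ℝ) ≤ d := by exact_mod_cast hC.hd
    nlinarith [sq_nonneg (θ - 1)]
  exact ⟨ENV.nu s ⌈s⌉₊, ENV.adm_nu s _, ENV.k0_lower hs, ENV.k0_upper hs,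
    fun h q _ => ENV.mom_upper hs h q, ENV.env_law hC.tree hC.pos.le h1 hμ s,
    fun ω n u p => ENV.msg_gauge G θ s ω n u p⟩

end Vale.Agent.P161C
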