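import Vale.Agent.P161C.Plan

/-!
# P161C, module ENV, part A: gauge transformation and the law of the edge signs
-/

namespace Vale.Agent.P161C

open MeasureTheory Vale.Agent.P161 Filter Topology

universe u

variable {V : Type u}

namespace ENV

/-! ### oddness -/

lemma at'_neg (x : ℝ) : at' (-x) = - at' x := by
  unfold at'
  have h : (1 + -x) / (1 - -x) = ((1 + x) / (1 - x))⁻¹ := by
    rw [inv_div, ← sub_eq_add_neg, sub_neg_eq_add]
  rw [h, Real.log_inv]
  ring

lemma ff_neg (θ l : ℝ) : ff θ (-l) = - ff θ l := by
  unfold ff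
  rw [Real.tanh_neg, mul_neg, at'_neg]

lemma sp_cases (b : Bool) : sp b = 1 ∨ sp b = -1 := by
  cases b <;> simp [sp]

lemma sp_mul_self (b : Bool) : sp b * sp b = 1 := by
  cases b <;> simp [sp]

lemma at'_sp (b : Bool) (x : ℝ) : at' (sp b * x) = sp b * at' x := by
  rcases sp_cases b with h | h <;> rw [h]
  · simp
  · rw [neg_one_mul, neg_one_mul, at'_neg]

lemma ff_sp (θ : ℝ) (b : Bool) (x : ℝ) : ff θ (sp b * x) = sp b * ff θ x := by
  rcases sp_cases b with h | h <;> rw [h]
  · simp
  · rw [neg_one_mul, neg_one_mul, ff_neg]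

/-! ### gauge-fixed messages -/

lemma mem_nb_adj {G : SimpleGraph V} {u c : V} (h : c ∈ nb G u) : G.Adj u c := by
  unfold nb at h
  split_ifs at h with hf
  · simpa using h
  · simp at h

lemma etaF_adj {G : SimpleGraph V} (σ : V → Bool) {u c : V} (h : G.Adj u c) :
    etaF G σ s(u, c) = (σ u == σ c) := by
  unfold etaF
  rw [if_pos (by simpa using h)]
  rfl

lemma msg_gauge (G : SimpleGraph V) (θ s : ℝ) (ω : Om V) (n : ℕ) (u p : V) :
    msg G θ n (yt s ω) u p = sp (ω.1 u) * msgh G θ n (etaF G ω.1, yh s ω) u p := by
  classical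
  induction n generalizing u p with
  | zero =>
    show yt s ω u = sp (ω.1 u) * (sp (ω.1 u) * yt s ω u)
    rw [← mul_assoc, sp_mul_self, one_mul]
  | succ n ih =>
    show yt s ω u + ∑ c ∈ (nb G u).erase p, ff θ (msg G θ n (yt s ω) c u)
      = sp (ω.1 u) * (sp (ω.1 u) * yt s ω u + ∑ c ∈ (nb G u).erase p,
          sp (etaF G ω.1 s(u, c)) * ff θ (msgh G θ n (etaF G ω.1, yh s ω) c u))
    rw [mul_add, ← mul_assoc, sp_mul_self, one_mul, Finset.mul_sum]
    congr 1
    refine Finset.sum_congr rfl fun c hc => ?_
    rw [etaF_adj ω.1 (mem_nb_adj (Finset.mem_of_mem_erase hc)), sp_beq, ih c u, ff_sp,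
      mul_assoc, ← mul_assoc (sp (ω.1 u)), sp_mul_self, one_mul]

/-! ### the law of the edge signs -/

open Classical in
/-- the endpoint of an edge which is farther from the root -/
noncomputable def chd (G : SimpleGraph V) (r : V) (e : Sym2 V) : V :=
  if h : ∃ v : V, v ≠ r ∧ e = s(v, par G r v) then h.choose else r

lemma chd_spec {G : SimpleGraph V} (hG : G.IsTree) {r : V} {e : Sym2 V} (he : e ∈ G.edgeSet) :
    chd G r e ≠ r ∧ e = s(chd G r e, par G r (chd G r e)) := by
  have h : ∃ v : V, v ≠ r ∧ e = s(v, par G r v) := by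
    induction e using Sym2.ind with
    | _ a b =>
      have hab : G.Adj a b := he
      rcases dist_split hG hab r with h1 | h1
      · -- dist b r = dist a r + 1
        have hb : b ≠ r := by
          rintro rfl
          rw [SimpleGraph.dist_self] at h1
          omega
        refine ⟨b, hb, ?_⟩
        rw [← eq_par hG hab.symm h1]
        exact Sym2.eq_swap
      · have ha : a ≠ r := by
          rintro rfl
          rw [SimpleGraph.dist_self] at h1
          omega
        refine ⟨a, ha, ?_⟩
        rw [← eq_par hG hab h1]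
  unfold chd
  rw [dif_pos h]
  exact h.choose_spec

lemma chd_inj {G : SimpleGraph V} (hG : G.IsTree) {r : V} {e e' : Sym2 V}
    (he : e ∈ G.edgeSet) (he' : e' ∈ G.edgeSet) (h : chd G r e = chd G r e') : e = e' := by
  rw [(chd_spec (r := r) hG he).2, (chd_spec (r := r) hG he').2, h]

open Classical in
/-- edge signs from the coins -/
noncomputable def Psi (G : SimpleGraph V) (r : V) (ω : V → Bool) (e : Sym2 V) : Bool :=
  if e ∈ G.edgeSet then ω (chd G r e) else true

lemma etaF_FF {G : SimpleGraph V} (hG : G.IsTree) (r : V) (ω : V → Bool) :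
    etaF G (FF G r ω) = Psi G r ω := by
  funext e
  unfold Psi etaF
  by_cases he : e ∈ G.edgeSet
  · rw [if_pos he, if_pos he]
    obtain ⟨h1, h2⟩ := chd_spec (r := r) hG he
    have h3 : agr (FF G r ω) e = agr (FF G r ω) s(chd G r e, par G r (chd G r e)) := by
      rw [← h2]
    rw [h3]
    show (FF G r ω (chd G r e) == FF G r ω (par G r (chd G r e))) = _
    rw [FF_succ hG h1]
    cases ω (chd G r e) <;> cases FF G r ω (par G r (chd G r e)) <;> rfl
  · rw [if_neg he, if_neg he]

lemma measurable_Psi (G : SimpleGraph V) (r : V) : Measurable (Psi G r) := by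
  rw [measurable_pi_iff]
  intro e
  unfold Psi
  by_cases he : e ∈ G.edgeSet
  · simp only [if_pos he]; exact measurable_pi_apply _
  · simp only [if_neg he]; exact measurable_const

lemma measurable_agr (e : Sym2 V) : Measurable fun σ : V → Bool => agr σ e := by
  induction e using Sym2.ind with
  | _ a b =>
    show Measurable fun σ : V → Bool => (σ a == σ b)
    have h : Measurable fun p : Bool × Bool => (p.1 == p.2) := measurable_of_countable _
    have h2 : Measurable fun σ : V → Bool => (σ a, σ b) :=
      (measurable_pi_apply a).prodMk (measurable_pi_apply b)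
    exact h.comp h2

lemma measurable_etaF (G : SimpleGraph V) : Measurable (etaF G) := by
  rw [measurable_pi_iff]
  intro e
  unfold etaF
  by_cases he : e ∈ G.edgeSet
  · simp only [if_pos he]; exact measurable_agr e
  · simp only [if_neg he]; exact measurable_const

open Classical in
lemma etaLaw_prob {θ : ℝ} (hθ : |θ| ≤ 1) (G : SimpleGraph V) (e : Sym2 V) :
    IsProbabilityMeasure (if e ∈ G.edgeSet then bern θ else Measure.dirac true) := by
  split_ifs
  · exact bern_isProb hθ
  · infer_instance

lemma map_Psi {G : SimpleGraph V} (hG : G.IsTree) (r : V) {θ : ℝ} (hθ : |θ| ≤ 1) :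
    (Measure.infinitePi (coin r θ)).map (Psi G r) = etaLaw G θ := by
  classical
  have hc : ∀ v, IsProbabilityMeasure (coin r θ v) := coin_isProb r hθ
  have hp : ∀ e : Sym2 V, IsProbabilityMeasure
    (if e ∈ G.edgeSet then bern θ else Measure.dirac true) := etaLaw_prob hθ G
  unfold etaLaw
  refine Measure.eq_infinitePi _ fun s t ht => ?_
  rw [Measure.map_apply (measurable_Psi G r) (MeasurableSet.pi s.countable_toSet fun i _ => ht i)]
  -- split `s` into edges and non-edges
  set s1 := s.filter fun e => e ∈ G.edgeSet with hs1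
  set s2 := s.filter fun e => ¬ e ∈ G.edgeSet with hs2
  have hprod : ∏ e ∈ s, (if e ∈ G.edgeSet then bern θ else Measure.dirac true) (t e)
      = (∏ e ∈ s1, bern θ (t e)) * ∏ e ∈ s2, (Measure.dirac true : Measure Bool) (t e) := by
    rw [← Finset.prod_filter_mul_prod_filter_not s (fun e => e ∈ G.edgeSet)]
    congr 1
    · refine Finset.prod_congr rfl fun e he => ?_
      rw [if_pos (Finset.mem_filter.1 he).2]
    · refine Finset.prod_congr rfl fun e he => ?_
      rw [if_neg (Finset.mem_filter.1 he).2]
  rw [hprod]
  by_cases hall : ∀ e ∈ s2, true ∈ t e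
  · have h2 : ∏ e ∈ s2, (Measure.dirac true : Measure Bool) (t e) = 1 := by
      refine Finset.prod_eq_one fun e he => ?_
      rw [Measure.dirac_apply' _ (ht e), Set.indicator_of_mem (hall e he)]
      rfl
    rw [h2, mul_one]
    -- the preimage is a box
    let t' : V → Set Bool := fun v => if h : ∃ e ∈ s1, chd G r e = v then t h.choose else Set.univ
    have ht' : ∀ e ∈ s1, t' (chd G r e) = t e := by
      intro e he
      have h : ∃ e' ∈ s1, chd G r e' = chd G r e := ⟨e, he, rfl⟩
      show (if h : ∃ e' ∈ s1, chd G r e' = chd G r e then t h.choose else Set.univ) = t e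
      rw [dif_pos h]
      have := chd_inj hG (Finset.mem_filter.1 h.choose_spec.1).2 (Finset.mem_filter.1 he).2
        h.choose_spec.2
      rw [this]
    have e1 : Psi G r ⁻¹' (Set.pi (s : Set (Sym2 V)) t)
        = Set.pi ((s1.image (chd G r) : Finset V) : Set V) t' := by
      ext ω
      simp only [Set.mem_preimage, Set.mem_pi, Finset.mem_coe, Finset.mem_image]
      constructor
      · rintro h v ⟨e, he, rfl⟩
        rw [ht' e he]
        have := h e (Finset.mem_filter.1 he).1
        unfold Psi at this
        rwa [if_pos (Finset.mem_filter.1 he).2] at this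
      · intro h e he
        unfold Psi
        by_cases hE : e ∈ G.edgeSet
        · rw [if_pos hE]
          have he1 : e ∈ s1 := Finset.mem_filter.2 ⟨he, hE⟩
          have := h (chd G r e) ⟨e, he1, rfl⟩
          rwa [ht' e he1] at this
        · rw [if_neg hE]
          exact hall e (Finset.mem_filter.2 ⟨he, hE⟩)
    rw [e1, Measure.infinitePi_pi]
    · rw [Finset.prod_image]
      · refine Finset.prod_congr rfl fun e he => ?_
        rw [ht' e he]
        have hne := (chd_spec (r := r) hG (Finset.mem_filter.1 he).2).1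
        unfold coin
        rw [if_neg hne]
      · intro e he e' he' h
        exact chd_inj hG (Finset.mem_filter.1 he).2 (Finset.mem_filter.1 he').2 h
    · intro v _
      exact MeasurableSet.of_discrete
  · push Not at hall
    obtain ⟨e, he, hne⟩ := hall
    have h2 : ∏ e ∈ s2, (Measure.dirac true : Measure Bool) (t e) = 0 := by
      refine Finset.prod_eq_zero he ?_
      rw [Measure.dirac_apply' _ (ht e), Set.indicator_of_notMem hne]
    rw [h2, mul_zero]
    have e1 : Psi G r ⁻¹' (Set.pi (s : Set (Sym2 V)) t) = ∅ := by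
      ext ω
      simp only [Set.mem_preimage, Set.mem_pi, Finset.mem_coe, Set.mem_empty_iff_false, iff_false]
      intro h
      have := h e (Finset.mem_filter.1 he).1
      unfold Psi at this
      rw [if_neg (Finset.mem_filter.1 he).2] at this
      exact hne this
    rw [e1, measure_empty]

end ENV

end Vale.Agent.P161C
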