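import Vale.Agent.P161C.EnvA

/-!
# P161C, module ENV, part B: the gauge-fixed fields are iid
-/

namespace Vale.Agent.P161C

open MeasureTheory Vale.Agent.P161 Filter Topology ProbabilityTheory

universe u

variable {V : Type u}

namespace ENV

/-- pairing two product measures -/
lemma map_pair {ι X Y : Type*} [MeasurableSpace X] [MeasurableSpace Y] (a : Measure X)
    (b : Measure Y) [IsProbabilityMeasure a] [IsProbabilityMeasure b] :
    ((Measure.infinitePi fun _ : ι => a).prod (Measure.infinitePi fun _ : ι => b)).map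
      (fun p i => (p.1 i, p.2 i)) = Measure.infinitePi fun _ : ι => a.prod b := by
  have hm : Measurable fun (p : (ι → X) × (ι → Y)) (i : ι) => (p.1 i, p.2 i) := by
    rw [measurable_pi_iff]
    intro i
    exact ((measurable_pi_apply i).comp measurable_fst).prodMk
      ((measurable_pi_apply i).comp measurable_snd)
  refine Measure.eq_infinitePi _ fun s t ht => ?_
  have hbox : MeasurableSet (Set.pi (s : Set ι) t) :=
    MeasurableSet.pi s.countable_toSet fun i _ => ht i
  rw [Measure.map_apply hm hbox, Measure.prod_apply (hm hbox)]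
  have e1 : ∀ x : ι → X, (Measure.infinitePi fun _ : ι => b)
      (Prod.mk x ⁻¹' ((fun (p : (ι → X) × (ι → Y)) (i : ι) => (p.1 i, p.2 i)) ⁻¹'
        (Set.pi (s : Set ι) t))) = ∏ i ∈ s, b (Prod.mk (x i) ⁻¹' (t i)) := by
    intro x
    have : Prod.mk x ⁻¹' ((fun (p : (ι → X) × (ι → Y)) (i : ι) => (p.1 i, p.2 i)) ⁻¹'
        (Set.pi (s : Set ι) t)) = Set.pi (s : Set ι) fun i => Prod.mk (x i) ⁻¹' (t i) := by
      ext y
      simp [Set.mem_pi]
    rw [this, Measure.infinitePi_pi]
    intro i _
    exact measurable_prodMk_left (ht i)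
  simp_rw [e1]
  have hf : ∀ i, Measurable fun y : X => b (Prod.mk y ⁻¹' (t i)) := fun i =>
    measurable_measure_prodMk_left (ht i)
  have hind : iIndepFun (fun (i : ι) (x : ι → X) => b (Prod.mk (x i) ⁻¹' (t i)))
      (Measure.infinitePi fun _ : ι => a) :=
    iIndepFun_infinitePi (P := fun _ : ι => a) (X := fun i y => b (Prod.mk y ⁻¹' (t i))) hf
  rw [lintegral_prod_eq_prod_lintegral_of_indepFun s _ hind
    (fun i => (hf i).comp (measurable_pi_apply i))]
  refine Finset.prod_congr rfl fun i _ => ?_
  rw [Measure.prod_apply (ht i)]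
  have h2 := (measurePreserving_eval_infinitePi (fun _ : ι => a) i).lintegral_comp (hf i)
  exact h2

/-- the rows of labels and noise -/
def row (p : (V × ℕ → I01) × (V × ℕ → I01)) (w : V) (j : ℕ) : I01 × I01 :=
  (p.1 (w, j), p.2 (w, j))

/-- the law of one row -/
noncomputable def rho : Measure (ℕ → I01 × I01) :=
  Measure.infinitePi fun _ : ℕ => (volume : Measure I01).prod (volume : Measure I01)

lemma measurable_row : Measurable (row (V := V)) := by
  rw [measurable_pi_iff]
  intro w
  rw [measurable_pi_iff]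
  intro j
  exact ((measurable_pi_apply (w, j)).comp measurable_fst).prodMk
    ((measurable_pi_apply (w, j)).comp measurable_snd)

lemma map_row : ((lam V).prod (lam V)).map row = Measure.infinitePi fun _ : V => rho := by
  have h1 := map_pair (ι := V × ℕ) (volume : Measure I01) (volume : Measure I01)
  have h2 := Measure.infinitePi_map_curry
    (fun (_ : V) (_ : ℕ) => (volume : Measure I01).prod (volume : Measure I01))
  have hm : Measurable fun (p : (V × ℕ → I01) × (V × ℕ → I01)) (i : V × ℕ) =>
      (p.1 i, p.2 i) := by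
    rw [measurable_pi_iff]
    intro i
    exact ((measurable_pi_apply i).comp measurable_fst).prodMk
      ((measurable_pi_apply i).comp measurable_snd)
  unfold rho
  rw [← h2, ← h1, Measure.map_map (MeasurableEquiv.measurable _) hm]
  rfl

/-- the gauge-fixed contribution of one event -/
noncomputable def gf (s : ℝ) (j : ℕ) (z : I01 × I01) : ℝ :=
  open Classical in
  if (j : ℝ) + (z.1 : ℝ) < s then at' (dl z.1 * (2 * (Qc (dl z.1) 1 z.2 : ℝ) - 1)) else 0

/-- the gauge-fixed field -/
noncomputable def HH (s : ℝ) (n : ℕ) (z : ℕ → I01 × I01) : ℝ := ∑ j ∈ Finset.range n, gf s j (z j)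

lemma sp_ep (ω : Om V) (k : V × ℕ) :
    sp (ω.1 k.1) * ep ω k = dl (ω.2.1 k) * (2 * (Qc (dl (ω.2.1 k)) 1 (ω.2.2 k) : ℝ) - 1) := by
  unfold ep obs
  by_cases h : ω.1 k.1 = true
  · rw [if_pos h, h]
    simp [sp]
  · rw [if_neg h]
    have h' : ω.1 k.1 = false := by simpa using h
    rw [h']
    simp only [sp, Bool.false_eq_true, if_false, unitInterval.coe_symm_eq]
    ring

lemma yh_eq (s : ℝ) (ω : Om V) (w : V) : yh s ω w = HH s ⌈s⌉₊ (row ω.2 w) := by
  unfold yh yt fld HH
  rw [Finset.mul_sum]
  refine Finset.sum_congr rfl fun j _ => ?_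
  unfold gf row
  by_cases h : (w, j) ∈ Is ω.2.1 s
  · have h' : (j : ℝ) + ((ω.2.1 (w, j) : I01) : ℝ) < s := h
    rw [if_pos h, if_pos h', ← at'_sp]
    exact congrArg at' (sp_ep ω (w, j))
  · have h' : ¬ ((j : ℝ) + ((ω.2.1 (w, j) : I01) : ℝ) < s) := h
    rw [if_neg h, if_neg h', mul_zero]

lemma measurable_dl : Measurable dl := by
  unfold dl
  exact (Measurable.sqrt (by fun_prop))

lemma measurable_Qc1 : Measurable fun z : I01 × I01 => (Qc (dl z.1) 1 z.2 : ℝ) := by
  unfold Qc
  have hd : Measurable fun z : I01 × I01 => dl z.1 := measurable_dl.comp measurable_fst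
  refine measurable_subtype_coe.comp (continuous_projIcc.measurable.comp ?_)
  refine Measurable.div ?_ ?_
  · fun_prop
  · refine Measurable.add ?_ (Measurable.sqrt ?_)
    · fun_prop
    · fun_prop

lemma measurable_at' : Measurable at' := by
  unfold at'
  fun_prop

lemma measurable_gf (s : ℝ) (j : ℕ) : Measurable (gf s j) := by
  unfold gf
  refine Measurable.ite ?_ ?_ measurable_const
  · exact measurableSet_lt (by fun_prop) measurable_const
  · have hd : Measurable fun z : I01 × I01 => dl z.1 := measurable_dl.comp measurable_fst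
    have hq := measurable_Qc1
    exact measurable_at'.comp (by fun_prop)

lemma measurable_HH (s : ℝ) (n : ℕ) : Measurable (HH s n) := by
  unfold HH
  exact Finset.measurable_sum _ fun j _ => (measurable_gf s j).comp (measurable_pi_apply j)

/-- the single-site law -/
noncomputable def nu (s : ℝ) (n : ℕ) : Measure ℝ := rho.map (HH s n)

instance : IsProbabilityMeasure rho := by unfold rho; infer_instance

instance (s : ℝ) (n : ℕ) : IsProbabilityMeasure (nu s n) :=
  Measure.isProbabilityMeasure_map (measurable_HH s n).aemeasurable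

lemma map_fields (s : ℝ) :
    ((lam V).prod (lam V)).map (fun p w => HH s ⌈s⌉₊ (row p w))
      = Measure.infinitePi fun _ : V => nu s ⌈s⌉₊ := by
  have h1 := Measure.infinitePi_map_pi (fun _ : V => rho) (Y := fun _ => ℝ)
    (f := fun _ => HH s ⌈s⌉₊) (fun _ => measurable_HH s _)
  have hm : Measurable fun (z : V → ℕ → I01 × I01) (w : V) => HH s ⌈s⌉₊ (z w) := by
    rw [measurable_pi_iff]
    intro w
    exact (measurable_HH s _).comp (measurable_pi_apply w)
  unfold nu
  rw [← h1, ← map_row, Measure.map_map hm measurable_row]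
  rfl

instance : IsProbabilityMeasure (lam V) := by unfold lam; infer_instance

lemma isFreeIsing_freeIsing {G : SimpleGraph V} (hG : G.IsTree) (r : V) {θ : ℝ}
    (hθ : |θ| ≤ 1) : IsFreeIsing G θ (freeIsing G r θ) := by
  classical
  intro D hD η
  obtain ⟨v0, hv0⟩ := exists_isTop hG r D hD
  rw [freeIsing_top hG r hθ _ D v0 hv0 rfl η]
  congr 2
  symm
  convert prod_edges hG r θ D v0 hv0 η

/-- the law of the edge signs -/
lemma map_etaF {G : SimpleGraph V} {θ : ℝ} (hG : G.IsTree) (h0 : 0 ≤ θ) (h1 : θ ≤ 1)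
    {μ : Measure (V → Bool)} (hμ : IsFreeIsing G θ μ) : μ.map (etaF G) = etaLaw G θ := by
  obtain ⟨r⟩ := hG.connected.nonempty
  have hθ : |θ| ≤ 1 := by rw [abs_of_nonneg h0]; exact h1
  have hμ' : μ = freeIsing G r θ :=
    isFreeIsing_unique hG.connected h0 h1 hμ (isFreeIsing_freeIsing hG r hθ)
  rw [hμ']
  unfold freeIsing
  rw [Measure.map_map (measurable_etaF G) (measurable_FF G r)]
  have : etaF G ∘ FF G r = Psi G r := by
    funext ω
    exact etaF_FF hG r ω
  rw [this, map_Psi hG r hθ]

lemma measurable_fieldrow (s : ℝ) :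
    Measurable fun (p : (V × ℕ → I01) × (V × ℕ → I01)) (w : V) => HH s ⌈s⌉₊ (row p w) := by
  rw [measurable_pi_iff]
  intro w
  exact (measurable_HH s _).comp ((measurable_pi_apply w).comp measurable_row)

/-- the law of the environment -/
lemma env_law {G : SimpleGraph V} {θ : ℝ} (hG : G.IsTree) (h0 : 0 ≤ θ) (h1 : θ ≤ 1)
    {μ : Measure (V → Bool)} (hμ : IsFreeIsing G θ μ) (s : ℝ) :
    (PP μ).map (fun ω => (etaF G ω.1, yh s ω)) = EE G θ (nu s ⌈s⌉₊) := by
  have hne : Nonempty V := hG.connected.nonempty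
  have hp : IsProbabilityMeasure μ := isProb_of_isFreeIsing hμ
  have e1 : (fun ω : Om V => (etaF G ω.1, yh s ω))
      = Prod.map (etaF G) (fun (p : (V × ℕ → I01) × (V × ℕ → I01)) (w : V) =>
        HH s ⌈s⌉₊ (row p w)) := by
    funext ω
    refine Prod.ext rfl ?_
    funext w
    exact yh_eq s ω w
  unfold PP EE
  rw [e1, ← map_etaF hG h0 h1 hμ, ← map_fields s, Measure.map_prod_map]
  · exact measurable_etaF G
  · exact measurable_fieldrow s

end ENV

end Vale.Agent.P161C
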