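import Vale.Agent.P161C.EnvB

/-!
# P161C, module ENV, part C: the single-site law
-/

namespace Vale.Agent.P161C

open MeasureTheory Vale.Agent.P161 Filter Topology ProbabilityTheory

universe u

variable {V : Type u}

namespace ENV

/-- reflection property: `T` changes the measure by the factor `exp (-2 Y)` -/
def RP {X : Type*} [MeasurableSpace X] (P : Measure X) (T : X → X) (Y : X → ℝ) : Prop :=
  ∀ F : X → ENNReal, Measurable F →
    ∫⁻ x, F (T x) ∂P = ∫⁻ x, F x * ENNReal.ofReal (Real.exp (-2 * Y x)) ∂P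

lemma exp_tanh (y : ℝ) : Real.exp (-2 * y) * (1 + Real.tanh y) = 1 - Real.tanh y := by
  rw [Real.tanh_eq_sinh_div_cosh, Real.sinh_eq, Real.cosh_eq]
  have h1 : Real.exp (-2 * y) = Real.exp (-y) * Real.exp (-y) := by
    rw [← Real.exp_add]; congr 1; ring
  have h2 : Real.exp y * Real.exp (-y) = 1 := by rw [← Real.exp_add]; simp
  have h3 := Real.exp_pos y
  have h4 := Real.exp_pos (-y)
  rw [h1]
  have h5 : Real.exp y + Real.exp (-y) ≠ 0 := by positivity
  field_simp
  linear_combination (2 * Real.exp (-y)) * h2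

lemma abs_tanh_le (y : ℝ) : |Real.tanh y| ≤ 1 :=
  abs_le.2 ⟨(Real.neg_one_lt_tanh y).le, (Real.tanh_lt_one y).le⟩

lemma measurable_tanh : Measurable Real.tanh := by
  have : Real.tanh = fun x => Real.sinh x / Real.cosh x := by
    funext x; exact Real.tanh_eq_sinh_div_cosh x
  rw [this]
  exact Real.measurable_sinh.div Real.measurable_cosh

lemma integrable_bdd {X : Type*} [MeasurableSpace X] {P : Measure X} [IsFiniteMeasure P]
    {f : X → ℝ} (hf : Measurable f) {C : ℝ} (hC : ∀ x, |f x| ≤ C) : Integrable f P :=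
  Integrable.of_bound hf.aestronglyMeasurable C (Eventually.of_forall hC)

lemma RP.nish {X : Type*} [MeasurableSpace X] {P : Measure X} [IsFiniteMeasure P] {T : X → X}
    {Y : X → ℝ} (h : RP P T Y) (hT : Measurable T) (hY : Measurable Y)
    (hYT : ∀ x, Y (T x) = -Y x) {ψ : X → ℝ} (hψ : Measurable ψ) {C : ℝ} (hC : ∀ x, |ψ x| ≤ C)
    (hψT : ∀ x, ψ (T x) = -ψ x) : ∫ x, ψ x ∂P = ∫ x, Real.tanh (Y x) * ψ x ∂P := by
  have hd : Measurable fun x => ENNReal.ofReal (Real.exp (-2 * Y x)) := by fun_prop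
  have hmap : P.map T = P.withDensity (fun x => ENNReal.ofReal (Real.exp (-2 * Y x))) := by
    refine Measure.ext_of_lintegral _ fun F hF => ?_
    rw [lintegral_map hF hT, h F hF, lintegral_withDensity_eq_lintegral_mul _ hd hF]
    refine lintegral_congr fun x => ?_
    rw [Pi.mul_apply, mul_comm]
  have htY : Measurable fun x => Real.tanh (Y x) := measurable_tanh.comp hY
  set G : X → ℝ := fun x => ψ x * (1 + Real.tanh (Y x)) with hGdef
  have hG : Measurable G := hψ.mul (htY.const_add 1)
  have e1 : ∫ x, G (T x) ∂P = ∫ x, Real.exp (-2 * Y x) * G x ∂P := by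
    rw [← integral_map hT.aemeasurable hG.aestronglyMeasurable, hmap,
      integral_withDensity_eq_integral_toReal_smul hd
        (Eventually.of_forall fun x => ENNReal.ofReal_lt_top)]
    refine integral_congr_ae (Filter.Eventually.of_forall fun x => ?_)
    simp only [smul_eq_mul]
    rw [ENNReal.toReal_ofReal (Real.exp_pos _).le]
  have e2 : ∀ x, G (T x) = -(ψ x * (1 - Real.tanh (Y x))) := by
    intro x
    simp only [hGdef]
    rw [hψT, hYT, Real.tanh_neg]; ring
  have e3 : ∀ x, Real.exp (-2 * Y x) * G x = ψ x * (1 - Real.tanh (Y x)) := by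
    intro x
    simp only [hGdef]
    rw [← exp_tanh]; ring
  simp_rw [e2, e3] at e1
  rw [integral_neg] at e1
  have e4 : ∫ x, ψ x * (1 - Real.tanh (Y x)) ∂P = 0 := by linarith
  have i1 : Integrable ψ P := integrable_bdd hψ hC
  have i2 : Integrable (fun x => Real.tanh (Y x) * ψ x) P := by
    refine integrable_bdd (C := C) (htY.mul hψ) fun x => ?_
    rw [abs_mul]
    have := abs_tanh_le (Y x)
    have := hC x
    nlinarith [abs_nonneg (ψ x), abs_nonneg (Real.tanh (Y x))]
  rw [← sub_eq_zero, ← integral_sub i1 i2, ← e4]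
  refine integral_congr_ae (Filter.Eventually.of_forall fun x => ?_)
  simp only
  ring

lemma RP.prod {X X' : Type*} [MeasurableSpace X] [MeasurableSpace X'] {P : Measure X}
    {P' : Measure X'} [SFinite P] [SFinite P'] {T : X → X} {T' : X' → X'} {Y : X → ℝ} {Y' : X' → ℝ}
    (h : RP P T Y) (h' : RP P' T' Y') (hT : Measurable T) (hT' : Measurable T')
    (hY : Measurable Y) (hY' : Measurable Y') :
    RP (P.prod P') (Prod.map T T') (fun p => Y p.1 + Y' p.2) := by
  intro F hF
  have m1 : Measurable fun p : X × X' => F (Prod.map T T' p) := hF.comp (hT.prodMap hT')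
  have m2 : Measurable fun p : X × X' => F p * ENNReal.ofReal (Real.exp (-2 * (Y p.1 + Y' p.2))) := by
    fun_prop
  rw [lintegral_prod _ m1.aemeasurable, lintegral_prod _ m2.aemeasurable]
  have e1 : ∀ x, ∫⁻ y, F (Prod.map T T' (x, y)) ∂P'
      = ∫⁻ y, F (T x, y) * ENNReal.ofReal (Real.exp (-2 * Y' y)) ∂P' := by
    intro x
    exact h' (fun y => F (T x, y)) (hF.comp measurable_prodMk_left)
  simp_rw [e1]
  have mH : Measurable fun x => ∫⁻ y, F (x, y) * ENNReal.ofReal (Real.exp (-2 * Y' y)) ∂P' := by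
    apply Measurable.lintegral_prod_right'
      (f := fun p : X × X' => F p * ENNReal.ofReal (Real.exp (-2 * Y' p.2)))
    fun_prop
  rw [h _ mH]
  refine lintegral_congr fun x => ?_
  rw [← lintegral_mul_const _ (by fun_prop)]
  refine lintegral_congr fun y => ?_
  have : Real.exp (-2 * (Y x + Y' y)) = Real.exp (-2 * Y' y) * Real.exp (-2 * Y x) := by
    rw [← Real.exp_add]; congr 1; ring
  rw [this, ENNReal.ofReal_mul (Real.exp_pos _).le, mul_assoc]

lemma RP.map {X X' : Type*} [MeasurableSpace X] [MeasurableSpace X'] {P : Measure X}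
    {T : X → X} {T' : X' → X'} {Y : X → ℝ} {Y' : X' → ℝ} (h : RP P T Y) {g : X → X'}
    (hg : Measurable g) (hT' : Measurable T') (hY' : Measurable Y')
    (h1 : ∀ x, g (T x) = T' (g x)) (h2 : ∀ x, Y' (g x) = Y x) : RP (P.map g) T' Y' := by
  intro F hF
  have m1 : Measurable fun x => F (T' x) := hF.comp hT'
  have m2 : Measurable fun x => F x * ENNReal.ofReal (Real.exp (-2 * Y' x)) := by fun_prop
  rw [lintegral_map m1 hg, lintegral_map m2 hg]
  simp_rw [h2, ← h1]
  exact h (fun x => F (g x)) (hF.comp hg)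

end ENV

end Vale.Agent.P161C
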