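import Vale.Agent.P161C.EnvC

/-!
# P161C, module ENV, part D: the law of one event
-/

namespace Vale.Agent.P161C

open MeasureTheory Vale.Agent.P161 Filter Topology ProbabilityTheory

universe u

variable {V : Type u}

namespace ENV

lemma at'_eq {x : ℝ} (h : |x| < 1) : at' x = Real.artanh x := by
  have h1 := (abs_lt.1 h).1
  have h2 := (abs_lt.1 h).2
  rw [Real.artanh_eq_half_log ⟨h1.le, h2.le⟩]
  unfold at'
  ring

lemma tanh_at' {x : ℝ} (h : |x| < 1) : Real.tanh (at' x) = x := by
  rw [at'_eq h]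
  exact Real.tanh_artanh (abs_lt.1 h)

lemma exp_at' {x : ℝ} (h : |x| < 1) : (1 + x) * Real.exp (-2 * at' x) = 1 - x := by
  have h1 := exp_tanh (at' x)
  rw [tanh_at' h] at h1
  linarith

lemma at'_abs {x : ℝ} (h : |x| ≤ 1 / 2) : |at' x| ≤ at' (1 / 2) := by
  have h1 : |x| < 1 := by linarith
  have h2 := (abs_le.1 h).1
  have h3 := (abs_le.1 h).2
  have hh : |(1 / 2 : ℝ)| < 1 := by rw [abs_of_pos] <;> norm_num
  rw [abs_le]
  constructor
  · have h4 : |(-(1 / 2) : ℝ)| < 1 := by rw [abs_neg]; exact hh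
    rw [← at'_neg, at'_eq h4, at'_eq h1]
    exact Real.artanh_le_artanh (by norm_num) (by linarith) h2
  · rw [at'_eq hh, at'_eq h1]
    exact Real.artanh_le_artanh (by linarith) (by norm_num) h3

lemma dl_nonneg (t : I01) : 0 ≤ dl t := Real.sqrt_nonneg _

lemma dl_sq (t : I01) : dl t ^ 2 = t * (1 - t) :=
  Real.sq_sqrt (mul_nonneg t.2.1 (by linarith [t.2.2]))

lemma dl_le (t : I01) : dl t ≤ 1 / 2 := by
  have h1 := dl_sq t
  have h2 : (t : ℝ) * (1 - t) ≤ (1 / 2) ^ 2 := by nlinarith [sq_nonneg ((t : ℝ) - 1 / 2)]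
  have h3 := dl_nonneg t
  nlinarith

lemma dl_abs (t : I01) : |dl t * 1| ≤ 1 / 2 := by
  rw [mul_one, abs_of_nonneg (dl_nonneg t)]; exact dl_le t

lemma two_sub_abs (t : I01) : |2 * (t : ℝ) - 1| ≤ 1 := by
  rw [abs_le]; constructor <;> linarith [t.2.1, t.2.2]

lemma eps_abs (u t : I01) : |dl u * (2 * (t : ℝ) - 1)| ≤ 1 / 2 := by
  rw [abs_mul, abs_of_nonneg (dl_nonneg u)]
  have := dl_le u
  have := two_sub_abs t
  have := dl_nonneg u
  nlinarith [abs_nonneg (2 * (t : ℝ) - 1)]

lemma eps_lt (u t : I01) : |dl u * (2 * (t : ℝ) - 1)| < 1 := by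
  have := eps_abs u t
  linarith

lemma gf_abs (s : ℝ) (j : ℕ) (z : I01 × I01) : |gf s j z| ≤ at' (1 / 2) := by
  unfold gf
  split_ifs
  · exact at'_abs (eps_abs _ _)
  · rw [abs_zero]
    have := at'_abs (x := 0) (by rw [abs_zero]; norm_num)
    exact (abs_nonneg _).trans this

lemma HH_abs (s : ℝ) (n : ℕ) (z : ℕ → I01 × I01) : |HH s n z| ≤ n * at' (1 / 2) := by
  unfold HH
  refine (Finset.abs_sum_le_sum_abs _ _).trans ?_
  refine (Finset.sum_le_sum fun j _ => gf_abs s j (z j)).trans ?_
  rw [Finset.sum_const, Finset.card_range, nsmul_eq_mul]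

/-- the law of one event -/
noncomputable def nu1 (s : ℝ) (j : ℕ) : Measure ℝ :=
  ((volume : Measure I01).prod (volume : Measure I01)).map (gf s j)

instance (s : ℝ) (j : ℕ) : IsProbabilityMeasure (nu1 s j) :=
  Measure.isProbabilityMeasure_map (measurable_gf s j).aemeasurable

lemma measurable_Qcu (u : I01) : Measurable (Qc (dl u) 1) :=
  (measurable_Qc (dl u)).comp (measurable_const.prodMk measurable_id)

lemma lintegral_Qc1 (u : I01) (f : I01 → ENNReal) (hf : Measurable f) :
    ∫⁻ q : I01, f (Qc (dl u) 1 q)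
      = ∫⁻ t : I01, ENNReal.ofReal (1 + dl u * (2 * (t : ℝ) - 1)) * f t := by
  rw [← lintegral_Fc (dl_abs u) (fun q => f (Qc (dl u) 1 q)) (hf.comp (measurable_Qcu u))]
  refine lintegral_congr fun t => ?_
  rw [Qc_Fc (dl_abs u), mul_one]

lemma RP_event (s : ℝ) (j : ℕ) (F : ℝ → ENNReal) (hF : Measurable F) :
    ∫⁻ z : I01 × I01, F (-gf s j z)
      = ∫⁻ z : I01 × I01, F (gf s j z) * ENNReal.ofReal (Real.exp (-2 * gf s j z)) := by
  have hg := measurable_gf s j
  have m1 : Measurable fun z : I01 × I01 => F (-gf s j z) := hF.comp hg.neg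
  have m2 : Measurable fun z : I01 × I01 => F (gf s j z) *
    ENNReal.ofReal (Real.exp (-2 * gf s j z)) := by fun_prop
  have hv : (volume : Measure (I01 × I01)) = (volume : Measure I01).prod volume := rfl
  rw [hv, lintegral_prod _ m1.aemeasurable, lintegral_prod _ m2.aemeasurable]
  refine lintegral_congr fun u => ?_
  by_cases h : (j : ℝ) + (u : ℝ) < s
  · have e : ∀ q : I01, gf s j (u, q) = at' (dl u * (2 * (Qc (dl u) 1 q : ℝ) - 1)) := by
      intro q
      unfold gf
      exact if_pos h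
    simp_rw [e]
    have ma : Measurable fun t : I01 => at' (dl u * (2 * (t : ℝ) - 1)) :=
      measurable_at'.comp (by fun_prop)
    have n1 : Measurable fun t : I01 => F (-at' (dl u * (2 * (t : ℝ) - 1))) := hF.comp ma.neg
    have n2 : Measurable fun t : I01 => F (at' (dl u * (2 * (t : ℝ) - 1))) *
      ENNReal.ofReal (Real.exp (-2 * at' (dl u * (2 * (t : ℝ) - 1)))) := by fun_prop
    rw [lintegral_Qc1 u (fun t => F (-at' (dl u * (2 * (t : ℝ) - 1)))) n1,
      lintegral_Qc1 u (fun t => F (at' (dl u * (2 * (t : ℝ) - 1))) *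
        ENNReal.ofReal (Real.exp (-2 * at' (dl u * (2 * (t : ℝ) - 1))))) n2]
    have h1 := unitInterval.measurePreserving_symm.lintegral_comp
      (f := fun t : I01 => ENNReal.ofReal (1 + dl u * (2 * (t : ℝ) - 1)) *
        F (-at' (dl u * (2 * (t : ℝ) - 1)))) (by fun_prop)
    rw [← h1]
    refine lintegral_congr fun t => ?_
    have e1 : dl u * (2 * ((unitInterval.symm t : I01) : ℝ) - 1) = -(dl u * (2 * (t : ℝ) - 1)) := by
      rw [unitInterval.coe_symm_eq]; ring
    have h2 := exp_at' (eps_lt u t)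
    have h3 := eps_abs u t
    have h4 : 0 ≤ 1 + dl u * (2 * (t : ℝ) - 1) := by linarith [(abs_le.1 h3).1]
    rw [e1, at'_neg, neg_neg, ← sub_eq_add_neg, ← h2, ENNReal.ofReal_mul h4]
    ring
  · have e : ∀ q : I01, gf s j (u, q) = 0 := by
      intro q
      unfold gf
      exact if_neg h
    simp_rw [e]
    simp

lemma RP_nu1 (s : ℝ) (j : ℕ) : RP (nu1 s j) (fun y => -y) (fun y => y) := by
  intro F hF
  unfold nu1
  have m1 : Measurable fun y : ℝ => F (-y) := hF.comp measurable_neg
  have m2 : Measurable fun y : ℝ => F y * ENNReal.ofReal (Real.exp (-2 * y)) := by fun_prop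
  rw [lintegral_map m1 (measurable_gf s j), lintegral_map m2 (measurable_gf s j)]
  exact RP_event s j F hF

lemma nu_succ (s : ℝ) (n : ℕ) :
    nu s (n + 1) = ((nu s n).prod (nu1 s n)).map (fun p => p.1 + p.2) := by
  have hind : iIndepFun (fun (j : ℕ) (z : ℕ → I01 × I01) => gf s j (z j)) rho :=
    iIndepFun_infinitePi (P := fun _ : ℕ => (volume : Measure I01).prod (volume : Measure I01))
      (X := gf s) (measurable_gf s)
  have hm : ∀ j : ℕ, Measurable fun z : ℕ → I01 × I01 => gf s j (z j) :=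
    fun j => (measurable_gf s j).comp (measurable_pi_apply j)
  have h2 : IndepFun (∑ j ∈ Finset.range n, fun z : ℕ → I01 × I01 => gf s j (z j))
      (fun z => gf s n (z n)) rho :=
    hind.indepFun_finsetSum_of_notMem hm (by simp)
  have e0 : (∑ j ∈ Finset.range n, fun z : ℕ → I01 × I01 => gf s j (z j)) = HH s n := by
    funext z
    rw [Finset.sum_apply]
    rfl
  rw [e0] at h2
  have h3 := h2.map_prod_eq_prod_map_map (measurable_HH s n).aemeasurable (hm n).aemeasurable
  have h4 : rho.map (fun z => gf s n (z n)) = nu1 s n := by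
    unfold nu1
    rw [← (measurePreserving_eval_infinitePi
      (fun _ : ℕ => (volume : Measure I01).prod (volume : Measure I01)) n).map_eq,
      Measure.map_map (measurable_gf s n) (measurable_pi_apply n)]
    rfl
  rw [h4] at h3
  have h5 : nu s n = rho.map (HH s n) := rfl
  rw [h5, ← h3, Measure.map_map (by fun_prop) ((measurable_HH s n).prodMk (hm n))]
  unfold nu
  congr 1
  funext z
  unfold HH
  rw [Finset.sum_range_succ]
  rfl

lemma RP_nu (s : ℝ) (n : ℕ) : RP (nu s n) (fun y => -y) (fun y => y) := by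
  induction n with
  | zero =>
    intro F hF
    have : nu s 0 = Measure.dirac 0 := by
      unfold nu
      have : HH s 0 = fun _ => 0 := by funext z; simp [HH]
      rw [this, Measure.map_const, measure_univ, one_smul]
    have m1 : Measurable fun x : ℝ => F (-x) := hF.comp measurable_neg
    have m2 : Measurable fun x : ℝ => F x * ENNReal.ofReal (Real.exp (-2 * x)) := by fun_prop
    show ∫⁻ x, F (-x) ∂(nu s 0) = ∫⁻ x, F x * ENNReal.ofReal (Real.exp (-2 * x)) ∂(nu s 0)
    rw [this, lintegral_dirac' _ m1, lintegral_dirac' _ m2]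
    simp
  | succ n ih =>
    rw [nu_succ]
    refine ((ih.prod (RP_nu1 s n) measurable_neg measurable_neg measurable_id
      measurable_id).map (g := fun p : ℝ × ℝ => p.1 + p.2) (by fun_prop) measurable_neg
      measurable_id ?_ ?_)
    · intro x
      simp only [Prod.map]
      ring
    · intro x
      rfl

end ENV

end Vale.Agent.P161C
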