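import Vale.Agent.P161C.Bas
import Vale.Agent.P161.Equi
import Vale.Agent.P161.IsingUniq

/-!
# P161 critical point: symmetries (module EQUI)
-/

namespace Vale.Agent.P161C.EQ

open MeasureTheory Vale.Agent.P161 Filter Topology Vale.Agent.P161C.PO

universe u

variable {V : Type u} {G : SimpleGraph V} {d : ℕ} {θ : ℝ}

/-! ## Action of automorphisms: fields and messages -/

lemma kap_act (g : V ≃ V) (ω : Om V) (k : V × ℕ) :
    kap (act g ω).2.1 (g k.1, k.2) = kap ω.2.1 k := by
  simp [kap, act]

lemma dl_act (g : V ≃ V) (ω : Om V) (k : V × ℕ) :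
    dl ((act g ω).2.1 (g k.1, k.2)) = dl (ω.2.1 k) := by
  simp [act]

lemma obs_act (g : V ≃ V) (ω : Om V) (k : V × ℕ) :
    obs (act g ω) (g k.1, k.2) = obs ω k := by
  simp [obs, act]

lemma ep_act (g : V ≃ V) (ω : Om V) (k : V × ℕ) :
    ep (act g ω) (g k.1, k.2) = ep ω k := by
  unfold ep
  rw [obs_act, dl_act]

lemma yt_act (g : V ≃ V) (s : ℝ) (ω : Om V) (w : V) : yt s (act g ω) (g w) = yt s ω w := by
  classical
  unfold yt fld
  apply Finset.sum_congr rfl
  intro j _
  have h1 : ep (act g ω) (g w, j) = ep ω (w, j) := ep_act g ω (w, j)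
  have h2 : kap (act g ω).2.1 (g w, j) = kap ω.2.1 (w, j) := kap_act g ω (w, j)
  rw [h1]
  have h3 : ((g w, j) ∈ Is (act g ω).2.1 s) ↔ ((w, j) ∈ Is ω.2.1 s) := by
    unfold Is
    rw [Set.mem_ofPred_eq, Set.mem_ofPred_eq, h2]
  by_cases h : (w, j) ∈ Is ω.2.1 s
  · rw [if_pos h, if_pos (h3.2 h)]
  · rw [if_neg h, if_neg fun h' => h (h3.1 h')]

lemma msg_act (h : Crit G d θ) (g : G ≃g G) (n : ℕ) (y y' : V → ℝ)
    (hy : ∀ w, y' (g w) = y w) (u p : V) :
    msg G θ n y' (g u) (g p) = msg G θ n y u p := by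
  classical
  induction n generalizing u p with
  | zero => exact hy u
  | succ n ih =>
    rw [msg_succ, msg_succ, hy]
    congr 1
    refine (Finset.sum_nbij' g g.symm ?_ ?_ ?_ ?_ ?_).symm
    · intro c hc
      rw [Finset.mem_erase, Crit.mem_nb h] at hc ⊢
      exact ⟨fun e => hc.1 (g.injective e), g.map_rel_iff.2 hc.2⟩
    · intro c hc
      rw [Finset.mem_erase, Crit.mem_nb h] at hc ⊢
      refine ⟨fun e => hc.1 ?_, ?_⟩
      · rw [← e]; simp
      · have := g.symm.map_rel_iff.2 hc.2
        simpa using this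
    · intro c _
      simp
    · intro c _
      simp
    · intro c _
      rw [ih]

lemma Lm_act (h : Crit G d θ) (g : G ≃g G) (y y' : V → ℝ)
    (hy : ∀ w, y' (g w) = y w) (u p : V) :
    Lm G θ y' (g u) (g p) = Lm G θ y u p := by
  unfold Lm
  simp only [msg_act h g _ y y' hy u p]

lemma Lt_act (h : Crit G d θ) (g : G ≃g G) (s : ℝ) (ω : Om V) (u p : V) :
    Lt G θ s (act g.toEquiv ω) (g u) (g p) = Lt G θ s ω u p :=
  Lm_act h g _ _ (fun w => yt_act g.toEquiv s ω w) u p

lemma mt_act (h : Crit G d θ) (g : G ≃g G) (s : ℝ) (ω : Om V) (v : V) :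
    mt G θ s (act g.toEquiv ω) (g v) = mt G θ s ω v := by
  unfold mt Mm
  rw [Lm_act h g _ _ (fun w => yt_act g.toEquiv s ω w) v v]

lemma inn_act (h : Crit G d θ) (g : G ≃g G) (ω : Om V) (k : V × ℕ) :
    inn G θ (act g.toEquiv ω) (g k.1, k.2) = inn G θ ω k := by
  have h1 : kap (act g.toEquiv ω).2.1 (g k.1, k.2) = kap ω.2.1 k := kap_act g.toEquiv ω k
  have h2 : obs (act g.toEquiv ω) (g k.1, k.2) = obs ω k := obs_act g.toEquiv ω k
  have h3 : dl ((act g.toEquiv ω).2.1 (g k.1, k.2)) = dl (ω.2.1 k) := dl_act g.toEquiv ω k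
  unfold inn
  rw [h1, h2, h3]
  congr 1
  exact mt_act h g _ ω k.1

/-! ## The global flip -/

lemma obs_flp (ω : Om V) (k : V × ℕ) : obs (flp ω) k = unitInterval.symm (obs ω k) := by
  unfold obs flp
  cases h : ω.1 k.1 <;> simp [h]

lemma ep_flp (ω : Om V) (k : V × ℕ) : ep (flp ω) k = - ep ω k := by
  unfold ep
  rw [obs_flp]
  have : dl ((flp ω).2.1 k) = dl (ω.2.1 k) := rfl
  rw [this, unitInterval.coe_symm_eq]
  ring

lemma yt_flp (s : ℝ) (ω : Om V) (w : V) : yt s (flp ω) w = - yt s ω w := by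
  classical
  unfold yt fld
  rw [← Finset.sum_neg_distrib]
  apply Finset.sum_congr rfl
  intro j _
  have h3 : (flp ω).2.1 = ω.2.1 := rfl
  rw [h3, ep_flp, at'_neg]
  split_ifs <;> simp

lemma msg_neg (n : ℕ) (y : V → ℝ) (u p : V) :
    msg G θ n (fun w => - y w) u p = - msg G θ n y u p := by
  classical
  induction n generalizing u p with
  | zero => rfl
  | succ n ih =>
    rw [msg_succ, msg_succ, neg_add, ← Finset.sum_neg_distrib]
    congr 1
    apply Finset.sum_congr rfl
    intro c _
    rw [ih, ff_neg]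

lemma limsup_neg' (x : ℕ → ℝ) : limsup (fun n => - x n) atTop = - liminf x atTop := by
  rw [limsup_eq, liminf_eq, Real.sInf_def]
  congr 2
  ext a
  rw [Set.mem_neg, Set.mem_ofPred_eq, Set.mem_ofPred_eq]
  constructor
  · intro h
    filter_upwards [h] with n hn
    linarith
  · intro h
    filter_upwards [h] with n hn
    linarith

lemma Lm_neg (y : V → ℝ) (u p : V) : Lm G θ (fun w => - y w) u p = - Lm G θ y u p := by
  unfold Lm
  simp only [msg_neg]
  have h1 := limsup_neg' fun n => msg G θ n y u p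
  have h2 := limsup_neg' fun n => - msg G θ n y u p
  simp only [neg_neg] at h2
  rw [h1, h2]
  ring

lemma Lt_flp (s : ℝ) (ω : Om V) (u p : V) : Lt G θ s (flp ω) u p = - Lt G θ s ω u p := by
  unfold Lt
  have : yt s (flp ω) = fun w => - yt s ω w := by
    funext w
    exact yt_flp s ω w
  rw [this, Lm_neg]

lemma mt_flp (s : ℝ) (ω : Om V) (v : V) : mt G θ s (flp ω) v = - mt G θ s ω v := by
  have := Lt_flp (G := G) (θ := θ) s ω v v
  unfold Lt at this
  unfold mt Mm
  rw [this, Real.tanh_neg]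

lemma Fc_flp (δ m : ℝ) (x : I01) :
    Fc δ (-m) (unitInterval.symm x) = unitInterval.symm (Fc δ m x) := by
  unfold Fc
  apply Subtype.ext
  rw [unitInterval.coe_symm_eq, Set.coe_projIcc]
  rw [unitInterval.coe_symm_eq, Set.coe_projIcc]
  have e : 1 - (x : ℝ) + δ * -m * ((1 - (x : ℝ)) ^ 2 - (1 - (x : ℝ)))
      = 1 - ((x : ℝ) + δ * m * ((x : ℝ) ^ 2 - x)) := by ring
  rw [e]
  generalize (x : ℝ) + δ * m * ((x : ℝ) ^ 2 - x) = t
  rcases le_total t 0 with h | h
  · rw [min_eq_left (by linarith), max_eq_right (by linarith), min_eq_right (by linarith : t ≤ 1),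
      max_eq_left h]
    ring
  · rcases le_total t 1 with h' | h'
    · rw [min_eq_right (by linarith), max_eq_right (by linarith), min_eq_right h', max_eq_right h]
    · rw [min_eq_right (by linarith), max_eq_left (by linarith), min_eq_left h',
        max_eq_right (by norm_num)]
      ring

lemma inn_flp (ω : Om V) (k : V × ℕ) :
    inn G θ (flp ω) k = unitInterval.symm (inn G θ ω k) := by
  unfold inn
  have h : (flp ω).2.1 = ω.2.1 := rfl
  rw [h, mt_flp, obs_flp, Fc_flp]

/-! ## Invariance of the sigma-algebras -/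

lemma act_symm_act (g : V ≃ V) (ω : Om V) : act g.symm (act g ω) = ω := by
  unfold act
  simp

lemma flp_flp (ω : Om V) : flp (flp ω) = ω := by
  unfold flp
  simp

open Classical in
lemma trG_act (h : Crit G d θ) (g : G ≃g G) (s : ℝ) (ω : Om V) (k : V × ℕ) :
    trG G θ s (act g.toEquiv ω) (g k.1, k.2) = trG G θ s ω k := by
  unfold trG
  have h1 : kap (act g.toEquiv ω).2.1 (g k.1, k.2) = kap ω.2.1 k := kap_act g.toEquiv ω k
  have h2 : (act g.toEquiv ω).2.1 (g k.1, k.2) = ω.2.1 k := by
    change ω.2.1 (g.symm (g k.1), k.2) = ω.2.1 k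
    rw [RelIso.symm_apply_apply]
  rw [h1, h2, inn_act h]

/-- permutation of the coordinates -/
def prm (g : V ≃ V) (x : V × ℕ → ℝ × ℝ) : V × ℕ → ℝ × ℝ := fun k => x (g.symm k.1, k.2)

lemma measurable_prm (g : V ≃ V) : Measurable (prm g) := by
  unfold prm
  exact measurable_pi_lambda _ fun k => measurable_pi_apply _

lemma trG_act' (h : Crit G d θ) (g : G ≃g G) (s : ℝ) :
    trG G θ s ∘ act g.toEquiv = prm g.toEquiv ∘ trG G θ s := by
  funext ω
  funext k
  have := trG_act h g s ω (g.symm k.1, k.2)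
  simp only [RelIso.apply_symm_apply] at this
  exact this

lemma comap_act_le (h : Crit G d θ) (g : G ≃g G) (s : ℝ) :
    (GG G θ s).comap (act g.toEquiv) ≤ GG G θ s := by
  unfold GG
  rw [MeasurableSpace.comap_comp, trG_act' h, ← MeasurableSpace.comap_comp]
  apply MeasurableSpace.comap_mono
  exact (measurable_prm g.toEquiv).comap_le

open Classical in
/-- flip of the innovations -/
noncomputable def pfl (x : V × ℕ → ℝ × ℝ) : V × ℕ → ℝ × ℝ := fun k =>
  if (x k).1 = 2 then (2, 2) else ((x k).1, 1 - (x k).2)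

lemma measurable_pfl : Measurable (pfl (V := V)) := by
  unfold pfl
  apply measurable_pi_lambda
  intro k
  have h1 : Measurable fun x : V × ℕ → ℝ × ℝ => x k := measurable_pi_apply k
  refine Measurable.ite ?_ measurable_const ?_
  · exact measurableSet_eq_fun h1.fst measurable_const
  · exact h1.fst.prodMk (measurable_const.sub h1.snd)

lemma trG_flp (s : ℝ) : trG G θ s ∘ flp = pfl ∘ trG G θ s := by
  classical
  funext ω
  funext k
  simp only [Function.comp_apply]
  have h : (flp ω).2.1 = ω.2.1 := rfl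
  unfold pfl trG
  rw [h, inn_flp]
  by_cases hk : kap ω.2.1 k < s
  · simp only [if_pos hk]
    have h2 : ((ω.2.1 k : ℝ)) ≠ 2 := by
      have := (ω.2.1 k).2.2
      intro h3
      rw [h3] at this
      norm_num at this
    rw [if_neg h2, unitInterval.coe_symm_eq]
  · simp only [if_neg hk]
    simp

lemma comap_flp_le (s : ℝ) : (GG G θ s).comap flp ≤ GG G θ s := by
  unfold GG
  rw [MeasurableSpace.comap_comp, trG_flp, ← MeasurableSpace.comap_comp]
  apply MeasurableSpace.comap_mono
  exact measurable_pfl.comap_le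

lemma invG (h : Crit G d θ) (s : ℝ) (hm : Measurable (trG G θ s)) : InvG G (GG G θ s) := by
  have hle : GG G θ s ≤ Prod.instMeasurableSpace := by
    unfold GG
    exact hm.comap_le
  refine ⟨hle, fun g => ?_, ?_⟩
  · apply le_antisymm (comap_act_le h g s)
    have h1 := MeasurableSpace.comap_mono (g := act g.toEquiv) (comap_act_le h g.symm s)
    rw [MeasurableSpace.comap_comp] at h1
    have h2 : act g.symm.toEquiv ∘ act g.toEquiv = id := by
      funext ω
      exact act_symm_act g.toEquiv ω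
    rw [h2, MeasurableSpace.comap_id] at h1
    exact h1
  · apply le_antisymm (comap_flp_le s)
    have h1 := MeasurableSpace.comap_mono (g := flp) (comap_flp_le (G := G) (θ := θ) s)
    rw [MeasurableSpace.comap_comp] at h1
    have h2 : flp ∘ flp = (id : Om V → Om V) := by
      funext ω
      exact flp_flp ω
    rw [h2, MeasurableSpace.comap_id] at h1
    exact h1

/-! ## Measure preservation -/

lemma mp_gx (g : V ≃ V) : MeasurePreserving (gx g) (lam V) (lam V) := by
  refine ⟨?_, ?_⟩
  · unfold gx; fun_prop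
  · unfold lam gx
    exact Measure.map_infinitePi_infinitePi_of_inj
      (P := fun _ : V × ℕ => (volume : Measure I01)) (gk g).symm.injective

lemma mu_act (h : Crit G d θ) {μ : Measure (V → Bool)} (hμ : IsFreeIsing G θ μ) (g : G ≃g G) :
    μ.map (fun σ v => σ (g.symm v)) = μ :=
  isFreeIsing_unique h.tree.connected h.pos.le (Crit.th_lt h).le (isFreeIsing_map hμ g) hμ

lemma sp_not (b : Bool) : sp (!b) = - sp b := by
  cases b <;> simp [sp]

lemma isFreeIsing_flip {μ : Measure (V → Bool)} (h : IsFreeIsing G θ μ) :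
    IsFreeIsing G θ (μ.map fun σ v => !σ v) := by
  classical
  intro D hD η
  have hm : Measurable fun (σ : V → Bool) (v : V) => !σ v := by
    apply measurable_pi_lambda
    intro v
    exact (measurable_of_countable (fun b : Bool => !b)).comp (measurable_pi_apply v)
  rw [Measure.map_apply hm (Vale.Agent.P161.measurableSet_cyl D η)]
  have e : (fun (σ : V → Bool) (v : V) => !σ v) ⁻¹' {σ | ∀ v ∈ D, σ v = η v}
      = {σ | ∀ v ∈ D, σ v = (fun v => !η v) v} := by
    ext σ
    simp only [Set.mem_preimage, Set.mem_ofPred_eq]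
    constructor
    · intro h v hv
      rw [← h v hv]; simp
    · intro h v hv
      rw [h v hv]; simp
  rw [e, h D hD]
  congr 2
  apply Finset.prod_congr rfl
  intro e _
  induction e using Sym2.ind with
  | _ a b =>
    change (1 + θ * sp (!η a) * sp (!η b)) / 2 = (1 + θ * sp (η a) * sp (η b)) / 2
    rw [sp_not, sp_not]
    ring

lemma mu_flip (h : Crit G d θ) {μ : Measure (V → Bool)} (hμ : IsFreeIsing G θ μ) :
    μ.map (fun σ v => !σ v) = μ :=
  isFreeIsing_unique h.tree.connected h.pos.le (Crit.th_lt h).le (isFreeIsing_flip hμ) hμ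

lemma mp_act (h : Crit G d θ) {μ : Measure (V → Bool)} (hμ : IsFreeIsing G θ μ) (g : G ≃g G) :
    MeasurePreserving (act g.toEquiv) (PP μ) (PP μ) := by
  have hne : Nonempty V := h.tree.connected.nonempty
  have hp := isProb_of_isFreeIsing hμ
  have h1 : MeasurePreserving (fun (σ : V → Bool) (v : V) => σ (g.symm v)) μ μ :=
    ⟨by fun_prop, mu_act h hμ g⟩
  have h2 := (mp_gx g.toEquiv).prod (mp_gx g.toEquiv)
  have hs : IsProbabilityMeasure (lam V) := by unfold lam; infer_instance
  exact h1.prod h2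

lemma mp_flp (h : Crit G d θ) {μ : Measure (V → Bool)} (hμ : IsFreeIsing G θ μ) :
    MeasurePreserving flp (PP μ) (PP μ) := by
  have hne : Nonempty V := h.tree.connected.nonempty
  have hp := isProb_of_isFreeIsing hμ
  have hs : IsProbabilityMeasure (lam V) := by unfold lam; infer_instance
  have h1 : MeasurePreserving (fun (σ : V → Bool) (v : V) => !σ v) μ μ := by
    refine ⟨?_, mu_flip h hμ⟩
    apply measurable_pi_lambda
    intro v
    exact (measurable_of_countable (fun b : Bool => !b)).comp (measurable_pi_apply v)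
  exact h1.prod (MeasurePreserving.id _)

/-- EQUI, given the measurability of `trG` (part of BASE) -/
theorem equi (hB : S_BASE.{u}) : S_EQUI.{u} := by
  intro V G d θ h
  refine ⟨Lt_act h, Lt_flp, inn_act h, fun s => invG h s ((hB h).2.2.2.1 s), fun hμ => ⟨fun g => ?_, ?_⟩⟩
  · exact mp_act h hμ g
  · exact mp_flp h hμ

end Vale.Agent.P161C.EQ
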