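import Vale.Agent.P161C.Plan

/-!
# P161 critical point: module EREC
-/

namespace Vale.Agent.P161C

open MeasureTheory Vale.Agent.P161 Filter Topology

universe u

namespace EREC

/-- partial sums of `(k+1) (3/4)^k` are at most `16` -/
theorem sum_le (n : ℕ) : ∑ k ∈ Finset.range n, ((k : ℝ) + 1) * (3 / 4 : ℝ) ^ k ≤ 16 := by
  have h : ∀ n : ℕ, ∑ k ∈ Finset.range n, ((k : ℝ) + 1) * (3 / 4 : ℝ) ^ k
      = 16 - (4 * (n : ℝ) + 16) * (3 / 4 : ℝ) ^ n := by
    intro n
    induction n with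
    | zero => simp
    | succ m ih =>
      rw [Finset.sum_range_succ, ih]
      push_cast
      ring
  rw [h]
  have : 0 ≤ (4 * (n : ℝ) + 16) * (3 / 4 : ℝ) ^ n := by positivity
  linarith

theorem path_sum (f : ℕ → ℝ) (B : ℝ) (hf : ∀ k, 0 ≤ f k)
    (hB : ∀ n, ∑ k ∈ Finset.range n, f k ≤ B) (C : ℕ → ℝ) (hC : ∀ k, |C k| ≤ f k) (n : ℕ) :
    ∑ i ∈ Finset.range n, ∑ j ∈ Finset.range n, C ((i - j) + (j - i)) ≤ 2 * B * n := by
  have key : ∀ i ∈ Finset.range n, ∑ j ∈ Finset.range n, C ((i - j) + (j - i)) ≤ 2 * B := by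
    intro i hi
    rw [Finset.mem_range] at hi
    have h1 : ∑ j ∈ Finset.range n, C ((i - j) + (j - i))
        ≤ ∑ j ∈ Finset.range n, f ((i - j) + (j - i)) :=
      Finset.sum_le_sum fun j _ => (le_abs_self _).trans (hC _)
    have h2 : ∑ j ∈ Finset.range n, f ((i - j) + (j - i))
        = ∑ j ∈ Finset.range i, f ((i - j) + (j - i))
          + ∑ j ∈ Finset.Ico i n, f ((i - j) + (j - i)) := by
      rw [Finset.range_eq_Ico, Finset.range_eq_Ico,
        Finset.sum_Ico_consecutive _ (Nat.zero_le i) hi.le]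
    have h3 : ∑ j ∈ Finset.range i, f ((i - j) + (j - i)) ≤ B := by
      have e1 : ∑ j ∈ Finset.range i, f ((i - j) + (j - i))
          = ∑ j ∈ Finset.range i, (fun k => f (k + 1)) (i - 1 - j) := by
        refine Finset.sum_congr rfl fun j hj => ?_
        rw [Finset.mem_range] at hj
        show f _ = f _
        congr 1
        omega
      rw [e1, Finset.sum_range_reflect (fun k => f (k + 1)) i]
      have e2 := hB (i + 1)
      rw [Finset.sum_range_succ'] at e2
      have := hf 0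
      linarith
    have h4 : ∑ j ∈ Finset.Ico i n, f ((i - j) + (j - i)) ≤ B := by
      rw [Finset.sum_Ico_eq_sum_range]
      have e1 : ∑ k ∈ Finset.range (n - i), f ((i - (i + k)) + (i + k - i))
          = ∑ k ∈ Finset.range (n - i), f k := by
        refine Finset.sum_congr rfl fun k _ => ?_
        congr 1
        omega
      rw [e1]
      exact hB _
    linarith
  calc ∑ i ∈ Finset.range n, ∑ j ∈ Finset.range n, C ((i - j) + (j - i))
      ≤ ∑ _i ∈ Finset.range n, 2 * B := Finset.sum_le_sum key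
    _ = 2 * B * n := by
      rw [Finset.sum_const, Finset.card_range, nsmul_eq_mul]
      ring

end EREC

open EREC in
theorem erec : S_EREC := by
  intro b hb
  have hb0 : (0 : ℝ) < b := by linarith
  refine ⟨2 * (16 * (4 * (8 * (b + 1) ^ 2 / b))), by positivity, ?_⟩
  intro θ hθ hbθ C D hC0 hD0 hD hDb n
  have hθ2 : θ ^ 2 ≤ 1 / 2 := by nlinarith [sq_nonneg θ]
  have hθ34 : θ ≤ 3 / 4 := by nlinarith
  set A : ℝ := 8 * (b + 1) ^ 2 / b with hA
  have hApos : 0 < A := by positivity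
  have hC0n : 0 ≤ C 0 := le_trans (abs_nonneg _) (hC0 0)
  -- bound for D 0
  have hD0b : D 0 ≤ (b + 1) ^ 2 * C 0 := by
    have h1 : C 1 ≤ C 0 := (le_abs_self _).trans (hC0 1)
    rw [hD0]
    nlinarith [mul_nonneg hb0.le (sub_nonneg.2 h1)]
  have hD0n : 0 ≤ D 0 := by
    have h := hDb 0
    simp only [Nat.cast_zero, zero_add, pow_zero, mul_one] at h
    have := abs_nonneg (D 0)
    linarith
  have hinv : 1 / b = θ ^ 2 := by
    rw [div_eq_iff hb0.ne']
    linarith [hbθ, mul_comm b (θ ^ 2)]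
  -- first-order recursion for F
  have hF : ∀ k : ℕ, |b * C (k + 1) + C k| ≤ A * (k + 1) * θ ^ k * C 0 := by
    intro k
    induction k with
    | zero =>
      have h1 : b * C (0 + 1) + C 0 = D 0 / (b + 1) := by
        rw [hD0]
        field_simp
        ring
      rw [h1, abs_of_nonneg (by positivity)]
      have h2 : D 0 / (b + 1) ≤ (b + 1) * C 0 := by
        rw [div_le_iff₀ (by linarith)]
        calc D 0 ≤ (b + 1) ^ 2 * C 0 := hD0b
          _ = (b + 1) * C 0 * (b + 1) := by ring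
      have h3 : (b + 1) ≤ A := by
        rw [hA, le_div_iff₀ hb0]
        nlinarith
      calc D 0 / (b + 1) ≤ (b + 1) * C 0 := h2
        _ ≤ A * C 0 := by nlinarith
        _ = A * ((0 : ℕ) + 1) * θ ^ 0 * C 0 := by push_cast; ring
    | succ m ih =>
      have h1 := hD (m + 1) (by omega)
      have h2 : b * C (m + 1 + 1) + C (m + 1)
          = (1 / b) * (D (m + 1) - (b * C (m + 1) + C m)) := by
        rw [h1]
        simp only [Nat.add_sub_cancel]
        field_simp
        ring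
      rw [h2, abs_mul, abs_of_nonneg (by positivity : (0 : ℝ) ≤ 1 / b), hinv]
      have h3 : |D (m + 1) - (b * C (m + 1) + C m)|
          ≤ 2 * ((m : ℝ) + 1 + 1) * θ ^ (m + 1) * ((b + 1) ^ 2 * C 0)
            + A * (m + 1) * θ ^ m * C 0 := by
        have h4 := hDb (m + 1)
        push_cast at h4
        have h5 : 2 * ((m : ℝ) + 1 + 1) * θ ^ (m + 1) * D 0
            ≤ 2 * ((m : ℝ) + 1 + 1) * θ ^ (m + 1) * ((b + 1) ^ 2 * C 0) :=
          mul_le_mul_of_nonneg_left hD0b (by positivity)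
        calc |D (m + 1) - (b * C (m + 1) + C m)|
            ≤ |D (m + 1)| + |b * C (m + 1) + C m| := abs_sub _ _
          _ ≤ _ := by linarith
      -- algebra
      have h6 : θ ^ 2 * (b + 1) ^ 2 * 8 = A := by
        rw [hA, ← hinv]
        field_simp
      have h7 : 0 ≤ θ ^ (m + 1) * C 0 := by positivity
      have h8 : θ ^ m * θ ^ 2 = θ ^ (m + 1) * θ := by ring
      calc θ ^ 2 * |D (m + 1) - (b * C (m + 1) + C m)|
          ≤ θ ^ 2 * (2 * ((m : ℝ) + 1 + 1) * θ ^ (m + 1) * ((b + 1) ^ 2 * C 0)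
            + A * (m + 1) * θ ^ m * C 0) := mul_le_mul_of_nonneg_left h3 (by positivity)
        _ = (2 * ((m : ℝ) + 1 + 1) * (θ ^ 2 * (b + 1) ^ 2)
              + A * (m + 1) * θ) * (θ ^ (m + 1) * C 0) := by
            ring
        _ ≤ (A * ((m : ℝ) + 1 + 1)) * (θ ^ (m + 1) * C 0) := by
            refine mul_le_mul_of_nonneg_right ?_ h7
            have h9 : θ ^ 2 * (b + 1) ^ 2 = A / 8 := by linarith
            rw [h9]
            have h10 : A * ((m : ℝ) + 1) * θ ≤ A * ((m : ℝ) + 1) * (3 / 4) :=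
              mul_le_mul_of_nonneg_left hθ34 (by positivity)
            have h11 : 0 ≤ A * (m : ℝ) := by positivity
            nlinarith
        _ = A * (((m + 1 : ℕ) : ℝ) + 1) * θ ^ (m + 1) * C 0 := by push_cast; ring
  -- second first-order recursion
  have hCk : ∀ k : ℕ, |C k| ≤ 4 * A * (k + 1) * θ ^ k * C 0 := by
    intro k
    induction k with
    | zero =>
      have h1 : 1 ≤ 4 * A := by
        have : (b + 1) ≤ A := by
          rw [hA, le_div_iff₀ hb0]
          nlinarith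
        linarith
      calc |C 0| ≤ C 0 := hC0 0
        _ ≤ 4 * A * C 0 := by nlinarith
        _ = 4 * A * ((0 : ℕ) + 1) * θ ^ 0 * C 0 := by push_cast; ring
    | succ m ih =>
      have h1 : C (m + 1) = (1 / b) * ((b * C (m + 1) + C m) - C m) := by
        field_simp
        ring
      rw [h1, abs_mul, abs_of_nonneg (by positivity : (0 : ℝ) ≤ 1 / b), hinv]
      have h2 : |(b * C (m + 1) + C m) - C m|
          ≤ A * (m + 1) * θ ^ m * C 0 + 4 * A * (m + 1) * θ ^ m * C 0 :=
        (abs_sub _ _).trans (add_le_add (hF m) ih)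
      have h7 : 0 ≤ θ ^ (m + 1) * C 0 := by positivity
      calc θ ^ 2 * |(b * C (m + 1) + C m) - C m|
          ≤ θ ^ 2 * (A * (m + 1) * θ ^ m * C 0 + 4 * A * (m + 1) * θ ^ m * C 0) :=
            mul_le_mul_of_nonneg_left h2 (by positivity)
        _ = (5 * A * ((m : ℝ) + 1) * θ) * (θ ^ (m + 1) * C 0) := by ring
        _ ≤ (4 * A * ((m : ℝ) + 1 + 1)) * (θ ^ (m + 1) * C 0) := by
            refine mul_le_mul_of_nonneg_right ?_ h7
            have h10 : 5 * A * ((m : ℝ) + 1) * θ ≤ 5 * A * ((m : ℝ) + 1) * (3 / 4) :=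
              mul_le_mul_of_nonneg_left hθ34 (by positivity)
            have h11 : 0 ≤ A * (m : ℝ) := by positivity
            nlinarith
        _ = 4 * A * (((m + 1 : ℕ) : ℝ) + 1) * θ ^ (m + 1) * C 0 := by push_cast; ring
  -- conclusion
  have hf : ∀ k : ℕ, |C k| ≤ (4 * A * C 0) * (((k : ℝ) + 1) * (3 / 4 : ℝ) ^ k) := by
    intro k
    refine (hCk k).trans ?_
    have h1 : θ ^ k ≤ (3 / 4 : ℝ) ^ k := pow_le_pow_left₀ hθ.le hθ34 k
    calc 4 * A * (k + 1) * θ ^ k * C 0 = (4 * A * C 0 * ((k : ℝ) + 1)) * θ ^ k := by ring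
      _ ≤ (4 * A * C 0 * ((k : ℝ) + 1)) * (3 / 4 : ℝ) ^ k :=
        mul_le_mul_of_nonneg_left h1 (by positivity)
      _ = _ := by ring
  have hB : ∀ n, ∑ k ∈ Finset.range n, (4 * A * C 0) * (((k : ℝ) + 1) * (3 / 4 : ℝ) ^ k)
      ≤ 4 * A * C 0 * 16 := by
    intro n
    rw [← Finset.mul_sum]
    exact mul_le_mul_of_nonneg_left (sum_le n) (by positivity)
  have := path_sum (fun k => (4 * A * C 0) * (((k : ℝ) + 1) * (3 / 4 : ℝ) ^ k)) _
    (fun k => by positivity) hB C hf n
  calc _ ≤ 2 * (4 * A * C 0 * 16) * n := this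
    _ = 2 * (16 * (4 * A)) * n * C 0 := by ring

end Vale.Agent.P161C
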