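import Vale.Agent.P161C.FinC

/-!
# P161C, module FIN
-/

namespace Vale.Agent.P161C

open MeasureTheory Vale.Agent.P161 Filter Topology ProbabilityTheory

universe u

variable {V : Type u}

namespace FIN

open ENV

/-- action on labels and innovations -/
def actR (g : V ≃ V) (r : (V × ℕ → I01) × (V × ℕ → I01)) : (V × ℕ → I01) × (V × ℕ → I01) :=
  (fun k => r.1 (g.symm k.1, k.2), fun k => r.2 (g.symm k.1, k.2))

/-- inverse of `row` -/
def unrow (z : V → ℕ → I01 × I01) : (V × ℕ → I01) × (V × ℕ → I01) :=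
  (fun k => (z k.1 k.2).1, fun k => (z k.1 k.2).2)

lemma measurable_unrow : Measurable (unrow (V := V)) := by
  have h : ∀ k : V × ℕ, Measurable fun z : V → ℕ → I01 × I01 => z k.1 k.2 := by
    intro k
    fun_prop
  refine Measurable.prodMk ?_ ?_
  · rw [measurable_pi_iff]
    intro k
    exact measurable_fst.comp (h k)
  · rw [measurable_pi_iff]
    intro k
    exact measurable_snd.comp (h k)

lemma unrow_row (p : (V × ℕ → I01) × (V × ℕ → I01)) : unrow (row p) = p := rfl

theorem exists_labels2 (V : Type u) :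
    ∃ Ω : (V → I01) → (V × ℕ → I01) × (V × ℕ → I01), Measurable Ω ∧
      (iidLaw V).map Ω = (lam V).prod (lam V) ∧
      ∀ (g : V ≃ V) (u : V → I01), Ω (fun v => u (g.symm v)) = actR g (Ω u) := by
  obtain ⟨ψ, hψm, hψ⟩ := Measure.exists_measurable_map_eq rho
  have hm1 : Measurable fun (u : V → I01) (v : V) => ψ (u v) := by
    rw [measurable_pi_iff]
    intro v
    exact hψm.comp (measurable_pi_apply v)
  have h1 : (iidLaw V).map (fun (u : V → I01) (v : V) => ψ (u v))
      = Measure.infinitePi fun _ : V => rho := by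
    unfold iidLaw
    rw [Measure.infinitePi_map_pi (fun _ : V => (volume : Measure I01)) (fun _ => hψm), hψ]
  refine ⟨fun u => unrow fun v => ψ (u v), measurable_unrow.comp hm1, ?_, ?_⟩
  · have e : (fun u : V → I01 => unrow fun v => ψ (u v))
        = unrow ∘ fun (u : V → I01) (v : V) => ψ (u v) := rfl
    rw [e, ← Measure.map_map measurable_unrow hm1, h1, ← map_row,
      Measure.map_map measurable_unrow measurable_row]
    have e2 : unrow ∘ row (V := V) = id := by funext p; exact unrow_row p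
    rw [e2, Measure.map_id]
  · intro g u
    rfl

end FIN

open FIN ENV

theorem fin (hBase : S_BASE.{u}) (hEqui : S_EQUI.{u}) (hJump : S_JUMP.{u})
    (hPost : S_POST.{u}) : S_FIN.{u} := by
  intro V G d θ hC μ hμ h0
  have hd := hC.hd
  have hcount : Countable V := countable_tree hC.tree.connected (by omega) hC.reg
  have hne : Nonempty V := hC.tree.connected.nonempty
  have hp : IsProbabilityMeasure μ := isProb_of_isFreeIsing hμ
  have hψ : ∀ v : V, ∃ ψ : (V × ℕ → I01) × (V × ℕ → I01) → Bool, Measurable ψ ∧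
      ∀ᵐ ω ∂(PP μ), ω.1 v = ψ (RR' G θ ω) := fun v =>
    exists_psi hPost hBase hC hμ v (h0 v)
  choose ψ hψm hψe using hψ
  set Ψ : (V × ℕ → I01) × (V × ℕ → I01) → (V → Bool) := fun r v => ψ v r with hΨ
  have hΨm : Measurable Ψ := by
    rw [measurable_pi_iff]
    exact hψm
  have hR := measurable_RR' hBase hC (θ := θ)
  have hae : ∀ᵐ ω ∂(PP μ), ω.1 = Ψ (RR' G θ ω) := by
    filter_upwards [ae_all_iff.2 hψe] with ω hω
    funext v
    exact hω v
  have hlaw : (PP μ).map (RR' G θ) = (lam V).prod (lam V) := (hJump hC hμ).2.2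
  obtain ⟨Ω, hΩ, hΩlaw, hΩg⟩ := exists_labels2 V
  refine ⟨fun u => Ψ (Ω u), hΨm.comp hΩ, ?_, ?_⟩
  · have e : (fun u => Ψ (Ω u)) = Ψ ∘ Ω := rfl
    rw [e, ← Measure.map_map hΨm hΩ, hΩlaw, ← hlaw, Measure.map_map hΨm hR]
    have h1 : (PP μ).map (Ψ ∘ RR' G θ) = (PP μ).map Prod.fst := by
      refine Measure.map_congr ?_
      filter_upwards [hae] with ω hω
      exact hω.symm
    rw [h1]
    unfold PP
    rw [Measure.map_fst_prod, measure_univ, one_smul]
  · intro g
    obtain ⟨-, -, hinn, -, hpres⟩ := hEqui hC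
    have hg := (hpres hμ).1 g
    have h1 : ∀ᵐ ω ∂(PP μ), (act g.toEquiv ω).1 = Ψ (RR' G θ (act g.toEquiv ω)) :=
      hg.quasiMeasurePreserving.ae hae
    have h2 : ∀ ω : Om V, RR' G θ (act g.toEquiv ω) = actR g.toEquiv (RR' G θ ω) := by
      intro ω
      refine Prod.ext rfl ?_
      funext k
      have := hinn g ω (g.symm k.1, k.2)
      simp only [RelIso.apply_symm_apply] at this
      exact this
    have h3 : ∀ᵐ ω ∂(PP μ), Ψ (actR g.toEquiv (RR' G θ ω))
        = fun v => Ψ (RR' G θ ω) (g.symm v) := by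
      filter_upwards [h1, hae] with ω ha hb
      rw [← h2, ← ha, ← hb]
      rfl
    have mact : Measurable (actR g.toEquiv) := by
      unfold actR
      fun_prop
    have hms : MeasurableSet {r | Ψ (actR g.toEquiv r) = fun v => Ψ r (g.symm v)} := by
      have e : {r | Ψ (actR g.toEquiv r) = fun v => Ψ r (g.symm v)}
          = ⋂ v : V, {r | Ψ (actR g.toEquiv r) v = Ψ r (g.symm v)} := by
        ext r
        simp only [Set.mem_ofPred_eq, Set.mem_iInter, funext_iff]
      rw [e]
      refine MeasurableSet.iInter fun v => ?_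
      exact measurableSet_eq_fun ((hψm v).comp mact) (hψm (g.symm v))
    have h4 : ∀ᵐ r ∂((lam V).prod (lam V)), Ψ (actR g.toEquiv r) = fun v => Ψ r (g.symm v) := by
      rw [← hlaw, ae_map_iff hR.aemeasurable hms]
      exact h3
    rw [← hΩlaw] at h4
    have h5 := ae_of_ae_map hΩ.aemeasurable h4
    filter_upwards [h5] with u hu
    have h6 := hΩg g.toEquiv u
    have h7 : (fun v => u (g.symm v)) = fun v => u (g.toEquiv.symm v) := rfl
    rw [h7, h6]
    exact hu

end Vale.Agent.P161C
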