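import Vale.Agent.P161C.Plan
import Vale.Agent.P161C.EnvE

/-!
# P161C, module FIN, part A: the posterior mean converges to the spin
-/

namespace Vale.Agent.P161C

open MeasureTheory Vale.Agent.P161 Filter Topology ProbabilityTheory

universe u

variable {V : Type u}

namespace FIN

open ENV

/-- centred normalised gauge-fixed observation -/
noncomputable def yy (z : I01 × I01) : ℝ := 1 - 18 * (dl z.1 * (2 * (Qc (dl z.1) 1 z.2 : ℝ) - 1))

lemma measurable_yy : Measurable yy := by
  unfold yy
  have hd : Measurable fun z : I01 × I01 => dl z.1 := measurable_dl.comp measurable_fst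
  have hq := measurable_Qc1
  fun_prop

lemma yy_abs (z : I01 × I01) : |yy z| ≤ 10 := by
  unfold yy
  have := abs_le.1 (eps_abs z.1 (Qc (dl z.1) 1 z.2))
  rw [abs_le]
  constructor <;> linarith [this.1, this.2]

lemma integral_yy : ∫ z : I01 × I01, yy z = 0 := by
  have hv : (volume : Measure (I01 × I01)) = (volume : Measure I01).prod volume := rfl
  rw [hv, integral_prod _ (integrable_bdd measurable_yy yy_abs)]
  have e : ∀ u : I01, ∫ q : I01, yy (u, q) = 1 - 6 * ((u : ℝ) * (1 - u)) := by
    intro u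
    unfold yy
    simp only
    have hm : Measurable fun q : I01 => (2 * (Qc (dl u) 1 q : ℝ) - 1) := by
      have := measurable_Qcu u
      have h2 : Measurable fun q : I01 => (Qc (dl u) 1 q : ℝ) := measurable_subtype_coe.comp this
      fun_prop
    have hi : Integrable (fun q : I01 => 18 * (dl u * (2 * (Qc (dl u) 1 q : ℝ) - 1)))
        (volume : Measure I01) := by
      refine ((integrable_bdd hm (C := 1) fun q => two_sub_abs _).const_mul _).const_mul _
    rw [integral_sub (integrable_const _) hi, integral_const_mul, integral_const_mul,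
      mean_obs (dl_abs u)]
    have := dl_sq u
    simp only [integral_const, probReal_univ, smul_eq_mul]
    rw [← this]
    ring
  simp_rw [e]
  have h := integral_I01 (fun t => t - 6 * (t ^ 2 / 2 - t ^ 3 / 3)) (fun t => 1 - 6 * (t * (1 - t)))
    (by
      intro t
      have h1 := (hasDerivAt_id t).sub ((((hasDerivAt_pow 2 t).div_const 2).sub
        ((hasDerivAt_pow 3 t).div_const 3)).const_mul 6)
      refine h1.congr_deriv ?_
      norm_num
      ring) (by fun_prop)
  rw [h]
  norm_num

lemma var_sum (n : ℕ) : ∫ z : ℕ → I01 × I01, (∑ j ∈ Finset.range n, yy (z j)) ^ 2 ∂rho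
    ≤ 100 * n := by
  have hm : ∀ j : ℕ, Measurable fun z : ℕ → I01 × I01 => yy (z j) :=
    fun j => measurable_yy.comp (measurable_pi_apply j)
  have hind : iIndepFun (fun (j : ℕ) (z : ℕ → I01 × I01) => yy (z j)) rho :=
    iIndepFun_infinitePi (P := fun _ : ℕ => (volume : Measure I01).prod (volume : Measure I01))
      (X := fun _ => yy) (fun _ => measurable_yy)
  have hL : ∀ j : ℕ, MemLp (fun z : ℕ → I01 × I01 => yy (z j)) 2 rho := fun j =>
    MemLp.of_bound (hm j).aestronglyMeasurable 10 (Eventually.of_forall fun z => yy_abs _)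
  have hmean : ∀ j : ℕ, ∫ z, yy (z j) ∂rho = 0 := by
    intro j
    have h1 := (measurePreserving_eval_infinitePi
      (fun _ : ℕ => (volume : Measure I01).prod (volume : Measure I01)) j)
    have h2 := integral_map (μ := rho) (φ := fun z : ℕ → I01 × I01 => z j) (f := yy)
      (measurable_pi_apply j).aemeasurable measurable_yy.aestronglyMeasurable
    rw [← h2]
    have h3 : rho.map (fun z : ℕ → I01 × I01 => z j) = (volume : Measure (I01 × I01)) := h1.map_eq
    rw [h3, integral_yy]
  have hv := IndepFun.variance_sum (μ := rho) (X := fun (j : ℕ) (z : ℕ → I01 × I01) => yy (z j))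
    (s := Finset.range n) (fun j _ => hL j) (fun i _ j _ hij => hind.indepFun hij)
  have hsm : ∫ z, (∑ j ∈ Finset.range n, fun z : ℕ → I01 × I01 => yy (z j)) z ∂rho = 0 := by
    simp only [Finset.sum_apply]
    rw [integral_finsetSum _ fun j _ => (hL j).integrable (by norm_num)]
    exact Finset.sum_eq_zero fun j _ => hmean j
  rw [variance_of_integral_eq_zero
    (Finset.aemeasurable_sum _ fun j _ => (hm j).aemeasurable) hsm] at hv
  have e : ∫ z : ℕ → I01 × I01, (∑ j ∈ Finset.range n, yy (z j)) ^ 2 ∂rho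
      = ∑ j ∈ Finset.range n, Var[fun z : ℕ → I01 × I01 => yy (z j); rho] := by
    rw [← hv]
    refine integral_congr_ae (Eventually.of_forall fun z => ?_)
    simp [Finset.sum_apply]
  rw [e]
  have hb : ∀ j ∈ Finset.range n, Var[fun z : ℕ → I01 × I01 => yy (z j); rho] ≤ 100 := by
    intro j _
    rw [variance_of_integral_eq_zero (hm j).aemeasurable (hmean j)]
    calc ∫ z : ℕ → I01 × I01, yy (z j) ^ 2 ∂rho ≤ ∫ _ : ℕ → I01 × I01, (100 : ℝ) ∂rho := by
          refine integral_mono ?_ (integrable_const _) fun z => ?_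
          · refine integrable_bdd (C := 100) ((hm j).pow_const 2) fun z => ?_
            rw [abs_pow]
            nlinarith [yy_abs (z j), abs_nonneg (yy (z j))]
          · have := yy_abs (z j)
            show yy (z j) ^ 2 ≤ 100
            rw [← sq_abs]
            nlinarith [yy_abs (z j), abs_nonneg (yy (z j))]
      _ = 100 := by simp
  refine (Finset.sum_le_sum hb).trans ?_
  rw [Finset.sum_const, Finset.card_range, nsmul_eq_mul, mul_comm]

/-- the explicit estimator of the spin at `v` -/
noncomputable def est (n : ℕ) (v : V) (U x : V × ℕ → I01) : ℝ :=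
  18 / n * ∑ j ∈ Finset.range n, dl (U (v, j)) * (2 * (x (v, j) : ℝ) - 1)

lemma est_abs (n : ℕ) (v : V) (U x : V × ℕ → I01) : |est n v U x| ≤ 9 := by
  unfold est
  rcases Nat.eq_zero_or_pos n with rfl | hn
  · simp
  · have hn' : (0 : ℝ) < n := by exact_mod_cast hn
    have h1 : |∑ j ∈ Finset.range n, dl (U (v, j)) * (2 * (x (v, j) : ℝ) - 1)| ≤ n * (1 / 2) := by
      refine (Finset.abs_sum_le_sum_abs _ _).trans ?_
      refine (Finset.sum_le_sum fun j _ => eps_abs (U (v, j)) (x (v, j))).trans ?_
      rw [Finset.sum_const, Finset.card_range, nsmul_eq_mul]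
    rw [abs_mul, abs_of_pos (by positivity)]
    calc 18 / (n : ℝ) * |∑ j ∈ Finset.range n, dl (U (v, j)) * (2 * (x (v, j) : ℝ) - 1)|
        ≤ 18 / (n : ℝ) * (n * (1 / 2)) := by gcongr
      _ = 9 := by field_simp; norm_num

lemma map_row_v (v : V) : ((lam V).prod (lam V)).map (fun p => row p v) = rho := by
  have h1 := map_row (V := V)
  have h2 := (measurePreserving_eval_infinitePi (fun _ : V => rho) v).map_eq
  rw [← h1, Measure.map_map (measurable_pi_apply v) measurable_row] at h2
  exact h2

lemma est_var (μ : Measure (V → Bool)) [IsProbabilityMeasure μ] (v : V) {n : ℕ} (hn : 0 < n) :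
    ∫ ω : Om V, (sp (ω.1 v) - est n v ω.2.1 (obs ω)) ^ 2 ∂(PP μ) ≤ 100 / n := by
  have hn' : (0 : ℝ) < n := by exact_mod_cast hn
  have e1 : ∀ ω : Om V, (sp (ω.1 v) - est n v ω.2.1 (obs ω)) ^ 2
      = (1 / n) ^ 2 * (∑ j ∈ Finset.range n, yy (row ω.2 v j)) ^ 2 := by
    intro ω
    have h1 : sp (ω.1 v) * est n v ω.2.1 (obs ω)
        = 18 / n * ∑ j ∈ Finset.range n,
          dl (row ω.2 v j).1 * (2 * (Qc (dl (row ω.2 v j).1) 1 (row ω.2 v j).2 : ℝ) - 1) := by
      unfold est
      rw [mul_left_comm, Finset.mul_sum]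
      congr 1
      refine Finset.sum_congr rfl fun j _ => ?_
      exact sp_ep ω (v, j)
    have h2 : (sp (ω.1 v) - est n v ω.2.1 (obs ω)) ^ 2
        = (1 - sp (ω.1 v) * est n v ω.2.1 (obs ω)) ^ 2 := by
      have := sp_mul_self (ω.1 v)
      have h3 : sp (ω.1 v) - est n v ω.2.1 (obs ω)
          = sp (ω.1 v) * (1 - sp (ω.1 v) * est n v ω.2.1 (obs ω)) := by
        linear_combination (est n v ω.2.1 (obs ω)) * this
      rw [h3, mul_pow]
      have h4 : sp (ω.1 v) ^ 2 = 1 := by rw [sq]; exact this
      rw [h4, one_mul]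
    rw [h2, h1, ← mul_pow]
    congr 1
    unfold yy
    rw [Finset.sum_sub_distrib, Finset.sum_const, Finset.card_range, nsmul_eq_mul, mul_one,
      mul_sub, ← Finset.mul_sum]
    field_simp
  simp_rw [e1]
  rw [integral_const_mul]
  have hmF : Measurable fun z : ℕ → I01 × I01 => (∑ j ∈ Finset.range n, yy (z j)) ^ 2 :=
    (Finset.measurable_fun_sum _ fun j _ => measurable_yy.comp (measurable_pi_apply j)).pow_const 2
  have hmr : Measurable fun p : (V × ℕ → I01) × (V × ℕ → I01) => row p v :=
    (measurable_pi_apply v).comp measurable_row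
  have e2 : ∫ ω : Om V, (∑ j ∈ Finset.range n, yy (row ω.2 v j)) ^ 2 ∂(PP μ)
      = ∫ z : ℕ → I01 × I01, (∑ j ∈ Finset.range n, yy (z j)) ^ 2 ∂rho := by
    rw [← map_row_v v, integral_map hmr.aemeasurable hmF.aestronglyMeasurable]
    unfold PP
    have h3 := integral_map (μ := μ.prod ((lam V).prod (lam V))) (φ := Prod.snd)
      (f := fun p : (V × ℕ → I01) × (V × ℕ → I01) =>
        (∑ j ∈ Finset.range n, yy (row p v j)) ^ 2)
      measurable_snd.aemeasurable (hmF.comp hmr).aestronglyMeasurable
    rw [← h3, Measure.map_snd_prod, measure_univ, one_smul]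
  rw [e2]
  calc (1 / (n : ℝ)) ^ 2 * (∫ z : ℕ → I01 × I01, (∑ j ∈ Finset.range n, yy (z j)) ^ 2 ∂rho)
      ≤ (1 / (n : ℝ)) ^ 2 * (100 * (n : ℝ)) := by
        apply mul_le_mul_of_nonneg_left (var_sum n) (by positivity)
    _ = 100 / (n : ℝ) := by field_simp

end FIN

end Vale.Agent.P161C
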