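import Vale.Agent.P161C.FinA

/-!
# P161C, module FIN, part B: optimality of the posterior mean
-/

namespace Vale.Agent.P161C

open MeasureTheory Vale.Agent.P161 Filter Topology ProbabilityTheory

universe u

variable {V : Type u}

namespace FIN

open ENV

lemma measurable_ff (θ : ℝ) : Measurable (ff θ) := by
  unfold ff
  exact measurable_at'.comp (measurable_tanh.const_mul θ)

lemma measurable_msg (G : SimpleGraph V) (θ : ℝ) (n : ℕ) (u p : V) :
    Measurable fun y : V → ℝ => msg G θ n y u p := by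
  classical
  induction n generalizing u p with
  | zero => exact measurable_pi_apply u
  | succ n ih =>
    unfold msg
    exact (measurable_pi_apply u).add
      (Finset.measurable_fun_sum _ fun c _ => (measurable_ff θ).comp (ih c u))

lemma measurable_Mm (G : SimpleGraph V) (θ : ℝ) (u p : V) :
    Measurable fun y : V → ℝ => Mm G θ y u p := by
  unfold Mm Lm
  exact measurable_tanh.comp (((Measurable.limsup fun n => measurable_msg G θ n u p).add
    (Measurable.liminf fun n => measurable_msg G θ n u p)).div_const 2)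

open Classical in
/-- the field as a function of labels and observations -/
noncomputable def yx (J : ℕ) (I : Set (V × ℕ)) (U x : V × ℕ → I01) (w : V) : ℝ :=
  ∑ j ∈ Finset.range J, if (w, j) ∈ I then at' (dl (U (w, j)) * (2 * (x (w, j) : ℝ) - 1)) else 0

lemma fld_eq (J : ℕ) (I : Set (V × ℕ)) (ω : Om V) : fld J I ω = yx J I ω.2.1 (obs ω) := rfl

lemma measurable_yx (J : ℕ) (I : Set (V × ℕ)) (U : V × ℕ → I01) : Measurable (yx J I U) := by
  rw [measurable_pi_iff]
  intro w
  unfold yx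
  refine Finset.measurable_fun_sum _ fun j _ => ?_
  by_cases h : (w, j) ∈ I
  · simp only [if_pos h]
    exact measurable_at'.comp (by fun_prop)
  · simp only [if_neg h]
    exact measurable_const

lemma yx_congr (J : ℕ) (I : Set (V × ℕ)) (U : V × ℕ → I01) {x x' : V × ℕ → I01}
    (h : ∀ k ∈ I, x k = x' k) : yx J I U x = yx J I U x' := by
  funext w
  unfold yx
  refine Finset.sum_congr rfl fun j _ => ?_
  by_cases hk : (w, j) ∈ I
  · rw [if_pos hk, if_pos hk, h _ hk]
  · rw [if_neg hk, if_neg hk]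

lemma measurable_Qc2 : Measurable fun z : I01 × I01 => Qc (dl z.1) 1 z.2 :=
  Measurable.subtype_mk (f := fun z : I01 × I01 => (Qc (dl z.1) 1 z.2 : ℝ)) measurable_Qc1

lemma measurable_obs : Measurable (obs (V := V)) := by
  rw [measurable_pi_iff]
  intro k
  unfold obs
  have hU : Measurable fun ω : Om V => ω.2.1 k := by fun_prop
  have hN : Measurable fun ω : Om V => ω.2.2 k := by fun_prop
  have hUN : Measurable fun ω : Om V => ((ω.2.1 k, ω.2.2 k) : I01 × I01) := hU.prodMk hN
  have h1 : Measurable fun ω : Om V => Qc (dl (ω.2.1 k)) 1 (ω.2.2 k) := by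
    have := measurable_Qc2.comp hUN
    exact this
  refine Measurable.ite ?_ h1 ?_
  · have h2 : Measurable fun ω : Om V => ω.1 k.1 := (measurable_pi_apply k.1).comp measurable_fst
    exact h2 (measurableSet_singleton true)
  · exact unitInterval.continuous_symm.measurable.comp h1

lemma measurable_sp1 (v : V) : Measurable fun ω : Om V => sp (ω.1 v) := by
  have h2 : Measurable fun ω : Om V => ω.1 v := (measurable_pi_apply v).comp measurable_fst
  exact (measurable_of_countable sp).comp h2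

/-- rearrangement of the factors -/
def rea (q : (V × ℕ → I01) × ((V → Bool) × (V × ℕ → I01))) : Om V := (q.2.1, (q.1, q.2.2))

lemma measurable_rea : Measurable (rea (V := V)) := by
  unfold rea
  fun_prop

lemma map_rea (μ : Measure (V → Bool)) [IsProbabilityMeasure μ] :
    ((lam V).prod (μ.prod (lam V))).map rea = PP μ := by
  have h1 := measurePreserving_prodAssoc (lam V) μ (lam V)
  have h2 := measurePreserving_prodAssoc μ (lam V) (lam V)
  have h3 : MeasurePreserving (Prod.map Prod.swap id)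
      (((lam V).prod μ).prod (lam V)) ((μ.prod (lam V)).prod (lam V)) :=
    Measure.measurePreserving_swap.prod (MeasurePreserving.id _)
  have h4 := h2.comp (h3.comp (h1.symm _))
  exact h4.map_eq

lemma integral_PP (μ : Measure (V → Bool)) [IsProbabilityMeasure μ] {f : Om V → ℝ}
    (hf : Measurable f) {C : ℝ} (hC : ∀ ω, |f ω| ≤ C) :
    ∫ ω, f ω ∂(PP μ) = ∫ U, ∫ p, f (p.1, (U, p.2)) ∂(μ.prod (lam V)) ∂(lam V) := by
  have i : Integrable (fun q => f (rea q)) ((lam V).prod (μ.prod (lam V))) :=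
    integrable_bdd (hf.comp measurable_rea) fun q => hC _
  rw [← map_rea μ, integral_map measurable_rea.aemeasurable hf.aestronglyMeasurable,
    integral_prod _ i]
  rfl

lemma measurable_slice (U : V × ℕ → I01) :
    Measurable fun p : (V → Bool) × (V × ℕ → I01) => ((p.1, (U, p.2)) : Om V) := by
  fun_prop

lemma Mm_abs (G : SimpleGraph V) (θ : ℝ) (y : V → ℝ) (u p : V) : |Mm G θ y u p| ≤ 1 :=
  abs_tanh_le _

lemma sp_abs (b : Bool) : |sp b| ≤ 1 := by
  cases b <;> simp [sp]

lemma post_opt (hP : S_POST.{u}) {G : SimpleGraph V} {d : ℕ} {θ : ℝ} (hC : Crit G d θ)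
    {μ : Measure (V → Bool)} (hμ : IsFreeIsing G θ μ) (U : V × ℕ → I01) (J : ℕ)
    (I : Set (V × ℕ)) (hI : ∀ k ∈ I, k.2 < J) (v : V) (g : (V × ℕ → I01) → ℝ) (hg : Measurable g)
    (B : ℝ) (hB : ∀ x, |g x| ≤ B)
    (hdep : ∀ x x' : V × ℕ → I01, (∀ k ∈ I, x k = x' k) → g x = g x') :
    ∫ p, (sp (p.1 v) - Mm G θ (fld J I (p.1, (U, p.2))) v v) ^ 2 ∂(μ.prod (lam V))
      ≤ ∫ p, (sp (p.1 v) - g (obs (p.1, (U, p.2)))) ^ 2 ∂(μ.prod (lam V)) := by
  have hne : Nonempty V := ⟨v⟩
  have hp : IsProbabilityMeasure μ := isProb_of_isFreeIsing hμ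
  have hB0 : 0 ≤ B := (abs_nonneg _).trans (hB fun _ => 0)
  set m : (V → Bool) × (V × ℕ → I01) → ℝ :=
    fun p => Mm G θ (fld J I (p.1, (U, p.2))) v v with hmdef
  set gg : (V → Bool) × (V × ℕ → I01) → ℝ := fun p => g (obs (p.1, (U, p.2))) with hggdef
  set ss : (V → Bool) × (V × ℕ → I01) → ℝ := fun p => sp (p.1 v) with hssdef
  have hMx : Measurable fun x : V × ℕ → I01 => Mm G θ (yx J I U x) v v :=
    (measurable_Mm G θ v v).comp (measurable_yx J I U)
  have h0 := (hP hC hμ U J I hI).2.1 v (fun x => Mm G θ (yx J I U x) v v - g x) (1 + B)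
    (hMx.sub hg) (fun x => (abs_sub _ _).trans (add_le_add (Mm_abs _ _ _ _ _) (hB x)))
    (fun x x' h => by rw [yx_congr J I U h, hdep x x' h])
  have h1 : ∫ p, (ss p - m p) * (m p - gg p) ∂(μ.prod (lam V)) = 0 := h0
  have ho : Measurable fun p : (V → Bool) × (V × ℕ → I01) => obs ((p.1, (U, p.2)) : Om V) :=
    measurable_obs.comp (measurable_slice U)
  have mm : Measurable m := hMx.comp ho
  have mg : Measurable gg := hg.comp ho
  have ms : Measurable ss := (measurable_sp1 v).comp (measurable_slice U)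
  have bm : ∀ p, |m p| ≤ 1 := fun p => Mm_abs _ _ _ _ _
  have bg : ∀ p, |gg p| ≤ B := fun p => hB _
  have bs : ∀ p, |ss p| ≤ 1 := fun p => sp_abs _
  have i1 : Integrable (fun p => (ss p - m p) ^ 2) (μ.prod (lam V)) := by
    refine integrable_bdd (C := 4) ((ms.sub mm).pow_const 2) fun p => ?_
    have a := abs_le.1 (bm p)
    have b := abs_le.1 (bs p)
    rw [abs_of_nonneg (sq_nonneg _)]
    nlinarith [a.1, a.2, b.1, b.2]
  have i2 : Integrable (fun p => (ss p - m p) * (m p - gg p)) (μ.prod (lam V)) := by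
    refine integrable_bdd (C := 2 * (1 + B)) ((ms.sub mm).mul (mm.sub mg)) fun p => ?_
    rw [abs_mul]
    have a : |ss p - m p| ≤ 2 := (abs_sub _ _).trans (by linarith [bm p, bs p])
    have b : |m p - gg p| ≤ 1 + B := (abs_sub _ _).trans (by linarith [bm p, bg p])
    exact mul_le_mul a b (abs_nonneg _) (by norm_num)
  have i3 : Integrable (fun p => (m p - gg p) ^ 2) (μ.prod (lam V)) := by
    refine integrable_bdd (C := (1 + B) ^ 2) ((mm.sub mg).pow_const 2) fun p => ?_
    have b : |m p - gg p| ≤ 1 + B := (abs_sub _ _).trans (by linarith [bm p, bg p])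
    rw [abs_pow]
    exact pow_le_pow_left₀ (abs_nonneg _) b 2
  have e : ∫ p, (ss p - gg p) ^ 2 ∂(μ.prod (lam V))
      = ∫ p, (ss p - m p) ^ 2 ∂(μ.prod (lam V)) + 2 * ∫ p, (ss p - m p) * (m p - gg p)
        ∂(μ.prod (lam V)) + ∫ p, (m p - gg p) ^ 2 ∂(μ.prod (lam V)) := by
    rw [← integral_const_mul, ← integral_add i1 (i2.const_mul 2), ← integral_add _ i3]
    · refine integral_congr_ae (Eventually.of_forall fun p => ?_)
      simp only
      ring
    · exact i1.add (i2.const_mul 2)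
  rw [e, h1]
  have : 0 ≤ ∫ p, (m p - gg p) ^ 2 ∂(μ.prod (lam V)) := integral_nonneg fun p => sq_nonneg _
  linarith

lemma measurable_est (n : ℕ) (v : V) :
    Measurable fun q : (V × ℕ → I01) × (V × ℕ → I01) => est n v q.1 q.2 := by
  unfold est
  refine Measurable.const_mul (Finset.measurable_fun_sum _ fun j _ => ?_) _
  have h1 : Measurable fun q : (V × ℕ → I01) × (V × ℕ → I01) => dl (q.1 (v, j)) :=
    measurable_dl.comp (by fun_prop)
  fun_prop

lemma measurable_est_obs (n : ℕ) (v : V) :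
    Measurable fun ω : Om V => est n v ω.2.1 (obs ω) := by
  have h1 : Measurable fun ω : Om V => ω.2.1 := by fun_prop
  have h2 : Measurable fun ω : Om V => (ω.2.1, obs ω) := h1.prodMk measurable_obs
  have := (measurable_est n v).comp h2
  exact this

lemma measurable_mt (hBase : S_BASE.{u}) {G : SimpleGraph V} {d : ℕ} {θ : ℝ} (hC : Crit G d θ)
    (s : ℝ) (v : V) : Measurable fun ω : Om V => mt G θ s ω v := by
  have h0 := (hBase hC).1 v v
  have h1 : Measurable fun ω : Om V => ((s, ω) : ℝ × Om V) := by fun_prop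
  have h2 := h0.comp h1
  rw [Function.comp_def] at h2
  have h3 := measurable_tanh.comp h2
  rw [Function.comp_def] at h3
  exact h3

/-- the posterior mean converges to the spin in mean square -/
lemma mt_conv (hP : S_POST.{u}) (hBase : S_BASE.{u}) {G : SimpleGraph V} {d : ℕ} {θ : ℝ}
    (hC : Crit G d θ) {μ : Measure (V → Bool)} (hμ : IsFreeIsing G θ μ) (v : V) (T : ℕ) :
    ∫ ω, (sp (ω.1 v) - mt G θ ((T + 2 : ℕ) : ℝ) ω v) ^ 2 ∂(PP μ) ≤ 100 / ((T + 1 : ℕ) : ℝ) := by
  have hne : Nonempty V := ⟨v⟩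
  have hp : IsProbabilityMeasure μ := isProb_of_isFreeIsing hμ
  refine le_trans ?_ (est_var μ v (Nat.succ_pos T))
  have mmt := measurable_mt hBase hC ((T + 2 : ℕ) : ℝ) v
  have me := measurable_est_obs (T + 1) v
  have ms := measurable_sp1 v
  have b1 : ∀ ω : Om V, |(sp (ω.1 v) - mt G θ ((T + 2 : ℕ) : ℝ) ω v) ^ 2| ≤ 4 := by
    intro ω
    have a := abs_le.1 (Mm_abs G θ (yt ((T + 2 : ℕ) : ℝ) ω) v v)
    have b := abs_le.1 (sp_abs (ω.1 v))
    rw [abs_of_nonneg (sq_nonneg _)]
    have a1 : -1 ≤ mt G θ ((T + 2 : ℕ) : ℝ) ω v := a.1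
    have a2 : mt G θ ((T + 2 : ℕ) : ℝ) ω v ≤ 1 := a.2
    nlinarith [a1, a2, b.1, b.2]
  have b2 : ∀ ω : Om V, |(sp (ω.1 v) - est (T + 1) v ω.2.1 (obs ω)) ^ 2| ≤ 100 := by
    intro ω
    have a := est_abs (T + 1) v ω.2.1 (obs ω)
    have b := sp_abs (ω.1 v)
    have c : |sp (ω.1 v) - est (T + 1) v ω.2.1 (obs ω)| ≤ 10 :=
      (abs_sub _ _).trans (by linarith)
    rw [abs_pow]
    calc |sp (ω.1 v) - est (T + 1) v ω.2.1 (obs ω)| ^ 2 ≤ 10 ^ 2 :=
          pow_le_pow_left₀ (abs_nonneg _) c 2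
      _ = 100 := by norm_num
  have m1 : Measurable fun ω : Om V => (sp (ω.1 v) - mt G θ ((T + 2 : ℕ) : ℝ) ω v) ^ 2 :=
    (ms.sub mmt).pow_const 2
  have m2 : Measurable fun ω : Om V => (sp (ω.1 v) - est (T + 1) v ω.2.1 (obs ω)) ^ 2 :=
    (ms.sub me).pow_const 2
  rw [integral_PP μ m1 b1, integral_PP μ m2 b2]
  have j1 := (integrable_bdd (P := (lam V).prod (μ.prod (lam V))) (m1.comp measurable_rea)
    fun q => b1 _).integral_prod_left
  have j2 := (integrable_bdd (P := (lam V).prod (μ.prod (lam V))) (m2.comp measurable_rea)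
    fun q => b2 _).integral_prod_left
  refine integral_mono j1 j2 fun U => ?_
  have hI : ∀ k ∈ Is U ((T + 2 : ℕ) : ℝ), k.2 < T + 2 := by
    intro k hk
    have h1 : (k.2 : ℝ) + (U k : ℝ) < ((T + 2 : ℕ) : ℝ) := hk
    have h2 := (U k).2.1
    have h3 : (k.2 : ℝ) < ((T + 2 : ℕ) : ℝ) := by linarith
    exact_mod_cast h3
  have key := post_opt hP hC hμ U (T + 2) (Is U ((T + 2 : ℕ) : ℝ)) hI v
    (fun x => est (T + 1) v U x) ((measurable_est (T + 1) v).comp
      (measurable_const.prodMk measurable_id)) 9 (fun x => est_abs _ _ _ _) (by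
      intro x x' h
      unfold est
      congr 1
      refine Finset.sum_congr rfl fun j hj => ?_
      rw [h (v, j)]
      show (j : ℝ) + (U (v, j) : ℝ) < ((T + 2 : ℕ) : ℝ)
      have h2 := (U (v, j)).2.2
      have h3 : (j : ℝ) + 1 ≤ ((T + 1 : ℕ) : ℝ) := by exact_mod_cast Finset.mem_range.1 hj
      push_cast at h3 ⊢
      linarith)
  have e : ∀ p : (V → Bool) × (V × ℕ → I01),
      mt G θ ((T + 2 : ℕ) : ℝ) (p.1, (U, p.2)) v
        = Mm G θ (fld (T + 2) (Is U ((T + 2 : ℕ) : ℝ)) (p.1, (U, p.2))) v v := by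
    intro p
    unfold mt yt
    rw [Nat.ceil_natCast]
  have e2 : ∫ p, (sp (p.1 v) - mt G θ ((T + 2 : ℕ) : ℝ) (p.1, (U, p.2)) v) ^ 2 ∂(μ.prod (lam V))
      ≤ ∫ p, (sp (p.1 v) - est (T + 1) v U (obs (p.1, (U, p.2)))) ^ 2 ∂(μ.prod (lam V)) := by
    simp_rw [e]
    exact key
  exact e2

end FIN

end Vale.Agent.P161C
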