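import Vale.Agent.P161C.FinB

/-!
# P161C, module FIN, part C: decoding the spins from the innovations
-/

namespace Vale.Agent.P161C

open MeasureTheory Vale.Agent.P161 Filter Topology ProbabilityTheory

universe u

variable {V : Type u}

namespace FIN

open ENV

/-- labels and innovations -/
noncomputable def RR' (G : SimpleGraph V) (θ : ℝ) (ω : Om V) :
    (V × ℕ → I01) × (V × ℕ → I01) := (ω.2.1, inn G θ ω)

lemma measurable_RR' (hBase : S_BASE.{u}) {G : SimpleGraph V} {d : ℕ} {θ : ℝ}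
    (hC : Crit G d θ) : Measurable (RR' G θ) := by
  have h1 : Measurable fun ω : Om V => ω.2.1 := by fun_prop
  have h2 : Measurable fun ω : Om V => inn G θ ω := by
    rw [measurable_pi_iff]
    exact (hBase hC).2.1
  exact h1.prodMk h2

open Classical in
/-- the trace as a function of labels and innovations -/
noncomputable def tau (s : ℝ) (r : (V × ℕ → I01) × (V × ℕ → I01)) (k : V × ℕ) : ℝ × ℝ :=
  if kap r.1 k < s then ((r.1 k : ℝ), (r.2 k : ℝ)) else (2, 2)

lemma measurable_tau (s : ℝ) : Measurable (tau (V := V) s) := by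
  rw [measurable_pi_iff]
  intro k
  unfold tau
  refine Measurable.ite ?_ (by fun_prop) measurable_const
  unfold kap
  exact measurableSet_lt (by fun_prop) measurable_const

lemma trG_eq (G : SimpleGraph V) (θ s : ℝ) (ω : Om V) : trG G θ s ω = tau s (RR' G θ ω) := rfl

lemma GG_le (hBase : S_BASE.{u}) {G : SimpleGraph V} {d : ℕ} {θ : ℝ} (hC : Crit G d θ) (s : ℝ) :
    GG G θ s ≤ (inferInstance : MeasurableSpace (Om V)) := by
  unfold GG
  exact ((hBase hC).2.2.2.1 s).comap_le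

/-- if the conditional variance vanishes, the posterior mean is a function of the innovations -/
lemma exists_F (hBase : S_BASE.{u}) {G : SimpleGraph V} {d : ℕ} {θ : ℝ} (hC : Crit G d θ)
    {μ : Measure (V → Bool)} (hμ : IsFreeIsing G θ μ) (v : V) (s : ℝ)
    (h0 : hG G θ μ (GG G θ s) v s = 0) :
    ∃ F : (V × ℕ → I01) × (V × ℕ → I01) → ℝ, Measurable F ∧
      ∀ᵐ ω ∂(PP μ), mt G θ s ω v = F (RR' G θ ω) := by
  have hne : Nonempty V := ⟨v⟩
  have hp : IsProbabilityMeasure μ := isProb_of_isFreeIsing hμ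
  have hpp : IsProbabilityMeasure (PP μ) := by unfold PP; infer_instance
  have mmt := measurable_mt hBase hC s v
  have bmt : ∀ ω : Om V, |mt G θ s ω v| ≤ 1 := fun ω => Mm_abs G θ _ v v
  set c := (PP μ)[fun ω => mt G θ s ω v | GG G θ s] with hc
  have hcm : StronglyMeasurable[GG G θ s] c := stronglyMeasurable_condExp
  have hcm' : Measurable c := (hcm.mono (GG_le hBase hC s)).measurable
  have hcb : ∀ᵐ ω ∂(PP μ), |c ω| ≤ 1 := by
    exact ae_bdd_abs_condExp_of_ae_bdd_abs (m := GG G θ s) (μ := PP μ) (R := (1 : ℝ))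
      (f := fun ω => mt G θ s ω v) (Eventually.of_forall bmt)
  have hint : Integrable (fun ω => (mt G θ s ω v - c ω) ^ 2) (PP μ) := by
    refine Integrable.of_bound (C := 4) ((mmt.sub hcm').pow_const 2).aestronglyMeasurable ?_
    filter_upwards [hcb] with ω hω
    have a := abs_le.1 (bmt ω)
    have b := abs_le.1 hω
    rw [Real.norm_eq_abs, abs_of_nonneg (sq_nonneg _)]
    nlinarith [a.1, a.2, b.1, b.2]
  have h1 : (fun ω => (mt G θ s ω v - c ω) ^ 2) =ᵐ[PP μ] 0 := by
    rw [← integral_eq_zero_iff_of_nonneg (fun ω => sq_nonneg _) hint]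
    exact h0
  obtain ⟨f, hf, hfc⟩ := hcm.exists_eq_measurable_comp
  refine ⟨fun r => f (tau s r), hf.measurable.comp (measurable_tau s), ?_⟩
  filter_upwards [h1] with ω hω
  have h2 : mt G θ s ω v - c ω = 0 := by simpa using hω
  have h3 : c ω = f (trG G θ s ω) := by rw [hfc]; rfl
  rw [← trG_eq, ← h3]
  linarith

/-- the spins are a function of the innovations -/
lemma exists_psi (hP : S_POST.{u}) (hBase : S_BASE.{u}) {G : SimpleGraph V} {d : ℕ} {θ : ℝ}
    (hC : Crit G d θ) {μ : Measure (V → Bool)} (hμ : IsFreeIsing G θ μ) (v : V)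
    (h0 : ∀ T : ℕ, 1 ≤ T → hG G θ μ (GG G θ T) v T = 0) :
    ∃ ψ : (V × ℕ → I01) × (V × ℕ → I01) → Bool, Measurable ψ ∧
      ∀ᵐ ω ∂(PP μ), ω.1 v = ψ (RR' G θ ω) := by
  have hne : Nonempty V := ⟨v⟩
  have hp : IsProbabilityMeasure μ := isProb_of_isFreeIsing hμ
  have hpp : IsProbabilityMeasure (PP μ) := by unfold PP; infer_instance
  have hF : ∀ n : ℕ, ∃ F : (V × ℕ → I01) × (V × ℕ → I01) → ℝ, Measurable F ∧
      ∀ᵐ ω ∂(PP μ), mt G θ ((2 ^ n + 2 : ℕ) : ℝ) ω v = F (RR' G θ ω) := fun n =>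
    exists_F hBase hC hμ v _ (h0 (2 ^ n + 2) (Nat.le_add_left 1 (2 ^ n + 1)))
  choose F hFm hFe using hF
  -- almost sure convergence
  have hconv : ∀ᵐ ω ∂(PP μ), Tendsto (fun n : ℕ => mt G θ ((2 ^ n + 2 : ℕ) : ℝ) ω v) atTop
      (𝓝 (sp (ω.1 v))) := by
    have mm : ∀ n : ℕ, Measurable fun ω : Om V =>
        (sp (ω.1 v) - mt G θ ((2 ^ n + 2 : ℕ) : ℝ) ω v) ^ 2 := fun n =>
      ((measurable_sp1 v).sub (measurable_mt hBase hC _ v)).pow_const 2
    have hb : ∀ (n : ℕ) (ω : Om V), |(sp (ω.1 v) - mt G θ ((2 ^ n + 2 : ℕ) : ℝ) ω v) ^ 2| ≤ 4 := by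
      intro n ω
      have a := abs_le.1 (Mm_abs G θ (yt ((2 ^ n + 2 : ℕ) : ℝ) ω) v v)
      have b := abs_le.1 (sp_abs (ω.1 v))
      rw [abs_of_nonneg (sq_nonneg _)]
      have a1 : -1 ≤ mt G θ ((2 ^ n + 2 : ℕ) : ℝ) ω v := a.1
      have a2 : mt G θ ((2 ^ n + 2 : ℕ) : ℝ) ω v ≤ 1 := a.2
      nlinarith [a1, a2, b.1, b.2]
    have h1 : ∀ n : ℕ, ∫⁻ ω, ENNReal.ofReal
        ((sp (ω.1 v) - mt G θ ((2 ^ n + 2 : ℕ) : ℝ) ω v) ^ 2) ∂(PP μ)
        ≤ ENNReal.ofReal (100 * (1 / 2) ^ n) := by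
      intro n
      rw [← ofReal_integral_eq_lintegral_ofReal (integrable_bdd (mm n) (hb n))
        (Eventually.of_forall fun ω => sq_nonneg _)]
      apply ENNReal.ofReal_le_ofReal
      refine (mt_conv hP hBase hC hμ v (2 ^ n)).trans ?_
      rw [one_div, inv_pow, ← div_eq_mul_inv]
      gcongr
      push_cast
      linarith
    have h2 : ∫⁻ ω, ∑' n : ℕ, ENNReal.ofReal
        ((sp (ω.1 v) - mt G θ ((2 ^ n + 2 : ℕ) : ℝ) ω v) ^ 2) ∂(PP μ) ≠ ⊤ := by
      rw [lintegral_tsum fun n => ((mm n).ennreal_ofReal).aemeasurable]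
      refine ne_top_of_le_ne_top ?_ (ENNReal.tsum_le_tsum h1)
      have hs : Summable fun n : ℕ => 100 * (1 / 2 : ℝ) ^ n :=
        (summable_geometric_of_lt_one (by norm_num) (by norm_num)).mul_left 100
      rw [← ENNReal.ofReal_tsum_of_nonneg (fun n => by positivity) hs]
      exact ENNReal.ofReal_ne_top
    have h3 := ae_lt_top' (AEMeasurable.tsum fun n =>
      ((mm n).ennreal_ofReal).aemeasurable) h2
    filter_upwards [h3] with ω hω
    have h4 := ENNReal.tendsto_atTop_zero_of_tsum_ne_top hω.ne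
    have h5 : Tendsto (fun n : ℕ => (sp (ω.1 v) - mt G θ ((2 ^ n + 2 : ℕ) : ℝ) ω v) ^ 2) atTop
        (𝓝 0) := by
      have h6 := (ENNReal.tendsto_toReal ENNReal.zero_ne_top).comp h4
      simp only [ENNReal.toReal_zero] at h6
      refine h6.congr fun n => ?_
      simp only [Function.comp_apply]
      rw [ENNReal.toReal_ofReal (sq_nonneg _)]
    have h7 : Tendsto (fun n : ℕ => |sp (ω.1 v) - mt G θ ((2 ^ n + 2 : ℕ) : ℝ) ω v|) atTop
        (𝓝 0) := by
      have h8 := (Real.continuous_sqrt.tendsto 0).comp h5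
      rw [Real.sqrt_zero] at h8
      refine h8.congr fun n => ?_
      simp only [Function.comp_apply]
      exact Real.sqrt_sq_eq_abs _
    rw [tendsto_iff_dist_tendsto_zero]
    refine h7.congr fun n => ?_
    rw [Real.dist_eq, abs_sub_comm]
  -- decoding
  have hlm : Measurable fun r => limsup (fun n => F n r) atTop := Measurable.limsup hFm
  classical
  refine ⟨fun r => decide (0 < limsup (fun n => F n r) atTop), ?_, ?_⟩
  · have hs : MeasurableSet {r | 0 < limsup (fun n => F n r) atTop} :=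
      measurableSet_lt measurable_const hlm
    exact measurable_to_bool (by
      have : (fun r => decide (0 < limsup (fun n => F n r) atTop)) ⁻¹' {true}
          = {r | 0 < limsup (fun n => F n r) atTop} := by
        ext r; simp
      rw [this]
      exact hs)
  · filter_upwards [hconv, ae_all_iff.2 hFe] with ω h1 h2
    have h3 : limsup (fun n => F n (RR' G θ ω)) atTop = sp (ω.1 v) := by
      have h4 : Tendsto (fun n => F n (RR' G θ ω)) atTop (𝓝 (sp (ω.1 v))) :=
        h1.congr fun n => h2 n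
      exact h4.limsup_eq
    rw [h3]
    cases ω.1 v <;> simp [sp]

end FIN

end Vale.Agent.P161C
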