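import Vale.Agent.P161C.CovLip

/-!
# Facts for fixed labels, from POST
-/

namespace Vale.Agent.P161C

open MeasureTheory Vale.Agent.P161 Filter Topology

universe u

variable {V : Type u}

namespace FixU

lemma abs_tanh_lt (x : ℝ) : |Real.tanh x| < 1 := Real.abs_tanh_lt_one x

lemma continuous_tanh : Continuous Real.tanh := by
  have : Real.tanh = fun x => Real.sinh x / Real.cosh x := by
    funext x; exact Real.tanh_eq_sinh_div_cosh x
  rw [this]
  exact Real.continuous_sinh.div Real.continuous_cosh fun x => (Real.cosh_pos x).ne'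

lemma continuous_ff {θ : ℝ} (h0 : 0 < θ) (h1 : θ < 1) : Continuous (ff θ) := by
  unfold ff at'
  have hb : ∀ l : ℝ, |θ * Real.tanh l| < 1 := by
    intro l
    rw [abs_mul, abs_of_pos h0]
    have := abs_tanh_lt l
    have := abs_nonneg (Real.tanh l)
    nlinarith
  have hc : Continuous Real.tanh := continuous_tanh
  apply Continuous.div_const
  apply Continuous.log
  · apply Continuous.div (by fun_prop) (by fun_prop)
    intro l
    have := (abs_lt.1 (hb l)).2
    linarith
  · intro l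
    have a1 := (abs_lt.1 (hb l)).1
    have a2 := (abs_lt.1 (hb l)).2
    apply ne_of_gt
    apply div_pos <;> linarith

lemma bps_of_tendsto {G : SimpleGraph V} {d : ℕ} {θ : ℝ} (hc : Crit G d θ) {y : V → ℝ}
    {L : V → V → ℝ} (h : ∀ u q, Tendsto (fun n => msg G θ n y u q) atTop (𝓝 (L u q))) :
    BPS G θ y L := by
  classical
  intro u p
  have h1 := (h u p).comp (tendsto_add_atTop_nat 1)
  have h2 : Tendsto (fun n => y u + ∑ c ∈ (nb G u).erase p, ff θ (msg G θ n y c u)) atTop
      (𝓝 (y u + ∑ c ∈ (nb G u).erase p, ff θ (L c u))) :=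
    tendsto_const_nhds.add (tendsto_finsetSum _ fun c _ =>
      ((continuous_ff hc.pos (Dis.crit_lt hc)).tendsto _).comp (h c u))
  have h3 : ((fun n => msg G θ n y u p) ∘ fun a => a + 1)
      = fun n => y u + ∑ c ∈ (nb G u).erase p, ff θ (msg G θ n y c u) := by
    funext n
    simp only [Function.comp, msg]
  rw [h3] at h1
  exact tendsto_nhds_unique h1 h2

lemma lt_of_mem_Is {U : V × ℕ → I01} {s : ℝ} {J : ℕ} (hs : s ≤ J) {k : V × ℕ}
    (hk : k ∈ Is U s) : k.2 < J := by
  have h : kap U k < s := hk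
  unfold kap at h
  have h0 : 0 ≤ (U k : ℝ) := (U k).2.1
  have : (k.2 : ℝ) < J := by linarith
  exact_mod_cast this

lemma ae_bps (hP : S_POST.{u}) {G : SimpleGraph V} {d : ℕ} {θ : ℝ} (hc : Crit G d θ)
    {μ : Measure (V → Bool)} (hμ : IsFreeIsing G θ μ) (U : V × ℕ → I01) (s : ℝ) :
    ∀ᵐ p ∂(μ.prod (lam V)), BPS G θ (yt s (p.1, (U, p.2))) (Lt G θ s (p.1, (U, p.2))) := by
  obtain ⟨J, hJ⟩ := exists_nat_ge s
  filter_upwards [(hP hc hμ U J (Is U s) (fun k hk => lt_of_mem_Is hJ hk)).1] with p hp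
  unfold Lt
  rw [Dis.yt_eq_fld s (p.1, (U, p.2)) J hJ]
  exact bps_of_tendsto hc hp

lemma gt_le (K : ℕ) {t : ℝ} (ht : 0 ≤ t) : gt K t ≤ t := by
  unfold gt
  rcases Nat.eq_zero_or_pos K with h | h
  · subst h; simpa using ht
  · have hK : (0 : ℝ) < K := by exact_mod_cast h
    rw [div_le_iff₀ hK, mul_comm]
    exact Nat.floor_le (by positivity)

lemma gt_nonneg (K : ℕ) (t : ℝ) : 0 ≤ gt K t := by unfold gt; positivity

lemma lt_gt {K : ℕ} (hK : 0 < K) (t : ℝ) : t < gt K t + 1 / K := by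
  have hK' : (0 : ℝ) < K := by exact_mod_cast hK
  unfold gt
  rw [← add_div, lt_div_iff₀ hK', mul_comm]
  exact Nat.lt_floor_add_one _

lemma half_le_gt {K : ℕ} (hK : 0 < K) {t : ℝ} (ht : 1 / (K : ℝ) ≤ t) : t / 2 ≤ gt K t := by
  have hK' : (0 : ℝ) < K := by exact_mod_cast hK
  have h1 := lt_gt hK t
  have h2 : 1 / (K : ℝ) ≤ gt K t := by
    unfold gt
    gcongr
    have : 1 ≤ ⌊(K : ℝ) * t⌋₊ := by
      apply Nat.le_floor
      rw [div_le_iff₀ hK'] at ht
      push_cast
      linarith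
    exact_mod_cast this
  linarith

lemma eventually_lt_gt {a t : ℝ} (h : a < t) : ∀ᶠ K : ℕ in atTop, a < gt K t := by
  obtain ⟨N, hN⟩ := exists_nat_gt (1 / (t - a))
  filter_upwards [eventually_ge_atTop (max N 1)] with K hK
  have hK1 : 0 < K := by have := (le_max_right N 1).trans hK; omega
  have hK' : (0 : ℝ) < K := by exact_mod_cast hK1
  have h1 := lt_gt hK1 t
  have h2 : 1 / (K : ℝ) ≤ t - a := by
    have h3 : 1 / (t - a) < K := hN.trans_le (by exact_mod_cast (le_max_left N 1).trans hK)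
    have h4 : 0 < t - a := by linarith
    rw [div_lt_iff₀ h4] at h3
    rw [div_le_iff₀ hK']
    linarith
  linarith

/-- for fixed labels, the posterior means at the grid times converge -/
lemma conv_m (hP : S_POST.{u}) {G : SimpleGraph V} {d : ℕ} {θ : ℝ} (hc : Crit G d θ)
    {μ : Measure (V → Bool)} (hμ : IsFreeIsing G θ μ) (U : V × ℕ → I01) {t : ℝ} (ht : 0 ≤ t)
    (v : V) : Tendsto (fun K : ℕ => ∫ p, (mt G θ t (p.1, (U, p.2)) v
      - mt G θ (gt K t) (p.1, (U, p.2)) v) ^ 2 ∂(μ.prod (lam V))) atTop (𝓝 0) := by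
  obtain ⟨J, hJ⟩ := exists_nat_ge t
  have h := (hP hc hμ U J (Is U t) (fun k hk => lt_of_mem_Is hJ hk)).2.2 v
    (fun K => Is U (gt K t)) (fun K k hk => lt_of_lt_of_le hk (gt_le K ht))
    (fun k hk => eventually_lt_gt hk)
  refine h.congr fun K => ?_
  apply integral_congr_ae
  filter_upwards with p
  unfold mt
  rw [Dis.yt_eq_fld t (p.1, (U, p.2)) J hJ,
    Dis.yt_eq_fld (gt K t) (p.1, (U, p.2)) J ((gt_le K ht).trans hJ)]

lemma dl_nonneg (t : I01) : 0 ≤ dl t := Real.sqrt_nonneg _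

lemma dl_le (t : I01) : dl t ≤ 1 / 2 := by
  unfold dl
  rw [Real.sqrt_le_left (by norm_num)]
  nlinarith [sq_nonneg ((t : ℝ) - 1 / 2)]

lemma measurable_dl : Measurable dl := by unfold dl; fun_prop

lemma measurable_kap (k : V × ℕ) : Measurable fun ω : Om V => kap ω.2.1 k := by
  unfold kap; fun_prop

lemma measurable_gt (K : ℕ) : Measurable (gt K) := by
  unfold gt
  have h1 : Measurable fun t : ℝ => (K : ℝ) * t := by fun_prop
  have h2 : Measurable fun t : ℝ => ⌊(K : ℝ) * t⌋₊ := Nat.measurable_floor.comp h1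
  have h3 : Measurable fun n : ℕ => (n : ℝ) := measurable_of_countable _
  exact (h3.comp h2).div_const _

section meas

variable {G : SimpleGraph V} {d : ℕ} {θ : ℝ}

lemma meas_comp (x y : V) (F : ℝ → Om V → V → V → ℝ)
    (hB : Measurable fun q : ℝ × Om V => F q.1 q.2 x y) {α : Type*} [MeasurableSpace α]
    {τ : α → ℝ} {f : α → Om V} (hτ : Measurable τ) (hf : Measurable f) :
    Measurable fun a => F (τ a) (f a) x y := by
  have h2 : Measurable fun a => (τ a, f a) := hτ.prodMk hf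
  exact hB.comp h2

lemma measurable_Lt (hB : S_BASE.{u}) (hc : Crit G d θ) {α : Type*} [MeasurableSpace α]
    {τ : α → ℝ} {f : α → Om V} (hτ : Measurable τ) (hf : Measurable f) (x y : V) :
    Measurable fun a => Lt G θ (τ a) (f a) x y :=
  meas_comp x y (Lt G θ) ((hB hc).1 x y) hτ hf

lemma measurable_tLt (hB : S_BASE.{u}) (hc : Crit G d θ) {α : Type*} [MeasurableSpace α]
    {τ : α → ℝ} {f : α → Om V} (hτ : Measurable τ) (hf : Measurable f) (x y : V) :
    Measurable fun a => Real.tanh (Lt G θ (τ a) (f a) x y) :=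
  meas_comp x y (fun s ω x y => Real.tanh (Lt G θ s ω x y))
    (continuous_tanh.measurable.comp ((hB hc).1 x y)) hτ hf

lemma measurable_mt (hB : S_BASE.{u}) (hc : Crit G d θ) {α : Type*} [MeasurableSpace α]
    {τ : α → ℝ} {f : α → Om V} (hτ : Measurable τ) (hf : Measurable f) (v : V) :
    Measurable fun a => mt G θ (τ a) (f a) v :=
  measurable_tLt hB hc hτ hf v v

lemma measurable_gg : Measurable (gg θ) := by
  unfold gg tt; fun_prop

lemma measurable_cov (hB : S_BASE.{u}) (hc : Crit G d θ) {α : Type*} [MeasurableSpace α]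
    {τ : α → ℝ} {f : α → Om V} (hτ : Measurable τ) (hf : Measurable f) (v w : V) :
    Measurable fun a => cov G θ (Lt G θ (τ a) (f a)) v w := by
  have ht : ∀ u p, Measurable fun a => Real.tanh (Lt G θ (τ a) (f a) u p) := fun u p =>
    measurable_tLt hB hc hτ hf u p
  have hb : ∀ u, Measurable fun a => bet (Lt G θ (τ a) (f a)) u := by
    intro u
    unfold bet
    have := ht u u
    fun_prop
  have hl : ∀ u p, Measurable fun a => ell θ (Lt G θ (τ a) (f a)) u p := by
    intro u p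
    unfold ell
    have h1 := (measurable_gg (θ := θ)).comp ((ht u p).pow_const 2)
    have h2 := (measurable_gg (θ := θ)).comp ((ht p u).pow_const 2)
    exact h1.add h2
  unfold cov SS
  have h3 : Measurable fun a => ∑ i ∈ Finset.range (G.dist v w),
      ell θ (Lt G θ (τ a) (f a)) (gp G v w i) (gp G v w (i + 1)) := by
    apply Finset.measurable_sum
    intro i _
    exact hl _ _
  have h4 := hb v
  have h5 := hb w
  fun_prop

end meas

lemma cov_unit (hA3 : S_ALG3.{u}) {G : SimpleGraph V} {d : ℕ} {θ : ℝ} (hc : Crit G d θ)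
    (L : V → V → ℝ) (v w : V) : 0 ≤ cov G θ L v w ∧ cov G θ L v w ≤ 1 := by
  refine ⟨((hA3 hc).2 L v w).1, ?_⟩
  have hb := CovLip.bet_unit L v
  have hb2 := CovLip.bet_unit L w
  have hθ : θ ^ (G.dist v w) ≤ 1 := pow_le_one₀ hc.pos.le (Dis.crit_lt hc).le
  have hθ0 : 0 ≤ θ ^ (G.dist v w) := pow_nonneg hc.pos.le _
  have hS : 0 ≤ SS G θ L v w := Finset.sum_nonneg fun i _ => ((hA3 hc).1 L _ _).1
  have he : Real.exp (-SS G θ L v w) ≤ 1 := by
    rw [Real.exp_le_one_iff]; linarith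
  unfold cov
  have h1 : bet L v * bet L w ≤ 1 := mul_le_one₀ hb.2 hb2.1 hb2.2
  have h2 : bet L v * bet L w * θ ^ G.dist v w ≤ 1 := mul_le_one₀ h1 hθ0 hθ
  exact mul_le_one₀ h2 (Real.exp_pos _).le he

end FixU

end Vale.Agent.P161C
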