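import Vale.Agent.P161C.Plan

/-! # Module HOM: the automorphism group of a regular tree is transitive on pairs -/

namespace Vale.Agent.P161C

open MeasureTheory Vale.Agent.P161 Filter Topology

universe u

namespace HOM

variable {V : Type u} {G : SimpleGraph V} {d : ℕ} {θ : ℝ}

lemma mem_nb (h : Crit G d θ) {u v : V} : v ∈ nb G u ↔ G.Adj u v := by
  have hf := neighborSet_finite (G := G) (d := d) (by have := h.hd; omega) h.reg u
  simp [nb, hf]

lemma card_nb (h : Crit G d θ) (u : V) : (nb G u).card = d := by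
  have hf := neighborSet_finite (G := G) (d := d) (by have := h.hd; omega) h.reg u
  rw [nb, dif_pos hf, ← Set.ncard_eq_toFinset_card _ hf, h.reg]

/-- an isometry with convex domain and range, as a relation -/
structure Good (G : SimpleGraph V) (R : Set (V × V)) : Prop where
  iso : ∀ p ∈ R, ∀ q ∈ R, G.dist p.1 q.1 = G.dist p.2 q.2
  cl : ∀ p ∈ R, ∀ q ∈ R, ∀ x, G.dist p.1 x + G.dist x q.1 = G.dist p.1 q.1 → ∃ y, (x, y) ∈ R
  cr : ∀ p ∈ R, ∀ q ∈ R, ∀ y, G.dist p.2 y + G.dist y q.2 = G.dist p.2 q.2 → ∃ x, (x, y) ∈ R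

lemma Good.swap {R : Set (V × V)} (h : Good G R) : Good G (Prod.swap ⁻¹' R) where
  iso _ hp _ hq := (h.iso _ hp _ hq).symm
  cl _ hp _ hq x hx := h.cr _ hp _ hq x hx
  cr _ hp _ hq y hy := h.cl _ hp _ hq y hy

/-- distances to a new leaf -/
lemma new_dist (hG : G.IsTree) {S : Set V} {a x : V} (hax : G.Adj a x)
    (hcl : ∀ a' ∈ S, G.dist a x + G.dist x a' = G.dist a a' → x ∈ S) (hx : x ∉ S) {a' : V}
    (ha' : a' ∈ S) : G.dist x a' = G.dist a a' + 1 := by
  rcases dist_split hG hax a' with h | h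
  · exact h
  · exfalso
    refine hx (hcl a' ha' ?_)
    rw [SimpleGraph.dist_eq_one_iff_adj.2 hax]
    omega

lemma new_convex (hG : G.IsTree) {a x a' z : V} (hax : G.Adj a x)
    (h1 : G.dist x a' = G.dist a a' + 1) (hz : G.dist x z + G.dist z a' = G.dist x a') :
    z = x ∨ G.dist a z + G.dist z a' = G.dist a a' := by
  rcases dist_split hG hax z with h | h
  · right; omega
  · left
    have := dist_cross hG hax.symm (w := z) (u := a') h h1
    have h0 : G.dist x z = 0 := by omega
    exact ((hG.connected.dist_eq_zero_iff).1 h0).symm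

/-- one-point extension -/
lemma Good.ins (hG : G.IsTree) {R : Set (V × V)} (h : Good G R) {a b x y : V}
    (hab : (a, b) ∈ R) (hax : G.Adj a x) (hby : G.Adj b y) (hx : ∀ z, (x, z) ∉ R)
    (hy : ∀ z, (z, y) ∉ R) : Good G (insert (x, y) R) := by
  have d1 : ∀ q ∈ R, G.dist x q.1 = G.dist a q.1 + 1 := by
    intro q hq
    refine new_dist hG (S := {v | ∃ z, (v, z) ∈ R}) hax ?_ ?_ ⟨q.2, hq⟩
    · rintro a' ⟨b', hb'⟩ he
      exact h.cl _ hab _ hb' x he
    · rintro ⟨z, hz⟩
      exact hx z hz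
  have d2 : ∀ q ∈ R, G.dist y q.2 = G.dist b q.2 + 1 := by
    intro q hq
    refine new_dist hG (S := {v | ∃ z, (z, v) ∈ R}) hby ?_ ?_ ⟨q.1, hq⟩
    · rintro a' ⟨b', hb'⟩ he
      exact h.cr _ hab _ hb' y he
    · rintro ⟨z, hz⟩
      exact hy z hz
  refine ⟨?_, ?_, ?_⟩
  · rintro p (rfl | hp) q (rfl | hq)
    · simp
    · show G.dist x q.1 = G.dist y q.2
      rw [d1 q hq, d2 q hq]
      have := h.iso _ hab _ hq
      simp only at this
      omega
    · show G.dist p.1 x = G.dist p.2 y
      rw [G.dist_comm, d1 p hp, G.dist_comm (u := p.2), d2 p hp]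
      have := h.iso _ hab _ hp
      simp only at this
      omega
    · exact h.iso p hp q hq
  · rintro p (rfl | hp) q (rfl | hq) z hz
    · simp only [SimpleGraph.dist_self] at hz
      have : G.dist x z = 0 := by omega
      have hxz := (hG.connected.dist_eq_zero_iff).1 this
      exact ⟨y, Or.inl (by rw [hxz])⟩
    · rcases new_convex hG hax (d1 q hq) hz with h1 | h1
      · exact ⟨y, Or.inl (by rw [h1])⟩
      · obtain ⟨w, hw⟩ := h.cl _ hab _ hq z h1
        exact ⟨w, Or.inr hw⟩
    · have hz' : G.dist x z + G.dist z p.1 = G.dist x p.1 := by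
        have e1 : G.dist x z = G.dist z x := G.dist_comm
        have e2 : G.dist z p.1 = G.dist p.1 z := G.dist_comm
        have e3 : G.dist x p.1 = G.dist p.1 x := G.dist_comm
        simp only at hz
        omega
      rcases new_convex hG hax (d1 p hp) hz' with h1 | h1
      · exact ⟨y, Or.inl (by rw [h1])⟩
      · obtain ⟨w, hw⟩ := h.cl _ hab _ hp z h1
        exact ⟨w, Or.inr hw⟩
    · obtain ⟨w, hw⟩ := h.cl p hp q hq z hz
      exact ⟨w, Or.inr hw⟩
  · rintro p (rfl | hp) q (rfl | hq) z hz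
    · simp only [SimpleGraph.dist_self] at hz
      have : G.dist y z = 0 := by omega
      have hxz := (hG.connected.dist_eq_zero_iff).1 this
      exact ⟨x, Or.inl (by rw [hxz])⟩
    · rcases new_convex hG hby (d2 q hq) hz with h1 | h1
      · exact ⟨x, Or.inl (by rw [h1])⟩
      · obtain ⟨w, hw⟩ := h.cr _ hab _ hq z h1
        exact ⟨w, Or.inr hw⟩
    · have hz' : G.dist y z + G.dist z p.2 = G.dist y p.2 := by
        have e1 : G.dist y z = G.dist z y := G.dist_comm
        have e2 : G.dist z p.2 = G.dist p.2 z := G.dist_comm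
        have e3 : G.dist y p.2 = G.dist p.2 y := G.dist_comm
        simp only at hz
        omega
      rcases new_convex hG hby (d2 p hp) hz' with h1 | h1
      · exact ⟨x, Or.inl (by rw [h1])⟩
      · obtain ⟨w, hw⟩ := h.cr _ hab _ hp z h1
        exact ⟨w, Or.inr hw⟩
    · obtain ⟨w, hw⟩ := h.cr p hp q hq z hz
      exact ⟨w, Or.inr hw⟩

/-- the start: two geodesics -/
lemma exists_start (hG : G.IsTree) (n : ℕ) : ∀ u w u' w' : V, G.dist u w = n →
    G.dist u' w' = n → ∃ R, Good G R ∧ (u, u') ∈ R ∧ (w, w') ∈ R ∧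
      ∀ p ∈ R, G.dist u p.1 + G.dist p.1 w = n := by
  induction n with
  | zero =>
    intro u w u' w' h1 h2
    have e1 := (hG.connected.dist_eq_zero_iff).1 h1
    have e2 := (hG.connected.dist_eq_zero_iff).1 h2
    subst e1 e2
    refine ⟨{(u, u')}, ⟨?_, ?_, ?_⟩, rfl, rfl, ?_⟩
    · rintro p rfl q rfl
      simp
    · rintro p rfl q rfl x hx
      simp only [SimpleGraph.dist_self] at hx
      have : G.dist u x = 0 := by omega
      have hxz := (hG.connected.dist_eq_zero_iff).1 this
      exact ⟨u', by rw [hxz]; rfl⟩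
    · rintro p rfl q rfl x hx
      simp only [SimpleGraph.dist_self] at hx
      have : G.dist u' x = 0 := by omega
      have hxz := (hG.connected.dist_eq_zero_iff).1 this
      exact ⟨u, by rw [hxz]; rfl⟩
    · rintro p rfl
      simp
  | succ n ih =>
    intro u w u' w' h1 h2
    obtain ⟨w1, hw1, hd1⟩ := exists_closer hG.connected (v := w) (u := u) (n := n)
      (by rw [G.dist_comm]; exact h1)
    obtain ⟨w1', hw1', hd1'⟩ := exists_closer hG.connected (v := w') (u := u') (n := n)
      (by rw [G.dist_comm]; exact h2)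
    obtain ⟨R, hR, hu, hw, hgeo⟩ := ih u w1 u' w1' (by rw [G.dist_comm]; exact hd1)
      (by rw [G.dist_comm]; exact hd1')
    have e1 : G.dist w w1 = 1 := SimpleGraph.dist_eq_one_iff_adj.2 hw1
    have e1' : G.dist w' w1' = 1 := SimpleGraph.dist_eq_one_iff_adj.2 hw1'
    have hx : ∀ z, (w, z) ∉ R := by
      intro z hz
      have := hgeo _ hz
      simp only at this
      omega
    have hy : ∀ z, (z, w') ∉ R := by
      intro z hz
      have h3 := hgeo _ hz
      have h4 := hR.iso _ hu _ hz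
      have h5 := hR.iso _ hz _ hw
      simp only at h3 h4 h5
      omega
    refine ⟨insert (w, w') R, hR.ins hG hw hw1.symm hw1'.symm hx hy, Or.inr hu, Or.inl rfl, ?_⟩
    have d1 : ∀ q ∈ R, G.dist w q.1 = G.dist w1 q.1 + 1 := by
      intro q hq
      refine new_dist hG (S := {v | ∃ z, (v, z) ∈ R}) hw1.symm ?_ ?_ ⟨q.2, hq⟩
      · rintro a' ⟨b', hb'⟩ he
        exact hR.cl _ hw _ hb' w he
      · rintro ⟨z, hz⟩
        exact hx z hz
    rintro p (rfl | hp)
    · simp [h1]
    · have h3 := hgeo p hp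
      have h4 := d1 p hp
      have h5 : G.dist w p.1 = G.dist p.1 w := G.dist_comm
      have h6 : G.dist w1 p.1 = G.dist p.1 w1 := G.dist_comm
      omega

/-- a good relation which is not total can be extended -/
lemma Good.extend (h : Crit G d θ) {R : Set (V × V)} (hR : Good G R) (hne : R.Nonempty)
    {x0 : V} (hx0 : ∀ z, (x0, z) ∉ R) :
    ∃ x y, (∀ z, (x, z) ∉ R) ∧ Good G (insert (x, y) R) := by
  classical
  obtain ⟨⟨u, u'⟩, hu⟩ := hne
  -- an edge leaving the domain
  have hex : ∃ n : ℕ, ∃ x, G.dist u x = n ∧ ∀ z, (x, z) ∉ R := ⟨_, x0, rfl, hx0⟩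
  obtain ⟨x, hxd, hx⟩ := Nat.find_spec hex
  have hmin : ∀ m, m < Nat.find hex → ∀ y, G.dist u y = m → ∃ z, (y, z) ∈ R := by
    intro m hm y hy
    by_contra hcon
    push Not at hcon
    exact Nat.find_min hex hm ⟨y, hy, hcon⟩
  have hpos : Nat.find hex ≠ 0 := by
    intro h0
    rw [h0] at hxd
    have := (h.tree.connected.dist_eq_zero_iff).1 hxd
    exact hx u' (this ▸ hu)
  obtain ⟨m, hm⟩ := Nat.exists_eq_succ_of_ne_zero hpos
  obtain ⟨a, hxa, hda⟩ := exists_closer h.tree.connected (v := x) (u := u) (n := m)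
    (by rw [G.dist_comm, hxd, hm])
  obtain ⟨b, hb⟩ := hmin m (by omega) a (by rw [G.dist_comm]; exact hda)
  -- a free neighbour of `b`
  have hfree : ∃ y, G.Adj b y ∧ ∀ z, (z, y) ∉ R := by
    by_contra hcon
    push Not at hcon
    choose! f hf using hcon
    have hmaps : ∀ y ∈ nb G b, f y ∈ (nb G a).erase x := by
      intro y hy
      have hby := (mem_nb h).1 hy
      have h1 := hf y hby
      have h2 := hR.iso _ hb _ h1
      simp only at h2
      rw [SimpleGraph.dist_eq_one_iff_adj.2 hby] at h2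
      refine Finset.mem_erase.2 ⟨?_, (mem_nb h).2 (SimpleGraph.dist_eq_one_iff_adj.1 h2)⟩
      intro he
      exact hx y (he ▸ h1)
    have hinj : Set.InjOn f (nb G b : Set V) := by
      intro y1 hy1 y2 hy2 he
      have h1 := hf y1 ((mem_nb h).1 (Finset.mem_coe.1 hy1))
      have h2 := hf y2 ((mem_nb h).1 (Finset.mem_coe.1 hy2))
      have h3 := hR.iso _ h1 _ h2
      simp only [he, SimpleGraph.dist_self] at h3
      exact (h.tree.connected.dist_eq_zero_iff).1 h3.symm
    have hc := Finset.card_le_card_of_injOn f hmaps hinj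
    rw [card_nb h, Finset.card_erase_of_mem ((mem_nb h).2 hxa.symm), card_nb h] at hc
    have := h.hd
    omega
  obtain ⟨y, hby, hy⟩ := hfree
  exact ⟨x, y, hx, hR.ins h.tree hb hxa.symm hby hx hy⟩

end HOM

open HOM in
theorem hom : S_HOM.{u} := by
  intro V G d θ h u w u' w' hd
  obtain ⟨R0, hR0, hu, hw, -⟩ := exists_start h.tree (G.dist u w) u w u' w' rfl hd.symm
  obtain ⟨R, hsub, hmax⟩ := zorn_subset_nonempty {R : Set (V × V) | Good G R} (by
    intro c hc hchain hne
    refine ⟨⋃₀ c, ⟨?_, ?_, ?_⟩, fun s hs => Set.subset_sUnion_of_mem hs⟩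
    · rintro p ⟨s, hs, hp⟩ q ⟨t, ht, hq⟩
      rcases hchain.total hs ht with hst | hst
      · exact (hc ht).iso p (hst hp) q hq
      · exact (hc hs).iso p hp q (hst hq)
    · rintro p ⟨s, hs, hp⟩ q ⟨t, ht, hq⟩ x hx
      rcases hchain.total hs ht with hst | hst
      · obtain ⟨y, hy⟩ := (hc ht).cl p (hst hp) q hq x hx
        exact ⟨y, t, ht, hy⟩
      · obtain ⟨y, hy⟩ := (hc hs).cl p hp q (hst hq) x hx
        exact ⟨y, s, hs, hy⟩
    · rintro p ⟨s, hs, hp⟩ q ⟨t, ht, hq⟩ x hx
      rcases hchain.total hs ht with hst | hst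
      · obtain ⟨y, hy⟩ := (hc ht).cr p (hst hp) q hq x hx
        exact ⟨y, t, ht, hy⟩
      · obtain ⟨y, hy⟩ := (hc hs).cr p hp q (hst hq) x hx
        exact ⟨y, s, hs, hy⟩) R0 hR0
  have hR : Good G R := hmax.prop
  have hne : R.Nonempty := ⟨_, hsub hu⟩
  have htot : ∀ x, ∃ y, (x, y) ∈ R := by
    intro x0
    by_contra hcon
    push Not at hcon
    obtain ⟨x, y, hx, hg⟩ := hR.extend h hne hcon
    have := hmax.le_of_ge (y := insert (x, y) R) hg (Set.subset_insert _ _)
    exact hx y (this (Set.mem_insert _ _))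
  have hsur : ∀ y, ∃ x, (x, y) ∈ R := by
    intro y0
    by_contra hcon
    push Not at hcon
    obtain ⟨y, x, hy, hg⟩ := hR.swap.extend h (by
      obtain ⟨p, hp⟩ := hne
      exact ⟨p.swap, by simpa using hp⟩) (x0 := y0) hcon
    have hg' : Good G (insert (x, y) R) := by
      have := hg.swap
      convert this using 1
      ext ⟨p, q⟩
      simp only [Set.mem_insert_iff, Set.mem_preimage, Prod.swap_prod_mk, Prod.mk.injEq]
      tauto
    have := hmax.le_of_ge (y := insert (x, y) R) hg' (Set.subset_insert _ _)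
    exact hy x (this (Set.mem_insert _ _))
  choose g hg using htot
  choose k hk using hsur
  have huniq : ∀ {x y y' : V}, (x, y) ∈ R → (x, y') ∈ R → y = y' := by
    intro x y y' h1 h2
    have := hR.iso _ h1 _ h2
    simp only [SimpleGraph.dist_self] at this
    exact (h.tree.connected.dist_eq_zero_iff).1 this.symm
  have huniq' : ∀ {x x' y : V}, (x, y) ∈ R → (x', y) ∈ R → x = x' := by
    intro x x' y h1 h2
    have := hR.iso _ h1 _ h2
    simp only [SimpleGraph.dist_self] at this
    exact (h.tree.connected.dist_eq_zero_iff).1 this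
  let e : V ≃ V :=
    { toFun := g
      invFun := k
      left_inv := fun x => huniq' (hk (g x)) (hg x)
      right_inv := fun y => huniq (hg (k y)) (hk y) }
  refine ⟨⟨e, ?_⟩, ?_, ?_⟩
  · intro a b
    have h1 := hR.iso _ (hg a) _ (hg b)
    simp only at h1
    show G.Adj (g a) (g b) ↔ G.Adj a b
    rw [← SimpleGraph.dist_eq_one_iff_adj, ← SimpleGraph.dist_eq_one_iff_adj, h1]
  · exact huniq (hg u) (hsub hu)
  · exact huniq (hg w) (hsub hw)

end Vale.Agent.P161C
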