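import Vale.Agent.P161C.Plan

/-!
# P161 critical point: jumps and innovations
-/

namespace Vale.Agent.P161C.JUMP

open MeasureTheory Vale.Agent.P161 Vale.Agent.P161C Filter Topology

universe u

variable {V : Type u}

/-! ## Elementary facts -/

lemma dl_nonneg (t : I01) : 0 ≤ dl t := Real.sqrt_nonneg _

lemma dl_le (t : I01) : dl t ≤ 1 / 2 := by
  unfold dl
  rw [Real.sqrt_le_left (by norm_num)]
  nlinarith [sq_nonneg ((t : ℝ) - 1 / 2)]

lemma dl_mul_abs (t : I01) {m : ℝ} (hm : |m| ≤ 1) : |dl t * m| ≤ 1 / 2 := by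
  rw [abs_mul, abs_of_nonneg (dl_nonneg t)]
  calc dl t * |m| ≤ 1 / 2 * 1 :=
        mul_le_mul (dl_le t) hm (abs_nonneg _) (by norm_num)
    _ = 1 / 2 := by norm_num

lemma at'_eq {x : ℝ} (h : |x| < 1) : at' x = Real.artanh x := by
  have h1 := abs_lt.1 h
  rw [Real.artanh_eq_half_log ⟨h1.1.le, h1.2.le⟩]
  unfold at'
  ring

lemma tanh_at' {x : ℝ} (h : |x| < 1) : Real.tanh (at' x) = x := by
  rw [at'_eq h]
  exact Real.tanh_artanh (abs_lt.1 h)

lemma abs_two_mul_sub (x : I01) : |2 * (x : ℝ) - 1| ≤ 1 := by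
  rw [abs_le]
  constructor <;> linarith [x.2.1, x.2.2]

lemma abs_ep (ω : Om V) (k : V × ℕ) : |ep ω k| ≤ 1 / 2 := by
  unfold ep
  exact dl_mul_abs _ (abs_two_mul_sub _)

lemma abs_tanh_le (x : ℝ) : |Real.tanh x| ≤ 1 := (Real.abs_tanh_lt_one x).le

lemma abs_mt_le (G : SimpleGraph V) (θ s : ℝ) (ω : Om V) (v : V) : |mt G θ s ω v| ≤ 1 :=
  abs_tanh_le _

lemma mt_eq (G : SimpleGraph V) (θ s : ℝ) (ω : Om V) (v : V) :
    mt G θ s ω v = Real.tanh (Lt G θ s ω v v) := rfl

/-! ## Dependence on the past -/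

lemma ep_congr {ω ω' : Om V} (hU : ω.2.1 = ω'.2.1) {k : V × ℕ} (h : obs ω k = obs ω' k) :
    ep ω k = ep ω' k := by
  unfold ep
  rw [hU, h]

lemma yt_congr {s : ℝ} {ω ω' : Om V} (hU : ω.2.1 = ω'.2.1)
    (h : ∀ k, kap ω.2.1 k < s → obs ω k = obs ω' k) : yt s ω = yt s ω' := by
  funext w
  unfold yt fld
  refine Finset.sum_congr rfl fun j _ => ?_
  rw [← hU]
  by_cases hk : (w, j) ∈ Is ω.2.1 s
  · rw [if_pos hk, if_pos hk, ep_congr hU (h _ hk)]
  · rw [if_neg hk, if_neg hk]

lemma Lt_congr {G : SimpleGraph V} {θ s : ℝ} {ω ω' : Om V} (hU : ω.2.1 = ω'.2.1)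
    (h : ∀ k, kap ω.2.1 k < s → obs ω k = obs ω' k) : Lt G θ s ω = Lt G θ s ω' := by
  unfold Lt
  rw [yt_congr hU h]

lemma mt_congr {G : SimpleGraph V} {θ s : ℝ} {ω ω' : Om V} (hU : ω.2.1 = ω'.2.1)
    (h : ∀ k, kap ω.2.1 k < s → obs ω k = obs ω' k) (v : V) : mt G θ s ω v = mt G θ s ω' v := by
  rw [mt_eq, mt_eq, Lt_congr hU h]

lemma inn_congr {G : SimpleGraph V} {θ : ℝ} {ω ω' : Om V} {k : V × ℕ} (hU : ω.2.1 = ω'.2.1)
    (h : ∀ k', kap ω.2.1 k' < kap ω.2.1 k → obs ω k' = obs ω' k') (hk : obs ω k = obs ω' k) :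
    inn G θ ω k = inn G θ ω' k := by
  unfold inn
  rw [← hU, mt_congr hU h, hk]

/-! ## Measurability -/

lemma measurable_Qc' {α : Type*} [MeasurableSpace α] {f g : α → ℝ} {h : α → I01}
    (hf : Measurable f) (hg : Measurable g) (hh : Measurable h) :
    Measurable fun a => Qc (f a) (g a) (h a) := by
  unfold Qc
  refine continuous_projIcc.measurable.comp ?_
  fun_prop

lemma measurable_Fc' {α : Type*} [MeasurableSpace α] {f g : α → ℝ} {h : α → I01}
    (hf : Measurable f) (hg : Measurable g) (hh : Measurable h) :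
    Measurable fun a => Fc (f a) (g a) (h a) := by
  unfold Fc
  refine continuous_projIcc.measurable.comp ?_
  fun_prop

lemma measurable_dl : Measurable dl := by
  unfold dl
  fun_prop

lemma measurable_lab (k : V × ℕ) : Measurable fun ω : Om V => ω.2.1 k :=
  (measurable_pi_apply k).comp (measurable_fst.comp measurable_snd)

lemma measurable_kap (k : V × ℕ) : Measurable fun ω : Om V => kap ω.2.1 k := by
  unfold kap
  have := measurable_lab (V := V) k
  fun_prop

lemma measurable_kapU (k : V × ℕ) : Measurable fun U : V × ℕ → I01 => kap U k := by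
  unfold kap
  fun_prop

lemma measurable_spin (v : V) : Measurable fun ω : Om V => ω.1 v :=
  (measurable_pi_apply v).comp measurable_fst

lemma measurable_noise (k : V × ℕ) : Measurable fun ω : Om V => ω.2.2 k :=
  (measurable_pi_apply k).comp (measurable_snd.comp measurable_snd)

lemma measurable_obs (k : V × ℕ) : Measurable fun ω : Om V => obs ω k := by
  unfold obs
  have hQ : Measurable fun ω : Om V => Qc (dl (ω.2.1 k)) 1 (ω.2.2 k) :=
    measurable_Qc' (measurable_dl.comp (measurable_lab k)) measurable_const (measurable_noise k)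
  refine Measurable.ite ?_ hQ (unitInterval.measurable_symm.comp hQ)
  exact measurable_spin k.1 (MeasurableSet.of_discrete (s := {true}))

lemma measurable_ep (k : V × ℕ) : Measurable fun ω : Om V => ep ω k := by
  unfold ep
  have h1 := measurable_obs (V := V) k
  have h2 : Measurable fun ω : Om V => dl (ω.2.1 k) := measurable_dl.comp (measurable_lab k)
  fun_prop

/-! ## Integration over the labels first -/

/-- rearrangement -/
def rr (p : (V × ℕ → I01) × ((V → Bool) × (V × ℕ → I01))) : Om V := (p.2.1, (p.1, p.2.2))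

lemma mp_rr (μ : Measure (V → Bool)) [IsProbabilityMeasure μ] :
    MeasurePreserving (rr (V := V)) ((lam V).prod (μ.prod (lam V))) (PP μ) := by
  have : IsProbabilityMeasure (lam V) := by unfold lam; infer_instance
  have h1 : MeasurePreserving (MeasurableEquiv.prodAssoc.symm :
      (V × ℕ → I01) × ((V → Bool) × (V × ℕ → I01)) ≃ᵐ _)
      ((lam V).prod (μ.prod (lam V))) (((lam V).prod μ).prod (lam V)) :=
    (measurePreserving_prodAssoc (lam V) μ (lam V)).symm _
  have h2 : MeasurePreserving (Prod.map Prod.swap id :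
      (((V × ℕ → I01) × (V → Bool)) × (V × ℕ → I01)) → _)
      (((lam V).prod μ).prod (lam V)) ((μ.prod (lam V)).prod (lam V)) :=
    Measure.measurePreserving_swap.prod (MeasurePreserving.id _)
  have h3 := measurePreserving_prodAssoc μ (lam V) (lam V)
  exact h3.comp (h2.comp h1)

lemma integral_PP {μ : Measure (V → Bool)} [IsProbabilityMeasure μ] {f : Om V → ℝ}
    (hf : Measurable f) {B : ℝ} (hB : ∀ ω, |f ω| ≤ B) :
    ∫ ω, f ω ∂(PP μ) = ∫ U, (∫ p, f (p.1, (U, p.2)) ∂(μ.prod (lam V))) ∂(lam V) := by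
  have : IsProbabilityMeasure (lam V) := by unfold lam; infer_instance
  have h := mp_rr μ
  rw [← h.map_eq, integral_map h.measurable.aemeasurable hf.aestronglyMeasurable,
    integral_prod]
  · rfl
  · exact integrable_of_bdd (hf.comp h.measurable) fun p => hB _

lemma ae_PP {μ : Measure (V → Bool)} [IsProbabilityMeasure μ] {S : Set (Om V)}
    (hS : MeasurableSet S) (h : ∀ U, ∀ᵐ p ∂(μ.prod (lam V)), (p.1, (U, p.2)) ∈ S) :
    ∀ᵐ ω ∂(PP μ), ω ∈ S := by
  have : IsProbabilityMeasure (lam V) := by unfold lam; infer_instance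
  have h1 := mp_rr μ
  rw [← h1.map_eq]
  refine (ae_map_iff (p := fun ω => ω ∈ S) h1.measurable.aemeasurable hS).2 ?_
  refine (Measure.ae_prod_iff_ae_ae (p := fun q => rr q ∈ S) (h1.measurable hS)).2 ?_
  exact Filter.Eventually.of_forall fun U => h U

/-! ## Part 1: the jump formula -/

lemma tanh_at'_ep (ω : Om V) (k : V × ℕ) : Real.tanh (at' (ep ω k)) = ep ω k :=
  tanh_at' (lt_of_le_of_lt (abs_ep ω k) (by norm_num))

lemma phi_inn (G : SimpleGraph V) (θ : ℝ) (ω : Om V) (k : V × ℕ) :
    phi (dl (ω.2.1 k)) (mt G θ (kap ω.2.1 k) ω k.1) (inn G θ ω k)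
      = ep ω k / (1 + mt G θ (kap ω.2.1 k) ω k.1 * ep ω k) := by
  unfold phi inn
  rw [Qc_Fc (dl_mul_abs _ (abs_mt_le G θ _ ω k.1))]
  rfl

lemma continuous_tanh : Continuous Real.tanh := by
  have : Real.tanh = fun x => Real.sinh x / Real.cosh x := by
    funext x; exact Real.tanh_eq_sinh_div_cosh x
  rw [this]
  exact Real.continuous_sinh.div Real.continuous_cosh fun x => (Real.cosh_pos x).ne'

lemma continuous_ff {θ : ℝ} (h : |θ| < 1) : Continuous (ff θ) := by
  have e : ff θ = fun l => Real.artanh (θ * Real.tanh l) := by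
    funext l
    unfold ff
    apply at'_eq
    rw [abs_mul]
    calc |θ| * |Real.tanh l| ≤ |θ| * 1 :=
          mul_le_mul_of_nonneg_left (abs_tanh_le l) (abs_nonneg _)
      _ < 1 := by rw [mul_one]; exact h
  rw [e]
  unfold Real.artanh
  have hb : ∀ l, |θ * Real.tanh l| < 1 := fun l => by
    rw [abs_mul]
    calc |θ| * |Real.tanh l| ≤ |θ| * 1 :=
          mul_le_mul_of_nonneg_left (abs_tanh_le l) (abs_nonneg _)
      _ < 1 := by rw [mul_one]; exact h
  have hc : Continuous fun l => θ * Real.tanh l := continuous_const.mul continuous_tanh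
  have hp1 : ∀ l, 0 < 1 + θ * Real.tanh l := fun l => by linarith [(abs_lt.1 (hb l)).1]
  have hp2 : ∀ l, 0 < 1 - θ * Real.tanh l := fun l => by linarith [(abs_lt.1 (hb l)).2]
  refine Continuous.log ?_ fun l => ?_
  · refine (Continuous.div (by fun_prop) (by fun_prop) fun l => (hp2 l).ne').sqrt
  · exact (Real.sqrt_pos.2 (div_pos (hp1 l) (hp2 l))).ne'

lemma theta_lt {G : SimpleGraph V} {d : ℕ} {θ : ℝ} (hc : Crit G d θ) : |θ| < 1 := by
  have h1 : (3 : ℝ) ≤ d := by exact_mod_cast hc.hd
  have h2 := hc.crit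
  have h3 := hc.pos
  rw [abs_of_pos h3]
  by_contra h
  push Not at h
  nlinarith

open Classical in
/-- convergence of the messages implies the BP equations -/
lemma bps_of_tendsto {G : SimpleGraph V} {d : ℕ} {θ : ℝ} (hc : Crit G d θ) {y : V → ℝ}
    (h : ∀ u q, Tendsto (fun n => msg G θ n y u q) atTop (𝓝 (Lm G θ y u q))) :
    BPS G θ y (Lm G θ y) := by
  intro u p
  have h1 := (h u p).comp (tendsto_add_atTop_nat 1)
  refine tendsto_nhds_unique h1 ?_
  have e : ((fun n => msg G θ n y u p) ∘ fun a => a + 1)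
      = fun n => y u + ∑ c ∈ (nb G u).erase p, ff θ (msg G θ n y c u) := by
    funext n; rfl
  rw [e]
  refine tendsto_const_nhds.add (tendsto_finsetSum _ fun c _ => ?_)
  exact ((continuous_ff (theta_lt hc)).tendsto _).comp (h c u)

lemma mem_nb {G : SimpleGraph V} {u c : V} (h : c ∈ nb G u) : G.Adj u c := by
  unfold nb at h
  split_ifs at h with hf
  · simpa using h
  · simp at h

open Classical in
/-- the messages of a branch do not depend on the field outside the branch -/
lemma msg_branch {G : SimpleGraph V} (hG : G.IsTree) {θ : ℝ} {y y' : V → ℝ} {w : V}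
    (hy : ∀ u, u ≠ w → y' u = y u) (n : ℕ) : ∀ u p, G.Adj u p → G.dist w u = G.dist w p + 1 →
      msg G θ n y' u p = msg G θ n y u p := by
  induction n with
  | zero =>
    intro u p _ h
    refine hy u ?_
    rintro rfl
    rw [SimpleGraph.dist_self] at h
    omega
  | succ n ih =>
    intro u p hup h
    have hne : u ≠ w := by
      rintro rfl
      rw [SimpleGraph.dist_self] at h
      omega
    show y' u + ∑ c ∈ (nb G u).erase p, ff θ (msg G θ n y' c u)
      = y u + ∑ c ∈ (nb G u).erase p, ff θ (msg G θ n y c u)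
    rw [hy u hne]
    congr 1
    refine Finset.sum_congr rfl fun c hcm => ?_
    have hc1 := (Finset.mem_erase.1 hcm).1
    have hc2 := mem_nb (Finset.mem_erase.1 hcm).2
    rw [ih c u hc2.symm]
    rcases dist_split hG hc2 w with h4 | h4
    · rw [G.dist_comm (u := w), G.dist_comm (u := w)]
      exact h4
    · exfalso
      apply hc1
      refine closer_unique hG (r := w) hc2 hup h4 ?_
      rw [G.dist_comm (v := w), G.dist_comm (v := w)]
      exact h

lemma Lm_branch {G : SimpleGraph V} (hG : G.IsTree) {θ : ℝ} {y y' : V → ℝ} {w : V}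
    (hy : ∀ u, u ≠ w → y' u = y u) {u p : V} (h1 : G.Adj u p)
    (h2 : G.dist w u = G.dist w p + 1) : Lm G θ y' u p = Lm G θ y u p := by
  unfold Lm
  have : (fun n => msg G θ n y' u p) = fun n => msg G θ n y u p := by
    funext n
    exact msg_branch hG hy n u p h1 h2
  rw [this]


lemma measurable_tanh : Measurable Real.tanh := continuous_tanh.measurable

section meas

variable {α : Type*} [MeasurableSpace α] {G : SimpleGraph V} {θ : ℝ} {L : α → V → V → ℝ}

lemma measurable_bet (hL : ∀ u p, Measurable fun a => L a u p) (v : V) :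
    Measurable fun a => bet (L a) v := by
  unfold bet
  have := measurable_tanh.comp (hL v v)
  exact (measurable_const.sub (this.pow_const 2)).sqrt

lemma measurable_gg {f : α → ℝ} (hf : Measurable f) : Measurable fun a => gg θ (f a) := by
  unfold gg tt
  exact ((Real.measurable_log.comp ((measurable_const.sub hf).div
    (measurable_const.sub (hf.const_mul _)))).neg).div_const _

lemma measurable_ell (hL : ∀ u p, Measurable fun a => L a u p) (u p : V) :
    Measurable fun a => ell θ (L a) u p := by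
  unfold ell
  exact (measurable_gg ((measurable_tanh.comp (hL u p)).pow_const 2)).add
    (measurable_gg ((measurable_tanh.comp (hL p u)).pow_const 2))

lemma measurable_cov (hL : ∀ u p, Measurable fun a => L a u p) (v w : V) :
    Measurable fun a => cov G θ (L a) v w := by
  unfold cov SS
  refine (((measurable_bet hL v).mul (measurable_bet hL w)).mul_const _).mul ?_
  refine Real.measurable_exp.comp (Measurable.neg ?_)
  exact Finset.measurable_sum _ fun i _ => measurable_ell hL _ _

lemma measurable_phi {f g : α → ℝ} {h : α → I01} (hf : Measurable f) (hg : Measurable g)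
    (hh : Measurable h) : Measurable fun a => phi (f a) (g a) (h a) := by
  unfold phi
  have := measurable_Qc' hf hg hh
  fun_prop

end meas

section part1

variable {G : SimpleGraph V} {d : ℕ} {θ : ℝ}

lemma measurable_Ltk (hB : ∀ u p : V, Measurable fun q : ℝ × Om V => Lt G θ q.1 q.2 u p)
    (k : V × ℕ) (u p : V) : Measurable fun ω : Om V => Lt G θ (kap ω.2.1 k) ω u p := by
  have h1 : Measurable fun ω : Om V => ((kap ω.2.1 k, ω) : ℝ × Om V) :=
    (measurable_kap k).prodMk measurable_id
  have h2 := (hB u p).comp h1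
  simpa only [Function.comp_def] using h2

lemma measurable_mtk (hB : ∀ u p : V, Measurable fun q : ℝ × Om V => Lt G θ q.1 q.2 u p)
    (k : V × ℕ) (v : V) : Measurable fun ω : Om V => mt G θ (kap ω.2.1 k) ω v :=
  measurable_tanh.comp (measurable_Ltk hB k v v)

lemma ceil_kap {U : V × ℕ → I01} {k : V × ℕ} (h : (U k : ℝ) ≠ 0) : ⌈kap U k⌉₊ = k.2 + 1 := by
  have h0 : 0 < (U k : ℝ) := lt_of_le_of_ne (U k).2.1 (Ne.symm h)
  unfold kap
  rw [Nat.ceil_eq_iff (by omega)]
  rw [Nat.add_sub_cancel]
  constructor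
  · linarith
  · push_cast
    linarith [(U k).2.2]

open Classical in
lemma fld_insert {k : V × ℕ} {I : Set (V × ℕ)} (hk : k ∉ I) (ω : Om V) :
    fld (k.2 + 1) (insert k I) ω
      = fun w => fld (k.2 + 1) I ω w + if w = k.1 then at' (ep ω k) else 0 := by
  funext w
  unfold fld
  by_cases hw : w = k.1
  · subst hw
    rw [if_pos rfl, Finset.sum_range_succ, Finset.sum_range_succ]
    have e1 : ((k.1, k.2) : V × ℕ) = k := rfl
    rw [e1, if_pos (Set.mem_insert k I), if_neg hk, add_zero]
    congr 1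
    refine Finset.sum_congr rfl fun j hj => ?_
    have hne : ((k.1, j) : V × ℕ) ≠ k := by
      intro h
      have := congrArg Prod.snd h
      simp only at this
      rw [Finset.mem_range] at hj
      omega
    by_cases hI : (k.1, j) ∈ I
    · rw [if_pos hI, if_pos (Set.mem_insert_of_mem _ hI)]
    · rw [if_neg hI, if_neg]
      intro h
      rcases h with h | h
      · exact hne h
      · exact hI h
  · rw [if_neg hw, add_zero]
    refine Finset.sum_congr rfl fun j _ => ?_
    have hne : ((w, j) : V × ℕ) ≠ k := by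
      intro h
      exact hw (congrArg Prod.fst h)
    by_cases hI : (w, j) ∈ I
    · rw [if_pos hI, if_pos (Set.mem_insert_of_mem _ hI)]
    · rw [if_neg hI, if_neg]
      intro h
      rcases h with h | h
      · exact hne h
      · exact hI h

theorem part1 (hc : Crit G d θ) (hPOST : S_POST.{u}) (hALG2 : S_ALG2.{u}) (hBASE : S_BASE.{u})
    {μ : Measure (V → Bool)} (hμ : IsFreeIsing G θ μ) (k : V × ℕ) :
    ∀ᵐ ω ∂(PP μ), ∀ v, Jm G θ ω v k
      = cov G θ (Lt G θ (kap ω.2.1 k) ω) v k.1
        * phi (dl (ω.2.1 k)) (mt G θ (kap ω.2.1 k) ω k.1) (inn G θ ω k) := by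
  classical
  have hcn : Countable V := countable_tree hc.tree.connected (by have := hc.hd; omega) hc.reg
  have hne : Nonempty V := ⟨k.1⟩
  have hp := isProb_of_isFreeIsing hμ
  obtain ⟨hB1, hB2, hB3, -, -⟩ := hBASE hc
  have hmeas : MeasurableSet {ω : Om V | ∀ v, Jm G θ ω v k
      = cov G θ (Lt G θ (kap ω.2.1 k) ω) v k.1
        * phi (dl (ω.2.1 k)) (mt G θ (kap ω.2.1 k) ω k.1) (inn G θ ω k)} := by
    have e : {ω : Om V | ∀ v, Jm G θ ω v k
      = cov G θ (Lt G θ (kap ω.2.1 k) ω) v k.1
        * phi (dl (ω.2.1 k)) (mt G θ (kap ω.2.1 k) ω k.1) (inn G θ ω k)}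
      = ⋂ v, {ω : Om V | Jm G θ ω v k
      = cov G θ (Lt G θ (kap ω.2.1 k) ω) v k.1
        * phi (dl (ω.2.1 k)) (mt G θ (kap ω.2.1 k) ω k.1) (inn G θ ω k)} := by
      ext ω; simp
    rw [e]
    refine MeasurableSet.iInter fun v => ?_
    refine measurableSet_eq_fun (hB3 v k) ?_
    exact (measurable_cov (measurable_Ltk hB1 k) v k.1).mul
      (measurable_phi (measurable_dl.comp (measurable_lab k)) (measurable_mtk hB1 k k.1) (hB2 k))
  refine ae_PP hmeas fun U => ?_
  by_cases hU : (U k : ℝ) = 0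
  · refine Filter.Eventually.of_forall fun p v => ?_
    have hep : ep ((p.1, (U, p.2)) : Om V) k = 0 := by
      unfold ep dl
      simp [hU]
    rw [phi_inn, hep, zero_div, mul_zero]
    unfold Jm
    rw [hep]
    have hat : at' 0 = 0 := by unfold at'; simp
    simp only [hat, ite_self, add_zero]
    show mt G θ _ _ v - _ = 0
    exact sub_self _
  · have hJ := ceil_kap hU
    set I : Set (V × ℕ) := Is U (kap U k) with hI
    have hkI : k ∉ I := by
      intro h
      exact lt_irrefl (kap U k) h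
    have hI2 : ∀ k' ∈ I, k'.2 < k.2 + 1 := by
      intro k' hk'
      have h1 : kap U k' < kap U k := hk'
      unfold kap at h1
      have h2 := (U k').2.1
      have h3 := (U k).2.2
      have : (k'.2 : ℝ) < k.2 + 1 := by linarith
      exact_mod_cast this
    have hI3 : ∀ k' ∈ insert k I, k'.2 < k.2 + 1 := by
      intro k' hk'
      rcases hk' with h | h
      · rw [h]; omega
      · exact hI2 k' h
    have h1 := (hPOST hc hμ U (k.2 + 1) I hI2).1
    have h2 := (hPOST hc hμ U (k.2 + 1) (insert k I) hI3).1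
    filter_upwards [h1, h2] with p hp1 hp2 v
    set ω : Om V := (p.1, (U, p.2)) with hω
    have hy : yt (kap ω.2.1 k) ω = fld (k.2 + 1) I ω := by
      unfold yt
      show fld ⌈kap U k⌉₊ _ _ = _
      rw [hJ]
    have hy' : (fun w => yt (kap ω.2.1 k) ω w + if w = k.1 then at' (ep ω k) else 0)
        = fld (k.2 + 1) (insert k I) ω := by
      rw [fld_insert hkI, hy]
    have b1 : BPS G θ (yt (kap ω.2.1 k) ω) (Lm G θ (yt (kap ω.2.1 k) ω)) := by
      apply bps_of_tendsto hc
      rw [hy]
      exact hp1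
    have b2 : BPS G θ (fun w => yt (kap ω.2.1 k) ω w + if w = k.1 then at' (ep ω k) else 0)
        (Lm G θ (fun w => yt (kap ω.2.1 k) ω w + if w = k.1 then at' (ep ω k) else 0)) := by
      apply bps_of_tendsto hc
      rw [hy']
      exact hp2
    have h3 := hALG2 hc _ _ _ _ k.1 (at' (ep ω k)) b1 b2 (fun u => rfl)
      (fun u p hup hd => Lm_branch hc.tree (fun u hu => by simp only [if_neg hu, add_zero]) hup hd) v
    rw [phi_inn, ← mul_div_assoc]
    rw [tanh_at'_ep] at h3
    exact h3

end part1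


/-! ## Part 2: the innovation is uniform, given the past -/

section part2

lemma integral_Fc {δ m : ℝ} (ha : |δ * m| ≤ 1 / 2) {f : I01 → ℝ} (hf : Measurable f) :
    ∫ t : I01, (1 + δ * m * (2 * (t : ℝ) - 1)) * f (Fc δ m t) = ∫ s : I01, f s := by
  have hm : Measurable (Fc δ m) := (measurable_Fc δ).comp (measurable_const.prodMk measurable_id)
  conv_rhs => rw [← map_Fc ha]
  rw [integral_map hm.aemeasurable hf.aestronglyMeasurable,
    integral_withDensity_eq_integral_toReal_smul (by fun_prop)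
      (Filter.Eventually.of_forall fun _ => ENNReal.ofReal_lt_top)]
  refine integral_congr_ae (Filter.Eventually.of_forall fun t => ?_)
  simp only [smul_eq_mul]
  rw [ENNReal.toReal_ofReal (dens_nonneg ha t.2.1 t.2.2)]

/-- the observation of a spin `b` with noise `t` -/
noncomputable def ob (b : Bool) (δ : ℝ) (t : I01) : I01 :=
  if b then Qc δ 1 t else unitInterval.symm (Qc δ 1 t)

lemma obs_eq (ω : Om V) (k : V × ℕ) : obs ω k = ob (ω.1 k.1) (dl (ω.2.1 k)) (ω.2.2 k) := rfl

lemma integral_ob {δ : ℝ} (h0 : 0 ≤ δ) (h1 : δ ≤ 1 / 2) (b : Bool) {f : I01 → ℝ}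
    (hf : Measurable f) :
    ∫ t : I01, f (ob b δ t) = ∫ x : I01, (1 + δ * sp b * (2 * (x : ℝ) - 1)) * f x := by
  have ha : |δ * 1| ≤ 1 / 2 := by rw [mul_one, abs_of_nonneg h0]; exact h1
  have hQ : Measurable (Qc δ 1) := (measurable_Qc δ).comp (measurable_const.prodMk measurable_id)
  cases b with
  | true =>
    have e := integral_Fc (δ := δ) (m := 1) ha (f := fun s => f (Qc δ 1 s)) (hf.comp hQ)
    simp only [Qc_Fc ha] at e
    simp only [ob, sp, if_true]
    exact e.symm
  | false =>
    have e := integral_Fc (δ := δ) (m := 1) ha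
      (f := fun s => f (unitInterval.symm (Qc δ 1 s)))
      (hf.comp (unitInterval.measurable_symm.comp hQ))
    simp only [Qc_Fc ha] at e
    simp only [ob, sp, if_false, Bool.false_eq_true]
    rw [← e]
    have h2 := unitInterval.measurePreserving_symm.integral_comp
      unitInterval.symmMeasurableEquiv.measurableEmbedding
      (fun x : I01 => (1 + δ * -1 * (2 * (x : ℝ) - 1)) * f x)
    rw [← h2]
    refine integral_congr_ae (Filter.Eventually.of_forall fun t => ?_)
    simp only [unitInterval.coe_symm_eq]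
    ring

lemma measurable_mk (U : V × ℕ → I01) :
    Measurable fun p : (V → Bool) × (V × ℕ → I01) => ((p.1, (U, p.2)) : Om V) :=
  measurable_fst.prodMk (measurable_const.prodMk measurable_snd)

lemma meas_par {α : Type*} [MeasurableSpace α] {f : α → I01 → ℝ}
    (hf : Measurable (Function.uncurry f)) : Measurable fun a => ∫ x : I01, f a x := by
  have := hf.stronglyMeasurable.integral_prod_right' (ν := (volume : Measure I01))
  exact this.measurable

lemma abs_int_le {f : I01 → ℝ} {B : ℝ} (hB : ∀ x, |f x| ≤ B) : |∫ x : I01, f x| ≤ B := by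
  have h := norm_integral_le_of_norm_le_const (μ := (volume : Measure I01)) (f := f) (C := B)
    (Filter.Eventually.of_forall hB)
  simpa using h

lemma fac_abs {δ : ℝ} (h0 : 0 ≤ δ) (h1 : δ ≤ 1 / 2) {m : ℝ} (hm : |m| ≤ 1) (x : I01) :
    |1 + δ * m * (2 * (x : ℝ) - 1)| ≤ 2 := by
  have h2 : |δ * m * (2 * (x : ℝ) - 1)| ≤ 1 := by
    rw [abs_mul, abs_mul, abs_of_nonneg h0]
    calc δ * |m| * |2 * (x : ℝ) - 1| ≤ 1 / 2 * 1 * 1 := by
          gcongr
          exact abs_two_mul_sub x
      _ ≤ 1 := by norm_num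
  calc |1 + δ * m * (2 * (x : ℝ) - 1)| ≤ |(1 : ℝ)| + |δ * m * (2 * (x : ℝ) - 1)| := abs_add_le _ _
    _ ≤ 2 := by rw [abs_one]; linarith

lemma integral_past {μ : Measure (V → Bool)} [IsProbabilityMeasure μ] (U : V × ℕ → I01)
    (k : V × ℕ) {F : Om V → I01 → ℝ} (hF : Measurable (Function.uncurry F)) {B : ℝ}
    (hB : ∀ ω x, |F ω x| ≤ B) (hP : PastDep k F) :
    ∫ p, F (p.1, (U, p.2)) (obs (p.1, (U, p.2)) k) ∂(μ.prod (lam V))
      = ∫ p, (∫ x : I01, (1 + dl (U k) * sp (p.1 k.1) * (2 * (x : ℝ) - 1))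
          * F (p.1, (U, p.2)) x) ∂(μ.prod (lam V)) := by
  classical
  have : IsProbabilityMeasure (lam V) := by unfold lam; infer_instance
  have hmk := measurable_mk (V := V) U
  have hm1 : Measurable fun p : (V → Bool) × (V × ℕ → I01) =>
      F (p.1, (U, p.2)) (obs (p.1, (U, p.2)) k) := by
    have h1 : Measurable fun p : (V → Bool) × (V × ℕ → I01) =>
        (((p.1, (U, p.2)) : Om V), obs (p.1, (U, p.2)) k) :=
      hmk.prodMk ((measurable_obs k).comp hmk)
    exact hF.comp h1
  have hm2 : Measurable (Function.uncurry fun (p : (V → Bool) × (V × ℕ → I01)) (x : I01) =>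
      (1 + dl (U k) * sp (p.1 k.1) * (2 * (x : ℝ) - 1)) * F (p.1, (U, p.2)) x) := by
    have h1 : Measurable fun q : ((V → Bool) × (V × ℕ → I01)) × I01 =>
        (((q.1.1, (U, q.1.2)) : Om V), q.2) := (hmk.comp measurable_fst).prodMk measurable_snd
    have h2 : Measurable fun q : ((V → Bool) × (V × ℕ → I01)) × I01 => sp (q.1.1 k.1) :=
      measurable_sp_comp ((measurable_pi_apply k.1).comp (measurable_fst.comp measurable_fst))
    have h3 : Measurable fun q : ((V → Bool) × (V × ℕ → I01)) × I01 =>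
        F (q.1.1, (U, q.1.2)) q.2 := hF.comp h1
    have h4 : Measurable fun q : ((V → Bool) × (V × ℕ → I01)) × I01 => ((q.2 : I01) : ℝ) :=
      measurable_subtype_coe.comp measurable_snd
    exact (((h2.const_mul (dl (U k))).mul ((h4.const_mul 2).sub_const 1)).const_add 1).mul h3
  have hB2 : ∀ (p : (V → Bool) × (V × ℕ → I01)) (x : I01),
      |(1 + dl (U k) * sp (p.1 k.1) * (2 * (x : ℝ) - 1)) * F (p.1, (U, p.2)) x| ≤ 2 * B := by
    intro p x
    rw [abs_mul]
    exact mul_le_mul (fac_abs (dl_nonneg _) (dl_le _) (abs_sp _).le x) (hB _ _) (abs_nonneg _)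
      (by norm_num)
  rw [integral_prod _ (integrable_of_bdd hm1 fun p => hB _ _),
    integral_prod _ (integrable_of_bdd (meas_par hm2) fun p => abs_int_le (hB2 p))]
  refine integral_congr_ae (Filter.Eventually.of_forall fun σ => ?_)
  simp only
  rw [lam_eq, integral_upd k (fun N => F (σ, (U, N)) (obs (σ, (U, N)) k))
    (hm1.comp (measurable_const.prodMk measurable_id)) (fun x => hB _ _)]
  refine integral_congr_ae (Filter.Eventually.of_forall fun N => ?_)
  simp only
  rw [← integral_ob (dl_nonneg _) (dl_le _) (σ k.1)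
    (f := fun x => F (σ, (U, N)) x) (hF.comp (measurable_const.prodMk measurable_id))]
  refine integral_congr_ae (Filter.Eventually.of_forall fun t => ?_)
  simp only
  have e1 : F (σ, (U, Function.update N k t)) = F (σ, (U, N)) := by
    apply hP
    · rfl
    · intro k' hk'
      have hne : k' ≠ k := by
        rintro rfl
        exact lt_irrefl _ hk'
      simp only [obs_eq, Function.update_of_ne hne]
  rw [e1, obs_eq]
  simp only [Function.update_self]


/-- a configuration with prescribed observations -/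
noncomputable def sec (U X : V × ℕ → I01) : Om V :=
  (fun _ => true, (U, fun k => Fc (dl (U k)) 1 (X k)))

lemma obs_sec (U X : V × ℕ → I01) (k : V × ℕ) : obs (sec U X) k = X k := by
  rw [obs_eq]
  simp only [sec, ob, if_true]
  exact Qc_Fc (dl_mul_abs _ (by simp)) _

lemma measurable_sec (U : V × ℕ → I01) : Measurable (sec U) := by
  unfold sec
  refine measurable_const.prodMk (measurable_const.prodMk ?_)
  refine measurable_pi_iff.2 fun k => ?_
  exact measurable_Fc' measurable_const measurable_const (measurable_pi_apply k)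

lemma sec_obs {α : Type*} {k : V × ℕ} {Z : Om V → α} (hP : PastDep k Z) (ω : Om V) :
    Z (sec ω.2.1 (obs ω)) = Z ω :=
  hP _ _ rfl fun _ _ => obs_sec _ _ _

lemma past_mt (G : SimpleGraph V) (θ : ℝ) (k : V × ℕ) (v : V) :
    PastDep k fun ω : Om V => mt G θ (kap ω.2.1 k) ω v := by
  intro ω ω' hU h
  show mt G θ (kap ω.2.1 k) ω v = mt G θ (kap ω'.2.1 k) ω' v
  rw [← hU]
  exact mt_congr hU h v

theorem part2_fix {G : SimpleGraph V} {d : ℕ} {θ : ℝ} (hc : Crit G d θ) (hPOST : S_POST.{u})
    (hBASE : S_BASE.{u}) {μ : Measure (V → Bool)} (hμ : IsFreeIsing G θ μ) (U : V × ℕ → I01)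
    (k : V × ℕ) {H : Om V → I01 → ℝ} {B : ℝ} (hH : Measurable (Function.uncurry H))
    (hB : ∀ ω x, |H ω x| ≤ B) (hP : PastDep k H) :
    ∫ p, H (p.1, (U, p.2)) (inn G θ (p.1, (U, p.2)) k) ∂(μ.prod (lam V))
      = ∫ p, (∫ x : I01, H (p.1, (U, p.2)) x) ∂(μ.prod (lam V)) := by
  classical
  have hne : Nonempty V := ⟨k.1⟩
  have hp := isProb_of_isFreeIsing hμ
  have : IsProbabilityMeasure (lam V) := by unfold lam; infer_instance
  obtain ⟨hB1, hB2, hB3, -, -⟩ := hBASE hc
  set δ := dl (U k) with hδ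
  have hδ0 : 0 ≤ δ := dl_nonneg _
  have hδ1 : δ ≤ 1 / 2 := dl_le _
  -- the integrand as a function of the observation
  set F : Om V → I01 → ℝ := fun ω x =>
    H ω (Fc (dl (ω.2.1 k)) (mt G θ (kap ω.2.1 k) ω k.1) x) with hFdef
  have hmt := measurable_mtk hB1 k k.1
  have hFm : Measurable (Function.uncurry F) := by
    have h1 : Measurable fun q : Om V × I01 =>
        Fc (dl (q.1.2.1 k)) (mt G θ (kap q.1.2.1 k) q.1 k.1) q.2 :=
      measurable_Fc' ((measurable_dl.comp (measurable_lab k)).comp measurable_fst)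
        (hmt.comp measurable_fst) measurable_snd
    exact hH.comp (measurable_fst.prodMk h1)
  have hFB : ∀ ω x, |F ω x| ≤ B := fun ω x => hB _ _
  have hFP : PastDep k F := by
    intro ω ω' hU h
    funext x
    show H ω (Fc (dl (ω.2.1 k)) (mt G θ (kap ω.2.1 k) ω k.1) x)
      = H ω' (Fc (dl (ω'.2.1 k)) (mt G θ (kap ω'.2.1 k) ω' k.1) x)
    have e : mt G θ (kap ω.2.1 k) ω k.1 = mt G θ (kap ω'.2.1 k) ω' k.1 :=
      past_mt G θ k k.1 ω ω' hU h
    rw [hP ω ω' hU h, e, hU]
  have hB0 : 0 ≤ B := (abs_nonneg _).trans (hB (sec U U) (U k))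
  -- step 1
  have e1 := integral_past (μ := μ) U k hFm hFB hFP
  have e0 : (fun p : (V → Bool) × (V × ℕ → I01) =>
      H (p.1, (U, p.2)) (inn G θ (p.1, (U, p.2)) k))
      = fun p => F (p.1, (U, p.2)) (obs (p.1, (U, p.2)) k) := rfl
  rw [e0, e1]
  -- step 2: replace the spin by the posterior mean
  have hmk := measurable_mk (V := V) U
  set m : (V → Bool) × (V × ℕ → I01) → ℝ := fun p => mt G θ (kap U k) (p.1, (U, p.2)) k.1
    with hm
  have hmm : Measurable m := hmt.comp hmk
  have hm1 : ∀ p, |m p| ≤ 1 := fun p => abs_mt_le G θ _ _ _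
  have hspm : Measurable fun p : (V → Bool) × (V × ℕ → I01) => sp (p.1 k.1) :=
    measurable_sp_comp ((measurable_pi_apply k.1).comp measurable_fst)
  set Z1 : (V × ℕ → I01) → ℝ := fun X =>
    ∫ x : I01, δ * (2 * (x : ℝ) - 1) * F (sec U X) x with hZ1
  have hm3 : Measurable (Function.uncurry fun (ω : Om V) (x : I01) =>
      δ * (2 * (x : ℝ) - 1) * F ω x) := by
    have h4 : Measurable fun q : Om V × I01 => ((q.2 : I01) : ℝ) :=
      measurable_subtype_coe.comp measurable_snd
    exact (((h4.const_mul 2).sub_const 1).const_mul δ).mul hFm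
  have hZ1m : Measurable Z1 := (meas_par hm3).comp (measurable_sec U)
  have hbd : ∀ (ω : Om V) (x : I01), |δ * (2 * (x : ℝ) - 1) * F ω x| ≤ B := by
    intro ω x
    rw [abs_mul]
    have := dl_mul_abs (U k) (abs_two_mul_sub x)
    calc |δ * (2 * (x : ℝ) - 1)| * |F ω x| ≤ 1 * B :=
          mul_le_mul (this.trans (by norm_num)) (hFB _ _) (abs_nonneg _) (by norm_num)
      _ = B := one_mul B
  have hZ1B : ∀ X, |Z1 X| ≤ B := fun X => abs_int_le (hbd _)
  have hI : ∀ k' ∈ Is U (kap U k), k'.2 < ⌈kap U k⌉₊ := by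
    intro k' hk'
    have h1 : kap U k' < kap U k := hk'
    rw [Nat.lt_ceil]
    refine lt_of_le_of_lt ?_ h1
    unfold kap
    linarith [(U k').2.1]
  have hZ1c : ∀ x x' : V × ℕ → I01, (∀ k' ∈ Is U (kap U k), x k' = x' k') → Z1 x = Z1 x' := by
    intro X X' h
    have : F (sec U X) = F (sec U X') := by
      apply hFP
      · rfl
      · intro k' hk'
        rw [obs_sec, obs_sec]
        exact h k' hk'
    simp only [hZ1, this]
  have hpost := (hPOST hc hμ U ⌈kap U k⌉₊ (Is U (kap U k)) hI).2.1 k.1 Z1 B hZ1m hZ1B hZ1c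
  have hpost' : ∫ p, (sp (p.1 k.1) - m p) * Z1 (obs ((p.1, (U, p.2)) : Om V))
      ∂(μ.prod (lam V)) = 0 := hpost
  have hZ2 : ∀ p : (V → Bool) × (V × ℕ → I01), Z1 (obs ((p.1, (U, p.2)) : Om V))
      = ∫ x : I01, δ * (2 * (x : ℝ) - 1) * F (p.1, (U, p.2)) x := by
    intro p
    simp only [hZ1]
    have := sec_obs hFP ((p.1, (U, p.2)) : Om V)
    simp only at this
    rw [this]
  -- integrands
  have key : ∀ p : (V → Bool) × (V × ℕ → I01),
      (∫ x : I01, (1 + δ * sp (p.1 k.1) * (2 * (x : ℝ) - 1)) * F (p.1, (U, p.2)) x)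
        = (∫ x : I01, H (p.1, (U, p.2)) x)
          + (sp (p.1 k.1) - m p) * Z1 (obs ((p.1, (U, p.2)) : Om V)) := by
    intro p
    have hfc : ∫ x : I01, (1 + δ * m p * (2 * (x : ℝ) - 1)) * F (p.1, (U, p.2)) x
        = ∫ x : I01, H (p.1, (U, p.2)) x :=
      integral_Fc (δ := δ) (m := m p) (dl_mul_abs _ (hm1 p))
        (f := fun x => H (p.1, (U, p.2)) x)
        (hH.comp (measurable_const.prodMk measurable_id))
    rw [hZ2, ← hfc, ← integral_const_mul, ← integral_add]
    · refine integral_congr_ae (Filter.Eventually.of_forall fun x => ?_)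
      show (1 + δ * sp (p.1 k.1) * (2 * (x : ℝ) - 1)) * F (p.1, (U, p.2)) x
        = (1 + δ * m p * (2 * (x : ℝ) - 1)) * F (p.1, (U, p.2)) x
          + (sp (p.1 k.1) - m p) * (δ * (2 * (x : ℝ) - 1) * F (p.1, (U, p.2)) x)
      ring
    · show Integrable (fun x : I01 => (1 + δ * m p * (2 * (x : ℝ) - 1)) * F (p.1, (U, p.2)) x)
        volume
      refine integrable_of_bdd (B := 2 * B) ?_ fun x => ?_
      · have h4 : Measurable fun x : I01 => (x : ℝ) := measurable_subtype_coe
        exact (((h4.const_mul 2).sub_const 1).const_mul _ |>.const_add 1).mul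
          (hFm.comp (measurable_const.prodMk measurable_id))
      · rw [abs_mul]
        exact mul_le_mul (fac_abs hδ0 hδ1 (hm1 p) x) (hFB _ _) (abs_nonneg _) (by norm_num)
    · refine integrable_of_bdd (B := 2 * B) ?_ fun x => ?_
      · have h4 : Measurable fun x : I01 => (x : ℝ) := measurable_subtype_coe
        exact ((((h4.const_mul 2).sub_const 1).const_mul δ).mul
          (hFm.comp (measurable_const.prodMk measurable_id))).const_mul _
      · rw [abs_mul]
        refine mul_le_mul ?_ (hbd _ _) (abs_nonneg _) (by norm_num)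
        calc |sp (p.1 k.1) - m p| ≤ |sp (p.1 k.1)| + |m p| := abs_sub _ _
          _ ≤ 2 := by rw [abs_sp]; linarith [hm1 p]
  have e2 : (fun p : (V → Bool) × (V × ℕ → I01) =>
      ∫ x : I01, (1 + dl (U k) * sp (p.1 k.1) * (2 * (x : ℝ) - 1)) * F (p.1, (U, p.2)) x)
      = fun p => (∫ x : I01, H (p.1, (U, p.2)) x)
          + (sp (p.1 k.1) - m p) * Z1 (obs ((p.1, (U, p.2)) : Om V)) := funext key
  rw [e2, integral_add, hpost', add_zero]
  · exact integrable_of_bdd (meas_par (hH.comp ((hmk.comp measurable_fst).prodMk measurable_snd)))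
      fun p => abs_int_le (hB _)
  · refine integrable_of_bdd (B := 2 * B) ?_ fun p => ?_
    · refine (hspm.sub hmm).mul (hZ1m.comp ?_)
      exact measurable_pi_iff.2 fun k' => (measurable_obs k').comp hmk
    · rw [abs_mul]
      refine mul_le_mul ?_ (hZ1B _) (abs_nonneg _) (by norm_num)
      calc |sp (p.1 k.1) - m p| ≤ |sp (p.1 k.1)| + |m p| := abs_sub _ _
        _ ≤ 2 := by rw [abs_sp]; linarith [hm1 p]

end part2


section part3

variable {G : SimpleGraph V} {d : ℕ} {θ : ℝ}

theorem part2 (hc : Crit G d θ) (hPOST : S_POST.{u})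
    (hBASE : S_BASE.{u}) {μ : Measure (V → Bool)} (hμ : IsFreeIsing G θ μ)
    (k : V × ℕ) {H : Om V → I01 → ℝ} {B : ℝ} (hH : Measurable (Function.uncurry H))
    (hB : ∀ ω x, |H ω x| ≤ B) (hP : PastDep k H) :
    ∫ ω, H ω (inn G θ ω k) ∂(PP μ) = ∫ ω, (∫ x, H ω x) ∂(PP μ) := by
  have hne : Nonempty V := ⟨k.1⟩
  have hp := isProb_of_isFreeIsing hμ
  have hB2 := (hBASE hc).2.1
  rw [integral_PP (f := fun ω => H ω (inn G θ ω k)) (hH.comp (measurable_id.prodMk (hB2 k)))
    (fun ω => hB _ _), integral_PP (meas_par hH) (fun ω => abs_int_le (hB ω))]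
  refine integral_congr_ae (Filter.Eventually.of_forall fun U => ?_)
  exact part2_fix hc hPOST hBASE hμ U k hH hB hP

/-- indicator -/
noncomputable def ic {α : Type*} (S : Set α) (a : α) : ℝ := S.indicator (fun _ => (1 : ℝ)) a

lemma ic_mem {α : Type*} {S : Set α} {a : α} (h : a ∈ S) : ic S a = 1 := by
  unfold ic; exact Set.indicator_of_mem h _

lemma ic_notMem {α : Type*} {S : Set α} {a : α} (h : a ∉ S) : ic S a = 0 := by
  unfold ic; exact Set.indicator_of_notMem h _

lemma ic_nonneg {α : Type*} (S : Set α) (a : α) : 0 ≤ ic S a := by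
  by_cases h : a ∈ S
  · rw [ic_mem h]; norm_num
  · rw [ic_notMem h]

lemma ic_le_one {α : Type*} (S : Set α) (a : α) : ic S a ≤ 1 := by
  by_cases h : a ∈ S
  · rw [ic_mem h]
  · rw [ic_notMem h]; norm_num

lemma abs_ic {α : Type*} (S : Set α) (a : α) : |ic S a| ≤ 1 := by
  rw [abs_of_nonneg (ic_nonneg S a)]; exact ic_le_one S a

lemma measurable_ic {α : Type*} [MeasurableSpace α] {S : Set α} (hS : MeasurableSet S) :
    Measurable (ic S) := measurable_const.indicator hS

lemma integral_ic {α : Type*} [MeasurableSpace α] {ν : Measure α} {S : Set α}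
    (hS : MeasurableSet S) : ∫ a, ic S a ∂ν = ν.real S := by
  unfold ic
  exact integral_indicator_one hS

lemma ic_inter {α : Type*} (S T : Set α) (a : α) : ic (S ∩ T) a = ic S a * ic T a := by
  by_cases h1 : a ∈ S
  · by_cases h2 : a ∈ T
    · rw [ic_mem h1, ic_mem h2, ic_mem (S := S ∩ T) ⟨h1, h2⟩]; norm_num
    · rw [ic_notMem h2, ic_notMem (S := S ∩ T) (fun h => h2 h.2), mul_zero]
  · rw [ic_notMem h1, ic_notMem (S := S ∩ T) (fun h => h1 h.1), zero_mul]

/-- almost surely no two times agree -/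
lemma ae_kap_ne {k l : V × ℕ} (h : k ≠ l) : ∀ᵐ U ∂(lam V), kap U k ≠ kap U l := by
  classical
  have hmp := mp_upd (ι := V × ℕ) k
  have hms : MeasurableSet {U : V × ℕ → I01 | ¬ (kap U k ≠ kap U l)} := by
    simp only [ne_eq, not_not]
    exact measurableSet_eq_fun (measurable_kapU k) (measurable_kapU l)
  rw [lam_eq, ← hmp.map_eq]
  rw [ae_iff, Measure.map_apply hmp.measurable hms]
  have e : (fun p : (V × ℕ → I01) × I01 => Function.update p.1 k p.2) ⁻¹'
      {U : V × ℕ → I01 | ¬ (kap U k ≠ kap U l)}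
        = {p | (k.2 : ℝ) + (p.2 : ℝ) = l.2 + p.1 l} := by
    ext p
    simp [kap, Function.update_of_ne h.symm]
  rw [e, Measure.prod_apply]
  · apply lintegral_eq_zero_of_ae_eq_zero
    refine Filter.Eventually.of_forall fun x => ?_
    have hs : (Prod.mk x ⁻¹' {p : (V × ℕ → I01) × I01 |
        (k.2 : ℝ) + (p.2 : ℝ) = l.2 + p.1 l}).Subsingleton := by
      intro a ha b hb
      simp only [Set.mem_preimage, Set.mem_ofPred_eq] at ha hb
      apply Subtype.ext
      linarith
    exact hs.measure_zero _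
  · apply measurableSet_eq_fun
    · fun_prop
    · fun_prop

/-- `k` is the last event of `A` -/
def lst (A : Finset (V × ℕ)) (k : V × ℕ) : Set (V × ℕ → I01) :=
  {U | ∀ k' ∈ A, k' ≠ k → kap U k' < kap U k}

lemma measurableSet_lst (A : Finset (V × ℕ)) (k : V × ℕ) : MeasurableSet (lst A k) := by
  have e : lst A k = ⋂ k' ∈ A, {U | k' ≠ k → kap U k' < kap U k} := by
    ext U; simp [lst]
  rw [e]
  refine Finset.measurableSet_biInter _ fun k' _ => ?_
  by_cases h : k' = k
  · simp [h]
  · simp only [ne_eq, h, not_false_eq_true, forall_const]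
    exact measurableSet_lt (measurable_kapU k') (measurable_kapU k)

lemma sum_lst {A : Finset (V × ℕ)} (hA : A.Nonempty) :
    ∀ᵐ U ∂(lam V), ∑ k ∈ A, ic (lst A k) U = 1 := by
  classical
  have h : ∀ᵐ U ∂(lam V), ∀ k ∈ A, ∀ l ∈ A, k ≠ l → kap U k ≠ kap U l := by
    have : ∀ᵐ U ∂(lam V), ∀ k : A, ∀ l : A, (k : V × ℕ) ≠ l → kap U k ≠ kap U l := by
      rw [ae_all_iff]; intro k
      rw [ae_all_iff]; intro l
      by_cases hkl : (k : V × ℕ) = l
      · exact Filter.Eventually.of_forall fun U h => absurd hkl h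
      · filter_upwards [ae_kap_ne hkl] with U hU _ using hU
    filter_upwards [this] with U hU k hk l hl using hU ⟨k, hk⟩ ⟨l, hl⟩
  filter_upwards [h] with U hU
  obtain ⟨k0, hk0, hmax⟩ := A.exists_max_image (fun k => kap U k) hA
  rw [Finset.sum_eq_single k0]
  · refine ic_mem fun k' hk' hne => ?_
    exact lt_of_le_of_ne (hmax k' hk') (hU k' hk' k0 hk0 hne)
  · intro k hk hne
    refine ic_notMem fun h => ?_
    exact absurd (h k0 hk0 hne.symm) (not_lt.2 (hmax k hk))
  · intro h; exact absurd hk0 h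

lemma ae_lab {μ : Measure (V → Bool)} [IsProbabilityMeasure μ] {p : (V × ℕ → I01) → Prop}
    (h : ∀ᵐ U ∂(lam V), p U) : ∀ᵐ ω ∂(PP μ), p ω.2.1 := by
  have : IsProbabilityMeasure (lam V) := by unfold lam; infer_instance
  have h1 : Measure.QuasiMeasurePreserving (fun ω : Om V => ω.2.1) (PP μ) (lam V) := by
    have a : Measure.QuasiMeasurePreserving (Prod.snd : Om V → _) (PP μ)
        ((lam V).prod (lam V)) := Measure.quasiMeasurePreserving_snd
    have b : Measure.QuasiMeasurePreserving (Prod.fst : (V × ℕ → I01) × (V × ℕ → I01) → _)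
        ((lam V).prod (lam V)) (lam V) := Measure.quasiMeasurePreserving_fst
    exact b.comp a
  exact h1.ae h

lemma integral_lab {μ : Measure (V → Bool)} [IsProbabilityMeasure μ]
    {f : (V × ℕ → I01) → ℝ} (hf : Measurable f) {B : ℝ} (hB : ∀ U, |f U| ≤ B) :
    ∫ ω : Om V, f ω.2.1 ∂(PP μ) = ∫ U, f U ∂(lam V) := by
  have : IsProbabilityMeasure (lam V) := by unfold lam; infer_instance
  rw [integral_PP (f := fun ω => f ω.2.1) (hf.comp (measurable_fst.comp measurable_snd))
    (fun ω => hB _)]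
  refine integral_congr_ae (Filter.Eventually.of_forall fun U => ?_)
  simp

lemma abs_prod_ic {α β : Type*} (A : Finset α) (C : α → Set β) (f : α → β) :
    |∏ k ∈ A, ic (C k) (f k)| ≤ 1 := by
  rw [Finset.abs_prod]
  exact Finset.prod_le_one (fun _ _ => abs_nonneg _) fun _ _ => abs_ic _ _

theorem law_fin (hc : Crit G d θ) (hPOST : S_POST.{u})
    (hBASE : S_BASE.{u}) {μ : Measure (V → Bool)} (hμ : IsFreeIsing G θ μ)
    (C : V × ℕ → Set I01) (hC : ∀ k, MeasurableSet (C k)) (n : ℕ) :
    ∀ (A : Finset (V × ℕ)), A.card = n → ∀ (B : Set (V × ℕ → I01)), MeasurableSet B →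
      ∫ ω, ic B ω.2.1 * ∏ k ∈ A, ic (C k) (inn G θ ω k) ∂(PP μ)
        = (lam V).real B * ∏ k ∈ A, (volume : Measure I01).real (C k) := by
  classical
  have hne : Nonempty V := hc.tree.connected.nonempty
  have hp := isProb_of_isFreeIsing hμ
  have : IsProbabilityMeasure (lam V) := by unfold lam; infer_instance
  have : IsProbabilityMeasure (PP μ) := by unfold PP; infer_instance
  have hB2 := (hBASE hc).2.1
  induction n with
  | zero =>
    intro A hA B hB
    rw [Finset.card_eq_zero] at hA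
    subst hA
    simp only [Finset.prod_empty, mul_one]
    rw [integral_lab (measurable_ic hB) (abs_ic B), integral_ic hB]
  | succ n ih =>
    intro A hA B hB
    have hAne : A.Nonempty := by
      rw [← Finset.card_pos]; omega
    have hlab : Measurable fun ω : Om V => ω.2.1 := measurable_fst.comp measurable_snd
    -- step 1
    have e1 : ∫ ω, ic B ω.2.1 * ∏ k ∈ A, ic (C k) (inn G θ ω k) ∂(PP μ)
        = ∑ l ∈ A, ∫ ω, (ic (B ∩ lst A l) ω.2.1 * ∏ k ∈ A.erase l, ic (C k) (inn G θ ω k))
            * ic (C l) (inn G θ ω l) ∂(PP μ) := by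
      rw [← integral_finsetSum]
      · refine integral_congr_ae ?_
        filter_upwards [ae_lab (sum_lst hAne)] with ω hω
        have : ∀ l ∈ A, (ic (B ∩ lst A l) ω.2.1 * ∏ k ∈ A.erase l, ic (C k) (inn G θ ω k))
            * ic (C l) (inn G θ ω l)
            = (ic B ω.2.1 * ∏ k ∈ A, ic (C k) (inn G θ ω k)) * ic (lst A l) ω.2.1 := by
          intro l hl
          rw [ic_inter, ← Finset.prod_erase_mul A _ hl]
          ring
        rw [Finset.sum_congr rfl this, ← Finset.mul_sum, hω, mul_one]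
      · intro l _
        refine integrable_of_bdd (B := 1) ?_ fun ω => ?_
        · refine (((measurable_ic (hB.inter (measurableSet_lst A l))).comp hlab).mul ?_).mul
            ((measurable_ic (hC l)).comp (hB2 l))
          exact Finset.measurable_prod _ fun k _ => (measurable_ic (hC k)).comp (hB2 k)
        · rw [abs_mul, abs_mul]
          have a1 := abs_ic (B ∩ lst A l) ω.2.1
          have a2 := abs_prod_ic (A.erase l) C (inn G θ ω)
          have a3 := abs_ic (C l) (inn G θ ω l)
          calc _ ≤ (1 : ℝ) * 1 * 1 := by gcongr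
            _ = 1 := by norm_num
    -- step 2
    have e2 : ∀ l ∈ A,
        ∫ ω, (ic (B ∩ lst A l) ω.2.1 * ∏ k ∈ A.erase l, ic (C k) (inn G θ ω k))
            * ic (C l) (inn G θ ω l) ∂(PP μ)
          = (lam V).real (B ∩ lst A l) * ∏ k ∈ A, (volume : Measure I01).real (C k) := by
      intro l hl
      have h1 := part2 hc hPOST hBASE hμ l (B := 1)
        (H := fun ω x => (ic (B ∩ lst A l) ω.2.1 * ∏ k ∈ A.erase l, ic (C k) (inn G θ ω k))
            * ic (C l) x) ?_ ?_ ?_
      · rw [h1]
        simp only [integral_const_mul]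
        rw [integral_ic (hC l), integral_mul_const,
          ih (A.erase l) (by rw [Finset.card_erase_of_mem hl]; omega) _
            (hB.inter (measurableSet_lst A l)), mul_assoc, Finset.prod_erase_mul A _ hl]
      · have hm0 : Measurable fun ω : Om V =>
            ic (B ∩ lst A l) ω.2.1 * ∏ k ∈ A.erase l, ic (C k) (inn G θ ω k) :=
          ((measurable_ic (hB.inter (measurableSet_lst A l))).comp hlab).mul
            (Finset.measurable_prod _ fun k _ => (measurable_ic (hC k)).comp (hB2 k))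
        exact (hm0.comp measurable_fst).mul ((measurable_ic (hC l)).comp measurable_snd)
      · intro ω x
        rw [abs_mul, abs_mul]
        have a1 := abs_ic (B ∩ lst A l) ω.2.1
        have a2 := abs_prod_ic (A.erase l) C (inn G θ ω)
        have a3 := abs_ic (C l) x
        calc _ ≤ (1 : ℝ) * 1 * 1 := by gcongr
          _ = 1 := by norm_num
      · intro ω ω' hU h
        funext x
        show (ic (B ∩ lst A l) ω.2.1 * ∏ k ∈ A.erase l, ic (C k) (inn G θ ω k)) * ic (C l) x
          = (ic (B ∩ lst A l) ω'.2.1 * ∏ k ∈ A.erase l, ic (C k) (inn G θ ω' k)) * ic (C l) x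
        rw [← hU]
        by_cases hm : ω.2.1 ∈ B ∩ lst A l
        · congr 2
          refine Finset.prod_congr rfl fun k hk => ?_
          have hk1 := Finset.mem_erase.1 hk
          have hlt := hm.2 k hk1.2 hk1.1
          rw [inn_congr (G := G) (θ := θ) hU (fun k' hk' => h k' (hk'.trans hlt)) (h k hlt)]
        · rw [ic_notMem hm, zero_mul, zero_mul, zero_mul, zero_mul]
    rw [e1, Finset.sum_congr rfl e2, ← Finset.sum_mul]
    congr 1
    have e3 : ∀ l ∈ A, (lam V).real (B ∩ lst A l) = ∫ U, ic (B ∩ lst A l) U ∂(lam V) :=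
      fun l _ => (integral_ic (hB.inter (measurableSet_lst A l))).symm
    rw [Finset.sum_congr rfl e3, ← integral_finsetSum, ← integral_ic hB]
    · refine integral_congr_ae ?_
      filter_upwards [sum_lst hAne] with U hU
      simp only [ic_inter]
      rw [← Finset.mul_sum, hU, mul_one]
    · intro l _
      exact integrable_of_bdd (measurable_ic (hB.inter (measurableSet_lst A l))) (abs_ic _)


theorem law_fin_measure (hc : Crit G d θ) (hPOST : S_POST.{u})
    (hBASE : S_BASE.{u}) {μ : Measure (V → Bool)} (hμ : IsFreeIsing G θ μ)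
    (C : V × ℕ → Set I01) (hC : ∀ k, MeasurableSet (C k)) (A : Finset (V × ℕ))
    (B : Set (V × ℕ → I01)) (hB : MeasurableSet B) :
    (PP μ) {ω | ω.2.1 ∈ B ∧ ∀ k ∈ A, inn G θ ω k ∈ C k}
      = (lam V) B * ∏ k ∈ A, (volume : Measure I01) (C k) := by
  classical
  have hne : Nonempty V := hc.tree.connected.nonempty
  have hp := isProb_of_isFreeIsing hμ
  have : IsProbabilityMeasure (lam V) := by unfold lam; infer_instance
  have : IsProbabilityMeasure (PP μ) := by unfold PP; infer_instance
  have hB2 := (hBASE hc).2.1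
  have hlab : Measurable fun ω : Om V => ω.2.1 := measurable_fst.comp measurable_snd
  have hS : MeasurableSet {ω : Om V | ω.2.1 ∈ B ∧ ∀ k ∈ A, inn G θ ω k ∈ C k} := by
    have e : {ω : Om V | ω.2.1 ∈ B ∧ ∀ k ∈ A, inn G θ ω k ∈ C k}
        = ((fun ω : Om V => ω.2.1) ⁻¹' B) ∩ ⋂ k ∈ A, (fun ω : Om V => inn G θ ω k) ⁻¹' (C k) := by
      ext ω; simp
    rw [e]
    exact (hlab hB).inter (Finset.measurableSet_biInter _ fun k _ => hB2 k (hC k))
  have h := law_fin hc hPOST hBASE hμ C hC A.card A rfl B hB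
  have e2 : (fun ω : Om V => ic B ω.2.1 * ∏ k ∈ A, ic (C k) (inn G θ ω k))
      = ic {ω : Om V | ω.2.1 ∈ B ∧ ∀ k ∈ A, inn G θ ω k ∈ C k} := by
    funext ω
    by_cases h1 : ω.2.1 ∈ B
    · by_cases h2 : ∀ k ∈ A, inn G θ ω k ∈ C k
      · rw [ic_mem h1, ic_mem (S := {ω : Om V | ω.2.1 ∈ B ∧ ∀ k ∈ A, inn G θ ω k ∈ C k})
          ⟨h1, h2⟩, one_mul]
        exact Finset.prod_eq_one fun k hk => ic_mem (h2 k hk)
      · rw [ic_notMem (S := {ω : Om V | ω.2.1 ∈ B ∧ ∀ k ∈ A, inn G θ ω k ∈ C k})
          (fun h => h2 h.2)]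
        push Not at h2
        obtain ⟨k, hk, hk2⟩ := h2
        have h3 : ∏ k ∈ A, ic (C k) (inn G θ ω k) = 0 :=
          Finset.prod_eq_zero hk (ic_notMem hk2)
        rw [h3, mul_zero]
    · rw [ic_notMem h1, ic_notMem (S := {ω : Om V | ω.2.1 ∈ B ∧ ∀ k ∈ A, inn G θ ω k ∈ C k})
          (fun h => h1 h.1), zero_mul]
  rw [e2, integral_ic hS] at h
  have h3 := congrArg ENNReal.ofReal h
  rw [ofReal_measureReal, ENNReal.ofReal_mul measureReal_nonneg, ofReal_measureReal,
    ENNReal.ofReal_prod_of_nonneg (fun _ _ => measureReal_nonneg)] at h3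
  rw [h3]
  congr 1
  exact Finset.prod_congr rfl fun k _ => ofReal_measureReal

theorem part3 (hc : Crit G d θ) (hPOST : S_POST.{u})
    (hBASE : S_BASE.{u}) {μ : Measure (V → Bool)} (hμ : IsFreeIsing G θ μ) :
    (PP μ).map (fun ω => (ω.2.1, inn G θ ω)) = (lam V).prod (lam V) := by
  classical
  have hne : Nonempty V := hc.tree.connected.nonempty
  have hp := isProb_of_isFreeIsing hμ
  have : IsProbabilityMeasure (lam V) := by unfold lam; infer_instance
  have : IsProbabilityMeasure (PP μ) := by unfold PP; infer_instance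
  have hB2 := (hBASE hc).2.1
  have hlab : Measurable fun ω : Om V => ω.2.1 := measurable_fst.comp measurable_snd
  have hinn : Measurable fun ω : Om V => inn G θ ω := measurable_pi_iff.2 hB2
  have hxi : Measurable fun ω : Om V => (ω.2.1, inn G θ ω) := hlab.prodMk hinn
  symm
  refine Measure.prod_eq fun s t hs ht => ?_
  rw [Measure.map_apply hxi (hs.prod ht)]
  have e1 : (fun ω : Om V => (ω.2.1, inn G θ ω)) ⁻¹' s ×ˢ t
      = (fun ω : Om V => inn G θ ω) ⁻¹' t ∩ (fun ω : Om V => ω.2.1) ⁻¹' s := by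
    ext ω; simp [and_comm]
  rw [e1, ← Measure.restrict_apply (hinn ht), ← Measure.map_apply hinn ht]
  have hlaw : ∀ (A : Finset (V × ℕ)) (C : V × ℕ → Set I01), (∀ k, MeasurableSet (C k)) →
      (((PP μ).restrict ((fun ω : Om V => ω.2.1) ⁻¹' s)).map fun ω => inn G θ ω)
        (Set.pi A C) = (lam V) s * ∏ k ∈ A, (volume : Measure I01) (C k) := by
    intro A C hC
    have hm : MeasurableSet (Set.pi (A : Set (V × ℕ)) C) :=
      .pi (Finset.countable_toSet _) fun _ _ => hC _
    rw [Measure.map_apply hinn hm, Measure.restrict_apply (hinn hm),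
      ← law_fin_measure hc hPOST hBASE hμ C hC A s hs]
    congr 1
    ext ω
    simp [and_comm]
  by_cases h0 : (lam V) s = 0
  · rw [h0, zero_mul]
    have h2 := hlaw ∅ (fun _ => Set.univ) fun _ => MeasurableSet.univ
    rw [h0, zero_mul] at h2
    simp only [Finset.coe_empty, Set.empty_pi] at h2
    exact measure_mono_null (Set.subset_univ t) h2
  · have hfin : (lam V) s ≠ ⊤ := measure_ne_top _ _
    have h3 : ((lam V) s)⁻¹ • (((PP μ).restrict ((fun ω : Om V => ω.2.1) ⁻¹' s)).map
        fun ω => inn G θ ω) = Measure.infinitePi fun _ : V × ℕ => (volume : Measure I01) := by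
      refine Measure.eq_infinitePi _ fun A C hC => ?_
      rw [Measure.smul_apply, hlaw A C hC, smul_eq_mul, ← mul_assoc,
        ENNReal.inv_mul_cancel h0 hfin, one_mul]
    have h4 := congrArg (fun ν : Measure (V × ℕ → I01) => (lam V) s * ν t) h3
    simp only [Measure.smul_apply, smul_eq_mul] at h4
    rw [← mul_assoc, ENNReal.mul_inv_cancel h0 hfin, one_mul] at h4
    exact h4

end part3

end Vale.Agent.P161C.JUMP

namespace Vale.Agent.P161C

open MeasureTheory Vale.Agent.P161 Filter Topology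

universe u

/-- JUMP: jumps, innovations -/
theorem jump (hPOST : S_POST.{u}) (hALG2 : S_ALG2.{u}) (hBASE : S_BASE.{u}) : S_JUMP.{u} := by
  intro V G d θ hc μ hμ
  refine ⟨fun k => JUMP.part1 hc hPOST hALG2 hBASE hμ k, ?_, JUMP.part3 hc hPOST hBASE hμ⟩
  intro k H B hH hB hP
  exact JUMP.part2 hc hPOST hBASE hμ k hH hB hP

end Vale.Agent.P161C
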