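import Vale.Agent.P161C.MomCalc

/-!
# P161 critical point: module MOM
-/

namespace Vale.Agent.P161C

open MeasureTheory Vale.Agent.P161 Filter Topology

universe u

variable {ρ ν : Measure ℝ} {m θ Y : ℝ}

lemma k0_eq (_hν : Adm ν Y) (q : ℕ) :
    ∫ a, a ^ q ∂(ν.map Real.tanh) = ∫ y, Real.tanh y ^ q ∂ν := by
  have hm : Measurable fun a : ℝ => a ^ q := by fun_prop
  rw [integral_map measurable_tanhMo.aemeasurable hm.aestronglyMeasurable]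

/-- second moments: one branch -/
lemma X_step (hN : S_NISH) (h0 : 0 < θ) (h1 : θ < 1) (hν : Adm ν Y) (h : NL ρ m) (hm : m ≤ 1)
    (k : ℕ) :
    ∫ a, a ^ 2 ∂(FK θ ν ρ (k + 1)) ≤ ∫ a, a ^ 2 ∂(FK θ ν ρ k) + θ ^ 2 * ∫ a, a ^ 2 ∂ρ
        - (∫ a, a ^ 2 ∂(FK θ ν ρ k)) * (θ ^ 2 * ∫ a, a ^ 2 ∂ρ) ∧
    ∫ a, a ^ 2 ∂(FK θ ν ρ k) + θ ^ 2 * ∫ a, a ^ 2 ∂ρ
        - 2 * ((∫ a, a ^ 2 ∂(FK θ ν ρ k)) * (θ ^ 2 * ∫ a, a ^ 2 ∂ρ))
      ≤ ∫ a, a ^ 2 ∂(FK θ ν ρ (k + 1)) := by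
  have hk := NL_FK hN h0 h1 hν h hm k
  have hb := NL_br h0 h1 h hm
  have hmk := mm_bds (Y := Y) h0 h1 k
  have hp := pow_br h0 h1 h hm 1
  simp only [mul_one] at hp
  have hmeas : Measurable fun a : ℝ => a ^ 2 := by fun_prop
  have hi : ∫ a, a ^ 2 ∂(FK θ ν ρ (k + 1))
      = ∫ q, ((q.1 + q.2) / (1 + q.1 * q.2)) ^ 2 ∂((FK θ ν ρ k).prod (br θ ρ)) := by
    simp only [FK]
    exact integral_comb (fun a => a ^ 2) hmeas
  have hs := ((hN (mm θ Y k) (h0.trans_le hmk.1) hmk.2.1).1 (FK θ ν ρ k) (br θ ρ) hk.prob hb.prob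
    hk.bdd (hb.bdd.mono fun _ hx => hx.trans hmk.1) hk.nish hb.nish).2
  rw [hi, ← hp]
  exact ⟨hs.1, hs.2.1⟩

lemma X_nonneg (k : ℕ) : 0 ≤ ∫ a, a ^ 2 ∂(FK θ ν ρ k) := integral_nonneg fun a => sq_nonneg a

lemma X_upper (hN : S_NISH) (h0 : 0 < θ) (h1 : θ < 1) (hν : Adm ν Y) (h : NL ρ m) (hm : m ≤ 1)
    (hy : θ ^ 2 * ∫ a, a ^ 2 ∂ρ ≤ 1) (k : ℕ) :
    (1 - k0 ν) * (1 - θ ^ 2 * ∫ a, a ^ 2 ∂ρ) ^ k ≤ 1 - ∫ a, a ^ 2 ∂(FK θ ν ρ k) := by
  induction k with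
  | zero =>
    simp only [FK, pow_zero, mul_one]
    rw [k0_eq hν]
    exact le_rfl
  | succ k ih =>
    have hs := (X_step hN h0 h1 hν h hm k).1
    rw [pow_succ, ← mul_assoc]
    have := mul_le_mul_of_nonneg_right ih (sub_nonneg.2 hy)
    linarith

lemma X_lower (hN : S_NISH) (h0 : 0 < θ) (h1 : θ < 1) (hν : Adm ν Y) (h : NL ρ m) (hm : m ≤ 1)
    (hy : 2 * (θ ^ 2 * ∫ a, a ^ 2 ∂ρ) ≤ 1) (k : ℕ) :
    1 - 2 * ∫ a, a ^ 2 ∂(FK θ ν ρ k)
      ≤ (1 - 2 * k0 ν) * (1 - 2 * (θ ^ 2 * ∫ a, a ^ 2 ∂ρ)) ^ k := by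
  induction k with
  | zero =>
    simp only [FK, pow_zero, mul_one]
    rw [k0_eq hν]
    exact le_rfl
  | succ k ih =>
    have hs := (X_step hN h0 h1 hν h hm k).2
    rw [pow_succ, ← mul_assoc]
    have := mul_le_mul_of_nonneg_right ih (sub_nonneg.2 hy)
    linarith

lemma X_lin (hN : S_NISH) (h0 : 0 < θ) (h1 : θ < 1) (hν : Adm ν Y) (h : NL ρ m) (hm : m ≤ 1)
    (k : ℕ) :
    ∫ a, a ^ 2 ∂(FK θ ν ρ k) ≤ k0 ν + k * (θ ^ 2 * ∫ a, a ^ 2 ∂ρ) := by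
  have hy0 : 0 ≤ θ ^ 2 * ∫ a, a ^ 2 ∂ρ :=
    mul_nonneg (by positivity) (integral_nonneg fun a => sq_nonneg a)
  induction k with
  | zero =>
    simp only [FK, Nat.cast_zero, zero_mul, add_zero]
    rw [k0_eq hν]
    exact le_rfl
  | succ k ih =>
    have hs := (X_step hN h0 h1 hν h hm k).1
    have hx := X_nonneg (θ := θ) (ν := ν) (ρ := ρ) k
    push_cast
    nlinarith [mul_nonneg hx hy0]

/-- the second moments of the messages -/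
lemma x_bounds (hN : S_NISH) (hX : S_XREC) {b : ℕ} (hb : 2 ≤ b) (h0 : 0 < θ) (h1 : θ < 1)
    (hc : (b : ℝ) * θ ^ 2 = 1) (hν : Adm ν Y) (hk : 0 < k0 ν) (hk1 : k0 ν ≤ 1) :
    (∀ n, ∫ a, a ^ 2 ∂(rho θ ν b n) ≤ 3 * √(k0 ν)) ∧
      ∀ n : ℕ, 2 / √(k0 ν) ≤ n → √(k0 ν) / 2 ≤ ∫ a, a ^ 2 ∂(rho θ ν b n) := by
  have hb' : (2 : ℝ) ≤ b := by exact_mod_cast hb
  have hb0 : (0 : ℝ) < b := by linarith
  have hθ2 : θ ^ 2 = 1 / b := by rw [eq_div_iff hb0.ne']; linarith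
  have hM := (mm_bds (Y := Y) h0 h1 b).2.1.le
  have hx1 : ∀ n, ∫ a, a ^ 2 ∂(rho θ ν b n) ≤ 1 := by
    intro n
    have := (NL_rho hN h0 h1 hν b n).sq_le_one hM 1
    simpa using this
  have hx0 : ∀ n, 0 ≤ ∫ a, a ^ 2 ∂(rho θ ν b n) := fun n => integral_nonneg fun a => sq_nonneg a
  refine hX b (k0 ν) (fun n => ∫ a, a ^ 2 ∂(rho θ ν b n)) hb hk hk1 ?_
    (fun n => ⟨hx0 n, hx1 n⟩) ?_ ?_
  · simp only [rho]
    exact k0_eq hν 2
  · intro n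
    have hy : θ ^ 2 * ∫ a, a ^ 2 ∂(rho θ ν b n) ≤ 1 := by
      have := hx1 n
      nlinarith [hx0 n, sq_nonneg θ]
    have := X_upper hN h0 h1 hν (NL_rho hN h0 h1 hν b n) hM hy b
    simp only [rho]
    rw [hθ2] at this
    have e : 1 / (b : ℝ) * ∫ a, a ^ 2 ∂(rho θ ν b n) = (∫ a, a ^ 2 ∂(rho θ ν b n)) / b := by ring
    rw [e] at this
    linarith
  · intro n
    left
    have hy : 2 * (θ ^ 2 * ∫ a, a ^ 2 ∂(rho θ ν b n)) ≤ 1 := by
      have h2 : θ ^ 2 ≤ 1 / 2 := by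
        rw [hθ2]; exact one_div_le_one_div_of_le (by norm_num) hb'
      have := hx1 n
      nlinarith [hx0 n, sq_nonneg θ]
    have := X_lower hN h0 h1 hν (NL_rho hN h0 h1 hν b n) hM hy b
    simp only [rho]
    rw [hθ2] at this
    have e : 1 / (b : ℝ) * ∫ a, a ^ 2 ∂(rho θ ν b n) = (∫ a, a ^ 2 ∂(rho θ ν b n)) / b := by ring
    rw [e] at this
    exact this

/-- higher moments: chain of branches -/
lemma M_chain (hN : S_NISH) (h0 : 0 < θ) (h1 : θ < 1) (hν : Adm ν Y) (h : NL ρ m) (hm : m ≤ 1)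
    {q d : ℕ} {ε C R : ℝ} (hε : 0 < ε) (hC : 0 < C)
    (hCq : ∀ ρ₁ ρ₂ : Measure ℝ, IsProbabilityMeasure ρ₁ → IsProbabilityMeasure ρ₂ →
      (∀ᵐ a ∂ρ₁, |a| ≤ mm θ Y d) → (∀ᵐ b ∂ρ₂, |b| ≤ mm θ Y d) →
      (∀ φ : ℝ → ℝ, Measurable φ → (∀ x, |φ x| ≤ 1) → (∀ x, φ (-x) = -φ x) →
        ∫ a, φ a ∂ρ₁ = ∫ a, a * φ a ∂ρ₁) →
      (∀ φ : ℝ → ℝ, Measurable φ → (∀ x, |φ x| ≤ 1) → (∀ x, φ (-x) = -φ x) →
        ∫ a, φ a ∂ρ₂ = ∫ a, a * φ a ∂ρ₂) →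
      ∫ r, ((r.1 + r.2) / (1 + r.1 * r.2)) ^ (2 * q) ∂(ρ₁.prod ρ₂)
        ≤ (1 + ε) * (∫ a, a ^ (2 * q) ∂ρ₁ + ∫ b, b ^ (2 * q) ∂ρ₂)
          + C * ((∫ a, a ^ 2 ∂ρ₁) ^ q + (∫ b, b ^ 2 ∂ρ₂) ^ q))
    (hR : ∀ j ≤ d, C * ((∫ a, a ^ 2 ∂(FK θ ν ρ j)) ^ q + (θ ^ 2 * ∫ a, a ^ 2 ∂ρ) ^ q) ≤ R)
    (k : ℕ) (hk : k ≤ d) :
    ∫ a, a ^ (2 * q) ∂(FK θ ν ρ k) ≤ (1 + ε) ^ k * (∫ y, Real.tanh y ^ (2 * q) ∂ν
      + k * (θ ^ (2 * q) * ∫ a, a ^ (2 * q) ∂ρ) + k * R) := by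
  have hR0 : 0 ≤ R := by
    refine le_trans ?_ (hR 0 (Nat.zero_le _))
    have := X_nonneg (θ := θ) (ν := ν) (ρ := ρ) 0
    have h2 : 0 ≤ θ ^ 2 * ∫ a, a ^ 2 ∂ρ :=
      mul_nonneg (by positivity) (integral_nonneg fun a => sq_nonneg a)
    positivity
  have ht : 0 ≤ θ ^ (2 * q) * ∫ a, a ^ (2 * q) ∂ρ :=
    mul_nonneg (by positivity) (h.sq_nonneg q)
  have ht0 : 0 ≤ ∫ y, Real.tanh y ^ (2 * q) ∂ν :=
    integral_nonneg fun a => by
      simp only [Pi.zero_apply]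
      rw [pow_mul]; positivity
  induction k with
  | zero =>
    simp only [FK, pow_zero, one_mul, Nat.cast_zero, zero_mul, add_zero]
    rw [k0_eq hν]
  | succ k ih =>
    have ih := ih (by omega)
    have hkl := NL_FK hN h0 h1 hν h hm k
    have hb := NL_br h0 h1 h hm
    have hmk := mm_bds (Y := Y) h0 h1 k
    have hmd := mm_mono (Y := Y) h0 h1 (show k ≤ d by omega)
    have hp := pow_br h0 h1 h hm 1
    simp only [mul_one] at hp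
    have hpq := pow_br h0 h1 h hm q
    have hmeas : Measurable fun a : ℝ => a ^ (2 * q) := by fun_prop
    have hi : ∫ a, a ^ (2 * q) ∂(FK θ ν ρ (k + 1))
        = ∫ r, ((r.1 + r.2) / (1 + r.1 * r.2)) ^ (2 * q) ∂((FK θ ν ρ k).prod (br θ ρ)) := by
      simp only [FK]
      exact integral_comb (fun a => a ^ (2 * q)) hmeas
    have hs := hCq (FK θ ν ρ k) (br θ ρ) hkl.prob hb.prob
      (hkl.bdd.mono fun _ hx => hx.trans hmd)
      (hb.bdd.mono fun _ hx => (hx.trans hmk.1).trans hmd) hkl.nish hb.nish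
    rw [hp, hpq] at hs
    have hRk := hR k (by omega)
    rw [hi]
    have hpow1 : (1 : ℝ) ≤ (1 + ε) ^ (k + 1) := one_le_pow₀ (by linarith)
    have hpow2 : (1 : ℝ) ≤ (1 + ε) ^ k := one_le_pow₀ (by linarith)
    set A := ∫ y, Real.tanh y ^ (2 * q) ∂ν
    set t := θ ^ (2 * q) * ∫ a, a ^ (2 * q) ∂ρ
    have e1 : (1 + ε) * (∫ a, a ^ (2 * q) ∂(FK θ ν ρ k))
        ≤ (1 + ε) ^ (k + 1) * (A + k * t + k * R) := by
      rw [pow_succ]
      have := mul_le_mul_of_nonneg_left ih (by linarith : 0 ≤ 1 + ε)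
      linarith
    have e2 : (1 + ε) * t ≤ (1 + ε) ^ (k + 1) * t := by
      rw [pow_succ]
      nlinarith [mul_nonneg (mul_nonneg (sub_nonneg.2 hpow2) (by linarith : 0 ≤ 1 + ε)) ht]
    have e3 : R ≤ (1 + ε) ^ (k + 1) * R := by nlinarith
    push_cast
    nlinarith [e1, e2, e3, hs, hRk]

lemma Crit.b_eq {V : Type u} {G : SimpleGraph V} {d : ℕ} (hc : Crit G d θ) :
    (((d - 1 : ℕ) : ℝ)) * θ ^ 2 = 1 := by
  have := hc.hd
  rw [Nat.cast_sub (by omega)]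
  simpa using hc.crit

lemma eps_pow {d k : ℕ} (hd : 1 ≤ d) (hk : k ≤ d) : (1 + 1 / (4 * (d : ℝ))) ^ k ≤ 3 / 2 := by
  have hd0 : (0 : ℝ) < d := by exact_mod_cast hd
  have h1 : (1 + 1 / (4 * (d : ℝ))) ^ k ≤ (1 + 1 / (4 * (d : ℝ))) ^ d :=
    pow_le_pow_right₀ (by have : 0 < 1 / (4 * (d : ℝ)) := by positivity
                          linarith) hk
  have h2 : (1 + 1 / (4 * (d : ℝ))) ^ d ≤ Real.exp (1 / (4 * (d : ℝ))) ^ d := by
    apply pow_le_pow_left₀ (by positivity)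
    have := Real.add_one_le_exp (1 / (4 * (d : ℝ)))
    linarith
  have h3 : Real.exp (1 / (4 * (d : ℝ))) ^ d = Real.exp (1 / 4) := by
    rw [← Real.exp_nat_mul]
    congr 1
    field_simp
  have h4 : Real.exp (1 / 4) ≤ 3 / 2 := by
    have h5 : Real.exp (1 / 4) ^ 4 = Real.exp 1 := by
      rw [← Real.exp_nat_mul]; norm_num
    have h6 := Real.exp_one_lt_d9
    by_contra hlt
    push Not at hlt
    have h7 : (3 / 2 : ℝ) ^ 4 < Real.exp (1 / 4) ^ 4 := pow_lt_pow_left₀ hlt (by norm_num) (by norm_num)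
    rw [h5] at h7
    norm_num at h7
    linarith
  linarith

/-- all the moment bounds, for a fixed `q` -/
lemma moments (hN : S_NISH) (hX : S_XREC) {d : ℕ} (hd : 3 ≤ d) (h0 : 0 < θ) (h1 : θ < 1)
    (hc : ((d - 1 : ℕ) : ℝ) * θ ^ 2 = 1) (Y : ℝ) (q : ℕ) (hq : 2 ≤ q) :
    ∃ K : ℝ, 11 ≤ K ∧ ∀ ν : Measure ℝ, Adm ν Y → 0 < k0 ν → ∀ n : ℕ,
      ∫ a, a ^ (2 * q) ∂(rho θ ν (d - 1) n)
        ≤ K * (√(k0 ν) ^ q + ∫ y, Real.tanh y ^ (2 * q) ∂ν) ∧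
      ∫ a, a ^ (2 * q) ∂(FK θ ν (rho θ ν (d - 1) n) d)
        ≤ K * (√(k0 ν) ^ q + ∫ y, Real.tanh y ^ (2 * q) ∂ν) := by
  have hMd := mm_bds (Y := Y) h0 h1 d
  have hd0 : (0 : ℝ) < d := by positivity
  obtain ⟨C, hC, hCq⟩ := (hN (mm θ Y d) (h0.trans_le hMd.1) hMd.2.1).2 q (1 / (4 * (d : ℝ))) hq
    (by positivity)
  refine ⟨11 + 22 * d * (C * 6 ^ q), ?_, ?_⟩
  · have : 0 ≤ 22 * d * (C * 6 ^ q) := by positivity
    linarith
  intro ν hν hk n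
  have hνp := hν.prob
  have hk1 : k0 ν ≤ 1 := by
    have := (NL_tanh hν).sq_le_one (Real.tanh_lt_one _).le 1
    rw [k0_eq hν] at this
    simpa [k0] using this
  have hxb := x_bounds hN hX (by omega : 2 ≤ d - 1) h0 h1 hc hν hk hk1
  set r := √(k0 ν) with hr
  have hr0 : 0 < r := Real.sqrt_pos.2 hk
  have hr2 : r ^ 2 = k0 ν := Real.sq_sqrt hk.le
  have hr1 : r ≤ 1 := by
    rw [hr]
    exact Real.sqrt_le_one.2 hk1
  have hkr : k0 ν ≤ r := by nlinarith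
  have hb' : (2 : ℝ) ≤ ((d - 1 : ℕ) : ℝ) := by
    have : 2 ≤ d - 1 := by omega
    exact_mod_cast this
  have hdb : (d : ℝ) = ((d - 1 : ℕ) : ℝ) + 1 := by
    rw [Nat.cast_sub (by omega)]; simp
  have hθ2 : θ ^ 2 ≤ 1 / 2 := by nlinarith [sq_nonneg θ]
  have hdθ : (d : ℝ) * θ ^ 2 ≤ 3 / 2 := by rw [hdb]; nlinarith
  have hxn : ∀ n, 0 ≤ ∫ a, a ^ 2 ∂(rho θ ν (d - 1) n) :=
    fun n => integral_nonneg fun a => sq_nonneg a
  have hMb := (mm_bds (Y := Y) h0 h1 (d - 1)).2.1.le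
  have hR : ∀ n, ∀ j ≤ d, C * ((∫ a, a ^ 2 ∂(FK θ ν (rho θ ν (d - 1) n) j)) ^ q
      + (θ ^ 2 * ∫ a, a ^ 2 ∂(rho θ ν (d - 1) n)) ^ q) ≤ 2 * (C * 6 ^ q) * r ^ q := by
    intro n j hj
    have hy : θ ^ 2 * ∫ a, a ^ 2 ∂(rho θ ν (d - 1) n) ≤ 6 * r := by
      have := hxb.1 n
      nlinarith [hxn n, sq_nonneg θ]
    have hXj : ∫ a, a ^ 2 ∂(FK θ ν (rho θ ν (d - 1) n) j) ≤ 6 * r := by
      have hl := X_lin hN h0 h1 hν (NL_rho hN h0 h1 hν (d - 1) n) hMb j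
      have h3 := hxb.1 n
      have hj' : (j : ℝ) ≤ d := by exact_mod_cast hj
      have h4 : (j : ℝ) * (θ ^ 2 * ∫ a, a ^ 2 ∂(rho θ ν (d - 1) n))
          ≤ d * (θ ^ 2 * ∫ a, a ^ 2 ∂(rho θ ν (d - 1) n)) :=
        mul_le_mul_of_nonneg_right hj' (mul_nonneg (sq_nonneg θ) (hxn n))
      have h5 : (d : ℝ) * (θ ^ 2 * ∫ a, a ^ 2 ∂(rho θ ν (d - 1) n)) ≤ 3 / 2 * (3 * r) := by
        rw [← mul_assoc]
        exact mul_le_mul hdθ h3 (hxn n) (by norm_num)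
      linarith
    have e1 := pow_le_pow_left₀ (X_nonneg (θ := θ) (ν := ν) (ρ := rho θ ν (d - 1) n) j) hXj q
    have e2 := pow_le_pow_left₀ (mul_nonneg (sq_nonneg θ) (hxn n)) hy q
    rw [mul_pow 6 r q] at e1 e2
    have := mul_le_mul_of_nonneg_left (add_le_add e1 e2) hC.le
    linarith
  have ht0 : 0 ≤ ∫ y, Real.tanh y ^ (2 * q) ∂ν :=
    integral_nonneg fun a => by
      simp only [Pi.zero_apply]
      rw [pow_mul]; positivity
  set t := ∫ y, Real.tanh y ^ (2 * q) ∂ν with ht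
  set R := 2 * (C * 6 ^ q) * r ^ q with hRdef
  have hR0 : 0 ≤ R := by positivity
  have hm0 : ∀ n, 0 ≤ ∫ a, a ^ (2 * q) ∂(rho θ ν (d - 1) n) := fun n =>
    (NL_rho hN h0 h1 hν (d - 1) n).sq_nonneg q
  have hstep : ∀ n, ∀ k ≤ d, ∫ a, a ^ (2 * q) ∂(FK θ ν (rho θ ν (d - 1) n) k)
      ≤ 3 / 2 * (t + k * (θ ^ (2 * q) * ∫ a, a ^ (2 * q) ∂(rho θ ν (d - 1) n)) + k * R) := by
    intro n k hk
    have h3 := M_chain hN h0 h1 hν (NL_rho hN h0 h1 hν (d - 1) n) hMb (by positivity) hC hCq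
      (hR n) k hk
    refine h3.trans (mul_le_mul_of_nonneg_right (eps_pow (by omega) hk) ?_)
    have := hm0 n
    positivity
  have hθq : θ ^ (2 * q) ≤ θ ^ 2 * θ ^ 2 := by
    rw [← pow_add]
    exact pow_le_pow_of_le_one h0.le h1.le (by omega)
  have hbθ : ((d - 1 : ℕ) : ℝ) * θ ^ (2 * q) ≤ 1 / 2 := by
    have : ((d - 1 : ℕ) : ℝ) * θ ^ (2 * q) ≤ ((d - 1 : ℕ) : ℝ) * (θ ^ 2 * θ ^ 2) :=
      mul_le_mul_of_nonneg_left hθq (by positivity)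
    rw [← mul_assoc, hc, one_mul] at this
    linarith
  have hdθq : (d : ℝ) * θ ^ (2 * q) ≤ 1 := by
    have : (d : ℝ) * θ ^ (2 * q) ≤ (d : ℝ) * (θ ^ 2 * θ ^ 2) :=
      mul_le_mul_of_nonneg_left hθq (by positivity)
    nlinarith [sq_nonneg θ]
  have hmn : ∀ n, ∫ a, a ^ (2 * q) ∂(rho θ ν (d - 1) n) ≤ 6 * (t + d * R) := by
    intro n
    induction n with
    | zero =>
      simp only [rho]
      rw [k0_eq hν]
      have : 0 ≤ (d : ℝ) * R := by positivity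
      linarith
    | succ n ih =>
      have h3 := hstep n (d - 1) (by omega)
      simp only [rho]
      have h4 : ((d - 1 : ℕ) : ℝ) * (θ ^ (2 * q) * ∫ a, a ^ (2 * q) ∂(rho θ ν (d - 1) n))
          ≤ 1 / 2 * (6 * (t + d * R)) := by
        rw [← mul_assoc]
        exact mul_le_mul hbθ ih (hm0 n) (by norm_num)
      have h5 : ((d - 1 : ℕ) : ℝ) * R ≤ d * R :=
        mul_le_mul_of_nonneg_right (by rw [hdb]; linarith) hR0
      linarith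
  have hfin : ∀ x : ℝ, x ≤ 11 * t + 11 * (d * R) →
      x ≤ (11 + 22 * d * (C * 6 ^ q)) * (r ^ q + t) := by
    intro x hx
    refine hx.trans ?_
    have e : (11 + 22 * d * (C * 6 ^ q)) * (r ^ q + t)
        = 11 * t + 11 * (d * R) + 11 * r ^ q + 22 * d * (C * 6 ^ q) * t := by
      rw [hRdef]; ring
    rw [e]
    have e1 : 0 ≤ 11 * r ^ q := by positivity
    have e2 : 0 ≤ 22 * d * (C * 6 ^ q) * t := by positivity
    linarith
  have hdR : 0 ≤ (d : ℝ) * R := by positivity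
  constructor
  · apply hfin
    have := hmn n
    linarith
  · apply hfin
    have h3 := hstep n d le_rfl
    have h4 : (d : ℝ) * (θ ^ (2 * q) * ∫ a, a ^ (2 * q) ∂(rho θ ν (d - 1) n))
        ≤ 1 * (6 * (t + d * R)) := by
      rw [← mul_assoc]
      exact mul_le_mul hdθq (hmn n) (hm0 n) (by norm_num)
    linarith

/-- anticoncentration -/
lemma anti {ρ : Measure ℝ} (hρ : IsProbabilityMeasure ρ) (hb : ∀ᵐ a ∂ρ, |a| ≤ 1) {r K : ℝ}
    (hr : 0 < r) (hK : 0 < K) (h2 : r / 2 ≤ ∫ a, a ^ 2 ∂ρ) (h4 : ∫ a, a ^ 4 ∂ρ ≤ 2 * K * r ^ 2) :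
    1 / (32 * K) ≤ ρ.real {a | r / 4 ≤ a ^ 2} := by
  have hA : MeasurableSet {a : ℝ | r / 4 ≤ a ^ 2} := measurableSet_le (by fun_prop) (by fun_prop)
  have hi2 : Integrable (fun a : ℝ => a ^ 2) ρ := by
    refine Integrable.of_bound (by fun_prop : Measurable _).aestronglyMeasurable 1 ?_
    filter_upwards [hb] with a ha
    rw [Real.norm_eq_abs, abs_pow]
    exact pow_le_one₀ (abs_nonneg a) ha
  have hi4 : Integrable (fun a : ℝ => a ^ 4) ρ := by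
    refine Integrable.of_bound (by fun_prop : Measurable _).aestronglyMeasurable 1 ?_
    filter_upwards [hb] with a ha
    rw [Real.norm_eq_abs, abs_pow]
    exact pow_le_one₀ (abs_nonneg a) ha
  have hi1 : Integrable ({a : ℝ | r / 4 ≤ a ^ 2}.indicator fun _ => (1 : ℝ)) ρ :=
    (integrable_const 1).indicator hA
  have hpt : ∀ a : ℝ, a ^ 2 ≤ r / 4 + (1 / (16 * K * r)) * a ^ 4
      + (4 * K * r) * ({a : ℝ | r / 4 ≤ a ^ 2}.indicator (fun _ => (1 : ℝ)) a) := by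
    intro a
    by_cases ha : r / 4 ≤ a ^ 2
    · rw [Set.indicator_of_mem (show a ∈ {a : ℝ | r / 4 ≤ a ^ 2} from ha)]
      have e : r / 4 + (1 / (16 * K * r)) * a ^ 4 + (4 * K * r) * 1 - a ^ 2
          = r / 4 + (a ^ 2 - 8 * K * r) ^ 2 / (16 * K * r) := by
        field_simp
        ring
      have : 0 ≤ r / 4 + (a ^ 2 - 8 * K * r) ^ 2 / (16 * K * r) := by positivity
      linarith
    · rw [Set.indicator_of_notMem (show a ∉ {a : ℝ | r / 4 ≤ a ^ 2} from ha)]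
      push Not at ha
      have : 0 ≤ (1 / (16 * K * r)) * a ^ 4 := by positivity
      linarith
  have h5 : ∫ a, a ^ 2 ∂ρ ≤ r / 4 + (1 / (16 * K * r)) * ∫ a, a ^ 4 ∂ρ
      + (4 * K * r) * ρ.real {a | r / 4 ≤ a ^ 2} := by
    have j1 : Integrable (fun a : ℝ => r / 4 + (1 / (16 * K * r)) * a ^ 4) ρ :=
      (integrable_const _).add (hi4.const_mul _)
    have j2 : Integrable (fun a : ℝ => (4 * K * r)
        * ({a : ℝ | r / 4 ≤ a ^ 2}.indicator (fun _ => (1 : ℝ)) a)) ρ := hi1.const_mul _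
    have h6 : ∫ a, a ^ 2 ∂ρ ≤ ∫ a, ((r / 4 + (1 / (16 * K * r)) * a ^ 4)
        + (4 * K * r) * ({a : ℝ | r / 4 ≤ a ^ 2}.indicator (fun _ => (1 : ℝ)) a)) ∂ρ :=
      integral_mono_ae hi2 (j1.add j2) (Filter.Eventually.of_forall hpt)
    refine h6.trans (le_of_eq ?_)
    rw [integral_add j1 j2, integral_add (integrable_const _) (hi4.const_mul _),
      integral_const_mul, integral_const_mul, integral_indicator_const _ hA]
    simp
  have h6 : (1 / (16 * K * r)) * ∫ a, a ^ 4 ∂ρ ≤ r / 8 := by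
    have h7 := mul_le_mul_of_nonneg_left h4 (by positivity : 0 ≤ 1 / (16 * K * r))
    refine h7.trans (le_of_eq ?_)
    field_simp
    norm_num
  have h8 : r / 8 ≤ (4 * K * r) * ρ.real {a | r / 4 ≤ a ^ 2} := by linarith
  rw [div_le_iff₀ (by positivity)]
  have h9 : r * 1 ≤ r * (ρ.real {a | r / 4 ≤ a ^ 2} * (32 * K)) := by linarith
  exact le_of_mul_le_mul_left h9 hr

/-- module MOM -/
theorem mom (hN : S_NISH) (hX : S_XREC) : S_MOM.{u} := by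
  intro V G d θ hc Y
  have h0 := hc.pos
  have h1 := hc.one_lt
  have hG := hc.tree
  have hM : ∀ q : ℕ, ∃ K : ℝ, 11 ≤ K ∧ (2 ≤ q → ∀ ν : Measure ℝ, Adm ν Y → 0 < k0 ν → ∀ n : ℕ,
      ∫ a, a ^ (2 * q) ∂(rho θ ν (d - 1) n)
        ≤ K * (√(k0 ν) ^ q + ∫ y, Real.tanh y ^ (2 * q) ∂ν) ∧
      ∫ a, a ^ (2 * q) ∂(FK θ ν (rho θ ν (d - 1) n) d)
        ≤ K * (√(k0 ν) ^ q + ∫ y, Real.tanh y ^ (2 * q) ∂ν)) := by
    intro q
    by_cases hq : 2 ≤ q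
    · obtain ⟨K, h, h'⟩ := moments hN hX hc.hd h0 h1 hc.b_eq Y q hq
      exact ⟨K, h, fun _ => h'⟩
    · exact ⟨11, le_rfl, fun h => absurd h hq⟩
  choose Cq hCq using hM
  refine ⟨1 / (32 * Cq 2), Cq, ?_, ?_, ?_⟩
  · have := (hCq 2).1
    positivity
  · intro q
    have := (hCq q).1
    linarith
  intro ν hν hk
  have hνp := hν.prob
  have hk1 : k0 ν ≤ 1 := by
    have := (NL_tanh hν).sq_le_one (Real.tanh_lt_one _).le 1
    rw [k0_eq hν] at this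
    simpa [k0] using this
  have hmsg : ∀ (n : ℕ) (u p : V), Measurable fun e => Real.tanh (msgh G θ n e u p) :=
    fun n u p => measurable_tanhMo.comp (measurable_msgh n u p)
  have hnl := fun n => NL_rho hN h0 h1 hν (d - 1) n
  have hMb := (mm_bds (Y := Y) h0 h1 (d - 1)).2.1.le
  constructor
  · intro n u p hup hn
    have hl := law_msgh (ν := ν) hG hc n u p hup
    have hA : MeasurableSet {a : ℝ | √(k0 ν) / 4 ≤ a ^ 2} :=
      measurableSet_le (by fun_prop) (by fun_prop)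
    have e : (EE G θ ν).real {e | √(k0 ν) / 4 ≤ Real.tanh (msgh G θ n e u p) ^ 2}
        = (rho θ ν (d - 1) n).real {a | √(k0 ν) / 4 ≤ a ^ 2} := by
      rw [← hl, map_measureReal_apply (hmsg n u p) hA]
      rfl
    rw [e]
    have hr0 : 0 < √(k0 ν) := Real.sqrt_pos.2 hk
    have hr2 : √(k0 ν) ^ 2 = k0 ν := Real.sq_sqrt hk.le
    have hK : 0 < Cq 2 := by have := (hCq 2).1; linarith
    have hd := hc.hd
    have hxb := x_bounds hN hX (by omega : 2 ≤ d - 1) h0 h1 hc.b_eq hν hk hk1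
    refine anti (hnl n).prob ((hnl n).bdd.mono fun a ha => ha.trans hMb) hr0 hK (hxb.2 n hn) ?_
    have h4 := ((hCq 2).2 le_rfl ν hν hk n).1
    simp only [show 2 * 2 = 4 from rfl] at h4
    refine h4.trans ?_
    have h5 : ∫ y, Real.tanh y ^ 4 ∂ν ≤ k0 ν := by
      unfold k0
      have hb4 : ∀ j : ℕ, Integrable (fun y => Real.tanh y ^ j) ν := by
        intro j
        refine Integrable.of_bound (measurable_tanhMo.pow_const j).aestronglyMeasurable 1 ?_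
        refine Filter.Eventually.of_forall fun y => ?_
        rw [Real.norm_eq_abs, abs_pow]
        exact pow_le_one₀ (abs_nonneg _) (Real.abs_tanh_lt_one y).le
      refine integral_mono (hb4 4) (hb4 2) fun y => ?_
      have h6 := (Real.tanh_sq_lt_one y).le
      simp only
      nlinarith [sq_nonneg (Real.tanh y)]
    rw [hr2]
    nlinarith
  · intro q n u p hq hup
    have hmeas : Measurable fun a : ℝ => a ^ (2 * q) := by fun_prop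
    have e : ∀ ρ : Measure ℝ, (EE G θ ν).map (fun e => Real.tanh (msgh G θ n e u p)) = ρ →
        ∫ e, Real.tanh (msgh G θ n e u p) ^ (2 * q) ∂(EE G θ ν) = ∫ a, a ^ (2 * q) ∂ρ := by
      intro ρ hρ
      rw [← hρ, integral_map (hmsg n u p).aemeasurable hmeas.aestronglyMeasurable]
    rcases hup with hup | rfl
    · rw [e _ (law_msgh (ν := ν) hG hc n u p hup)]
      exact ((hCq q).2 hq ν hν hk n).1
    · cases n with
      | zero =>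
        have hl : (EE G θ ν).map (fun e => Real.tanh (msgh G θ 0 e u u)) = ν.map Real.tanh := by
          simp only [msgh]
          conv_rhs => rw [← map_e2 (G := G) (ν := ν) hc.abs_le u]
          rw [Measure.map_map measurable_tanhMo (by fun_prop)]
          rfl
        rw [e _ hl]
        exact ((hCq q).2 hq ν hν hk 0).1
      | succ n =>
        rw [e _ (law_msgh_self (ν := ν) hG hc n u)]
        exact ((hCq q).2 hq ν hν hk n).2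

end Vale.Agent.P161C
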