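import Vale.Agent.P161C.Plan

/-!
# P161 critical point: module NISH
-/

namespace Vale.Agent.P161C

open MeasureTheory Vale.Agent.P161 Filter Topology

namespace NISHaux

/-- Nishimori -/
def Nis (ρ : Measure ℝ) : Prop :=
  ∀ φ : ℝ → ℝ, Measurable φ → (∀ x, |φ x| ≤ 1) → (∀ x, φ (-x) = -φ x) →
      ∫ a, φ a ∂ρ = ∫ a, a * φ a ∂ρ

lemma NF {ρ : Measure ℝ} [IsProbabilityMeasure ρ] {m : ℝ} (hm : m < 1)
    (hb : ∀ᵐ a ∂ρ, |a| ≤ m) (hN : Nis ρ) (f : ℝ → ℝ) (hf : Measurable f) (B : ℝ)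
    (hB : ∀ x, |f x| ≤ B) :
    ∫ a, f a ∂ρ = ∫ a, (f a * (1 + a) + f (-a) * (1 - a)) / 2 ∂ρ := by
  have hB0 : 0 ≤ B := (abs_nonneg _).trans (hB 0)
  have hφ := hN (fun a => (f a - f (-a)) / (2 * (B + 1))) (by fun_prop)
    (by
      intro x
      rw [abs_div, abs_of_pos (show 0 < 2 * (B + 1) by linarith), div_le_one (by linarith)]
      refine (abs_sub _ _).trans ?_
      linarith [hB x, hB (-x)])
    (by intro x; simp only [neg_neg]; ring)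
  have i1 : Integrable (fun a => f a) ρ :=
    Integrable.of_bound hf.aestronglyMeasurable B (Eventually.of_forall fun x => by
      simpa [Real.norm_eq_abs] using hB x)
  have i2 : Integrable (fun a => f (-a)) ρ :=
    Integrable.of_bound (hf.comp measurable_neg).aestronglyMeasurable B
      (Eventually.of_forall fun x => by simpa [Real.norm_eq_abs] using hB (-x))
  have i3 : Integrable (fun a => a * (f a - f (-a))) ρ := by
    refine Integrable.of_bound (by fun_prop) (2 * B) ?_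
    filter_upwards [hb] with a ha
    rw [Real.norm_eq_abs, abs_mul]
    have h1 : |f a - f (-a)| ≤ 2 * B := by
      refine (abs_sub _ _).trans ?_
      linarith [hB a, hB (-a)]
    have h2 : |a| ≤ 1 := ha.trans hm.le
    nlinarith [abs_nonneg a, abs_nonneg (f a - f (-a))]
  have e1 : ∫ a, (f a - f (-a)) ∂ρ = ∫ a, a * (f a - f (-a)) ∂ρ := by
    have h1 : ∫ a, (f a - f (-a)) / (2 * (B + 1)) ∂ρ = (∫ a, (f a - f (-a)) ∂ρ) / (2 * (B + 1)) :=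
      integral_div _ _
    have h2 : ∫ a, a * ((f a - f (-a)) / (2 * (B + 1))) ∂ρ
        = (∫ a, a * (f a - f (-a)) ∂ρ) / (2 * (B + 1)) := by
      rw [← integral_div]
      refine integral_congr_ae (Eventually.of_forall fun a => ?_)
      simp only
      ring
    rw [h1, h2] at hφ
    have hne : (2 * (B + 1)) ≠ 0 := by positivity
    exact (div_left_inj' hne).1 hφ
  have e2 : ∀ a, (f a * (1 + a) + f (-a) * (1 - a)) / 2
      = f a - (f a - f (-a)) / 2 + a * (f a - f (-a)) / 2 := by intro a; ring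
  simp only [e2]
  have i4 : Integrable (fun a => f a - f (-a)) ρ := i1.sub i2
  have i5 : Integrable (fun a => (f a - f (-a)) / 2) ρ := i4.div_const 2
  have i6 : Integrable (fun a => a * (f a - f (-a)) / 2) ρ := i3.div_const 2
  have i7 : Integrable (fun a => f a - (f a - f (-a)) / 2) ρ := i1.sub i5
  rw [integral_add i7 i6, integral_sub i1 i5, integral_div, integral_div, e1]
  ring

/-- the symmetrisation for two variables -/
lemma NF2 {ρ₁ ρ₂ : Measure ℝ} [IsProbabilityMeasure ρ₁] [IsProbabilityMeasure ρ₂] {m : ℝ}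
    (hm : m < 1) (hb₁ : ∀ᵐ a ∂ρ₁, |a| ≤ m) (hb₂ : ∀ᵐ a ∂ρ₂, |a| ≤ m) (hN₁ : Nis ρ₁)
    (hN₂ : Nis ρ₂) (F : ℝ × ℝ → ℝ) (hF : Measurable F) (B : ℝ) (hB : ∀ x, |F x| ≤ B) :
    ∫ q, F q ∂(ρ₁.prod ρ₂) = ∫ q, (F (q.1, q.2) * (1 + q.1) * (1 + q.2)
      + F (q.1, -q.2) * (1 + q.1) * (1 - q.2) + F (-q.1, q.2) * (1 - q.1) * (1 + q.2)
      + F (-q.1, -q.2) * (1 - q.1) * (1 - q.2)) / 4 ∂(ρ₁.prod ρ₂) := by
  have hB0 : 0 ≤ B := (abs_nonneg _).trans (hB 0)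
  have hbp₁ : ∀ᵐ q ∂(ρ₁.prod ρ₂), |q.1| ≤ m := Measure.quasiMeasurePreserving_fst.ae hb₁
  have hbp₂ : ∀ᵐ q ∂(ρ₁.prod ρ₂), |q.2| ≤ m := Measure.quasiMeasurePreserving_snd.ae hb₂
  have i0 : Integrable F (ρ₁.prod ρ₂) :=
    Integrable.of_bound hF.aestronglyMeasurable B (Eventually.of_forall fun x => by
      simpa [Real.norm_eq_abs] using hB x)
  -- bounds for the four products
  have bd : ∀ (x : ℝ × ℝ) (u v : ℝ), |u| ≤ 1 → |v| ≤ 1 → |F x * (1 + u) * (1 + v)| ≤ 4 * B := by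
    intro x u v hu hv
    rw [abs_mul, abs_mul]
    have h1 : |1 + u| ≤ 2 := by rw [abs_le]; constructor <;> linarith [(abs_le.1 hu).1, (abs_le.1 hu).2]
    have h2 : |1 + v| ≤ 2 := by rw [abs_le]; constructor <;> linarith [(abs_le.1 hv).1, (abs_le.1 hv).2]
    calc |F x| * |1 + u| * |1 + v| ≤ B * 2 * 2 := by
          apply mul_le_mul _ h2 (abs_nonneg _) (by positivity)
          exact mul_le_mul (hB x) h1 (abs_nonneg _) hB0
      _ = 4 * B := by ring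
  have i1 : Integrable (fun q : ℝ × ℝ =>
      (F (q.1, q.2) * (1 + q.2) + F (q.1, -q.2) * (1 - q.2)) / 2) (ρ₁.prod ρ₂) := by
    refine Integrable.of_bound (by fun_prop) (4 * B) ?_
    filter_upwards [hbp₂] with q hq
    have h2 : |q.2| ≤ 1 := hq.trans hm.le
    have a1 := bd (q.1, q.2) 0 q.2 (by simp) h2
    have a2 := bd (q.1, -q.2) 0 (-q.2) (by simp) (by rwa [abs_neg])
    rw [Real.norm_eq_abs, abs_div, abs_of_pos (by norm_num : (0:ℝ) < 2), div_le_iff₀ (by norm_num)]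
    refine (abs_add_le _ _).trans ?_
    simp only [add_zero, mul_one] at a1 a2
    rw [show 1 - q.2 = 1 + -q.2 by ring]
    linarith
  have i2 : Integrable (fun q : ℝ × ℝ => (F (q.1, q.2) * (1 + q.1) * (1 + q.2)
      + F (q.1, -q.2) * (1 + q.1) * (1 - q.2) + F (-q.1, q.2) * (1 - q.1) * (1 + q.2)
      + F (-q.1, -q.2) * (1 - q.1) * (1 - q.2)) / 4) (ρ₁.prod ρ₂) := by
    refine Integrable.of_bound (by fun_prop) (4 * B) ?_
    filter_upwards [hbp₁, hbp₂] with q hq1 hq2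
    have h1 : |q.1| ≤ 1 := hq1.trans hm.le
    have h2 : |q.2| ≤ 1 := hq2.trans hm.le
    have a1 := bd (q.1, q.2) q.1 q.2 h1 h2
    have a2 := bd (q.1, -q.2) q.1 (-q.2) h1 (by rwa [abs_neg])
    have a3 := bd (-q.1, q.2) (-q.1) q.2 (by rwa [abs_neg]) h2
    have a4 := bd (-q.1, -q.2) (-q.1) (-q.2) (by rwa [abs_neg]) (by rwa [abs_neg])
    rw [Real.norm_eq_abs, abs_div, abs_of_pos (by norm_num : (0:ℝ) < 4), div_le_iff₀ (by norm_num)]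
    rw [show 1 - q.2 = 1 + -q.2 by ring, show 1 - q.1 = 1 + -q.1 by ring]
    refine (abs_add_le _ _).trans ?_
    refine (add_le_add (abs_add_le _ _) le_rfl).trans ?_
    refine (add_le_add (add_le_add (abs_add_le _ _) le_rfl) le_rfl).trans ?_
    linarith
  rw [integral_prod _ i0]
  have s1 : ∀ a : ℝ, ∫ b, F (a, b) ∂ρ₂
      = ∫ b, (F (a, b) * (1 + b) + F (a, -b) * (1 - b)) / 2 ∂ρ₂ := fun a =>
    NF hm hb₂ hN₂ (fun b => F (a, b)) (hF.comp (measurable_const.prodMk measurable_id)) B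
      (fun b => hB _)
  simp only [s1]
  rw [← integral_prod (fun q : ℝ × ℝ =>
      (F (q.1, q.2) * (1 + q.2) + F (q.1, -q.2) * (1 - q.2)) / 2) i1, integral_prod_symm _ i1,
    integral_prod_symm _ i2]
  refine integral_congr_ae (Eventually.of_forall fun b => ?_)
  simp only
  rw [NF hm hb₁ hN₁ (fun a => (F (a, b) * (1 + b) + F (a, -b) * (1 - b)) / 2)
    (by
      have h1 : Measurable fun a : ℝ => F (a, b) := hF.comp (measurable_id.prodMk measurable_const)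
      have h2 : Measurable fun a : ℝ => F (a, -b) := hF.comp (measurable_id.prodMk measurable_const)
      fun_prop)
    (B * (1 + |b|))
    (by
      intro a
      have h1 : |F (a, b) * (1 + b)| ≤ B * (1 + |b|) := by
        rw [abs_mul]
        apply mul_le_mul (hB _) _ (abs_nonneg _) hB0
        refine (abs_add_le _ _).trans ?_
        simp
      have h2 : |F (a, -b) * (1 - b)| ≤ B * (1 + |b|) := by
        rw [abs_mul]
        apply mul_le_mul (hB _) _ (abs_nonneg _) hB0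
        refine (abs_sub _ _).trans ?_
        simp
      rw [abs_div, abs_of_pos (by norm_num : (0:ℝ) < 2), div_le_iff₀ (by norm_num)]
      refine (abs_add_le _ _).trans ?_
      linarith)]
  refine integral_congr_ae (Eventually.of_forall fun a => ?_)
  simp only
  ring

lemma ab_lt {a b m : ℝ} (hm0 : 0 < m) (hm : m < 1) (ha : |a| ≤ m) (hb : |b| ≤ m) :
    |a * b| ≤ m ^ 2 := by
  rw [abs_mul, sq]
  exact mul_le_mul ha hb (abs_nonneg _) hm0.le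

lemma den_pos {a b m : ℝ} (hm0 : 0 < m) (hm : m < 1) (ha : |a| ≤ m) (hb : |b| ≤ m) :
    1 - m ^ 2 ≤ 1 + a * b ∧ 0 < 1 - m ^ 2 := by
  have h := ab_lt hm0 hm ha hb
  refine ⟨by linarith [(abs_le.1 h).1], by nlinarith⟩

lemma c_le {a b m : ℝ} (hm0 : 0 < m) (hm : m < 1) (ha : |a| ≤ m) (hb : |b| ≤ m) :
    |(a + b) / (1 + a * b)| ≤ 1 := by
  obtain ⟨h1, h2⟩ := den_pos hm0 hm ha hb
  have hp : 0 < 1 + a * b := by linarith
  rw [abs_div, abs_of_pos hp, div_le_one hp, abs_le]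
  have := abs_le.1 ha
  have := abs_le.1 hb
  constructor <;> nlinarith

/-- cutoff -/
noncomputable def cut (f : ℝ → ℝ) (x : ℝ) : ℝ := Set.indicator (Set.Icc (-1) 1) f x

lemma measurable_cut {f : ℝ → ℝ} (hf : Measurable f) : Measurable (cut f) :=
  hf.indicator measurableSet_Icc

lemma cut_of {f : ℝ → ℝ} {x : ℝ} (hx : |x| ≤ 1) : cut f x = f x := by
  have h : x ∈ Set.Icc (-1 : ℝ) 1 := abs_le.1 hx
  unfold cut
  rw [Set.indicator_of_mem h]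

lemma cut_le {f : ℝ → ℝ} {B : ℝ} (hB0 : 0 ≤ B) (hB : ∀ x, |x| ≤ 1 → |f x| ≤ B) (x : ℝ) :
    |cut f x| ≤ B := by
  unfold cut
  by_cases h : x ∈ Set.Icc (-1 : ℝ) 1
  · rw [Set.indicator_of_mem h]; exact hB x (abs_le.2 h)
  · rw [Set.indicator_of_notMem h, abs_zero]; exact hB0

lemma measurable_cc : Measurable fun q : ℝ × ℝ => (q.1 + q.2) / (1 + q.1 * q.2) := by fun_prop

section

variable {ρ₁ ρ₂ : Measure ℝ} [IsProbabilityMeasure ρ₁] [IsProbabilityMeasure ρ₂] {m : ℝ}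
    (hm0 : 0 < m) (hm : m < 1) (hb₁ : ∀ᵐ a ∂ρ₁, |a| ≤ m) (hb₂ : ∀ᵐ a ∂ρ₂, |a| ≤ m)

lemma int_fst {f : ℝ → ℝ} : ∫ q : ℝ × ℝ, f q.1 ∂(ρ₁.prod ρ₂) = ∫ a, f a ∂ρ₁ := by
  have h := integral_prod_mul (μ := ρ₁) (ν := ρ₂) f (fun _ => (1 : ℝ))
  simpa using h

lemma int_snd {f : ℝ → ℝ} : ∫ q : ℝ × ℝ, f q.2 ∂(ρ₁.prod ρ₂) = ∫ a, f a ∂ρ₂ := by
  have h := integral_prod_mul (μ := ρ₁) (ν := ρ₂) (fun _ => (1 : ℝ)) f
  simpa using h

include hb₁ hb₂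

lemma ae12 : ∀ᵐ q ∂(ρ₁.prod ρ₂), |q.1| ≤ m ∧ |q.2| ≤ m :=
  (Measure.quasiMeasurePreserving_fst.ae hb₁).and (Measure.quasiMeasurePreserving_snd.ae hb₂)

include hm0 hm

/-- integral of a function of the combination -/
lemma comb {f : ℝ → ℝ} (hf : Measurable f) {B : ℝ} (hB0 : 0 ≤ B) (hB : ∀ x, |x| ≤ 1 → |f x| ≤ B)
    (hN₁ : Nis ρ₁) (hN₂ : Nis ρ₂) (g : ℝ × ℝ → ℝ)
    (hg : ∀ a b : ℝ, |a| ≤ m → |b| ≤ m →
      f ((a + b) / (1 + a * b)) * (1 + a) * (1 + b)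
        + f ((a - b) / (1 - a * b)) * (1 + a) * (1 - b)
        + f (-((a - b) / (1 - a * b))) * (1 - a) * (1 + b)
        + f (-((a + b) / (1 + a * b))) * (1 - a) * (1 - b) = 4 * g (a, b)) :
    ∫ q, f ((q.1 + q.2) / (1 + q.1 * q.2)) ∂(ρ₁.prod ρ₂) = ∫ q, g q ∂(ρ₁.prod ρ₂) := by
  have h := NF2 hm hb₁ hb₂ hN₁ hN₂ (fun q => cut f ((q.1 + q.2) / (1 + q.1 * q.2)))
    ((measurable_cut hf).comp measurable_cc) B (fun q => cut_le hB0 hB _)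
  have e1 : ∫ q, f ((q.1 + q.2) / (1 + q.1 * q.2)) ∂(ρ₁.prod ρ₂)
      = ∫ q : ℝ × ℝ, cut f ((q.1 + q.2) / (1 + q.1 * q.2)) ∂(ρ₁.prod ρ₂) := by
    refine integral_congr_ae ?_
    filter_upwards [ae12 hb₁ hb₂] with q hq
    rw [cut_of (c_le hm0 hm hq.1 hq.2)]
  rw [e1, h]
  refine integral_congr_ae ?_
  filter_upwards [ae12 hb₁ hb₂] with q hq
  obtain ⟨a, b⟩ := q
  simp only at hq ⊢
  have ha' : |-a| ≤ m := by rw [abs_neg]; exact hq.1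
  have hb' : |-b| ≤ m := by rw [abs_neg]; exact hq.2
  rw [cut_of (c_le hm0 hm hq.1 hq.2), cut_of (c_le hm0 hm hq.1 hb'),
    cut_of (c_le hm0 hm ha' hq.2), cut_of (c_le hm0 hm ha' hb')]
  have t1 : (a + -b) / (1 + a * -b) = (a - b) / (1 - a * b) := by
    congr 1; ring
  have t2 : (-a + b) / (1 + -a * b) = -((a - b) / (1 - a * b)) := by
    rw [← neg_div]; congr 1 <;> ring
  have t3 : (-a + -b) / (1 + -a * -b) = -((a + b) / (1 + a * b)) := by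
    rw [← neg_div]; congr 1 <;> ring
  rw [t1, t2, t3]
  have := hg a b hq.1 hq.2
  linarith

lemma nish_comb (hN₁ : Nis ρ₁) (hN₂ : Nis ρ₂) (φ : ℝ → ℝ) (hφ : Measurable φ)
    (h1 : ∀ x, |φ x| ≤ 1) (hodd : ∀ x, φ (-x) = -φ x) :
    ∫ q, φ ((q.1 + q.2) / (1 + q.1 * q.2)) ∂(ρ₁.prod ρ₂)
        = ∫ q, (q.1 + q.2) / (1 + q.1 * q.2) * φ ((q.1 + q.2) / (1 + q.1 * q.2))
            ∂(ρ₁.prod ρ₂) := by
  have h := comb hm0 hm hb₁ hb₂ (f := fun x => φ x - x * φ x) (by fun_prop) (B := 2) (by norm_num)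
    (by
      intro x hx
      refine (abs_sub _ _).trans ?_
      rw [abs_mul]
      nlinarith [h1 x, abs_nonneg x, abs_nonneg (φ x)])
    hN₁ hN₂ (fun _ => 0)
    (by
      intro a b ha hb
      obtain ⟨p1, p2⟩ := den_pos hm0 hm ha hb
      obtain ⟨p3, _⟩ := den_pos hm0 hm ha (show |-b| ≤ m by rwa [abs_neg])
      have q1 : 1 + a * b ≠ 0 := by linarith
      have q2 : 1 - a * b ≠ 0 := by nlinarith
      simp only [hodd]
      have r1 : (1 - (a + b) / (1 + a * b)) * (1 + a) * (1 + b)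
          = (1 + (a + b) / (1 + a * b)) * (1 - a) * (1 - b) := by
        field_simp
        ring
      have r2 : (1 - (a - b) / (1 - a * b)) * (1 + a) * (1 - b)
          = (1 + (a - b) / (1 - a * b)) * (1 - a) * (1 + b) := by
        field_simp
        ring
      linear_combination φ ((a + b) / (1 + a * b)) * r1 + φ ((a - b) / (1 - a * b)) * r2)
  simp only [integral_zero] at h
  rw [integral_sub] at h
  · linarith
  · refine Integrable.of_bound (hφ.comp measurable_cc).aestronglyMeasurable 1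
      (Eventually.of_forall fun q => by simpa [Real.norm_eq_abs] using h1 _)
  · refine Integrable.of_bound (measurable_cc.mul (hφ.comp measurable_cc)).aestronglyMeasurable 1 ?_
    filter_upwards [ae12 hb₁ hb₂] with q hq
    have h3 := c_le hm0 hm hq.1 hq.2
    rw [Real.norm_eq_abs, abs_mul]
    have h4 := h1 ((q.1 + q.2) / (1 + q.1 * q.2))
    nlinarith [abs_nonneg ((q.1 + q.2) / (1 + q.1 * q.2)),
      abs_nonneg (φ ((q.1 + q.2) / (1 + q.1 * q.2)))]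

lemma sq_comb (hN₁ : Nis ρ₁) (hN₂ : Nis ρ₂) :
    ∫ q, ((q.1 + q.2) / (1 + q.1 * q.2)) ^ 2 ∂(ρ₁.prod ρ₂)
        = ∫ q : ℝ × ℝ, (q.1 ^ 2 + q.2 ^ 2 - 2 * (q.1 ^ 2 * q.2 ^ 2)) / (1 - q.1 ^ 2 * q.2 ^ 2)
            ∂(ρ₁.prod ρ₂) := by
  have h := comb hm0 hm hb₁ hb₂ (f := fun x => x ^ 2) (by fun_prop) (B := 1) (by norm_num)
    (by
      intro x hx
      rw [abs_of_nonneg (sq_nonneg x)]
      nlinarith [abs_le.1 hx])
    hN₁ hN₂
    (fun q => (q.1 ^ 2 + q.2 ^ 2 - 2 * (q.1 ^ 2 * q.2 ^ 2)) / (1 - q.1 ^ 2 * q.2 ^ 2))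
    (by
      intro a b ha hb
      obtain ⟨p1, p2⟩ := den_pos hm0 hm ha hb
      obtain ⟨p3, _⟩ := den_pos hm0 hm ha (show |-b| ≤ m by rwa [abs_neg])
      have q1 : 1 + a * b ≠ 0 := by linarith
      have q2 : 1 - a * b ≠ 0 := by nlinarith
      have q3 : 1 - a ^ 2 * b ^ 2 ≠ 0 := by
        have : 1 - a ^ 2 * b ^ 2 = (1 + a * b) * (1 - a * b) := by ring
        rw [this]; exact mul_ne_zero q1 q2
      simp only
      rw [show 1 - a ^ 2 * b ^ 2 = (1 + a * b) * (1 - a * b) by ring]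
      field_simp
      ring)
  exact h

/-- integrability of a bounded function on the support -/
lemma intb {F : ℝ × ℝ → ℝ} (hF : Measurable F) {B : ℝ}
    (hB : ∀ a b : ℝ, |a| ≤ m → |b| ≤ m → |F (a, b)| ≤ B) : Integrable F (ρ₁.prod ρ₂) := by
  refine Integrable.of_bound hF.aestronglyMeasurable B ?_
  filter_upwards [ae12 hb₁ hb₂] with q hq
  rw [Real.norm_eq_abs]
  exact hB q.1 q.2 hq.1 hq.2

lemma sq_props {a b : ℝ} (ha : |a| ≤ m) (hb : |b| ≤ m) :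
    0 ≤ a ^ 2 ∧ a ^ 2 ≤ 1 ∧ 0 ≤ b ^ 2 ∧ b ^ 2 ≤ 1 ∧ a ^ 2 * b ^ 2 < 1 := by
  have h1 : a ^ 2 ≤ m ^ 2 := sq_le_sq' (by linarith [(abs_le.1 ha).1]) (abs_le.1 ha).2
  have h2 : b ^ 2 ≤ m ^ 2 := sq_le_sq' (by linarith [(abs_le.1 hb).1]) (abs_le.1 hb).2
  have h3 : m ^ 2 < 1 := by nlinarith
  refine ⟨sq_nonneg _, by linarith, sq_nonneg _, by linarith, ?_⟩
  nlinarith [sq_nonneg a, sq_nonneg b]

lemma second (hN₁ : Nis ρ₁) (hN₂ : Nis ρ₂) :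
    (∫ q, ((q.1 + q.2) / (1 + q.1 * q.2)) ^ 2 ∂(ρ₁.prod ρ₂)
      ≤ ∫ a, a ^ 2 ∂ρ₁ + ∫ b, b ^ 2 ∂ρ₂ - (∫ a, a ^ 2 ∂ρ₁) * ∫ b, b ^ 2 ∂ρ₂) ∧
    (∫ a, a ^ 2 ∂ρ₁ + ∫ b, b ^ 2 ∂ρ₂ - 2 * ((∫ a, a ^ 2 ∂ρ₁) * ∫ b, b ^ 2 ∂ρ₂)
      ≤ ∫ q, ((q.1 + q.2) / (1 + q.1 * q.2)) ^ 2 ∂(ρ₁.prod ρ₂)) ∧
    (∫ a, a ^ 2 ∂ρ₁ ≤ ∫ q, ((q.1 + q.2) / (1 + q.1 * q.2)) ^ 2 ∂(ρ₁.prod ρ₂)) := by
  rw [sq_comb hm0 hm hb₁ hb₂ hN₁ hN₂]
  have hx : ∫ q : ℝ × ℝ, q.1 ^ 2 ∂(ρ₁.prod ρ₂) = ∫ a, a ^ 2 ∂ρ₁ := int_fst (f := fun a => a ^ 2)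
  have hy : ∫ q : ℝ × ℝ, q.2 ^ 2 ∂(ρ₁.prod ρ₂) = ∫ a, a ^ 2 ∂ρ₂ := int_snd (f := fun a => a ^ 2)
  have hxy : ∫ q : ℝ × ℝ, q.1 ^ 2 * q.2 ^ 2 ∂(ρ₁.prod ρ₂) = (∫ a, a ^ 2 ∂ρ₁) * ∫ b, b ^ 2 ∂ρ₂ :=
    integral_prod_mul (μ := ρ₁) (ν := ρ₂) (fun a => a ^ 2) (fun a => a ^ 2)
  have j1 : Integrable (fun q : ℝ × ℝ => q.1 ^ 2) (ρ₁.prod ρ₂) :=
    intb hm0 hm hb₁ hb₂ (by fun_prop) (B := 1) (fun a b ha hb => by
      obtain ⟨h1, h2, h3, h4, h5⟩ := sq_props hm0 hm hb₁ hb₂ ha hb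
      simp only; rw [abs_of_nonneg h1]; exact h2)
  have j2 : Integrable (fun q : ℝ × ℝ => q.2 ^ 2) (ρ₁.prod ρ₂) :=
    intb hm0 hm hb₁ hb₂ (by fun_prop) (B := 1) (fun a b ha hb => by
      obtain ⟨h1, h2, h3, h4, h5⟩ := sq_props hm0 hm hb₁ hb₂ ha hb
      simp only; rw [abs_of_nonneg h3]; exact h4)
  have j3 : Integrable (fun q : ℝ × ℝ => q.1 ^ 2 * q.2 ^ 2) (ρ₁.prod ρ₂) :=
    intb hm0 hm hb₁ hb₂ (by fun_prop) (B := 1) (fun a b ha hb => by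
      obtain ⟨h1, h2, h3, h4, h5⟩ := sq_props hm0 hm hb₁ hb₂ ha hb
      simp only; rw [abs_of_nonneg (mul_nonneg h1 h3)]; exact h5.le)
  have key : ∀ a b : ℝ, |a| ≤ m → |b| ≤ m →
      (a ^ 2 + b ^ 2 - 2 * (a ^ 2 * b ^ 2)) / (1 - a ^ 2 * b ^ 2) ≤ a ^ 2 + b ^ 2 - a ^ 2 * b ^ 2 ∧
      a ^ 2 + b ^ 2 - 2 * (a ^ 2 * b ^ 2)
        ≤ (a ^ 2 + b ^ 2 - 2 * (a ^ 2 * b ^ 2)) / (1 - a ^ 2 * b ^ 2) ∧
      a ^ 2 ≤ (a ^ 2 + b ^ 2 - 2 * (a ^ 2 * b ^ 2)) / (1 - a ^ 2 * b ^ 2) ∧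
      0 ≤ (a ^ 2 + b ^ 2 - 2 * (a ^ 2 * b ^ 2)) / (1 - a ^ 2 * b ^ 2) ∧
      (a ^ 2 + b ^ 2 - 2 * (a ^ 2 * b ^ 2)) / (1 - a ^ 2 * b ^ 2) ≤ 1 := by
    intro a b ha hb
    obtain ⟨h1, h2, h3, h4, h5⟩ := sq_props hm0 hm hb₁ hb₂ ha hb
    set A := a ^ 2
    set B := b ^ 2
    have hp : 0 < 1 - A * B := by linarith
    have hAB : 0 ≤ A * B := mul_nonneg h1 h3
    have hA1 : 0 ≤ (1 - A) * (1 - B) := mul_nonneg (by linarith) (by linarith)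
    have hnum : 0 ≤ A + B - 2 * (A * B) := by nlinarith
    refine ⟨?_, ?_, ?_, ?_, ?_⟩
    · rw [div_le_iff₀ hp]
      nlinarith
    · rw [le_div_iff₀ hp]
      nlinarith
    · rw [le_div_iff₀ hp]
      nlinarith [mul_nonneg h3 (sq_nonneg (1 - A))]
    · exact div_nonneg hnum hp.le
    · rw [div_le_one hp]
      nlinarith
  have j4 : Integrable (fun q : ℝ × ℝ =>
      (q.1 ^ 2 + q.2 ^ 2 - 2 * (q.1 ^ 2 * q.2 ^ 2)) / (1 - q.1 ^ 2 * q.2 ^ 2)) (ρ₁.prod ρ₂) :=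
    intb hm0 hm hb₁ hb₂ (by fun_prop) (B := 1) (fun a b ha hb => by
      obtain ⟨_, _, _, k4, k5⟩ := key a b ha hb
      simp only; rw [abs_of_nonneg k4]; exact k5)
  have j12 : Integrable (fun q : ℝ × ℝ => q.1 ^ 2 + q.2 ^ 2) (ρ₁.prod ρ₂) := j1.add j2
  refine ⟨?_, ?_, ?_⟩
  · rw [← hxy, ← hx, ← hy, ← integral_add j1 j2, ← integral_sub j12 j3]
    refine integral_mono_ae j4 (j12.sub j3) ?_
    filter_upwards [ae12 hb₁ hb₂] with q hq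
    exact (key q.1 q.2 hq.1 hq.2).1
  · rw [← hxy, ← hx, ← hy, ← integral_add j1 j2, ← integral_const_mul,
      ← integral_sub j12 (j3.const_mul 2)]
    refine integral_mono_ae (j12.sub (j3.const_mul 2)) j4 ?_
    filter_upwards [ae12 hb₁ hb₂] with q hq
    exact (key q.1 q.2 hq.1 hq.2).2.1
  · rw [← hx]
    refine integral_mono_ae j1 j4 ?_
    filter_upwards [ae12 hb₁ hb₂] with q hq
    exact (key q.1 q.2 hq.1 hq.2).2.2.1

end

lemma exists_eta (q : ℕ) {ε : ℝ} (hε : 0 < ε) :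
    ∃ η : ℝ, 0 < η ∧ η < 1 ∧ ((1 + η) / (1 - η)) ^ (2 * q) ≤ 1 + ε := by
  have hc : ContinuousAt (fun η : ℝ => ((1 + η) / (1 - η)) ^ (2 * q)) 0 := by
    apply ContinuousAt.pow
    apply ContinuousAt.div
    · fun_prop
    · fun_prop
    · norm_num
  have h1 : ∀ᶠ η in 𝓝 (0 : ℝ), ((1 + η) / (1 - η)) ^ (2 * q) < 1 + ε := by
    apply hc.eventually_lt continuousAt_const
    simp [hε]
  have h2 : ∀ᶠ η in 𝓝 (0 : ℝ), η < 1 := eventually_lt_nhds zero_lt_one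
  have h3 : ∀ᶠ η in 𝓝[>] (0 : ℝ), 0 < η := self_mem_nhdsWithin
  have h4 : ∀ᶠ η in 𝓝[>] (0 : ℝ), ((1 + η) / (1 - η)) ^ (2 * q) < 1 + ε ∧ η < 1 :=
    (h1.and h2).filter_mono nhdsWithin_le_nhds
  obtain ⟨η, h4, h5, h6⟩ := (h3.and h4).exists
  exact ⟨η, h4, h6, h5.le⟩

lemma pointwise {m : ℝ} (hm0 : 0 < m) (hm : m < 1) (q : ℕ) (hq : 1 ≤ q) {ε : ℝ} (hε : 0 < ε) :
    ∃ C : ℝ, 0 < C ∧ ∀ a b : ℝ, |a| ≤ m → |b| ≤ m →
      ((a + b) / (1 + a * b)) ^ (2 * q)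
        ≤ (1 + ε) * (a ^ (2 * q) + b ^ (2 * q)) + C * (a ^ 2 * (b ^ 2) ^ (q - 1)) := by
  obtain ⟨η, h0, h1, h2⟩ := exists_eta q hε
  have hm2 : 0 < 1 - m ^ 2 := by nlinarith
  have hηd : 0 < 1 - η := by linarith
  set K : ℝ := (1 + 1 / η) / (1 - m ^ 2) with hK
  have hK0 : 0 < K := by positivity
  refine ⟨K ^ (2 * q), by positivity, ?_⟩
  have even : ∀ x : ℝ, x ^ (2 * q) = |x| ^ (2 * q) := fun x => by
    rw [pow_mul, pow_mul, sq_abs]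
  -- the case of very different sizes
  have case1 : ∀ a b : ℝ, |a| ≤ m → |b| ≤ m → |b| ≤ η * |a| →
      ((a + b) / (1 + a * b)) ^ (2 * q) ≤ (1 + ε) * a ^ (2 * q) := by
    intro a b ha hb hab
    obtain ⟨p1, p2⟩ := den_pos hm0 hm ha hb
    have hp : 0 < 1 + a * b := by linarith
    have ha1 : |a| ≤ 1 := ha.trans hm.le
    have hd : 1 - η ≤ 1 + a * b := by
      have : |a * b| ≤ η := by
        rw [abs_mul]
        nlinarith [abs_nonneg a, abs_nonneg b]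
      linarith [(abs_le.1 this).1]
    have hc : |(a + b) / (1 + a * b)| ≤ |a| * ((1 + η) / (1 - η)) := by
      rw [abs_div, abs_of_pos hp, div_le_iff₀ hp]
      have h3 : |a + b| ≤ |a| * (1 + η) := (abs_add_le a b).trans (by linarith)
      have h4 : |a| * (1 + η) ≤ |a| * ((1 + η) / (1 - η)) * (1 + a * b) := by
        rw [mul_assoc]
        apply mul_le_mul_of_nonneg_left _ (abs_nonneg a)
        rw [div_mul_eq_mul_div, le_div_iff₀ hηd]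
        apply mul_le_mul_of_nonneg_left hd (by linarith)
      exact h3.trans h4
    rw [even, even a]
    calc |(a + b) / (1 + a * b)| ^ (2 * q) ≤ (|a| * ((1 + η) / (1 - η))) ^ (2 * q) :=
          pow_le_pow_left₀ (abs_nonneg _) hc _
      _ = ((1 + η) / (1 - η)) ^ (2 * q) * |a| ^ (2 * q) := by rw [mul_pow]; ring
      _ ≤ (1 + ε) * |a| ^ (2 * q) := by
          apply mul_le_mul_of_nonneg_right h2; positivity
  intro a b ha hb
  have na : 0 ≤ a ^ (2 * q) := by rw [even]; positivity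
  have nb : 0 ≤ b ^ (2 * q) := by rw [even]; positivity
  have nc : 0 ≤ K ^ (2 * q) * (a ^ 2 * (b ^ 2) ^ (q - 1)) := by positivity
  by_cases c1 : |b| ≤ η * |a|
  · have := case1 a b ha hb c1
    nlinarith
  by_cases c2 : |a| ≤ η * |b|
  · have := case1 b a hb ha c2
    rw [add_comm b a, mul_comm b a] at this
    nlinarith
  push Not at c1 c2
  obtain ⟨p1, p2⟩ := den_pos hm0 hm ha hb
  have hp : 0 < 1 + a * b := by linarith
  have hc : ∀ t : ℝ, |a| + |b| ≤ (1 + 1 / η) * t → |(a + b) / (1 + a * b)| ≤ K * t := by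
    intro t ht
    rw [abs_div, abs_of_pos hp, div_le_iff₀ hp]
    have ht0 : 0 ≤ (1 + 1 / η) * t := (add_nonneg (abs_nonneg a) (abs_nonneg b)).trans ht
    calc |a + b| ≤ (1 + 1 / η) * t := (abs_add_le a b).trans ht
      _ = K * t * (1 - m ^ 2) := by rw [hK]; field_simp
      _ ≤ K * t * (1 + a * b) := by
          apply mul_le_mul_of_nonneg_left p1
          have : K * t = ((1 + 1 / η) * t) / (1 - m ^ 2) := by rw [hK]; ring
          rw [this]; positivity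
  have e1 : |b| ≤ 1 / η * |a| := by
    rw [div_mul_eq_mul_div, one_mul, le_div_iff₀ h0]; linarith
  have e2 : |a| ≤ 1 / η * |b| := by
    rw [div_mul_eq_mul_div, one_mul, le_div_iff₀ h0]; linarith
  have k1 := hc |a| (by linarith)
  have k2 := hc |b| (by linarith)
  have hfin : ((a + b) / (1 + a * b)) ^ (2 * q) ≤ K ^ (2 * q) * (a ^ 2 * (b ^ 2) ^ (q - 1)) := by
    have e3 : ((a + b) / (1 + a * b)) ^ (2 * q)
        = |(a + b) / (1 + a * b)| ^ 2 * |(a + b) / (1 + a * b)| ^ (2 * (q - 1)) := by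
      rw [even, ← pow_add]; congr 1; omega
    rw [e3]
    calc |(a + b) / (1 + a * b)| ^ 2 * |(a + b) / (1 + a * b)| ^ (2 * (q - 1))
        ≤ (K * |a|) ^ 2 * (K * |b|) ^ (2 * (q - 1)) := by
          apply mul_le_mul (pow_le_pow_left₀ (abs_nonneg _) k1 _)
            (pow_le_pow_left₀ (abs_nonneg _) k2 _) (by positivity) (by positivity)
      _ = K ^ (2 + 2 * (q - 1)) * (|a| ^ 2 * (|b| ^ 2) ^ (q - 1)) := by
          rw [mul_pow, mul_pow, ← pow_mul, pow_add]; ring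
      _ = K ^ (2 * q) * (a ^ 2 * (b ^ 2) ^ (q - 1)) := by
          rw [sq_abs, sq_abs]; congr 2; omega
  nlinarith

lemma young (q : ℕ) (hq : 1 ≤ q) {u β l : ℝ} (hu : 0 ≤ u) (hβ : 0 ≤ β) (hl : 0 < l) :
    β * u ^ (q - 1) ≤ l * u ^ q + β ^ q / l ^ (q - 1) := by
  obtain ⟨p, rfl⟩ : ∃ p, q = p + 1 := ⟨q - 1, by omega⟩
  simp only [Nat.add_sub_cancel]
  have h1 : 0 ≤ l * u ^ (p + 1) := by positivity
  have h2 : 0 ≤ β ^ (p + 1) / l ^ p := by positivity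
  rcases le_total β (l * u) with h | h
  · have : β * u ^ p ≤ l * u * u ^ p := mul_le_mul_of_nonneg_right h (by positivity)
    rw [pow_succ]
    nlinarith
  · have h3 : u ≤ β / l := by rw [le_div_iff₀ hl]; linarith
    have h4 : β * u ^ p ≤ β * (β / l) ^ p :=
      mul_le_mul_of_nonneg_left (pow_le_pow_left₀ hu h3 _) hβ
    have h5 : β * (β / l) ^ p = β ^ (p + 1) / l ^ p := by rw [div_pow, pow_succ]; ring
    linarith

lemma higher {m : ℝ} (hm0 : 0 < m) (hm : m < 1) (q : ℕ) (ε : ℝ) (hq : 2 ≤ q) (hε : 0 < ε) :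
    ∃ C : ℝ, 0 < C ∧
    ∀ ρ₁ ρ₂ : Measure ℝ, IsProbabilityMeasure ρ₁ → IsProbabilityMeasure ρ₂ →
    (∀ᵐ a ∂ρ₁, |a| ≤ m) → (∀ᵐ b ∂ρ₂, |b| ≤ m) →
    ∫ r, ((r.1 + r.2) / (1 + r.1 * r.2)) ^ (2 * q) ∂(ρ₁.prod ρ₂)
      ≤ (1 + ε) * (∫ a, a ^ (2 * q) ∂ρ₁ + ∫ b, b ^ (2 * q) ∂ρ₂)
        + C * ((∫ a, a ^ 2 ∂ρ₁) ^ q + (∫ b, b ^ 2 ∂ρ₂) ^ q) := by
  obtain ⟨C, hC, hp⟩ := pointwise hm0 hm q (by omega) (half_pos hε)
  set l : ℝ := ε / (2 * C) with hl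
  have hl0 : 0 < l := by positivity
  refine ⟨C / l ^ (q - 1), by positivity, ?_⟩
  intro ρ₁ ρ₂ P1 P2 hb₁ hb₂
  have even : ∀ x : ℝ, x ^ (2 * q) = (x ^ 2) ^ q := fun x => by rw [pow_mul]
  have bnd : ∀ (x : ℝ) (k : ℕ), |x| ≤ m → |x ^ k| ≤ 1 := by
    intro x k hx
    rw [abs_pow]
    exact pow_le_one₀ (abs_nonneg x) (hx.trans hm.le)
  have j0 : Integrable (fun r : ℝ × ℝ => ((r.1 + r.2) / (1 + r.1 * r.2)) ^ (2 * q))
      (ρ₁.prod ρ₂) := intb hm0 hm hb₁ hb₂ (by fun_prop) (B := 1) (fun a b ha hb => by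
        simp only
        rw [abs_pow]
        exact pow_le_one₀ (abs_nonneg _) (c_le hm0 hm ha hb))
  have j1 : Integrable (fun r : ℝ × ℝ => r.1 ^ (2 * q)) (ρ₁.prod ρ₂) :=
    intb hm0 hm hb₁ hb₂ (by fun_prop) (B := 1) (fun a b ha hb => bnd a _ ha)
  have j2 : Integrable (fun r : ℝ × ℝ => r.2 ^ (2 * q)) (ρ₁.prod ρ₂) :=
    intb hm0 hm hb₁ hb₂ (by fun_prop) (B := 1) (fun a b ha hb => bnd b _ hb)
  have j3 : Integrable (fun r : ℝ × ℝ => r.1 ^ 2 * (r.2 ^ 2) ^ (q - 1)) (ρ₁.prod ρ₂) :=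
    intb hm0 hm hb₁ hb₂ (by fun_prop) (B := 1) (fun a b ha hb => by
      simp only
      rw [abs_mul, ← pow_mul]
      have h1 := bnd a 2 ha
      have h2 := bnd b (2 * (q - 1)) hb
      nlinarith [abs_nonneg (a ^ 2), abs_nonneg (b ^ (2 * (q - 1)))])
  have i1 : ∫ r : ℝ × ℝ, r.1 ^ (2 * q) ∂(ρ₁.prod ρ₂) = ∫ a, a ^ (2 * q) ∂ρ₁ :=
    int_fst (f := fun a => a ^ (2 * q))
  have i2 : ∫ r : ℝ × ℝ, r.2 ^ (2 * q) ∂(ρ₁.prod ρ₂) = ∫ a, a ^ (2 * q) ∂ρ₂ :=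
    int_snd (f := fun a => a ^ (2 * q))
  have i3 : ∫ r : ℝ × ℝ, r.1 ^ 2 * (r.2 ^ 2) ^ (q - 1) ∂(ρ₁.prod ρ₂)
      = (∫ a, a ^ 2 ∂ρ₁) * ∫ b, (b ^ 2) ^ (q - 1) ∂ρ₂ :=
    integral_prod_mul (μ := ρ₁) (ν := ρ₂) (fun a => a ^ 2) (fun a => (a ^ 2) ^ (q - 1))
  have j12 : Integrable (fun r : ℝ × ℝ => r.1 ^ (2 * q) + r.2 ^ (2 * q)) (ρ₁.prod ρ₂) := j1.add j2
  have step1 : ∫ r, ((r.1 + r.2) / (1 + r.1 * r.2)) ^ (2 * q) ∂(ρ₁.prod ρ₂)
      ≤ (1 + ε / 2) * (∫ a, a ^ (2 * q) ∂ρ₁ + ∫ b, b ^ (2 * q) ∂ρ₂)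
        + C * ((∫ a, a ^ 2 ∂ρ₁) * ∫ b, (b ^ 2) ^ (q - 1) ∂ρ₂) := by
    rw [← i3, ← i1, ← i2, ← integral_add j1 j2, ← integral_const_mul, ← integral_const_mul,
      ← integral_add (j12.const_mul _) (j3.const_mul _)]
    refine integral_mono_ae j0 ((j12.const_mul _).add (j3.const_mul _)) ?_
    filter_upwards [ae12 hb₁ hb₂] with r hr
    exact hp r.1 r.2 hr.1 hr.2
  set x := ∫ a, a ^ 2 ∂ρ₁ with hx
  set y := ∫ b, b ^ 2 ∂ρ₂ with hy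
  have hx0 : 0 ≤ x := integral_nonneg fun a => sq_nonneg a
  have hy0 : 0 ≤ y := integral_nonneg fun a => sq_nonneg a
  have ib : ∀ k : ℕ, Integrable (fun b : ℝ => (b ^ 2) ^ k) ρ₂ := by
    intro k
    refine Integrable.of_bound (by fun_prop) 1 ?_
    filter_upwards [hb₂] with b hb
    rw [Real.norm_eq_abs, ← pow_mul]
    exact bnd b _ hb
  have step2 : x * ∫ b, (b ^ 2) ^ (q - 1) ∂ρ₂ ≤ l * ∫ b, b ^ (2 * q) ∂ρ₂ + x ^ q / l ^ (q - 1) := by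
    have h1 : x * ∫ b, (b ^ 2) ^ (q - 1) ∂ρ₂ = ∫ b, x * (b ^ 2) ^ (q - 1) ∂ρ₂ :=
      (integral_const_mul _ _).symm
    have h2 : l * ∫ b, b ^ (2 * q) ∂ρ₂ + x ^ q / l ^ (q - 1)
        = ∫ b, (l * (b ^ 2) ^ q + x ^ q / l ^ (q - 1)) ∂ρ₂ := by
      rw [integral_add ((ib q).const_mul l) (integrable_const _), integral_const_mul,
        integral_const]
      simp [even]
    rw [h1, h2]
    refine integral_mono ((ib (q - 1)).const_mul x)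
      (((ib q).const_mul l).add (integrable_const _)) fun b => ?_
    exact young q (by omega) (sq_nonneg b) hx0 hl0
  have hCl : C * l = ε / 2 := by rw [hl]; field_simp
  have na : 0 ≤ ∫ a, a ^ (2 * q) ∂ρ₁ := integral_nonneg fun a => by
    simp only [even]; positivity
  have nb : 0 ≤ ∫ a, a ^ (2 * q) ∂ρ₂ := integral_nonneg fun a => by
    simp only [even]; positivity
  have hyq : 0 ≤ C / l ^ (q - 1) * y ^ q := by positivity
  have step3 := mul_le_mul_of_nonneg_left step2 hC.le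
  have e4 : C * (l * ∫ b, b ^ (2 * q) ∂ρ₂ + x ^ q / l ^ (q - 1))
      = ε / 2 * ∫ b, b ^ (2 * q) ∂ρ₂ + C / l ^ (q - 1) * x ^ q := by
    rw [← hCl]; ring
  rw [e4] at step3
  nlinarith

end NISHaux

theorem nish : S_NISH := by
  intro m hm0 hm
  refine ⟨?_, ?_⟩
  · intro ρ₁ ρ₂ P1 P2 hb₁ hb₂ hN₁ hN₂
    obtain ⟨h1, h2, h3⟩ := NISHaux.second hm0 hm hb₁ hb₂ hN₁ hN₂
    exact ⟨fun φ hφ h1 hodd => NISHaux.nish_comb hm0 hm hb₁ hb₂ hN₁ hN₂ φ hφ h1 hodd, h1, h2, h3⟩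
  · intro q ε hq hε
    obtain ⟨C, hC, h⟩ := NISHaux.higher hm0 hm q ε hq hε
    exact ⟨C, hC, fun ρ₁ ρ₂ P1 P2 hb₁ hb₂ _ _ => h ρ₁ ρ₂ P1 P2 hb₁ hb₂⟩

end Vale.Agent.P161C
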