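import Vale.Agent.P161C.Plan
import Vale.Agent.P161.OneD

/-!
# P161 critical point: module PHI
-/

namespace Vale.Agent.P161C

open MeasureTheory Vale.Agent.P161 Filter Topology

namespace PHIaux

lemma abs_q_le (x : I01) : |2 * (x : ℝ) - 1| ≤ 1 := by
  rw [abs_le]
  constructor <;> linarith [x.2.1, x.2.2]

lemma abs_e_le {δ : ℝ} (h0 : 0 ≤ δ) (x : I01) : |δ * (2 * (x : ℝ) - 1)| ≤ δ := by
  rw [abs_mul, abs_of_nonneg h0]
  have := abs_q_le x
  nlinarith

lemma den_ge {δ m : ℝ} (h0 : 0 ≤ δ) (h1 : δ ≤ 1 / 2) (hm : |m| ≤ 1) (x : I01) :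
    1 / 2 ≤ 1 + m * (δ * (2 * (x : ℝ) - 1)) := by
  have h : |m * (δ * (2 * (x : ℝ) - 1))| ≤ 1 / 2 := by
    rw [abs_mul]
    have h2 := abs_e_le h0 x
    have h3 := abs_nonneg (δ * (2 * (x : ℝ) - 1))
    nlinarith [abs_nonneg m]
  linarith [(abs_le.1 h).1]

lemma dm_le {δ m : ℝ} (h0 : 0 ≤ δ) (h1 : δ ≤ 1 / 2) (hm : |m| ≤ 1) : |δ * m| ≤ 1 / 2 := by
  rw [abs_mul, abs_of_nonneg h0]
  nlinarith [abs_nonneg m]

lemma phi_bound {δ m : ℝ} (x : I01) (h0 : 0 ≤ δ) (h1 : δ ≤ 1 / 2) (hm : |m| ≤ 1) :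
    |phi δ m x| ≤ 2 * δ := by
  unfold phi
  have hd := den_ge h0 h1 hm (Qc δ m x)
  have he := abs_e_le h0 (Qc δ m x)
  rw [abs_div, abs_of_pos (show 0 < 1 + m * (δ * (2 * ((Qc δ m x : I01) : ℝ) - 1)) by linarith),
    div_le_iff₀ (by linarith)]
  nlinarith

lemma phi_lip {δ m m' : ℝ} (x : I01) (h0 : 0 ≤ δ) (h1 : δ ≤ 1 / 2) (hm : |m| ≤ 1)
    (hm' : |m'| ≤ 1) : |phi δ m x - phi δ m' x| ≤ 16 * δ ^ 2 * |m - m'| := by
  unfold phi
  have hd := den_ge h0 h1 hm (Qc δ m x)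
  have hd' := den_ge h0 h1 hm' (Qc δ m' x)
  have he := abs_e_le h0 (Qc δ m x)
  have he' := abs_e_le h0 (Qc δ m' x)
  have hl := Qc_lip (dm_le h0 h1 hm) (dm_le h0 h1 hm') x x
  rw [sub_self, abs_zero, zero_add, abs_of_nonneg h0] at hl
  set q := ((Qc δ m x : I01) : ℝ)
  set q' := ((Qc δ m' x : I01) : ℝ)
  have hq : |δ * (2 * q - 1) - δ * (2 * q' - 1)| ≤ δ ^ 2 * |m - m'| := by
    have e : δ * (2 * q - 1) - δ * (2 * q' - 1) = 2 * δ * (q - q') := by ring
    rw [e, abs_mul, abs_of_nonneg (by linarith : 0 ≤ 2 * δ)]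
    calc 2 * δ * |q - q'| ≤ 2 * δ * (2 * (δ / 4 * |m - m'|)) :=
          mul_le_mul_of_nonneg_left hl (by linarith)
      _ = δ ^ 2 * |m - m'| := by ring
  set e := δ * (2 * q - 1)
  set e' := δ * (2 * q' - 1)
  have hE : e / (1 + m * e) - e' / (1 + m' * e')
      = ((e - e') + e * e' * (m' - m)) / ((1 + m * e) * (1 + m' * e')) := by
    have h3 : 1 + m * e ≠ 0 := by intro h; rw [h] at hd; norm_num at hd
    have h4 : 1 + m' * e' ≠ 0 := by intro h; rw [h] at hd'; norm_num at hd'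
    rw [div_sub_div _ _ h3 h4]
    congr 1
    ring
  rw [hE, abs_div]
  have hden : 1 / 4 ≤ (1 + m * e) * (1 + m' * e') := by nlinarith
  rw [abs_of_pos (show 0 < (1 + m * e) * (1 + m' * e') by linarith), div_le_iff₀ (by linarith)]
  have hee : |e * e' * (m' - m)| ≤ δ ^ 2 * |m - m'| := by
    rw [abs_mul, abs_mul, abs_sub_comm m' m]
    apply mul_le_mul_of_nonneg_right _ (abs_nonneg _)
    rw [sq]
    exact mul_le_mul he he' (abs_nonneg _) h0
  have hnum : |e - e' + e * e' * (m' - m)| ≤ 2 * (δ ^ 2 * |m - m'|) := by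
    refine (abs_add_le _ _).trans ?_
    linarith
  have hpos : 0 ≤ δ ^ 2 * |m - m'| := by positivity
  nlinarith

lemma measurable_phi : Measurable (fun q : ℝ × ℝ × I01 => phi q.1 q.2.1 q.2.2) := by
  have hQ : Measurable fun q : ℝ × ℝ × I01 => Qc q.1 q.2.1 q.2.2 := by
    unfold Qc
    refine continuous_projIcc.measurable.comp ?_
    fun_prop
  unfold phi
  have hQ' : Measurable fun q : ℝ × ℝ × I01 => ((Qc q.1 q.2.1 q.2.2 : I01) : ℝ) :=
    measurable_subtype_coe.comp hQ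
  fun_prop

lemma integral_phi {δ m : ℝ} (h0 : 0 ≤ δ) (h1 : δ ≤ 1 / 2) (hm : |m| ≤ 1) :
    ∫ x : I01, phi δ m x = 0 := by
  have hdm := dm_le h0 h1 hm
  have hF : Measurable (Fc δ m) := (measurable_Fc δ).comp (measurable_const.prodMk measurable_id)
  have hmp : Measurable fun x : I01 => phi δ m x :=
    measurable_phi.comp (measurable_const.prodMk (measurable_const.prodMk measurable_id))
  rw [← map_Fc hdm, integral_map hF.aemeasurable hmp.aestronglyMeasurable]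
  have hnn : ∀ t : I01, 0 ≤ 1 + δ * m * (2 * (t : ℝ) - 1) := fun t =>
    dens_nonneg hdm t.2.1 t.2.2
  have hw : ∫ t : I01, phi δ m (Fc δ m t) ∂((volume : Measure I01).withDensity
        fun t => ENNReal.ofReal (1 + δ * m * (2 * (t : ℝ) - 1)))
      = ∫ t : I01, (1 + δ * m * (2 * (t : ℝ) - 1)) * phi δ m (Fc δ m t) := by
    rw [integral_withDensity_eq_integral_toReal_smul (by fun_prop) (by simp)]
    refine integral_congr_ae (Eventually.of_forall fun t => ?_)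
    simp only [smul_eq_mul]
    rw [ENNReal.toReal_ofReal (hnn t)]
  rw [hw]
  have hc : ∀ t : I01, (1 + δ * m * (2 * (t : ℝ) - 1)) * phi δ m (Fc δ m t)
      = (1 + δ * (2 * (t : ℝ) - 1)) - (1 + 0 * (2 * (t : ℝ) - 1)) := by
    intro t
    unfold phi
    rw [Qc_Fc hdm]
    have hd := den_ge h0 h1 hm t
    have hne : 1 + m * (δ * (2 * (t : ℝ) - 1)) ≠ 0 := by
      intro h; rw [h] at hd; norm_num at hd
    have e1 : 1 + δ * m * (2 * (t : ℝ) - 1) = 1 + m * (δ * (2 * (t : ℝ) - 1)) := by ring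
    rw [e1, mul_div_cancel₀ _ hne]
    ring
  rw [integral_congr_ae (Eventually.of_forall hc), integral_sub, integral_lin, integral_lin, sub_self]
  · exact Continuous.integrable_of_hasCompactSupport (by fun_prop) (HasCompactSupport.of_compactSpace _)
  · exact Continuous.integrable_of_hasCompactSupport (by fun_prop) (HasCompactSupport.of_compactSpace _)

end PHIaux

theorem phi_mod : S_PHI :=
  ⟨fun _ _ x h0 h1 hm => PHIaux.phi_bound x h0 h1 hm,
    fun _ _ _ x h0 h1 hm hm' => PHIaux.phi_lip x h0 h1 hm hm',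
    fun _ _ h0 h1 hm => PHIaux.integral_phi h0 h1 hm,
    PHIaux.measurable_phi⟩

end Vale.Agent.P161C
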