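import Vale.Agent.P161C.Plan
import Vale.Agent.P161C.Alg
import Vale.Agent.P161.IsingInf

/-!
# PFIN, part 2: belief propagation computes the magnetisation of a finite tilt
-/

namespace Vale.Agent.P161C

open MeasureTheory Vale.Agent.P161 Filter Topology

universe u

variable {V : Type u} {G : SimpleGraph V} {d : ℕ} {θ : ℝ}

/-- two neighbours of `u` towards `w` are equal -/
theorem closer_unique (hG : G.IsTree) {u c c' w : V} (hc : G.Adj u c) (hc' : G.Adj u c')
    (h : w ∈ side G c u) (h' : w ∈ side G c' u) : c = c' := by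
  have h1 : G.dist u w = G.dist c w + 1 := h
  have h2 : G.dist u w = G.dist c' w + 1 := h'
  have e1 := SimpleGraph.dist_eq_one_iff_adj.2 hc
  have e2 := SimpleGraph.dist_eq_one_iff_adj.2 hc'
  exact geo_unique hG (v := u) (w := w) (by omega) (by omega) (by omega)

/-- a vertex behind `c` is on the side of `u`, seen from another neighbour `q` -/
theorem mem_side_of_mem_side (hG : G.IsTree) {u c q w : V} (hc : G.Adj u c) (hq : G.Adj u q)
    (hcq : c ≠ q) (h : w ∈ side G c u) : w ∈ side G u q := by
  rcases mem_side_or hG hq w with h1 | h1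
  · exact h1
  · exact absurd (closer_unique hG hc hq h h1) hcq

open Classical in
/-- the weight of the part of the tree seen by `msg n y u p` -/
noncomputable def wt (G : SimpleGraph V) : ℕ → (V → ℝ) → V → V → (V → Bool) → ℝ
  | 0, y, u, _, σ => Real.exp (y u * sp (σ u))
  | n + 1, y, u, p, σ => Real.exp (y u * sp (σ u)) * ∏ c ∈ (nb G u).erase p, wt G n y c u σ

open Classical in
/-- the vertices seen by `msg n y u p` -/
noncomputable def Rg (G : SimpleGraph V) : ℕ → V → V → Finset V
  | 0, u, _ => {u}
  | n + 1, u, p => insert u (((nb G u).erase p).biUnion fun c => Rg G n c u)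

open Classical in
theorem mem_Rg (h : Crit G d θ) (n : ℕ) : ∀ (u p w : V), (u = p ∨ G.Adj u p) →
    (w ∈ Rg G n u p ↔ G.dist u w ≤ n ∧ (u = p ∨ w ∈ side G u p)) := by
  have hG := h.tree
  induction n with
  | zero =>
    intro u p w hup
    rw [Rg, Finset.mem_singleton]
    constructor
    · rintro rfl
      refine ⟨by simp, ?_⟩
      rcases hup with h1 | h1
      · exact Or.inl h1
      · exact Or.inr (self_mem_side h1)
    · rintro ⟨h1, _⟩
      exact (hG.connected.dist_eq_zero_iff.1 (Nat.le_zero.1 h1)).symm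
  | succ n ih =>
    intro u p w hup
    rw [Rg, Finset.mem_insert, Finset.mem_biUnion]
    constructor
    · rintro (rfl | ⟨c, hc, hw⟩)
      · refine ⟨by simp, ?_⟩
        rcases hup with h1 | h1
        · exact Or.inl h1
        · exact Or.inr (self_mem_side h1)
      · rw [Finset.mem_erase, mem_nb h] at hc
        obtain ⟨hcp, hc⟩ := hc
        obtain ⟨h1, h2⟩ := (ih c u w (Or.inr hc.symm)).1 hw
        have h3 : w ∈ side G c u := by
          rcases h2 with h2 | h2
          · exact absurd h2 (hc.ne')
          · exact h2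
        have h4 : G.dist u w = G.dist c w + 1 := h3
        refine ⟨by omega, ?_⟩
        rcases hup with h5 | h5
        · exact Or.inl h5
        · exact Or.inr (mem_side_of_mem_side hG hc h5 hcp h3)
    · rintro ⟨h1, h2⟩
      by_cases huw : w = u
      · exact Or.inl huw
      · right
        have hpos : G.dist u w ≠ 0 := fun h0 => huw (hG.connected.dist_eq_zero_iff.1 h0).symm
        obtain ⟨m, hm⟩ : ∃ m, G.dist u w = m + 1 := ⟨G.dist u w - 1, by omega⟩
        obtain ⟨c, hc, hcw⟩ := exists_closer hG.connected hm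
        refine ⟨c, ?_, ?_⟩
        · rw [Finset.mem_erase, mem_nb h]
          refine ⟨?_, hc⟩
          rintro rfl
          rcases h2 with h2 | h2
          · exact hc.ne h2
          · have h3 : G.dist c w = G.dist u w + 1 := h2
            omega
        · rw [ih c u w (Or.inr hc.symm)]
          refine ⟨by omega, Or.inr ?_⟩
          change G.dist u w = G.dist c w + 1
          omega

open Classical in
theorem Rg_child_side (h : Crit G d θ) {n : ℕ} {u c w : V} (hc : G.Adj u c)
    (hw : w ∈ Rg G n c u) : w ∈ side G c u := by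
  rcases ((mem_Rg h n c u w (Or.inr hc.symm)).1 hw).2 with h2 | h2
  · exact absurd h2 (hc.ne')
  · exact h2

theorem wt_congr (y : V → ℝ) (n : ℕ) : ∀ (u p : V) (σ σ' : V → Bool),
    (∀ w ∈ Rg G n u p, σ w = σ' w) → wt G n y u p σ = wt G n y u p σ' := by
  classical
  induction n with
  | zero =>
    intro u p σ σ' hσ
    rw [wt, wt, hσ u (by rw [Rg]; simp)]
  | succ n ih =>
    intro u p σ σ' hσ
    rw [wt, wt, hσ u (by rw [Rg]; simp)]
    congr 1
    apply Finset.prod_congr rfl
    intro c hc
    apply ih
    intro w hw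
    apply hσ
    rw [Rg, Finset.mem_insert, Finset.mem_biUnion]
    exact Or.inr ⟨c, hc, hw⟩

theorem wt_eq_exp (h : Crit G d θ) (y : V → ℝ) (σ : V → Bool) (n : ℕ) : ∀ (u p : V),
    wt G n y u p σ = Real.exp (∑ w ∈ Rg G n u p, y w * sp (σ w)) := by
  classical
  induction n with
  | zero =>
    intro u p
    rw [wt, Rg, Finset.sum_singleton]
  | succ n ih =>
    intro u p
    rw [wt, Rg, Finset.sum_insert, Real.exp_add, Finset.sum_biUnion, Real.exp_sum]
    · congr 1
      apply Finset.prod_congr rfl
      intro c _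
      exact ih c u
    · intro c hc c' hc' hne
      rw [Finset.mem_coe, Finset.mem_erase, mem_nb h] at hc hc'
      apply Finset.disjoint_left.2
      intro w hw hw'
      exact hne (closer_unique h.tree hc.2 hc'.2 (Rg_child_side h hc.2 hw)
        (Rg_child_side h hc'.2 hw'))
    · intro hu
      rw [Finset.mem_biUnion] at hu
      obtain ⟨c, hc, hw⟩ := hu
      rw [Finset.mem_erase, mem_nb h] at hc
      have h1 : G.dist u u = G.dist c u + 1 := Rg_child_side h hc.2 hw
      rw [G.dist_self] at h1
      omega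

/-- one-site law -/
theorem integral_site {μ : Measure (V → Bool)} [IsProbabilityMeasure μ] (h : Crit G d θ)
    (hμ : IsFreeIsing G θ μ) (u : V) (f : Bool → ℝ) :
    ∫ σ, f (σ u) ∂μ = (f true + f false) / 2 := by
  classical
  have hf : ∀ σ : V → Bool, f (σ u) = (f true + f false) / 2
      + ((f true - f false) / 2) * sp (σ u) := by
    intro σ
    cases σ u <;> simp [sp] <;> ring
  have hi : Integrable (fun σ : V → Bool => sp (σ u)) μ :=
    integrable_of_bdd (measurable_sp_comp (measurable_pi_apply u)) (B := 1)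
      (fun σ => (abs_sp _).le)
  simp only [hf]
  rw [integral_add (integrable_const _) (hi.const_mul _), integral_const_mul]
  have hz : ∫ σ : V → Bool, sp (σ u) ∂μ = 0 := by
    have h0 := h.pos.le
    have h1 := h.lt_one.le
    have key : ∀ b : Bool, ∫ σ, cyl {u} (fun _ => b) σ ∂μ = 1 / 2 := by
      intro b
      rw [integral_cyl hμ h0 h1 (connected_singleton G u)]
      unfold PD
      have : (({u} : Finset V).sym2.filter fun e => e ∈ G.edgeSet) = ∅ := by
        apply Finset.filter_eq_empty_iff.2
        intro e he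
        rw [Finset.sym2_singleton, Finset.mem_singleton] at he
        subst he
        simp
      rw [this]
      simp
    have e1 : ∀ σ : V → Bool, sp (σ u) = cyl {u} (fun _ => true) σ - cyl {u} (fun _ => false) σ := by
      intro σ
      unfold cyl
      cases hσ : σ u <;> simp [sp, hσ]
    simp only [e1]
    rw [integral_sub (integrable_cyl _ _) (integrable_cyl _ _), key, key, sub_self]
  rw [hz]
  simp

theorem sp_mul_self (b : Bool) : sp b * sp b = 1 := by cases b <;> simp [sp]

/-- adding one branch -/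
theorem bp_edge {μ : Measure (V → Bool)} [IsProbabilityMeasure μ] (h : Crit G d θ)
    (hμ : IsFreeIsing G θ μ) {u c : V} (hc : G.Adj u c) {A B : Finset V}
    (hA : ∀ w ∈ A, w ∈ side G u c) (hB : ∀ w ∈ B, w ∈ side G c u) {F H : (V → Bool) → ℝ}
    (hF : ∀ σ σ', (∀ v ∈ A, σ v = σ' v) → F σ = F σ')
    (hH : ∀ σ σ', (∀ v ∈ B, σ v = σ' v) → H σ = H σ') {a l : ℝ}
    (ha : ∫ σ, sp (σ u) * F σ ∂μ = Real.tanh a * ∫ σ, F σ ∂μ)
    (hl : ∫ σ, sp (σ c) * H σ ∂μ = Real.tanh l * ∫ σ, H σ ∂μ) :
    ∫ σ, sp (σ u) * (F σ * H σ) ∂μ = Real.tanh (a + ff θ l) * ∫ σ, F σ * H σ ∂μ := by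
  classical
  have h0 := h.pos
  have h1 := h.lt_one
  obtain ⟨A', hAA, huA, hA', hAc⟩ := exists_conn h.tree hc A hA
  obtain ⟨B', hBB, hcB, hB', hBc⟩ := exists_conn h.tree hc.symm B hB
  have hF' : ∀ σ σ', (∀ v ∈ A', σ v = σ' v) → F σ = F σ' := fun σ σ' hσ =>
    hF σ σ' fun v hv => hσ v (hAA hv)
  have hH' : ∀ σ σ', (∀ v ∈ B', σ v = σ' v) → H σ = H σ' := fun σ σ' hσ =>
    hH σ σ' fun v hv => hσ v (hBB hv)
  have e1 := markov h.tree hμ h0.le h1.le hc hA' hB' huA hcB hAc hBc hF' hH'
  have e2 := markov h.tree hμ h0.le h1.le hc hA' hB' huA hcB hAc hBc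
    (F := fun σ => sp (σ u) * F σ)
    (fun σ σ' hσ => by rw [hF' σ σ' hσ, hσ u huA]) hH'
  have e3 : ∀ σ : V → Bool, sp (σ u) * F σ * sp (σ u) = F σ := by
    intro σ
    calc _ = sp (σ u) * sp (σ u) * F σ := by ring
      _ = F σ := by rw [sp_mul_self, one_mul]
  have e4 : ∀ σ : V → Bool, F σ * sp (σ u) = sp (σ u) * F σ := fun σ => mul_comm _ _
  have e5 : ∀ σ : V → Bool, sp (σ u) * (F σ * H σ) = sp (σ u) * F σ * H σ := fun σ => by ring
  simp only [e3] at e2
  simp only [e4] at e1
  simp only [e5]
  rw [e1, e2, ha, hl, tanh_add', tanh_ff h0 h1]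
  have hden : 1 + Real.tanh a * (θ * Real.tanh l) ≠ 0 := by
    have := den_pos h0 h1 (lt_tanh a) (tanh_lt a) (lt_tanh l) (tanh_lt l)
    have e : 1 + Real.tanh a * (θ * Real.tanh l) = 1 + θ * Real.tanh a * Real.tanh l := by ring
    rw [e]
    exact this.ne'
  rw [div_mul_eq_mul_div, eq_div_iff hden]
  ring

theorem bp_tanh {μ : Measure (V → Bool)} [IsProbabilityMeasure μ] (h : Crit G d θ)
    (hμ : IsFreeIsing G θ μ) (y : V → ℝ) (n : ℕ) : ∀ (u p : V),
    ∫ σ, sp (σ u) * wt G n y u p σ ∂μ
      = Real.tanh (msg G θ n y u p) * ∫ σ, wt G n y u p σ ∂μ := by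
  classical
  have hzero : ∀ u : V, ∫ σ : V → Bool, sp (σ u) * Real.exp (y u * sp (σ u)) ∂μ
      = Real.tanh (y u) * ∫ σ : V → Bool, Real.exp (y u * sp (σ u)) ∂μ := by
    intro u
    rw [integral_site h hμ u (fun b => sp b * Real.exp (y u * sp b)),
      integral_site h hμ u (fun b => Real.exp (y u * sp b))]
    have hc := Real.cosh_pos (y u)
    simp only [sp, if_true, Bool.false_eq_true, if_false, mul_one, mul_neg, one_mul, neg_mul]
    have e1 : (Real.exp (y u) + -Real.exp (-(y u))) / 2 = Real.sinh (y u) := by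
      rw [Real.sinh_eq]; ring
    rw [e1, ← Real.cosh_eq, Real.tanh_eq_sinh_div_cosh, div_mul_cancel₀ _ hc.ne']
  induction n with
  | zero =>
    intro u p
    simp only [wt, msg]
    exact hzero u
  | succ n ih =>
    intro u p
    have key : ∀ C : Finset V, (∀ c ∈ C, G.Adj u c) →
        ∫ σ, sp (σ u) * (Real.exp (y u * sp (σ u)) * ∏ c ∈ C, wt G n y c u σ) ∂μ
          = Real.tanh (y u + ∑ c ∈ C, ff θ (msg G θ n y c u))
            * ∫ σ, Real.exp (y u * sp (σ u)) * ∏ c ∈ C, wt G n y c u σ ∂μ := by
      intro C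
      induction C using Finset.induction_on with
      | empty =>
        intro _
        simpa using hzero u
      | insert c C hcC ihC =>
        intro hC
        have hadj : G.Adj u c := hC c (Finset.mem_insert_self _ _)
        have hC' : ∀ c' ∈ C, G.Adj u c' := fun c' hc' => hC c' (Finset.mem_insert_of_mem hc')
        have hstep := bp_edge h hμ hadj (A := insert u (C.biUnion fun c' => Rg G n c' u))
          (B := Rg G n c u) (F := fun σ => Real.exp (y u * sp (σ u)) * ∏ c' ∈ C, wt G n y c' u σ)
          (H := fun σ => wt G n y c u σ)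
          (a := y u + ∑ c' ∈ C, ff θ (msg G θ n y c' u)) (l := msg G θ n y c u)
          (by
            intro w hw
            rcases Finset.mem_insert.1 hw with rfl | hw
            · exact self_mem_side hadj
            · obtain ⟨c', hc', hw'⟩ := Finset.mem_biUnion.1 hw
              exact mem_side_of_mem_side h.tree (hC' c' hc') hadj
                (fun e => hcC (e ▸ hc')) (Rg_child_side h (hC' c' hc') hw'))
          (fun w hw => Rg_child_side h hadj hw)
          (by
            intro σ σ' hσ
            rw [hσ u (Finset.mem_insert_self _ _)]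
            congr 1
            apply Finset.prod_congr rfl
            intro c' hc'
            apply wt_congr
            intro w hw
            apply hσ
            exact Finset.mem_insert_of_mem (Finset.mem_biUnion.2 ⟨c', hc', hw⟩))
          (fun σ σ' hσ => wt_congr y n c u σ σ' hσ)
          (ihC hC') (ih c u)
        have e1 : ∀ σ : V → Bool, Real.exp (y u * sp (σ u)) * ∏ c' ∈ insert c C, wt G n y c' u σ
            = (Real.exp (y u * sp (σ u)) * ∏ c' ∈ C, wt G n y c' u σ) * wt G n y c u σ := by
          intro σ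
          rw [Finset.prod_insert hcC]
          ring
        simp only [e1]
        rw [hstep, Finset.sum_insert hcC]
        congr 2
        ring
    have := key ((nb G u).erase p) (fun c hc => (mem_nb h u c).1 (Finset.mem_of_mem_erase hc))
    simp only [wt, msg]
    exact this

end Vale.Agent.P161C
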