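import Vale.Agent.P161C.PfinLaw
import Vale.Agent.P161C.PfinBP

/-!
# PFIN: BP computes the posterior mean for finitely many observations
-/

namespace Vale.Agent.P161C

open MeasureTheory Vale.Agent.P161 Filter Topology

universe u

variable {V : Type u} {G : SimpleGraph V} {d : ℕ} {θ : ℝ}

/-- the centred observation, as a function of the observations -/
noncomputable def ex (U x : V × ℕ → I01) (k : V × ℕ) : ℝ := dl (U k) * (2 * (x k : ℝ) - 1)

open Classical in
/-- the field as a function of the observations -/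
noncomputable def yx (J : ℕ) (A : Finset (V × ℕ)) (U x : V × ℕ → I01) (w : V) : ℝ :=
  ∑ j ∈ Finset.range J, if (w, j) ∈ A then at' (ex U x (w, j)) else 0

theorem fld_eq_yx (J : ℕ) (A : Finset (V × ℕ)) (ω : Om V) :
    fld J (A : Set (V × ℕ)) ω = yx J A ω.2.1 (obs ω) := by
  funext w
  unfold fld yx ep ex
  apply Finset.sum_congr rfl
  intro j _
  by_cases hj : (w, j) ∈ A
  · rw [if_pos (Finset.mem_coe.2 hj), if_pos hj]
  · rw [if_neg (fun h => hj (Finset.mem_coe.1 h)), if_neg hj]

theorem abs_ex_le (U x : V × ℕ → I01) (k : V × ℕ) : |ex U x k| ≤ 1 / 2 := by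
  unfold ex
  rw [abs_mul, abs_of_nonneg (dl_nonneg _)]
  have h1 : |2 * (x k : ℝ) - 1| ≤ 1 := by
    rw [abs_le]; constructor <;> linarith [(x k).2.1, (x k).2.2]
  have h2 := dl_le_half (U k)
  have h3 := dl_nonneg (U k)
  nlinarith [abs_nonneg (2 * (x k : ℝ) - 1)]

theorem one_add_tanh_mul (ψ : ℝ) (b : Bool) :
    1 + Real.tanh ψ * sp b = (Real.cosh ψ)⁻¹ * Real.exp (ψ * sp b) := by
  have hc := Real.cosh_pos ψ
  rw [Real.tanh_eq_sinh_div_cosh]
  cases b
  · simp only [sp, Bool.false_eq_true, if_false, mul_neg, mul_one]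
    rw [← Real.cosh_sub_sinh]
    field_simp
    ring
  · simp only [sp, if_true, mul_one]
    rw [← Real.cosh_add_sinh]
    field_simp

theorem fac_eq_exp (U x : V × ℕ → I01) (σ : V → Bool) (k : V × ℕ) :
    fac (dl (U k)) (σ k.1) (x k)
      = (Real.cosh (at' (ex U x k)))⁻¹ * Real.exp (at' (ex U x k) * sp (σ k.1)) := by
  have h := abs_le.1 (abs_ex_le U x k)
  rw [← one_add_tanh_mul, tanh_at' (by linarith [h.1]) (by linarith [h.2]), fac_eq, ex]
  ring

open Classical in
theorem sum_events (J : ℕ) (A : Finset (V × ℕ)) (R : Finset V)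
    (hA : ∀ k ∈ A, k.1 ∈ R ∧ k.2 < J) (U x : V × ℕ → I01) (σ : V → Bool) :
    ∑ k ∈ A, at' (ex U x k) * sp (σ k.1) = ∑ w ∈ R, yx J A U x w * sp (σ w) := by
  have e1 : ∀ w ∈ R, yx J A U x w * sp (σ w)
      = ∑ j ∈ Finset.range J, if (w, j) ∈ A then at' (ex U x (w, j)) * sp (σ w) else 0 := by
    intro w _
    unfold yx
    rw [Finset.sum_mul]
    apply Finset.sum_congr rfl
    intro j _
    split_ifs <;> simp
  rw [Finset.sum_congr rfl e1, ← Finset.sum_product'
    (f := fun w j => if (w, j) ∈ A then at' (ex U x (w, j)) * sp (σ w) else 0)]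
  have e2 : ∑ k ∈ R ×ˢ Finset.range J,
      (if (k.1, k.2) ∈ A then at' (ex U x (k.1, k.2)) * sp (σ k.1) else 0)
      = ∑ k ∈ (R ×ˢ Finset.range J).filter (· ∈ A), at' (ex U x k) * sp (σ k.1) := by
    rw [Finset.sum_filter]
  rw [e2]
  apply Finset.sum_congr _ fun _ _ => rfl
  ext k
  rw [Finset.mem_filter, Finset.mem_product, Finset.mem_range]
  constructor
  · intro hk
    exact ⟨hA k hk, hk⟩
  · exact fun hk => hk.2

theorem WU_eq (h : Crit G d θ) (J n : ℕ) (A : Finset (V × ℕ)) (u q : V)
    (hA : ∀ k ∈ A, k.1 ∈ Rg G n u q ∧ k.2 < J) (U x : V × ℕ → I01) (σ : V → Bool) :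
    WU U A σ x = (∏ k ∈ A, (Real.cosh (at' (ex U x k)))⁻¹) * wt G n (yx J A U x) u q σ := by
  rw [wt_eq_exp h, ← sum_events J A _ hA U x σ, Real.exp_sum, ← Finset.prod_mul_distrib]
  unfold WU
  exact Finset.prod_congr rfl fun k _ => fac_eq_exp U x σ k

theorem measurable_at' : Measurable at' := by
  unfold at'
  fun_prop

theorem measurable_tanh' : Measurable Real.tanh := by
  have : Real.tanh = fun x => Real.sinh x / Real.cosh x := by
    funext x; exact Real.tanh_eq_sinh_div_cosh x
  rw [this]
  exact Real.measurable_sinh.div Real.measurable_cosh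

theorem measurable_yx (J : ℕ) (A : Finset (V × ℕ)) (U : V × ℕ → I01) (w : V) :
    Measurable fun x => yx J A U x w := by
  unfold yx
  refine Finset.measurable_fun_sum _ fun j _ => ?_
  by_cases hj : (w, j) ∈ A
  · simp only [hj, if_true]
    refine measurable_at'.comp ?_
    unfold ex
    fun_prop
  · simp only [hj, if_false]
    exact measurable_const

theorem measurable_msg' {α : Type*} [MeasurableSpace α] (G : SimpleGraph V) (θ : ℝ)
    {y : α → V → ℝ} (hy : ∀ w, Measurable fun a => y a w) (n : ℕ) :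
    ∀ u p, Measurable fun a => msg G θ n (y a) u p := by
  induction n with
  | zero =>
    intro u p
    simp only [msg]
    exact hy u
  | succ n ih =>
    intro u p
    simp only [msg]
    apply (hy u).add
    refine Finset.measurable_fun_sum _ fun c _ => ?_
    unfold ff
    exact measurable_at'.comp ((measurable_tanh'.comp (ih c u)).const_mul θ)

theorem measurable_obs_pair (U : V × ℕ → I01) :
    Measurable fun p : (V → Bool) × (V × ℕ → I01) => obs (p.1, (U, p.2)) := by
  rw [measurable_pi_iff]
  intro k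
  simp only [obs_eq]
  have : Measurable fun q : Bool × I01 => ob1 (dl (U k)) q.1 q.2 :=
    measurable_from_prod_countable_right fun b => measurable_ob1 _ b
  have h2 : Measurable fun p : (V → Bool) × (V × ℕ → I01) => ((p.1 k.1, p.2 k) : Bool × I01) :=
    ((measurable_pi_apply k.1).comp measurable_fst).prodMk
      ((measurable_pi_apply k).comp measurable_snd)
  exact this.comp h2

theorem pfin : S_PFIN.{u} := by
  classical
  intro V G d θ h μ hμ U J n A u q hA hq Z B hZ hB hdep
  have : Nonempty V := ⟨u⟩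
  have := isProb_of_isFreeIsing hμ
  have hq' : u = q ∨ G.Adj u q := by
    rcases hq with h1 | h1
    · exact Or.inl h1
    · exact Or.inr h1.1
  have hR : ∀ k ∈ A, k.1 ∈ Rg G n u q ∧ k.2 < J := by
    intro k hk
    refine ⟨(mem_Rg h n u q k.1 hq').2 ⟨(hA k hk).2, ?_⟩, (hA k hk).1⟩
    rcases hq with h1 | h1
    · exact Or.inl h1
    · exact Or.inr (h1.2 k hk)
  obtain ⟨t, ht⟩ : ∃ t : (V × ℕ → I01) → ℝ, ∀ x, t x = Real.tanh (msg G θ n (yx J A U x) u q) :=
    ⟨_, fun _ => rfl⟩
  have htm : Measurable t := by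
    have : t = fun x => Real.tanh (msg G θ n (yx J A U x) u q) := funext ht
    rw [this]
    exact measurable_tanh'.comp (measurable_msg' G θ (measurable_yx J A U) n u q)
  have htb : ∀ x, |t x| ≤ 1 := by
    intro x
    rw [ht]
    exact (Real.abs_tanh_lt_one _).le
  have hB0 : 0 ≤ B := (abs_nonneg _).trans (hB fun _ => 0)
  have hbd : ∀ (σ : V → Bool) (x : V × ℕ → I01), |(sp (σ u) - t x) * Z x| ≤ 2 * B := by
    intro σ x
    rw [abs_mul]
    have : |sp (σ u) - t x| ≤ 2 := by
      refine (abs_sub _ _).trans ?_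
      rw [abs_sp]
      linarith [htb x]
    exact mul_le_mul this (hB x) (abs_nonneg _) (by norm_num)
  have hmeas : Measurable fun p : (V → Bool) × (V × ℕ → I01) => (sp (p.1 u) - t p.2) * Z p.2 :=
    ((measurable_sp_comp ((measurable_pi_apply u).comp measurable_fst)).sub
      (htm.comp measurable_snd)).mul (hZ.comp measurable_snd)
  have hobs := measurable_obs_pair (V := V) U
  have e0 : ∀ p : (V → Bool) × (V × ℕ → I01),
      (sp (p.1 u) - Real.tanh (msg G θ n (fld J (A : Set (V × ℕ)) (p.1, (U, p.2))) u q))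
        * Z (obs (p.1, (U, p.2)))
      = (sp (p.1 u) - t (obs (p.1, (U, p.2)))) * Z (obs (p.1, (U, p.2))) := by
    intro p
    rw [ht, fld_eq_yx]
  simp only [e0]
  rw [integral_prod (fun p : (V → Bool) × (V × ℕ → I01) =>
    (sp (p.1 u) - t (obs (p.1, (U, p.2)))) * Z (obs (p.1, (U, p.2))))
    (integrable_of_bdd (hmeas.comp (measurable_fst.prodMk hobs)) (B := 2 * B)
      fun p => hbd p.1 _)]
  have e1 : ∀ σ : V → Bool, ∫ N, (sp (σ u) - t (obs (σ, (U, N)))) * Z (obs (σ, (U, N))) ∂(lam V)
      = ∫ x, (sp (σ u) - t x) * Z x * WU U A σ x ∂(lam V) := by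
    intro σ
    apply integral_obs U σ A (Φ := fun x => (sp (σ u) - t x) * Z x) (B := 2 * B)
    · exact hmeas.comp (measurable_const.prodMk measurable_id)
    · exact hbd σ
    · intro x x' hx
      have e2 : yx J A U x = yx J A U x' := by
        funext w
        unfold yx ex
        apply Finset.sum_congr rfl
        intro j _
        split_ifs with hj
        · rw [hx _ hj]
        · rfl
      rw [hdep x x' hx, ht, ht, e2]
  simp only [e1]
  rw [integral_integral_swap]
  · have e2 : ∀ x : V × ℕ → I01, ∫ σ, (sp (σ u) - t x) * Z x * WU U A σ x ∂μ = 0 := by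
      intro x
      have e3 : ∀ σ : V → Bool, (sp (σ u) - t x) * Z x * WU U A σ x
          = (Z x * ∏ k ∈ A, (Real.cosh (at' (ex U x k)))⁻¹)
            * (sp (σ u) * wt G n (yx J A U x) u q σ - t x * wt G n (yx J A U x) u q σ) := by
        intro σ
        rw [WU_eq h J n A u q hR]
        ring
      simp only [e3]
      rw [integral_const_mul]
      have hwt : Measurable fun σ : V → Bool => wt G n (yx J A U x) u q σ := by
        simp only [wt_eq_exp h]
        apply Real.measurable_exp.comp
        refine Finset.measurable_fun_sum _ fun w _ => ?_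
        exact (measurable_sp_comp (measurable_pi_apply w)).const_mul _
      have hwb : ∀ σ : V → Bool, |wt G n (yx J A U x) u q σ|
          ≤ Real.exp (∑ w ∈ Rg G n u q, |yx J A U x w|) := by
        intro σ
        rw [wt_eq_exp h, Real.abs_exp, Real.exp_le_exp]
        apply Finset.sum_le_sum
        intro w _
        refine (le_abs_self _).trans ?_
        rw [abs_mul, abs_sp, mul_one]
      have hi1 : Integrable (fun σ : V → Bool => wt G n (yx J A U x) u q σ) μ :=
        integrable_of_bdd hwt hwb
      have hi2 : Integrable (fun σ : V → Bool => sp (σ u) * wt G n (yx J A U x) u q σ) μ := by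
        apply integrable_of_bdd ((measurable_sp_comp (measurable_pi_apply u)).mul hwt)
          (B := Real.exp (∑ w ∈ Rg G n u q, |yx J A U x w|))
        intro σ
        simp only [Pi.mul_apply]
        rw [abs_mul, abs_sp, one_mul]
        exact hwb σ
      rw [integral_sub hi2 (hi1.const_mul _), integral_const_mul, bp_tanh h hμ, ht, sub_self,
        mul_zero]
    simp only [e2]
    simp
  · apply integrable_of_bdd (B := 2 * B * (3 / 2) ^ A.card)
    · exact hmeas.mul (measurable_WU U A)
    · intro p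
      simp only [Function.uncurry]
      rw [abs_mul, abs_of_pos (WU_pos U A p.1 p.2)]
      exact mul_le_mul (hbd p.1 p.2) (WU_le U A p.1 p.2) (WU_pos U A p.1 p.2).le (by positivity)

end Vale.Agent.P161C
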