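import Vale.Agent.P161C.Plan

namespace Vale.Agent.P161C

open MeasureTheory Vale.Agent.P161 Filter Topology

universe u

theorem si (h1 : S_SIQ.{u}) (h2 : S_SIS.{u}) : S_SI.{u} := by
  intro V G d θ hC T
  obtain ⟨C1, Cq, hC1, hCq, H1⟩ := h1 hC T
  obtain ⟨C2, hC2, H2⟩ := h2 hC T
  have hnonneg_err : ∀ N, 0 ≤ err N := fun N => tsum_nonneg fun n => by positivity
  refine ⟨max C1 C2, Cq, lt_max_of_lt_left hC1, hCq, ?_⟩
  intro μ hμ s hs hsT 𝒢 hG o
  have hne : (G.neighborSet o).Nonempty := by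
    apply Set.nonempty_of_ncard_ne_zero
    rw [hC.reg o]
    have := hC.hd
    omega
  obtain ⟨c, hc⟩ := hne
  have hadj : G.Adj o c := hc
  obtain ⟨hQ0, hQ1, hQ2⟩ := H1 hμ s hs hsT 𝒢 hG o o c hadj
  obtain ⟨At, hAt1, hAt2, hAt3⟩ := H2 hμ s hs hsT 𝒢 hG o o c hadj
  have hh : 0 ≤ Vale.Agent.P161C.hG G θ μ 𝒢 o s := integral_nonneg fun ω => sq_nonneg _
  have hz : 0 < min s 1 := lt_min hs one_pos
  refine ⟨At, QG G θ μ 𝒢 s o c, hAt1, hAt2, hQ0, ?_, ?_, ?_⟩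
  · exact hQ1.trans (mul_le_mul_of_nonneg_right (le_max_left _ _) hh)
  · intro hs1 l q hl hl1 hq
    refine (hQ2 hs1 l q hl hl1 hq).trans (mul_le_mul_of_nonneg_right (le_max_left _ _) ?_)
    have := hCq q
    positivity
  · intro N S
    refine (hAt3 N S).trans (mul_le_mul_of_nonneg_right (le_max_right _ _) ?_)
    have := hnonneg_err N
    positivity

end Vale.Agent.P161C
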