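import Vale.Agent.P161C.Plan

/-!
# P161C, module SIQ: conditional variance of the edge weights
-/

namespace Vale.Agent.P161C

open MeasureTheory Vale.Agent.P161 Filter Topology

universe u

namespace SIQ

section general

variable {Ω : Type*} {𝒢 : MeasurableSpace Ω} {m0 : MeasurableSpace Ω} {P : Measure Ω}
  [IsProbabilityMeasure P]

theorem integrable_of_bdd {f : Ω → ℝ} (hf : AEStronglyMeasurable f P) {B : ℝ}
    (hb : ∀ᵐ ω ∂P, |f ω| ≤ B) : Integrable f P :=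
  Integrable.of_bound hf B (by simpa [Real.norm_eq_abs] using hb)

/-- a bounded `𝒢`-measurable factor can be taken out -/
theorem integral_mul_ce (h𝒢 : 𝒢 ≤ m0) {f W : Ω → ℝ} (hf : Measurable f) {B : ℝ}
    (hfb : ∀ᵐ ω ∂P, |f ω| ≤ B) (hW : StronglyMeasurable[𝒢] W) {B' : ℝ}
    (hWb : ∀ᵐ ω ∂P, |W ω| ≤ B') :
    ∫ ω, W ω * f ω ∂P = ∫ ω, W ω * (P[f | 𝒢]) ω ∂P := by
  have hfi : Integrable f P := integrable_of_bdd hf.aestronglyMeasurable hfb
  have hWm : StronglyMeasurable[m0] W := hW.mono h𝒢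
  have hWf : Integrable (W * f) P := by
    refine integrable_of_bdd (hWm.aestronglyMeasurable.mul hf.aestronglyMeasurable)
      (B := |B'| * |B|) ?_
    filter_upwards [hfb, hWb] with ω h1 h2
    rw [Pi.mul_apply, abs_mul]
    exact mul_le_mul (h2.trans (le_abs_self _)) (h1.trans (le_abs_self _)) (abs_nonneg _)
      (abs_nonneg _)
  have h1 := condExp_mul_of_stronglyMeasurable_left (μ := P) hW hWf hfi
  have h2 : ∫ ω, (P[W * f | 𝒢]) ω ∂P = ∫ ω, (W * f) ω ∂P := integral_condExp h𝒢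
  have h3 : ∫ ω, (P[W * f | 𝒢]) ω ∂P = ∫ ω, (W * P[f | 𝒢]) ω ∂P := integral_congr_ae h1
  rw [h2] at h3
  exact h3

omit [IsProbabilityMeasure P] in
theorem ce_bdd {f : Ω → ℝ} {B : ℝ} (hB : 0 ≤ B) (hfb : ∀ᵐ ω ∂P, |f ω| ≤ B) :
    ∀ᵐ ω ∂P, |(P[f | 𝒢]) ω| ≤ B := by
  have := ae_bdd_condExp_of_ae_bdd (m := 𝒢) (μ := P) (R := ⟨B, hB⟩) (f := f) hfb
  exact this

/-- the conditional expectation is the best approximation -/
theorem ce_best (h𝒢 : 𝒢 ≤ m0) {f Y : Ω → ℝ} (hf : Measurable f) {B : ℝ} (hB : 0 ≤ B)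
    (hfb : ∀ᵐ ω ∂P, |f ω| ≤ B) (hY : StronglyMeasurable[𝒢] Y) {B' : ℝ}
    (hYb : ∀ᵐ ω ∂P, |Y ω| ≤ B') :
    ∫ ω, (f ω - (P[f | 𝒢]) ω) ^ 2 ∂P ≤ ∫ ω, (f ω - Y ω) ^ 2 ∂P := by
  set F := P[f | 𝒢] with hF
  have hFb : ∀ᵐ ω ∂P, |F ω| ≤ B := ce_bdd hB hfb
  have hFm : StronglyMeasurable[𝒢] F := stronglyMeasurable_condExp
  have hW : StronglyMeasurable[𝒢] (fun ω => F ω - Y ω) := hFm.sub hY
  have hWb : ∀ᵐ ω ∂P, |F ω - Y ω| ≤ B + B' := by
    filter_upwards [hFb, hYb] with ω h1 h2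
    exact (abs_sub _ _).trans (add_le_add h1 h2)
  have h1 := integral_mul_ce h𝒢 hf hfb hW hWb
  have hmF : AEStronglyMeasurable F P := (hFm.mono h𝒢).aestronglyMeasurable
  have hmY : AEStronglyMeasurable Y P := (hY.mono h𝒢).aestronglyMeasurable
  have hmf : AEStronglyMeasurable f P := hf.aestronglyMeasurable
  have i1 : Integrable (fun ω => (F ω - Y ω) * f ω) P := by
    refine integrable_of_bdd ((hmF.sub hmY).mul hmf) (B := |B + B'| * |B|) ?_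
    filter_upwards [hfb, hWb] with ω h1 h2
    rw [abs_mul]
    exact mul_le_mul (h2.trans (le_abs_self _)) (h1.trans (le_abs_self _)) (abs_nonneg _)
      (abs_nonneg _)
  have i2 : Integrable (fun ω => (F ω - Y ω) * F ω) P := by
    refine integrable_of_bdd ((hmF.sub hmY).mul hmF) (B := |B + B'| * |B|) ?_
    filter_upwards [hFb, hWb] with ω h1 h2
    rw [abs_mul]
    exact mul_le_mul (h2.trans (le_abs_self _)) (h1.trans (le_abs_self _)) (abs_nonneg _)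
      (abs_nonneg _)
  have i3 : Integrable (fun ω => (f ω - F ω) ^ 2) P := by
    refine integrable_of_bdd ((hmf.sub hmF).pow 2) (B := (B + B) ^ 2) ?_
    filter_upwards [hfb, hFb] with ω h1 h2
    rw [abs_pow]
    exact pow_le_pow_left₀ (abs_nonneg _) ((abs_sub _ _).trans (add_le_add h1 h2)) 2
  have i4 : Integrable (fun ω => (F ω - Y ω) ^ 2) P := by
    refine integrable_of_bdd ((hmF.sub hmY).pow 2) (B := (B + B') ^ 2) ?_
    filter_upwards [hWb] with ω h1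
    rw [abs_pow]
    exact pow_le_pow_left₀ (abs_nonneg _) h1 2
  have e : ∀ ω, (f ω - Y ω) ^ 2
      = ((f ω - F ω) ^ 2 + (F ω - Y ω) ^ 2) + 2 * ((F ω - Y ω) * f ω - (F ω - Y ω) * F ω) := by
    intro ω; ring
  have h2 : ∫ ω, (f ω - Y ω) ^ 2 ∂P
      = (∫ ω, (f ω - F ω) ^ 2 ∂P + ∫ ω, (F ω - Y ω) ^ 2 ∂P)
        + 2 * (∫ ω, (F ω - Y ω) * f ω ∂P - ∫ ω, (F ω - Y ω) * F ω ∂P) := by
    have j1 : Integrable (fun ω => (f ω - F ω) ^ 2 + (F ω - Y ω) ^ 2) P := i3.add i4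
    have j2 : Integrable (fun ω => 2 * ((F ω - Y ω) * f ω - (F ω - Y ω) * F ω)) P :=
      (i1.sub i2).const_mul 2
    rw [← integral_add i3 i4, ← integral_sub i1 i2, ← integral_const_mul,
      ← integral_add j1 j2]
    exact integral_congr_ae (Eventually.of_forall e)
  rw [h2, h1, sub_self, mul_zero, add_zero]
  have h3 : 0 ≤ ∫ ω, (F ω - Y ω) ^ 2 ∂P := integral_nonneg fun ω => sq_nonneg _
  linarith

theorem young {a b : ℝ} (ha : 0 ≤ a) (hb : 0 ≤ b) (n : ℕ) :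
    a ^ n * b ≤ a ^ (n + 1) / 2 + 2 ^ n * b ^ (n + 1) := by
  rcases le_total b (a / 2) with h | h
  · have h1 : a ^ n * b ≤ a ^ n * (a / 2) := mul_le_mul_of_nonneg_left h (pow_nonneg ha n)
    have h2 : a ^ n * (a / 2) = a ^ (n + 1) / 2 := by rw [pow_succ]; ring
    have h3 : 0 ≤ 2 ^ n * b ^ (n + 1) := by positivity
    linarith
  · have h1 : a ≤ 2 * b := by linarith
    have h2 : a ^ n * b ≤ (2 * b) ^ n * b :=
      mul_le_mul_of_nonneg_right (pow_le_pow_left₀ ha h1 n) hb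
    have h3 : (2 * b) ^ n * b = 2 ^ n * b ^ (n + 1) := by rw [mul_pow, pow_succ]; ring
    have h4 : 0 ≤ a ^ (n + 1) / 2 := by positivity
    linarith

/-- moments of conditional expectations -/
theorem ce_moment {f : Ω → ℝ} (hf : Measurable f)
    (hfb : ∀ᵐ ω ∂P, |f ω| ≤ 1) (n : ℕ) :
    ∫ ω, |(P[f | 𝒢]) ω| ^ (n + 1) ∂P ≤ 2 ^ (n + 1) * ∫ ω, |f ω| ^ (n + 1) ∂P := by
  by_cases h𝒢 : 𝒢 ≤ m0
  swap
  · rw [condExp_of_not_le h𝒢]
    simp only [Pi.zero_apply, abs_zero, ne_eq, Nat.add_eq_zero_iff, one_ne_zero, and_false,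
      not_false_eq_true, zero_pow, integral_zero]
    exact mul_nonneg (by positivity) (integral_nonneg fun ω => by positivity)
  set F := P[f | 𝒢] with hF
  have hFb : ∀ᵐ ω ∂P, |F ω| ≤ 1 := ce_bdd zero_le_one hfb
  have hFm : StronglyMeasurable[𝒢] F := stronglyMeasurable_condExp
  -- `W = sign(F) |F|^n`
  set W : Ω → ℝ := fun ω => SignType.sign (F ω) * |F ω| ^ n with hWdef
  have hFm' : Measurable[𝒢] F := hFm.measurable
  have hW : StronglyMeasurable[𝒢] W := by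
    apply Measurable.stronglyMeasurable
    have h1 : Measurable (fun x : ℝ => ((SignType.sign x : SignType) : ℝ) * |x| ^ n) := by
      refine Measurable.mul ?_ (by fun_prop)
      have e : (fun x : ℝ => ((SignType.sign x : SignType) : ℝ))
          = fun x => if x < 0 then -1 else if 0 < x then 1 else 0 := by
        funext x
        rcases lt_trichotomy x 0 with h | h | h
        · simp [h, sign_neg h]
        · simp [h]
        · simp [h, sign_pos h, not_lt.2 h.le]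
      rw [e]
      exact Measurable.ite measurableSet_Iio measurable_const
        (Measurable.ite measurableSet_Ioi measurable_const measurable_const)
    exact h1.comp hFm'
  have hsg : ∀ x : ℝ, |((SignType.sign x : SignType) : ℝ)| ≤ 1 := by
    intro x
    rcases lt_trichotomy x 0 with h | h | h
    · simp [sign_neg h]
    · simp [h]
    · simp [sign_pos h]
  have hWb' : ∀ ω, |W ω| ≤ |F ω| ^ n := by
    intro ω
    rw [hWdef]
    simp only
    rw [abs_mul, abs_of_nonneg (pow_nonneg (abs_nonneg (F ω)) n)]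
    exact mul_le_of_le_one_left (pow_nonneg (abs_nonneg _) _) (hsg _)
  have hWb : ∀ᵐ ω ∂P, |W ω| ≤ 1 := by
    filter_upwards [hFb] with ω h
    exact (hWb' ω).trans (pow_le_one₀ (abs_nonneg _) h)
  have h1 := integral_mul_ce h𝒢 hf hfb hW hWb
  have hmF : AEStronglyMeasurable F P := (hFm.mono h𝒢).aestronglyMeasurable
  have hmW : AEStronglyMeasurable W P := (hW.mono h𝒢).aestronglyMeasurable
  have hmf : AEStronglyMeasurable f P := hf.aestronglyMeasurable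
  have e1 : ∀ ω, W ω * F ω = |F ω| ^ (n + 1) := by
    intro ω
    rw [hWdef]
    simp only
    rw [pow_succ, mul_comm (((SignType.sign (F ω) : SignType) : ℝ)), mul_assoc, sign_mul_self]
  have iF : Integrable (fun ω => |F ω| ^ (n + 1)) P := by
    refine integrable_of_bdd (hmF.norm.pow (n + 1)) (B := 1) ?_
    filter_upwards [hFb] with ω h
    rw [abs_of_nonneg (pow_nonneg (abs_nonneg _) _)]
    exact pow_le_one₀ (abs_nonneg _) h
  have iff' : Integrable (fun ω => |f ω| ^ (n + 1)) P := by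
    refine integrable_of_bdd (hmf.norm.pow (n + 1)) (B := 1) ?_
    filter_upwards [hfb] with ω h
    rw [abs_of_nonneg (pow_nonneg (abs_nonneg _) _)]
    exact pow_le_one₀ (abs_nonneg _) h
  have i1 : Integrable (fun ω => W ω * f ω) P := by
    refine integrable_of_bdd (hmW.mul hmf) (B := 1) ?_
    filter_upwards [hfb, hWb] with ω h1 h2
    rw [abs_mul]
    exact mul_le_one₀ h2 (abs_nonneg _) h1
  have h2 : ∫ ω, W ω * F ω ∂P = ∫ ω, |F ω| ^ (n + 1) ∂P :=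
    integral_congr_ae (Eventually.of_forall e1)
  rw [h2] at h1
  have h3 : ∫ ω, W ω * f ω ∂P ≤ ∫ ω, (|F ω| ^ (n + 1) / 2 + 2 ^ n * |f ω| ^ (n + 1)) ∂P := by
    refine integral_mono i1 ((iF.div_const 2).add (iff'.const_mul _)) ?_
    intro ω
    have h4 : W ω * f ω ≤ |F ω| ^ n * |f ω| := by
      calc W ω * f ω ≤ |W ω * f ω| := le_abs_self _
        _ = |W ω| * |f ω| := abs_mul _ _
        _ ≤ |F ω| ^ n * |f ω| := mul_le_mul_of_nonneg_right (hWb' ω) (abs_nonneg _)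
    exact h4.trans (young (abs_nonneg _) (abs_nonneg _) n)
  rw [integral_add (iF.div_const 2) (iff'.const_mul _), integral_div, integral_const_mul] at h3
  rw [h1] at h3
  rw [pow_succ]
  linarith

/-- transport of the conditional variance by a measure preserving bijection -/
theorem ce_inv {φ ψ : Ω → Ω} (mp : MeasurePreserving φ P P)
    (mpi : MeasurePreserving ψ P P) (hψφ : ∀ ω, ψ (φ ω) = ω) (hcomap : 𝒢.comap ψ = 𝒢)
    {fa fo : Ω → ℝ} (hfa : Measurable fa) (hba : ∀ ω, |fa ω| ≤ 1) (hfo : Measurable fo)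
    (hbo : ∀ ω, |fo ω| ≤ 1) (heq : ∀ ω, fa (φ ω) = fo ω) :
    ∫ ω, (fa ω - (P[fa | 𝒢]) ω) ^ 2 ∂P ≤ ∫ ω, (fo ω - (P[fo | 𝒢]) ω) ^ 2 ∂P := by
  by_cases h𝒢 : 𝒢 ≤ m0
  swap
  · rw [condExp_of_not_le h𝒢, condExp_of_not_le h𝒢]
    simp only [Pi.zero_apply, sub_zero]
    have h2 : ∫ ω, (fa ω) ^ 2 ∂P = ∫ ω, (fa (φ ω)) ^ 2 ∂P := by
      conv_lhs => rw [← mp.map_eq]
      rw [integral_map mp.measurable.aemeasurable]
      exact (hfa.pow_const 2).aestronglyMeasurable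
    rw [h2]
    simp only [heq, le_refl]
  set F : Ω → ℝ := P[fo | 𝒢] with hF
  have hFm : StronglyMeasurable[𝒢] F := stronglyMeasurable_condExp
  have hFb : ∀ᵐ ω ∂P, |F ω| ≤ 1 := ce_bdd zero_le_one (Eventually.of_forall hbo)
  have hact : Measurable[𝒢, 𝒢] ψ := by
    rw [measurable_iff_comap_le]
    exact hcomap.le
  have hYm : StronglyMeasurable[𝒢] fun ω => F (ψ ω) :=
    (hFm.measurable.comp hact).stronglyMeasurable
  have hYb : ∀ᵐ ω ∂P, |F (ψ ω)| ≤ 1 := mpi.quasiMeasurePreserving.ae hFb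
  have h1 := ce_best h𝒢 hfa zero_le_one (Eventually.of_forall hba) hYm hYb
  have hact' : Measurable ψ := mpi.measurable
  have hFm0 : Measurable F := (hFm.mono h𝒢).measurable
  have h2 : ∫ ω, (fa ω - F (ψ ω)) ^ 2 ∂P = ∫ ω, (fa (φ ω) - F (ψ (φ ω))) ^ 2 ∂P := by
    conv_lhs => rw [← mp.map_eq]
    rw [integral_map mp.measurable.aemeasurable]
    exact ((hfa.sub (hFm0.comp hact')).pow_const 2).aestronglyMeasurable
  rw [h2] at h1
  refine h1.trans (le_of_eq ?_)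
  refine integral_congr_ae (Eventually.of_forall fun ω => ?_)
  simp only [hψφ, heq]

end general

section real

theorem log_diff {a b c : ℝ} (hc : 0 < c) (ha : c ≤ a) (hb : c ≤ b) :
    |Real.log a - Real.log b| ≤ |a - b| / c := by
  have key : ∀ a b : ℝ, c ≤ a → c ≤ b → Real.log a - Real.log b ≤ |a - b| / c := by
    intro a b ha hb
    have hb0 : 0 < b := lt_of_lt_of_le hc hb
    have ha0 : 0 < a := lt_of_lt_of_le hc ha
    rw [← Real.log_div ha0.ne' hb0.ne']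
    have h1 := Real.log_le_sub_one_of_pos (div_pos ha0 hb0)
    have h2 : a / b - 1 = (a - b) / b := by field_simp
    calc Real.log (a / b) ≤ (a - b) / b := by rw [← h2]; exact h1
      _ ≤ |a - b| / b := div_le_div_of_nonneg_right (le_abs_self _) hb0.le
      _ ≤ |a - b| / c := div_le_div_of_nonneg_left (abs_nonneg _) hc hb
  rw [abs_le]
  constructor
  · have := key b a hb ha
    rw [abs_sub_comm] at this
    linarith
  · exact key a b ha hb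

theorem gg_eq {θ z : ℝ} (hz : z < 1) (hz' : θ ^ 2 * z < 1) :
    gg θ z = -(Real.log (1 - z) - Real.log (1 - θ ^ 2 * z)) / 2 := by
  unfold gg tt
  rw [Real.log_div (by linarith) (by linarith)]

theorem gg_diff {θ m x w : ℝ} (h0 : 0 < θ) (h1 : θ < 1) (hm0 : 0 < m) (hm1 : m < 1)
    (hx : |x| ≤ m) (hw : |w| ≤ m) :
    |gg θ (x ^ 2) - gg θ (w ^ 2)| ≤ |x ^ 2 - w ^ 2| / (1 - m ^ 2) := by
  have hx2 : x ^ 2 ≤ m ^ 2 := by
    rw [← sq_abs x]; exact pow_le_pow_left₀ (abs_nonneg _) hx 2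
  have hw2 : w ^ 2 ≤ m ^ 2 := by
    rw [← sq_abs w]; exact pow_le_pow_left₀ (abs_nonneg _) hw 2
  have hm2 : m ^ 2 < 1 := by nlinarith
  have hθ2 : θ ^ 2 ≤ 1 := by nlinarith
  have hθ0 : 0 ≤ θ ^ 2 := sq_nonneg _
  have hx3 : θ ^ 2 * x ^ 2 ≤ m ^ 2 := by nlinarith [sq_nonneg x]
  have hw3 : θ ^ 2 * w ^ 2 ≤ m ^ 2 := by nlinarith [sq_nonneg w]
  rw [gg_eq (by linarith) (by linarith), gg_eq (by linarith) (by linarith)]
  have e1 := log_diff (a := 1 - x ^ 2) (b := 1 - w ^ 2) (c := 1 - m ^ 2) (by linarith)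
    (by linarith) (by linarith)
  have e2 := log_diff (a := 1 - θ ^ 2 * x ^ 2) (b := 1 - θ ^ 2 * w ^ 2) (c := 1 - m ^ 2)
    (by linarith) (by linarith) (by linarith)
  have e3 : |1 - x ^ 2 - (1 - w ^ 2)| = |x ^ 2 - w ^ 2| := by
    rw [show 1 - x ^ 2 - (1 - w ^ 2) = -(x ^ 2 - w ^ 2) by ring, abs_neg]
  have e4 : |1 - θ ^ 2 * x ^ 2 - (1 - θ ^ 2 * w ^ 2)| ≤ |x ^ 2 - w ^ 2| := by
    rw [show 1 - θ ^ 2 * x ^ 2 - (1 - θ ^ 2 * w ^ 2) = -(θ ^ 2 * (x ^ 2 - w ^ 2)) by ring,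
      abs_neg, abs_mul, abs_of_nonneg hθ0]
    exact mul_le_of_le_one_left (abs_nonneg _) hθ2
  rw [e3] at e1
  have e5 := e2.trans (div_le_div_of_nonneg_right e4 (by linarith : 0 ≤ 1 - m ^ 2))
  rw [abs_le] at e1 e5 ⊢
  constructor <;> linarith [e1.1, e1.2, e5.1, e5.2]

theorem gg_zero (θ : ℝ) : gg θ 0 = 0 := by
  unfold gg tt
  simp

theorem gg_bdd {θ m x : ℝ} (h0 : 0 < θ) (h1 : θ < 1) (hm0 : 0 < m) (hm1 : m < 1)
    (hx : |x| ≤ m) : |gg θ (x ^ 2)| ≤ 1 / (1 - m ^ 2) := by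
  have hm2 : m ^ 2 < 1 := by nlinarith
  have h := gg_diff (w := 0) h0 h1 hm0 hm1 hx (by simpa using hm0.le)
  rw [show (0 : ℝ) ^ 2 = 0 by norm_num, gg_zero, sub_zero, sub_zero] at h
  refine h.trans (div_le_div_of_nonneg_right ?_ (by linarith))
  rw [abs_of_nonneg (sq_nonneg _), ← sq_abs]
  have := abs_nonneg x
  nlinarith

/-- the pointwise estimate for the edge weights -/
theorem ell_diff {θ m K D x1 x2 w1 w2 : ℝ} (h0 : 0 < θ) (h1 : θ < 1) (hm0 : 0 < m) (hm1 : m < 1)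
    (hK : 0 ≤ K) (hD : 0 ≤ D)
    (hx1 : |x1| ≤ m) (hw1 : |w1| ≤ m) (hx2 : |x2| ≤ m) (hw2 : |w2| ≤ m)
    (hd1 : |x1 - w1| ≤ K * D) (hd2 : |x2 - w2| ≤ K * D) :
    ((gg θ (x1 ^ 2) + gg θ (x2 ^ 2)) - (gg θ (w1 ^ 2) + gg θ (w2 ^ 2))) ^ 2
      ≤ 12 * K ^ 2 * (1 + K ^ 2) / (1 - m ^ 2) ^ 2 * (D ^ 2 * (x1 ^ 2 + x2 ^ 2 + D ^ 2)) := by
  have hm2 : m ^ 2 < 1 := by nlinarith
  have hm3 : 0 < 1 - m ^ 2 := by linarith
  have key : ∀ x w : ℝ, |x| ≤ m → |w| ≤ m → |x - w| ≤ K * D →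
      |gg θ (x ^ 2) - gg θ (w ^ 2)| ≤ K * D * (2 * |x| + K * D) / (1 - m ^ 2) := by
    intro x w hx hw hd
    refine (gg_diff h0 h1 hm0 hm1 hx hw).trans (div_le_div_of_nonneg_right ?_ hm3.le)
    rw [show x ^ 2 - w ^ 2 = (x - w) * (x + w) by ring, abs_mul]
    have h2 : |x + w| ≤ 2 * |x| + K * D := by
      have : x + w = 2 * x - (x - w) := by ring
      rw [this]
      refine (abs_sub _ _).trans ?_
      rw [abs_mul, abs_two]
      linarith
    exact mul_le_mul hd h2 (abs_nonneg _) (by positivity)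
  have k1 := key x1 w1 hx1 hw1 hd1
  have k2 := key x2 w2 hx2 hw2 hd2
  have h3 : |(gg θ (x1 ^ 2) + gg θ (x2 ^ 2)) - (gg θ (w1 ^ 2) + gg θ (w2 ^ 2))|
      ≤ K * D / (1 - m ^ 2) * (2 * |x1| + 2 * |x2| + 2 * (K * D)) := by
    have e : (gg θ (x1 ^ 2) + gg θ (x2 ^ 2)) - (gg θ (w1 ^ 2) + gg θ (w2 ^ 2))
        = (gg θ (x1 ^ 2) - gg θ (w1 ^ 2)) + (gg θ (x2 ^ 2) - gg θ (w2 ^ 2)) := by ring
    rw [e]
    refine (abs_add_le _ _).trans ((add_le_add k1 k2).trans (le_of_eq ?_))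
    ring
  rw [← sq_abs]
  refine (pow_le_pow_left₀ (abs_nonneg _) h3 2).trans ?_
  have h4 : (2 * |x1| + 2 * |x2| + 2 * (K * D)) ^ 2
      ≤ 12 * (1 + K ^ 2) * (x1 ^ 2 + x2 ^ 2 + D ^ 2) := by
    have e1 := sq_abs x1
    have e2 := sq_abs x2
    have e3 : (2 * |x1| + 2 * |x2| + 2 * (K * D)) ^ 2
        ≤ 12 * (|x1| ^ 2 + |x2| ^ 2 + (K * D) ^ 2) := by
      nlinarith [sq_nonneg (|x1| - |x2|), sq_nonneg (|x1| - K * D), sq_nonneg (|x2| - K * D)]
    rw [e1, e2] at e3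
    refine e3.trans ?_
    have e4 : 0 ≤ K ^ 2 * (x1 ^ 2 + x2 ^ 2) + D ^ 2 := by positivity
    nlinarith
  calc (K * D / (1 - m ^ 2) * (2 * |x1| + 2 * |x2| + 2 * (K * D))) ^ 2
      = K ^ 2 * D ^ 2 / (1 - m ^ 2) ^ 2 * (2 * |x1| + 2 * |x2| + 2 * (K * D)) ^ 2 := by
        rw [mul_pow, div_pow, mul_pow]
    _ ≤ K ^ 2 * D ^ 2 / (1 - m ^ 2) ^ 2 * (12 * (1 + K ^ 2) * (x1 ^ 2 + x2 ^ 2 + D ^ 2)) :=
        mul_le_mul_of_nonneg_left h4 (by positivity)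
    _ = 12 * K ^ 2 * (1 + K ^ 2) / (1 - m ^ 2) ^ 2 * (D ^ 2 * (x1 ^ 2 + x2 ^ 2 + D ^ 2)) := by
        ring

/-- truncation -/
theorem split {D2 W l : ℝ} (hD : 0 ≤ D2) (hDW : D2 ≤ W) (hl : 0 < l) {q : ℕ} (hq : 2 ≤ q) :
    D2 * W ≤ l * D2 + l / l ^ q * W ^ (q + 1) := by
  have hW : 0 ≤ W := hD.trans hDW
  have h1 : 0 ≤ l / l ^ q * W ^ (q + 1) := by positivity
  rcases le_total W l with h | h
  · have : D2 * W ≤ D2 * l := mul_le_mul_of_nonneg_left h hD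
    linarith [mul_comm D2 l]
  · obtain ⟨p, rfl⟩ : ∃ p, q = p + 1 := ⟨q - 1, by omega⟩
    have h2 : l / l ^ (p + 1) * W ^ (p + 1 + 1) = W ^ 2 * (W / l) ^ p := by
      rw [div_pow]
      field_simp
      ring
    have h3 : 1 ≤ (W / l) ^ p := one_le_pow₀ (by rwa [one_le_div hl])
    have h4 : D2 * W ≤ W ^ 2 := by nlinarith
    have h5 : W ^ 2 ≤ W ^ 2 * (W / l) ^ p := le_mul_of_one_le_right (sq_nonneg _) h3
    have h6 : 0 ≤ l * D2 := by positivity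
    rw [h2]
    linarith

theorem pow4 {a b c d : ℝ} (ha : 0 ≤ a) (hb : 0 ≤ b) (hc : 0 ≤ c) (hd : 0 ≤ d) (n : ℕ) :
    (a + b + c + d) ^ n ≤ 4 ^ n * (a ^ n + b ^ n + c ^ n + d ^ n) := by
  set M := max (max a b) (max c d) with hM
  have h1 : a ≤ M := (le_max_left _ _).trans (le_max_left _ _)
  have h2 : b ≤ M := (le_max_right _ _).trans (le_max_left _ _)
  have h3 : c ≤ M := (le_max_left _ _).trans (le_max_right _ _)
  have h4 : d ≤ M := (le_max_right _ _).trans (le_max_right _ _)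
  have h5 : (a + b + c + d) ^ n ≤ (4 * M) ^ n :=
    pow_le_pow_left₀ (by positivity) (by linarith) n
  have h6 : M ^ n ≤ a ^ n + b ^ n + c ^ n + d ^ n := by
    have pa := pow_nonneg ha n
    have pb := pow_nonneg hb n
    have pc := pow_nonneg hc n
    have pd := pow_nonneg hd n
    have : M = a ∨ M = b ∨ M = c ∨ M = d := by
      rcases max_choice (max a b) (max c d) with h | h
      · rcases max_choice a b with h' | h'
        · left; rw [hM, h, h']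
        · right; left; rw [hM, h, h']
      · rcases max_choice c d with h' | h'
        · right; right; left; rw [hM, h, h']
        · right; right; right; rw [hM, h, h']
    rcases this with h | h | h | h <;> rw [h] <;> linarith
  rw [mul_pow] at h5
  exact h5.trans (mul_le_mul_of_nonneg_left h6 (by positivity))

/-- the power of the truncation variable -/
theorem powW {x1 x2 fa Fa fc Fc D : ℝ} (hD0 : 0 ≤ D) (hD : D ≤ |fa| + |Fa| + |fc| + |Fc|)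
    {n : ℕ} (hn : 1 ≤ n) :
    (x1 ^ 2 + x2 ^ 2 + D ^ 2) ^ n ≤ 4 ^ n * (x1 ^ (2 * n) + x2 ^ (2 * n)
      + 4 ^ (2 * n) * (fa ^ (2 * n) + |Fa| ^ (2 * n) + fc ^ (2 * n) + |Fc| ^ (2 * n))) := by
  have h1 := pow4 (sq_nonneg x1) (sq_nonneg x2) (sq_nonneg D) le_rfl n
  rw [add_zero, zero_pow (by omega), add_zero, ← pow_mul, ← pow_mul, ← pow_mul] at h1
  refine h1.trans (mul_le_mul_of_nonneg_left ?_ (by positivity))
  have h2 := pow4 (abs_nonneg fa) (abs_nonneg Fa) (abs_nonneg fc) (abs_nonneg Fc) (2 * n)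
  have h3 := pow_le_pow_left₀ hD0 hD (2 * n)
  have e1 : |fa| ^ (2 * n) = fa ^ (2 * n) := (even_two_mul n).pow_abs fa
  have e2 : |fc| ^ (2 * n) = fc ^ (2 * n) := (even_two_mul n).pow_abs fc
  rw [e1, e2] at h2
  linarith

/-- clamping to `[-m, m]` -/
noncomputable def cm (m x : ℝ) : ℝ := max (-m) (min m x)

theorem abs_cm {m : ℝ} (hm : 0 ≤ m) (x : ℝ) : |cm m x| ≤ m := by
  unfold cm
  rw [abs_le]
  exact ⟨le_max_left _ _, max_le (by linarith) (min_le_left _ _)⟩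

theorem cm_eq {m x : ℝ} (h : |x| ≤ m) : cm m x = x := by
  rw [abs_le] at h
  unfold cm
  rw [min_eq_right h.2, max_eq_right h.1]

theorem cm_lip (m x y : ℝ) : |cm m x - cm m y| ≤ |x - y| := by
  unfold cm
  calc |max (-m) (min m x) - max (-m) (min m y)|
      = |max (min m x) (-m) - max (min m y) (-m)| := by rw [max_comm, max_comm (-m)]
    _ ≤ |min m x - min m y| := abs_max_sub_max_le_abs _ _ _
    _ ≤ max |m - m| |x - y| := abs_min_sub_min_le_max _ _ _ _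
    _ = |x - y| := by simp

end real

section main

variable {Ω : Type*} {𝒢 : MeasurableSpace Ω} {m0 : MeasurableSpace Ω} {P : Measure Ω}
  [IsProbabilityMeasure P]

/-- the constant -/
noncomputable def C2 (m K : ℝ) : ℝ := 12 * K ^ 2 * (1 + K ^ 2) / (1 - m ^ 2) ^ 2

theorem measurable_cm (m : ℝ) : Measurable (cm m) := by
  unfold cm
  fun_prop

theorem measurable_gg (θ : ℝ) : Measurable (gg θ) := by
  unfold gg tt
  fun_prop

theorem measurable_Γ {K : ℝ} (hK : 0 ≤ K) {Γ : ℝ → ℝ → ℝ}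
    (hΓ : ∀ a b a' b', |Γ a b - Γ a' b'| ≤ K * (|a - a'| + |b - b'|)) :
    Measurable fun q : ℝ × ℝ => Γ q.1 q.2 := by
  apply Continuous.measurable
  have h : LipschitzWith (Real.toNNReal (2 * K)) fun q : ℝ × ℝ => Γ q.1 q.2 := by
    refine LipschitzWith.of_dist_le_mul ?_
    intro x y
    rw [Real.coe_toNNReal _ (by positivity), Real.dist_eq]
    refine (hΓ _ _ _ _).trans ?_
    have h1 : |x.1 - y.1| ≤ dist x y := by
      rw [← Real.dist_eq]; exact le_max_left _ _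
    have h2 : |x.2 - y.2| ≤ dist x y := by
      rw [← Real.dist_eq]; exact le_max_right _ _
    nlinarith
  exact h.continuous

theorem le_C2 {θ m K : ℝ} (h0 : 0 < θ) (h1 : θ < 1) (hm0 : 0 < m) (hm1 : m < 1) (hK : 0 ≤ K)
    {Γ : ℝ → ℝ → ℝ} (hΓ : ∀ a b a' b', |Γ a b - Γ a' b'| ≤ K * (|a - a'| + |b - b'|))
    (hΓ0 : Γ 0 0 = 0) {fa fc x1 x2 : Ω → ℝ} (hfa : Measurable fa) (hfc : Measurable fc)
    (hx1 : Measurable x1) (hx2 : Measurable x2)
    (ba : ∀ ω, |fa ω| ≤ 1) (bc : ∀ ω, |fc ω| ≤ 1) (b1 : ∀ ω, |x1 ω| ≤ m) (b2 : ∀ ω, |x2 ω| ≤ m)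
    (e1 : ∀ᵐ ω ∂P, x1 ω = Γ (fc ω) (fa ω)) (e2 : ∀ᵐ ω ∂P, x2 ω = Γ (fa ω) (fc ω)) :
    ∫ ω, ((gg θ (x1 ω ^ 2) + gg θ (x2 ω ^ 2))
        - (P[fun ω => gg θ (x1 ω ^ 2) + gg θ (x2 ω ^ 2) | 𝒢]) ω) ^ 2 ∂P
      ≤ C2 m K * ∫ ω, (|fa ω - (P[fa | 𝒢]) ω| + |fc ω - (P[fc | 𝒢]) ω|) ^ 2
          * (x1 ω ^ 2 + x2 ω ^ 2 + (|fa ω - (P[fa | 𝒢]) ω| + |fc ω - (P[fc | 𝒢]) ω|) ^ 2) ∂P := by
  set E : Ω → ℝ := fun ω => gg θ (x1 ω ^ 2) + gg θ (x2 ω ^ 2) with hE
  set Fa : Ω → ℝ := P[fa | 𝒢] with hFa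
  set Fc : Ω → ℝ := P[fc | 𝒢] with hFc
  set Y : Ω → ℝ := fun ω => gg θ (cm m (Γ (Fc ω) (Fa ω)) ^ 2)
    + gg θ (cm m (Γ (Fa ω) (Fc ω)) ^ 2) with hY
  have hm2 : 0 < 1 - m ^ 2 := by nlinarith
  have hFam : Measurable Fa := by
    by_cases h : 𝒢 ≤ m0
    · exact (stronglyMeasurable_condExp.mono h).measurable
    · rw [hFa, condExp_of_not_le h]; exact measurable_const
  have hFcm : Measurable Fc := by
    by_cases h : 𝒢 ≤ m0
    · exact (stronglyMeasurable_condExp.mono h).measurable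
    · rw [hFc, condExp_of_not_le h]; exact measurable_const
  have hFab : ∀ᵐ ω ∂P, |Fa ω| ≤ 1 := ce_bdd zero_le_one (Eventually.of_forall ba)
  have hFcb : ∀ᵐ ω ∂P, |Fc ω| ≤ 1 := ce_bdd zero_le_one (Eventually.of_forall bc)
  have hEm : Measurable E :=
    ((measurable_gg θ).comp (hx1.pow_const 2)).add ((measurable_gg θ).comp (hx2.pow_const 2))
  have hB : (0 : ℝ) ≤ 1 / (1 - m ^ 2) + 1 / (1 - m ^ 2) := by positivity
  have hEb : ∀ ω, |E ω| ≤ 1 / (1 - m ^ 2) + 1 / (1 - m ^ 2) := fun ω =>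
    (abs_add_le _ _).trans (add_le_add (gg_bdd h0 h1 hm0 hm1 (b1 ω))
      (gg_bdd h0 h1 hm0 hm1 (b2 ω)))
  have hYb : ∀ ω, |Y ω| ≤ 1 / (1 - m ^ 2) + 1 / (1 - m ^ 2) := fun ω =>
    (abs_add_le _ _).trans (add_le_add (gg_bdd h0 h1 hm0 hm1 (abs_cm hm0.le _))
      (gg_bdd h0 h1 hm0 hm1 (abs_cm hm0.le _)))
  have hΓm := measurable_Γ hK hΓ
  have hYm0 : Measurable Y := by
    have h2 : Measurable fun ω => gg θ (cm m (Γ (Fc ω) (Fa ω)) ^ 2) :=
      (measurable_gg θ).comp (((measurable_cm m).comp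
        (hΓm.comp (hFcm.prodMk hFam))).pow_const 2)
    have h3 : Measurable fun ω => gg θ (cm m (Γ (Fa ω) (Fc ω)) ^ 2) :=
      (measurable_gg θ).comp (((measurable_cm m).comp
        (hΓm.comp (hFam.prodMk hFcm))).pow_const 2)
    exact h2.add h3
  have step1 : ∫ ω, (E ω - (P[E | 𝒢]) ω) ^ 2 ∂P ≤ ∫ ω, (E ω - Y ω) ^ 2 ∂P := by
    by_cases h : 𝒢 ≤ m0
    · have hFam' : Measurable[𝒢] Fa := stronglyMeasurable_condExp.measurable
      have hFcm' : Measurable[𝒢] Fc := stronglyMeasurable_condExp.measurable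
      have h2 : Measurable[𝒢] fun ω => gg θ (cm m (Γ (Fc ω) (Fa ω)) ^ 2) :=
        (measurable_gg θ).comp (((measurable_cm m).comp
          (hΓm.comp (hFcm'.prodMk hFam'))).pow_const 2)
      have h3 : Measurable[𝒢] fun ω => gg θ (cm m (Γ (Fa ω) (Fc ω)) ^ 2) :=
        (measurable_gg θ).comp (((measurable_cm m).comp
          (hΓm.comp (hFam'.prodMk hFcm'))).pow_const 2)
      have hYm : StronglyMeasurable[𝒢] Y := (h2.add h3).stronglyMeasurable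
      exact ce_best h hEm hB (Eventually.of_forall hEb) hYm (Eventually.of_forall hYb)
    · rw [condExp_of_not_le h]
      have hY0 : ∀ ω, Y ω = 0 := by
        intro ω
        rw [hY, hFa, hFc, condExp_of_not_le h, condExp_of_not_le h]
        simp only [Pi.zero_apply, hΓ0]
        have : cm m 0 = 0 := cm_eq (by simpa using hm0.le)
        rw [this]
        simp [gg_zero]
      simp only [hY0, Pi.zero_apply, le_refl]
  refine step1.trans ?_
  rw [← integral_const_mul]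
  have hDb : ∀ᵐ ω ∂P, |fa ω - Fa ω| + |fc ω - Fc ω| ≤ 4 := by
    filter_upwards [hFab, hFcb] with ω h2 h3
    have h4 := (abs_sub (fa ω) (Fa ω)).trans (add_le_add (ba ω) h2)
    have h5 := (abs_sub (fc ω) (Fc ω)).trans (add_le_add (bc ω) h3)
    linarith
  have hDm : Measurable fun ω => |fa ω - Fa ω| + |fc ω - Fc ω| :=
    (hfa.sub hFam).norm.add (hfc.sub hFcm).norm
  have i1 : Integrable (fun ω => (E ω - Y ω) ^ 2) P := by
    refine integrable_of_bdd ((hEm.sub hYm0).pow_const 2).aestronglyMeasurable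
      (B := (1 / (1 - m ^ 2) + 1 / (1 - m ^ 2) + (1 / (1 - m ^ 2) + 1 / (1 - m ^ 2))) ^ 2)
      (Eventually.of_forall fun ω => ?_)
    rw [abs_pow]
    exact pow_le_pow_left₀ (abs_nonneg _)
      ((abs_sub _ _).trans (add_le_add (hEb ω) (hYb ω))) 2
  have i2 : Integrable (fun ω => C2 m K * ((|fa ω - Fa ω| + |fc ω - Fc ω|) ^ 2
      * (x1 ω ^ 2 + x2 ω ^ 2 + (|fa ω - Fa ω| + |fc ω - Fc ω|) ^ 2))) P := by
    refine Integrable.const_mul ?_ _
    refine integrable_of_bdd ((hDm.pow_const 2).mul (((hx1.pow_const 2).add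
      (hx2.pow_const 2)).add (hDm.pow_const 2))).aestronglyMeasurable (B := 16 * 18) ?_
    filter_upwards [hDb] with ω h2
    have h3 : 0 ≤ |fa ω - Fa ω| + |fc ω - Fc ω| := by positivity
    have h4 : (|fa ω - Fa ω| + |fc ω - Fc ω|) ^ 2 ≤ 16 := by nlinarith
    have h5 : x1 ω ^ 2 ≤ 1 := by
      rw [← sq_abs]; nlinarith [abs_nonneg (x1 ω), b1 ω]
    have h6 : x2 ω ^ 2 ≤ 1 := by
      rw [← sq_abs]; nlinarith [abs_nonneg (x2 ω), b2 ω]
    rw [abs_of_nonneg (by positivity)]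
    exact mul_le_mul h4 (by linarith) (by positivity) (by norm_num)
  refine integral_mono_ae i1 i2 ?_
  filter_upwards [e1, e2] with ω h2 h3
  have hD : 0 ≤ |fa ω - Fa ω| + |fc ω - Fc ω| := by positivity
  have d1 : |x1 ω - cm m (Γ (Fc ω) (Fa ω))| ≤ K * (|fa ω - Fa ω| + |fc ω - Fc ω|) := by
    have h4 := cm_lip m (x1 ω) (Γ (Fc ω) (Fa ω))
    rw [cm_eq (b1 ω)] at h4
    refine h4.trans ?_
    rw [h2]
    refine (hΓ _ _ _ _).trans (le_of_eq ?_)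
    ring
  have d2 : |x2 ω - cm m (Γ (Fa ω) (Fc ω))| ≤ K * (|fa ω - Fa ω| + |fc ω - Fc ω|) := by
    have h4 := cm_lip m (x2 ω) (Γ (Fa ω) (Fc ω))
    rw [cm_eq (b2 ω)] at h4
    refine h4.trans ?_
    rw [h3]
    exact hΓ _ _ _ _
  exact ell_diff h0 h1 hm0 hm1 hK hD (b1 ω) (abs_cm hm0.le _) (b2 ω) (abs_cm hm0.le _) d1 d2

omit [IsProbabilityMeasure P] in
theorem ce_measurable (f : Ω → ℝ) : Measurable (P[f | 𝒢]) := by
  by_cases h : 𝒢 ≤ m0
  · exact (stronglyMeasurable_condExp.mono h).measurable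
  · rw [condExp_of_not_le h]; exact measurable_const

theorem C2_nonneg {m K : ℝ} : 0 ≤ C2 m K := by
  unfold C2
  positivity

/-- bounds of the right-hand side of `le_C2` -/
theorem rhs {fa fc x1 x2 Fa Fc : Ω → ℝ} (hfa : Measurable fa) (hfc : Measurable fc)
    (hx1 : Measurable x1) (hx2 : Measurable x2) (hFam : Measurable Fa) (hFcm : Measurable Fc)
    (ba : ∀ ω, |fa ω| ≤ 1) (bc : ∀ ω, |fc ω| ≤ 1) (b1 : ∀ ω, |x1 ω| ≤ 1) (b2 : ∀ ω, |x2 ω| ≤ 1)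
    (hFab : ∀ᵐ ω ∂P, |Fa ω| ≤ 1) (hFcb : ∀ᵐ ω ∂P, |Fc ω| ≤ 1) {h : ℝ}
    (hA : ∫ ω, (fa ω - Fa ω) ^ 2 ∂P ≤ h) (hC : ∫ ω, (fc ω - Fc ω) ^ 2 ∂P ≤ h) :
    ∫ ω, (|fa ω - Fa ω| + |fc ω - Fc ω|) ^ 2
          * (x1 ω ^ 2 + x2 ω ^ 2 + (|fa ω - Fa ω| + |fc ω - Fc ω|) ^ 2) ∂P ≤ 72 * h ∧
    ∀ (l : ℝ) (q : ℕ) (M : ℝ), 0 < l → 2 ≤ q →
      ∫ ω, x1 ω ^ (2 * (q + 1)) ∂P ≤ M → ∫ ω, x2 ω ^ (2 * (q + 1)) ∂P ≤ M →
      ∫ ω, fa ω ^ (2 * (q + 1)) ∂P ≤ M → ∫ ω, fc ω ^ (2 * (q + 1)) ∂P ≤ M →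
      ∫ ω, |Fa ω| ^ (2 * (q + 1)) ∂P ≤ 2 ^ (2 * (q + 1)) * M →
      ∫ ω, |Fc ω| ^ (2 * (q + 1)) ∂P ≤ 2 ^ (2 * (q + 1)) * M →
      ∫ ω, (|fa ω - Fa ω| + |fc ω - Fc ω|) ^ 2
          * (x1 ω ^ 2 + x2 ω ^ 2 + (|fa ω - Fa ω| + |fc ω - Fc ω|) ^ 2) ∂P
        ≤ 4 * l * h + l / l ^ q * (4 ^ (q + 1) * (2 + 4 ^ (2 * (q + 1))
            * (2 + 2 * 2 ^ (2 * (q + 1)))) * M) := by
  set D : Ω → ℝ := fun ω => |fa ω - Fa ω| + |fc ω - Fc ω| with hDdef
  have hDm : Measurable D := (hfa.sub hFam).norm.add (hfc.sub hFcm).norm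
  have hD0 : ∀ ω, 0 ≤ D ω := fun ω => by positivity
  have hDb : ∀ᵐ ω ∂P, D ω ≤ 4 := by
    filter_upwards [hFab, hFcb] with ω h2 h3
    have h4 := (abs_sub (fa ω) (Fa ω)).trans (add_le_add (ba ω) h2)
    have h5 := (abs_sub (fc ω) (Fc ω)).trans (add_le_add (bc ω) h3)
    simp only [hDdef]
    linarith
  have sx1 : ∀ ω, x1 ω ^ 2 ≤ 1 := by
    intro ω; rw [← sq_abs]; nlinarith [abs_nonneg (x1 ω), b1 ω]
  have sx2 : ∀ ω, x2 ω ^ 2 ≤ 1 := by
    intro ω; rw [← sq_abs]; nlinarith [abs_nonneg (x2 ω), b2 ω]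
  -- the second moment of `D`
  have iA : Integrable (fun ω => (fa ω - Fa ω) ^ 2) P := by
    refine integrable_of_bdd ((hfa.sub hFam).pow_const 2).aestronglyMeasurable (B := 2 ^ 2) ?_
    filter_upwards [hFab] with ω h2
    rw [abs_pow]
    exact pow_le_pow_left₀ (abs_nonneg _)
      (((abs_sub _ _).trans (add_le_add (ba ω) h2)).trans (by norm_num)) 2
  have iC : Integrable (fun ω => (fc ω - Fc ω) ^ 2) P := by
    refine integrable_of_bdd ((hfc.sub hFcm).pow_const 2).aestronglyMeasurable (B := 2 ^ 2) ?_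
    filter_upwards [hFcb] with ω h2
    rw [abs_pow]
    exact pow_le_pow_left₀ (abs_nonneg _)
      (((abs_sub _ _).trans (add_le_add (bc ω) h2)).trans (by norm_num)) 2
  have iD : Integrable (fun ω => D ω ^ 2) P := by
    refine integrable_of_bdd (hDm.pow_const 2).aestronglyMeasurable (B := 4 ^ 2) ?_
    filter_upwards [hDb] with ω h2
    rw [abs_pow, abs_of_nonneg (hD0 ω)]
    exact pow_le_pow_left₀ (hD0 ω) h2 2
  have hD2 : ∫ ω, D ω ^ 2 ∂P ≤ 4 * h := by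
    have h2 : ∫ ω, D ω ^ 2 ∂P ≤ ∫ ω, (2 * (fa ω - Fa ω) ^ 2 + 2 * (fc ω - Fc ω) ^ 2) ∂P := by
      refine integral_mono iD ((iA.const_mul 2).add (iC.const_mul 2)) fun ω => ?_
      have e1 := sq_abs (fa ω - Fa ω)
      have e2 := sq_abs (fc ω - Fc ω)
      simp only [hDdef]
      nlinarith [sq_nonneg (|fa ω - Fa ω| - |fc ω - Fc ω|)]
    rw [integral_add (iA.const_mul 2) (iC.const_mul 2), integral_const_mul,
      integral_const_mul] at h2
    linarith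
  have iW : ∀ n : ℕ, Integrable (fun ω => (x1 ω ^ 2 + x2 ω ^ 2 + D ω ^ 2) ^ n) P := by
    intro n
    refine integrable_of_bdd ((((hx1.pow_const 2).add (hx2.pow_const 2)).add
      (hDm.pow_const 2)).pow_const n).aestronglyMeasurable (B := 18 ^ n) ?_
    filter_upwards [hDb] with ω h2
    have h3 := hD0 ω
    rw [abs_of_nonneg (by positivity)]
    exact pow_le_pow_left₀ (by positivity) (by nlinarith [sx1 ω, sx2 ω]) n
  have iDW : Integrable (fun ω => D ω ^ 2 * (x1 ω ^ 2 + x2 ω ^ 2 + D ω ^ 2)) P := by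
    refine integrable_of_bdd ((hDm.pow_const 2).mul (((hx1.pow_const 2).add
      (hx2.pow_const 2)).add (hDm.pow_const 2))).aestronglyMeasurable (B := 16 * 18) ?_
    filter_upwards [hDb] with ω h2
    have h3 := hD0 ω
    have h4 : D ω ^ 2 ≤ 16 := by nlinarith
    rw [abs_of_nonneg (by positivity)]
    exact mul_le_mul h4 (by linarith [sx1 ω, sx2 ω]) (by positivity) (by norm_num)
  constructor
  · have h2 : ∫ ω, D ω ^ 2 * (x1 ω ^ 2 + x2 ω ^ 2 + D ω ^ 2) ∂P ≤ ∫ ω, 18 * D ω ^ 2 ∂P := by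
      refine integral_mono_ae iDW (iD.const_mul 18) ?_
      filter_upwards [hDb] with ω h2
      have h3 := hD0 ω
      have h4 : x1 ω ^ 2 + x2 ω ^ 2 + D ω ^ 2 ≤ 18 := by nlinarith [sx1 ω, sx2 ω]
      have h5 := mul_le_mul_of_nonneg_left h4 (sq_nonneg (D ω))
      show D ω ^ 2 * (x1 ω ^ 2 + x2 ω ^ 2 + D ω ^ 2) ≤ 18 * D ω ^ 2
      linarith
    rw [integral_const_mul] at h2
    calc ∫ ω, D ω ^ 2 * (x1 ω ^ 2 + x2 ω ^ 2 + D ω ^ 2) ∂P ≤ 18 * ∫ ω, D ω ^ 2 ∂P := h2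
      _ ≤ 18 * (4 * h) := by linarith
      _ = 72 * h := by ring
  · intro l q M hl hq m1 m2 m3 m4 m5 m6
    have h2 : ∫ ω, D ω ^ 2 * (x1 ω ^ 2 + x2 ω ^ 2 + D ω ^ 2) ∂P
        ≤ ∫ ω, (l * D ω ^ 2 + l / l ^ q * (x1 ω ^ 2 + x2 ω ^ 2 + D ω ^ 2) ^ (q + 1)) ∂P := by
      refine integral_mono iDW ((iD.const_mul l).add ((iW (q + 1)).const_mul _)) fun ω => ?_
      exact split (sq_nonneg _) (by nlinarith [sq_nonneg (x1 ω), sq_nonneg (x2 ω)]) hl hq
    rw [integral_add (iD.const_mul l) ((iW (q + 1)).const_mul _), integral_const_mul,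
      integral_const_mul] at h2
    set n := q + 1 with hn
    have jx : ∀ (f : Ω → ℝ), Measurable f → (∀ᵐ ω ∂P, |f ω| ≤ 1) →
        Integrable (fun ω => f ω ^ (2 * n)) P := by
      intro f hf hb
      refine integrable_of_bdd (hf.pow_const _).aestronglyMeasurable (B := 1) ?_
      filter_upwards [hb] with ω h
      rw [abs_pow]
      exact pow_le_one₀ (abs_nonneg _) h
    have j1 := jx x1 hx1 (Eventually.of_forall b1)
    have j2 := jx x2 hx2 (Eventually.of_forall b2)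
    have j3 := jx fa hfa (Eventually.of_forall ba)
    have j4 := jx fc hfc (Eventually.of_forall bc)
    have j5 : Integrable (fun ω => |Fa ω| ^ (2 * n)) P := jx (fun ω => |Fa ω|) hFam.norm (by
      filter_upwards [hFab] with ω h
      rwa [abs_abs])
    have j6 : Integrable (fun ω => |Fc ω| ^ (2 * n)) P := jx (fun ω => |Fc ω|) hFcm.norm (by
      filter_upwards [hFcb] with ω h
      rwa [abs_abs])
    have h3 : ∫ ω, (x1 ω ^ 2 + x2 ω ^ 2 + D ω ^ 2) ^ n ∂P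
        ≤ 4 ^ n * (2 + 4 ^ (2 * n) * (2 + 2 * 2 ^ (2 * n))) * M := by
      have j7 : Integrable (fun ω => fa ω ^ (2 * n) + |Fa ω| ^ (2 * n) + fc ω ^ (2 * n)
          + |Fc ω| ^ (2 * n)) P := ((j3.add j5).add j4).add j6
      have j8 : Integrable (fun ω => 4 ^ n * (x1 ω ^ (2 * n) + x2 ω ^ (2 * n)
          + 4 ^ (2 * n) * (fa ω ^ (2 * n) + |Fa ω| ^ (2 * n) + fc ω ^ (2 * n)
            + |Fc ω| ^ (2 * n)))) P :=
        ((j1.add j2).add (j7.const_mul _)).const_mul _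
      have h4 : ∫ ω, (x1 ω ^ 2 + x2 ω ^ 2 + D ω ^ 2) ^ n ∂P
          ≤ ∫ ω, 4 ^ n * (x1 ω ^ (2 * n) + x2 ω ^ (2 * n)
          + 4 ^ (2 * n) * (fa ω ^ (2 * n) + |Fa ω| ^ (2 * n) + fc ω ^ (2 * n)
            + |Fc ω| ^ (2 * n))) ∂P := by
        refine integral_mono (iW n) j8 fun ω => ?_
        refine powW (hD0 ω) ?_ (by omega)
        have e1 := abs_sub (fa ω) (Fa ω)
        have e2 := abs_sub (fc ω) (Fc ω)
        simp only [hDdef]
        linarith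
      have h5 : ∫ ω, 4 ^ n * (x1 ω ^ (2 * n) + x2 ω ^ (2 * n)
          + 4 ^ (2 * n) * (fa ω ^ (2 * n) + |Fa ω| ^ (2 * n) + fc ω ^ (2 * n)
            + |Fc ω| ^ (2 * n))) ∂P
          = 4 ^ n * ((∫ ω, x1 ω ^ (2 * n) ∂P + ∫ ω, x2 ω ^ (2 * n) ∂P)
            + 4 ^ (2 * n) * (((∫ ω, fa ω ^ (2 * n) ∂P + ∫ ω, |Fa ω| ^ (2 * n) ∂P)
              + ∫ ω, fc ω ^ (2 * n) ∂P) + ∫ ω, |Fc ω| ^ (2 * n) ∂P)) := by
        have k1 : Integrable (fun ω => x1 ω ^ (2 * n) + x2 ω ^ (2 * n)) P := j1.add j2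
        have k2 : Integrable (fun ω => fa ω ^ (2 * n) + |Fa ω| ^ (2 * n)) P := j3.add j5
        have k3 : Integrable (fun ω => fa ω ^ (2 * n) + |Fa ω| ^ (2 * n) + fc ω ^ (2 * n)) P :=
          k2.add j4
        rw [integral_const_mul, integral_add k1 (j7.const_mul _), integral_const_mul,
          integral_add j1 j2, integral_add k3 j6, integral_add k2 j4, integral_add j3 j5]
      rw [h5] at h4
      refine h4.trans ?_
      have p1 : (0 : ℝ) < 4 ^ n := by positivity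
      have p2 : (0 : ℝ) < 4 ^ (2 * n) := by positivity
      have h6 : ((∫ ω, fa ω ^ (2 * n) ∂P + ∫ ω, |Fa ω| ^ (2 * n) ∂P)
              + ∫ ω, fc ω ^ (2 * n) ∂P) + ∫ ω, |Fc ω| ^ (2 * n) ∂P
          ≤ (2 + 2 * 2 ^ (2 * n)) * M := by linarith
      have h7 := mul_le_mul_of_nonneg_left h6 p2.le
      have h8 : (∫ ω, x1 ω ^ (2 * n) ∂P + ∫ ω, x2 ω ^ (2 * n) ∂P)
            + 4 ^ (2 * n) * (((∫ ω, fa ω ^ (2 * n) ∂P + ∫ ω, |Fa ω| ^ (2 * n) ∂P)
              + ∫ ω, fc ω ^ (2 * n) ∂P) + ∫ ω, |Fc ω| ^ (2 * n) ∂P)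
          ≤ (2 + 4 ^ (2 * n) * (2 + 2 * 2 ^ (2 * n))) * M := by linarith
      refine (mul_le_mul_of_nonneg_left h8 p1.le).trans (le_of_eq (by ring))
    have h4 : 0 ≤ l / l ^ q := by positivity
    have h5 := mul_le_mul_of_nonneg_left h3 h4
    have h6 := mul_le_mul_of_nonneg_left hD2 hl.le
    linarith

end main

section planted

variable {V : Type u}

theorem measurable_tanh : Measurable Real.tanh := by
  have e : Real.tanh = fun x => Real.sinh x / Real.cosh x := by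
    funext x
    exact Real.tanh_eq_sinh_div_cosh x
  rw [e]
  exact Real.measurable_sinh.div Real.measurable_cosh

theorem measurable_Lt (hBASE : S_BASE.{u}) {G : SimpleGraph V} {d : ℕ} {θ : ℝ}
    (hc : Crit G d θ) (s : ℝ) (u p : V) : Measurable fun ω : Om V => Lt G θ s ω u p := by
  have h := (hBASE hc).1 u p
  have h2 : Measurable fun ω : Om V => (s, ω) := measurable_const.prodMk measurable_id
  have h3 := Measurable.comp (g := fun q : ℝ × Om V => Lt G θ q.1 q.2 u p)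
    (f := fun ω : Om V => (s, ω)) h h2
  simpa only [Function.comp_def] using h3

theorem measurable_mt (hBASE : S_BASE.{u}) {G : SimpleGraph V} {d : ℕ} {θ : ℝ}
    (hc : Crit G d θ) (s : ℝ) (v : V) : Measurable fun ω : Om V => mt G θ s ω v :=
  measurable_tanh.comp (measurable_Lt hBASE hc s v v)

theorem abs_mt_le (G : SimpleGraph V) (θ s : ℝ) (ω : Om V) (v : V) : |mt G θ s ω v| ≤ 1 :=
  (Real.abs_tanh_lt_one _).le

theorem isProb_PP {G : SimpleGraph V} {θ : ℝ} {μ : Measure (V → Bool)} (hμ : IsFreeIsing G θ μ)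
    (o : V) : IsProbabilityMeasure (PP μ) := by
  have : Nonempty V := ⟨o⟩
  have h1 : IsProbabilityMeasure μ := isProb_of_isFreeIsing hμ
  have h2 : IsProbabilityMeasure (lam V) := by unfold lam; infer_instance
  unfold PP
  infer_instance

theorem act_symm (g : V ≃ V) (ω : Om V) : act g.symm (act g ω) = ω := by
  unfold act
  ext <;> simp

/-- `hG` does not depend on the vertex -/
theorem hG_le (hEQUI : S_EQUI.{u}) (hBASE : S_BASE.{u}) (hHOM : S_HOM.{u})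
    {G : SimpleGraph V} {d : ℕ} {θ : ℝ} (hc : Crit G d θ) {μ : Measure (V → Bool)}
    (hμ : IsFreeIsing G θ μ) (s : ℝ) (a o : V) :
    ∀ 𝒢 : MeasurableSpace (Om V), InvG G 𝒢 → hG G θ μ 𝒢 a s ≤ hG G θ μ 𝒢 o s := by
  have hP : IsProbabilityMeasure (PP μ) := isProb_PP hμ o
  obtain ⟨g, hg1, -⟩ := hHOM hc o o a a (by simp)
  obtain ⟨e1, -, -, -, e5⟩ := hEQUI hc
  have mp : MeasurePreserving (act g.toEquiv) (PP μ) (PP μ) := (e5 hμ).1 g
  have mpi : MeasurePreserving (act g.symm.toEquiv) (PP μ) (PP μ) := (e5 hμ).1 g.symm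
  have hf : ∀ v, Measurable fun ω : Om V => mt G θ s ω v := measurable_mt hBASE hc s
  have e' : ∀ ω : Om V, mt G θ s (act g.toEquiv ω) a = mt G θ s ω o := by
    intro ω
    have := e1 g s ω o o
    rw [hg1] at this
    unfold mt Mm
    unfold Lt at this
    rw [this]
  intro 𝒢 hI
  exact ce_inv mp mpi (fun ω => act_symm g.toEquiv ω) (hI.act g.symm) (hf a)
    (fun ω => abs_mt_le G θ s ω a) (hf o) (fun ω => abs_mt_le G θ s ω o) e'

/-- the numerical factor -/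
noncomputable def cf (q : ℕ) : ℝ :=
  4 ^ (q + 1) * (2 + 4 ^ (2 * (q + 1)) * (2 + 2 * 2 ^ (2 * (q + 1))))

theorem cf_nonneg (q : ℕ) : 0 ≤ cf q := by
  unfold cf
  positivity

theorem Γ_zero {G : SimpleGraph V} {θ : ℝ} {Γ : ℝ → ℝ → ℝ}
    (hΓ2 : ∀ (y : V → ℝ) (L : V → V → ℝ), BPS G θ y L → ∀ u p, G.Adj u p →
      Real.tanh (L p u) = Γ (Real.tanh (L u u)) (Real.tanh (L p p))) {a c : V}
    (hac : G.Adj a c) : Γ 0 0 = 0 := by
  have h := hΓ2 (fun _ => 0) (fun _ _ => 0) (by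
    intro u p
    have : ff θ 0 = 0 := by
      unfold ff at'
      simp
    simp [this]) a c hac
  simpa using h.symm

theorem aux (hALG1 : S_ALG1.{u}) (hTRANS : S_TRANS.{u}) (hEQUI : S_EQUI.{u})
    (hBASE : S_BASE.{u}) (hHOM : S_HOM.{u}) {G : SimpleGraph V} {d : ℕ} {θ : ℝ}
    (hc : Crit G d θ) (T : ℕ) : ∃ (C : ℝ) (Cq : ℕ → ℝ), 0 < C ∧ (∀ q, 0 ≤ Cq q) ∧
    ∀ {μ : Measure (V → Bool)}, IsFreeIsing G θ μ → ∀ s : ℝ, 0 < s → s ≤ T →
    ∀ o a c : V, G.Adj a c → ∀ 𝒢 : MeasurableSpace (Om V), InvG G 𝒢 →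
      0 ≤ QG G θ μ 𝒢 s a c ∧ QG G θ μ 𝒢 s a c ≤ C * hG G θ μ 𝒢 o s ∧
        (s ≤ 1 → ∀ (l : ℝ) (q : ℕ), 0 < l → l ≤ 1 → 2 ≤ q →
          QG G θ μ 𝒢 s a c ≤ C * (l * hG G θ μ 𝒢 o s + Cq q * (l / l ^ q * s ^ q))) := by
  obtain ⟨Γ, hΓ, hΓ2⟩ := hALG1 hc
  obtain ⟨c0, -, -, Cq, hCq, hT⟩ := hTRANS hc T
  obtain ⟨m, hm0, hm1, hmb⟩ := (hBASE hc).2.2.2.2 (T : ℝ)
  have h0 := hc.pos
  have h1 : θ < 1 := by
    by_contra hcon
    push Not at hcon
    have h1 := hc.crit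
    have h2 : (3 : ℝ) ≤ d := by exact_mod_cast hc.hd
    nlinarith
  set K : ℝ := 1 / ((1 - θ ^ 2) * (1 - θ) ^ 2) with hKdef
  have hK : 0 ≤ K := by
    have : 0 < 1 - θ ^ 2 := by nlinarith
    positivity
  have hC2 : 0 ≤ C2 m K := C2_nonneg
  refine ⟨72 * C2 m K + 1, fun q => cf q * Cq (q + 1), by linarith,
    fun q => mul_nonneg (cf_nonneg q) (hCq _), ?_⟩
  intro μ hμ s hs hsT o a c hac
  have hP : IsProbabilityMeasure (PP μ) := isProb_PP hμ o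
  obtain ⟨-, -, -, hmom, hlim⟩ := hT hμ s hs hsT
  have hfa : Measurable fun ω : Om V => mt G θ s ω a := measurable_mt hBASE hc s a
  have hfc : Measurable fun ω : Om V => mt G θ s ω c := measurable_mt hBASE hc s c
  have hx1 : Measurable fun ω : Om V => Real.tanh (Lt G θ s ω a c) :=
    measurable_tanh.comp (measurable_Lt hBASE hc s a c)
  have hx2 : Measurable fun ω : Om V => Real.tanh (Lt G θ s ω c a) :=
    measurable_tanh.comp (measurable_Lt hBASE hc s c a)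
  have b1 : ∀ ω : Om V, |Real.tanh (Lt G θ s ω a c)| ≤ m := fun ω => hmb s ω a c hsT
  have b2 : ∀ ω : Om V, |Real.tanh (Lt G θ s ω c a)| ≤ m := fun ω => hmb s ω c a hsT
  have b1' : ∀ ω : Om V, |Real.tanh (Lt G θ s ω a c)| ≤ 1 := fun ω => (b1 ω).trans hm1.le
  have b2' : ∀ ω : Om V, |Real.tanh (Lt G θ s ω c a)| ≤ 1 := fun ω => (b2 ω).trans hm1.le
  have ba : ∀ ω : Om V, |mt G θ s ω a| ≤ 1 := fun ω => abs_mt_le G θ s ω a
  have bc : ∀ ω : Om V, |mt G θ s ω c| ≤ 1 := fun ω => abs_mt_le G θ s ω c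
  have e1 : ∀ᵐ ω ∂(PP μ), Real.tanh (Lt G θ s ω a c) = Γ (mt G θ s ω c) (mt G θ s ω a) := by
    filter_upwards [hlim] with ω hω
    exact hΓ2 _ _ hω.1 c a hac.symm
  have e2 : ∀ᵐ ω ∂(PP μ), Real.tanh (Lt G θ s ω c a) = Γ (mt G θ s ω a) (mt G θ s ω c) := by
    filter_upwards [hlim] with ω hω
    exact hΓ2 _ _ hω.1 a c hac
  have hla := hG_le hEQUI hBASE hHOM hc hμ s a o
  have hlc := hG_le hEQUI hBASE hHOM hc hμ s c o
  intro 𝒢 hI
  have A := le_C2 (𝒢 := 𝒢) h0 h1 hm0 hm1 hK hΓ (Γ_zero hΓ2 hac) hfa hfc hx1 hx2 ba bc b1 b2 e1 e2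
  have hA := hla 𝒢 hI
  have hC := hlc 𝒢 hI
  unfold hG at hA hC
  have B := rhs hfa hfc hx1 hx2 (ce_measurable (𝒢 := 𝒢) _) (ce_measurable (𝒢 := 𝒢) _)
    ba bc b1' b2' (ce_bdd zero_le_one (Eventually.of_forall ba))
    (ce_bdd zero_le_one (Eventually.of_forall bc)) hA hC
  obtain ⟨B1, B2⟩ := B
  have hh : 0 ≤ hG G θ μ 𝒢 o s := by
    unfold hG
    exact integral_nonneg fun ω => sq_nonneg _
  have hQ : QG G θ μ 𝒢 s a c ≤ C2 m K * (72 * hG G θ μ 𝒢 o s) :=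
    le_trans A (mul_le_mul_of_nonneg_left B1 hC2)
  refine ⟨?_, ?_, ?_⟩
  · unfold QG
    exact integral_nonneg fun ω => sq_nonneg _
  · nlinarith
  · intro hs1 l q hl hl1 hq
    have hq' : 2 ≤ q + 1 := by omega
    have k1 := hmom hs1 (q + 1) a c hq' (Or.inl hac)
    have k2 := hmom hs1 (q + 1) c a hq' (Or.inl hac.symm)
    have k3 := hmom hs1 (q + 1) a a hq' (Or.inr rfl)
    have k4 := hmom hs1 (q + 1) c c hq' (Or.inr rfl)
    have k5 := ce_moment (𝒢 := 𝒢) (P := PP μ) hfa (Eventually.of_forall ba) (2 * q + 1)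
    have k6 := ce_moment (𝒢 := 𝒢) (P := PP μ) hfc (Eventually.of_forall bc) (2 * q + 1)
    have e2q : 2 * q + 1 + 1 = 2 * (q + 1) := by ring
    rw [e2q] at k5 k6
    have p2 : (0 : ℝ) ≤ 2 ^ (2 * (q + 1)) := by positivity
    simp only [(even_two_mul (q + 1)).pow_abs (mt G θ s _ a)] at k5
    simp only [(even_two_mul (q + 1)).pow_abs (mt G θ s _ c)] at k6
    have k5' := k5.trans (mul_le_mul_of_nonneg_left k3 p2)
    have k6' := k6.trans (mul_le_mul_of_nonneg_left k4 p2)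
    have B3 := B2 l q (Cq (q + 1) * s ^ (q + 1)) hl hq k1 k2 k3 k4 k5' k6'
    have hQ2 : QG G θ μ 𝒢 s a c ≤ C2 m K * (4 * l * hG G θ μ 𝒢 o s
        + l / l ^ q * (cf q * (Cq (q + 1) * s ^ (q + 1)))) :=
      le_trans A (mul_le_mul_of_nonneg_left B3 hC2)
    refine hQ2.trans ?_
    have hsq : s ^ (q + 1) ≤ s ^ q := pow_le_pow_of_le_one hs.le hs1 (Nat.le_succ q)
    have hlq : 0 ≤ l / l ^ q := by positivity
    have hcc : 0 ≤ cf q * Cq (q + 1) := mul_nonneg (cf_nonneg q) (hCq _)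
    have z1 : l / l ^ q * (cf q * (Cq (q + 1) * s ^ (q + 1)))
        ≤ cf q * Cq (q + 1) * (l / l ^ q * s ^ q) := by
      have := mul_le_mul_of_nonneg_left hsq (mul_nonneg hlq hcc)
      linarith
    have z2 : 0 ≤ cf q * Cq (q + 1) * (l / l ^ q * s ^ q) := by positivity
    have z3 : 0 ≤ l * hG G θ μ 𝒢 o s := mul_nonneg hl.le hh
    have z4 : C2 m K * (4 * l * hG G θ μ 𝒢 o s
        + l / l ^ q * (cf q * (Cq (q + 1) * s ^ (q + 1))))
        ≤ C2 m K * (4 * (l * hG G θ μ 𝒢 o s) + cf q * Cq (q + 1) * (l / l ^ q * s ^ q)) :=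
      mul_le_mul_of_nonneg_left (by linarith) hC2
    refine z4.trans ?_
    nlinarith [mul_nonneg hC2 z2, mul_nonneg hC2 z3]

end planted

end SIQ

open SIQ

theorem siq (hALG1 : S_ALG1.{u}) (hTRANS : S_TRANS.{u}) (hEQUI : S_EQUI.{u})
    (hBASE : S_BASE.{u}) (hHOM : S_HOM.{u}) : S_SIQ.{u} := by
  intro V G d θ hc T
  obtain ⟨C, Cq, hC, hCq, h⟩ := aux hALG1 hTRANS hEQUI hBASE hHOM hc T
  exact ⟨C, Cq, hC, hCq, fun hμ s hs hsT 𝒢 hI o a c hac => h hμ s hs hsT o a c hac 𝒢 hI⟩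

end Vale.Agent.P161C
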