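import Vale.Agent.P161C.SIS3

/-!
# SIS, summation
-/

namespace Vale.Agent.P161C.SIS

open MeasureTheory Vale.Agent.P161 Filter Topology Vale.Agent.P161C.Gp Vale.Agent.P161C.CE

universe u v

variable {V : Type u} {G : SimpleGraph V} {d : ℕ} {θ : ℝ} {Ω : Type v}
  {𝒢 m0 : MeasurableSpace Ω} {P : Measure Ω} {L : Ω → V → V → ℝ} {A : (G ≃g G) → Ω → Ω} {mT : ℝ}

/-- the vertex term -/
noncomputable def tV (G : SimpleGraph V) (θ : ℝ) (P : Measure Ω) (𝒢 : MeasurableSpace Ω)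
    (L : Ω → V → V → ℝ) (o w : V) : ℝ :=
  ∫ ω, XX P 𝒢 L o ω * Real.exp (-2 * SS G θ (L ω) o w) ∂P

/-- the path term -/
noncomputable def tP (G : SimpleGraph V) (θ : ℝ) (P : Measure Ω) (𝒢 : MeasurableSpace Ω)
    (L : Ω → V → V → ℝ) (mT : ℝ) (o w : V) (j : ℕ) : ℝ :=
  ∫ ω, P1 G θ P 𝒢 L mT o w j ω ^ 2 * (Real.exp (-2 * SS G θ (L ω) o w)
        + Real.exp (-2 * SB G θ P 𝒢 L mT o w ω)) ∂P

lemma tP_zero (o w : V) : tP G θ P 𝒢 L mT o w 0 = 0 := by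
  unfold tP P1
  simp

lemma adj_gp (hG : G.IsTree) {o x : V} {j : ℕ} (hj : 1 ≤ j) (hx : G.dist o x = j) :
    G.Adj x (gp G o x (j - 1)) := by
  have h1 := gp_adj hG (v := o) (w := x) (i := j - 1) (by omega)
  have e : j - 1 + 1 = G.dist o x := by omega
  rw [e, gp_last hG] at h1
  exact h1.symm

lemma path_sum_le (hA : Ax G d θ 𝒢 P L A mT) (o : V) {j n : ℕ} (hj : 1 ≤ j) (hjn : j ≤ n)
    {C : ℝ} (hC0 : 0 ≤ C)
    (hC : ∀ x, G.dist o x = j → ∫ ω, FX G θ P 𝒢 L mT o x j ω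
      * aa G θ (fun u p => Real.tanh (L ω u p)) x (gp G o x (j - 1)) (n - j) ∂P ≤ C) :
    θ ^ (2 * n) * ∑ w ∈ sphF G o n, tP G θ P 𝒢 L mT o w j ≤ 2 * C := by
  have h1 := gatherE hA o hj hjn (fun x => FX G θ P 𝒢 L mT o x j) (fun x => FX_meas hA o x j)
    (fun x => FX_nonneg o x j) (fun x => FX_le hA o x j) hC0 hC
  refine le_trans ?_ h1
  apply mul_le_mul_of_nonneg_left _ (by have := hA.h.pos; positivity)
  apply Finset.sum_le_sum
  intro w hw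
  rw [mem_sphF hA.h] at hw
  exact path_le hA (by omega)

lemma path_sum1 (hA : Ax G d θ 𝒢 P L A mT) {K Q : ℝ} (hK : 0 ≤ K) (hQ : 0 ≤ Q)
    (hP1 : ∀ (v w : V) (n : ℕ), n ≤ G.dist v w →
      ∫ ω, P1 G θ P 𝒢 L mT v w n ω ^ 2 ∂P ≤ K * n * Q) (o : V) {j n : ℕ} (hjn : j ≤ n) :
    θ ^ (2 * n) * ∑ w ∈ sphF G o n, tP G θ P 𝒢 L mT o w j ≤ 4 * (K * j * Q) := by
  rcases Nat.eq_zero_or_pos j with rfl | hj
  · simp [tP_zero]
  · have h1 := path_sum_le hA o hj hjn (C := 2 * (K * j * Q)) (by positivity) (fun x hx => by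
      have h2 := fA_le1 hA (adj_gp hA.h.tree hj hx) (n - j) (FX_meas hA o x j)
        (FX_nonneg o x j) (FX_le hA o x j)
      rw [FX_int hA] at h2
      have h3 := hP1 o x j hx.ge
      linarith)
    linarith

lemma path_sum2 (hA : Ax G d θ 𝒢 P L A mT) {r : ℝ} (hr : 0 ≤ r)
    (htr : ∀ (u p : V) (k : ℕ), G.Adj u p →
      P.real {ω | 4 * r ^ (k / 2) < aa G θ (fun u p => Real.tanh (L ω u p)) u p k}
        ≤ Real.exp (-2 * (√2) ^ (k / 2))) {K Q : ℝ} (hK : 0 ≤ K) (hQ : 0 ≤ Q)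
    (hP1 : ∀ (v w : V) (n : ℕ), n ≤ G.dist v w →
      ∫ ω, P1 G θ P 𝒢 L mT v w n ω ^ 2 ∂P ≤ K * n * Q) (o : V) {j n : ℕ} (hjn : j ≤ n) :
    θ ^ (2 * n) * ∑ w ∈ sphF G o n, tP G θ P 𝒢 L mT o w j
      ≤ 2 * (4 * r ^ ((n - j) / 2) * (2 * (K * j * Q))
        + 2 * ((j : ℝ) * LB mT) ^ 2 * Real.exp (-2 * (√2) ^ ((n - j) / 2))) := by
  rcases Nat.eq_zero_or_pos j with rfl | hj
  · simp [tP_zero]
  · refine path_sum_le hA o hj hjn (by positivity) (fun x hx => ?_)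
    have hadj := adj_gp hA.h.tree hj hx
    have h2 := fA_le2 hA hadj (n - j) (FX_meas hA o x j)
      (FX_nonneg o x j) (FX_le hA o x j) (R := 4 * r ^ ((n - j) / 2)) (by positivity)
      (htr _ _ _ hadj)
    rw [FX_int hA] at h2
    refine h2.trans ?_
    have h3 := hP1 o x j hx.ge
    have h4 : 4 * r ^ ((n - j) / 2) * (2 * ∫ ω, P1 G θ P 𝒢 L mT o x j ω ^ 2 ∂P)
        ≤ 4 * r ^ ((n - j) / 2) * (2 * (K * j * Q)) := by
      apply mul_le_mul_of_nonneg_left _ (by positivity)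
      linarith
    linarith

/-! ### one end point -/

lemma SS_sub_SB (hA : Ax G d θ 𝒢 P L A mT) (o w : V) (ω : Ω) :
    SS G θ (L ω) o w - SB G θ P 𝒢 L mT o w ω
      = P1 G θ P 𝒢 L mT o w ((G.dist o w + 1) / 2) ω + P1 G θ P 𝒢 L mT w o (G.dist o w / 2) ω := by
  have h1 := sum_rev hA.h.tree (fun u p => ze θ P 𝒢 L mT u p ω)
    (fun u p => by rw [ze_symm]) (v := o) (w := w) (k := G.dist o w / 2) (by omega)
  have e1 : P1 G θ P 𝒢 L mT w o (G.dist o w / 2) ω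
      = ∑ i ∈ Finset.Ico ((G.dist o w + 1) / 2) (G.dist o w),
        ze θ P 𝒢 L mT (gp G o w i) (gp G o w (i + 1)) ω := by
    have e2 : G.dist o w - G.dist o w / 2 = (G.dist o w + 1) / 2 := by omega
    rw [e2] at h1
    exact h1
  rw [e1]
  unfold P1
  rw [Finset.sum_range_add_sum_Ico _ (by omega)]
  unfold SS SB
  rw [← Finset.sum_sub_distrib]
  rfl

lemma term_le (hA : Ax G d θ 𝒢 P L A mT) (o w : V) :
    ∫ ω, ((cov G θ (L ω) o w - AT G θ P 𝒢 L mT o w ω) ^ 2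
        + cov G θ (L ω) o w ^ 2 * (mv L w ω - (P[mv L w|𝒢]) ω) ^ 2) ∂P
      ≤ 6 * (θ ^ (2 * G.dist o w) * (tV G θ P 𝒢 L o w
        + tP G θ P 𝒢 L mT o w ((G.dist o w + 1) / 2) + tP G θ P 𝒢 L mT o w (G.dist o w / 2))) := by
  have hp := hA.prob
  set n := G.dist o w with hn
  set k := (n + 1) / 2 with hk
  set k' := n / 2 with hk'
  set t : ℝ := θ ^ (2 * n) with ht
  have ht0 : 0 ≤ t := by have := hA.h.pos; positivity
  set e1 : Ω → ℝ := fun ω => Real.exp (-2 * SS G θ (L ω) o w) with he1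
  set e2 : Ω → ℝ := fun ω => Real.exp (-2 * SB G θ P 𝒢 L mT o w ω) with he2
  have q1 : ∀ ω, 0 < e1 ω := fun ω => Real.exp_pos _
  have q2 : ∀ ω, 0 < e2 ω := fun ω => Real.exp_pos _
  have iV : Integrable (fun ω => XX P 𝒢 L o ω * e1 ω) P :=
    mul_exp_int hA (XX_meas hA o) (XX_nonneg o) (XX_le o) (SS_meas hA o w) (SS_nonneg hA o w)
  have iW : Integrable (fun ω => XX P 𝒢 L w ω * e1 ω) P :=
    mul_exp_int hA (XX_meas hA w) (XX_nonneg w) (XX_le w) (SS_meas hA o w) (SS_nonneg hA o w)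
  have iP : ∀ (a b : V) (j : ℕ), Integrable (fun ω => P1 G θ P 𝒢 L mT a b j ω ^ 2
      * (e1 ω + e2 ω)) P := by
    intro a b j
    simp only [mul_add]
    exact (mul_exp_int hA ((P1_meas hA a b j).pow_const 2) (fun ω => sq_nonneg _)
      (P1_sq_le hA a b j) (SS_meas hA o w) (SS_nonneg hA o w)).add
      (mul_exp_int hA ((P1_meas hA a b j).pow_const 2) (fun ω => sq_nonneg _)
      (P1_sq_le hA a b j) (SB_meas hA o w) (SB_nonneg o w))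
  set RHS : Ω → ℝ := fun ω => 3 * t * (XX P 𝒢 L o ω * e1 ω + XX P 𝒢 L w ω * e1 ω
    + 2 * (P1 G θ P 𝒢 L mT o w k ω ^ 2 * (e1 ω + e2 ω))
    + 2 * (P1 G θ P 𝒢 L mT w o k' ω ^ 2 * (e1 ω + e2 ω))) with hRHS
  have iR : Integrable RHS P :=
    (((iV.add iW).add ((iP o w k).const_mul 2)).add ((iP w o k').const_mul 2)).const_mul (3 * t)
  have hpt : ∀ᵐ ω ∂P, (cov G θ (L ω) o w - AT G θ P 𝒢 L mT o w ω) ^ 2
        + cov G θ (L ω) o w ^ 2 * (mv L w ω - (P[mv L w|𝒢]) ω) ^ 2 ≤ RHS ω := by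
    have hb := condExp_abs_le (P := P) hA.le (mv_meas hA w) (fun ω => (mv_le hA w ω).trans
      hA.mlt.le)
    filter_upwards [hb] with ω hb
    have hm4 : (mv L w ω - (P[mv L w|𝒢]) ω) ^ 2 ≤ 4 := by
      have h1 := (mv_le hA w ω).trans hA.mlt.le
      have h2 := (abs_sub (mv L w ω) ((P[mv L w|𝒢]) ω)).trans (add_le_add h1 hb)
      rw [← sq_abs]
      have := pow_le_pow_left₀ (abs_nonneg _) h2 2
      linarith
    have hs := split3 (b1 := bet (L ω) o) (b2 := bet (L ω) w) (c1 := bb P 𝒢 L o ω)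
      (c2 := bb P 𝒢 L w ω) (t := θ ^ n) (S := SS G θ (L ω) o w)
      (S' := SB G θ P 𝒢 L mT o w ω)
      (by rw [abs_of_nonneg (bet_nonneg _ _)]; exact bet_le_one _ _)
      (by rw [abs_of_nonneg (bb_nonneg _ _)]; exact bb_le _ _)
      (by rw [abs_of_nonneg (bb_nonneg _ _)]; exact bb_le _ _)
    have et : (θ ^ n) ^ 2 = t := by rw [ht, ← pow_mul, mul_comm]
    have hc : cov G θ (L ω) o w ^ 2 ≤ t * e1 ω := by
      unfold cov
      have h1 : Real.exp (-SS G θ (L ω) o w) ^ 2 = e1 ω := by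
        simp only [he1]
        rw [← Real.exp_nat_mul]; congr 1; push_cast; ring
      have h2 : (bet (L ω) o * bet (L ω) w * θ ^ G.dist o w
          * Real.exp (-SS G θ (L ω) o w)) ^ 2
          = (bet (L ω) o ^ 2 * bet (L ω) w ^ 2) * ((θ ^ n) ^ 2
            * Real.exp (-SS G θ (L ω) o w) ^ 2) := by rw [← hn]; ring
      rw [h2, et, h1]
      apply mul_le_of_le_one_left (mul_nonneg ht0 (q1 ω).le)
      have a1 : bet (L ω) o ^ 2 ≤ 1 := pow_le_one₀ (bet_nonneg _ _) (bet_le_one _ _)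
      have a2 : bet (L ω) w ^ 2 ≤ 1 := pow_le_one₀ (bet_nonneg _ _) (bet_le_one _ _)
      exact mul_le_one₀ a1 (sq_nonneg _) a2
    have hc2 : cov G θ (L ω) o w ^ 2 * (mv L w ω - (P[mv L w|𝒢]) ω) ^ 2
        ≤ t * e1 ω * (mv L w ω - (P[mv L w|𝒢]) ω) ^ 2 :=
      mul_le_mul_of_nonneg_right hc (sq_nonneg _)
    have hX : (mv L w ω - (P[mv L w|𝒢]) ω) ^ 2 + (bet (L ω) w - bb P 𝒢 L w ω) ^ 2
        = XX P 𝒢 L w ω := by
      unfold XX
      rw [min_eq_right hm4]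
    have hXo : (bet (L ω) o - bb P 𝒢 L o ω) ^ 2 ≤ XX P 𝒢 L o ω := by
      unfold XX
      have : 0 ≤ min 4 ((mv L o ω - (P[mv L o|𝒢]) ω) ^ 2) :=
        le_min (by norm_num) (sq_nonneg _)
      linarith
    have hS := SS_sub_SB hA o w ω
    have hS2 : (SS G θ (L ω) o w - SB G θ P 𝒢 L mT o w ω) ^ 2
        ≤ 2 * P1 G θ P 𝒢 L mT o w k ω ^ 2 + 2 * P1 G θ P 𝒢 L mT w o k' ω ^ 2 := by
      rw [hS]
      nlinarith [sq_nonneg (P1 G θ P 𝒢 L mT o w k ω - P1 G θ P 𝒢 L mT w o k' ω)]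
    have hS3 := mul_le_mul_of_nonneg_right hS2 (add_pos (q1 ω) (q2 ω)).le
    have hXo2 := mul_le_mul_of_nonneg_right hXo (q1 ω).le
    have hs' : (cov G θ (L ω) o w - AT G θ P 𝒢 L mT o w ω) ^ 2
        ≤ 3 * t * ((bet (L ω) o - bb P 𝒢 L o ω) ^ 2 * e1 ω
          + (bet (L ω) w - bb P 𝒢 L w ω) ^ 2 * e1 ω
          + (SS G θ (L ω) o w - SB G θ P 𝒢 L mT o w ω) ^ 2 * (e1 ω + e2 ω)) := by
      rw [← et]
      unfold cov AT
      rw [← hn]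
      exact hs
    simp only [hRHS]
    rw [← hX]
    have hm0 : 0 ≤ (mv L w ω - (P[mv L w|𝒢]) ω) ^ 2 * e1 ω := mul_nonneg (sq_nonneg _) (q1 ω).le
    have h9 : 3 * t * ((bet (L ω) o - bb P 𝒢 L o ω) ^ 2 * e1 ω
          + (bet (L ω) w - bb P 𝒢 L w ω) ^ 2 * e1 ω
          + (SS G θ (L ω) o w - SB G θ P 𝒢 L mT o w ω) ^ 2 * (e1 ω + e2 ω))
        ≤ 3 * t * (XX P 𝒢 L o ω * e1 ω + (bet (L ω) w - bb P 𝒢 L w ω) ^ 2 * e1 ω
          + (2 * P1 G θ P 𝒢 L mT o w k ω ^ 2 + 2 * P1 G θ P 𝒢 L mT w o k' ω ^ 2)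
            * (e1 ω + e2 ω)) := by
      apply mul_le_mul_of_nonneg_left _ (by positivity)
      linarith
    have h10 : t * e1 ω * (mv L w ω - (P[mv L w|𝒢]) ω) ^ 2
        ≤ 3 * t * ((mv L w ω - (P[mv L w|𝒢]) ω) ^ 2 * e1 ω) := by
      have := mul_nonneg ht0 hm0
      nlinarith
    calc _ ≤ _ := add_le_add (hs'.trans h9) (hc2.trans h10)
      _ = _ := by ring
  have h1 : ∫ ω, ((cov G θ (L ω) o w - AT G θ P 𝒢 L mT o w ω) ^ 2
        + cov G θ (L ω) o w ^ 2 * (mv L w ω - (P[mv L w|𝒢]) ω) ^ 2) ∂P ≤ ∫ ω, RHS ω ∂P := by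
    apply integral_mono_of_nonneg _ iR hpt
    filter_upwards with ω
    positivity
  refine h1.trans ?_
  have e3 : ∫ ω, XX P 𝒢 L w ω * e1 ω ∂P = tV G θ P 𝒢 L o w := by
    have h2 := swap hA (fun v w ω => XX P 𝒢 L w ω * Real.exp (-2 * SS G θ (L ω) v w))
      (fun v w => (XX_meas hA w).mul (Real.measurable_exp.comp ((SS_meas hA v w).const_mul (-2))))
      (fun g v w => by
        filter_upwards [XX_equi hA g w] with ω h3
        rw [h3, SS_equi hA]) o w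
    refine h2.trans ?_
    unfold tV
    congr 1
    funext ω
    rw [SS_symm hA.h.tree (L ω) o w]
  have e4 : ∫ ω, P1 G θ P 𝒢 L mT w o k' ω ^ 2 * (e1 ω + e2 ω) ∂P
      = tP G θ P 𝒢 L mT o w k' := by
    have h2 := swap hA (fun v w ω => P1 G θ P 𝒢 L mT w v k' ω ^ 2
        * (Real.exp (-2 * SS G θ (L ω) v w) + Real.exp (-2 * SB G θ P 𝒢 L mT v w ω)))
      (fun v w => ((P1_meas hA w v k').pow_const 2).mul
        ((Real.measurable_exp.comp ((SS_meas hA v w).const_mul (-2))).add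
          (Real.measurable_exp.comp ((SB_meas hA v w).const_mul (-2)))))
      (fun g v w => by
        filter_upwards [P1_equi hA g w v k', SB_equi hA g v w] with ω h3 h4
        rw [h3, h4, SS_equi hA]) o w
    refine h2.trans ?_
    unfold tP
    congr 1
    funext ω
    rw [SS_symm hA.h.tree (L ω) o w]
    have e5 : SB G θ P 𝒢 L mT w o ω = SB G θ P 𝒢 L mT o w ω := by
      unfold SB
      have e : G.dist w o = G.dist o w := SimpleGraph.dist_comm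
      rw [e, sum_rev hA.h.tree (fun u p => eb θ P 𝒢 L mT u p ω)
        (fun u p => by rw [eb_symm]) le_rfl, Nat.sub_self, Nat.Ico_zero_eq_range]
    rw [e5]
  have e6 : ∫ ω, RHS ω ∂P = 3 * t * (tV G θ P 𝒢 L o w + tV G θ P 𝒢 L o w
      + 2 * tP G θ P 𝒢 L mT o w k + 2 * tP G θ P 𝒢 L mT o w k') := by
    have i5 : Integrable (fun ω => XX P 𝒢 L o ω * e1 ω + XX P 𝒢 L w ω * e1 ω) P := iV.add iW
    have i6 : Integrable (fun ω => XX P 𝒢 L o ω * e1 ω + XX P 𝒢 L w ω * e1 ω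
      + 2 * (P1 G θ P 𝒢 L mT o w k ω ^ 2 * (e1 ω + e2 ω))) P :=
      i5.add ((iP o w k).const_mul 2)
    simp only [hRHS]
    rw [integral_const_mul, integral_add i6 ((iP w o k').const_mul 2),
      integral_add i5 ((iP o w k).const_mul 2),
      integral_add iV iW, integral_const_mul, integral_const_mul, e3, e4]
    rfl
  rw [e6]
  apply le_of_eq
  ring

/-! ### spheres -/

lemma sphere_le1 (hA : Ax G d θ 𝒢 P L A mT) {K Q : ℝ} (hK : 0 ≤ K) (hQ : 0 ≤ Q)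
    (hP1 : ∀ (v w : V) (n : ℕ), n ≤ G.dist v w →
      ∫ ω, P1 G θ P 𝒢 L mT v w n ω ^ 2 ∂P ≤ K * n * Q) (o : V) (n : ℕ) :
    ∑ w ∈ sphF G o n, ∫ ω, ((cov G θ (L ω) o w - AT G θ P 𝒢 L mT o w ω) ^ 2
        + cov G θ (L ω) o w ^ 2 * (mv L w ω - (P[mv L w|𝒢]) ω) ^ 2) ∂P
      ≤ 12 * ∫ ω, XX P 𝒢 L o ω ∂P + 24 * K * Q * n := by
  have h1 := vertex_le hA o n
  have h2 := path_sum1 hA hK hQ hP1 o (j := (n + 1) / 2) (n := n) (by omega)
  have h3 := path_sum1 hA hK hQ hP1 o (j := n / 2) (n := n) (by omega)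
  have h4 : ∑ w ∈ sphF G o n, ∫ ω, ((cov G θ (L ω) o w - AT G θ P 𝒢 L mT o w ω) ^ 2
        + cov G θ (L ω) o w ^ 2 * (mv L w ω - (P[mv L w|𝒢]) ω) ^ 2) ∂P
      ≤ ∑ w ∈ sphF G o n, 6 * (θ ^ (2 * n) * (tV G θ P 𝒢 L o w
        + tP G θ P 𝒢 L mT o w ((n + 1) / 2) + tP G θ P 𝒢 L mT o w (n / 2))) := by
    apply Finset.sum_le_sum
    intro w hw
    rw [mem_sphF hA.h] at hw
    have := term_le hA o w
    rw [hw] at this
    exact this
  have h5 : ∑ w ∈ sphF G o n, 6 * (θ ^ (2 * n) * (tV G θ P 𝒢 L o w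
        + tP G θ P 𝒢 L mT o w ((n + 1) / 2) + tP G θ P 𝒢 L mT o w (n / 2)))
      = 6 * (θ ^ (2 * n) * ∑ w ∈ sphF G o n, tV G θ P 𝒢 L o w
        + θ ^ (2 * n) * ∑ w ∈ sphF G o n, tP G θ P 𝒢 L mT o w ((n + 1) / 2)
        + θ ^ (2 * n) * ∑ w ∈ sphF G o n, tP G θ P 𝒢 L mT o w (n / 2)) := by
    rw [← Finset.mul_sum, ← Finset.mul_sum, Finset.sum_add_distrib, Finset.sum_add_distrib]
    ring
  have h6 : (((n + 1) / 2 : ℕ) : ℝ) + ((n / 2 : ℕ) : ℝ) = n := by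
    have : (n + 1) / 2 + n / 2 = n := by omega
    exact_mod_cast this
  rw [h5] at h4
  have h7 : θ ^ (2 * n) * ∑ w ∈ sphF G o n, tV G θ P 𝒢 L o w ≤ 2 * ∫ ω, XX P 𝒢 L o ω ∂P := h1
  have h8 : 4 * (K * (((n + 1) / 2 : ℕ) : ℝ) * Q) + 4 * (K * ((n / 2 : ℕ) : ℝ) * Q)
      = 4 * K * Q * n := by rw [← h6]; ring
  linarith

lemma sphere_le2 (hA : Ax G d θ 𝒢 P L A mT) {r : ℝ} (hr : 0 ≤ r) (hr1 : r ≤ 1)
    (htr : ∀ (u p : V) (k : ℕ), G.Adj u p →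
      P.real {ω | 4 * r ^ (k / 2) < aa G θ (fun u p => Real.tanh (L ω u p)) u p k}
        ≤ Real.exp (-2 * (√2) ^ (k / 2))) {K Q : ℝ} (hK : 0 ≤ K) (hQ : 0 ≤ Q)
    (hP1 : ∀ (v w : V) (n : ℕ), n ≤ G.dist v w →
      ∫ ω, P1 G θ P 𝒢 L mT v w n ω ^ 2 ∂P ≤ K * n * Q) (o : V) {n : ℕ} (hn : 1 ≤ n) :
    ∑ w ∈ sphF G o n, ∫ ω, ((cov G θ (L ω) o w - AT G θ P 𝒢 L mT o w ω) ^ 2
        + cov G θ (L ω) o w ^ 2 * (mv L w ω - (P[mv L w|𝒢]) ω) ^ 2) ∂P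
      ≤ 48 * (∫ ω, XX P 𝒢 L o ω ∂P) * r ^ (n / 4) + 96 * K * Q * (n * r ^ (n / 4))
        + (60 + 24 * LB mT ^ 2) * ((n : ℝ) ^ 2 * Real.exp (-2 * (√2) ^ (n / 4))) := by
  have h1 := vertex_le2 hA hr htr o hn
  have h2 := path_sum2 hA hr htr hK hQ hP1 o (j := (n + 1) / 2) (n := n) (by omega)
  have h3 := path_sum2 hA hr htr hK hQ hP1 o (j := n / 2) (n := n) (by omega)
  have h4 : ∑ w ∈ sphF G o n, ∫ ω, ((cov G θ (L ω) o w - AT G θ P 𝒢 L mT o w ω) ^ 2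
        + cov G θ (L ω) o w ^ 2 * (mv L w ω - (P[mv L w|𝒢]) ω) ^ 2) ∂P
      ≤ ∑ w ∈ sphF G o n, 6 * (θ ^ (2 * n) * (tV G θ P 𝒢 L o w
        + tP G θ P 𝒢 L mT o w ((n + 1) / 2) + tP G θ P 𝒢 L mT o w (n / 2))) := by
    apply Finset.sum_le_sum
    intro w hw
    rw [mem_sphF hA.h] at hw
    have := term_le hA o w
    rw [hw] at this
    exact this
  have h5 : ∑ w ∈ sphF G o n, 6 * (θ ^ (2 * n) * (tV G θ P 𝒢 L o w
        + tP G θ P 𝒢 L mT o w ((n + 1) / 2) + tP G θ P 𝒢 L mT o w (n / 2)))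
      = 6 * (θ ^ (2 * n) * ∑ w ∈ sphF G o n, tV G θ P 𝒢 L o w
        + θ ^ (2 * n) * ∑ w ∈ sphF G o n, tP G θ P 𝒢 L mT o w ((n + 1) / 2)
        + θ ^ (2 * n) * ∑ w ∈ sphF G o n, tP G θ P 𝒢 L mT o w (n / 2)) := by
    rw [← Finset.mul_sum, ← Finset.mul_sum, Finset.sum_add_distrib, Finset.sum_add_distrib]
    ring
  rw [h5] at h4
  refine h4.trans ?_
  have hH := int_XX_nonneg (P := P) (𝒢 := 𝒢) (L := L) o
  set H := ∫ ω, XX P 𝒢 L o ω ∂P with hHdef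
  set ρ := r ^ (n / 4) with hρ
  set E := Real.exp (-2 * (√2) ^ (n / 4)) with hE
  have hρ0 : 0 ≤ ρ := by positivity
  have hE0 : 0 ≤ E := (Real.exp_pos _).le
  have h22 : (1 : ℝ) ≤ √2 := one_lt_sqrt2.le
  have rp : ∀ m : ℕ, n / 4 ≤ m → r ^ m ≤ ρ := fun m hm => pow_le_pow_of_le_one hr hr1 hm
  have ep : ∀ m : ℕ, n / 4 ≤ m → Real.exp (-2 * (√2) ^ m) ≤ E := by
    intro m hm
    apply Real.exp_le_exp.2
    have : (√2) ^ (n / 4) ≤ (√2) ^ m := pow_le_pow_right₀ h22 hm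
    linarith
  have h7 : θ ^ (2 * n) * ∑ w ∈ sphF G o n, tV G θ P 𝒢 L o w ≤ 2 * (4 * ρ * H + 5 * E) := by
    refine h1.trans ?_
    have a1 := rp ((n - 1) / 2) (by omega)
    have a2 := ep ((n - 1) / 2) (by omega)
    have a3 := mul_le_mul_of_nonneg_right a1 hH
    linarith
  have hpath : ∀ j : ℕ, n / 4 ≤ (n - j) / 2 →
      2 * (4 * r ^ ((n - j) / 2) * (2 * (K * j * Q))
        + 2 * ((j : ℝ) * LB mT) ^ 2 * Real.exp (-2 * (√2) ^ ((n - j) / 2)))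
      ≤ 16 * K * Q * (j * ρ) + 4 * LB mT ^ 2 * ((j : ℝ) ^ 2 * E) := by
    intro j hj
    have a1 := rp _ hj
    have a2 := ep _ hj
    have a3 := mul_le_mul_of_nonneg_right a1 (show 0 ≤ K * j * Q by positivity)
    have a4 := mul_le_mul_of_nonneg_left a2 (sq_nonneg ((j : ℝ) * LB mT))
    have e1 : 16 * K * Q * (j * ρ) + 4 * LB mT ^ 2 * ((j : ℝ) ^ 2 * E)
      = 16 * (ρ * (K * j * Q)) + 4 * (((j : ℝ) * LB mT) ^ 2 * E) := by ring
    rw [e1]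
    linarith
  have h8 := h2.trans (hpath ((n + 1) / 2) (by omega))
  have h9 := h3.trans (hpath (n / 2) (by omega))
  have hj : (((n + 1) / 2 : ℕ) : ℝ) + ((n / 2 : ℕ) : ℝ) = n := by
    have : (n + 1) / 2 + n / 2 = n := by omega
    exact_mod_cast this
  have j0 : (0 : ℝ) ≤ (((n + 1) / 2 : ℕ) : ℝ) := Nat.cast_nonneg _
  have j1 : (0 : ℝ) ≤ ((n / 2 : ℕ) : ℝ) := Nat.cast_nonneg _
  have hj2 : (((n + 1) / 2 : ℕ) : ℝ) ^ 2 + ((n / 2 : ℕ) : ℝ) ^ 2 ≤ (n : ℝ) ^ 2 := by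
    rw [← hj]; nlinarith
  have hn1 : (1 : ℝ) ≤ (n : ℝ) ^ 2 := by
    have : (1 : ℝ) ≤ n := by exact_mod_cast hn
    nlinarith
  have b1 : 16 * K * Q * ((((n + 1) / 2 : ℕ) : ℝ) * ρ) + 16 * K * Q * (((n / 2 : ℕ) : ℝ) * ρ)
      = 16 * K * Q * (n * ρ) := by rw [← hj]; ring
  have b2 : 4 * LB mT ^ 2 * ((((n + 1) / 2 : ℕ) : ℝ) ^ 2 * E)
      + 4 * LB mT ^ 2 * (((n / 2 : ℕ) : ℝ) ^ 2 * E) ≤ 4 * LB mT ^ 2 * ((n : ℝ) ^ 2 * E) := by
    have := mul_le_mul_of_nonneg_right hj2 hE0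
    have h10 := mul_le_mul_of_nonneg_left this (show 0 ≤ 4 * LB mT ^ 2 by positivity)
    calc _ = 4 * LB mT ^ 2 * (((((n + 1) / 2 : ℕ) : ℝ) ^ 2 + ((n / 2 : ℕ) : ℝ) ^ 2) * E) := by
          ring
      _ ≤ _ := h10
  have b3 : E ≤ (n : ℝ) ^ 2 * E := by
    have := mul_le_mul_of_nonneg_right hn1 hE0
    linarith
  have b4 : 6 * (2 * (4 * ρ * H + 5 * E) + 16 * K * Q * (n * ρ)
      + 4 * LB mT ^ 2 * ((n : ℝ) ^ 2 * E))
      ≤ 48 * H * ρ + 96 * K * Q * (n * ρ) + (60 + 24 * LB mT ^ 2) * ((n : ℝ) ^ 2 * E) := by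
    have e1 : 6 * (2 * (4 * ρ * H + 5 * E) + 16 * K * Q * (n * ρ)
      + 4 * LB mT ^ 2 * ((n : ℝ) ^ 2 * E))
      = 48 * H * ρ + 96 * K * Q * (n * ρ) + 24 * LB mT ^ 2 * ((n : ℝ) ^ 2 * E) + 60 * E := by ring
    have e2 : 48 * H * ρ + 96 * K * Q * (n * ρ) + (60 + 24 * LB mT ^ 2) * ((n : ℝ) ^ 2 * E)
      = 48 * H * ρ + 96 * K * Q * (n * ρ) + 24 * LB mT ^ 2 * ((n : ℝ) ^ 2 * E)
        + 60 * ((n : ℝ) ^ 2 * E) := by ring
    rw [e1, e2]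
    linarith
  refine le_trans ?_ b4
  have b5 := add_le_add h8 h9
  apply mul_le_mul_of_nonneg_left _ (by norm_num)
  linarith

theorem abs_sis (hA : Ax G d θ 𝒢 P L A mT) {r : ℝ} (hr : 0 < r) (hr1 : r < 1)
    (htr : ∀ (u p : V) (k : ℕ), G.Adj u p →
      P.real {ω | 4 * r ^ (k / 2) < aa G θ (fun u p => Real.tanh (L ω u p)) u p k}
        ≤ Real.exp (-2 * (√2) ^ (k / 2))) {K Q : ℝ} (hK : 0 ≤ K) (hQ : 0 ≤ Q)
    (hP1 : ∀ (v w : V) (n : ℕ), n ≤ G.dist v w →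
      ∫ ω, P1 G θ P 𝒢 L mT v w n ω ^ 2 ∂P ≤ K * n * Q) (o : V) (N : ℕ) (S : Finset V) :
    ∑ w ∈ S, ∫ ω, ((cov G θ (L ω) o w - AT G θ P 𝒢 L mT o w ω) ^ 2
        + cov G θ (L ω) o w ^ 2 * (mv L w ω - (P[mv L w|𝒢]) ω) ^ 2) ∂P
      ≤ 12 * (∫ ω, XX P 𝒢 L o ω ∂P) * (N + 1) + 24 * K * Q * (N : ℝ) ^ 2
        + 48 * (∫ ω, XX P 𝒢 L o ω ∂P) * (r⁻¹ * (4 / (1 - r)))
        + 96 * K * Q * (r⁻¹ * (16 / (1 - r) ^ 2)) + (60 + 24 * LB mT ^ 2) * err N := by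
  classical
  set F : V → ℝ := fun w => ∫ ω, ((cov G θ (L ω) o w - AT G θ P 𝒢 L mT o w ω) ^ 2
        + cov G θ (L ω) o w ^ 2 * (mv L w ω - (P[mv L w|𝒢]) ω) ^ 2) ∂P with hF
  have hF0 : ∀ w, 0 ≤ F w := fun w => integral_nonneg fun ω => by positivity
  have hH := int_XX_nonneg (P := P) (𝒢 := 𝒢) (L := L) o
  set H := ∫ ω, XX P 𝒢 L o ω ∂P with hHdef
  obtain ⟨M, hM⟩ : ∃ M : ℕ, ∀ w ∈ S, G.dist o w < M := by
    refine ⟨S.sup (fun w => G.dist o w) + 1, fun w hw => ?_⟩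
    exact Nat.lt_succ_of_le (Finset.le_sup (f := fun w => G.dist o w) hw)
  have h1 : ∑ w ∈ S, F w ≤ ∑ n ∈ Finset.range (N + 1 + M), ∑ w ∈ sphF G o n, F w := by
    have hmap : ∀ w ∈ S, G.dist o w ∈ Finset.range (N + 1 + M) := by
      intro w hw
      have := hM w hw
      rw [Finset.mem_range]; omega
    rw [← Finset.sum_fiberwise_of_maps_to hmap]
    apply Finset.sum_le_sum
    intro n _
    apply Finset.sum_le_sum_of_subset_of_nonneg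
    · intro w hw
      rw [Finset.mem_filter] at hw
      rw [mem_sphF hA.h]
      exact hw.2
    · intro w _ _
      exact hF0 w
  refine h1.trans ?_
  rw [Finset.sum_range_add]
  have h2 : ∑ n ∈ Finset.range (N + 1), ∑ w ∈ sphF G o n, F w
      ≤ 12 * H * (N + 1) + 24 * K * Q * (N : ℝ) ^ 2 := by
    calc ∑ n ∈ Finset.range (N + 1), ∑ w ∈ sphF G o n, F w
        ≤ ∑ n ∈ Finset.range (N + 1), (12 * H + 24 * K * Q * n) :=
          Finset.sum_le_sum fun n _ => sphere_le1 hA hK hQ hP1 o n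
      _ = 12 * H * (N + 1) + 24 * K * Q * ∑ n ∈ Finset.range (N + 1), (n : ℝ) := by
          rw [Finset.sum_add_distrib, Finset.sum_const, Finset.card_range, nsmul_eq_mul,
            ← Finset.mul_sum]
          push_cast; ring
      _ ≤ _ := by
          have := mul_le_mul_of_nonneg_left (sum_id_le N) (show 0 ≤ 24 * K * Q by positivity)
          linarith
  have h3 : ∑ m ∈ Finset.range M, ∑ w ∈ sphF G o (N + 1 + m), F w
      ≤ 48 * H * (r⁻¹ * (4 / (1 - r))) + 96 * K * Q * (r⁻¹ * (16 / (1 - r) ^ 2))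
        + (60 + 24 * LB mT ^ 2) * err N := by
    calc ∑ m ∈ Finset.range M, ∑ w ∈ sphF G o (N + 1 + m), F w
        ≤ ∑ m ∈ Finset.range M, (48 * H * r ^ ((N + 1 + m) / 4)
          + 96 * K * Q * (((N + 1 + m : ℕ) : ℝ) * r ^ ((N + 1 + m) / 4))
          + (60 + 24 * LB mT ^ 2) * (((N + 1 + m : ℕ) : ℝ) ^ 2
            * Real.exp (-2 * (√2) ^ ((N + 1 + m) / 4)))) :=
          Finset.sum_le_sum fun m _ => sphere_le2 hA hr.le hr1.le htr hK hQ hP1 o (by omega)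
      _ = 48 * H * ∑ m ∈ Finset.range M, r ^ ((N + 1 + m) / 4)
          + 96 * K * Q * ∑ m ∈ Finset.range M, ((N + 1 + m : ℕ) : ℝ) * r ^ ((N + 1 + m) / 4)
          + (60 + 24 * LB mT ^ 2) * ∑ m ∈ Finset.range M, ((N + 1 + m : ℕ) : ℝ) ^ 2
            * Real.exp (-2 * (√2) ^ ((N + 1 + m) / 4)) := by
          rw [Finset.sum_add_distrib, Finset.sum_add_distrib, ← Finset.mul_sum,
            ← Finset.mul_sum, ← Finset.mul_sum]
      _ ≤ _ := by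
          have a1 := mul_le_mul_of_nonneg_left (sum_pow_le1 hr hr1 (N + 1) M)
            (show 0 ≤ 48 * H by positivity)
          have a2 := mul_le_mul_of_nonneg_left (sum_pow_le2 hr hr1 (N + 1) M)
            (show 0 ≤ 96 * K * Q by positivity)
          have a3 := mul_le_mul_of_nonneg_left (sum_err_le N M)
            (show 0 ≤ 60 + 24 * LB mT ^ 2 by positivity)
          linarith
  linarith

/-- the vertex error is at most a constant times the mean square distance of the magnetisation -/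
lemma int_XX_le (hA : Ax G d θ 𝒢 P L A mT) (o : V) :
    ∫ ω, XX P 𝒢 L o ω ∂P
      ≤ (1 + 1 / (1 - mT ^ 2)) * ∫ ω, (mv L o ω - (P[mv L o|𝒢]) ω) ^ 2 ∂P := by
  have hp := hA.prob
  have hmT : 0 < 1 - mT ^ 2 := by have := hA.mpos; have := hA.mlt; nlinarith
  have hb := condExp_abs_le (P := P) hA.le (mv_meas hA o) (mv_le hA o)
  have hcm : Measurable (P[mv L o|𝒢]) := stronglyMeasurable_condExp.measurable.mono hA.le le_rfl
  have i1 : Integrable (fun ω => (mv L o ω - (P[mv L o|𝒢]) ω) ^ 2) P := by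
    refine Integrable.of_bound (((mv_meas hA o).sub hcm).pow_const 2).aestronglyMeasurable
      ((mT + mT) ^ 2) ?_
    filter_upwards [hb] with ω hb
    rw [Real.norm_eq_abs, abs_pow]
    exact pow_le_pow_left₀ (abs_nonneg _) ((abs_sub _ _).trans (add_le_add (mv_le hA o ω) hb)) 2
  have i2 : Integrable (fun ω => (bet (L ω) o - bb P 𝒢 L o ω) ^ 2) P := by
    refine bdd_int hA (((bet_meas hA o).sub (bb_meas hA o)).pow_const 2) (B := 1)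
      (fun ω => sq_nonneg _) (fun ω => ?_)
    have a1 := bet_nonneg (L ω) o
    have a2 := bet_le_one (L ω) o
    have a3 := bb_nonneg (P := P) (𝒢 := 𝒢) (L := L) o ω
    have a4 := bb_le (P := P) (𝒢 := 𝒢) (L := L) o ω
    nlinarith
  have h1 : ∫ ω, XX P 𝒢 L o ω ∂P ≤ ∫ ω, ((mv L o ω - (P[mv L o|𝒢]) ω) ^ 2
      + (bet (L ω) o - bb P 𝒢 L o ω) ^ 2) ∂P := by
    apply integral_mono (bdd_int hA (XX_meas hA o) (XX_nonneg o) (XX_le o)) (i1.add i2)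
    intro ω
    change XX P 𝒢 L o ω ≤ (mv L o ω - (P[mv L o|𝒢]) ω) ^ 2 + (bet (L ω) o - bb P 𝒢 L o ω) ^ 2
    unfold XX
    have := min_le_right 4 ((mv L o ω - (P[mv L o|𝒢]) ω) ^ 2)
    linarith
  rw [integral_add i1 i2] at h1
  -- the second term
  have hce := ce_ae (P := P) hA.le (bet_int hA o) (fun ω => bet_nonneg (L ω) o)
    (fun ω => bet_le_one (L ω) o)
  have e1 : ∫ ω, (bet (L ω) o - bb P 𝒢 L o ω) ^ 2 ∂P
      = ∫ ω, (bet (L ω) o - (P[fun ω => bet (L ω) o|𝒢]) ω) ^ 2 ∂P := by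
    apply integral_congr_ae
    filter_upwards [hce] with ω h
    unfold bb
    rw [h]
  have hψ : Measurable[𝒢] fun ω => √(1 - (P[mv L o|𝒢]) ω ^ 2) := by
    have h2 : Measurable[𝒢] (P[mv L o|𝒢]) := stronglyMeasurable_condExp.measurable
    exact (measurable_const.sub (h2.pow_const 2)).sqrt
  have h3 := l2min (P := P) hA.le (bet_meas hA o) (B := 1) (fun ω => by
    rw [abs_of_nonneg (bet_nonneg _ _)]; exact bet_le_one _ _) hψ (C := 1)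
    (Eventually.of_forall fun ω => by
      rw [abs_of_nonneg (Real.sqrt_nonneg _), Real.sqrt_le_one]
      have := sq_nonneg ((P[mv L o|𝒢]) ω)
      linarith)
  have h4 : ∫ ω, (bet (L ω) o - √(1 - (P[mv L o|𝒢]) ω ^ 2)) ^ 2 ∂P
      ≤ ∫ ω, 1 / (1 - mT ^ 2) * (mv L o ω - (P[mv L o|𝒢]) ω) ^ 2 ∂P := by
    apply integral_mono_of_nonneg (Eventually.of_forall fun ω => sq_nonneg _)
      (i1.const_mul _)
    filter_upwards [hb] with ω hb
    set a := mv L o ω with ha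
    set b := (P[mv L o|𝒢]) ω with hb'
    have ea : bet (L ω) o = √(1 - a ^ 2) := rfl
    rw [ea]
    have ha2 : a ^ 2 ≤ mT ^ 2 := by
      rw [← sq_abs]; exact pow_le_pow_left₀ (abs_nonneg _) (mv_le hA o ω) 2
    have hb2 : b ^ 2 ≤ mT ^ 2 := by
      rw [← sq_abs]; exact pow_le_pow_left₀ (abs_nonneg _) hb 2
    have s1 : 0 ≤ √(1 - a ^ 2) := Real.sqrt_nonneg _
    have s2 : 0 ≤ √(1 - b ^ 2) := Real.sqrt_nonneg _
    have s3 : √(1 - a ^ 2) ^ 2 = 1 - a ^ 2 := Real.sq_sqrt (by linarith)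
    have s4 : √(1 - b ^ 2) ^ 2 = 1 - b ^ 2 := Real.sq_sqrt (by linarith)
    set x := √(1 - a ^ 2)
    set y := √(1 - b ^ 2)
    have h5 : (x - y) ^ 2 * (x + y) ^ 2 = (a - b) ^ 2 * (a + b) ^ 2 := by
      have e1 : (x - y) * (x + y) = (b - a) * (a + b) := by nlinarith
      calc (x - y) ^ 2 * (x + y) ^ 2 = ((x - y) * (x + y)) ^ 2 := by ring
        _ = ((b - a) * (a + b)) ^ 2 := by rw [e1]
        _ = _ := by ring
    have hmT1 : mT ^ 2 ≤ 1 := by linarith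
    have h6 : (a + b) ^ 2 ≤ 4 := by nlinarith [sq_nonneg (a - b)]
    have h7 : 4 * (1 - mT ^ 2) ≤ (x + y) ^ 2 := by
      have hx2 : 1 - mT ^ 2 ≤ x ^ 2 := by linarith
      have hy2 : 1 - mT ^ 2 ≤ y ^ 2 := by linarith
      have hxy : 1 - mT ^ 2 ≤ x * y := by
        by_contra hc
        push Not at hc
        have : (x * y) ^ 2 < (1 - mT ^ 2) ^ 2 := by
          apply pow_lt_pow_left₀ hc (mul_nonneg s1 s2) (by norm_num)
        have h8 : (1 - mT ^ 2) * (1 - mT ^ 2) ≤ x ^ 2 * y ^ 2 :=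
          mul_le_mul hx2 hy2 hmT.le (sq_nonneg _)
        nlinarith
      nlinarith
    rw [one_div, ← div_eq_inv_mul, le_div_iff₀ hmT]
    have h9 : (x - y) ^ 2 * (4 * (1 - mT ^ 2)) ≤ (x - y) ^ 2 * (x + y) ^ 2 :=
      mul_le_mul_of_nonneg_left h7 (sq_nonneg _)
    have h10 : (a - b) ^ 2 * (a + b) ^ 2 ≤ (a - b) ^ 2 * 4 :=
      mul_le_mul_of_nonneg_left h6 (sq_nonneg _)
    linarith
  rw [integral_const_mul] at h4
  rw [e1] at h1
  have : (1 + 1 / (1 - mT ^ 2)) * ∫ ω, (mv L o ω - (P[mv L o|𝒢]) ω) ^ 2 ∂P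
    = ∫ ω, (mv L o ω - (P[mv L o|𝒢]) ω) ^ 2 ∂P
      + 1 / (1 - mT ^ 2) * ∫ ω, (mv L o ω - (P[mv L o|𝒢]) ω) ^ 2 ∂P := by ring
  linarith

end Vale.Agent.P161C.SIS
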