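import Vale.Agent.P161C.Plan
import Vale.Agent.P161C.SIS4
import Vale.Agent.P161.IsingUniq

/-!
# SIS: the static inequality
-/

namespace Vale.Agent.P161C.SIS

open MeasureTheory Vale.Agent.P161 Filter Topology Vale.Agent.P161C.Gp Vale.Agent.P161C.CE

universe u v

section
variable {V : Type u} {G : SimpleGraph V} {d : ℕ} {θ : ℝ} {Ω : Type v}
  {𝒢 m0 : MeasurableSpace Ω} {P : Measure Ω} {L : Ω → V → V → ℝ} {A : (G ≃g G) → Ω → Ω} {mT : ℝ}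

lemma AT_meas (v w : V) : Measurable[𝒢] (AT G θ P 𝒢 L mT v w) := by
  unfold AT
  have h1 : Measurable[𝒢] (SB G θ P 𝒢 L mT v w) := by
    unfold SB
    exact Finset.measurable_sum _ fun i _ => ce_meas (P := P) (𝒢 := 𝒢) _ _
  have h2 : Measurable[𝒢] fun ω => Real.exp (-SB G θ P 𝒢 L mT v w ω) :=
    Real.measurable_exp.comp h1.neg
  exact ((((ce_meas (P := P) (𝒢 := 𝒢) _ _).mul (ce_meas (P := P) (𝒢 := 𝒢) _ _)).mul_const _).mul
    h2)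

lemma AT_le (h : Crit G d θ) (v w : V) (ω : Ω) : |AT G θ P 𝒢 L mT v w ω| ≤ 1 := by
  unfold AT
  have a1 := bb_nonneg (P := P) (𝒢 := 𝒢) (L := L) v ω
  have a2 := bb_le (P := P) (𝒢 := 𝒢) (L := L) v ω
  have a3 := bb_nonneg (P := P) (𝒢 := 𝒢) (L := L) w ω
  have a4 := bb_le (P := P) (𝒢 := 𝒢) (L := L) w ω
  have a5 : 0 ≤ θ ^ G.dist v w := by have := h.pos; positivity
  have a6 : θ ^ G.dist v w ≤ 1 := pow_le_one₀ h.pos.le (theta_lt_one h).le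
  have a7 : Real.exp (-SB G θ P 𝒢 L mT v w ω) ≤ 1 :=
    Real.exp_le_one_iff.2 (by
      have := SB_nonneg (G := G) (θ := θ) (P := P) (𝒢 := 𝒢) (L := L) (mT := mT) v w ω
      linarith)
  have a8 := Real.exp_pos (-SB G θ P 𝒢 L mT v w ω)
  rw [abs_of_nonneg (by positivity)]
  exact mul_le_one₀ (mul_le_one₀ (mul_le_one₀ a2 a3 a4) a5 a6) a8.le a7

end

/-- the choice of the constant -/
noncomputable def CC (θ c mT K : ℝ) : ℝ :=
  12 * (1 + 1 / (1 - mT ^ 2)) + 24 * K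
    + 48 * (1 + 1 / (1 - mT ^ 2)) * (θ⁻¹ * (4 / min c (1 - θ)))
    + 96 * K * (θ⁻¹ * (16 / min c (1 - θ) ^ 2)) + (60 + 24 * LB mT ^ 2)

lemma CC_pos {θ c mT K : ℝ} (hθ0 : 0 < θ) (hθ1 : θ < 1) (hc0 : 0 < c) (hm0 : 0 < mT)
    (hm1 : mT < 1) (hK : 0 < K) : 0 < CC θ c mT K := by
  have hc'0 : 0 < min c (1 - θ) := lt_min hc0 (by linarith)
  have hmT : 0 < 1 - mT ^ 2 := by nlinarith
  unfold CC
  positivity

lemma coeff_le {A1 A2 A3 A4 A5 v1 v2 v3 v4 e Q : ℝ} (p1 : 0 ≤ A1) (p2 : 0 ≤ A2) (p3 : 0 ≤ A3)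
    (p4 : 0 ≤ A4) (p5 : 0 ≤ A5) (w1 : 0 ≤ v1) (w2 : 0 ≤ v2) (w3 : 0 ≤ v3) (w4 : 0 ≤ v4)
    (he : 0 ≤ e) (hQ : 0 ≤ Q) :
    A1 * v1 + A2 * v3 + A3 * v2 + A4 * v4 + A5 * e
      ≤ (A1 + A2 + A3 + A4 + A5) * ((v1 + v2) + (v3 + Q + v4) + e) := by
  have e1 : (A1 + A2 + A3 + A4 + A5) * ((v1 + v2) + (v3 + Q + v4) + e)
      = A1 * v1 + A2 * v3 + A3 * v2 + A4 * v4 + A5 * e
        + ((A2 + A3 + A4 + A5) * v1 + (A1 + A3 + A4 + A5) * v3 + (A1 + A2 + A4 + A5) * v2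
        + (A1 + A2 + A3 + A5) * v4 + (A1 + A2 + A3 + A4) * e
        + (A1 + A2 + A3 + A4 + A5) * Q) := by ring
  rw [e1]
  have rest : 0 ≤ (A2 + A3 + A4 + A5) * v1 + (A1 + A3 + A4 + A5) * v3
        + (A1 + A2 + A4 + A5) * v2
        + (A1 + A2 + A3 + A5) * v4 + (A1 + A2 + A3 + A4) * e
        + (A1 + A2 + A3 + A4 + A5) * Q := by positivity
  linarith

lemma r_bounds {θ c z : ℝ} (hθ0 : 0 < θ) (hθ1 : θ < 1) (hc0 : 0 < c) (hz0 : 0 < z)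
    (hz1 : z ≤ 1) : min c (1 - θ) * z ≤ 1 - max (1 - c * z) θ := by
  have hc'0 : 0 < min c (1 - θ) := lt_min hc0 (by linarith)
  have h1 : max (1 - c * z) θ ≤ 1 - min c (1 - θ) * z := by
    apply max_le
    · have := mul_le_mul_of_nonneg_right (min_le_left c (1 - θ)) hz0.le
      linarith
    · have h2 := min_le_right c (1 - θ)
      have h3 : min c (1 - θ) * z ≤ min c (1 - θ) := mul_le_of_le_one_right hc'0.le hz1
      linarith
  linarith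

lemma real_part {θ c z mT K H Q h0 e : ℝ} {N : ℕ} (hθ0 : 0 < θ) (hθ1 : θ < 1) (hc0 : 0 < c)
    (hz0 : 0 < z) (hz1 : z ≤ 1) (hm0 : 0 < mT) (hm1 : mT < 1) (hK : 0 < K) (hQ0 : 0 ≤ Q)
    (hh00 : 0 ≤ h0) (hX0 : 0 ≤ H) (hX : H ≤ (1 + 1 / (1 - mT ^ 2)) * h0) (he : 0 ≤ e) :
    12 * H * (N + 1) + 24 * K * Q * (N : ℝ) ^ 2
        + 48 * H * ((max (1 - c * z) θ)⁻¹ * (4 / (1 - max (1 - c * z) θ)))
        + 96 * K * Q * ((max (1 - c * z) θ)⁻¹ * (16 / (1 - max (1 - c * z) θ) ^ 2))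
        + (60 + 24 * LB mT ^ 2) * e
      ≤ CC θ c mT K * ((N + 1 + 1 / z) * h0 + ((N : ℝ) ^ 2 + 1 + 1 / z ^ 2) * Q + e) := by
  have hc'0 : 0 < min c (1 - θ) := lt_min hc0 (by linarith)
  have hr1 := r_bounds hθ0 hθ1 hc0 hz0 hz1
  have hrθ : θ ≤ max (1 - c * z) θ := le_max_right _ _
  unfold CC
  generalize max (1 - c * z) θ = r at hr1 hrθ
  generalize min c (1 - θ) = c' at hc'0 hr1
  have hmT : 0 < 1 - mT ^ 2 := by nlinarith
  have hκ0 : 0 < 1 + 1 / (1 - mT ^ 2) := by positivity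
  generalize 1 + 1 / (1 - mT ^ 2) = κ at hX hκ0
  generalize LB mT = B
  have hr0 : 0 < r := lt_of_lt_of_le hθ0 hrθ
  have hcz : 0 < c' * z := mul_pos hc'0 hz0
  have r1 : r⁻¹ ≤ θ⁻¹ := inv_anti₀ hθ0 hrθ
  have r2 : 4 / (1 - r) ≤ 4 / c' * (1 / z) := by
    rw [div_mul_div_comm, mul_one]
    exact div_le_div_of_nonneg_left (by norm_num) hcz hr1
  have r3 : 16 / (1 - r) ^ 2 ≤ 16 / c' ^ 2 * (1 / z ^ 2) := by
    rw [div_mul_div_comm, mul_one, ← mul_pow]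
    exact div_le_div_of_nonneg_left (by norm_num) (by positivity)
      (pow_le_pow_left₀ hcz.le hr1 2)
  have r4 : 0 < r⁻¹ := inv_pos.2 hr0
  have r5 : 0 < 1 - r := by linarith
  have r6 : r⁻¹ * (4 / (1 - r)) ≤ θ⁻¹ * (4 / c') * (1 / z) := by
    rw [mul_assoc]
    exact mul_le_mul r1 r2 (by positivity) (by positivity)
  have r7 : r⁻¹ * (16 / (1 - r) ^ 2) ≤ θ⁻¹ * (16 / c' ^ 2) * (1 / z ^ 2) := by
    rw [mul_assoc]
    exact mul_le_mul r1 r3 (by positivity) (by positivity)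
  have t1 : 12 * H * (N + 1) ≤ 12 * κ * ((N + 1) * h0) := by
    have := mul_le_mul_of_nonneg_right hX (show (0:ℝ) ≤ 12 * (N + 1) by positivity)
    calc 12 * H * ((N : ℝ) + 1) = H * (12 * (N + 1)) := by ring
      _ ≤ κ * h0 * (12 * (N + 1)) := this
      _ = _ := by ring
  have t2 : 48 * H * (r⁻¹ * (4 / (1 - r))) ≤ 48 * κ * (θ⁻¹ * (4 / c')) * (1 / z * h0) := by
    calc 48 * H * (r⁻¹ * (4 / (1 - r))) ≤ 48 * (κ * h0) * (θ⁻¹ * (4 / c') * (1 / z)) := by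
          apply mul_le_mul _ r6 (by positivity) (by positivity)
          linarith
      _ = _ := by ring
  have t3 : 96 * K * Q * (r⁻¹ * (16 / (1 - r) ^ 2))
      ≤ 96 * K * (θ⁻¹ * (16 / c' ^ 2)) * (1 / z ^ 2 * Q) := by
    calc 96 * K * Q * (r⁻¹ * (16 / (1 - r) ^ 2))
        ≤ 96 * K * Q * (θ⁻¹ * (16 / c' ^ 2) * (1 / z ^ 2)) :=
          mul_le_mul_of_nonneg_left r7 (by positivity)
      _ = _ := by ring
  have n0 : (0 : ℝ) ≤ N := Nat.cast_nonneg N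
  have p1 : 0 ≤ 12 * κ := by positivity
  have p2 : 0 ≤ 24 * K := by positivity
  have p3 : 0 ≤ 48 * κ * (θ⁻¹ * (4 / c')) := by positivity
  have p4 : 0 ≤ 96 * K * (θ⁻¹ * (16 / c' ^ 2)) := by positivity
  have p5 : 0 ≤ 60 + 24 * B ^ 2 := by positivity
  have v1 : 0 ≤ ((N : ℝ) + 1) * h0 := by positivity
  have v2 : 0 ≤ 1 / z * h0 := by positivity
  have v3 : 0 ≤ (N : ℝ) ^ 2 * Q := by positivity
  have v4 : 0 ≤ 1 / z ^ 2 * Q := by positivity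
  have key := coeff_le p1 p2 p3 p4 p5 v1 v2 v3 v4 he hQ0
  have t5 : 24 * K * Q * (N : ℝ) ^ 2 = 24 * K * ((N : ℝ) ^ 2 * Q) := by ring
  have e9 : ((N : ℝ) + 1 + 1 / z) * h0 + ((N : ℝ) ^ 2 + 1 + 1 / z ^ 2) * Q + e
      = (((N : ℝ) + 1) * h0 + 1 / z * h0) + ((N : ℝ) ^ 2 * Q + Q + 1 / z ^ 2 * Q) + e := by ring
  rw [e9, t5]
  refine le_trans ?_ key
  linarith

end Vale.Agent.P161C.SIS

namespace Vale.Agent.P161C

open MeasureTheory Vale.Agent.P161 Filter Topology SIS Gp CE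

universe u

namespace SIS

variable {V : Type u} {G : SimpleGraph V} {d : ℕ} {θ : ℝ}

lemma meas_slice {α β : Type*} {mα : MeasurableSpace α} {mβ : MeasurableSpace β} {f : α × β → ℝ}
    (hf : Measurable f) (a : α) : Measurable fun b => f (a, b) :=
  hf.comp (measurable_const.prodMk measurable_id)

lemma isProb_PP {μ : Measure (V → Bool)} [Nonempty V] (hμ : IsFreeIsing G θ μ) :
    IsProbabilityMeasure (PP μ) := by
  have hprobμ : IsProbabilityMeasure μ := isProb_of_isFreeIsing hμ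
  have hlam : IsProbabilityMeasure (lam V) := by unfold lam; infer_instance
  unfold PP
  infer_instance

/-- the concrete setting satisfies the abstract hypotheses -/
lemma mkAx (h : Crit G d θ) (hALG3 : S_ALG3.{u}) (hEQUI : S_EQUI.{u}) (hBASE : S_BASE.{u})
    (hHOM : S_HOM.{u}) {μ : Measure (V → Bool)} (hμ : IsFreeIsing G θ μ) [Nonempty V]
    {T s : ℝ} (hsT : s ≤ T) {mT : ℝ} (hm0 : 0 < mT) (hm1 : mT < 1)
    (hmb : ∀ (s : ℝ) (ω : Om V) (u p : V), s ≤ T → |Real.tanh (Lt G θ s ω u p)| ≤ mT)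
    {𝒢 : MeasurableSpace (Om V)} (hinv : InvG G 𝒢) :
    Ax G d θ 𝒢 (PP μ) (Lt G θ s) (fun g => act g.toEquiv) mT := by
  obtain ⟨bm, _⟩ := hBASE h
  obtain ⟨eq1, _, _, _, eq5⟩ := hEQUI h
  exact
    { h := h
      le := hinv.le
      prob := isProb_PP hμ
      meas := fun u p => meas_slice (bm u p) s
      mpos := hm0
      mlt := hm1
      bd := fun ω u p => hmb s ω u p hsT
      alg := (hALG3 h).1
      comap := hinv.act
      mp := (eq5 hμ).1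
      equi := fun g ω u p => eq1 g s ω u p
      hom := fun u w u' w' => hHOM h u w u' w' }

/-- the path errors, from TEMP -/
lemma hP1 {K : ℝ} {μ : Measure (V → Bool)}
    (hTE : ∀ (ζ : V → V → Om V → ℝ) (B : ℝ), (∀ u p, Measurable (ζ u p)) →
      (∀ u p ω, |ζ u p ω| ≤ B) →
      (∀ u p, G.Adj u p → ζ u p =ᵐ[PP μ] ζ p u) →
      (∀ (g : G ≃g G) (u p : V), G.Adj u p →
        ∀ᵐ ω ∂(PP μ), ζ (g u) (g p) (act g.toEquiv ω) = ζ u p ω) →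
      (∀ u p, G.Adj u p → ∀ᵐ ω ∂(PP μ), ζ u p (flp ω) = ζ u p ω) →
      (∀ u p, G.Adj u p → ∫ ω, ζ u p ω ∂(PP μ) = 0) →
      ∀ (v w a c : V), G.Adj a c → ∀ n : ℕ, n ≤ G.dist v w →
        ∫ ω, (∑ i ∈ Finset.range n, ζ (gp G v w i) (gp G v w (i + 1)) ω) ^ 2 ∂(PP μ)
          ≤ K * n * ∫ ω, ζ a c ω ^ 2 ∂(PP μ))
    {s mT : ℝ} (eq2 : ∀ (ω : Om V) (u p : V), Lt G θ s (flp ω) u p = - Lt G θ s ω u p)
    (mpf : MeasurePreserving flp (PP μ) (PP μ))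
    {𝒢 : MeasurableSpace (Om V)} (hinv : InvG G 𝒢)
    (hA : Ax G d θ 𝒢 (PP μ) (Lt G θ s) (fun g => act g.toEquiv) mT) {a e : V} (hae : G.Adj a e)
    (v w : V) (n : ℕ) (hn : n ≤ G.dist v w) :
    ∫ ω, P1 G θ (PP μ) 𝒢 (Lt G θ s) mT v w n ω ^ 2 ∂(PP μ) ≤ K * n * QG G θ μ 𝒢 s a e := by
  have hprob := hA.prob
  have hQ : ∫ ω, ze θ (PP μ) 𝒢 (Lt G θ s) mT a e ω ^ 2 ∂(PP μ) = QG G θ μ 𝒢 s a e := by
    unfold QG
    apply integral_congr_ae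
    filter_upwards [ce_ae (P := PP μ) hA.le (el_int hA a e) (el_nonneg hA a e) (el_le hA a e)]
      with ω hω
    unfold ze eb
    rw [hω]
    rfl
  have h1 := hTE (ze θ (PP μ) 𝒢 (Lt G θ s) mT) (LB mT) (fun u p => ze_meas hA u p)
    (fun u p ω => ze_le hA u p ω)
    (fun u p _ => by rw [ze_symm])
    (fun g u p _ => ze_equi hA g u p)
    (fun u p _ => by
      have h2 := ce_comp (P := PP μ) hA.le mpf hinv.flp (LB mT) (el_int hA u p)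
      have e1 : (fun ω => el θ (Lt G θ s) u p (flp ω)) = el θ (Lt G θ s) u p := by
        funext ω
        unfold el ell
        rw [eq2, eq2, Real.tanh_neg, Real.tanh_neg, neg_sq, neg_sq]
      rw [e1] at h2
      filter_upwards [h2] with ω h2
      have e2 : el θ (Lt G θ s) u p (flp ω) = el θ (Lt G θ s) u p ω := congrFun e1 ω
      unfold ze eb
      rw [h2, e2])
    (fun u p _ => by
      have h2 := ce_orth (P := PP μ) hA.le (el_int hA u p) (el_nonneg hA u p) (el_le hA u p)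
        (g := fun _ => 1) measurable_const (C := 1) (by simp)
      simp only [mul_one] at h2
      exact h2)
    v w a e hae n hn
  rw [hQ] at h1
  exact h1

end SIS

theorem sis (hTRANS : S_TRANS.{u}) (hTEMP : S_TEMP.{u}) (hALG3 : S_ALG3.{u})
    (hEQUI : S_EQUI.{u}) (hBASE : S_BASE.{u}) (hHOM : S_HOM.{u}) : S_SIS.{u} := by
  intro V G d θ h T
  obtain ⟨c, hc0, _, _, _, hTR⟩ := hTRANS h T
  obtain ⟨K, hK, hTE⟩ := hTEMP h
  obtain ⟨_, _, _, _, bT⟩ := hBASE h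
  obtain ⟨mT, hm0, hm1, hmb⟩ := bT T
  obtain ⟨_, eq2, _, _, eq5⟩ := hEQUI h
  have hθ1 := theta_lt_one h
  have hθ0 := h.pos
  refine ⟨CC θ c mT K, CC_pos hθ0 hθ1 hc0 hm0 hm1 hK, ?_⟩
  intro μ hμ s hs0 hsT 𝒢 hinv o a e hae
  have : Nonempty V := ⟨o⟩
  have hA := mkAx h hALG3 hEQUI hBASE hHOM hμ hsT hm0 hm1 hmb hinv
  have hz0 : 0 < min s 1 := lt_min hs0 one_pos
  have hz1 : min s 1 ≤ 1 := min_le_right _ _
  have hr1 := r_bounds hθ0 hθ1 hc0 hz0 hz1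
  have hr0 : 0 < max (1 - c * min s 1) θ := lt_of_lt_of_le hθ0 (le_max_right _ _)
  have hr2 : max (1 - c * min s 1) θ < 1 := by
    have : 0 < min c (1 - θ) * min s 1 := mul_pos (lt_min hc0 (by linarith)) hz0
    linarith
  have hQ0 : 0 ≤ QG G θ μ 𝒢 s a e := integral_nonneg fun ω => sq_nonneg _
  have hh00 : 0 ≤ hG G θ μ 𝒢 o s := integral_nonneg fun ω => sq_nonneg _
  refine ⟨fun w => AT G θ (PP μ) 𝒢 (Lt G θ s) mT o w, fun w => AT_meas o w,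
    fun w ω => AT_le h o w ω, ?_⟩
  intro N S
  have hmain := abs_sis hA hr0 hr2 (hTR hμ s hs0 hsT).2.2.1 hK.le hQ0
    (fun v w n hn => SIS.hP1 (hTE hμ) (fun ω u p => eq2 s ω u p) (eq5 hμ).2 hinv hA hae v w n hn)
    o N S
  refine le_trans hmain ?_
  have hX : ∫ ω, XX (PP μ) 𝒢 (Lt G θ s) o ω ∂(PP μ)
      ≤ (1 + 1 / (1 - mT ^ 2)) * hG G θ μ 𝒢 o s := int_XX_le hA o
  exact real_part hθ0 hθ1 hc0 hz0 hz1 hm0 hm1 hK hQ0 hh00 (int_XX_nonneg o) hX (err_nonneg N)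

end Vale.Agent.P161C
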