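import Vale.Agent.P161C.SumTail

/-!
# P161 critical point: SUMJ, the posterior mean is the sum of its jumps
-/

namespace Vale.Agent.P161C.SumB

open MeasureTheory Vale.Agent.P161 Filter Topology

universe u

variable {V : Type u} {G : SimpleGraph V} {d : ℕ} {θ : ℝ}

/-- the events in the ball, as a finite set -/
noncomputable def EF (G : SimpleGraph V) (v : V) (J n : ℕ) : Finset (V × ℕ) :=
  open Classical in ((Finset.range (n + 1)).biUnion fun k => sphF G v k) ×ˢ Finset.range J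

lemma mem_EF (hc : Crit G d θ) {v : V} {J n : ℕ} {k : V × ℕ} :
    k ∈ EF G v J n ↔ G.dist v k.1 ≤ n ∧ k.2 < J := by
  classical
  unfold EF
  rw [Finset.mem_product, Finset.mem_biUnion, Finset.mem_range]
  constructor
  · rintro ⟨⟨i, hi, hi2⟩, hj⟩
    rw [mem_sphF hc] at hi2
    rw [Finset.mem_range] at hi
    exact ⟨by omega, hj⟩
  · rintro ⟨h1, h2⟩
    exact ⟨⟨G.dist v k.1, Finset.mem_range.2 (by omega), (mem_sphF hc).2 rfl⟩, h2⟩

lemma coe_EF (hc : Crit G d θ) (v : V) (J n : ℕ) :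
    ((EF G v J n : Finset (V × ℕ)) : Set (V × ℕ)) = En G v J n := by
  ext k
  rw [Finset.mem_coe, mem_EF hc]
  rfl

variable {μ : Measure (V → Bool)} [IsProbabilityMeasure μ]

/-- the posterior mean in finite volume, minus part of the jumps -/
lemma rest_eq (hPOST : S_POST.{u}) (hc : Crit G d θ) (hμ : IsFreeIsing G θ μ) (J n : ℕ) (v : V)
    (s : ℝ) (S : Finset (V × ℕ)) (hS : S ⊆ EF G v J n) :
    ∫ ω, (mE G θ J (En G v J n) v s ω - ∑ k ∈ S, xE G θ J (En G v J n) v s k ω) ^ 2 ∂(PP μ)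
      = ∑ k ∈ (open Classical in EF G v J n \ S), ∫ ω, xE G θ J (En G v J n) v s k ω ^ 2
        ∂(PP μ) := by
  classical
  have hinj : ∀ᵐ ω ∂(PP μ), ∀ k ∈ EF G v J n, ∀ l ∈ EF G v J n,
      kap ω.2.1 k = kap ω.2.1 l → k = l := by
    rw [eventually_all_finset]
    intro k _
    rw [eventually_all_finset]
    intro l _
    by_cases h : l = k
    · exact Eventually.of_forall fun ω _ => h.symm
    · filter_upwards [RT.ae_kap_ne (μ := μ) h] with ω hω h'
      exact absurd h' hω
  have e1 : ∫ ω, (mE G θ J (En G v J n) v s ω - ∑ k ∈ S, xE G θ J (En G v J n) v s k ω) ^ 2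
      ∂(PP μ) = ∫ ω, (∑ k ∈ EF G v J n \ S, xE G θ J (En G v J n) v s k ω) ^ 2 ∂(PP μ) := by
    apply integral_congr_ae
    filter_upwards [hinj] with ω hω
    have h1 := mE_eq_sum (G := G) (θ := θ) J v s ω (EF G v J n) hω
    rw [coe_EF hc] at h1
    have h2 : mE G θ J (En G v J n) v s ω
        = ∑ k ∈ EF G v J n, xE G θ J (En G v J n) v s k ω := h1
    rw [h2, ← Finset.sum_sdiff hS, add_sub_cancel_right]
  rw [e1]
  refine integral_sum_sq (PP μ) _ (fun k => xE G θ J (En G v J n) v s k)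
    (fun k => measurable_xE J _ v s k) (fun k ω => abs_xE_le J _ v s k ω) ?_
  intro k hk l hl hkl
  have hk' := (mem_EF hc).1 (Finset.mem_sdiff.1 hk).1
  have hl' := (mem_EF hc).1 (Finset.mem_sdiff.1 hl).1
  exact xE_orth hPOST hc hμ J _ (fun m hm => hm.2) v s hk' hl' hkl

lemma rest_le (hPOST : S_POST.{u}) (hALG2 : S_ALG2.{u}) (hALG3 : S_ALG3.{u})
    (hTRANS : S_TRANS.{u}) (hc : Crit G d θ) (J : ℕ) {ε : ℝ} (hε : 0 < ε) :
    ∃ R : ℕ, ∀ {μ : Measure (V → Bool)}, IsProbabilityMeasure μ → IsFreeIsing G θ μ →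
      ∀ (v : V) (s : ℝ), ∀ᶠ n in atTop, ∀ S : Finset (V × ℕ), EF G v J R ⊆ S → S ⊆ EF G v J n →
        ∫ ω, (mE G θ J (En G v J n) v s ω - ∑ k ∈ S, xE G θ J (En G v J n) v s k ω) ^ 2 ∂(PP μ)
          ≤ ε := by
  classical
  obtain ⟨c, hc0, hc1, hT⟩ := tail_le hPOST hALG2 hALG3 hTRANS hc J
  obtain ⟨R, hR⟩ := tail_tendsto hc0 hc1 J hε
  refine ⟨R, ?_⟩
  intro μ _ hμ v s
  filter_upwards [hR] with n hn S hS1 hS2
  rw [rest_eq hPOST hc hμ J n v s S hS2]
  have hA : ∀ k ∈ EF G v J n \ S, R < G.dist v k.1 ∧ G.dist v k.1 ≤ n ∧ k.2 < J := by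
    intro k hk
    rw [Finset.mem_sdiff] at hk
    have h1 := (mem_EF hc).1 hk.1
    refine ⟨?_, h1.1, h1.2⟩
    by_contra h
    exact hk.2 (hS1 ((mem_EF hc).2 ⟨not_lt.1 h, h1.2⟩))
  have h := (hT ‹_› hμ R n v s _ hA).trans hn
  have hint : ∀ k, Integrable (fun ω => xE G θ J (En G v J n) v s k ω ^ 2) (PP μ) := by
    intro k
    apply integrable_of_bdd (B := 4) ((measurable_xE J _ v s k).pow_const 2)
    intro ω
    have := abs_xE_le (G := G) (θ := θ) J (En G v J n) v s k ω
    change |xE G θ J (En G v J n) v s k ω ^ 2| ≤ 4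
    rw [abs_of_nonneg (sq_nonneg _), ← sq_abs]
    nlinarith [abs_nonneg (xE G θ J (En G v J n) v s k ω)]
  have e : ∑ k ∈ EF G v J n \ S,
      ∫⁻ ω, ENNReal.ofReal (xE G θ J (En G v J n) v s k ω ^ 2) ∂(PP μ)
      = ENNReal.ofReal (∑ k ∈ EF G v J n \ S, ∫ ω, xE G θ J (En G v J n) v s k ω ^ 2 ∂(PP μ)) := by
    rw [ENNReal.ofReal_sum_of_nonneg (fun k _ => integral_nonneg fun ω => sq_nonneg _)]
    apply Finset.sum_congr rfl
    intro k _
    exact (ofReal_integral_eq_lintegral_ofReal (hint k)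
      (Eventually.of_forall fun ω => sq_nonneg _)).symm
  rw [e] at h
  exact (ENNReal.ofReal_le_ofReal_iff hε.le).1 h

end Vale.Agent.P161C.SumB

namespace Vale.Agent.P161C

open MeasureTheory Vale.Agent.P161 Filter Topology SumB

universe u

/-- SUMJ -/
theorem sumj (hPOST : S_POST.{u}) (hALG2 : S_ALG2.{u}) (hALG3 : S_ALG3.{u})
    (hTRANS : S_TRANS.{u}) : S_SUMJ.{u} := by
  classical
  intro V G d θ hc μ hμ v s hs ε hε
  have hne : Nonempty V := ⟨v⟩
  have hprob : IsProbabilityMeasure μ := isProb_of_isFreeIsing hμ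
  set J := ⌈s⌉₊ with hJ
  obtain ⟨R, hR⟩ := rest_le hPOST hALG2 hALG3 hTRANS hc J (show 0 < ε / 6 by positivity)
  refine ⟨EF G v J R, ?_⟩
  intro S hS
  set S' : Finset (V × ℕ) := S.filter fun k => k.2 < J with hS'
  have hRS' : EF G v J R ⊆ S' := by
    intro k hk
    rw [hS', Finset.mem_filter]
    exact ⟨hS hk, ((mem_EF hc).1 hk).2⟩
  -- the three contributions
  have h1 := tendsto_mE hPOST hc hμ v s (le_refl J)
  have h2 : ∀ k ∈ S', Tendsto (fun n => ∫ ω, (xE G θ J Set.univ v s k ω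
      - xE G θ J (En G v J n) v s k ω) ^ 2 ∂(PP μ)) atTop (𝓝 0) := fun k _ =>
    tendsto_xE hPOST hc hμ v s (le_refl J) k
  have h2' : Tendsto (fun n => (S'.card : ℝ) * ∑ k ∈ S', ∫ ω, (xE G θ J Set.univ v s k ω
      - xE G θ J (En G v J n) v s k ω) ^ 2 ∂(PP μ)) atTop (𝓝 0) := by
    have := (tendsto_finsetSum S' h2).const_mul (S'.card : ℝ)
    simpa using this
  have h3 : ∀ᶠ n in atTop, S' ⊆ EF G v J n := by
    have : ∀ k ∈ S', ∀ᶠ n in atTop, k ∈ EF G v J n := by
      intro k hk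
      filter_upwards [eventually_ge_atTop (G.dist v k.1)] with n hn
      rw [hS', Finset.mem_filter] at hk
      exact (mem_EF hc).2 ⟨hn, hk.2⟩
    exact (eventually_all_finset S').2 this
  obtain ⟨n, hn1, hn2, hn3, hn4⟩ := ((h1.eventually (gt_mem_nhds (show 0 < ε / 12 by positivity))).and
    ((h2'.eventually (gt_mem_nhds (show 0 < ε / 12 by positivity))).and
      (h3.and (hR hprob hμ v s)))).exists
  have hn4' := hn4 S' hRS' hn3
  -- rewrite the statement
  have e1 : ∀ ω : Om V, (mt G θ s ω v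
      - ∑ k ∈ S, (if kap ω.2.1 k < s then Jm G θ ω v k else 0)) ^ 2
      = (mE G θ J Set.univ v s ω - ∑ k ∈ S', xE G θ J Set.univ v s k ω) ^ 2 := by
    intro ω
    rw [mt_eq v s (le_refl J)]
    congr 2
    rw [hS', Finset.sum_filter]
    apply Finset.sum_congr rfl
    intro k _
    rw [Jm_eq v s (le_refl J) k ω]
    by_cases hk : k.2 < J
    · rw [if_pos hk]
    · rw [if_neg hk]
      unfold xE
      rw [if_neg]
      intro h
      exact hk (Is_lt (show k ∈ Is ω.2.1 s from h))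
  have hgoal : ∫ ω, (mt G θ s ω v
      - ∑ k ∈ S, (if kap ω.2.1 k < s then Jm G θ ω v k else 0)) ^ 2 ∂(PP μ) ≤ ε := by
    rw [integral_congr_ae (Eventually.of_forall e1)]
    -- the three pieces
    set a : Om V → ℝ := fun ω => mE G θ J Set.univ v s ω - mE G θ J (En G v J n) v s ω with ha
    set b : Om V → ℝ := fun ω => mE G θ J (En G v J n) v s ω
      - ∑ k ∈ S', xE G θ J (En G v J n) v s k ω with hb
    set e : Om V → ℝ := fun ω => ∑ k ∈ S', (xE G θ J Set.univ v s k ω
      - xE G θ J (En G v J n) v s k ω) with he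
    have bm : ∀ (E : Set (V × ℕ)) (ω : Om V), |mE G θ J E v s ω| ≤ 1 := fun E ω =>
      abs_Mm_le (G := G) (θ := θ) (fld J (E ∩ Is ω.2.1 s) ω) v v
    have bs : ∀ (E : Set (V × ℕ)) (ω : Om V), |∑ k ∈ S', xE G θ J E v s k ω| ≤ 2 * S'.card := by
      intro E ω
      refine (Finset.abs_sum_le_sum_abs _ _).trans ?_
      refine (Finset.sum_le_card_nsmul S' _ 2 fun k _ => abs_xE_le J E v s k ω).trans (le_of_eq ?_)
      rw [nsmul_eq_mul]
      ring
    have he' : ∀ ω, e ω = ∑ k ∈ S', xE G θ J Set.univ v s k ω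
        - ∑ k ∈ S', xE G θ J (En G v J n) v s k ω := by
      intro ω
      rw [he]
      exact Finset.sum_sub_distrib _ _
    have am : Measurable a := (measurable_mE J _ v s).sub (measurable_mE J _ v s)
    have bmm : Measurable b := (measurable_mE J _ v s).sub
      (Finset.measurable_sum _ fun k _ => measurable_xE J _ v s k)
    have emm : Measurable e := Finset.measurable_sum _ fun k _ =>
      (measurable_xE J _ v s k).sub (measurable_xE J _ v s k)
    have ba : ∀ ω, |a ω| ≤ 2 := by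
      intro ω
      have h1 := bm Set.univ ω
      have h2 := bm (En G v J n) ω
      rw [ha]
      refine (abs_sub _ _).trans ?_
      linarith
    have bb : ∀ ω, |b ω| ≤ 1 + 2 * S'.card := by
      intro ω
      rw [hb]
      refine (abs_sub _ _).trans ?_
      exact add_le_add (bm _ ω) (bs _ ω)
    have be : ∀ ω, |e ω| ≤ 4 * S'.card := by
      intro ω
      rw [he' ω]
      refine (abs_sub _ _).trans ?_
      have h1 := bs Set.univ ω
      have h2 := bs (En G v J n) ω
      linarith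
    have isq : ∀ (f : Om V → ℝ) (B : ℝ), Measurable f → (∀ ω, |f ω| ≤ B) →
        Integrable (fun ω => f ω ^ 2) (PP μ) := by
      intro f B hf hB
      apply integrable_of_bdd (B := B ^ 2) (hf.pow_const 2)
      intro ω
      change |f ω ^ 2| ≤ B ^ 2
      rw [abs_of_nonneg (sq_nonneg _), ← sq_abs]
      exact pow_le_pow_left₀ (abs_nonneg _) (hB ω) 2
    have ia := isq a _ am ba
    have ib := isq b _ bmm bb
    have ie := isq e _ emm be
    have hmain : ∫ ω, (mE G θ J Set.univ v s ω - ∑ k ∈ S', xE G θ J Set.univ v s k ω) ^ 2 ∂(PP μ)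
        ≤ ∫ ω, (3 * a ω ^ 2 + (3 * b ω ^ 2 + 3 * e ω ^ 2)) ∂(PP μ) := by
      refine integral_mono_of_nonneg (Eventually.of_forall fun ω => sq_nonneg _)
        ((ia.const_mul 3).add ((ib.const_mul 3).add (ie.const_mul 3)))
        (Eventually.of_forall fun ω => ?_)
      have h4 : mE G θ J Set.univ v s ω - ∑ k ∈ S', xE G θ J Set.univ v s k ω
          = a ω + b ω - e ω := by
        rw [he' ω, ha, hb]
        ring
      dsimp only
      rw [h4]
      nlinarith [sq_nonneg (a ω - b ω), sq_nonneg (a ω + e ω), sq_nonneg (b ω + e ω)]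
    refine hmain.trans ?_
    have ibe : Integrable (fun ω => 3 * b ω ^ 2 + 3 * e ω ^ 2) (PP μ) :=
      (ib.const_mul 3).add (ie.const_mul 3)
    rw [integral_add (ia.const_mul 3) ibe,
      integral_add (ib.const_mul 3) (ie.const_mul 3), integral_const_mul, integral_const_mul,
      integral_const_mul]
    have h5 : ∫ ω, e ω ^ 2 ∂(PP μ) ≤ (S'.card : ℝ) * ∑ k ∈ S', ∫ ω, (xE G θ J Set.univ v s k ω
        - xE G θ J (En G v J n) v s k ω) ^ 2 ∂(PP μ) := by
      have hik : ∀ k, Integrable (fun ω => (xE G θ J Set.univ v s k ω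
          - xE G θ J (En G v J n) v s k ω) ^ 2) (PP μ) := by
        intro k
        apply isq (fun ω => xE G θ J Set.univ v s k ω - xE G θ J (En G v J n) v s k ω) 4
          ((measurable_xE J _ v s k).sub (measurable_xE J _ v s k))
        intro ω
        refine (abs_sub _ _).trans ?_
        have h1 := abs_xE_le (G := G) (θ := θ) J Set.univ v s k ω
        have h2 := abs_xE_le (G := G) (θ := θ) J (En G v J n) v s k ω
        linarith
      rw [← integral_finsetSum _ (fun k _ => hik k), ← integral_const_mul]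
      refine integral_mono_of_nonneg (Eventually.of_forall fun ω => sq_nonneg _)
        ((integrable_finsetSum _ fun k _ => hik k).const_mul _) (Eventually.of_forall fun ω => ?_)
      exact sq_sum_le_card_mul_sum_sq
    have h6 : ∫ ω, a ω ^ 2 ∂(PP μ) < ε / 12 := hn1
    have h7 : ∫ ω, b ω ^ 2 ∂(PP μ) ≤ ε / 6 := hn4'
    have h8 := hn2
    linarith
  convert hgoal using 4

end Vale.Agent.P161C
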