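import Vale.Agent.P161C.Bas
import Vale.Agent.P161C.EnvB

/-!
# P161C, module TRANS: from the iid environment to the planted space
-/

namespace Vale.Agent.P161C

open MeasureTheory Vale.Agent.P161 Filter Topology

universe u

variable {V : Type u} {G : SimpleGraph V} {d : ℕ} {θ : ℝ}

namespace TR

lemma measurable_yh (s : ℝ) : Measurable fun ω : Om V => yh s ω := by
  have e : (fun ω : Om V => yh s ω)
      = (fun (p : (V × ℕ → I01) × (V × ℕ → I01)) (w : V) => ENV.HH s ⌈s⌉₊ (ENV.row p w))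
        ∘ Prod.snd := by
    funext ω w
    exact ENV.yh_eq s ω w
  rw [e]
  exact (ENV.measurable_fieldrow s).comp measurable_snd

lemma measurable_sp : Measurable sp := measurable_of_countable _

lemma yt_eq (s : ℝ) (ω : Om V) (w : V) : yt s ω w = sp (ω.1 w) * yh s ω w := by
  unfold yh
  rw [← mul_assoc, ENV.sp_mul_self, one_mul]

lemma measurable_yt (s : ℝ) : Measurable fun ω : Om V => yt s ω := by
  rw [measurable_pi_iff]
  intro w
  have e : (fun ω : Om V => yt s ω w) = fun ω => sp (ω.1 w) * yh s ω w := by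
    funext ω; exact yt_eq s ω w
  rw [e]
  exact (measurable_sp.comp ((measurable_pi_apply w).comp measurable_fst)).mul
    ((measurable_pi_apply w).comp (measurable_yh s))

lemma measurable_env (G : SimpleGraph V) (s : ℝ) :
    Measurable fun ω : Om V => (etaF G ω.1, yh s ω) :=
  ((ENV.measurable_etaF G).comp measurable_fst).prodMk (measurable_yh s)

lemma measurable_msg_yt (θ s : ℝ) (n : ℕ) (u p : V) :
    Measurable fun ω : Om V => msg G θ n (yt s ω) u p :=
  (PO.measurable_msg θ n u p).comp (measurable_yt s)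

lemma measurable_msgh (G : SimpleGraph V) (θ : ℝ) (n : ℕ) (u p : V) :
    Measurable fun e : (Sym2 V → Bool) × (V → ℝ) => msgh G θ n e u p := by
  classical
  induction n generalizing u p with
  | zero => exact (measurable_pi_apply u).comp measurable_snd
  | succ n ih =>
    show Measurable fun e : (Sym2 V → Bool) × (V → ℝ) =>
      e.2 u + ∑ c ∈ (nb G u).erase p, sp (e.1 s(u, c)) * ff θ (msgh G θ n e c u)
    refine ((measurable_pi_apply u).comp measurable_snd).add
      (Finset.measurable_sum _ fun c _ => ?_)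
    exact (measurable_sp.comp ((measurable_pi_apply _).comp measurable_fst)).mul
      ((PO.measurable_ff θ).comp (ih c u))

lemma tanh_sq_sp (b : Bool) (x : ℝ) : Real.tanh (sp b * x) ^ 2 = Real.tanh x ^ 2 := by
  rcases ENV.sp_cases b with h | h <;> rw [h]
  · rw [one_mul]
  · rw [neg_one_mul, Real.tanh_neg, neg_sq]

lemma tanh_msg_sq (G : SimpleGraph V) (θ s : ℝ) (ω : Om V) (n : ℕ) (u p : V) :
    Real.tanh (msg G θ n (yt s ω) u p) ^ 2
      = Real.tanh (msgh G θ n (etaF G ω.1, yh s ω) u p) ^ 2 := by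
  rw [ENV.msg_gauge, tanh_sq_sp]

lemma tanh_sq_le (x : ℝ) : Real.tanh x ^ 2 ≤ 1 := by
  have h := (Real.abs_tanh_lt_one x).le
  have h2 := abs_nonneg (Real.tanh x)
  rw [← sq_abs]
  nlinarith

/-! ### path weights -/

lemma pw_congr {M M' : ℕ → V → V → ℝ} (h : ∀ j u p, M j u p ^ 2 = M' j u p ^ 2) (v w : V) :
    pw G θ M v w = pw G θ M' v w := by
  unfold pw
  exact Finset.prod_congr rfl fun j _ => by rw [h]

lemma pw_mem (h0 : 0 ≤ θ) (h1 : θ ≤ 1) {M : ℕ → V → V → ℝ} (hM : ∀ j u p, M j u p ^ 2 ≤ 1)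
    (v w : V) : 0 ≤ pw G θ M v w ∧ pw G θ M v w ≤ 1 := by
  unfold pw
  have h2 : 0 ≤ 1 - θ ^ 2 := by nlinarith
  have h3 : ∀ j u p, 0 ≤ 1 - (1 - θ ^ 2) * M j u p ^ 2 ∧ 1 - (1 - θ ^ 2) * M j u p ^ 2 ≤ 1 := by
    intro j u p
    have h4 := hM j u p
    have h5 := sq_nonneg (M j u p)
    have h6 := sq_nonneg θ
    constructor
    · nlinarith
    · nlinarith
  exact ⟨Finset.prod_nonneg fun j _ => (h3 _ _ _).1,
    Finset.prod_le_one (fun j _ => (h3 _ _ _).1) fun j _ => (h3 _ _ _).2⟩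

lemma measurable_pw {α : Type*} [MeasurableSpace α] {M : α → ℕ → V → V → ℝ}
    (hM : ∀ j u p, Measurable fun x => M x j u p) (v w : V) :
    Measurable fun x => pw G θ (M x) v w := by
  unfold pw
  refine Finset.measurable_prod _ fun j _ => ?_
  exact measurable_const.sub (((hM _ _ _).pow_const 2).const_mul _)

lemma tendsto_pw {M : ℕ → ℕ → V → V → ℝ} {M0 : ℕ → V → V → ℝ}
    (hM : ∀ j u p, Tendsto (fun n => M n j u p) atTop (𝓝 (M0 j u p))) (v w : V) :
    Tendsto (fun n => pw G θ (M n) v w) atTop (𝓝 (pw G θ M0 v w)) := by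
  unfold pw
  refine tendsto_finsetProd _ fun j _ => ?_
  exact tendsto_const_nhds.sub (((hM _ _ _).pow 2).const_mul _)

/-- Fatou for events -/
lemma measure_lt_le {Ω : Type*} {m0 : MeasurableSpace Ω} {P : Measure Ω} [IsFiniteMeasure P]
    {A : ℕ → Ω → ℝ} {A0 : Ω → ℝ} (hA : ∀ᵐ ω ∂P, Tendsto (fun n => A n ω) atTop (𝓝 (A0 ω)))
    {x b : ℝ} {N : ℕ} (hb : ∀ n, N ≤ n → P.real {ω | x < A n ω} ≤ b) :
    P.real {ω | x < A0 ω} ≤ b := by
  have h0 : 0 ≤ b := measureReal_nonneg.trans (hb N le_rfl)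
  set B : ℕ → Set Ω := fun m => ⋂ n ∈ Set.Ici (N + m), {ω | x < A n ω} with hB
  have hmono : Monotone B := by
    intro m m' hm
    simp only [hB]
    exact Set.biInter_mono (fun n hn => by
      simp only [Set.mem_Ici] at hn ⊢; omega) (fun _ _ => le_rfl)
  have hBb : ∀ m, P (B m) ≤ ENNReal.ofReal b := by
    intro m
    have h1 : B m ⊆ {ω | x < A (N + m) ω} := Set.biInter_subset_of_mem (by simp)
    calc P (B m) ≤ P {ω | x < A (N + m) ω} := measure_mono h1
      _ = ENNReal.ofReal (P.real {ω | x < A (N + m) ω}) := by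
          rw [measureReal_def, ENNReal.ofReal_toReal (measure_ne_top _ _)]
      _ ≤ ENNReal.ofReal b := ENNReal.ofReal_le_ofReal (hb _ (by omega))
  have h2 : P {ω | x < A0 ω} ≤ P (⋃ m, B m) := by
    apply measure_mono_ae
    filter_upwards [hA] with ω hω h3
    have h4 := (tendsto_order.1 hω).1 x h3
    obtain ⟨M, hM⟩ := eventually_atTop.1 h4
    refine Set.mem_iUnion.2 ⟨M, ?_⟩
    simp only [hB, Set.mem_iInter, Set.mem_Ici, Set.mem_ofPred_eq]
    intro n hn
    exact hM n (by omega)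
  have h5 : P (⋃ m, B m) ≤ ENNReal.ofReal b := by
    rw [hmono.measure_iUnion]
    exact iSup_le hBb
  rw [measureReal_def]
  exact ENNReal.toReal_le_of_le_ofReal h0 (h2.trans h5)

/-- convergence of the messages, almost surely -/
lemma ae_tendsto (hPOST : S_POST.{u}) (hC : Crit G d θ) {μ : Measure (V → Bool)}
    (hμ : IsFreeIsing G θ μ) (s : ℝ) :
    ∀ᵐ ω ∂(PP μ), ∀ u p, Tendsto (fun n => msg G θ n (yt s ω) u p) atTop (𝓝 (Lt G θ s ω u p)) := by
  have hcV := PO.Crit.countable hC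
  have hne : Nonempty V := hC.tree.connected.nonempty
  have hp : IsProbabilityMeasure μ := isProb_of_isFreeIsing hμ
  set S : Set (Om V) := {ω | ∀ u p, ∃ l, Tendsto (fun n => msg G θ n (yt s ω) u p) atTop (𝓝 l)}
    with hS
  have hSm : MeasurableSet S := by
    have e : S = ⋂ u, ⋂ p, {ω : Om V | ∃ l, Tendsto (fun n => msg G θ n (yt s ω) u p) atTop (𝓝 l)} := by
      ext ω; simp [hS]
    rw [e]
    refine MeasurableSet.iInter fun u => MeasurableSet.iInter fun p => ?_
    exact measurableSet_exists_tendsto fun n => measurable_msg_yt θ s n u p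
  have h0 : ∀ U : V × ℕ → I01, (μ.prod (lam V)) {p | ((p.1, (U, p.2)) : Om V) ∈ Sᶜ} = 0 := by
    intro U
    have h1 := (hPOST hC hμ U ⌈s⌉₊ (Is U s) (by
      intro k hk
      have h2 : (k.2 : ℝ) + (U k : ℝ) < s := hk
      have h3 : (0 : ℝ) ≤ (U k : ℝ) := (U k).2.1
      exact Nat.lt_ceil.2 (by linarith))).1
    refine measure_mono_null ?_ (ae_iff.1 h1)
    intro p hp' h4
    apply hp'
    intro u q
    exact ⟨_, h4 u q⟩
  have h1 : PP μ Sᶜ = 0 := by
    unfold PP
    rw [Measure.prod_apply hSm.compl]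
    have hm1 : Measurable fun q : (((V → Bool) × (V × ℕ → I01)) × (V × ℕ → I01)) =>
        ((q.1.1, (q.1.2, q.2)) : Om V) := by fun_prop
    have hA' : MeasurableSet ((fun q : (((V → Bool) × (V × ℕ → I01)) × (V × ℕ → I01)) =>
        ((q.1.1, (q.1.2, q.2)) : Om V)) ⁻¹' Sᶜ) := hm1 hSm.compl
    have hm2 : Measurable fun r : (V → Bool) × (V × ℕ → I01) =>
        (lam V) (Prod.mk r ⁻¹' ((fun q : (((V → Bool) × (V × ℕ → I01)) × (V × ℕ → I01)) =>
        ((q.1.1, (q.1.2, q.2)) : Om V)) ⁻¹' Sᶜ)) := measurable_measure_prodMk_left hA'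
    have e1 : ∀ σ : V → Bool, ((lam V).prod (lam V)) (Prod.mk σ ⁻¹' Sᶜ)
        = ∫⁻ U, (lam V) (Prod.mk (σ, U) ⁻¹' ((fun q : (((V → Bool) × (V × ℕ → I01)) × (V × ℕ → I01)) =>
          ((q.1.1, (q.1.2, q.2)) : Om V)) ⁻¹' Sᶜ)) ∂(lam V) := by
      intro σ
      rw [Measure.prod_apply (measurable_prodMk_left hSm.compl)]
      rfl
    simp_rw [e1]
    rw [lintegral_lintegral_swap (f := fun σ U => (lam V) (Prod.mk (σ, U) ⁻¹'
      ((fun q : (((V → Bool) × (V × ℕ → I01)) × (V × ℕ → I01)) =>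
        ((q.1.1, (q.1.2, q.2)) : Om V)) ⁻¹' Sᶜ))) hm2.aemeasurable]
    rw [lintegral_eq_zero_iff' ?_]
    · refine Eventually.of_forall fun U => ?_
      have h5 := h0 U
      have hm3 : Measurable fun p : (V → Bool) × (V × ℕ → I01) => ((p.1, (U, p.2)) : Om V) := by
        fun_prop
      rw [Measure.prod_apply (show MeasurableSet {p : (V → Bool) × (V × ℕ → I01) |
        ((p.1, (U, p.2)) : Om V) ∈ Sᶜ} from hm3 hSm.compl)] at h5
      exact h5
    · exact (Measurable.lintegral_prod_left hm2).aemeasurable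
  have h2 : ∀ᵐ ω ∂(PP μ), ω ∈ S := by
    rw [ae_iff]; exact h1
  filter_upwards [h2] with ω hω u p
  obtain ⟨l, hl⟩ := hω u p
  have h3 : Lt G θ s ω u p = l := PO.Lm_of_tendsto hl
  rw [h3]
  exact hl

lemma tendsto_tanh {a : ℕ → ℝ} {l : ℝ} (h : Tendsto a atTop (𝓝 l)) :
    Tendsto (fun n => Real.tanh (a n)) atTop (𝓝 (Real.tanh l)) :=
  (PO.continuous_tanh.tendsto _).comp h

end TR

theorem trans (hENV : S_ENV.{u}) (hMOM : S_MOM.{u}) (hDECA : S_DECA.{u}) (hDECB : S_DECB.{u})
    (hPOST : S_POST.{u}) : S_TRANS.{u} := by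
  intro V G d θ hC T
  obtain ⟨c1, hc1, hc1', H1⟩ := hDECA hC (T * at' (1 / 2))
  obtain ⟨c2, hc2, hc2', H2⟩ := hDECB hC (T * at' (1 / 2))
  obtain ⟨p0, Cq, hp0, hCq, H3⟩ := hMOM hC (T * at' (1 / 2))
  have hc : 0 < min c1 c2 / 5 := by positivity
  refine ⟨min c1 c2 / 5, hc, ?_, fun q => 2 * Cq q, fun q => by have := hCq q; positivity, ?_⟩
  · have := min_le_left c1 c2
    linarith
  intro μ hμ s hs hsT
  obtain ⟨ν, hν0, hk0, hk1, hk2, hmap, -⟩ := hENV hC hμ s hs
  have hat : 0 ≤ at' (1 / 2) := PO.at'_nonneg (by norm_num) (by norm_num)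
  have hν : Adm ν (T * at' (1 / 2)) := by
    refine ⟨hν0.prob, ?_, hν0.nish⟩
    filter_upwards [hν0.bdd] with y hy
    refine hy.trans (mul_le_mul_of_nonneg_right ?_ hat)
    exact_mod_cast Nat.ceil_le.2 hsT
  have hprob := hν0.prob
  have h1 : 0 < θ := hC.pos
  have h2 : θ < 1 := PO.Crit.th_lt hC
  have hms : 0 < min s 1 := lt_min hs one_pos
  have hms1 : min s 1 ≤ 1 := min_le_right _ _
  have hkpos : 0 < k0 ν := lt_of_lt_of_le (by positivity) hk0
  have hkle : k0 ν ≤ 1 := by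
    unfold k0
    have : ∫ y, Real.tanh y ^ 2 ∂ν ≤ ∫ _, (1 : ℝ) ∂ν := by
      apply integral_mono_of_nonneg
      · exact Eventually.of_forall fun y => sq_nonneg _
      · exact integrable_const _
      · exact Eventually.of_forall fun y => TR.tanh_sq_le y
    simpa using this
  have hsk : min s 1 / 5 ≤ √(k0 ν) := by
    apply Real.le_sqrt_of_sq_le
    calc (min s 1 / 5) ^ 2 = (min s 1) ^ 2 / 25 := by ring
      _ ≤ k0 ν := hk0
  have hsk0 : 0 < √(k0 ν) := Real.sqrt_pos.2 hkpos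
  have hsk1 : √(k0 ν) ≤ 1 := by
    rw [Real.sqrt_le_one]; exact hkle
  have hdep : 1 + 2 / √(k0 ν) ≤ 1 + 10 / min s 1 := by
    have : 2 / √(k0 ν) ≤ 10 / min s 1 := by
      rw [div_le_div_iff₀ hsk0 hms]
      nlinarith
    linarith
  have hca : min c1 c2 / 5 * min s 1 ≤ c1 * √(k0 ν) := by
    have h3 := min_le_left c1 c2
    have h4 : min c1 c2 / 5 * min s 1 = min c1 c2 * (min s 1 / 5) := by ring
    rw [h4]
    exact mul_le_mul h3 hsk (by positivity) hc1.le
  have hcb : min c1 c2 / 5 * min s 1 ≤ c2 * √(k0 ν) := by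
    have h3 := min_le_right c1 c2
    have h4 : min c1 c2 / 5 * min s 1 = min c1 c2 * (min s 1 / 5) := by ring
    rw [h4]
    exact mul_le_mul h3 hsk (by positivity) hc2.le
  have hca1 : 0 ≤ 1 - c1 * √(k0 ν) := by nlinarith
  have hca2 : 1 - c1 * √(k0 ν) ≤ 1 := by
    have : 0 < c1 * √(k0 ν) := by positivity
    linarith
  have hne : Nonempty V := hC.tree.connected.nonempty
  have hp : IsProbabilityMeasure μ := isProb_of_isFreeIsing hμ
  have hPP : IsProbabilityMeasure (PP μ) := by unfold PP; infer_instance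
  have hme := TR.measurable_env G s
  have htr : ∀ F : (Sym2 V → Bool) × (V → ℝ) → ℝ, Measurable F →
      ∫ ω, F (etaF G ω.1, yh s ω) ∂(PP μ) = ∫ e, F e ∂(EE G θ ν) := by
    intro F hF
    rw [← hmap, integral_map hme.aemeasurable hF.aestronglyMeasurable]
  have hconv := TR.ae_tendsto hPOST hC hμ s
  -- part 1
  have P1 : ∀ (D : ℕ → ℕ) (o : V) (k : ℕ),
      ∫ ω, θ ^ (2 * k) * ∑ w ∈ sphF G o k,
          pw G θ (fun j u p => Real.tanh (msg G θ (D j) (yt s ω) u p)) o w ∂(PP μ)
        ≤ 2 * (1 - min c1 c2 / 5 * min s 1) ^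
            ((Finset.Icc 1 k).filter fun j => 1 + 10 / min s 1 ≤ (D j : ℝ)).card := by
    intro D o k
    have hF : Measurable fun e : (Sym2 V → Bool) × (V → ℝ) => θ ^ (2 * k) * ∑ w ∈ sphF G o k,
        pw G θ (fun j u p => Real.tanh (msgh G θ (D j) e u p)) o w := by
      refine (Finset.measurable_sum _ fun w _ => ?_).const_mul _
      exact TR.measurable_pw (fun j u p => PO.measurable_tanh.comp (TR.measurable_msgh G θ _ u p))
        o w
    have e1 : ∫ ω, θ ^ (2 * k) * ∑ w ∈ sphF G o k,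
          pw G θ (fun j u p => Real.tanh (msg G θ (D j) (yt s ω) u p)) o w ∂(PP μ)
        = ∫ ω, (fun e : (Sym2 V → Bool) × (V → ℝ) => θ ^ (2 * k) * ∑ w ∈ sphF G o k,
          pw G θ (fun j u p => Real.tanh (msgh G θ (D j) e u p)) o w)
            (etaF G ω.1, yh s ω) ∂(PP μ) := by
      congr 1
      funext ω
      show _ = θ ^ (2 * k) * ∑ w ∈ sphF G o k,
        pw G θ (fun j u p => Real.tanh (msgh G θ (D j) (etaF G ω.1, yh s ω) u p)) o w
      congr 1
      refine Finset.sum_congr rfl fun w _ => ?_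
      exact TR.pw_congr (fun j u p => TR.tanh_msg_sq G θ s ω (D j) u p) o w
    rw [e1, htr _ hF]
    refine ((H1 ν hν hkpos).1 D o k).trans ?_
    have hcard : ((Finset.Icc 1 k).filter fun j => 1 + 10 / min s 1 ≤ (D j : ℝ)).card
        ≤ ((Finset.Icc 1 k).filter fun j => 1 + 2 / √(k0 ν) ≤ (D j : ℝ)).card := by
      apply Finset.card_le_card
      intro j hj
      rw [Finset.mem_filter] at hj ⊢
      exact ⟨hj.1, hdep.trans hj.2⟩
    have h3 := pow_le_pow_of_le_one hca1 hca2 hcard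
    have h4 : (1 - c1 * √(k0 ν)) ^
          ((Finset.Icc 1 k).filter fun j => 1 + 10 / min s 1 ≤ (D j : ℝ)).card
        ≤ (1 - min c1 c2 / 5 * min s 1) ^
          ((Finset.Icc 1 k).filter fun j => 1 + 10 / min s 1 ≤ (D j : ℝ)).card :=
      pow_le_pow_left₀ hca1 (by linarith) _
    linarith
  refine ⟨P1, ?_, ?_, ?_, ?_⟩
  · -- part 2
    intro o k
    have hb : ∀ (n : ℕ) (ω : Om V), ‖θ ^ (2 * k) * ∑ w ∈ sphF G o k,
        pw G θ (fun _ u p => Real.tanh (msg G θ n (yt s ω) u p)) o w‖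
          ≤ θ ^ (2 * k) * (sphF G o k).card := by
      intro n ω
      have h3 : ∀ w ∈ sphF G o k,
          0 ≤ pw G θ (fun _ u p => Real.tanh (msg G θ n (yt s ω) u p)) o w ∧
          pw G θ (fun _ u p => Real.tanh (msg G θ n (yt s ω) u p)) o w ≤ 1 := fun w _ =>
        TR.pw_mem h1.le h2.le (fun _ _ _ => TR.tanh_sq_le _) o w
      rw [Real.norm_eq_abs, abs_mul, abs_of_nonneg (by positivity : (0 : ℝ) ≤ θ ^ (2 * k)),
        abs_of_nonneg (Finset.sum_nonneg fun w hw => (h3 w hw).1)]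
      refine mul_le_mul_of_nonneg_left ?_ (by positivity)
      calc ∑ w ∈ sphF G o k, pw G θ (fun _ u p => Real.tanh (msg G θ n (yt s ω) u p)) o w
          ≤ ∑ w ∈ sphF G o k, (1 : ℝ) := Finset.sum_le_sum fun w hw => (h3 w hw).2
        _ = (sphF G o k).card := by simp
    have hlim : Tendsto (fun n : ℕ => ∫ ω, θ ^ (2 * k) * ∑ w ∈ sphF G o k,
          pw G θ (fun _ u p => Real.tanh (msg G θ n (yt s ω) u p)) o w ∂(PP μ)) atTop
        (𝓝 (∫ ω, θ ^ (2 * k) * ∑ w ∈ sphF G o k,
          pw G θ (fun _ u p => Real.tanh (Lt G θ s ω u p)) o w ∂(PP μ))) := by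
      apply tendsto_integral_of_dominated_convergence
        (fun _ => θ ^ (2 * k) * ((sphF G o k).card : ℝ))
      · intro n
        apply Measurable.aestronglyMeasurable
        refine (Finset.measurable_sum _ fun w _ => ?_).const_mul _
        exact TR.measurable_pw
          (fun j u p => PO.measurable_tanh.comp (TR.measurable_msg_yt θ s _ u p)) o w
      · exact integrable_const _
      · intro n
        exact Eventually.of_forall (hb n)
      · filter_upwards [hconv] with ω hω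
        refine Tendsto.const_mul _ (tendsto_finsetSum _ fun w _ => ?_)
        exact TR.tendsto_pw (fun j u p => TR.tendsto_tanh (hω u p)) o w
    refine le_of_tendsto hlim ?_
    filter_upwards [eventually_ge_atTop ⌈1 + 10 / min s 1⌉₊] with n hn
    have h3 := P1 (fun _ => n) o k
    have h4 : ((Finset.Icc 1 k).filter fun _ => 1 + 10 / min s 1 ≤ (n : ℝ)).card = k := by
      rw [Finset.filter_true_of_mem (fun _ _ => Nat.ceil_le.1 hn)]
      simp
    rw [h4] at h3
    exact h3
  · -- part 3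
    intro u p k hup
    have hconv' : ∀ᵐ ω ∂(PP μ), Tendsto
        (fun n => aa G θ (fun u p => Real.tanh (msg G θ n (yt s ω) u p)) u p k) atTop
        (𝓝 (aa G θ (fun u p => Real.tanh (Lt G θ s ω u p)) u p k)) := by
      filter_upwards [hconv] with ω hω
      unfold aa
      refine Tendsto.const_mul _ (tendsto_finsetSum _ fun w _ => ?_)
      exact TR.tendsto_pw (fun j u p => TR.tendsto_tanh (hω u p)) u w
    refine TR.measure_lt_le (N := ⌈1 + 2 / √(k0 ν)⌉₊) hconv' ?_
    intro n hn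
    have hn' : 1 + 2 / √(k0 ν) ≤ (n : ℝ) := Nat.ceil_le.1 hn
    have h3 := H2 ν hν hkpos n u p k hup hn'
    refine le_trans ?_ h3
    have hset : MeasurableSet {e : (Sym2 V → Bool) × (V → ℝ) |
        4 * (max (1 - c2 * √(k0 ν)) θ) ^ (k / 2)
          < aa G θ (fun u p => Real.tanh (msgh G θ n e u p)) u p k} := by
      apply measurableSet_lt measurable_const
      unfold aa
      refine (Finset.measurable_sum _ fun w _ => ?_).const_mul _
      exact TR.measurable_pw (fun j u p => PO.measurable_tanh.comp (TR.measurable_msgh G θ _ u p))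
        u w
    rw [← hmap, measureReal_def, measureReal_def, Measure.map_apply hme hset]
    apply ENNReal.toReal_mono (measure_ne_top _ _)
    apply measure_mono
    intro ω hω
    simp only [Set.mem_ofPred_eq, Set.mem_preimage] at hω ⊢
    have e1 : aa G θ (fun u p => Real.tanh (msgh G θ n (etaF G ω.1, yh s ω) u p)) u p k
        = aa G θ (fun u p => Real.tanh (msg G θ n (yt s ω) u p)) u p k := by
      unfold aa
      congr 1
      refine Finset.sum_congr rfl fun w _ => ?_
      exact TR.pw_congr (fun j u p => (TR.tanh_msg_sq G θ s ω n u p).symm) u w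
    rw [e1]
    refine lt_of_le_of_lt ?_ hω
    have h5 : max (1 - c2 * √(k0 ν)) θ ≤ max (1 - min c1 c2 / 5 * min s 1) θ :=
      max_le_max (by linarith) le_rfl
    have h6 : 0 ≤ max (1 - c2 * √(k0 ν)) θ := le_max_of_le_right h1.le
    exact mul_le_mul_of_nonneg_left (pow_le_pow_left₀ h6 h5 _) (by norm_num)
  · -- part 4
    intro hs1 q u p hq hup
    have hlim : Tendsto (fun n : ℕ => ∫ ω, Real.tanh (msg G θ n (yt s ω) u p) ^ (2 * q) ∂(PP μ))
        atTop (𝓝 (∫ ω, Real.tanh (Lt G θ s ω u p) ^ (2 * q) ∂(PP μ))) := by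
      apply tendsto_integral_of_dominated_convergence (fun _ => (1 : ℝ))
      · intro n
        apply Measurable.aestronglyMeasurable
        exact (PO.measurable_tanh.comp (TR.measurable_msg_yt θ s _ u p)).pow_const _
      · exact integrable_const _
      · intro n
        refine Eventually.of_forall fun ω => ?_
        rw [Real.norm_eq_abs, abs_pow]
        exact pow_le_one₀ (abs_nonneg _) (Real.abs_tanh_lt_one _).le
      · filter_upwards [hconv] with ω hω
        exact (TR.tendsto_tanh (hω u p)).pow _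
    refine le_of_tendsto hlim (Eventually.of_forall fun n => ?_)
    have hF : Measurable fun e : (Sym2 V → Bool) × (V → ℝ) =>
        Real.tanh (msgh G θ n e u p) ^ (2 * q) :=
      (PO.measurable_tanh.comp (TR.measurable_msgh G θ _ u p)).pow_const _
    have e1 : ∫ ω, Real.tanh (msg G θ n (yt s ω) u p) ^ (2 * q) ∂(PP μ)
        = ∫ ω, (fun e : (Sym2 V → Bool) × (V → ℝ) => Real.tanh (msgh G θ n e u p) ^ (2 * q))
            (etaF G ω.1, yh s ω) ∂(PP μ) := by
      congr 1
      funext ω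
      show _ = Real.tanh (msgh G θ n (etaF G ω.1, yh s ω) u p) ^ (2 * q)
      rw [pow_mul, pow_mul, TR.tanh_msg_sq]
    rw [e1, htr _ hF]
    refine ((H3 ν hν hkpos).2 q n u p hq hup).trans ?_
    have h3 : √(k0 ν) ^ q ≤ s ^ q := by
      apply pow_le_pow_left₀ hsk0.le
      rw [Real.sqrt_le_left hs.le]
      exact hk1 hs1
    have h4 := hk2 hs1 q (by omega)
    have h5 := hCq q
    have h6 : Cq q * (√(k0 ν) ^ q + ∫ y, Real.tanh y ^ (2 * q) ∂ν) ≤ Cq q * (s ^ q + s ^ q) :=
      mul_le_mul_of_nonneg_left (add_le_add h3 h4) h5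
    linarith
  · -- part 5
    filter_upwards [hconv] with ω hω
    exact ⟨PO.BPS_of_tendsto hC hω, hω⟩

end Vale.Agent.P161C
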