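import Vale.Agent.P161C.TempF
import Vale.Agent.P161C.Erec

/-!
# TEMP: fluctuations of invariant edge fields along geodesics
-/

namespace Vale.Agent.P161C.Temp

open MeasureTheory ProbabilityTheory Vale.Agent.P161 Filter Topology PO

universe u

variable {V : Type u} {G : SimpleGraph V} {d : ℕ} {θ : ℝ}

/-! ### geometry -/

lemma exists_next (h : Crit G d θ) (v w : V) : ∃ w', G.Adj w w' ∧ G.dist v w' = G.dist v w + 1 := by
  by_contra hcon
  push Not at hcon
  have h1 : ∀ x ∈ nb G w, G.dist w v = G.dist x v + 1 := by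
    intro x hx
    have hx' : G.Adj w x := (Crit.mem_nb h).1 hx
    rcases dist_split h.tree hx' v with h2 | h2
    · exfalso
      apply hcon x hx'
      rw [G.dist_comm (u := v), G.dist_comm (u := v) (v := w)]
      exact h2
    · exact h2
  have h2 : (nb G w).card ≤ 1 := by
    rw [Finset.card_le_one]
    intro a ha b hb
    exact closer_unique h.tree ((Crit.mem_nb h).1 ha) ((Crit.mem_nb h).1 hb) (h1 a ha) (h1 b hb)
  rw [Crit.card_nb h] at h2
  have := h.hd
  omega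

lemma exists_dist (h : Crit G d θ) (v : V) (n : ℕ) : ∃ w, G.dist v w = n := by
  induction n with
  | zero => exact ⟨v, by simp⟩
  | succ n ih =>
    obtain ⟨w, hw⟩ := ih
    obtain ⟨w', _, hw'⟩ := exists_next h v w
    exact ⟨w', by omega⟩

lemma dist_gp (hG : G.IsTree) {v w : V} {i j : ℕ} (hij : i ≤ j) (hj : j ≤ G.dist v w) :
    G.dist (gp G v w i) (gp G v w j) = j - i := by
  have e : gp G v w j = gp G (gp G v w i) w (j - i) := by
    rw [Gp.gp_suffix hG (by omega)]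
    congr 1
    omega
  have h1 := (Gp.gp_spec hG.connected v w (i := i) (by omega)).2
  rw [e]
  exact (Gp.gp_spec hG.connected (gp G v w i) w (by omega)).1

/-! ### correlations of edges -/

open Classical in
/-- correlation of the first and the last edge of a geodesic -/
noncomputable def Ed (G : SimpleGraph V) (μ : Measure (V → Bool)) (ζ : V → V → Om V → ℝ)
    (v w : V) : ℝ :=
  if G.dist v w = 0 then 0 else
    ∫ ω, ζ (gp G v w 0) (gp G v w 1) ω
      * ζ (gp G v w (G.dist v w - 1)) (gp G v w (G.dist v w)) ω ∂(PP μ)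

/-- an invariant edge field -/
structure EF (G : SimpleGraph V) (μ : Measure (V → Bool)) (ζ : V → V → Om V → ℝ) (B : ℝ) :
    Prop where
  meas : ∀ u p, Measurable (ζ u p)
  bdd : ∀ u p ω, |ζ u p ω| ≤ B
  symm : ∀ u p, G.Adj u p → ζ u p =ᵐ[PP μ] ζ p u
  inv : ∀ (g : G ≃g G) (u p : V), G.Adj u p →
        ∀ᵐ ω ∂(PP μ), ζ (g u) (g p) (act g.toEquiv ω) = ζ u p ω
  flip : ∀ u p, G.Adj u p → ∀ᵐ ω ∂(PP μ), ζ u p (flp ω) = ζ u p ω
  zero : ∀ u p, G.Adj u p → ∫ ω, ζ u p ω ∂(PP μ) = 0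

variable {μ : Measure (V → Bool)} [IsProbabilityMeasure μ] {ζ : V → V → Om V → ℝ} {B : ℝ}

lemma EF.int (hζ : EF G μ ζ B) (a b c e : V) :
    Integrable (fun ω => ζ a b ω * ζ c e ω) (PP μ) := by
  refine Integrable.of_bound (((hζ.meas a b).mul (hζ.meas c e)).aestronglyMeasurable) (B ^ 2) ?_
  filter_upwards with ω
  rw [Real.norm_eq_abs, abs_mul, sq]
  exact mul_le_mul (hζ.bdd a b ω) (hζ.bdd c e ω) (abs_nonneg _)
    ((abs_nonneg _).trans (hζ.bdd a b ω))

lemma Ed_rad (hHOM : S_HOM.{u}) (h : Crit G d θ) (hζ : EF G μ ζ B)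
    (hg : ∀ g : G ≃g G, MeasurePreserving (act g.toEquiv) (PP μ) (PP μ))
    (a b a' b' : V) (hab : G.dist a b = G.dist a' b') : Ed G μ ζ a b = Ed G μ ζ a' b' := by
  by_cases h0 : G.dist a b = 0
  · unfold Ed
    rw [if_pos h0, if_pos (by omega)]
  obtain ⟨g, rfl, rfl⟩ := hHOM h a b a' b' hab
  unfold Ed
  rw [Gp.dist_iso g h.tree.connected, if_neg h0, if_neg h0]
  simp only [Gp.gp_iso h.tree]
  rw [← CE.integral_mp (hg g) (f := fun ω => ζ (g (gp G a b 0)) (g (gp G a b 1)) ω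
    * ζ (g (gp G a b (G.dist a b - 1))) (g (gp G a b (G.dist a b))) ω)
    ((hζ.meas _ _).mul (hζ.meas _ _)).aestronglyMeasurable]
  apply integral_congr_ae
  have a1 : G.Adj (gp G a b 0) (gp G a b 1) := Gp.gp_adj h.tree (i := 0) (by omega)
  have a2 : G.Adj (gp G a b (G.dist a b - 1)) (gp G a b (G.dist a b)) := by
    have := Gp.gp_adj h.tree (v := a) (w := b) (i := G.dist a b - 1) (by omega)
    rwa [show G.dist a b - 1 + 1 = G.dist a b by omega] at this
  filter_upwards [hζ.inv g _ _ a1, hζ.inv g _ _ a2] with ω h1 h2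
  rw [h1, h2]

omit [IsProbabilityMeasure μ] in
lemma Ed_eq (h : Crit G d θ) {a a' b b' : V} (ha : G.Adj a a') (hb : G.Adj b' b)
    (h1 : G.dist a b = G.dist a' b + 1) (h2 : G.dist a b = G.dist a b' + 1) :
    ∫ ω, ζ a a' ω * ζ b' b ω ∂(PP μ) = Ed G μ ζ a b := by
  unfold Ed
  rw [if_neg (by omega)]
  have e1 : gp G a b 0 = a := Gp.gp_zero h.tree a b
  have e2 : gp G a b 1 = a' := by
    symm
    apply Gp.eq_gp h.tree
    · exact SimpleGraph.dist_eq_one_iff_adj.2 ha
    · omega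
  have e3 : gp G a b (G.dist a b - 1) = b' := by
    symm
    have : G.dist b' b = 1 := SimpleGraph.dist_eq_one_iff_adj.2 hb
    apply Gp.eq_gp h.tree
    · omega
    · omega
  have e4 : gp G a b (G.dist a b) = b := Gp.gp_last h.tree a b
  rw [e1, e2, e3, e4]

/-- the radial correlations -/
noncomputable def Cc (G : SimpleGraph V) (μ : Measure (V → Bool)) (ζ : V → V → Om V → ℝ)
    (k : ℕ) : ℝ := rad G (Ed G μ ζ) (k + 1)

lemma Cc_eq (hHOM : S_HOM.{u}) (h : Crit G d θ) (hζ : EF G μ ζ B)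
    (hg : ∀ g : G ≃g G, MeasurePreserving (act g.toEquiv) (PP μ) (PP μ))
    {a a' b b' : V} (ha : G.Adj a a') (hb : G.Adj b' b)
    (h1 : G.dist a b = G.dist a' b + 1) (h2 : G.dist a b = G.dist a b' + 1) {k : ℕ}
    (hk : G.dist a b = k + 1) :
    ∫ ω, ζ a a' ω * ζ b' b ω ∂(PP μ) = Cc G μ ζ k := by
  rw [Ed_eq h ha hb h1 h2]
  unfold Cc
  rw [← hk, rad_eq (Ed_rad hHOM h hζ hg)]

omit [IsProbabilityMeasure μ] in
lemma swap_l (hζ : EF G μ ζ B) {a a' b b' : V} (ha : G.Adj a a') :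
    ∫ ω, ζ a a' ω * ζ b b' ω ∂(PP μ) = ∫ ω, ζ a' a ω * ζ b b' ω ∂(PP μ) := by
  apply integral_congr_ae
  filter_upwards [hζ.symm a a' ha] with ω h1
  rw [h1]

omit [IsProbabilityMeasure μ] in
lemma swap_r (hζ : EF G μ ζ B) {a a' b b' : V} (hb : G.Adj b b') :
    ∫ ω, ζ a a' ω * ζ b b' ω ∂(PP μ) = ∫ ω, ζ a a' ω * ζ b' b ω ∂(PP μ) := by
  apply integral_congr_ae
  filter_upwards [hζ.symm b b' hb] with ω h1
  rw [h1]

/-- correlations of the edges at `u` and the edges at `w`, `u ≠ w` -/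
lemma pair_ne (hHOM : S_HOM.{u}) (h : Crit G d θ) (hζ : EF G μ ζ B)
    (hg : ∀ g : G ≃g G, MeasurePreserving (act g.toEquiv) (PP μ) (PP μ))
    {u w c c' : V} {k : ℕ} (hk : G.dist u w = k + 1) (hc : G.Adj u c) (hc' : G.Adj w c') :
    (c = gp G u w 1 → c' = gp G u w k → ∫ ω, ζ u c ω * ζ w c' ω ∂(PP μ) = Cc G μ ζ k) ∧
    (c = gp G u w 1 → c' ≠ gp G u w k → ∫ ω, ζ u c ω * ζ w c' ω ∂(PP μ) = Cc G μ ζ (k + 1)) ∧
    (c ≠ gp G u w 1 → c' = gp G u w k → ∫ ω, ζ u c ω * ζ w c' ω ∂(PP μ) = Cc G μ ζ (k + 1)) ∧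
    (c ≠ gp G u w 1 → c' ≠ gp G u w k → ∫ ω, ζ u c ω * ζ w c' ω ∂(PP μ) = Cc G μ ζ (k + 2)) := by
  have hconn := h.tree.connected
  obtain ⟨s1, s2⟩ := Gp.gp_spec hconn u w (i := 1) (by omega)
  obtain ⟨t1, t2⟩ := Gp.gp_spec hconn u w (i := k) (by omega)
  have duc : G.dist u c = 1 := SimpleGraph.dist_eq_one_iff_adj.2 hc
  have dwc : G.dist w c' = 1 := SimpleGraph.dist_eq_one_iff_adj.2 hc'
  have dwc2 : G.dist c' w = 1 := by rw [G.dist_comm]; exact dwc
  -- distance facts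
  have f1 : c ≠ gp G u w 1 → G.dist c w = G.dist u w + 1 := by
    intro hne
    rcases dist_split h.tree hc w with h3 | h3
    · exact h3
    · exfalso
      apply hne
      apply Gp.eq_gp h.tree duc
      omega
  have f2 : c' ≠ gp G u w k → G.dist u c' = G.dist u w + 1 := by
    intro hne
    rcases dist_split h.tree hc' u with h3 | h3
    · rw [G.dist_comm (u := u), G.dist_comm (u := u) (v := w)]; exact h3
    · exfalso
      apply hne
      rw [G.dist_comm (u := w), G.dist_comm (u := c')] at h3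
      apply Gp.eq_gp h.tree <;> omega
  refine ⟨?_, ?_, ?_, ?_⟩
  · intro e1 e2
    rw [swap_r hζ hc']
    have d1 : G.dist c w = k := by rw [e1]; omega
    have d2 : G.dist u c' = k := by rw [e2]; exact t1
    exact Cc_eq hHOM h hζ hg hc hc'.symm (by omega) (by omega) hk
  · intro e1 e2
    have d1 : G.dist c w = k := by rw [e1]; omega
    have d2 := f2 e2
    have a1 := hconn.dist_triangle (u := c) (v := w) (w := c')
    have a2 := hconn.dist_triangle (u := u) (v := c) (w := c')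
    exact Cc_eq hHOM h hζ hg hc hc' (by omega) (by omega) (by omega)
  · intro e1 e2
    rw [swap_l hζ hc, swap_r hζ hc']
    have d1 := f1 e1
    have d2 : G.dist u c' = k := by rw [e2]; exact t1
    have a1 := hconn.dist_triangle (u := c) (v := u) (w := c')
    have a2 := hconn.dist_triangle (u := c) (v := c') (w := w)
    have a3 : G.dist c u = 1 := by rw [G.dist_comm]; exact duc
    exact Cc_eq hHOM h hζ hg hc.symm hc'.symm (by omega) (by omega) (by omega)
  · intro e1 e2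
    rw [swap_l hζ hc]
    have d1 := f1 e1
    have d2 := f2 e2
    have d3 : G.dist c c' = k + 3 := by
      have hadj : G.Adj u (gp G u w 1) := by
        have := Gp.gp_adj h.tree (v := u) (w := w) (i := 0) (by omega)
        rwa [Gp.gp_zero h.tree] at this
      have b1 : G.dist (gp G u w 1) c = G.dist u c + 1 := by
        rcases dist_split h.tree hadj c with h3 | h3
        · exact h3
        · exfalso
          apply e1
          symm
          apply hconn.dist_eq_zero_iff.1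
          omega
      have b2 : G.dist u c' = G.dist (gp G u w 1) c' + 1 := by
        have a1 := hconn.dist_triangle (u := gp G u w 1) (v := w) (w := c')
        have a2 := hconn.dist_triangle (u := u) (v := gp G u w 1) (w := c')
        omega
      have := dist_cross h.tree hadj b1 b2
      omega
    exact Cc_eq hHOM h hζ hg hc.symm hc' (by omega) (by
      rw [d3, d1, hk]) (by omega)

lemma pair_eq (hHOM : S_HOM.{u}) (h : Crit G d θ) (hζ : EF G μ ζ B)
    (hg : ∀ g : G ≃g G, MeasurePreserving (act g.toEquiv) (PP μ) (PP μ))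
    {u c c' : V} (hc : G.Adj u c) (hc' : G.Adj u c') :
    (c = c' → ∫ ω, ζ u c ω * ζ u c' ω ∂(PP μ) = Cc G μ ζ 0) ∧
    (c ≠ c' → ∫ ω, ζ u c ω * ζ u c' ω ∂(PP μ) = Cc G μ ζ 1) := by
  have hconn := h.tree.connected
  have duc : G.dist u c = 1 := SimpleGraph.dist_eq_one_iff_adj.2 hc
  have duc' : G.dist u c' = 1 := SimpleGraph.dist_eq_one_iff_adj.2 hc'
  constructor
  · rintro rfl
    exact Cc_eq hHOM h hζ hg hc hc (by rw [G.dist_self]; exact duc)
      (by rw [G.dist_self]; exact duc) (by omega)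
  · intro hne
    rw [swap_l hζ hc]
    have d1 : G.dist c u = 1 := by rw [G.dist_comm]; exact duc
    have d2 : G.dist c c' = 2 := by
      rcases dist_split h.tree hc c' with h3 | h3
      · omega
      · exfalso
        apply hne
        apply hconn.dist_eq_zero_iff.1
        omega
    exact Cc_eq hHOM h hζ hg hc.symm hc' (by omega) (by omega) (by omega)

/-- the vertex field -/
noncomputable def Xi (G : SimpleGraph V) (ζ : V → V → Om V → ℝ) (v : V) (ω : Om V) : ℝ :=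
  ∑ c ∈ nb G v, ζ v c ω

lemma Xi_mul (hζ : EF G μ ζ B) (u w : V) : ∫ ω, Xi G ζ u ω * Xi G ζ w ω ∂(PP μ)
    = ∑ c ∈ nb G u, ∑ c' ∈ nb G w, ∫ ω, ζ u c ω * ζ w c' ω ∂(PP μ) := by
  unfold Xi
  simp_rw [Finset.sum_mul_sum]
  rw [integral_finsetSum _ (fun c _ => integrable_finsetSum _ fun c' _ => hζ.int _ _ _ _)]
  apply Finset.sum_congr rfl
  intro c _
  rw [integral_finsetSum _ (fun c' _ => hζ.int _ _ _ _)]

lemma Xi_self (hHOM : S_HOM.{u}) (h : Crit G d θ) (hζ : EF G μ ζ B)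
    (hg : ∀ g : G ≃g G, MeasurePreserving (act g.toEquiv) (PP μ) (PP μ)) (u : V) :
    ∫ ω, Xi G ζ u ω * Xi G ζ u ω ∂(PP μ)
      = d * (Cc G μ ζ 0 + ((d : ℝ) - 1) * Cc G μ ζ 1) := by
  classical
  rw [Xi_mul hζ]
  have h1 : ∀ c ∈ nb G u, ∑ c' ∈ nb G u, ∫ ω, ζ u c ω * ζ u c' ω ∂(PP μ)
      = Cc G μ ζ 0 + ((d : ℝ) - 1) * Cc G μ ζ 1 := by
    intro c hc
    rw [← Finset.add_sum_erase _ _ hc]
    rw [(pair_eq hHOM h hζ hg ((Crit.mem_nb h).1 hc) ((Crit.mem_nb h).1 hc)).1 rfl]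
    congr 1
    rw [Finset.sum_congr rfl (g := fun _ => Cc G μ ζ 1) (by
      intro c' hc'
      rw [Finset.mem_erase] at hc'
      exact (pair_eq hHOM h hζ hg ((Crit.mem_nb h).1 hc) ((Crit.mem_nb h).1 hc'.2)).2
        (Ne.symm hc'.1))]
    rw [Finset.sum_const, Finset.card_erase_of_mem hc, Crit.card_nb h, nsmul_eq_mul,
      Nat.cast_sub (by have := h.hd; omega), Nat.cast_one]
  rw [Finset.sum_congr rfl h1, Finset.sum_const, Crit.card_nb h, nsmul_eq_mul]

lemma Xi_pair (hHOM : S_HOM.{u}) (h : Crit G d θ) (hζ : EF G μ ζ B)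
    (hg : ∀ g : G ≃g G, MeasurePreserving (act g.toEquiv) (PP μ) (PP μ)) {u w : V} {k : ℕ}
    (hk : G.dist u w = k + 1) :
    ∫ ω, Xi G ζ u ω * Xi G ζ w ω ∂(PP μ)
      = Cc G μ ζ k + 2 * ((d : ℝ) - 1) * Cc G μ ζ (k + 1)
        + ((d : ℝ) - 1) ^ 2 * Cc G μ ζ (k + 2) := by
  classical
  have hconn := h.tree.connected
  rw [Xi_mul hζ]
  have g1 : gp G u w 1 ∈ nb G u := by
    rw [Crit.mem_nb h]
    have := Gp.gp_adj h.tree (v := u) (w := w) (i := 0) (by omega)
    rwa [Gp.gp_zero h.tree] at this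
  have g2 : gp G u w k ∈ nb G w := by
    rw [Crit.mem_nb h]
    have := Gp.gp_adj h.tree (v := u) (w := w) (i := k) (by omega)
    rw [← hk, Gp.gp_last h.tree] at this
    exact this.symm
  have hcard : ∀ (v x : V), x ∈ nb G v → (((nb G v).erase x).card : ℝ) = (d : ℝ) - 1 := by
    intro v x hx
    rw [Finset.card_erase_of_mem hx, Crit.card_nb h, Nat.cast_sub (by have := h.hd; omega),
      Nat.cast_one]
  have h1 : ∑ c' ∈ nb G w, ∫ ω, ζ u (gp G u w 1) ω * ζ w c' ω ∂(PP μ)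
      = Cc G μ ζ k + ((d : ℝ) - 1) * Cc G μ ζ (k + 1) := by
    rw [← Finset.add_sum_erase _ _ g2]
    rw [(pair_ne hHOM h hζ hg hk ((Crit.mem_nb h).1 g1) ((Crit.mem_nb h).1 g2)).1 rfl rfl]
    congr 1
    rw [Finset.sum_congr rfl (g := fun _ => Cc G μ ζ (k + 1)) (by
      intro c' hc'
      rw [Finset.mem_erase] at hc'
      exact (pair_ne hHOM h hζ hg hk ((Crit.mem_nb h).1 g1) ((Crit.mem_nb h).1 hc'.2)).2.1
        rfl hc'.1)]
    rw [Finset.sum_const, nsmul_eq_mul, hcard _ _ g2]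
  have h2 : ∀ c ∈ (nb G u).erase (gp G u w 1), ∑ c' ∈ nb G w, ∫ ω, ζ u c ω * ζ w c' ω ∂(PP μ)
      = Cc G μ ζ (k + 1) + ((d : ℝ) - 1) * Cc G μ ζ (k + 2) := by
    intro c hc
    rw [Finset.mem_erase] at hc
    rw [← Finset.add_sum_erase _ _ g2]
    rw [(pair_ne hHOM h hζ hg hk ((Crit.mem_nb h).1 hc.2) ((Crit.mem_nb h).1 g2)).2.2.1 hc.1 rfl]
    congr 1
    rw [Finset.sum_congr rfl (g := fun _ => Cc G μ ζ (k + 2)) (by
      intro c' hc'
      rw [Finset.mem_erase] at hc'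
      exact (pair_ne hHOM h hζ hg hk ((Crit.mem_nb h).1 hc.2) ((Crit.mem_nb h).1 hc'.2)).2.2.2
        hc.1 hc'.1)]
    rw [Finset.sum_const, nsmul_eq_mul, hcard _ _ g2]
  rw [← Finset.add_sum_erase _ _ g1, h1, Finset.sum_congr rfl h2, Finset.sum_const, nsmul_eq_mul,
    hcard _ _ g1]
  ring

lemma Xi_fld (h : Crit G d θ) (hζ : EF G μ ζ B) : Fld G μ (Xi G ζ) (d * B) := by
  refine ⟨?_, ?_, ?_, ?_, ?_⟩
  · intro v
    unfold Xi
    exact Finset.measurable_fun_sum _ fun c _ => hζ.meas v c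
  · intro v ω
    unfold Xi
    refine (Finset.abs_sum_le_sum_abs _ _).trans ?_
    refine (Finset.sum_le_sum fun c _ => hζ.bdd v c ω).trans ?_
    rw [Finset.sum_const, Crit.card_nb h, nsmul_eq_mul]
  · intro g v
    have h1 : ∀ᵐ ω ∂(PP μ), ∀ c ∈ nb G v, ζ (g v) (g c) (act g.toEquiv ω) = ζ v c ω := by
      rw [Finset.eventually_all]
      intro c hc
      exact hζ.inv g v c ((Crit.mem_nb h).1 hc)
    filter_upwards [h1] with ω h1
    unfold Xi
    rw [← Finset.sum_congr rfl h1]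
    symm
    apply Finset.sum_bij (fun c _ => g c)
    · intro c hc
      rw [Crit.mem_nb h] at hc ⊢
      exact g.map_rel_iff.2 hc
    · intro a _ b _ hab
      exact g.injective hab
    · intro c hc
      rw [Crit.mem_nb h] at hc
      refine ⟨g.symm c, ?_, g.apply_symm_apply c⟩
      rw [Crit.mem_nb h]
      have := g.symm.map_rel_iff.2 hc
      rwa [g.symm_apply_apply] at this
    · intro c _
      rfl
  · intro v
    have h1 : ∀ᵐ ω ∂(PP μ), ∀ c ∈ nb G v, ζ v c (flp ω) = ζ v c ω := by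
      rw [Finset.eventually_all]
      intro c hc
      exact hζ.flip v c ((Crit.mem_nb h).1 hc)
    filter_upwards [h1] with ω h1
    unfold Xi
    exact Finset.sum_congr rfl h1
  · intro v
    unfold Xi
    rw [integral_finsetSum _ fun c _ => Vale.Agent.P161.integrable_of_bdd (hζ.meas v c) (hζ.bdd v c)]
    apply Finset.sum_eq_zero
    intro c hc
    exact hζ.zero v c ((Crit.mem_nb h).1 hc)

/-! ### assembly -/

lemma Cc_le (hHOM : S_HOM.{u}) (h : Crit G d θ) (hζ : EF G μ ζ B)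
    (hg : ∀ g : G ≃g G, MeasurePreserving (act g.toEquiv) (PP μ) (PP μ)) (o : V) (k : ℕ) :
    |Cc G μ ζ k| ≤ Cc G μ ζ 0 := by
  obtain ⟨w, hw⟩ := exists_dist h o (k + 1)
  have a1 : G.Adj (gp G o w 0) (gp G o w 1) := Gp.gp_adj h.tree (i := 0) (by omega)
  have a2 : G.Adj (gp G o w k) (gp G o w (k + 1)) := Gp.gp_adj h.tree (i := k) (by omega)
  have e1 := (pair_eq hHOM h hζ hg a1 a1).1 rfl
  have e2 := (pair_eq hHOM h hζ hg a2 a2).1 rfl
  have e3 : Cc G μ ζ k = ∫ ω, ζ (gp G o w 0) (gp G o w 1) ω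
      * ζ (gp G o w k) (gp G o w (k + 1)) ω ∂(PP μ) := by
    have h0 : gp G o w 0 = o := Gp.gp_zero h.tree o w
    have hk1 : gp G o w (k + 1) = w := by rw [← hw]; exact Gp.gp_last h.tree o w
    have s1 := Gp.gp_spec h.tree.connected o w (i := 1) (by omega)
    have s2 := Gp.gp_spec h.tree.connected o w (i := k) (by omega)
    symm
    apply Cc_eq hHOM h hζ hg a1 a2
    · rw [h0, hk1]; omega
    · rw [h0, hk1]; omega
    · rw [h0, hk1]; omega
  have i1 := hζ.int (gp G o w 0) (gp G o w 1) (gp G o w 0) (gp G o w 1)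
  have i2 := hζ.int (gp G o w k) (gp G o w (k + 1)) (gp G o w k) (gp G o w (k + 1))
  have i3 := hζ.int (gp G o w 0) (gp G o w 1) (gp G o w k) (gp G o w (k + 1))
  have u1 : Cc G μ ζ k ≤ Cc G μ ζ 0 := by
    have : ∫ ω, ζ (gp G o w 0) (gp G o w 1) ω * ζ (gp G o w k) (gp G o w (k + 1)) ω ∂(PP μ)
        ≤ ∫ ω, (1 / 2 * (ζ (gp G o w 0) (gp G o w 1) ω * ζ (gp G o w 0) (gp G o w 1) ω)
          + 1 / 2 * (ζ (gp G o w k) (gp G o w (k + 1)) ω
            * ζ (gp G o w k) (gp G o w (k + 1)) ω)) ∂(PP μ) := by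
      apply integral_mono i3 ((i1.const_mul _).add (i2.const_mul _))
      intro ω
      simp only [Pi.add_apply]
      nlinarith [sq_nonneg (ζ (gp G o w 0) (gp G o w 1) ω - ζ (gp G o w k) (gp G o w (k + 1)) ω)]
    rw [integral_add (i1.const_mul _) (i2.const_mul _), integral_const_mul, integral_const_mul,
      e1, e2, ← e3] at this
    linarith
  have u2 : -Cc G μ ζ 0 ≤ Cc G μ ζ k := by
    have : ∫ ω, (-(1 / 2) * (ζ (gp G o w 0) (gp G o w 1) ω * ζ (gp G o w 0) (gp G o w 1) ω)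
          + -(1 / 2) * (ζ (gp G o w k) (gp G o w (k + 1)) ω
            * ζ (gp G o w k) (gp G o w (k + 1)) ω)) ∂(PP μ)
        ≤ ∫ ω, ζ (gp G o w 0) (gp G o w 1) ω * ζ (gp G o w k) (gp G o w (k + 1)) ω ∂(PP μ) := by
      apply integral_mono ((i1.const_mul _).add (i2.const_mul _)) i3
      intro ω
      simp only [Pi.add_apply]
      nlinarith [sq_nonneg (ζ (gp G o w 0) (gp G o w 1) ω + ζ (gp G o w k) (gp G o w (k + 1)) ω)]
    rw [integral_add (i1.const_mul _) (i2.const_mul _), integral_const_mul, integral_const_mul,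
      e1, e2, ← e3] at this
    linarith
  exact abs_le.2 ⟨u2, u1⟩

lemma path_corr (hHOM : S_HOM.{u}) (h : Crit G d θ) (hζ : EF G μ ζ B)
    (hg : ∀ g : G ≃g G, MeasurePreserving (act g.toEquiv) (PP μ) (PP μ)) (v w : V) {i j : ℕ}
    (hij : i ≤ j) (hj : j < G.dist v w) :
    ∫ ω, ζ (gp G v w i) (gp G v w (i + 1)) ω * ζ (gp G v w j) (gp G v w (j + 1)) ω ∂(PP μ)
      = Cc G μ ζ (j - i) := by
  have a1 : G.Adj (gp G v w i) (gp G v w (i + 1)) := Gp.gp_adj h.tree (by omega)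
  have a2 : G.Adj (gp G v w j) (gp G v w (j + 1)) := Gp.gp_adj h.tree (by omega)
  have d1 := dist_gp h.tree (v := v) (w := w) (i := i) (j := j + 1) (by omega) (by omega)
  have d2 := dist_gp h.tree (v := v) (w := w) (i := i + 1) (j := j + 1) (by omega) (by omega)
  have d3 := dist_gp h.tree (v := v) (w := w) (i := i) (j := j) (by omega) (by omega)
  exact Cc_eq hHOM h hζ hg a1 a2 (by omega) (by omega) (by omega)

lemma path_sum (hHOM : S_HOM.{u}) (h : Crit G d θ) (hζ : EF G μ ζ B)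
    (hg : ∀ g : G ≃g G, MeasurePreserving (act g.toEquiv) (PP μ) (PP μ)) (v w : V) (n : ℕ)
    (hn : n ≤ G.dist v w) :
    ∫ ω, (∑ i ∈ Finset.range n, ζ (gp G v w i) (gp G v w (i + 1)) ω) ^ 2 ∂(PP μ)
      = ∑ i ∈ Finset.range n, ∑ j ∈ Finset.range n, Cc G μ ζ ((i - j) + (j - i)) := by
  simp_rw [sq, Finset.sum_mul_sum]
  rw [integral_finsetSum _ (fun i _ => integrable_finsetSum _ fun j _ => hζ.int _ _ _ _)]
  apply Finset.sum_congr rfl
  intro i hi
  rw [integral_finsetSum _ (fun j _ => hζ.int _ _ _ _)]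
  apply Finset.sum_congr rfl
  intro j hj
  rw [Finset.mem_range] at hi hj
  rcases le_total i j with hij | hij
  · rw [path_corr hHOM h hζ hg v w hij (by omega)]
    congr 1
    omega
  · rw [show (i - j) + (j - i) = i - j by omega,
      ← path_corr hHOM h hζ hg v w hij (by omega)]
    apply integral_congr_ae
    filter_upwards with ω
    ring

lemma etaLaw_of_env (hENV : S_ENV.{u}) (h : Crit G d θ) (hμ : IsFreeIsing G θ μ) :
    EtaLaw G θ μ := by
  classical
  obtain ⟨ν, hν, _, _, _, hmap, _⟩ := hENV h hμ 1 one_pos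
  haveI := hν.prob
  have hp : ∀ e, IsProbabilityMeasure (if e ∈ G.edgeSet then bern θ else Measure.dirac true) := by
    intro e
    split_ifs
    · apply bern_isProb
      rw [abs_of_pos h.pos]
      exact (Gp.theta_lt_one h).le
    · infer_instance
  have hpe : IsProbabilityMeasure (etaLaw G θ) := by
    unfold etaLaw
    infer_instance
  have hpE : IsProbabilityMeasure (EE G θ ν) := by
    unfold EE
    infer_instance
  have hae : AEMeasurable (fun ω : Om V => (etaF G ω.1, yh 1 ω)) (PP μ) := by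
    apply AEMeasurable.of_map_ne_zero
    rw [hmap]
    exact hpE.ne_zero
  have h1 : (PP μ).map (fun ω : Om V => etaF G ω.1) = etaLaw G θ := by
    have e1 : (fun ω : Om V => etaF G ω.1)
        = Prod.fst ∘ (fun ω : Om V => (etaF G ω.1, yh 1 ω)) := rfl
    rw [e1, ← AEMeasurable.map_map_of_aemeasurable measurable_fst.aemeasurable hae, hmap]
    unfold EE
    rw [Measure.map_fst_prod, measure_univ, one_smul]
  unfold EtaLaw
  rw [← h1]
  have e2 : (fun ω : Om V => etaF G ω.1) = etaF G ∘ Prod.fst := rfl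
  rw [e2, ← Measure.map_map (measurable_etaF G) measurable_fst]
  congr 1
  unfold PP lam
  rw [Measure.map_fst_prod, measure_univ, one_smul]

end Vale.Agent.P161C.Temp

namespace Vale.Agent.P161C

open MeasureTheory ProbabilityTheory Vale.Agent.P161 Filter Topology Temp

universe u

theorem temp (hHOM : S_HOM.{u}) (hPDK : S_PDK.{u}) (hEQUI : S_EQUI.{u}) (hENV : S_ENV.{u}) :
    S_TEMP.{u} := by
  intro V G d θ h
  have hd3 : (3 : ℝ) ≤ d := by exact_mod_cast h.hd
  obtain ⟨K, hK, hE⟩ := erec ((d : ℝ) - 1) (by linarith)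
  refine ⟨K, hK, ?_⟩
  intro μ hμ ζ B h1 h2 h3 h4 h5 h6 v w a c hac n hn
  haveI : Nonempty V := ⟨v⟩
  haveI : IsProbabilityMeasure μ := isProb_of_isFreeIsing hμ
  have hζ : EF G μ ζ B := ⟨h1, h2, h3, h4, h5, h6⟩
  have hη := etaLaw_of_env hENV h hμ
  have hg := ((hEQUI h).2.2.2.2 hμ).1
  have hΞ := Xi_fld h hζ
  have hcov : ∀ u w : V, G.dist u w = G.dist u w →
      |∫ ω, Xi G ζ u ω * Xi G ζ w ω ∂(PP μ)|
        ≤ 2 * (G.dist u w + 1) * θ ^ (G.dist u w) * ∫ ω, Xi G ζ u ω * Xi G ζ u ω ∂(PP μ) :=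
    fun u w _ => cov_bound hHOM hPDK h hη hg hΞ u w
  -- the sequence D
  have hD := hE θ h.pos h.crit (Cc G μ ζ)
    (fun k => if k = 0 then d * (Cc G μ ζ 0 + ((d : ℝ) - 1) * Cc G μ ζ 1)
      else Cc G μ ζ (k - 1) + 2 * ((d : ℝ) - 1) * Cc G μ ζ k
        + ((d : ℝ) - 1) ^ 2 * Cc G μ ζ (k + 1))
    (Cc_le hHOM h hζ hg v)
    (by simp) (by
      intro k hk
      rw [if_neg (by omega)]) (by
      intro k
      obtain ⟨x, hx⟩ := exists_dist h v k
      have hb := hcov v x rfl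
      rw [hx, Xi_self hHOM h hζ hg] at hb
      by_cases hk : k = 0
      · subst hk
        have : v = x := h.tree.connected.dist_eq_zero_iff.1 hx
        subst this
        rw [Xi_self hHOM h hζ hg] at hb
        simpa using hb
      · obtain ⟨j, rfl⟩ : ∃ j, k = j + 1 := ⟨k - 1, by omega⟩
        rw [Xi_pair hHOM h hζ hg hx] at hb
        simp only [if_true, if_neg hk]
        rw [Nat.add_sub_cancel]
        exact hb) n
  rw [path_sum hHOM h hζ hg v w n hn]
  have e1 : ∫ ω, ζ a c ω ^ 2 ∂(PP μ) = Cc G μ ζ 0 := by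
    rw [← (pair_eq hHOM h hζ hg hac hac).1 rfl]
    simp_rw [sq]
  rw [e1]
  exact hD

end Vale.Agent.P161C
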