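import Vale.Agent.P161C.Plan
import Mathlib.Analysis.SpecialFunctions.Pow.Real
import Mathlib.Analysis.Convex.SpecificFunctions.Basic

/-!
# P161C, module XREC
-/

namespace Vale.Agent.P161C

universe u

namespace XREC

/-- `(1 - x/b)^b` is at least `(1 - x/2)^2` -/
theorem pow_ge {b : ℕ} (hb : 2 ≤ b) {x : ℝ} (hx1 : x ≤ 1) :
    (1 - x / 2) ^ 2 ≤ (1 - x / b) ^ b := by
  have hb0 : (2 : ℝ) ≤ b := by exact_mod_cast hb
  have hbpos : (0 : ℝ) < b := by linarith
  have h := _root_.rpow_one_add_le_one_add_mul_self (s := -(x / 2)) (p := 2 / (b : ℝ))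
    (by linarith) (by positivity) (by rw [div_le_one hbpos]; exact hb0)
  have hpos : 0 ≤ 1 + -(x / 2) := by linarith
  have h2 := pow_le_pow_left₀ (Real.rpow_nonneg hpos _) h b
  have h3 : ((1 + -(x / 2)) ^ (2 / (b : ℝ))) ^ b = (1 - x / 2) ^ 2 := by
    rw [← Real.rpow_natCast ((1 + -(x / 2)) ^ (2 / (b : ℝ))) b, ← Real.rpow_mul hpos,
      div_mul_cancel₀ _ hbpos.ne']
    rw [show (2 : ℝ) = ((2 : ℕ) : ℝ) by norm_num, Real.rpow_natCast]
    norm_num
    ring
  have h4 : 1 + 2 / (b : ℝ) * -(x / 2) = 1 - x / b := by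
    field_simp
    ring
  rw [h3, h4] at h2
  exact h2

theorem upper {b : ℕ} {κ : ℝ} {x : ℕ → ℝ} (hb : 2 ≤ b) (hκ : 0 < κ) (hκ1 : κ ≤ 1)
    (hx0 : x 0 = κ) (hx : ∀ n, 0 ≤ x n ∧ x n ≤ 1)
    (hrec : ∀ n, x (n + 1) ≤ 1 - (1 - κ) * (1 - x n / b) ^ b) (n : ℕ) : x n ≤ 3 * √κ := by
  set z := √κ with hz
  have hz0 : 0 < z := Real.sqrt_pos.2 hκ
  have hzz : z ^ 2 = κ := Real.sq_sqrt hκ.le
  have hz1 : z ≤ 1 := by nlinarith
  by_cases h3 : 1 ≤ 3 * z
  · exact (hx n).2.trans h3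
  push Not at h3
  induction n with
  | zero => rw [hx0, ← hzz]; nlinarith
  | succ n ih =>
    have h1 := hrec n
    have h2 := pow_ge hb (hx n).2
    have h4 : (1 - κ) * (1 - x n / 2) ^ 2 ≤ (1 - κ) * (1 - x n / b) ^ b :=
      mul_le_mul_of_nonneg_left h2 (by linarith)
    have h5 : x (n + 1) ≤ κ + (1 - κ) * (x n - x n ^ 2 / 4) := by nlinarith
    have hn := hx n
    have h6 : x n - x n ^ 2 / 4 ≤ 3 * z - (3 * z) ^ 2 / 4 := by nlinarith
    have h7 : (1 - κ) * (x n - x n ^ 2 / 4) ≤ (1 - κ) * (3 * z - (3 * z) ^ 2 / 4) :=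
      mul_le_mul_of_nonneg_left h6 (by linarith)
    have h8 : κ + (1 - κ) * (3 * z - (3 * z) ^ 2 / 4) ≤ 3 * z := by
      rw [← hzz]
      have e : 3 * z - (z ^ 2 + (1 - z ^ 2) * (3 * z - (3 * z) ^ 2 / 4))
          = z ^ 2 * (5 / 4 + 3 * z - 9 / 4 * z ^ 2) := by ring
      have : 0 ≤ z ^ 2 * (5 / 4 + 3 * z - 9 / 4 * z ^ 2) :=
        mul_nonneg (sq_nonneg _) (by nlinarith)
      linarith
    linarith

theorem exp_neg_le {u : ℝ} (hu : 0 ≤ u) : Real.exp (-u) ≤ 1 - u + u ^ 2 / 2 := by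
  have h1 := Real.quadratic_le_exp_of_nonneg hu
  have h2 : Real.exp (-u) * Real.exp u = 1 := by
    rw [← Real.exp_add]; simp
  have h3 : 0 < Real.exp (-u) := Real.exp_pos _
  have h4 : 0 < 1 + u + u ^ 2 / 2 := by positivity
  have h5 : Real.exp (-u) * (1 + u + u ^ 2 / 2) ≤ 1 :=
    (mul_le_mul_of_nonneg_left h1 h3.le).trans h2.le
  have h6 : Real.exp (-u) ≤ 1 / (1 + u + u ^ 2 / 2) := by
    rw [le_div_iff₀ h4]; exact h5
  refine h6.trans ?_
  rw [div_le_iff₀ h4]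
  nlinarith [sq_nonneg (u ^ 2)]

theorem exp_neg_one_le : Real.exp (-1) ≤ 3 / 8 := by
  have h := Real.exp_one_gt_d9
  rw [Real.exp_neg]
  rw [inv_le_comm₀ (Real.exp_pos 1) (by norm_num)]
  norm_num at h ⊢
  linarith

theorem pow_le_exp {b : ℕ} (hb : 2 ≤ b) {x : ℝ} (hx1 : x ≤ 1) :
    (1 - 2 * (x / b)) ^ b ≤ Real.exp (-(2 * x)) := by
  have hb0 : (2 : ℝ) ≤ b := by exact_mod_cast hb
  have h := Real.one_sub_div_pow_le_exp_neg (n := b) (t := 2 * x) (by linarith)
  rwa [mul_div_assoc] at h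

theorem lower {b : ℕ} {κ : ℝ} {x : ℕ → ℝ} (hb : 2 ≤ b) (hκ : 0 < κ) (hκ1 : κ ≤ 1 / 2)
    (hx : ∀ n, 0 ≤ x n ∧ x n ≤ 1)
    (hrec : ∀ n, 1 - 2 * x (n + 1) ≤ (1 - 2 * κ) * (1 - 2 * (x n / b)) ^ b) (n : ℕ) :
    min (n * κ / 4) (√κ / 2) ≤ x n := by
  set z := √κ with hz
  have hz0 : 0 < z := Real.sqrt_pos.2 hκ
  have hzz : z ^ 2 = κ := Real.sq_sqrt hκ.le
  have hz1 : z ≤ 1 := by nlinarith
  induction n with
  | zero =>
    refine (min_le_left _ _).trans ?_
    simpa using (hx 0).1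
  | succ n ih =>
    have hn := hx n
    have h1 := hrec n
    have h2 := pow_le_exp hb hn.2
    by_cases hc : 1 / 2 ≤ x n
    · -- the message is large
      have h3 : Real.exp (-(2 * x n)) ≤ 3 / 8 :=
        (Real.exp_le_exp.2 (by linarith)).trans exp_neg_one_le
      have h4 : (1 - 2 * κ) * (1 - 2 * (x n / b)) ^ b ≤ (1 - 2 * κ) * (3 / 8) :=
        mul_le_mul_of_nonneg_left (h2.trans h3) (by linarith)
      refine (min_le_right _ _).trans ?_
      nlinarith [sq_nonneg (z - 2 / 3)]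
    · push Not at hc
      have h3 := exp_neg_le (u := 2 * x n) (by linarith)
      have h4 : (1 - 2 * κ) * (1 - 2 * (x n / b)) ^ b
          ≤ (1 - 2 * κ) * (1 - 2 * x n + (2 * x n) ^ 2 / 2) :=
        mul_le_mul_of_nonneg_left (h2.trans h3) (by linarith)
      have h5 : κ + (1 - 2 * κ) * (x n - x n ^ 2) ≤ x (n + 1) := by nlinarith
      -- monotonicity
      set w := min (x n) (z / 2) with hw
      have hw0 : 0 ≤ w := le_min hn.1 (by positivity)
      have hw1 : w ≤ x n := min_le_left _ _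
      have hw2 : w ≤ z / 2 := min_le_right _ _
      have h6 : w - w ^ 2 ≤ x n - x n ^ 2 := by nlinarith
      have h7 : (1 - 2 * κ) * (w - w ^ 2) ≤ (1 - 2 * κ) * (x n - x n ^ 2) :=
        mul_le_mul_of_nonneg_left h6 (by linarith)
      have h8 : w + κ / 4 ≤ κ + (1 - 2 * κ) * (w - w ^ 2) := by
        have h9 : 2 * κ * w ≤ κ * z := by nlinarith
        have h10 : (1 - 2 * κ) * w ^ 2 ≤ (1 - 2 * κ) * (κ / 4) := by
          refine mul_le_mul_of_nonneg_left ?_ (by linarith)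
          rw [← hzz]
          nlinarith
        have h11 : 0 ≤ κ * (1 - z) ^ 2 := by positivity
        have h12 : κ * z ^ 2 = κ * κ := by rw [hzz]
        nlinarith
      have h9 : min (n * κ / 4) (z / 2) ≤ w := le_min ih (min_le_right _ _)
      have h10 : min (((n + 1 : ℕ) : ℝ) * κ / 4) (z / 2) ≤ min (n * κ / 4) (z / 2) + κ / 4 := by
        rcases le_total (n * κ / 4) (z / 2) with h | h
        · rw [min_eq_left h]
          refine (min_le_left _ _).trans ?_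
          push_cast
          linarith
        · rw [min_eq_right h]
          refine (min_le_right _ _).trans ?_
          linarith
      linarith

end XREC

open XREC

theorem xrec : S_XREC := by
  intro b κ x hb hκ hκ1 hx0 hx hup hlow
  refine ⟨upper hb hκ hκ1 hx0 hx hup, ?_⟩
  intro n hn
  set z := √κ with hz
  have hz0 : 0 < z := Real.sqrt_pos.2 hκ
  have hzz : z ^ 2 = κ := Real.sq_sqrt hκ.le
  have hz1 : z ≤ 1 := by nlinarith
  have hb0 : (2 : ℝ) ≤ b := by exact_mod_cast hb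
  by_cases hc : 1 < 2 * κ
  · have hn0 : (0 : ℝ) < n := lt_of_lt_of_le (by positivity) hn
    have hn1 : 0 < n := by exact_mod_cast hn0
    obtain ⟨k, rfl⟩ : ∃ k, n = k + 1 := ⟨n - 1, by omega⟩
    rcases hlow k with h | h
    · have h1 : 0 ≤ 1 - 2 * (x k / b) := by
        have h2 : x k / b ≤ 1 / 2 := by
          rw [div_le_div_iff₀ (by linarith) (by norm_num)]
          nlinarith [(hx k).2]
        linarith
      have h2 : 0 ≤ (1 - 2 * (x k / b)) ^ b := pow_nonneg h1 _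
      have h3 : (1 - 2 * κ) * (1 - 2 * (x k / b)) ^ b ≤ 0 :=
        mul_nonpos_of_nonpos_of_nonneg (by linarith) h2
      linarith
    · have h1 : 1 / 2 ≤ z := by nlinarith
      have h2 := h.1
      nlinarith
  · push Not at hc
    have h1 := lower hb hκ (by linarith) hx (fun n => by
      rcases hlow n with h | h
      · exact h
      · exact absurd h.2 (by linarith)) n
    refine le_trans (le_min ?_ le_rfl) h1
    rw [div_le_iff₀ hz0] at hn
    rw [← hzz]
    nlinarith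

end Vale.Agent.P161C
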