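import Vale.Agent.P161C.Asm
import Vale.Agent.P161C.SI
import Vale.Agent.P161C.SIQ
import Vale.Agent.P161C.SIS
import Vale.Agent.P161C.ALG1
import Vale.Agent.P161C.Alg2
import Vale.Agent.P161C.Alg3
import Vale.Agent.P161C.Base
import Vale.Agent.P161C.Converse
import Vale.Agent.P161C.DYNA
import Vale.Agent.P161C.DecA
import Vale.Agent.P161C.DecB
import Vale.Agent.P161C.Dyn
import Vale.Agent.P161C.Env
import Vale.Agent.P161C.EquiMod
import Vale.Agent.P161C.Erec
import Vale.Agent.P161C.Fin
import Vale.Agent.P161C.GRON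
import Vale.Agent.P161C.HOM
import Vale.Agent.P161C.JUMP
import Vale.Agent.P161C.MOM
import Vale.Agent.P161C.NISH
import Vale.Agent.P161C.PDK
import Vale.Agent.P161C.PHI
import Vale.Agent.P161C.Pfin
import Vale.Agent.P161C.SUMJ
import Vale.Agent.P161C.TRANS
import Vale.Agent.P161C.Temp
import Vale.Agent.P161C.XREC

/-!
# P161: the free Ising measure at the critical point is a factor of IID (all modules together)
-/

namespace Vale.Agent.P161C

open MeasureTheory Vale.Agent.P161

universe u

theorem allPOST : S_POST.{u} := post pfin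
theorem allEQUI : S_EQUI.{u} := EQ.equi BaseM.base
theorem allMOM : S_MOM.{u} := mom nish xrec
theorem allDECA : S_DECA.{u} := deca allMOM
theorem allDECB : S_DECB.{u} := decb allDECA
theorem allTRANS : S_TRANS.{u} := trans env allMOM allDECA allDECB allPOST
theorem allTEMP : S_TEMP.{u} := temp hom pdk allEQUI env
theorem allSIQ : S_SIQ.{u} := siq alg1 allTRANS allEQUI BaseM.base hom
theorem allJUMP : S_JUMP.{u} := jump allPOST alg2 BaseM.base
theorem allSUMJ : S_SUMJ.{u} := sumj allPOST alg2 alg3 allTRANS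
theorem allDYNA : S_DYNA.{u} := dyna allPOST allTRANS phi_mod alg1 alg3 BaseM.base allJUMP
theorem allFIN : S_FIN.{u} := fin BaseM.base allEQUI allJUMP allPOST

theorem allSIS : S_SIS.{u} := sis allTRANS allTEMP alg3 allEQUI BaseM.base hom

theorem full0 {V : Type u} {G : SimpleGraph V} {d : ℕ} {θ : ℝ}
    (h : Crit G d θ) {μ : Measure (V → Bool)} (hμ : IsFreeIsing G θ μ) : IsFactorOfIID G μ :=
  asm (dyn (si allSIQ allSIS) allJUMP allSUMJ phi_mod BaseM.base allEQUI allDYNA) gron allFIN
    allEQUI BaseM.base h hμ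

end Vale.Agent.P161C
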