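import Vale.Agent.P161C.Plan

namespace Vale.Agent.P161C

open MeasureTheory Vale.Agent.P161 Filter Topology

universe u

namespace GRON

/-- discrete Gronwall -/
lemma gronwall (a k : ℕ → ℝ) (E : ℝ) (M : ℕ) (hk : ∀ i, 0 ≤ k i)
    (h : ∀ m, 1 ≤ m → m ≤ M → a m ≤ E + ∑ i ∈ Finset.Ico 1 m, k i * a i) :
    ∀ m, 1 ≤ m → m ≤ M → E + ∑ i ∈ Finset.Ico 1 m, k i * a i
      ≤ E * ∏ i ∈ Finset.Ico 1 m, (1 + k i) := by
  intro m hm
  induction m, hm using Nat.le_induction with
  | base => intro _; simp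
  | succ m hm ih =>
    intro hM
    have h1 := ih (by omega)
    have h2 := h m hm (by omega)
    rw [Finset.sum_Ico_succ_top hm, Finset.prod_Ico_succ_top hm]
    have h3 : k m * a m ≤ k m * (E + ∑ i ∈ Finset.Ico 1 m, k i * a i) :=
      mul_le_mul_of_nonneg_left h2 (hk m)
    have h4 : (1 + k m) * (E + ∑ i ∈ Finset.Ico 1 m, k i * a i)
        ≤ (1 + k m) * (E * ∏ i ∈ Finset.Ico 1 m, (1 + k i)) :=
      mul_le_mul_of_nonneg_left h1 (by linarith [hk m])
    nlinarith [h3, h4]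

lemma prod_le_exp (k : ℕ → ℝ) (m : ℕ) (hk : ∀ i, 0 ≤ k i) :
    ∏ i ∈ Finset.Ico 1 m, (1 + k i) ≤ Real.exp (∑ i ∈ Finset.Ico 1 m, k i) := by
  rw [Real.exp_sum]
  apply Finset.prod_le_prod
  · intro i _; linarith [hk i]
  · intro i _; linarith [Real.add_one_le_exp (k i)]

/-- growth of the double exponential -/
lemma growth (a : ℝ) (ha : 0 ≤ a) : ∃ B : ℝ, 0 ≤ B ∧ ∀ m : ℕ,
    ((m : ℝ) + 1) ^ 2 * Real.exp (-2 * (√2) ^ (m / 4)) ≤ B * Real.exp (-a * (m : ℝ) ^ 3) := by
  have hs : (1 : ℝ) < √2 := by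
    rw [Real.lt_sqrt (by norm_num)]; norm_num
  -- (j+1)^4 ≤ D (√2)^j
  have ht := tendsto_pow_const_div_const_pow_of_one_lt 4 hs
  obtain ⟨D0, hD0⟩ := ht.bddAbove_range
  have hD : ∀ j : ℕ, (j : ℝ) ^ 4 ≤ D0 * (√2) ^ j := by
    intro j
    have := hD0 (Set.mem_range_self j)
    rwa [div_le_iff₀ (by positivity)] at this
  have hD0' : 0 ≤ D0 := by
    have := hD 1
    simp only [Nat.cast_one, one_pow, pow_one] at this
    by_contra hn
    push Not at hn
    nlinarith
  have hD' : ∀ j : ℕ, ((j : ℝ) + 1) ^ 4 ≤ 2 * D0 * (√2) ^ j := by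
    intro j
    have := hD (j + 1)
    push_cast at this
    rw [pow_succ] at this
    have h2 : √2 ≤ 2 := by
      rw [Real.sqrt_le_left (by norm_num)]; norm_num
    calc ((j : ℝ) + 1) ^ 4 ≤ D0 * ((√2) ^ j * √2) := this
      _ ≤ D0 * ((√2) ^ j * 2) := by gcongr
      _ = 2 * D0 * (√2) ^ j := by ring
  set A : ℝ := 64 * a + 8 with hA
  have hApos : 0 < A := by positivity
  set J : ℝ := A * (D0 + 1) with hJ
  have hJpos : 0 < J := by positivity
  have key : ∀ j : ℕ, A * ((j : ℝ) + 1) ^ 3 ≤ 2 * (√2) ^ j + A * J ^ 3 := by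
    intro j
    by_cases hj : (j : ℝ) + 1 ≤ J
    · have h1 : ((j : ℝ) + 1) ^ 3 ≤ J ^ 3 := by gcongr
      have h2 : 0 ≤ 2 * (√2) ^ j := by positivity
      nlinarith
    · push Not at hj
      have h1 := hD' j
      have h2 : J * (A * ((j : ℝ) + 1) ^ 3) ≤ J * (2 * (√2) ^ j) := by
        calc J * (A * ((j : ℝ) + 1) ^ 3) ≤ ((j : ℝ) + 1) * (A * ((j : ℝ) + 1) ^ 3) := by gcongr
          _ = A * ((j : ℝ) + 1) ^ 4 := by ring
          _ ≤ A * (2 * D0 * (√2) ^ j) := by gcongr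
          _ ≤ A * (2 * (D0 + 1) * (√2) ^ j) := by gcongr; linarith
          _ = J * (2 * (√2) ^ j) := by rw [hJ]; ring
      have h3 := le_of_mul_le_mul_left h2 hJpos
      have h4 : 0 ≤ A * J ^ 3 := by positivity
      linarith
  refine ⟨Real.exp (A * J ^ 3), (Real.exp_pos _).le, fun m => ?_⟩
  have hm : (m : ℝ) + 1 ≤ 4 * (((m / 4 : ℕ) : ℝ) + 1) := by
    have : m + 1 ≤ 4 * (m / 4 + 1) := by omega
    exact_mod_cast this
  have hk := key (m / 4)
  have e1 : ((m : ℝ) + 1) ^ 2 ≤ Real.exp (2 * ((m : ℝ) + 1)) := by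
    have h1 : (m : ℝ) + 1 ≤ Real.exp ((m : ℝ) + 1) := by
      linarith [Real.add_one_le_exp ((m : ℝ) + 1)]
    calc ((m : ℝ) + 1) ^ 2 ≤ (Real.exp ((m : ℝ) + 1)) ^ 2 := by gcongr
      _ = Real.exp (2 * ((m : ℝ) + 1)) := by rw [← Real.exp_nat_mul]; norm_num
  calc ((m : ℝ) + 1) ^ 2 * Real.exp (-2 * (√2) ^ (m / 4))
      ≤ Real.exp (2 * ((m : ℝ) + 1)) * Real.exp (-2 * (√2) ^ (m / 4)) := by gcongr
    _ = Real.exp (2 * ((m : ℝ) + 1) - 2 * (√2) ^ (m / 4)) := by
        rw [← Real.exp_add]; congr 1; ring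
    _ ≤ Real.exp (A * J ^ 3 - a * (m : ℝ) ^ 3) := by
        apply Real.exp_le_exp.2
        set j : ℝ := ((m / 4 : ℕ) : ℝ) with hj
        have hj0 : 0 ≤ j := by positivity
        have hm0 : (0 : ℝ) ≤ m := by positivity
        have h1 : (m : ℝ) ^ 3 ≤ 64 * (j + 1) ^ 3 := by
          calc (m : ℝ) ^ 3 ≤ (4 * (j + 1)) ^ 3 := by gcongr; linarith
            _ = 64 * (j + 1) ^ 3 := by ring
        have h2 : (j + 1) ≤ (j + 1) ^ 3 := by nlinarith [sq_nonneg j]
        have h3 : a * (m : ℝ) ^ 3 ≤ a * (64 * (j + 1) ^ 3) := by gcongr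
        nlinarith [hk, h1, h2, h3]
    _ = Real.exp (A * J ^ 3) * Real.exp (-a * (m : ℝ) ^ 3) := by
        rw [← Real.exp_add]; congr 1; ring

lemma err_nonneg (N : ℕ) : 0 ≤ err N := by
  unfold err
  exact tsum_nonneg fun n => by positivity

lemma err_le (a : ℝ) (ha : 1 ≤ a) : ∃ B : ℝ, 0 ≤ B ∧ ∀ N : ℕ,
    err N ≤ B * Real.exp (-a * (N : ℝ) ^ 3) := by
  obtain ⟨B, hB, h⟩ := growth a (by linarith)
  refine ⟨B * ∑' n : ℕ, Real.exp (-(n : ℝ)), mul_nonneg hB (tsum_nonneg fun n => (Real.exp_pos _).le),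
    fun N => ?_⟩
  have hs : Summable fun n : ℕ => Real.exp (-(n : ℝ)) := Real.summable_exp_neg_nat
  have hle : ∀ n : ℕ, ((n : ℝ) + N + 1) ^ 2 * Real.exp (-2 * (√2) ^ ((n + N) / 4))
      ≤ B * Real.exp (-a * (N : ℝ) ^ 3) * Real.exp (-(n : ℝ)) := by
    intro n
    have h1 := h (n + N)
    push_cast at h1
    refine h1.trans ?_
    rw [mul_assoc, ← Real.exp_add]
    apply mul_le_mul_of_nonneg_left _ hB
    apply Real.exp_le_exp.2
    have hn : (n : ℝ) ≤ (n : ℝ) ^ 3 := by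
      have : n ≤ n ^ 3 := Nat.le_self_pow (by norm_num) n
      exact_mod_cast this
    have hn0 : (0 : ℝ) ≤ n := by positivity
    have hN0 : (0 : ℝ) ≤ N := by positivity
    have h2 : (n : ℝ) ^ 3 + (N : ℝ) ^ 3 ≤ ((n : ℝ) + N) ^ 3 := by
      have : 0 ≤ 3 * (n : ℝ) ^ 2 * N + 3 * n * (N : ℝ) ^ 2 := by positivity
      nlinarith
    have h3 : (n : ℝ) ≤ a * (n : ℝ) ^ 3 := by nlinarith
    nlinarith
  have hsg : Summable fun n : ℕ => B * Real.exp (-a * (N : ℝ) ^ 3) * Real.exp (-(n : ℝ)) :=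
    hs.mul_left _
  have hsf : Summable fun n : ℕ =>
      ((n : ℝ) + N + 1) ^ 2 * Real.exp (-2 * (√2) ^ ((n + N) / 4)) :=
    Summable.of_nonneg_of_le (fun n => by positivity) hle hsg
  calc err N ≤ ∑' n : ℕ, B * Real.exp (-a * (N : ℝ) ^ 3) * Real.exp (-(n : ℝ)) :=
        hsf.tsum_le_tsum hle hsg
    _ = B * (∑' n : ℕ, Real.exp (-(n : ℝ))) * Real.exp (-a * (N : ℝ) ^ 3) := by
        rw [tsum_mul_left]; ring

lemma log_step {x : ℝ} (h0 : 0 < x) (h1 : x ≤ 1) : x / 2 ≤ Real.log (1 + x) := by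
  have h := Real.one_sub_inv_le_log_of_pos (show 0 < 1 + x by linarith)
  have h2 : x / 2 ≤ 1 - (1 + x)⁻¹ := by
    have hx : (1 : ℝ) + x ≠ 0 := by positivity
    rw [show 1 - (1 + x)⁻¹ = x / (1 + x) by field_simp; ring]
    apply div_le_div_of_nonneg_left h0.le (by positivity) (by linarith)
  linarith

lemma sum_log (Λ : ℝ) (K : ℕ) (hK : 1 ≤ K) (hΛ : 1 ≤ Λ) (hΛK : Λ ≤ K) :
    ∀ m : ℕ, 1 ≤ m → ∑ i ∈ Finset.Ico 1 m, 1 / (K : ℝ) * (2 * Λ / (1 + Λ * ((i : ℝ) / K)))
      ≤ 4 * Real.log (1 + Λ * ((m : ℝ) / K)) := by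
  have hK0 : (0 : ℝ) < K := by positivity
  intro m hm
  induction m, hm using Nat.le_induction with
  | base =>
    simp only [Finset.Ico_self, Finset.sum_empty]
    apply mul_nonneg (by norm_num)
    apply Real.log_nonneg
    have : 0 ≤ Λ * (((1 : ℕ) : ℝ) / K) := by positivity
    linarith
  | succ m hm ih =>
    rw [Finset.sum_Ico_succ_top hm]
    set y : ℝ := 1 + Λ * ((m : ℝ) / K) with hy
    have hy1 : 1 ≤ y := by
      have : 0 ≤ Λ * ((m : ℝ) / K) := by positivity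
      linarith
    have hy0 : 0 < y := by linarith
    set x : ℝ := Λ / K / y with hx
    have hx0 : 0 < x := by positivity
    have hx1 : x ≤ 1 := by
      rw [hx, div_div, div_le_one (by positivity)]
      nlinarith
    have h1 := log_step hx0 hx1
    have h2 : Real.log (1 + Λ * (((m + 1 : ℕ) : ℝ) / K)) = Real.log y + Real.log (1 + x) := by
      rw [← Real.log_mul (by positivity) (by positivity)]
      congr 1
      rw [hx, hy]
      have : (1 : ℝ) + Λ * ((m : ℝ) / K) ≠ 0 := by positivity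
      field_simp
      push_cast
      ring
    rw [h2]
    have h3 : 1 / (K : ℝ) * (2 * Λ / y) = 2 * x := by
      rw [hx]; field_simp
    rw [h3]
    linarith

lemma term_le {C N e Λ s h Q c : ℝ} (hC : 0 < C) (hN : 0 ≤ N) (he : 0 ≤ e) (hΛ : 1 ≤ Λ)
    (hs : 0 < s) (hh : 0 ≤ h) (hQ0 : 0 ≤ Q) (hQ : Q ≤ C * h) (hc : 0 ≤ c)
    (hQ2 : Λ * s < 1 → 1 / s * Q ≤ C * (Λ * h + c)) :
    min s 1 * ((N + 1 + 1 / min s 1) * h + (N ^ 2 + 1 + 1 / (min s 1) ^ 2) * Q + e)
      ≤ ((N + 2 + C * (N ^ 2 + 2)) + C * (2 * Λ / (1 + Λ * s))) * h + (e + C * c) := by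
  set s1 := min s 1 with hs1
  have hs10 : 0 < s1 := lt_min hs one_pos
  have hs11 : s1 ≤ 1 := min_le_right _ _
  have hexp : s1 * ((N + 1 + 1 / s1) * h + (N ^ 2 + 1 + 1 / s1 ^ 2) * Q + e)
      = (s1 * (N + 1) + 1) * h + s1 * (N ^ 2 + 1) * Q + 1 / s1 * Q + s1 * e := by
    field_simp
    ring
  rw [hexp]
  have t1 : (s1 * (N + 1) + 1) * h ≤ (N + 2) * h := by
    apply mul_le_mul_of_nonneg_right _ hh
    nlinarith
  have t2 : s1 * (N ^ 2 + 1) * Q ≤ (N ^ 2 + 1) * (C * h) := by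
    calc s1 * (N ^ 2 + 1) * Q ≤ 1 * (N ^ 2 + 1) * Q := by gcongr
      _ = (N ^ 2 + 1) * Q := by ring
      _ ≤ (N ^ 2 + 1) * (C * h) := by gcongr
  have t3 : s1 * e ≤ e := by nlinarith
  have hLs : 0 < 1 + Λ * s := by positivity
  have t4 : 1 / s1 * Q ≤ C * h + C * (2 * Λ / (1 + Λ * s)) * h + C * c := by
    by_cases hcase : Λ * s < 1
    · have hs' : s < 1 := by nlinarith
      have : s1 = s := min_eq_left hs'.le
      rw [this]
      have h1 := hQ2 hcase
      have h2 : Λ ≤ 2 * Λ / (1 + Λ * s) := by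
        rw [le_div_iff₀ hLs]
        nlinarith
      have h3 : C * (Λ * h) ≤ C * (2 * Λ / (1 + Λ * s)) * h := by
        rw [← mul_assoc]
        gcongr
      have h4 : 0 ≤ C * h := by positivity
      nlinarith
    · push Not at hcase
      have h1 : 1 / s1 ≤ 1 + 1 / s := by
        rcases min_choice s 1 with h | h
        · rw [hs1, h]; linarith
        · rw [hs1, h]
          have : 0 < 1 / s := by positivity
          simp; positivity
      have h2 : 1 / s ≤ 2 * Λ / (1 + Λ * s) := by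
        rw [div_le_div_iff₀ hs hLs]
        nlinarith
      have h3 : 1 / s1 * Q ≤ (1 + 2 * Λ / (1 + Λ * s)) * (C * h) := by
        calc 1 / s1 * Q ≤ (1 + 2 * Λ / (1 + Λ * s)) * Q := by
              apply mul_le_mul_of_nonneg_right _ hQ0; linarith
          _ ≤ _ := by gcongr
      have h4 : 0 ≤ C * c := by positivity
      nlinarith
  nlinarith [t1, t2, t3, t4]

end GRON

open GRON in
theorem gron : S_GRON := by
  intro T h Q ρ C Cq hT hC hCq hρ hh hQ hI
  have hT0 : (1 : ℝ) ≤ T := by exact_mod_cast hT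
  -- the bound for fixed `N`, `Λ`, `q`
  obtain ⟨p, hp⟩ := exists_nat_ge (4 * C ^ 2)
  have main : ∀ (N : ℕ) (Λ : ℝ), 1 ≤ Λ →
      h T ≤ C * T * (err N + C * (Cq (p + 2) * (Λ / Λ ^ (p + 2))))
        * (Real.exp (C * T * ((N : ℝ) + 2 + C * ((N : ℝ) ^ 2 + 2))) * (1 + Λ * T) ^ p) := by
    intro N Λ hΛ
    set c1 : ℝ := (N : ℝ) + 2 + C * ((N : ℝ) ^ 2 + 2) with hc1
    have hc1' : 0 ≤ c1 := by positivity
    set c : ℝ := Cq (p + 2) * (Λ / Λ ^ (p + 2)) with hc
    have hc' : 0 ≤ c := mul_nonneg (hCq _) (by positivity)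
    have herr := err_nonneg N
    set W : ℝ := Real.exp (C * T * c1) * (1 + Λ * T) ^ p with hW
    have hW0 : 0 < W := by positivity
    -- for K ≥ Λ
    have hK : ∀ᶠ K : ℕ in atTop, h T ≤ (|ρ K| + C * T * (err N + C * c)) * W := by
      obtain ⟨K0, hK0⟩ := exists_nat_ge Λ
      filter_upwards [eventually_ge_atTop (max K0 1)] with K hK
      have hK1 : 1 ≤ K := (le_max_right _ _).trans hK
      have hKΛ : Λ ≤ K := hK0.trans (by exact_mod_cast (le_max_left _ _).trans hK)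
      have hKpos : (0 : ℝ) < K := by positivity
      set k : ℕ → ℝ := fun i => C / K * (c1 + C * (2 * Λ / (1 + Λ * ((i : ℝ) / K)))) with hk
      have hk0 : ∀ i, 0 ≤ k i := fun i => by simp only [hk]; positivity
      set E : ℝ := |ρ K| + C * T * (err N + C * c) with hE
      have hE0 : 0 ≤ E := by positivity
      have hrec : ∀ m, 1 ≤ m → m ≤ T * K → h ((m : ℝ) / K)
          ≤ E + ∑ i ∈ Finset.Ico 1 m, k i * h ((i : ℝ) / K) := by
        intro m hm hmT
        refine (hI K N m hK1 hm hmT).trans ?_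
        have hsum : ∑ i ∈ Finset.Ico 1 m, min ((i : ℝ) / K) 1 *
            ((N + 1 + 1 / min ((i : ℝ) / K) 1) * h ((i : ℝ) / K)
              + ((N : ℝ) ^ 2 + 1 + 1 / (min ((i : ℝ) / K) 1) ^ 2) * Q ((i : ℝ) / K) + err N)
            ≤ ∑ i ∈ Finset.Ico 1 m, ((c1 + C * (2 * Λ / (1 + Λ * ((i : ℝ) / K)))) * h ((i : ℝ) / K)
              + (err N + C * c)) := by
          apply Finset.sum_le_sum
          intro i hi
          rw [Finset.mem_Ico] at hi
          have hi0 : (0 : ℝ) < i := by exact_mod_cast hi.1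
          have hs : 0 < (i : ℝ) / K := by positivity
          have hsT : (i : ℝ) / K ≤ T := by
            rw [div_le_iff₀ hKpos]
            have : i ≤ T * K := by omega
            exact_mod_cast this
          obtain ⟨q1, q2, q3⟩ := hQ _ hs hsT
          refine term_le hC (by positivity) herr hΛ hs (hh _).1 q1 q2 hc' ?_
          intro hΛs
          have hs1 : (i : ℝ) / K ≤ 1 := by nlinarith
          have q4 := q3 hs1 (Λ * ((i : ℝ) / K)) (p + 2) (by positivity) hΛs.le (by omega)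
          calc 1 / ((i : ℝ) / K) * Q ((i : ℝ) / K)
              ≤ 1 / ((i : ℝ) / K) * (C * (Λ * ((i : ℝ) / K) * h ((i : ℝ) / K)
                + Cq (p + 2) * (Λ * ((i : ℝ) / K) / (Λ * ((i : ℝ) / K)) ^ (p + 2)
                  * ((i : ℝ) / K) ^ (p + 2)))) := by
                apply mul_le_mul_of_nonneg_left q4 (by positivity)
            _ = C * (Λ * h ((i : ℝ) / K) + c) := by
                rw [hc, mul_pow]
                set s : ℝ := (i : ℝ) / K
                have hs0 : s ≠ 0 := hs.ne'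
                have hΛ0 : Λ ≠ 0 := by positivity
                field_simp
        have hcard : (C / K) * ∑ i ∈ Finset.Ico 1 m, (err N + C * c)
            ≤ C * T * (err N + C * c) := by
          rw [Finset.sum_const, Nat.card_Ico, nsmul_eq_mul]
          have h1 : ((m - 1 : ℕ) : ℝ) ≤ T * K := by
            have : m - 1 ≤ T * K := by omega
            exact_mod_cast this
          have h2 : 0 ≤ err N + C * c := by positivity
          calc C / K * (((m - 1 : ℕ) : ℝ) * (err N + C * c))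
              ≤ C / K * ((T * K) * (err N + C * c)) := by gcongr
            _ = C * T * (err N + C * c) := by field_simp
        have h5 : C / K * ∑ i ∈ Finset.Ico 1 m,
            ((c1 + C * (2 * Λ / (1 + Λ * ((i : ℝ) / K)))) * h ((i : ℝ) / K) + (err N + C * c))
            = ∑ i ∈ Finset.Ico 1 m, k i * h ((i : ℝ) / K)
              + C / K * ∑ i ∈ Finset.Ico 1 m, (err N + C * c) := by
          rw [Finset.sum_add_distrib, mul_add, Finset.mul_sum]
          congr 1
          apply Finset.sum_congr rfl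
          intro i _
          simp only [hk]; ring
        have h6 := mul_le_mul_of_nonneg_left hsum (show 0 ≤ C / K by positivity)
        have h7 := le_abs_self (ρ K)
        rw [h5] at h6
        linarith
      have hTK : (T * K : ℕ) ≥ 1 := Nat.mul_pos hT hK1
      have hg := gronwall (fun i => h ((i : ℝ) / K)) k E (T * K) hk0 hrec (T * K) hTK le_rfl
      have hlast := hrec (T * K) hTK le_rfl
      have hTK' : (((T * K : ℕ) : ℝ)) / K = T := by push_cast; field_simp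
      rw [hTK'] at hlast
      have hpe := prod_le_exp k (T * K) hk0
      have hks : ∑ i ∈ Finset.Ico 1 (T * K), k i ≤ C * T * c1 + p * Real.log (1 + Λ * T) := by
        have e1 : ∑ i ∈ Finset.Ico 1 (T * K), k i
            = ∑ i ∈ Finset.Ico 1 (T * K), C / K * c1
              + C ^ 2 * ∑ i ∈ Finset.Ico 1 (T * K),
                  1 / (K : ℝ) * (2 * Λ / (1 + Λ * ((i : ℝ) / K))) := by
          rw [Finset.mul_sum, ← Finset.sum_add_distrib]
          apply Finset.sum_congr rfl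
          intro i _
          simp only [hk]; ring
        have e2 := sum_log Λ K hK1 hΛ hKΛ (T * K) hTK
        rw [hTK'] at e2
        have e3 : ∑ i ∈ Finset.Ico 1 (T * K), C / K * c1 ≤ C * T * c1 := by
          rw [Finset.sum_const, Nat.card_Ico, nsmul_eq_mul]
          have h1 : ((T * K - 1 : ℕ) : ℝ) ≤ T * K := by
            have : T * K - 1 ≤ T * K := by omega
            exact_mod_cast this
          calc ((T * K - 1 : ℕ) : ℝ) * (C / K * c1) ≤ (T * K) * (C / K * c1) := by gcongr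
            _ = C * T * c1 := by field_simp
        have e4 : 0 ≤ Real.log (1 + Λ * T) := by
          apply Real.log_nonneg
          have : 0 ≤ Λ * T := by positivity
          linarith
        rw [e1]
        have e5 : C ^ 2 * ∑ i ∈ Finset.Ico 1 (T * K),
                  1 / (K : ℝ) * (2 * Λ / (1 + Λ * ((i : ℝ) / K)))
            ≤ C ^ 2 * (4 * Real.log (1 + Λ * T)) := by gcongr
        have e6 : C ^ 2 * (4 * Real.log (1 + Λ * T)) ≤ p * Real.log (1 + Λ * T) := by
          calc C ^ 2 * (4 * Real.log (1 + Λ * T)) = (4 * C ^ 2) * Real.log (1 + Λ * T) := by ring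
            _ ≤ p * Real.log (1 + Λ * T) := by gcongr
        linarith
      have hWe : Real.exp (∑ i ∈ Finset.Ico 1 (T * K), k i) ≤ W := by
        calc Real.exp (∑ i ∈ Finset.Ico 1 (T * K), k i)
            ≤ Real.exp (C * T * c1 + p * Real.log (1 + Λ * T)) := Real.exp_le_exp.2 hks
          _ = W := by
            rw [Real.exp_add, hW, Real.exp_nat_mul, Real.exp_log (by positivity)]
      calc h T ≤ E + ∑ i ∈ Finset.Ico 1 (T * K), k i * h ((i : ℝ) / K) := hlast
        _ ≤ E * ∏ i ∈ Finset.Ico 1 (T * K), (1 + k i) := hg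
        _ ≤ E * W := by
          apply mul_le_mul_of_nonneg_left (hpe.trans hWe) hE0
    have hlim : Tendsto (fun K : ℕ => (|ρ K| + C * T * (err N + C * c)) * W) atTop
        (𝓝 ((|(0 : ℝ)| + C * T * (err N + C * c)) * W)) :=
      ((hρ.abs).add_const _).mul_const _
    have := ge_of_tendsto hlim hK
    rw [abs_zero, zero_add] at this
    exact this
  -- choose Λ = exp (N ^ 3)
  obtain ⟨B, hB, herr⟩ := err_le ((p : ℝ) + 1) (by
    have : (0 : ℝ) ≤ p := by positivity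
    linarith)
  set D : ℝ := C * T * (2 * T) ^ p * (B + C * Cq (p + 2)) with hD
  have hD0 : 0 ≤ D := by
    have := hCq (p + 2)
    positivity
  have hbound : ∀ N : ℕ, h T ≤ D * Real.exp (C * T * ((N : ℝ) + 2 + C * ((N : ℝ) ^ 2 + 2))
      - (N : ℝ) ^ 3) := by
    intro N
    set Λ : ℝ := Real.exp ((N : ℝ) ^ 3) with hΛ
    have hΛ1 : 1 ≤ Λ := Real.one_le_exp (by positivity)
    have hΛ0 : 0 < Λ := Real.exp_pos _
    have h1 := main N Λ hΛ1
    have hCq' := hCq (p + 2)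
    have h2 : (1 + Λ * T) ^ p ≤ (2 * T) ^ p * Λ ^ p := by
      rw [← mul_pow]
      apply pow_le_pow_left₀ (by positivity)
      nlinarith
    have h3 : err N * Λ ^ p ≤ B * Real.exp (-(N : ℝ) ^ 3) := by
      calc err N * Λ ^ p ≤ B * Real.exp (-((p : ℝ) + 1) * (N : ℝ) ^ 3) * Λ ^ p := by
            gcongr; exact herr N
        _ = B * Real.exp (-(N : ℝ) ^ 3) := by
            rw [hΛ, ← Real.exp_nat_mul, mul_assoc, ← Real.exp_add]
            congr 2; ring
    have h4 : Λ / Λ ^ (p + 2) * Λ ^ p = Real.exp (-(N : ℝ) ^ 3) := by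
      rw [Real.exp_neg, ← hΛ]
      field_simp
      ring
    have h5 : (err N + C * (Cq (p + 2) * (Λ / Λ ^ (p + 2)))) * Λ ^ p
        ≤ (B + C * Cq (p + 2)) * Real.exp (-(N : ℝ) ^ 3) := by
      calc (err N + C * (Cq (p + 2) * (Λ / Λ ^ (p + 2)))) * Λ ^ p
          = err N * Λ ^ p + C * Cq (p + 2) * (Λ / Λ ^ (p + 2) * Λ ^ p) := by ring
        _ ≤ B * Real.exp (-(N : ℝ) ^ 3) + C * Cq (p + 2) * Real.exp (-(N : ℝ) ^ 3) := by
            rw [h4]; linarith
        _ = _ := by ring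
    set X : ℝ := Real.exp (C * T * ((N : ℝ) + 2 + C * ((N : ℝ) ^ 2 + 2))) with hX
    have herr0 := err_nonneg N
    calc h T ≤ C * T * (err N + C * (Cq (p + 2) * (Λ / Λ ^ (p + 2)))) * (X * (1 + Λ * T) ^ p) := h1
      _ ≤ C * T * (err N + C * (Cq (p + 2) * (Λ / Λ ^ (p + 2)))) * (X * ((2 * T) ^ p * Λ ^ p)) := by
          gcongr
      _ = C * T * (2 * T) ^ p * X
            * ((err N + C * (Cq (p + 2) * (Λ / Λ ^ (p + 2)))) * Λ ^ p) := by ring
      _ ≤ C * T * (2 * T) ^ p * X * ((B + C * Cq (p + 2)) * Real.exp (-(N : ℝ) ^ 3)) := by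
          gcongr
      _ = D * Real.exp (C * T * ((N : ℝ) + 2 + C * ((N : ℝ) ^ 2 + 2)) - (N : ℝ) ^ 3) := by
          rw [sub_eq_add_neg, Real.exp_add, hD, hX]; ring
  have hev : ∀ᶠ N : ℕ in atTop, h T ≤ D * Real.exp (-(N : ℝ)) := by
    obtain ⟨N0, hN0⟩ := exists_nat_ge (3 * C * T * (1 + C) + 1)
    filter_upwards [eventually_ge_atTop (max N0 1)] with N hN
    have hN1 : (1 : ℝ) ≤ N := by exact_mod_cast (le_max_right _ _).trans hN
    have hNN : 3 * C * T * (1 + C) + 1 ≤ (N : ℝ) :=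
      hN0.trans (by exact_mod_cast (le_max_left _ _).trans hN)
    refine (hbound N).trans ?_
    apply mul_le_mul_of_nonneg_left _ hD0
    apply Real.exp_le_exp.2
    have hCT : 0 < C * T := by positivity
    have a1 : (N : ℝ) + 2 + C * ((N : ℝ) ^ 2 + 2) ≤ 3 * (1 + C) * (N : ℝ) ^ 2 := by
      nlinarith [sq_nonneg ((N : ℝ) - 1), mul_pos hC (show (0:ℝ) < N by linarith)]
    have a2 : C * T * ((N : ℝ) + 2 + C * ((N : ℝ) ^ 2 + 2)) ≤ C * T * (3 * (1 + C) * (N : ℝ) ^ 2) := by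
      gcongr
    have a3 : (3 * C * T * (1 + C) + 1) * (N : ℝ) ^ 2 ≤ (N : ℝ) * (N : ℝ) ^ 2 := by gcongr
    nlinarith [a1, a2, a3]
  have hlim : Tendsto (fun N : ℕ => D * Real.exp (-(N : ℝ))) atTop (𝓝 (D * 0)) := by
    apply Tendsto.const_mul
    exact Real.tendsto_exp_neg_atTop_nhds_zero.comp tendsto_natCast_atTop_atTop
  have := ge_of_tendsto hlim hev
  rw [mul_zero] at this
  exact le_antisymm this (hh T).1

end Vale.Agent.P161C
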