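import Vale.Agent.P161C.Defs

/-!
# Geodesics of a tree: elementary facts on `gp`, `sphF`, `brF`
-/

namespace Vale.Agent.P161C.Gp

open MeasureTheory Vale.Agent.P161 Filter Topology

universe u

variable {V : Type u} {G : SimpleGraph V}

/-- a vertex on the geodesic is determined by its distance to the origin -/
lemma geo_unique (hG : G.IsTree) {v w x y : V} (hx : G.dist v x + G.dist x w = G.dist v w)
    (hy : G.dist v y + G.dist y w = G.dist v w) (h : G.dist v x = G.dist v y) : x = y := by
  obtain ⟨p1, _, hp1⟩ := hG.connected.exists_path_of_dist v x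
  obtain ⟨p2, _, hp2⟩ := hG.connected.exists_path_of_dist x w
  obtain ⟨q1, _, hq1⟩ := hG.connected.exists_path_of_dist v y
  obtain ⟨q2, _, hq2⟩ := hG.connected.exists_path_of_dist y w
  have h1 : (p1.append p2).IsPath := by
    apply SimpleGraph.Walk.isPath_of_length_eq_dist
    rw [SimpleGraph.Walk.length_append]; omega
  have h2 : (q1.append q2).IsPath := by
    apply SimpleGraph.Walk.isPath_of_length_eq_dist
    rw [SimpleGraph.Walk.length_append]; omega
  have h3 : p1.append p2 = q1.append q2 :=
    congrArg Subtype.val ((hG.isAcyclic.subsingleton_path v w).elim ⟨_, h1⟩ ⟨_, h2⟩)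
  have h4 : (p1.append p2).getVert (G.dist v x) = x := by
    rw [SimpleGraph.Walk.getVert_append, if_neg (by omega), ← hp1]; simp
  have h5 : (q1.append q2).getVert (G.dist v x) = y := by
    rw [SimpleGraph.Walk.getVert_append, if_neg (by omega), h, ← hq1]; simp
  rw [← h4, h3, h5]

/-- existence of the vertices of the geodesic -/
lemma geo_exists (hG : G.Connected) (v w : V) {i : ℕ} (hi : i ≤ G.dist v w) :
    ∃ x, G.dist v x = i ∧ G.dist v x + G.dist x w = G.dist v w := by
  obtain ⟨p, hp⟩ := hG.exists_walk_length_eq_dist v w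
  refine ⟨p.getVert i, ?_⟩
  have h1 : G.dist v (p.getVert i) ≤ i := by
    have h := SimpleGraph.dist_le (p.take i)
    rw [SimpleGraph.Walk.take_length] at h
    omega
  have h2 : G.dist (p.getVert i) w ≤ G.dist v w - i := by
    have h := SimpleGraph.dist_le (p.drop i)
    rw [SimpleGraph.Walk.drop_length] at h
    omega
  have h3 := hG.dist_triangle (u := v) (v := p.getVert i) (w := w)
  omega

/-- the defining property of `gp` -/
lemma gp_spec (hG : G.Connected) (v w : V) {i : ℕ} (hi : i ≤ G.dist v w) :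
    G.dist v (gp G v w i) = i ∧ i + G.dist (gp G v w i) w = G.dist v w := by
  have h := geo_exists hG v w hi
  unfold gp
  rw [dif_pos h]
  have h2 := h.choose_spec
  refine ⟨h2.1, ?_⟩
  have h3 := h2.2
  rw [h2.1] at h3
  exact h3

lemma gp_of_lt (v w : V) {i : ℕ} (hi : G.dist v w < i) : gp G v w i = w := by
  unfold gp
  rw [dif_neg]
  rintro ⟨x, h1, h2⟩
  omega

lemma eq_gp (hG : G.IsTree) {v w x : V} {i : ℕ} (h : G.dist v x = i)
    (h2 : i + G.dist x w = G.dist v w) : x = gp G v w i := by
  obtain ⟨h3, h4⟩ := gp_spec hG.connected v w (i := i) (by omega)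
  apply geo_unique hG (v := v) (w := w) <;> omega

lemma gp_zero (hG : G.IsTree) (v w : V) : gp G v w 0 = v := by
  rw [← eq_gp hG (x := v) (by simp) (by simp)]

lemma gp_last (hG : G.IsTree) (v w : V) : gp G v w (G.dist v w) = w := by
  rw [← eq_gp hG (x := w) rfl (by simp)]

lemma gp_adj (hG : G.IsTree) {v w : V} {i : ℕ} (hi : i < G.dist v w) :
    G.Adj (gp G v w i) (gp G v w (i + 1)) := by
  obtain ⟨h1, h2⟩ := gp_spec hG.connected v w (i := i) (by omega)
  obtain ⟨x, hx, hx2⟩ := exists_closer hG.connected (v := gp G v w i) (u := w)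
    (n := G.dist v w - i - 1) (by omega)
  have h3 : G.dist v x = i + 1 := by
    have t1 := hG.connected.dist_triangle (u := v) (v := gp G v w i) (w := x)
    have t2 := hG.connected.dist_triangle (u := v) (v := x) (w := w)
    rw [SimpleGraph.dist_eq_one_iff_adj.2 hx] at t1
    omega
  rw [← eq_gp hG (x := x) h3 (by omega)]
  exact hx

lemma gp_prefix (hG : G.IsTree) {v w : V} {i j : ℕ} (hij : i ≤ j) (hj : j ≤ G.dist v w) :
    gp G v (gp G v w j) i = gp G v w i := by
  obtain ⟨h1, h2⟩ := gp_spec hG.connected v w hj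
  obtain ⟨h3, h4⟩ := gp_spec hG.connected v (gp G v w j) (i := i) (by omega)
  apply eq_gp hG h3
  have t1 := hG.connected.dist_triangle (u := v) (v := gp G v (gp G v w j) i) (w := w)
  have t2 := hG.connected.dist_triangle (u := gp G v (gp G v w j) i) (v := gp G v w j) (w := w)
  omega

lemma gp_suffix (hG : G.IsTree) {v w : V} {i j : ℕ} (hij : j + i ≤ G.dist v w) :
    gp G (gp G v w j) w i = gp G v w (j + i) := by
  obtain ⟨h1, h2⟩ := gp_spec hG.connected v w (i := j) (by omega)
  obtain ⟨h3, h4⟩ := gp_spec hG.connected (gp G v w j) w (i := i) (by omega)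
  have t1 := hG.connected.dist_triangle (u := v) (v := gp G (gp G v w j) w i) (w := w)
  have t2 := hG.connected.dist_triangle (u := v) (v := gp G v w j) (w := gp G (gp G v w j) w i)
  apply eq_gp hG <;> omega

lemma gp_rev (hG : G.IsTree) {v w : V} {i : ℕ} (hi : i ≤ G.dist v w) :
    gp G w v i = gp G v w (G.dist v w - i) := by
  have hi' : i ≤ G.dist w v := by rw [SimpleGraph.dist_comm]; exact hi
  obtain ⟨h1, h2⟩ := gp_spec hG.connected w v hi'
  have e1 : G.dist (gp G w v i) v = G.dist v (gp G w v i) := SimpleGraph.dist_comm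
  have e2 : G.dist w (gp G w v i) = G.dist (gp G w v i) w := SimpleGraph.dist_comm
  have e3 : G.dist w v = G.dist v w := SimpleGraph.dist_comm
  apply eq_gp hG <;> omega

lemma dist_iso (g : G ≃g G) (hG : G.Connected) (v w : V) : G.dist (g v) (g w) = G.dist v w := by
  apply le_antisymm
  · obtain ⟨p, hp⟩ := hG.exists_walk_length_eq_dist v w
    have h := SimpleGraph.dist_le (p.map g.toHom)
    rw [SimpleGraph.Walk.length_map, hp] at h
    exact h
  · obtain ⟨p, hp⟩ := hG.exists_walk_length_eq_dist (g v) (g w)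
    have h := SimpleGraph.dist_le (p.map g.symm.toHom)
    rw [SimpleGraph.Walk.length_map, hp] at h
    have e1 : g.symm.toHom (g v) = v := g.symm_apply_apply v
    have e2 : g.symm.toHom (g w) = w := g.symm_apply_apply w
    rw [e1, e2] at h
    exact h

lemma gp_iso (hG : G.IsTree) (g : G ≃g G) (v w : V) (i : ℕ) :
    gp G (g v) (g w) i = g (gp G v w i) := by
  by_cases hi : i ≤ G.dist v w
  · obtain ⟨h1, h2⟩ := gp_spec hG.connected v w hi
    symm
    apply eq_gp hG
    · rw [dist_iso g hG.connected]; exact h1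
    · rw [dist_iso g hG.connected, dist_iso g hG.connected]; exact h2
  · rw [gp_of_lt v w (by omega), gp_of_lt]
    rw [dist_iso g hG.connected]; omega

/-- the end of the geodesic lies in the branch of the `j`-th vertex -/
lemma mem_side_gp (hG : G.IsTree) {v w : V} {j : ℕ} (hj : 1 ≤ j) (hj2 : j ≤ G.dist v w) :
    w ∈ side G (gp G v w j) (gp G v w (j - 1)) := by
  obtain ⟨h1, h2⟩ := gp_spec hG.connected v w hj2
  obtain ⟨h3, h4⟩ := gp_spec hG.connected v w (i := j - 1) (by omega)
  unfold side
  simp only [Set.mem_ofPred_eq]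
  omega

/-! ### spheres and branches -/

variable {d : ℕ} {θ : ℝ}

lemma finite_sph (h : Crit G d θ) (v : V) (k : ℕ) : {w | G.dist v w = k}.Finite := by
  have h1 := sph_finite h.tree.connected (by have := h.hd; omega) h.reg v k
  have e : {w | G.dist v w = k} = sph G v k := by
    ext w
    change G.dist v w = k ↔ G.dist w v = k
    rw [SimpleGraph.dist_comm]
  rw [e]; exact h1

lemma mem_sphF (h : Crit G d θ) {v w : V} {k : ℕ} : w ∈ sphF G v k ↔ G.dist v w = k := by
  unfold sphF
  rw [dif_pos (finite_sph h v k)]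
  simp

lemma mem_brF (h : Crit G d θ) {u p w : V} {k : ℕ} :
    w ∈ brF G u p k ↔ G.dist u w = k ∧ G.dist p w = k + 1 := by
  unfold brF
  simp only [Finset.mem_filter, mem_sphF h]
  unfold side
  simp only [Set.mem_ofPred_eq]
  constructor
  · rintro ⟨h1, h2⟩; omega
  · rintro ⟨h1, h2⟩; omega

lemma card_sphF_le (h : Crit G d θ) (v : V) (k : ℕ) :
    (sphF G v (k + 1)).card ≤ d * (d - 1) ^ k := by
  have h1 := (sph_ncard_le h.tree.connected (by have := h.hd; omega) h.reg v k).2
  have e : sph G v (k + 1) = (sphF G v (k + 1) : Set V) := by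
    ext w
    rw [Finset.mem_coe, mem_sphF h, SimpleGraph.dist_comm]
    rfl
  rw [e, Set.ncard_coe_finset] at h1
  exact h1

lemma card_brF_le (h : Crit G d θ) {u p : V} (hup : G.Adj u p) (k : ℕ) :
    (brF G u p k).card ≤ (d - 1) ^ k := by
  classical
  have hd3 := h.hd
  have hfin : ∀ x : V, (G.neighborSet x).Finite := fun x =>
    neighborSet_finite (by omega) h.reg x
  induction k with
  | zero =>
    have : brF G u p 0 ⊆ {u} := by
      intro x hx
      rw [mem_brF h] at hx
      rw [Finset.mem_singleton]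
      exact (h.tree.connected.dist_eq_zero_iff.1 hx.1).symm
    have := Finset.card_le_card this
    simpa using this
  | succ k ih =>
    have hsub : brF G u p (k + 1) ⊆
        (brF G u p k).biUnion fun w => ((hfin w).toFinset).filter fun x => G.dist p x = k + 2 := by
      intro x hx
      rw [mem_brF h] at hx
      have hx1 : G.dist x u = k + 1 := by rw [SimpleGraph.dist_comm]; exact hx.1
      obtain ⟨w, hw, hw2⟩ := exists_closer h.tree.connected hx1
      rw [Finset.mem_biUnion]
      refine ⟨w, ?_, ?_⟩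
      · rw [mem_brF h]
        refine ⟨by rw [SimpleGraph.dist_comm]; exact hw2, ?_⟩
        have t1 := h.tree.connected.dist_triangle (u := p) (v := w) (w := x)
        have t2 := h.tree.connected.dist_triangle (u := p) (v := u) (w := w)
        rw [SimpleGraph.dist_eq_one_iff_adj.2 hw.symm] at t1
        rw [SimpleGraph.dist_eq_one_iff_adj.2 hup.symm] at t2
        have e : G.dist u w = G.dist w u := SimpleGraph.dist_comm
        omega
      · rw [Finset.mem_filter, Set.Finite.mem_toFinset]
        exact ⟨hw.symm, hx.2⟩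
    refine (Finset.card_le_card hsub).trans ((Finset.card_biUnion_le).trans ?_)
    have hb : ∀ w ∈ brF G u p k,
        (((hfin w).toFinset).filter fun x => G.dist p x = k + 2).card ≤ d - 1 := by
      intro w hw
      rw [mem_brF h] at hw
      have hw1 : G.dist w p = k + 1 := by rw [SimpleGraph.dist_comm]; exact hw.2
      obtain ⟨w', hw', hw2⟩ := exists_closer h.tree.connected hw1
      have hs : ((hfin w).toFinset).filter (fun x => G.dist p x = k + 2) ⊆
          ((hfin w).toFinset).erase w' := by
        intro x hx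
        rw [Finset.mem_filter] at hx
        rw [Finset.mem_erase]
        refine ⟨?_, hx.1⟩
        rintro rfl
        have := hx.2
        rw [SimpleGraph.dist_comm] at this
        omega
      have h5 := Finset.card_le_card hs
      rw [Finset.card_erase_of_mem (by rw [Set.Finite.mem_toFinset]; exact hw'),
        ← Set.ncard_eq_toFinset_card _ (hfin w), h.reg] at h5
      exact h5
    calc _ ≤ ∑ _w ∈ brF G u p k, (d - 1) := Finset.sum_le_sum hb
      _ = (brF G u p k).card * (d - 1) := by rw [Finset.sum_const, smul_eq_mul]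
      _ ≤ (d - 1) ^ k * (d - 1) := Nat.mul_le_mul_right _ ih
      _ = _ := by rw [pow_succ]

lemma theta_lt_one (h : Crit G d θ) : θ < 1 := by
  have h1 := h.crit
  have h2 : (3 : ℝ) ≤ d := by exact_mod_cast h.hd
  have h3 := h.pos
  by_contra h4
  push Not at h4
  nlinarith

lemma pow_mul_card_brF_le (h : Crit G d θ) {u p : V} (hup : G.Adj u p) (k : ℕ) :
    θ ^ (2 * k) * ((brF G u p k).card : ℝ) ≤ 1 := by
  have h1 : ((brF G u p k).card : ℝ) ≤ ((d : ℝ) - 1) ^ k := by
    have h2 := card_brF_le h hup k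
    have h3 : ((brF G u p k).card : ℝ) ≤ (((d - 1) ^ k : ℕ) : ℝ) := by exact_mod_cast h2
    rw [Nat.cast_pow, Nat.cast_sub (by have := h.hd; omega), Nat.cast_one] at h3
    exact h3
  have h4 : 0 ≤ θ ^ (2 * k) := by have := h.pos; positivity
  calc θ ^ (2 * k) * ((brF G u p k).card : ℝ) ≤ θ ^ (2 * k) * ((d : ℝ) - 1) ^ k :=
        mul_le_mul_of_nonneg_left h1 h4
    _ = (((d : ℝ) - 1) * θ ^ 2) ^ k := by rw [mul_pow, pow_mul]; ring
    _ = 1 := by rw [h.crit, one_pow]

lemma pow_mul_card_sphF_le (h : Crit G d θ) (v : V) {k : ℕ} (hk : 1 ≤ k) :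
    θ ^ (2 * k) * ((sphF G v k).card : ℝ) ≤ 2 := by
  obtain ⟨j, rfl⟩ : ∃ j, k = j + 1 := ⟨k - 1, by omega⟩
  have hd3 : (3 : ℝ) ≤ d := by exact_mod_cast h.hd
  have h1 : ((sphF G v (j + 1)).card : ℝ) ≤ d * ((d : ℝ) - 1) ^ j := by
    have h2 := card_sphF_le h v j
    have h3 : ((sphF G v (j + 1)).card : ℝ) ≤ ((d * (d - 1) ^ j : ℕ) : ℝ) := by exact_mod_cast h2
    rw [Nat.cast_mul, Nat.cast_pow, Nat.cast_sub (by have := h.hd; omega), Nat.cast_one] at h3
    exact h3
  have h4 : 0 ≤ θ ^ (2 * (j + 1)) := by have := h.pos; positivity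
  calc θ ^ (2 * (j + 1)) * ((sphF G v (j + 1)).card : ℝ)
        ≤ θ ^ (2 * (j + 1)) * (d * ((d : ℝ) - 1) ^ j) := mul_le_mul_of_nonneg_left h1 h4
    _ = (((d : ℝ) - 1) * θ ^ 2) ^ j * (d * θ ^ 2) := by rw [mul_pow, pow_mul]; ring
    _ = d * θ ^ 2 := by rw [h.crit, one_pow, one_mul]
    _ ≤ 2 := by
        have h5 := h.crit
        have h6 : θ ^ 2 ≤ 1 := by
          have := theta_lt_one h
          have := h.pos
          nlinarith
        nlinarith

end Vale.Agent.P161C.Gp
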