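import Vale.Agent.P161C.Full
import Vale.Agent.P161.Final
import Vale.Agent.P161.Exists

/-!
# P161: the free Ising measure on a regular tree is a factor of IID iff `tanh β ≤ (d-1)^{-1/2}`
-/

namespace Vale.Agent.P161C

open MeasureTheory Vale.Agent.P161

universe u

theorem main (d : ℕ) (hd : 3 ≤ d) (V : Type u) (G : SimpleGraph V)
    (hG : G.IsTree) (hreg : ∀ v, (G.neighborSet v).ncard = d) (β : ℝ) (hβ : 0 ≤ β) :
    ∃ μ : Measure (V → Bool), IsFreeIsing G (Real.tanh β) μ ∧
      (∀ μ' : Measure (V → Bool), IsFreeIsing G (Real.tanh β) μ' → μ' = μ) ∧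
      (IsFactorOfIID G μ ↔ Real.tanh β ≤ 1 / √((d : ℝ) - 1)) := by
  have h0 : 0 ≤ Real.tanh β := by
    rw [Real.tanh_eq_sinh_div_cosh]
    exact div_nonneg (Real.sinh_nonneg_iff.2 hβ) (Real.cosh_pos β).le
  have h1 : Real.tanh β ≤ 1 := (Real.tanh_lt_one β).le
  obtain ⟨μ, _, hμ⟩ := exists_isFreeIsing hG (θ := Real.tanh β) (by rw [abs_of_nonneg h0]; exact h1)
  refine ⟨μ, hμ, fun μ' h' => isFreeIsing_unique hG.connected h0 h1 h' hμ, ?_, ?_⟩
  · intro hf
    by_contra hlt
    push Not at hlt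
    exact CV.not_factor hd hG hreg hlt h1 hμ hf
  · intro hle
    rcases lt_or_eq_of_le hle with h | h
    · exact isFactorOfIID_of_lt hd hG hreg h0 h hμ
    · have hd3 : (3 : ℝ) ≤ d := by exact_mod_cast hd
      have hs : 0 < √((d : ℝ) - 1) := Real.sqrt_pos.2 (by linarith)
      have hcrit : Crit G d (Real.tanh β) := by
        refine ⟨hd, hG, hreg, ?_, ?_⟩
        · rw [h]; positivity
        · rw [h, div_pow, one_pow, Real.sq_sqrt (by linarith), mul_one_div]
          exact div_self (by linarith)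
      exact full0 hcrit hμ

end Vale.Agent.P161C
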