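import Vale.Agent.P161C.Defs

/-!
# P161 critical point: module statements

Each module proves `theorem xxx : S_XXX.{u}` in its own file `Vale/Agent/P161C/<Module>.lean`; a module that
uses another statement takes it as a hypothesis `(h : S_YYY.{u})`.  `b = d - 1`, `bθ² = 1`.
-/

namespace Vale.Agent.P161C

open MeasureTheory Vale.Agent.P161 Filter Topology

universe u

/-- HOM: automorphisms of a regular tree act transitively on pairs at a given distance -/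
def S_HOM : Prop := ∀ {V : Type u} {G : SimpleGraph V} {d : ℕ} {θ : ℝ}, Crit G d θ →
  ∀ u w u' w' : V, G.dist u w = G.dist u' w' → ∃ g : G ≃g G, g u = u' ∧ g w = w'

/-- PDK: relative decay of positive semidefinite radial kernels -/
def S_PDK : Prop := ∀ {V : Type u} {G : SimpleGraph V} {d : ℕ} {θ : ℝ}, Crit G d θ →
  ∀ D : ℕ → ℝ,
    (∀ (S : Finset V) (c : V → ℝ), 0 ≤ ∑ u ∈ S, ∑ w ∈ S, c u * c w * D (G.dist u w)) →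
    ∀ K0 : ℝ, (∀ k, |D k| ≤ K0 * θ ^ k) → ∀ k : ℕ, |D k| ≤ 2 * (k + 1) * θ ^ k * D 0

/-- EREC: from vertices to edges, and the sum along a path (real sequences) -/
def S_EREC : Prop := ∀ b : ℝ, 2 ≤ b → ∃ K : ℝ, 0 < K ∧ ∀ θ : ℝ, 0 < θ → b * θ ^ 2 = 1 →
  ∀ C D : ℕ → ℝ, (∀ k, |C k| ≤ C 0) → D 0 = (b + 1) * (C 0 + b * C 1) →
    (∀ k, 1 ≤ k → D k = C (k - 1) + 2 * b * C k + b ^ 2 * C (k + 1)) →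
    (∀ k : ℕ, |D k| ≤ 2 * (k + 1) * θ ^ k * D 0) →
    ∀ n : ℕ, ∑ i ∈ Finset.range n, ∑ j ∈ Finset.range n, C ((i - j) + (j - i)) ≤ K * n * C 0

/-- TEMP: fluctuations of invariant edge fields along geodesics -/
def S_TEMP : Prop := ∀ {V : Type u} {G : SimpleGraph V} {d : ℕ} {θ : ℝ}, Crit G d θ →
  ∃ K : ℝ, 0 < K ∧ ∀ {μ : Measure (V → Bool)}, IsFreeIsing G θ μ →
    ∀ (ζ : V → V → Om V → ℝ) (B : ℝ), (∀ u p, Measurable (ζ u p)) → (∀ u p ω, |ζ u p ω| ≤ B) →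
      (∀ u p, G.Adj u p → ζ u p =ᵐ[PP μ] ζ p u) →
      (∀ (g : G ≃g G) (u p : V), G.Adj u p →
        ∀ᵐ ω ∂(PP μ), ζ (g u) (g p) (act g.toEquiv ω) = ζ u p ω) →
      (∀ u p, G.Adj u p → ∀ᵐ ω ∂(PP μ), ζ u p (flp ω) = ζ u p ω) →
      (∀ u p, G.Adj u p → ∫ ω, ζ u p ω ∂(PP μ) = 0) →
      ∀ (v w a c : V), G.Adj a c → ∀ n : ℕ, n ≤ G.dist v w →
        ∫ ω, (∑ i ∈ Finset.range n, ζ (gp G v w i) (gp G v w (i + 1)) ω) ^ 2 ∂(PP μ)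
          ≤ K * n * ∫ ω, ζ a c ω ^ 2 ∂(PP μ)

/-- ALG1: the cavity magnetisation is a Lipschitz function of the two magnetisations of an edge -/
def S_ALG1 : Prop := ∀ {V : Type u} {G : SimpleGraph V} {d : ℕ} {θ : ℝ}, Crit G d θ →
  ∃ Γ : ℝ → ℝ → ℝ,
    (∀ a b a' b', |Γ a b - Γ a' b'|
      ≤ 1 / ((1 - θ ^ 2) * (1 - θ) ^ 2) * (|a - a'| + |b - b'|)) ∧
    ∀ (y : V → ℝ) (L : V → V → ℝ), BPS G θ y L → ∀ u p, G.Adj u p →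
      Real.tanh (L p u) = Γ (Real.tanh (L u u)) (Real.tanh (L p p))

/-- ALG2: the jump identity -/
def S_ALG2 : Prop := ∀ {V : Type u} {G : SimpleGraph V} {d : ℕ} {θ : ℝ}, Crit G d θ →
  ∀ (y y' : V → ℝ) (L L' : V → V → ℝ) (w : V) (ψ : ℝ), BPS G θ y L → BPS G θ y' L' →
    (∀ u, y' u = y u + (open Classical in if u = w then ψ else 0)) →
    (∀ u p, G.Adj u p → G.dist w u = G.dist w p + 1 → L' u p = L u p) →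
    ∀ v, Real.tanh (L' v v) - Real.tanh (L v v)
      = cov G θ L v w * Real.tanh ψ / (1 + Real.tanh (L w w) * Real.tanh ψ)

/-- ALG3: elementary properties of `cov` and `ell` -/
def S_ALG3 : Prop := ∀ {V : Type u} {G : SimpleGraph V} {d : ℕ} {θ : ℝ}, Crit G d θ →
  (∀ (L : V → V → ℝ) (u p : V), 0 ≤ ell θ L u p ∧
    Real.exp (-2 * ell θ L u p) ≤ 1 - (1 - θ ^ 2) * Real.tanh (L p u) ^ 2) ∧
  (∀ (L : V → V → ℝ) (v w : V), 0 ≤ cov G θ L v w ∧ cov G θ L v w = cov G θ L w v ∧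
    cov G θ L v w ^ 2 ≤ θ ^ (2 * G.dist v w) * pw G θ (fun _ u p => Real.tanh (L u p)) v w)

/-- PFIN: BP computes the posterior mean for finitely many observations in a ball (`u = q`) or in
the branch of `u` away from `q` -/
def S_PFIN : Prop := ∀ {V : Type u} {G : SimpleGraph V} {d : ℕ} {θ : ℝ}, Crit G d θ →
  ∀ {μ : Measure (V → Bool)}, IsFreeIsing G θ μ → ∀ (U : V × ℕ → I01) (J n : ℕ)
    (A : Finset (V × ℕ)) (u q : V), (∀ k ∈ A, k.2 < J ∧ G.dist u k.1 ≤ n) →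
    (u = q ∨ (G.Adj u q ∧ ∀ k ∈ A, k.1 ∈ side G u q)) →
    ∀ (Z : (V × ℕ → I01) → ℝ) (B : ℝ), Measurable Z → (∀ x, |Z x| ≤ B) →
      (∀ x x' : V × ℕ → I01, (∀ k ∈ A, x k = x' k) → Z x = Z x') →
      ∫ p, (sp (p.1 u) - Real.tanh (msg G θ n (fld J (A : Set (V × ℕ)) (p.1, (U, p.2))) u q))
        * Z (obs (p.1, (U, p.2))) ∂(μ.prod (lam V)) = 0

/-- POST: (from PFIN) the BP messages converge and compute the posterior means, for the observations of an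
arbitrary set `I` of events (labels `U` fixed) -/
def S_POST : Prop := ∀ {V : Type u} {G : SimpleGraph V} {d : ℕ} {θ : ℝ}, Crit G d θ →
  ∀ {μ : Measure (V → Bool)}, IsFreeIsing G θ μ → ∀ (U : V × ℕ → I01) (J : ℕ) (I : Set (V × ℕ)),
    (∀ k ∈ I, k.2 < J) →
    (∀ᵐ p ∂(μ.prod (lam V)), ∀ u q, Tendsto (fun n => msg G θ n (fld J I (p.1, (U, p.2))) u q)
      atTop (𝓝 (Lm G θ (fld J I (p.1, (U, p.2))) u q))) ∧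
    (∀ (v : V) (Z : (V × ℕ → I01) → ℝ) (B : ℝ), Measurable Z → (∀ x, |Z x| ≤ B) →
      (∀ x x' : V × ℕ → I01, (∀ k ∈ I, x k = x' k) → Z x = Z x') →
      ∫ p, (sp (p.1 v) - Mm G θ (fld J I (p.1, (U, p.2))) v v) * Z (obs (p.1, (U, p.2)))
        ∂(μ.prod (lam V)) = 0) ∧
    (∀ (v : V) (In : ℕ → Set (V × ℕ)), (∀ n, In n ⊆ I) → (∀ k ∈ I, ∀ᶠ n in atTop, k ∈ In n) →
      Tendsto (fun n => ∫ p, (Mm G θ (fld J I (p.1, (U, p.2))) v v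
        - Mm G θ (fld J (In n) (p.1, (U, p.2))) v v) ^ 2 ∂(μ.prod (lam V))) atTop (𝓝 0))

/-- BASE: measurability and deterministic bounds -/
def S_BASE : Prop := ∀ {V : Type u} {G : SimpleGraph V} {d : ℕ} {θ : ℝ}, Crit G d θ →
  (∀ u p : V, Measurable fun q : ℝ × Om V => Lt G θ q.1 q.2 u p) ∧
  (∀ k, Measurable fun ω : Om V => inn G θ ω k) ∧
  (∀ (v : V) (k : V × ℕ), Measurable fun ω : Om V => Jm G θ ω v k) ∧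
  (∀ s : ℝ, Measurable (trG G θ s)) ∧
  (∀ T : ℝ, ∃ m : ℝ, 0 < m ∧ m < 1 ∧ ∀ (s : ℝ) (ω : Om V) (u p : V), s ≤ T →
    |Real.tanh (Lt G θ s ω u p)| ≤ m)

/-- EQUI: symmetries -/
def S_EQUI : Prop := ∀ {V : Type u} {G : SimpleGraph V} {d : ℕ} {θ : ℝ}, Crit G d θ →
  (∀ (g : G ≃g G) (s : ℝ) (ω : Om V) (u p : V),
    Lt G θ s (act g.toEquiv ω) (g u) (g p) = Lt G θ s ω u p) ∧
  (∀ (s : ℝ) (ω : Om V) (u p : V), Lt G θ s (flp ω) u p = - Lt G θ s ω u p) ∧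
  (∀ (g : G ≃g G) (ω : Om V) (k : V × ℕ),
    inn G θ (act g.toEquiv ω) (g k.1, k.2) = inn G θ ω k) ∧
  (∀ s : ℝ, InvG G (GG G θ s)) ∧
  (∀ {μ : Measure (V → Bool)}, IsFreeIsing G θ μ →
    (∀ g : G ≃g G, MeasurePreserving (act g.toEquiv) (PP μ) (PP μ)) ∧
    MeasurePreserving flp (PP μ) (PP μ))

/-- ENV: the environment at time `s` is iid -/
def S_ENV : Prop := ∀ {V : Type u} {G : SimpleGraph V} {d : ℕ} {θ : ℝ}, Crit G d θ →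
  ∀ {μ : Measure (V → Bool)}, IsFreeIsing G θ μ → ∀ s : ℝ, 0 < s →
    ∃ ν : Measure ℝ, Adm ν (⌈s⌉₊ * at' (1 / 2)) ∧ (min s 1) ^ 2 / 25 ≤ k0 ν ∧
      (s ≤ 1 → k0 ν ≤ s ^ 2) ∧
      (s ≤ 1 → ∀ q : ℕ, 1 ≤ q → ∫ y, Real.tanh y ^ (2 * q) ∂ν ≤ s ^ q) ∧
      (PP μ).map (fun ω => (etaF G ω.1, yh s ω)) = EE G θ ν ∧
      (∀ (ω : Om V) (n : ℕ) (u p : V),
        msg G θ n (yt s ω) u p = sp (ω.1 u) * msgh G θ n (etaF G ω.1, yh s ω) u p)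

/-- NISH: calculus of independent Nishimori variables (`a`, `b` independent, in `(-m, m)`) -/
def S_NISH : Prop := ∀ m : ℝ, 0 < m → m < 1 →
  (∀ ρ₁ ρ₂ : Measure ℝ, IsProbabilityMeasure ρ₁ → IsProbabilityMeasure ρ₂ →
    (∀ᵐ a ∂ρ₁, |a| ≤ m) → (∀ᵐ b ∂ρ₂, |b| ≤ m) →
    (∀ φ : ℝ → ℝ, Measurable φ → (∀ x, |φ x| ≤ 1) → (∀ x, φ (-x) = -φ x) →
      ∫ a, φ a ∂ρ₁ = ∫ a, a * φ a ∂ρ₁) →
    (∀ φ : ℝ → ℝ, Measurable φ → (∀ x, |φ x| ≤ 1) → (∀ x, φ (-x) = -φ x) →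
      ∫ a, φ a ∂ρ₂ = ∫ a, a * φ a ∂ρ₂) →
    -- the combination is Nishimori
    (∀ φ : ℝ → ℝ, Measurable φ → (∀ x, |φ x| ≤ 1) → (∀ x, φ (-x) = -φ x) →
      ∫ q, φ ((q.1 + q.2) / (1 + q.1 * q.2)) ∂(ρ₁.prod ρ₂)
        = ∫ q, (q.1 + q.2) / (1 + q.1 * q.2) * φ ((q.1 + q.2) / (1 + q.1 * q.2))
            ∂(ρ₁.prod ρ₂)) ∧
    -- second moments
    (∫ q, ((q.1 + q.2) / (1 + q.1 * q.2)) ^ 2 ∂(ρ₁.prod ρ₂)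
      ≤ ∫ a, a ^ 2 ∂ρ₁ + ∫ b, b ^ 2 ∂ρ₂ - (∫ a, a ^ 2 ∂ρ₁) * ∫ b, b ^ 2 ∂ρ₂) ∧
    (∫ a, a ^ 2 ∂ρ₁ + ∫ b, b ^ 2 ∂ρ₂ - 2 * ((∫ a, a ^ 2 ∂ρ₁) * ∫ b, b ^ 2 ∂ρ₂)
      ≤ ∫ q, ((q.1 + q.2) / (1 + q.1 * q.2)) ^ 2 ∂(ρ₁.prod ρ₂)) ∧
    (∫ a, a ^ 2 ∂ρ₁ ≤ ∫ q, ((q.1 + q.2) / (1 + q.1 * q.2)) ^ 2 ∂(ρ₁.prod ρ₂))) ∧
  -- higher moments, constants depend on `m`, `q`, `ε` only
  (∀ (q : ℕ) (ε : ℝ), 2 ≤ q → 0 < ε → ∃ C : ℝ, 0 < C ∧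
    ∀ ρ₁ ρ₂ : Measure ℝ, IsProbabilityMeasure ρ₁ → IsProbabilityMeasure ρ₂ →
    (∀ᵐ a ∂ρ₁, |a| ≤ m) → (∀ᵐ b ∂ρ₂, |b| ≤ m) →
    (∀ φ : ℝ → ℝ, Measurable φ → (∀ x, |φ x| ≤ 1) → (∀ x, φ (-x) = -φ x) →
      ∫ a, φ a ∂ρ₁ = ∫ a, a * φ a ∂ρ₁) →
    (∀ φ : ℝ → ℝ, Measurable φ → (∀ x, |φ x| ≤ 1) → (∀ x, φ (-x) = -φ x) →
      ∫ a, φ a ∂ρ₂ = ∫ a, a * φ a ∂ρ₂) →
    ∫ r, ((r.1 + r.2) / (1 + r.1 * r.2)) ^ (2 * q) ∂(ρ₁.prod ρ₂)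
      ≤ (1 + ε) * (∫ a, a ^ (2 * q) ∂ρ₁ + ∫ b, b ^ (2 * q) ∂ρ₂)
        + C * ((∫ a, a ^ 2 ∂ρ₁) ^ q + (∫ b, b ^ 2 ∂ρ₂) ^ q))

/-- XREC: the real recursion for the second moments -/
def S_XREC : Prop := ∀ (b : ℕ) (κ : ℝ) (x : ℕ → ℝ), 2 ≤ b → 0 < κ → κ ≤ 1 → x 0 = κ →
  (∀ n, 0 ≤ x n ∧ x n ≤ 1) →
  (∀ n, x (n + 1) ≤ 1 - (1 - κ) * (1 - x n / b) ^ b) →
  (∀ n, 1 - 2 * x (n + 1) ≤ (1 - 2 * κ) * (1 - 2 * (x n / b)) ^ b ∨ κ ≤ x (n + 1) ∧ 1 < 2 * κ) →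
  (∀ n, x n ≤ 3 * √κ) ∧ ∀ n : ℕ, 2 / √κ ≤ n → √κ / 2 ≤ x n

/-- MOM: moments of the messages in the environment, and anticoncentration -/
def S_MOM : Prop := ∀ {V : Type u} {G : SimpleGraph V} {d : ℕ} {θ : ℝ}, Crit G d θ →
  ∀ Y : ℝ, ∃ (p0 : ℝ) (Cq : ℕ → ℝ), 0 < p0 ∧ (∀ q, 0 ≤ Cq q) ∧
  ∀ (ν : Measure ℝ), Adm ν Y → 0 < k0 ν →
    (∀ (n : ℕ) (u p : V), G.Adj u p → 2 / √(k0 ν) ≤ n →
      p0 ≤ (EE G θ ν).real {e | √(k0 ν) / 4 ≤ Real.tanh (msgh G θ n e u p) ^ 2}) ∧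
    ∀ (q n : ℕ) (u p : V), 2 ≤ q → (G.Adj u p ∨ u = p) →
      ∫ e, Real.tanh (msgh G θ n e u p) ^ (2 * q) ∂(EE G θ ν)
        ≤ Cq q * (√(k0 ν) ^ q + ∫ y, Real.tanh y ^ (2 * q) ∂ν)

/-- DECA: mean decay along geodesics (`D j` is the depth of the message at distance `j`) -/
def S_DECA : Prop := ∀ {V : Type u} {G : SimpleGraph V} {d : ℕ} {θ : ℝ}, Crit G d θ →
  ∀ Y : ℝ, ∃ c : ℝ, 0 < c ∧ c ≤ 1 / 2 ∧ ∀ (ν : Measure ℝ), Adm ν Y → 0 < k0 ν →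
    (∀ (D : ℕ → ℕ) (o : V) (k : ℕ),
      ∫ e, θ ^ (2 * k) * ∑ w ∈ sphF G o k,
          pw G θ (fun j u p => Real.tanh (msgh G θ (D j) e u p)) o w ∂(EE G θ ν)
        ≤ 2 * (1 - c * √(k0 ν)) ^
            ((Finset.Icc 1 k).filter fun j => 1 + 2 / √(k0 ν) ≤ (D j : ℝ)).card) ∧
    (∀ (n : ℕ) (u p : V) (k : ℕ), G.Adj u p → 1 + 2 / √(k0 ν) ≤ (n : ℝ) →
      ∫ e, aa G θ (fun u p => Real.tanh (msgh G θ n e u p)) u p k ∂(EE G θ ν)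
        ≤ (1 - c * √(k0 ν)) ^ k)

/-- DECB: concentration of the branch averages (from DECA) -/
def S_DECB : Prop := ∀ {V : Type u} {G : SimpleGraph V} {d : ℕ} {θ : ℝ}, Crit G d θ →
  ∀ Y : ℝ, ∃ c : ℝ, 0 < c ∧ c ≤ 1 / 2 ∧ ∀ (ν : Measure ℝ), Adm ν Y → 0 < k0 ν →
    ∀ (n : ℕ) (u p : V) (k : ℕ), G.Adj u p → 1 + 2 / √(k0 ν) ≤ (n : ℝ) →
      (EE G θ ν).real {e | 4 * (max (1 - c * √(k0 ν)) θ) ^ (k / 2)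
          < aa G θ (fun u p => Real.tanh (msgh G θ n e u p)) u p k}
        ≤ Real.exp (-2 * (√2) ^ (k / 2))

/-- TRANS: the estimates on the planted space, at time `s` -/
def S_TRANS : Prop := ∀ {V : Type u} {G : SimpleGraph V} {d : ℕ} {θ : ℝ}, Crit G d θ →
  ∀ T : ℕ, ∃ c : ℝ, 0 < c ∧ c ≤ 1 / 2 ∧ ∃ Cq : ℕ → ℝ, (∀ q, 0 ≤ Cq q) ∧
  ∀ {μ : Measure (V → Bool)}, IsFreeIsing G θ μ → ∀ s : ℝ, 0 < s → s ≤ T →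
    (∀ (D : ℕ → ℕ) (o : V) (k : ℕ),
      ∫ ω, θ ^ (2 * k) * ∑ w ∈ sphF G o k,
          pw G θ (fun j u p => Real.tanh (msg G θ (D j) (yt s ω) u p)) o w ∂(PP μ)
        ≤ 2 * (1 - c * min s 1) ^
            ((Finset.Icc 1 k).filter fun j => 1 + 10 / min s 1 ≤ (D j : ℝ)).card) ∧
    (∀ (o : V) (k : ℕ),
      ∫ ω, θ ^ (2 * k) * ∑ w ∈ sphF G o k,
          pw G θ (fun _ u p => Real.tanh (Lt G θ s ω u p)) o w ∂(PP μ)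
        ≤ 2 * (1 - c * min s 1) ^ k) ∧
    (∀ (u p : V) (k : ℕ), G.Adj u p →
      (PP μ).real {ω | 4 * (max (1 - c * min s 1) θ) ^ (k / 2)
          < aa G θ (fun u p => Real.tanh (Lt G θ s ω u p)) u p k}
        ≤ Real.exp (-2 * (√2) ^ (k / 2))) ∧
    (s ≤ 1 → ∀ (q : ℕ) (u p : V), 2 ≤ q → (G.Adj u p ∨ u = p) →
      ∫ ω, Real.tanh (Lt G θ s ω u p) ^ (2 * q) ∂(PP μ) ≤ Cq q * s ^ q) ∧
    (∀ᵐ ω ∂(PP μ), BPS G θ (yt s ω) (Lt G θ s ω) ∧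
      ∀ u p, Tendsto (fun n => msg G θ n (yt s ω) u p) atTop (𝓝 (Lt G θ s ω u p)))

/-- SIQ: bounds for the conditional variance of the edge weights -/
def S_SIQ : Prop := ∀ {V : Type u} {G : SimpleGraph V} {d : ℕ} {θ : ℝ}, Crit G d θ →
  ∀ T : ℕ, ∃ (C : ℝ) (Cq : ℕ → ℝ), 0 < C ∧ (∀ q, 0 ≤ Cq q) ∧
  ∀ {μ : Measure (V → Bool)}, IsFreeIsing G θ μ → ∀ s : ℝ, 0 < s → s ≤ T →
  ∀ 𝒢 : MeasurableSpace (Om V), InvG G 𝒢 → ∀ o a c : V, G.Adj a c →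
    0 ≤ QG G θ μ 𝒢 s a c ∧ QG G θ μ 𝒢 s a c ≤ C * hG G θ μ 𝒢 o s ∧
      (s ≤ 1 → ∀ (l : ℝ) (q : ℕ), 0 < l → l ≤ 1 → 2 ≤ q →
        QG G θ μ 𝒢 s a c ≤ C * (l * hG G θ μ 𝒢 o s + Cq q * (l / l ^ q * s ^ q)))

/-- SIS: the static inequality in terms of `hG` and `QG` -/
def S_SIS : Prop := ∀ {V : Type u} {G : SimpleGraph V} {d : ℕ} {θ : ℝ}, Crit G d θ →
  ∀ T : ℕ, ∃ C : ℝ, 0 < C ∧
  ∀ {μ : Measure (V → Bool)}, IsFreeIsing G θ μ → ∀ s : ℝ, 0 < s → s ≤ T →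
  ∀ 𝒢 : MeasurableSpace (Om V), InvG G 𝒢 → ∀ o a c : V, G.Adj a c →
    ∃ (At : V → Om V → ℝ), (∀ w, Measurable[𝒢] (At w)) ∧ (∀ w ω, |At w ω| ≤ 1) ∧
      ∀ (N : ℕ) (S : Finset V),
        ∑ w ∈ S, ∫ ω, ((cov G θ (Lt G θ s ω) o w - At w ω) ^ 2
            + cov G θ (Lt G θ s ω) o w ^ 2
              * (mt G θ s ω w - (PP μ)[fun ω => mt G θ s ω w | 𝒢] ω) ^ 2) ∂(PP μ)
          ≤ C * ((N + 1 + 1 / min s 1) * hG G θ μ 𝒢 o s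
              + ((N : ℝ) ^ 2 + 1 + 1 / (min s 1) ^ 2) * QG G θ μ 𝒢 s a c + err N)

/-- SI: the static inequality (from SIQ and SIS) -/
def S_SI : Prop := ∀ {V : Type u} {G : SimpleGraph V} {d : ℕ} {θ : ℝ}, Crit G d θ →
  ∀ T : ℕ, ∃ (C : ℝ) (Cq : ℕ → ℝ), 0 < C ∧ (∀ q, 0 ≤ Cq q) ∧
  ∀ {μ : Measure (V → Bool)}, IsFreeIsing G θ μ → ∀ s : ℝ, 0 < s → s ≤ T →
  ∀ 𝒢 : MeasurableSpace (Om V), InvG G 𝒢 → ∀ o : V,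
    ∃ (At : V → Om V → ℝ) (Q : ℝ), (∀ w, Measurable[𝒢] (At w)) ∧ (∀ w ω, |At w ω| ≤ 1) ∧
      0 ≤ Q ∧ Q ≤ C * hG G θ μ 𝒢 o s ∧
      (s ≤ 1 → ∀ (l : ℝ) (q : ℕ), 0 < l → l ≤ 1 → 2 ≤ q →
        Q ≤ C * (l * hG G θ μ 𝒢 o s + Cq q * (l / l ^ q * s ^ q))) ∧
      ∀ (N : ℕ) (S : Finset V),
        ∑ w ∈ S, ∫ ω, ((cov G θ (Lt G θ s ω) o w - At w ω) ^ 2
            + cov G θ (Lt G θ s ω) o w ^ 2
              * (mt G θ s ω w - (PP μ)[fun ω => mt G θ s ω w | 𝒢] ω) ^ 2) ∂(PP μ)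
          ≤ C * ((N + 1 + 1 / min s 1) * hG G θ μ 𝒢 o s
              + ((N : ℝ) ^ 2 + 1 + 1 / (min s 1) ^ 2) * Q + err N)

/-- JUMP: jumps, innovations -/
def S_JUMP : Prop := ∀ {V : Type u} {G : SimpleGraph V} {d : ℕ} {θ : ℝ}, Crit G d θ →
  ∀ {μ : Measure (V → Bool)}, IsFreeIsing G θ μ →
    (∀ k : V × ℕ, ∀ᵐ ω ∂(PP μ), ∀ v, Jm G θ ω v k
      = cov G θ (Lt G θ (kap ω.2.1 k) ω) v k.1
        * phi (dl (ω.2.1 k)) (mt G θ (kap ω.2.1 k) ω k.1) (inn G θ ω k)) ∧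
    (∀ (k : V × ℕ) (H : Om V → I01 → ℝ) (B : ℝ), Measurable (Function.uncurry H) →
      (∀ ω x, |H ω x| ≤ B) → PastDep k H →
      ∫ ω, H ω (inn G θ ω k) ∂(PP μ) = ∫ ω, (∫ x, H ω x) ∂(PP μ)) ∧
    (PP μ).map (fun ω => (ω.2.1, inn G θ ω)) = (lam V).prod (lam V)

/-- PHI: bounds for `phi` -/
def S_PHI : Prop :=
  (∀ (δ m : ℝ) (x : I01), 0 ≤ δ → δ ≤ 1 / 2 → |m| ≤ 1 → |phi δ m x| ≤ 2 * δ) ∧
  (∀ (δ m m' : ℝ) (x : I01), 0 ≤ δ → δ ≤ 1 / 2 → |m| ≤ 1 → |m'| ≤ 1 →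
    |phi δ m x - phi δ m' x| ≤ 16 * δ ^ 2 * |m - m'|) ∧
  (∀ δ m : ℝ, 0 ≤ δ → δ ≤ 1 / 2 → |m| ≤ 1 → ∫ x : I01, phi δ m x = 0) ∧
  Measurable (fun q : ℝ × ℝ × I01 => phi q.1 q.2.1 q.2.2)

/-- SUMJ: the posterior mean is the sum of its jumps -/
def S_SUMJ : Prop := ∀ {V : Type u} {G : SimpleGraph V} {d : ℕ} {θ : ℝ}, Crit G d θ →
  ∀ {μ : Measure (V → Bool)}, IsFreeIsing G θ μ → ∀ (v : V) (s : ℝ), 0 < s →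
    ∀ ε : ℝ, 0 < ε → ∃ S0 : Finset (V × ℕ), ∀ S : Finset (V × ℕ), S0 ⊆ S →
      ∫ ω, (mt G θ s ω v
        - ∑ k ∈ S, (open Classical in if kap ω.2.1 k < s then Jm G θ ω v k else 0)) ^ 2 ∂(PP μ)
        ≤ ε

/-- DYNA: the jumps may be computed with the quantities at the grid times -/
def S_DYNA : Prop := ∀ {V : Type u} {G : SimpleGraph V} {d : ℕ} {θ : ℝ}, Crit G d θ →
  ∀ {μ : Measure (V → Bool)}, IsFreeIsing G θ μ → ∀ (v : V) (T : ℕ) (ε : ℝ), 0 < ε →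
    ∃ K0 : ℕ, ∀ K : ℕ, K0 ≤ K → ∀ S : Finset (V × ℕ),
      ∑ k ∈ S, ∫ ω, (open Classical in if 1 / (K : ℝ) ≤ kap ω.2.1 k ∧ kap ω.2.1 k < T then
        (Jm G θ ω v k - JK G θ K ω v k) ^ 2 else 0) ∂(PP μ) ≤ ε

/-- DYN: (from SI, JUMP, SUMJ, PHI, BASE, EQUI, DYNA) the integral inequality, on the grid of mesh `1/K` -/
def S_DYN : Prop := ∀ {V : Type u} {G : SimpleGraph V} {d : ℕ} {θ : ℝ}, Crit G d θ →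
  ∀ T : ℕ, 1 ≤ T → ∀ {μ : Measure (V → Bool)}, IsFreeIsing G θ μ → ∀ o : V,
    ∃ (C : ℝ) (Cq : ℕ → ℝ) (Q : ℝ → ℝ) (ρ : ℕ → ℝ), 0 < C ∧ (∀ q, 0 ≤ Cq q) ∧
      Tendsto ρ atTop (𝓝 0) ∧
      (∀ s : ℝ, 0 < s → s ≤ T → 0 ≤ Q s ∧ Q s ≤ C * hG G θ μ (GG G θ s) o s ∧
        (s ≤ 1 → ∀ (l : ℝ) (q : ℕ), 0 < l → l ≤ 1 → 2 ≤ q →
          Q s ≤ C * (l * hG G θ μ (GG G θ s) o s + Cq q * (l / l ^ q * s ^ q)))) ∧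
      ∀ K N m : ℕ, 1 ≤ K → 1 ≤ m → m ≤ T * K →
        hG G θ μ (GG G θ ((m : ℝ) / K)) o ((m : ℝ) / K)
          ≤ ρ K + C / K * ∑ i ∈ Finset.Ico 1 m, min ((i : ℝ) / K) 1 *
            ((N + 1 + 1 / min ((i : ℝ) / K) 1) * hG G θ μ (GG G θ ((i : ℝ) / K)) o ((i : ℝ) / K)
              + ((N : ℝ) ^ 2 + 1 + 1 / (min ((i : ℝ) / K) 1) ^ 2) * Q ((i : ℝ) / K) + err N)

/-- GRON: real analysis (Gronwall and the choice of the parameters) -/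
def S_GRON : Prop := ∀ (T : ℕ) (h Q : ℝ → ℝ) (ρ : ℕ → ℝ) (C : ℝ) (Cq : ℕ → ℝ), 1 ≤ T → 0 < C →
  (∀ q, 0 ≤ Cq q) → Tendsto ρ atTop (𝓝 0) → (∀ s, 0 ≤ h s ∧ h s ≤ 1) →
  (∀ s : ℝ, 0 < s → s ≤ T → 0 ≤ Q s ∧ Q s ≤ C * h s ∧
    (s ≤ 1 → ∀ (l : ℝ) (q : ℕ), 0 < l → l ≤ 1 → 2 ≤ q →
      Q s ≤ C * (l * h s + Cq q * (l / l ^ q * s ^ q)))) →
  (∀ K N m : ℕ, 1 ≤ K → 1 ≤ m → m ≤ T * K →
    h ((m : ℝ) / K) ≤ ρ K + C / K * ∑ i ∈ Finset.Ico 1 m, min ((i : ℝ) / K) 1 *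
      ((N + 1 + 1 / min ((i : ℝ) / K) 1) * h ((i : ℝ) / K)
        + ((N : ℝ) ^ 2 + 1 + 1 / (min ((i : ℝ) / K) 1) ^ 2) * Q ((i : ℝ) / K) + err N)) →
  h T = 0

/-- FIN: from `h = 0` to a factor of iid -/
def S_FIN : Prop := ∀ {V : Type u} {G : SimpleGraph V} {d : ℕ} {θ : ℝ}, Crit G d θ →
  ∀ {μ : Measure (V → Bool)}, IsFreeIsing G θ μ →
    (∀ (o : V) (T : ℕ), 1 ≤ T → hG G θ μ (GG G θ T) o T = 0) → IsFactorOfIID G μ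

end Vale.Agent.P161C
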