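import Vale.Agent.P161C.MomLaw
import Vale.Agent.P161C.Plan

/-!
# P161 critical point: calculus of Nishimori laws
-/

namespace Vale.Agent.P161C

open MeasureTheory Vale.Agent.P161 Filter Topology

universe u

/-- a Nishimori law on `[-m, m]` -/
structure NL (ρ : Measure ℝ) (m : ℝ) : Prop where
  prob : IsProbabilityMeasure ρ
  bdd : ∀ᵐ a ∂ρ, |a| ≤ m
  nish : ∀ φ : ℝ → ℝ, Measurable φ → (∀ x, |φ x| ≤ 1) → (∀ x, φ (-x) = -φ x) →
    ∫ a, φ a ∂ρ = ∫ a, a * φ a ∂ρ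

variable {ρ ρ₁ ρ₂ ν : Measure ℝ} {m θ Y : ℝ}

lemma NL.mono (h : NL ρ m) {m' : ℝ} (hm : m ≤ m') : NL ρ m' :=
  ⟨h.prob, h.bdd.mono fun _ ha => ha.trans hm, h.nish⟩

lemma NL.integrable_pow (h : NL ρ m) (hm : m ≤ 1) (j : ℕ) : Integrable (fun a => a ^ j) ρ := by
  have := h.prob
  refine Integrable.of_bound (by fun_prop : Measurable _).aestronglyMeasurable 1 ?_
  filter_upwards [h.bdd] with a ha
  rw [Real.norm_eq_abs, abs_pow]
  exact pow_le_one₀ (abs_nonneg a) (ha.trans hm)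

lemma NL.sq_nonneg (_h : NL ρ m) (q : ℕ) : 0 ≤ ∫ a, a ^ (2 * q) ∂ρ :=
  integral_nonneg fun a => by rw [pow_mul]; positivity

lemma NL.sq_le_one (h : NL ρ m) (hm : m ≤ 1) (q : ℕ) : ∫ a, a ^ (2 * q) ∂ρ ≤ 1 := by
  have := h.prob
  have h1 : ∫ a, a ^ (2 * q) ∂ρ ≤ ∫ _, (1 : ℝ) ∂ρ := by
    refine integral_mono_ae (h.integrable_pow hm _) (integrable_const _) ?_
    filter_upwards [h.bdd] with a ha
    rw [pow_mul]
    have h2 : a ^ 2 ≤ 1 := by
      rw [← sq_abs]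
      exact pow_le_one₀ (abs_nonneg a) (ha.trans hm)
    exact pow_le_one₀ (by positivity) h2
  simpa using h1

lemma tanh_mono' {x y : ℝ} (h : x ≤ y) : Real.tanh x ≤ Real.tanh y := by
  by_contra hlt
  push Not at hlt
  have h1 := Real.strictMonoOn_artanh (a := Real.tanh y) (b := Real.tanh x)
    ⟨Real.neg_one_lt_tanh _, Real.tanh_lt_one _⟩ ⟨Real.neg_one_lt_tanh _, Real.tanh_lt_one _⟩ hlt
  rw [Real.artanh_tanh, Real.artanh_tanh] at h1
  exact absurd h (not_le.2 h1)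

lemma abs_tanh_le {x y : ℝ} (h : |x| ≤ y) : |Real.tanh x| ≤ Real.tanh y := by
  rw [abs_le] at h ⊢
  constructor
  · rw [← Real.tanh_neg]; exact tanh_mono' h.1
  · exact tanh_mono' h.2

/-- bounds -/
noncomputable def mm (θ Y : ℝ) : ℕ → ℝ
  | 0 => max θ (Real.tanh |Y|)
  | k + 1 => (mm θ Y k + θ) / (1 + mm θ Y k * θ)

lemma mm_bds (h0 : 0 < θ) (h1 : θ < 1) (k : ℕ) :
    θ ≤ mm θ Y k ∧ mm θ Y k < 1 ∧ mm θ Y k ≤ mm θ Y (k + 1) := by
  have key : ∀ m : ℝ, θ ≤ m → m < 1 → m ≤ (m + θ) / (1 + m * θ) ∧ (m + θ) / (1 + m * θ) < 1 := by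
    intro m hm hm1
    have hp : 0 < 1 + m * θ := by nlinarith
    constructor
    · rw [le_div_iff₀ hp]
      nlinarith [mul_nonneg h0.le (by nlinarith : (0:ℝ) ≤ 1 - m ^ 2)]
    · rw [div_lt_one hp]
      nlinarith
  induction k with
  | zero =>
    have ha : θ ≤ mm θ Y 0 := le_max_left _ _
    have hb : mm θ Y 0 < 1 := max_lt h1 (Real.tanh_lt_one _)
    exact ⟨ha, hb, (key _ ha hb).1⟩
  | succ k ih =>
    have hk := key _ ih.1 ih.2.1
    have ha : θ ≤ mm θ Y (k + 1) := ih.1.trans ih.2.2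
    have hb : mm θ Y (k + 1) < 1 := hk.2
    exact ⟨ha, hb, (key _ ha hb).1⟩

lemma mm_mono (h0 : 0 < θ) (h1 : θ < 1) {j k : ℕ} (h : j ≤ k) : mm θ Y j ≤ mm θ Y k :=
  monotone_nat_of_le_succ (fun n => (mm_bds h0 h1 n).2.2) h

lemma NL_tanh (h : Adm ν Y) : NL (ν.map Real.tanh) (Real.tanh |Y|) := by
  have hp := h.prob
  refine ⟨Measure.isProbabilityMeasure_map measurable_tanhMo.aemeasurable, ?_, ?_⟩
  · rw [ae_map_iff measurable_tanhMo.aemeasurable (measurableSet_le (by fun_prop) (by fun_prop))]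
    filter_upwards [h.bdd] with y hy
    exact abs_tanh_le (hy.trans (le_abs_self Y))
  · intro φ hφ hb ho
    have hφ2 : Measurable fun a => a * φ a := measurable_id.mul hφ
    rw [integral_map measurable_tanhMo.aemeasurable hφ.aestronglyMeasurable,
      integral_map measurable_tanhMo.aemeasurable hφ2.aestronglyMeasurable]
    exact h.nish (fun y => φ (Real.tanh y)) (hφ.comp measurable_tanhMo) (fun x => hb _)
      (fun x => by simp only [Real.tanh_neg, ho])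

/-- integrals against `bern θ` -/
lemma integral_bern (h : |θ| ≤ 1) (f : Bool → ℝ) :
    ∫ b, f b ∂(bern θ) = (1 + θ) / 2 * f true + (1 - θ) / 2 * f false := by
  have hp := bern_isProb h
  rw [integral_fintype (Integrable.of_finite), Fintype.sum_bool]
  simp only [Measure.real, bern_singleton, smul_eq_mul]
  rw [abs_le] at h
  have e1 : sp true = 1 := by simp [sp]
  have e2 : sp false = -1 := by simp [sp]
  rw [e1, e2, ENNReal.toReal_ofReal (by linarith), ENNReal.toReal_ofReal (by linarith)]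
  ring

lemma br_prob (h : |θ| ≤ 1) (hρ : IsProbabilityMeasure ρ) : IsProbabilityMeasure (br θ ρ) := by
  have := bern_isProb h
  unfold br
  exact Measure.isProbabilityMeasure_map (measurable_brf θ).aemeasurable

lemma integral_br (h : |θ| ≤ 1) (hρ : IsProbabilityMeasure ρ) {f : ℝ → ℝ} (hf : Measurable f)
    {B : ℝ} (hB : ∀ᵐ a ∂(br θ ρ), |f a| ≤ B) :
    ∫ a, f a ∂(br θ ρ)
      = ∫ a, ((1 + θ) / 2 * f (θ * a) + (1 - θ) / 2 * f (-(θ * a))) ∂ρ := by
  have hp := bern_isProb h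
  have hbr := br_prob h hρ
  have hi : Integrable (fun q : Bool × ℝ => f (sp q.1 * (θ * q.2))) ((bern θ).prod ρ) := by
    have h1 : Integrable f (br θ ρ) := Integrable.of_bound hf.aestronglyMeasurable B
      (by simpa only [Real.norm_eq_abs] using hB)
    unfold br at h1
    exact (integrable_map_measure hf.aestronglyMeasurable (measurable_brf θ).aemeasurable).1 h1
  have e : ∫ a, f a ∂(br θ ρ) = ∫ q : Bool × ℝ, f (sp q.1 * (θ * q.2)) ∂((bern θ).prod ρ) := by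
    unfold br
    rw [integral_map (measurable_brf θ).aemeasurable hf.aestronglyMeasurable]
  rw [e, integral_prod_symm _ hi]
  refine integral_congr_ae (Filter.Eventually.of_forall fun a => ?_)
  simp only
  rw [integral_bern h fun b => f (sp b * (θ * a))]
  simp [sp]

lemma NL_br (h0 : 0 < θ) (h1 : θ < 1) (h : NL ρ m) (hm : m ≤ 1) : NL (br θ ρ) θ := by
  have hθ : |θ| ≤ 1 := by rw [abs_of_pos h0]; exact h1.le
  have hp := bern_isProb hθ
  have hρ := h.prob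
  have hbr := br_prob hθ hρ
  have hbd : ∀ᵐ a ∂(br θ ρ), |a| ≤ θ := by
    unfold br
    rw [ae_map_iff (measurable_brf θ).aemeasurable (measurableSet_le (by fun_prop) (by fun_prop))]
    have h2 : ∀ᵐ q ∂((bern θ).prod ρ), |q.2| ≤ m := by
      have := (Measure.quasiMeasurePreserving_snd (μ := bern θ) (ν := ρ)).ae h.bdd
      exact this
    filter_upwards [h2] with q hq
    rw [abs_mul, abs_mul, abs_of_pos h0]
    have : |sp q.1| = 1 := by rcases sp_cases q.1 with h | h <;> rw [h] <;> norm_num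
    rw [this, one_mul]
    exact mul_le_of_le_one_right h0.le (hq.trans hm)
  refine ⟨hbr, hbd, ?_⟩
  intro φ hφ hb ho
  rw [integral_br hθ hρ hφ (B := 1) (Filter.Eventually.of_forall hb)]
  rw [integral_br hθ hρ (f := fun a => a * φ a) (measurable_id.mul hφ) (B := 1) (by
    filter_upwards [hbd] with a ha
    rw [abs_mul]
    exact mul_le_one₀ (ha.trans h1.le) (abs_nonneg _) (hb a))]
  have e1 : ∀ a, (1 + θ) / 2 * φ (θ * a) + (1 - θ) / 2 * φ (-(θ * a)) = θ * φ (θ * a) := by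
    intro a; rw [ho]; ring
  have e2 : ∀ a, (1 + θ) / 2 * (θ * a * φ (θ * a)) + (1 - θ) / 2 * (-(θ * a) * φ (-(θ * a)))
      = θ * (a * φ (θ * a)) := by
    intro a; rw [ho]; ring
  simp only [e1, e2]
  rw [integral_const_mul, integral_const_mul]
  congr 1
  exact h.nish (fun a => φ (θ * a)) (hφ.comp (by fun_prop)) (fun x => hb _)
    (fun x => by rw [mul_neg, ho])

lemma pow_br (h0 : 0 < θ) (h1 : θ < 1) (h : NL ρ m) (hm : m ≤ 1) (q : ℕ) :
    ∫ a, a ^ (2 * q) ∂(br θ ρ) = θ ^ (2 * q) * ∫ a, a ^ (2 * q) ∂ρ := by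
  have hθ : |θ| ≤ 1 := by rw [abs_of_pos h0]; exact h1.le
  have hbd := (NL_br h0 h1 h hm).bdd
  rw [integral_br hθ h.prob (f := fun a => a ^ (2 * q)) (by fun_prop) (B := 1) (by
    filter_upwards [hbd] with a ha
    rw [abs_pow]
    exact pow_le_one₀ (abs_nonneg a) (ha.trans h1.le))]
  rw [← integral_const_mul]
  refine integral_congr_ae (Filter.Eventually.of_forall fun a => ?_)
  simp only
  rw [neg_pow, mul_pow]
  have : (-1 : ℝ) ^ (2 * q) = 1 := by rw [pow_mul]; norm_num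
  rw [this]
  ring

lemma integral_comb (f : ℝ → ℝ) (hf : Measurable f) :
    ∫ a, f a ∂(comb ρ₁ ρ₂) = ∫ q, f ((q.1 + q.2) / (1 + q.1 * q.2)) ∂(ρ₁.prod ρ₂) := by
  unfold comb
  rw [integral_map measurable_cmb.aemeasurable hf.aestronglyMeasurable]

lemma cmb_le {a b : ℝ} (h0 : 0 < θ) (h1 : θ < 1) (hm1 : m < 1) (ha : |a| ≤ m) (hb : |b| ≤ θ) :
    |(a + b) / (1 + a * b)| ≤ (m + θ) / (1 + m * θ) := by
  have hm0 : 0 ≤ m := (abs_nonneg a).trans ha
  rw [abs_le] at ha hb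
  have hp : 0 < 1 + m * θ := by nlinarith
  have hab : |a * b| < 1 := by
    rw [abs_mul]
    have h1' : |a| ≤ m := abs_le.2 ha
    have h2' : |b| ≤ θ := abs_le.2 hb
    calc |a| * |b| ≤ m * θ := mul_le_mul h1' h2' (abs_nonneg _) hm0
      _ < 1 := by nlinarith
  rw [abs_lt] at hab
  have hq : 0 < 1 + a * b := by linarith
  have k1 : 0 < 1 - b * θ := by nlinarith
  have k2 : 0 < 1 + b * θ := by nlinarith
  have k3 : 0 < 1 - a * m := by nlinarith
  have k4 : 0 < 1 + a * m := by nlinarith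
  rw [abs_le]
  constructor
  · rw [neg_le_iff_add_nonneg, div_add_div _ _ hq.ne' hp.ne']
    apply div_nonneg _ (by positivity)
    nlinarith [mul_nonneg (by linarith : 0 ≤ m + a) k2.le, mul_nonneg (by linarith : 0 ≤ θ + b) k4.le]
  · rw [div_le_div_iff₀ hq hp]
    nlinarith [mul_nonneg (by linarith : 0 ≤ m - a) k1.le, mul_nonneg (by linarith : 0 ≤ θ - b) k3.le]

lemma NL_comb (hN : S_NISH) (h0 : 0 < θ) (h1 : θ < 1) (hm : θ ≤ m) (hm1 : m < 1) (ha : NL ρ₁ m)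
    (hb : NL ρ₂ θ) : NL (comb ρ₁ ρ₂) ((m + θ) / (1 + m * θ)) := by
  have hp1 := ha.prob
  have hp2 := hb.prob
  refine ⟨Measure.isProbabilityMeasure_map measurable_cmb.aemeasurable, ?_, ?_⟩
  · unfold comb
    rw [ae_map_iff measurable_cmb.aemeasurable (measurableSet_le (by fun_prop) (by fun_prop))]
    have e1 : ∀ᵐ q ∂(ρ₁.prod ρ₂), |q.1| ≤ m :=
      (Measure.quasiMeasurePreserving_fst (μ := ρ₁) (ν := ρ₂)).ae ha.bdd
    have e2 : ∀ᵐ q ∂(ρ₁.prod ρ₂), |q.2| ≤ θ :=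
      (Measure.quasiMeasurePreserving_snd (μ := ρ₁) (ν := ρ₂)).ae hb.bdd
    filter_upwards [e1, e2] with q hq1 hq2
    exact cmb_le h0 h1 hm1 hq1 hq2
  · intro φ hφ hbd ho
    rw [integral_comb φ hφ, integral_comb (fun a => a * φ a) (measurable_id.mul hφ)]
    exact ((hN m (h0.trans_le hm) hm1).1 ρ₁ ρ₂ hp1 hp2 ha.bdd
      (hb.bdd.mono fun _ h => h.trans hm) ha.nish hb.nish).1 φ hφ hbd ho

lemma NL_FK (hN : S_NISH) (h0 : 0 < θ) (h1 : θ < 1) (hν : Adm ν Y) (h : NL ρ m) (hm : m ≤ 1)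
    (k : ℕ) : NL (FK θ ν ρ k) (mm θ Y k) := by
  induction k with
  | zero => exact (NL_tanh hν).mono (le_max_right _ _)
  | succ k ih =>
    have hb := mm_bds (Y := Y) h0 h1 k
    exact NL_comb hN h0 h1 hb.1 hb.2.1 ih (NL_br h0 h1 h hm)

lemma NL_rho (hN : S_NISH) (h0 : 0 < θ) (h1 : θ < 1) (hν : Adm ν Y) (b n : ℕ) :
    NL (rho θ ν b n) (mm θ Y b) := by
  induction n with
  | zero =>
    exact (NL_tanh hν).mono ((le_max_right θ _ : Real.tanh |Y| ≤ mm θ Y 0).trans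
      (mm_mono h0 h1 (Nat.zero_le b)))
  | succ n ih => exact NL_FK hN h0 h1 hν ih (mm_bds h0 h1 b).2.1.le b

end Vale.Agent.P161C
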