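import Vale.Agent.P161C.Defs

/-!
# P161 critical point: independence in the environment and the law of the messages
-/

namespace Vale.Agent.P161C

open MeasureTheory Vale.Agent.P161 Filter Topology

universe u

section Mix

variable {ι : Type*} {X : ι → Type*}

open Classical in
/-- take the coordinates in `S` from `x`, the others from `y` -/
noncomputable def mixG (S : Set ι) (x y : ∀ i, X i) : ∀ i, X i :=
  fun k => if k ∈ S then x k else y k

lemma mixG_mem {S : Set ι} {k : ι} (h : k ∈ S) (x y : ∀ i, X i) : mixG S x y k = x k := by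
  unfold mixG; rw [if_pos h]

lemma mixG_notMem {S : Set ι} {k : ι} (h : k ∉ S) (x y : ∀ i, X i) : mixG S x y k = y k := by
  unfold mixG; rw [if_neg h]

variable [∀ i, MeasurableSpace (X i)]

lemma measurable_mixG (S : Set ι) :
    Measurable fun p : (∀ i, X i) × (∀ i, X i) => mixG S p.1 p.2 := by
  rw [measurable_pi_iff]
  intro k
  by_cases h : k ∈ S
  · simp only [mixG_mem h]; fun_prop
  · simp only [mixG_notMem h]; fun_prop

lemma mp_mixG (μ : ∀ i, Measure (X i)) [∀ i, IsProbabilityMeasure (μ i)] (S : Set ι) :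
    MeasurePreserving (fun p : (∀ i, X i) × (∀ i, X i) => mixG S p.1 p.2)
      ((Measure.infinitePi μ).prod (Measure.infinitePi μ)) (Measure.infinitePi μ) where
  measurable := measurable_mixG S
  map_eq := by
    classical
    refine Measure.eq_infinitePi _ fun s t ht => ?_
    rw [Measure.map_apply (measurable_mixG S)
      (.pi (Finset.countable_toSet _) fun _ _ => ht _)]
    have e : (fun p : (∀ i, X i) × (∀ i, X i) => mixG S p.1 p.2) ⁻¹' ((s : Set ι).pi t)
        = (((s.filter (· ∈ S) : Finset ι) : Set ι).pi t) ×ˢ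
          (((s.filter (· ∉ S) : Finset ι) : Set ι).pi t) := by
      ext p
      simp only [Set.mem_preimage, Set.mem_pi, Finset.mem_coe, Set.mem_prod, Finset.mem_filter]
      constructor
      · intro h
        refine ⟨fun i hi => ?_, fun i hi => ?_⟩
        · have := h i hi.1
          rwa [mixG_mem hi.2] at this
        · have := h i hi.1
          rwa [mixG_notMem hi.2] at this
      · rintro ⟨h1, h2⟩ i hi
        by_cases hiS : i ∈ S
        · rw [mixG_mem hiS]; exact h1 i ⟨hi, hiS⟩
        · rw [mixG_notMem hiS]; exact h2 i ⟨hi, hiS⟩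
    rw [e, Measure.prod_prod]
    rw [Measure.infinitePi_pi _ (fun i _ => ht i), Measure.infinitePi_pi _ (fun i _ => ht i),
      Finset.prod_filter_mul_prod_filter_not]

end Mix

lemma mp_rearr {A B C D : Type*} [MeasurableSpace A] [MeasurableSpace B] [MeasurableSpace C]
    [MeasurableSpace D] (a : Measure A) (b : Measure B) (c : Measure C) (d : Measure D)
    [SFinite a] [SFinite b] [SFinite c] [SFinite d] :
    MeasurePreserving (fun p : (A × B) × (C × D) => ((p.1.1, p.2.1), (p.1.2, p.2.2)))
      ((a.prod b).prod (c.prod d)) ((a.prod c).prod (b.prod d)) := by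
  have h1 := measurePreserving_prodAssoc a b (c.prod d)
  have h2 : MeasurePreserving (fun q : B × (C × D) => (q.2.1, (q.1, q.2.2)))
      (b.prod (c.prod d)) (c.prod (b.prod d)) := by
    have k1 := (measurePreserving_prodAssoc b c d).symm
    have k2 : MeasurePreserving (Prod.map Prod.swap id) ((b.prod c).prod d)
        ((c.prod b).prod d) := (Measure.measurePreserving_swap).prod (MeasurePreserving.id d)
    have k3 := measurePreserving_prodAssoc c b d
    exact k3.comp (k2.comp k1)
  have h3 := (MeasurePreserving.id a).prod h2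
  have h4 := (measurePreserving_prodAssoc a c (b.prod d)).symm
  exact h4.comp (h3.comp h1)

variable {V : Type u} {G : SimpleGraph V} {θ : ℝ} {ν : Measure ℝ}

instance bern_prob [Fact (|θ| ≤ 1)] : IsProbabilityMeasure (bern θ) := bern_isProb Fact.out

/-- all the single-edge laws are probability measures -/
lemma edge_prob (h : |θ| ≤ 1) (e : Sym2 V) :
    IsProbabilityMeasure (open Classical in if e ∈ G.edgeSet then bern θ
      else (Measure.dirac true : Measure Bool)) := by
  classical
  by_cases he : e ∈ G.edgeSet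
  · rw [if_pos he]; exact bern_isProb h
  · rw [if_neg he]; infer_instance

lemma etaLaw_prob (h : |θ| ≤ 1) : IsProbabilityMeasure (etaLaw G θ) := by
  have := fun e : Sym2 V => edge_prob (G := G) h e
  unfold etaLaw
  infer_instance

lemma EE_prob (h : |θ| ≤ 1) [IsProbabilityMeasure ν] : IsProbabilityMeasure (EE G θ ν) := by
  have := etaLaw_prob (G := G) h
  unfold EE
  infer_instance

/-- mixing two environments -/
noncomputable def mixE (S1 : Set (Sym2 V)) (S2 : Set V)
    (e e' : (Sym2 V → Bool) × (V → ℝ)) : (Sym2 V → Bool) × (V → ℝ) :=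
  (mixG S1 e.1 e'.1, mixG S2 e.2 e'.2)

lemma mp_mixE (h : |θ| ≤ 1) [IsProbabilityMeasure ν] (S1 : Set (Sym2 V)) (S2 : Set V) :
    MeasurePreserving (fun p : ((Sym2 V → Bool) × (V → ℝ)) × ((Sym2 V → Bool) × (V → ℝ)) =>
      mixE S1 S2 p.1 p.2) ((EE G θ ν).prod (EE G θ ν)) (EE G θ ν) := by
  have := fun e : Sym2 V => edge_prob (G := G) h e
  have := etaLaw_prob (G := G) h
  have h1 : MeasurePreserving (fun p : (Sym2 V → Bool) × (Sym2 V → Bool) => mixG S1 p.1 p.2)
      ((etaLaw G θ).prod (etaLaw G θ)) (etaLaw G θ) := mp_mixG _ S1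
  have h2 : MeasurePreserving (fun p : (V → ℝ) × (V → ℝ) => mixG S2 p.1 p.2)
      ((Measure.infinitePi fun _ : V => ν).prod (Measure.infinitePi fun _ : V => ν))
      (Measure.infinitePi fun _ : V => ν) := mp_mixG _ S2
  exact (h1.prod h2).comp (mp_rearr _ _ _ _)

/-- functions of disjoint sets of coordinates are independent -/
theorem indep_EE (h : |θ| ≤ 1) [IsProbabilityMeasure ν] {α β : Type*} [MeasurableSpace α]
    [MeasurableSpace β] {f : (Sym2 V → Bool) × (V → ℝ) → α} {g : (Sym2 V → Bool) × (V → ℝ) → β}
    (hf : Measurable f) (hg : Measurable g) (S1 : Set (Sym2 V)) (S2 : Set V)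
    (hfd : ∀ e e' : (Sym2 V → Bool) × (V → ℝ), (∀ x ∈ S1, e.1 x = e'.1 x) →
      (∀ x ∈ S2, e.2 x = e'.2 x) → f e = f e')
    (hgd : ∀ e e' : (Sym2 V → Bool) × (V → ℝ), (∀ x, x ∉ S1 → e.1 x = e'.1 x) →
      (∀ x, x ∉ S2 → e.2 x = e'.2 x) → g e = g e') :
    (EE G θ ν).map (fun e => (f e, g e)) = ((EE G θ ν).map f).prod ((EE G θ ν).map g) := by
  have hp := EE_prob (G := G) (ν := ν) h
  have hmp := mp_mixE (G := G) (ν := ν) h S1 S2
  conv_lhs => rw [← hmp.map_eq]
  rw [Measure.map_map (hf.prodMk hg) hmp.measurable]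
  have e : (fun e => (f e, g e)) ∘
      (fun p : ((Sym2 V → Bool) × (V → ℝ)) × ((Sym2 V → Bool) × (V → ℝ)) => mixE S1 S2 p.1 p.2)
      = Prod.map f g := by
    funext p
    simp only [Function.comp, Prod.map]
    congr 1
    · exact hfd _ _ (fun x hx => mixG_mem hx _ _) (fun x hx => mixG_mem hx _ _)
    · exact hgd _ _ (fun x hx => mixG_notMem hx _ _) (fun x hx => mixG_notMem hx _ _)
  rw [e, Measure.map_prod_map _ _ hf hg]

/-! ## Measurability and dependence of the messages -/

lemma continuous_tanh' : Continuous Real.tanh := by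
  have : Real.tanh = fun x => Real.sinh x / Real.cosh x := by
    funext x; exact Real.tanh_eq_sinh_div_cosh x
  rw [this]
  exact Real.continuous_sinh.div Real.continuous_cosh fun x => (Real.cosh_pos x).ne'

lemma measurable_tanhMo : Measurable Real.tanh := continuous_tanh'.measurable

lemma measurable_atMo : Measurable at' := by
  unfold at'
  exact (Real.measurable_log.comp ((measurable_const.add measurable_id).div
    (measurable_const.sub measurable_id))).div_const _

lemma measurable_ff (θ : ℝ) : Measurable (ff θ) := by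
  unfold ff
  exact measurable_atMo.comp (measurable_tanhMo.const_mul θ)

lemma measurable_msgh (n : ℕ) : ∀ u p : V, Measurable fun e => msgh G θ n e u p := by
  classical
  induction n with
  | zero =>
    intro u p
    simp only [msgh]
    fun_prop
  | succ n ih =>
    intro u p
    simp only [msgh]
    refine Measurable.add (by fun_prop) (Finset.measurable_fun_sum _ fun c _ => ?_)
    refine Measurable.mul (measurable_sp.comp (by fun_prop)) ((measurable_ff θ).comp (ih c u))

lemma mem_nbMo {G : SimpleGraph V} {d : ℕ} (hc : Crit G d θ) {u c : V} : c ∈ nb G u ↔ G.Adj u c := by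
  have hf : (G.neighborSet u).Finite := neighborSet_finite (by have := hc.hd; omega) hc.reg u
  unfold nb
  rw [dif_pos hf, Set.Finite.mem_toFinset, SimpleGraph.mem_neighborSet]

lemma card_nb {G : SimpleGraph V} {d : ℕ} (hc : Crit G d θ) (u : V) : (nb G u).card = d := by
  have hf : (G.neighborSet u).Finite := neighborSet_finite (by have := hc.hd; omega) hc.reg u
  unfold nb
  rw [dif_pos hf, ← hc.reg u, Set.ncard_eq_toFinset_card _ hf]

open Classical in
lemma card_nb_erase {G : SimpleGraph V} {d : ℕ} (hc : Crit G d θ) {u p : V} (h : G.Adj u p) :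
    ((nb G u).erase p).card = d - 1 := by
  rw [Finset.card_erase_of_mem ((mem_nbMo hc).2 h), card_nb hc]

lemma child_side (hG : G.IsTree) {c u x : V} (hcu : G.Adj c u) (hcx : G.Adj c x) (hx : x ≠ u) :
    x ∈ side G c u := by
  rcases mem_side_or hG hcu x with h | h
  · exact h
  · exact absurd (adj_cross hG hcu (self_mem_side hcu) h hcx).2 hx

lemma side_sub (hG : G.IsTree) {c u x : V} (hcu : G.Adj c u) (hcx : G.Adj c x) (hx : x ≠ u) :
    side G x c ⊆ side G c u := by
  intro w hw
  rcases mem_side_or hG hcu w with h | h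
  · exact h
  · exfalso
    apply hx
    unfold side at hw h
    simp only [Set.mem_ofPred_eq] at hw h
    exact closer_unique (r := w) hG hcx hcu (by rw [hw]) (by rw [h])

/-- two different branches are disjoint -/
lemma side_disj (hG : G.IsTree) {u c x : V} (huc : G.Adj u c) (hux : G.Adj u x) (hx : x ≠ c)
    {w : V} (hw : w ∈ side G x u) : w ∉ side G c u := by
  intro h
  apply hx
  unfold side at hw h
  simp only [Set.mem_ofPred_eq] at hw h
  exact closer_unique (r := w) hG hux huc (by rw [hw]) (by rw [h])

/-- `msgh G θ n e c u` depends only on the branch of `c` away from `u` -/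
lemma msgh_dep (hG : G.IsTree) {d : ℕ} (hc : Crit G d θ) (n : ℕ) : ∀ c u : V, G.Adj c u →
    ∀ e e' : (Sym2 V → Bool) × (V → ℝ),
      (∀ x ∈ side G c u, ∀ y ∈ side G c u, e.1 s(x, y) = e'.1 s(x, y)) →
      (∀ x ∈ side G c u, e.2 x = e'.2 x) → msgh G θ n e c u = msgh G θ n e' c u := by
  classical
  induction n with
  | zero =>
    intro c u hcu e e' _ h2
    simp only [msgh]
    exact h2 c (self_mem_side hcu)
  | succ n ih =>
    intro c u hcu e e' h1 h2
    simp only [msgh]
    rw [h2 c (self_mem_side hcu)]
    congr 1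
    refine Finset.sum_congr rfl fun x hx => ?_
    rw [Finset.mem_erase, mem_nbMo hc] at hx
    have hxs := child_side hG hcu hx.2 hx.1
    have hss := side_sub hG hcu hx.2 hx.1
    rw [h1 c (self_mem_side hcu) x hxs, ih x c hx.2.symm e e'
      (fun a ha b hb => h1 a (hss ha) b (hss hb)) (fun a ha => h2 a (hss ha))]

end Vale.Agent.P161C
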