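import Vale.Agent.P161C.MomInd

/-!
# P161 critical point: exact recursion for the law of the messages in the environment
-/

namespace Vale.Agent.P161C

open MeasureTheory Vale.Agent.P161 Filter Topology

universe u

lemma tanh_addMo (x y : ℝ) : Real.tanh (x + y)
    = (Real.tanh x + Real.tanh y) / (1 + Real.tanh x * Real.tanh y) := by
  have hx := (Real.cosh_pos x).ne'
  have hy := (Real.cosh_pos y).ne'
  have hxy := (Real.cosh_pos (x + y)).ne'
  have h2 : Real.cosh x * Real.cosh y + Real.sinh x * Real.sinh y ≠ 0 := by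
    rw [← Real.cosh_add]; exact hxy
  rw [Real.tanh_eq_sinh_div_cosh, Real.tanh_eq_sinh_div_cosh, Real.tanh_eq_sinh_div_cosh,
    Real.sinh_add, Real.cosh_add]
  have h3 : 1 + Real.sinh x / Real.cosh x * (Real.sinh y / Real.cosh y)
      = (Real.cosh x * Real.cosh y + Real.sinh x * Real.sinh y) / (Real.cosh x * Real.cosh y) := by
    field_simp
  rw [h3, div_eq_div_iff h2 (div_ne_zero h2 (mul_ne_zero hx hy))]
  field_simp

lemma tanh_atMo {x : ℝ} (h : |x| < 1) : Real.tanh (at' x) = x := by
  rw [abs_lt] at h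
  have e : at' x = Real.artanh x := by
    rw [Real.artanh_eq_half_log ⟨h.1.le, h.2.le⟩]
    unfold at'
    ring
  rw [e]
  exact Real.tanh_artanh ⟨h.1, h.2⟩

lemma tanh_ffMo {θ : ℝ} (h0 : 0 ≤ θ) (h1 : θ < 1) (l : ℝ) :
    Real.tanh (ff θ l) = θ * Real.tanh l := by
  unfold ff
  apply tanh_atMo
  rw [abs_mul, abs_of_nonneg h0]
  have := Real.abs_tanh_lt_one l
  nlinarith [abs_nonneg (Real.tanh l)]

lemma sp_cases (b : Bool) : sp b = 1 ∨ sp b = -1 := by
  cases b
  · right; simp [sp]
  · left; simp [sp]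

lemma tanh_sp_mul (b : Bool) (x : ℝ) : Real.tanh (sp b * x) = sp b * Real.tanh x := by
  rcases sp_cases b with h | h
  · rw [h, one_mul, one_mul]
  · rw [h, neg_one_mul, neg_one_mul, Real.tanh_neg]

lemma Crit.one_lt {V : Type u} {G : SimpleGraph V} {d : ℕ} {θ : ℝ} (hc : Crit G d θ) : θ < 1 := by
  have h1 := hc.hd
  have h2 := hc.crit
  have h3 := hc.pos
  have h4 : (3 : ℝ) ≤ d := by exact_mod_cast h1
  by_contra h
  push Not at h
  nlinarith

lemma Crit.abs_le {V : Type u} {G : SimpleGraph V} {d : ℕ} {θ : ℝ} (hc : Crit G d θ) :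
    |θ| ≤ 1 := by
  rw [abs_of_pos hc.pos]; exact hc.one_lt.le

/-- the law of `(a+b)/(1+ab)` for independent `a`, `b` -/
noncomputable def comb (ρ₁ ρ₂ : Measure ℝ) : Measure ℝ :=
  (ρ₁.prod ρ₂).map fun q => (q.1 + q.2) / (1 + q.1 * q.2)

/-- the law of the contribution of a branch -/
noncomputable def br (θ : ℝ) (ρ : Measure ℝ) : Measure ℝ :=
  ((bern θ).prod ρ).map fun q => sp q.1 * (θ * q.2)

/-- the law of the field together with `k` branches -/
noncomputable def FK (θ : ℝ) (ν ρ : Measure ℝ) : ℕ → Measure ℝ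
  | 0 => ν.map Real.tanh
  | k + 1 => comb (FK θ ν ρ k) (br θ ρ)

/-- the law of `tanh` of the message of depth `n` -/
noncomputable def rho (θ : ℝ) (ν : Measure ℝ) (b : ℕ) : ℕ → Measure ℝ
  | 0 => ν.map Real.tanh
  | n + 1 => FK θ ν (rho θ ν b n) b

lemma measurable_cmb : Measurable fun q : ℝ × ℝ => (q.1 + q.2) / (1 + q.1 * q.2) := by
  fun_prop

lemma measurable_brf (θ : ℝ) : Measurable fun q : Bool × ℝ => sp q.1 * (θ * q.2) :=
  (measurable_sp.comp measurable_fst).mul (measurable_snd.const_mul θ)

variable {V : Type u} {G : SimpleGraph V} {θ : ℝ} {ν : Measure ℝ}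

lemma map_e2 (h : |θ| ≤ 1) [IsProbabilityMeasure ν] (u : V) :
    (EE G θ ν).map (fun e => e.2 u) = ν := by
  have := etaLaw_prob (G := G) h
  have e : (fun e : (Sym2 V → Bool) × (V → ℝ) => e.2 u) = (fun y : V → ℝ => y u) ∘ Prod.snd := rfl
  rw [e, ← Measure.map_map (by fun_prop) (by fun_prop)]
  unfold EE
  rw [Measure.map_snd_prod, measure_univ, one_smul]
  exact Measure.infinitePi_map_eval (fun _ : V => ν) u

lemma map_e1 (h : |θ| ≤ 1) [IsProbabilityMeasure ν] {u c : V} (huc : G.Adj u c) :
    (EE G θ ν).map (fun e => e.1 s(u, c)) = bern θ := by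
  classical
  have := fun e : Sym2 V => edge_prob (G := G) h e
  have e : (fun e : (Sym2 V → Bool) × (V → ℝ) => e.1 s(u, c))
      = (fun y : Sym2 V → Bool => y s(u, c)) ∘ Prod.fst := rfl
  rw [e, ← Measure.map_map (by fun_prop) (by fun_prop)]
  unfold EE
  rw [Measure.map_fst_prod, measure_univ, one_smul]
  unfold etaLaw
  rw [Measure.infinitePi_map_eval _ s(u, c), if_pos]
  exact huc

lemma law_branch (hG : G.IsTree) {d : ℕ} (hc : Crit G d θ) [IsProbabilityMeasure ν] {n : ℕ}
    {ρ : Measure ℝ} {u c : V} (huc : G.Adj u c)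
    (hρ : (EE G θ ν).map (fun e => Real.tanh (msgh G θ n e c u)) = ρ) :
    (EE G θ ν).map (fun e => sp (e.1 s(u, c)) * (θ * Real.tanh (msgh G θ n e c u))) = br θ ρ := by
  have hp := EE_prob (G := G) (ν := ν) hc.abs_le
  have hm : Measurable fun e : (Sym2 V → Bool) × (V → ℝ) => Real.tanh (msgh G θ n e c u) :=
    measurable_tanhMo.comp (measurable_msgh n c u)
  have hi := indep_EE (G := G) (ν := ν) hc.abs_le
    (f := fun e => e.1 s(u, c)) (g := fun e => Real.tanh (msgh G θ n e c u)) (by fun_prop) hm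
    {s(u, c)} ∅ (fun e e' h1 _ => h1 _ rfl) (fun e e' h1 h2 => by
      refine congrArg Real.tanh (msgh_dep hG hc n c u huc.symm e e' (fun x hx y hy => ?_)
        (fun x _ => h2 x (Set.notMem_empty x)))
      apply h1
      intro he
      rw [Set.mem_singleton_iff, Sym2.eq_iff] at he
      have hu : u ∉ side G c u := side_disjoint (self_mem_side huc)
      rcases he with ⟨h, _⟩ | ⟨_, h⟩
      · exact hu (h ▸ hx)
      · exact hu (h ▸ hy))
  unfold br
  rw [← map_e1 (ν := ν) hc.abs_le huc, ← hρ, ← hi,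
    Measure.map_map (measurable_brf θ) ((by fun_prop : Measurable _).prodMk hm)]
  rfl

lemma law_sum (hG : G.IsTree) {d : ℕ} (hc : Crit G d θ) [IsProbabilityMeasure ν] {n : ℕ}
    {ρ : Measure ℝ} {u : V}
    (hρ : ∀ c, G.Adj u c → (EE G θ ν).map (fun e => Real.tanh (msgh G θ n e c u)) = ρ)
    (S : Finset V) : S ⊆ nb G u →
    (EE G θ ν).map (fun e => Real.tanh (e.2 u
      + ∑ c ∈ S, sp (e.1 s(u, c)) * ff θ (msgh G θ n e c u))) = FK θ ν ρ S.card := by
  classical
  have hp := EE_prob (G := G) (ν := ν) hc.abs_le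
  induction S using Finset.induction_on with
  | empty =>
    intro _
    simp only [Finset.sum_empty, add_zero, Finset.card_empty, FK]
    conv_rhs => rw [← map_e2 (G := G) (ν := ν) hc.abs_le u]
    rw [Measure.map_map measurable_tanhMo (by fun_prop)]
    rfl
  | insert c0 S hc0 ih =>
    intro hS
    have hS' : S ⊆ nb G u := fun x hx => hS (Finset.mem_insert_of_mem hx)
    have hadj : G.Adj u c0 := (mem_nbMo hc).1 (hS (Finset.mem_insert_self _ _))
    have ih := ih hS'
    rw [Finset.card_insert_of_notMem hc0]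
    simp only [FK]
    have hm1 : Measurable fun e : (Sym2 V → Bool) × (V → ℝ) => Real.tanh (e.2 u
        + ∑ c ∈ S, sp (e.1 s(u, c)) * ff θ (msgh G θ n e c u)) := by
      refine measurable_tanhMo.comp (Measurable.add (by fun_prop)
        (Finset.measurable_fun_sum _ fun c _ => ?_))
      exact Measurable.mul (measurable_sp.comp (by fun_prop))
        ((measurable_ff θ).comp (measurable_msgh n c u))
    have hm2 : Measurable fun e : (Sym2 V → Bool) × (V → ℝ) =>
        sp (e.1 s(u, c0)) * (θ * Real.tanh (msgh G θ n e c0 u)) :=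
      Measurable.mul (measurable_sp.comp (by fun_prop))
        ((measurable_tanhMo.comp (measurable_msgh n c0 u)).const_mul θ)
    have hu : u ∉ side G c0 u := side_disjoint (self_mem_side hadj)
    have hi := indep_EE (G := G) (ν := ν) hc.abs_le hm1 hm2
      {ε : Sym2 V | ∀ x ∈ ε, x ∉ side G c0 u} {x | x ∉ side G c0 u}
      (fun e e' h1 h2 => by
        rw [h2 u hu]
        congr 2
        refine Finset.sum_congr rfl fun c hcS => ?_
        have hcu : G.Adj u c := (mem_nbMo hc).1 (hS' hcS)
        have hne : c ≠ c0 := fun h => hc0 (h ▸ hcS)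
        have hd : ∀ w ∈ side G c u, w ∉ side G c0 u := fun w hw =>
          side_disj hG hadj hcu hne hw
        rw [h1 s(u, c) (by
          intro x hx
          rw [Sym2.mem_iff] at hx
          rcases hx with rfl | rfl
          · exact hu
          · exact hd _ (self_mem_side hcu.symm))]
        rw [msgh_dep hG hc n c u hcu.symm e e' (fun x hx y hy => h1 _ (by
          intro z hz
          rw [Sym2.mem_iff] at hz
          rcases hz with rfl | rfl
          · exact hd _ hx
          · exact hd _ hy)) (fun x hx => h2 x (hd x hx))])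
      (fun e e' h1 h2 => by
        have h3 : e.1 s(u, c0) = e'.1 s(u, c0) := h1 _ (by
          intro h
          exact h c0 (Sym2.mem_mk_right u c0) (self_mem_side hadj.symm))
        rw [h3, msgh_dep hG hc n c0 u hadj.symm e e' (fun x hx y hy => h1 _ (by
          intro h
          exact h x (Sym2.mem_mk_left x y) hx)) (fun x hx => h2 x (fun h => h hx))])
    unfold comb
    rw [← ih, ← law_branch (ν := ν) hG hc hadj (hρ c0 hadj), ← hi,
      Measure.map_map measurable_cmb (hm1.prodMk hm2)]
    congr 1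
    funext e
    simp only [Function.comp]
    rw [Finset.sum_insert hc0, ← tanh_ffMo hc.pos.le hc.one_lt, ← tanh_sp_mul, ← tanh_addMo]
    congr 1
    ring

/-- the law of `tanh` of the messages along oriented edges -/
theorem law_msgh (hG : G.IsTree) {d : ℕ} (hc : Crit G d θ) [IsProbabilityMeasure ν] (n : ℕ) :
    ∀ u p : V, G.Adj u p →
      (EE G θ ν).map (fun e => Real.tanh (msgh G θ n e u p)) = rho θ ν (d - 1) n := by
  classical
  induction n with
  | zero =>
    intro u p _
    have h := law_sum (ν := ν) (n := 0) (ρ := ν.map Real.tanh) (u := u) hG hc (fun c _ => by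
      simp only [msgh]
      conv_rhs => rw [← map_e2 (G := G) (ν := ν) hc.abs_le c]
      rw [Measure.map_map measurable_tanhMo (by fun_prop)]
      rfl) ∅ (Finset.empty_subset _)
    simpa [msgh, rho, FK] using h
  | succ n ih =>
    intro u p hup
    have h := law_sum (ν := ν) (n := n) (u := u) hG hc (fun c hcu => ih c u hcu.symm)
      ((nb G u).erase p) (Finset.erase_subset _ _)
    rw [card_nb_erase hc hup] at h
    exact h

/-- the law of `tanh` of the full sums -/
theorem law_msgh_self (hG : G.IsTree) {d : ℕ} (hc : Crit G d θ) [IsProbabilityMeasure ν] (n : ℕ)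
    (u : V) : (EE G θ ν).map (fun e => Real.tanh (msgh G θ (n + 1) e u u))
      = FK θ ν (rho θ ν (d - 1) n) d := by
  classical
  have h := law_sum (ν := ν) (n := n) (u := u) hG hc
    (fun c hcu => law_msgh hG hc n c u hcu.symm) (nb G u) (Finset.Subset.refl _)
  rw [card_nb hc] at h
  have e : (nb G u).erase u = nb G u := by
    apply Finset.erase_eq_of_notMem
    rw [mem_nbMo hc]
    exact G.loopless.irrefl u
  have e2 : (fun e => Real.tanh (msgh G θ (n + 1) e u u)) = fun e => Real.tanh (e.2 u
      + ∑ c ∈ nb G u, sp (e.1 s(u, c)) * ff θ (msgh G θ n e c u)) := by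
    funext e
    simp only [msgh]
    rw [Finset.erase_eq_of_notMem]
    rw [mem_nbMo hc]
    exact G.loopless.irrefl u
  rw [e2]
  exact h

end Vale.Agent.P161C
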