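import Vale.Agent.P161C.Plan
import Vale.Agent.P161.Mart

/-!
# PFIN, part 1: the law of finitely many observations
-/

namespace Vale.Agent.P161C

open MeasureTheory Vale.Agent.P161 Filter Topology

universe u

theorem dl_nonneg (t : I01) : 0 ≤ dl t := Real.sqrt_nonneg _

theorem dl_le_half (t : I01) : dl t ≤ 1 / 2 := by
  unfold dl
  have h : (t : ℝ) * (1 - t) ≤ (1 / 2) ^ 2 := by nlinarith [sq_nonneg ((t : ℝ) - 1 / 2)]
  calc √((t : ℝ) * (1 - t)) ≤ √((1 / 2) ^ 2) := Real.sqrt_le_sqrt h
    _ = 1 / 2 := Real.sqrt_sq (by norm_num)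

/-- the observation of a spin `b` with noise `t` -/
noncomputable def ob1 (δ : ℝ) (b : Bool) (t : I01) : I01 :=
  if b then Qc δ 1 t else unitInterval.symm (Qc δ 1 t)

theorem obs_eq {V : Type u} (ω : Om V) (k : V × ℕ) :
    obs ω k = ob1 (dl (ω.2.1 k)) (ω.1 k.1) (ω.2.2 k) := rfl

theorem measurable_ob1 (δ : ℝ) (b : Bool) : Measurable (ob1 δ b) := by
  have h : Measurable (Qc δ 1) := (measurable_Qc δ).comp (measurable_const.prodMk measurable_id)
  unfold ob1
  cases b
  · simp only [Bool.false_eq_true, if_false]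
    exact unitInterval.measurable_symm.comp h
  · simp only [if_true]
    exact h

theorem integral_Qc' {δ m : ℝ} (ha : |δ * m| ≤ 1 / 2) {ψ : I01 → ℝ} (hψ : Measurable ψ) :
    ∫ t : I01, ψ (Qc δ m t) = ∫ x : I01, (1 + δ * m * (2 * (x : ℝ) - 1)) * ψ x := by
  have hm : Measurable (Fc δ m) := (measurable_Fc δ).comp (measurable_const.prodMk measurable_id)
  have hQ : Measurable (Qc δ m) := (measurable_Qc δ).comp (measurable_const.prodMk measurable_id)
  have hψQ : Measurable fun t => ψ (Qc δ m t) := hψ.comp hQ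
  conv_lhs => rw [← map_Fc ha]
  rw [integral_map hm.aemeasurable hψQ.aestronglyMeasurable,
    integral_withDensity_eq_integral_toReal_smul (by fun_prop)
      (Filter.Eventually.of_forall fun x => ENNReal.ofReal_lt_top)]
  congr 1
  funext x
  rw [ENNReal.toReal_ofReal (dens_nonneg ha x.2.1 x.2.2), smul_eq_mul, Qc_Fc ha]

theorem integral_symm (ψ : I01 → ℝ) :
    ∫ x : I01, ψ (unitInterval.symm x) = ∫ x : I01, ψ x :=
  unitInterval.measurePreserving_symm.integral_comp
    unitInterval.symmMeasurableEquiv.measurableEmbedding _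

/-- law of one observation -/
theorem integral_ob1 {δ : ℝ} (h0 : 0 ≤ δ) (h1 : δ ≤ 1 / 2) (b : Bool) {ψ : I01 → ℝ}
    (hψ : Measurable ψ) :
    ∫ t : I01, ψ (ob1 δ b t) = ∫ x : I01, fac δ b x * ψ x := by
  have ha : |δ * 1| ≤ 1 / 2 := by rw [mul_one, abs_of_nonneg h0]; exact h1
  cases b
  · have e1 : ∀ t : I01, ψ (ob1 δ false t) = (fun x => ψ (unitInterval.symm x)) (Qc δ 1 t) := by
      intro t
      simp [ob1]
    simp only [e1]
    rw [integral_Qc' ha (ψ := fun x => ψ (unitInterval.symm x))
      (hψ.comp unitInterval.measurable_symm)]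
    rw [← integral_symm (fun x => fac δ false x * ψ x)]
    congr 1
    funext x
    rw [fac_eq]
    simp only [sp, Bool.false_eq_true, if_false, unitInterval.coe_symm_eq]
    ring
  · have e1 : ∀ t : I01, ψ (ob1 δ true t) = ψ (Qc δ 1 t) := by
      intro t
      simp [ob1]
    simp only [e1]
    rw [integral_Qc' ha hψ]
    congr 1

variable {V : Type u}

/-- likelihood with variable strengths -/
noncomputable def WU (U : V × ℕ → I01) (A : Finset (V × ℕ)) (σ : V → Bool) (x : V × ℕ → I01) : ℝ :=
  ∏ k ∈ A, fac (dl (U k)) (σ k.1) (x k)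

open Classical in
/-- observations in `A` -/
noncomputable def TA (U : V × ℕ → I01) (σ : V → Bool) (A : Finset (V × ℕ)) (N : V × ℕ → I01) :
    V × ℕ → I01 := fun k => if k ∈ A then ob1 (dl (U k)) (σ k.1) (N k) else N k

theorem measurable_TA (U : V × ℕ → I01) (σ : V → Bool) (A : Finset (V × ℕ)) :
    Measurable (TA U σ A) := by
  unfold TA
  rw [measurable_pi_iff]
  intro k
  by_cases hk : k ∈ A
  · simp only [hk, if_true]
    exact (measurable_ob1 _ _).comp (measurable_pi_apply k)
  · simp only [hk, if_false]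
    exact measurable_pi_apply k

theorem fac_dl_bounds (U : V × ℕ → I01) (σ : V → Bool) (x : V × ℕ → I01) (k : V × ℕ) :
    1 / 2 ≤ fac (dl (U k)) (σ k.1) (x k) ∧ fac (dl (U k)) (σ k.1) (x k) ≤ 3 / 2 :=
  fac_bounds (dl_nonneg _) (dl_le_half _) _ _

theorem WU_pos (U : V × ℕ → I01) (A : Finset (V × ℕ)) (σ : V → Bool) (x : V × ℕ → I01) :
    0 < WU U A σ x :=
  Finset.prod_pos fun k _ => by linarith [(fac_dl_bounds U σ x k).1]

theorem WU_le (U : V × ℕ → I01) (A : Finset (V × ℕ)) (σ : V → Bool) (x : V × ℕ → I01) :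
    WU U A σ x ≤ (3 / 2) ^ A.card := by
  unfold WU
  rw [← Finset.prod_const]
  apply Finset.prod_le_prod
  · intro k _; linarith [(fac_dl_bounds U σ x k).1]
  · intro k _; exact (fac_dl_bounds U σ x k).2

theorem measurable_WU (U : V × ℕ → I01) (A : Finset (V × ℕ)) :
    Measurable fun p : (V → Bool) × (V × ℕ → I01) => WU U A p.1 p.2 := by
  unfold WU
  refine Finset.measurable_fun_prod _ fun k _ => ?_
  refine (measurable_fac _).comp (Measurable.prodMk ?_ ?_)
  · fun_prop
  · fun_prop

open Classical in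
theorem integral_TA (U : V × ℕ → I01) (σ : V → Bool) (A : Finset (V × ℕ)) :
    ∀ {Φ : (V × ℕ → I01) → ℝ} {B : ℝ}, Measurable Φ → (∀ x, |Φ x| ≤ B) →
    ∫ N, Φ (TA U σ A N) ∂(lam V) = ∫ x, Φ x * WU U A σ x ∂(lam V) := by
  induction A using Finset.induction_on with
  | empty =>
    intro Φ B _ _
    congr 1
    funext N
    have : TA U σ ∅ N = N := by funext k; simp [TA]
    simp [this, WU]
  | insert k A hk ih =>
    intro Φ B hΦ hB
    have hB0 : 0 ≤ B := (abs_nonneg _).trans (hB fun _ => 0)
    have hδ0 := dl_nonneg (U k)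
    have hδ1 := dl_le_half (U k)
    -- the function integrated over one coordinate
    obtain ⟨Ψ, hΨ⟩ : ∃ Ψ : (V × ℕ → I01) → ℝ, ∀ x, Ψ x
        = ∫ s : I01, fac (dl (U k)) (σ k.1) s * Φ (Function.update x k s) := ⟨_, fun _ => rfl⟩
    have hΨm : Measurable Ψ := by
      have : Ψ = fun x => ∫ s : I01, fac (dl (U k)) (σ k.1) s * Φ (Function.update x k s) :=
        funext hΨ
      rw [this]
      have hh : Measurable fun p : (V × ℕ → I01) × I01 =>
          fac (dl (U k)) (σ k.1) p.2 * Φ (Function.update p.1 k p.2) := by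
        apply Measurable.mul
        · exact (measurable_fac _).comp (measurable_const.prodMk measurable_snd)
        · exact hΦ.comp (measurable_upd k)
      exact hh.stronglyMeasurable.integral_prod_right.measurable
    have hfb : ∀ (x : V × ℕ → I01) (s : I01),
        |fac (dl (U k)) (σ k.1) s * Φ (Function.update x k s)| ≤ 3 / 2 * B := by
      intro x s
      have h := fac_bounds hδ0 hδ1 (σ k.1) s
      rw [abs_mul, abs_of_pos (by linarith [h.1])]
      exact mul_le_mul h.2 (hB _) (abs_nonneg _) (by norm_num)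
    have hΨb : ∀ x, |Ψ x| ≤ 3 / 2 * B := by
      intro x
      rw [hΨ]
      have := norm_integral_le_of_norm_le_const (μ := (volume : Measure I01))
        (f := fun s => fac (dl (U k)) (σ k.1) s * Φ (Function.update x k s)) (C := 3 / 2 * B)
        (Filter.Eventually.of_forall fun s => by rw [Real.norm_eq_abs]; exact hfb x s)
      simpa using this
    have e1 : ∫ N, Φ (TA U σ (insert k A) N) ∂(lam V) = ∫ N, Ψ (TA U σ A N) ∂(lam V) := by
      rw [lam_eq, integral_upd k (fun N => Φ (TA U σ (insert k A) N))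
        (hΦ.comp (measurable_TA U σ _)) (fun _ => hB _)]
      congr 1
      funext N
      rw [hΨ]
      rw [← integral_ob1 hδ0 hδ1 (σ k.1) (ψ := fun s => Φ (Function.update (TA U σ A N) k s))]
      · congr 1
        funext t
        congr 1
        funext j
        by_cases hj : j = k
        · subst hj
          simp [TA]
        · simp [TA, hj, Function.update_of_ne]
      · exact hΦ.comp ((measurable_upd k).comp (measurable_const.prodMk measurable_id))
    rw [e1, ih hΨm hΨb]
    rw [lam_eq, integral_upd k (fun x => Φ x * WU U (insert k A) σ x) (B := B * (3 / 2) ^ (insert k A).card)]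
    · congr 1
      funext x
      rw [hΨ, mul_comm, ← integral_const_mul]
      congr 1
      funext s
      have : WU U (insert k A) σ (Function.update x k s)
          = fac (dl (U k)) (σ k.1) s * WU U A σ x := by
        unfold WU
        rw [Finset.prod_insert hk, Function.update_self]
        congr 1
        apply Finset.prod_congr rfl
        intro j hj
        rw [Function.update_of_ne]
        intro h
        exact hk (h ▸ hj)
      rw [this]
      ring
    · exact hΦ.mul ((measurable_WU U _).comp (measurable_const.prodMk measurable_id))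
    · intro x
      rw [abs_mul, abs_of_pos (WU_pos U _ σ x)]
      exact mul_le_mul (hB x) (WU_le U _ σ x) (WU_pos U _ σ x).le hB0

/-- the law of the observations in `A` -/
theorem integral_obs (U : V × ℕ → I01) (σ : V → Bool) (A : Finset (V × ℕ))
    {Φ : (V × ℕ → I01) → ℝ} {B : ℝ} (hΦ : Measurable Φ) (hB : ∀ x, |Φ x| ≤ B)
    (hdep : ∀ x x', (∀ k ∈ A, x k = x' k) → Φ x = Φ x') :
    ∫ N, Φ (obs (σ, (U, N))) ∂(lam V) = ∫ x, Φ x * WU U A σ x ∂(lam V) := by
  rw [← integral_TA U σ A hΦ hB]
  congr 1
  funext N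
  apply hdep
  intro k hk
  rw [obs_eq]
  simp [TA, hk]

end Vale.Agent.P161C
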