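import Vale.Agent.P161C.Bas

/-!
# P161 critical point: convergence of the messages, posterior means (module POST)
-/

namespace Vale.Agent.P161C.PO

open MeasureTheory Vale.Agent.P161 Filter Topology

universe u

variable {V : Type u} {G : SimpleGraph V} {d : ℕ} {θ : ℝ}

/-- observations for fixed labels -/
noncomputable def XU (U : V × ℕ → I01) (p : (V → Bool) × (V × ℕ → I01)) : V × ℕ → I01 :=
  obs (p.1, (U, p.2))

open Classical in
/-- field in terms of the observations -/
noncomputable def fx (U : V × ℕ → I01) (J : ℕ) (I : Set (V × ℕ)) (x : V × ℕ → I01) (w : V) : ℝ :=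
  ∑ j ∈ Finset.range J,
    if (w, j) ∈ I then at' (dl (U (w, j)) * (2 * (x (w, j) : ℝ) - 1)) else 0

lemma fld_eq (U : V × ℕ → I01) (J : ℕ) (I : Set (V × ℕ)) (p : (V → Bool) × (V × ℕ → I01)) :
    fld J I (p.1, (U, p.2)) = fx U J I (XU U p) := rfl

lemma measurable_XU (U : V × ℕ → I01) : Measurable (XU U) := by
  rw [measurable_pi_iff]
  intro k
  unfold XU obs
  have h1 : Measurable fun p : (V → Bool) × (V × ℕ → I01) => Qc (dl (U k)) 1 (p.2 k) :=
    (measurable_Qc (dl (U k))).comp
      (measurable_const.prodMk ((measurable_pi_apply k).comp measurable_snd))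
  apply Measurable.ite
  · exact measurableSet_eq_fun (f := fun p : (V → Bool) × (V × ℕ → I01) => p.1 k.1)
      ((measurable_pi_apply k.1).comp measurable_fst) measurable_const
  · exact h1
  · exact (unitInterval.continuous_symm.measurable).comp h1

lemma measurable_fx (U : V × ℕ → I01) (J : ℕ) (I : Set (V × ℕ)) : Measurable (fx U J I) := by
  classical
  rw [measurable_pi_iff]
  intro w
  unfold fx
  refine Finset.measurable_sum _ fun j _ => ?_
  split_ifs
  · apply measurable_at'.comp
    have : Measurable fun x : V × ℕ → I01 => ((x (w, j) : I01) : ℝ) :=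
      measurable_subtype_coe.comp (measurable_pi_apply _)
    fun_prop
  · exact measurable_const

lemma fx_congr (U : V × ℕ → I01) (J : ℕ) (I : Set (V × ℕ)) {x x' : V × ℕ → I01}
    (h : ∀ k ∈ I, x k = x' k) : fx U J I x = fx U J I x' := by
  funext w
  unfold fx
  apply Finset.sum_congr rfl
  intro j _
  split_ifs with h1
  · rw [h _ h1]
  · rfl

lemma dl_nonneg (t : I01) : 0 ≤ dl t := Real.sqrt_nonneg _

lemma dl_le (t : I01) : dl t ≤ 1 / 2 := by
  unfold dl
  rw [Real.sqrt_le_left (by norm_num)]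
  nlinarith [sq_nonneg ((t : ℝ) - 1 / 2)]

lemma abs_fx_le (U : V × ℕ → I01) (J : ℕ) (I : Set (V × ℕ)) (x : V × ℕ → I01) (w : V) :
    |fx U J I x w| ≤ J * at' (1 / 2) := by
  unfold fx
  refine (Finset.abs_sum_le_sum_abs _ _).trans ?_
  refine (Finset.sum_le_card_nsmul _ _ (at' (1 / 2)) fun j _ => ?_).trans ?_
  · split_ifs
    · apply abs_at'_le (by norm_num)
      rw [abs_mul, abs_of_nonneg (dl_nonneg _)]
      have h1 := (x (w, j)).2.1
      have h2 := (x (w, j)).2.2
      have h3 : |2 * (x (w, j) : ℝ) - 1| ≤ 1 := by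
        rw [abs_le]; constructor <;> linarith
      have := dl_le (U (w, j))
      nlinarith [dl_nonneg (U (w, j)), abs_nonneg (2 * (x (w, j) : ℝ) - 1)]
    · rw [abs_zero]; exact at'_nonneg (by norm_num) (by norm_num)
  · rw [Finset.card_range, nsmul_eq_mul]

open Classical in
/-- keep the coordinates in `A` -/
noncomputable def rst (A : Set (V × ℕ)) (x : V × ℕ → I01) : V × ℕ → I01 := fun k =>
  if k ∈ A then x k else 0

lemma measurable_rst (A : Set (V × ℕ)) : Measurable (rst A) := by
  classical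
  rw [measurable_pi_iff]
  intro k
  unfold rst
  split_ifs
  · exact measurable_pi_apply k
  · exact measurable_const

lemma rst_mem {A : Set (V × ℕ)} {k : V × ℕ} (h : k ∈ A) (x : V × ℕ → I01) : rst A x k = x k := by
  unfold rst; rw [if_pos h]

lemma rst_rst {A B : Set (V × ℕ)} (h : A ⊆ B) (x : V × ℕ → I01) : rst A (rst B x) = rst A x := by
  funext k
  unfold rst
  split_ifs with h1 h2
  · rfl
  · exact absurd (h h1) h2
  · rfl

lemma rst_congr {A : Set (V × ℕ)} {x x' : V × ℕ → I01} (h : ∀ k ∈ A, x k = x' k) :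
    rst A x = rst A x' := by
  funext k
  unfold rst
  split_ifs with h1
  · exact h k h1
  · rfl

/-- sigma-algebra of the observations in `A` -/
noncomputable def sg (U : V × ℕ → I01) (A : Set (V × ℕ)) :
    MeasurableSpace ((V → Bool) × (V × ℕ → I01)) :=
  MeasurableSpace.comap (fun p => rst A (XU U p)) inferInstance

lemma sg_le (U : V × ℕ → I01) (A : Set (V × ℕ)) :
    sg U A ≤ (inferInstance : MeasurableSpace ((V → Bool) × (V × ℕ → I01))) :=
  ((measurable_rst A).comp (measurable_XU U)).comap_le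

/-- functions of the observations in `A` -/
def Dep (A : Set (V × ℕ)) (Z : (V × ℕ → I01) → ℝ) : Prop :=
  ∀ x x' : V × ℕ → I01, (∀ k ∈ A, x k = x' k) → Z x = Z x'

lemma Dep.mono {A B : Set (V × ℕ)} {Z : (V × ℕ → I01) → ℝ} (h : Dep A Z) (hAB : A ⊆ B) :
    Dep B Z := fun x x' hx => h x x' fun k hk => hx k (hAB hk)

lemma Dep.rst {A : Set (V × ℕ)} {Z : (V × ℕ → I01) → ℝ} (h : Dep A Z) (x : V × ℕ → I01) :
    Z (rst A x) = Z x := h _ _ fun _ hk => rst_mem hk x

lemma sg_mono (U : V × ℕ → I01) {A B : Set (V × ℕ)} (h : A ⊆ B) : sg U A ≤ sg U B := by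
  unfold sg
  have e : (fun p => rst A (XU U p)) = (rst A) ∘ (fun p => rst B (XU U p)) := by
    funext p
    exact (rst_rst h _).symm
  rw [e, ← MeasurableSpace.comap_comp]
  exact MeasurableSpace.comap_mono (measurable_rst A).comap_le

lemma measurable_sg (U : V × ℕ → I01) {A : Set (V × ℕ)} {Z : (V × ℕ → I01) → ℝ}
    (hZ : Measurable Z) (hd : Dep A Z) : Measurable[sg U A] fun p => Z (XU U p) := by
  have e : (fun p => Z (XU U p)) = Z ∘ (fun p => rst A (XU U p)) := by
    funext p
    exact (hd.rst _).symm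
  rw [e]
  exact hZ.comp (Measurable.of_comap_le le_rfl)

lemma measurable_sg_iSup (U : V × ℕ → I01) {I : Set (V × ℕ)} {A : ℕ → Set (V × ℕ)}
    (hA : ∀ k ∈ I, ∃ n, k ∈ A n)
    {Z : (V × ℕ → I01) → ℝ} (hZ : Measurable Z) (hd : Dep I Z) :
    Measurable[⨆ n, sg U (A n)] fun p => Z (XU U p) := by
  classical
  have e : (fun p => Z (XU U p)) = Z ∘ (fun p => rst I (XU U p)) := by
    funext p
    exact (hd.rst _).symm
  rw [e]
  refine hZ.comp ?_
  rw [@measurable_pi_iff]
  intro k
  by_cases hk : k ∈ I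
  · obtain ⟨n, hn⟩ := hA k hk
    have h1 : Measurable[sg U (A n)] fun p => rst I (XU U p) k := by
      have e2 : (fun p => rst I (XU U p) k) = (fun x : V × ℕ → I01 => x k) ∘
          (fun p => rst (A n) (XU U p)) := by
        funext p
        show rst I (XU U p) k = rst (A n) (XU U p) k
        rw [rst_mem hk, rst_mem hn]
      rw [e2]
      exact (measurable_pi_apply k).comp (Measurable.of_comap_le le_rfl)
    exact h1.mono (le_iSup (fun n => sg U (A n)) n) le_rfl
  · have : (fun p => rst I (XU U p) k) = fun _ => (0 : I01) := by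
      funext p
      unfold rst
      rw [if_neg hk]
    rw [this]
    exact measurable_const


variable {μ : Measure (V → Bool)}

instance : IsProbabilityMeasure (lam V) := by unfold lam; infer_instance

lemma measurable_spin (v : V) : Measurable fun p : (V → Bool) × (V × ℕ → I01) => sp (p.1 v) := by
  have : Measurable sp := measurable_of_countable _
  exact this.comp ((measurable_pi_apply v).comp measurable_fst)

lemma abs_sp' (b : Bool) : |sp b| = 1 := by cases b <;> simp [sp]

lemma integrable_bdd {α : Type*} {mα : MeasurableSpace α} {P : Measure α} [IsFiniteMeasure P]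
    {f : α → ℝ} (hf : Measurable f) {B : ℝ} (hB : ∀ x, |f x| ≤ B) : Integrable f P :=
  Integrable.of_bound hf.aestronglyMeasurable B (Eventually.of_forall hB)

/-- identification of a conditional expectation -/
lemma eq_condExp [IsProbabilityMeasure μ] (U : V × ℕ → I01) {A : Set (V × ℕ)} (v : V)
    {Y : (V × ℕ → I01) → ℝ}
    (hY : Measurable Y) (hYd : Dep A Y) {B : ℝ} (hYB : ∀ x, |Y x| ≤ B)
    (h : ∀ (Z : (V × ℕ → I01) → ℝ) (B : ℝ), Measurable Z → (∀ x, |Z x| ≤ B) → Dep A Z →
      ∫ p, (sp (p.1 v) - Y (XU U p)) * Z (XU U p) ∂(μ.prod (lam V)) = 0) :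
    (fun p => Y (XU U p)) =ᵐ[μ.prod (lam V)] (μ.prod (lam V))[fun p => sp (p.1 v) | sg U A] := by
  have hX := measurable_XU (V := V) U
  have hi1 : Integrable (fun p : (V → Bool) × (V × ℕ → I01) => sp (p.1 v)) (μ.prod (lam V)) :=
    integrable_bdd (measurable_spin v) (B := 1) fun p => (abs_sp' _).le
  have hi2 : Integrable (fun p => Y (XU U p)) (μ.prod (lam V)) :=
    integrable_bdd (hY.comp hX) fun p => hYB _
  apply ae_eq_condExp_of_forall_setIntegral_eq (sg_le U A) hi1
  · intro s _ _
    exact hi2.integrableOn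
  · rintro s ⟨t, ht, rfl⟩ _
    have hm : MeasurableSet ((fun p => rst A (XU U p)) ⁻¹' t) :=
      ((measurable_rst A).comp hX) ht
    have h1 := h (fun x => (t.indicator (fun _ => (1 : ℝ)) (rst A x))) 1
      ((measurable_const.indicator ht).comp (measurable_rst A))
      (fun x => by
        by_cases hx : rst A x ∈ t <;> simp [Set.indicator, hx])
      (fun x x' hx => by
        show t.indicator (fun _ => (1 : ℝ)) (rst A x) = t.indicator (fun _ => (1 : ℝ)) (rst A x')
        rw [rst_congr hx])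
    rw [← integral_indicator hm, ← integral_indicator hm]
    have e : ∀ p, (sp (p.1 v) - Y (XU U p)) * (t.indicator (fun _ => (1 : ℝ)) (rst A (XU U p)))
        = ((fun p => rst A (XU U p)) ⁻¹' t).indicator
            (fun p : (V → Bool) × (V × ℕ → I01) => sp (p.1 v)) p
          - ((fun p => rst A (XU U p)) ⁻¹' t).indicator (fun p => Y (XU U p)) p := by
      intro p
      by_cases hx : rst A (XU U p) ∈ t <;> simp [Set.indicator, hx]
    simp only [e] at h1
    rw [integral_sub (hi1.indicator hm) (hi2.indicator hm)] at h1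
    linarith
  · exact (measurable_sg U hY hYd).stronglyMeasurable.aestronglyMeasurable

/-- orthogonality for the conditional expectation -/
lemma orth {Ω : Type*} {m0 : MeasurableSpace Ω} {P : Measure Ω} [IsFiniteMeasure P]
    {m : MeasurableSpace Ω} (hm : m ≤ m0) {f W Mf : Ω → ℝ} (hf : Integrable f P)
    (hW : Measurable[m] W) {B : ℝ} (hB : ∀ x, |W x| ≤ B) (hM : Mf =ᵐ[P] P[f | m]) :
    ∫ x, (f x - Mf x) * W x ∂P = 0 := by
  have hWs : StronglyMeasurable[m] W := hW.stronglyMeasurable
  have hb : ∀ᵐ x ∂P, ‖W x‖ ≤ B := Eventually.of_forall fun x => hB x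
  have h1 := condExp_stronglyMeasurable_mul_of_bound hm hWs hf B hb
  have hi : Integrable (fun x => W x * f x) P := hf.bdd_mul (hWs.mono hm).aestronglyMeasurable hb
  have hi2 : Integrable (fun x => W x * (P[f | m]) x) P :=
    integrable_condExp.bdd_mul (hWs.mono hm).aestronglyMeasurable hb
  have h2 : ∫ x, W x * f x ∂P = ∫ x, W x * (P[f | m]) x ∂P := by
    rw [← integral_condExp hm (f := fun x => W x * f x)]
    exact integral_congr_ae h1
  have h3 : ∫ x, (f x - Mf x) * W x ∂P = ∫ x, (W x * f x - W x * (P[f | m]) x) ∂P := by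
    apply integral_congr_ae
    filter_upwards [hM] with x hx
    rw [hx]; ring
  rw [h3, integral_sub hi hi2, h2, sub_self]

/-- relevant events at depth `n` -/
def Av (G : SimpleGraph V) (I : Set (V × ℕ)) (u q : V) (n : ℕ) : Set (V × ℕ) :=
  {k | k ∈ I ∧ G.dist u k.1 ≤ n ∧ (u = q ∨ k.1 ∈ side G u q)}

lemma ball_finite (h : Crit G d θ) (u : V) (n : ℕ) : {w : V | G.dist u w ≤ n}.Finite := by
  have : {w : V | G.dist u w ≤ n} ⊆ ⋃ i ∈ Set.Iic n, sph G u i := by
    intro w hw
    simp only [Set.mem_iUnion]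
    refine ⟨G.dist u w, hw, ?_⟩
    show G.dist w u = G.dist u w
    exact SimpleGraph.dist_comm
  refine Set.Finite.subset ((Set.finite_Iic n).biUnion fun i _ => ?_) this
  exact sph_finite h.tree.connected (by have := h.hd; omega) h.reg u i

lemma Av_finite (h : Crit G d θ) {J : ℕ} {I : Set (V × ℕ)} (hI : ∀ k ∈ I, k.2 < J) (u q : V)
    (n : ℕ) : (Av G I u q n).Finite := by
  refine ((ball_finite h u n).prod (Set.finite_Iio J)).subset ?_
  rintro k ⟨h1, h2, _⟩
  exact ⟨h2, hI k h1⟩

lemma Av_mono {I : Set (V × ℕ)} (u q : V) : Monotone (Av G I u q) := by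
  rintro m n hmn k ⟨h1, h2, h3⟩
  exact ⟨h1, h2.trans hmn, h3⟩

lemma msg_Av (h : Crit G d θ) (U : V × ℕ → I01) (J : ℕ) (I : Set (V × ℕ)) {u q : V}
    (huq : u = q ∨ G.Adj u q) (n : ℕ) (x : V × ℕ → I01) :
    msg G θ n (fx U J I x) u q = msg G θ n (fx U J (Av G I u q n) x) u q := by
  apply msg_congr h n _ _ u q huq
  intro w h1 h2
  unfold fx
  apply Finset.sum_congr rfl
  intro j _
  have : (w, j) ∈ I ↔ (w, j) ∈ Av G I u q n :=
    ⟨fun h3 => ⟨h3, h1, h2⟩, fun h3 => h3.1⟩
  by_cases h4 : (w, j) ∈ I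
  · rw [if_pos h4, if_pos (this.1 h4)]
  · rw [if_neg h4, if_neg (fun h5 => h4 (this.2 h5))]

lemma dep_msg (h : Crit G d θ) (U : V × ℕ → I01) (J : ℕ) (I : Set (V × ℕ)) {u q : V}
    (huq : u = q ∨ G.Adj u q) (n : ℕ) :
    Dep (Av G I u q n) fun x => Real.tanh (msg G θ n (fx U J I x) u q) := by
  intro x x' hx
  show Real.tanh (msg G θ n (fx U J I x) u q) = Real.tanh (msg G θ n (fx U J I x') u q)
  rw [msg_Av h U J I huq n x, msg_Av h U J I huq n x', fx_congr U J _ hx]

lemma measurable_tmsg (U : V × ℕ → I01) (J : ℕ) (I : Set (V × ℕ)) (n : ℕ) (u q : V) :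
    Measurable fun x => Real.tanh (msg G θ n (fx U J I x) u q) :=
  measurable_tanh.comp ((measurable_msg θ n u q).comp (measurable_fx U J I))

/-- uniform bound for the messages -/
lemma bound_tmsg (h : Crit G d θ) (U : V × ℕ → I01) (J : ℕ) (I : Set (V × ℕ)) (n : ℕ) (u q : V)
    (x : V × ℕ → I01) :
    |msg G θ n (fx U J I x) u q| ≤ J * at' (1 / 2) + d * at' θ :=
  (abs_msg_le h n _ u q).trans (by have := abs_fx_le U J I x u; linarith)

lemma tanh_mono {x y : ℝ} (h : x ≤ y) : Real.tanh x ≤ Real.tanh y := by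
  by_contra h1
  push Not at h1
  have h2 := at'_mono (Real.neg_one_lt_tanh y) (Real.tanh_lt_one x) h1.le
  rw [at'_tanh, at'_tanh] at h2
  have : x = y := le_antisymm h h2
  rw [this] at h1
  exact lt_irrefl _ h1

lemma abs_tanh_le {x B : ℝ} (h : |x| ≤ B) : |Real.tanh x| ≤ Real.tanh B := by
  have h1 := abs_le.1 h
  rw [abs_le]
  constructor
  · rw [← Real.tanh_neg]; exact tanh_mono h1.1
  · exact tanh_mono h1.2

/-- the finite posterior, restated -/
lemma pfin' (hP : S_PFIN.{u}) (h : Crit G d θ) (hμ : IsFreeIsing G θ μ)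
    (U : V × ℕ → I01) (J : ℕ) (I : Set (V × ℕ)) (hI : ∀ k ∈ I, k.2 < J) {u q : V}
    (huq : u = q ∨ G.Adj u q) (n : ℕ) (Z : (V × ℕ → I01) → ℝ) (B : ℝ) (hZ : Measurable Z)
    (hB : ∀ x, |Z x| ≤ B) (hd : Dep (Av G I u q n) Z) :
    ∫ p, (sp (p.1 u) - Real.tanh (msg G θ n (fx U J I (XU U p)) u q)) * Z (XU U p)
      ∂(μ.prod (lam V)) = 0 := by
  have hfin := Av_finite h hI u q n
  have h1 := hP h hμ U J n hfin.toFinset u q
    (fun k hk => by
      rw [Set.Finite.mem_toFinset] at hk
      exact ⟨hI k hk.1, hk.2.1⟩)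
    (by
      rcases huq with h2 | h2
      · exact Or.inl h2
      · refine Or.inr ⟨h2, fun k hk => ?_⟩
        rw [Set.Finite.mem_toFinset] at hk
        rcases hk.2.2 with h3 | h3
        · exact absurd h3 h2.ne
        · exact h3) Z B hZ hB
    (fun x x' hx => hd x x' fun k hk => hx k (by rw [Set.Finite.mem_toFinset]; exact hk))
  rw [Set.Finite.coe_toFinset] at h1
  rw [← h1]
  apply integral_congr_ae
  refine Eventually.of_forall fun p => ?_
  show (sp (p.1 u) - Real.tanh (msg G θ n (fx U J I (XU U p)) u q)) * Z (XU U p) =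
    (sp (p.1 u) - Real.tanh (msg G θ n (fx U J (Av G I u q n) (XU U p)) u q)) * Z (XU U p)
  rw [msg_Av h U J I huq n]

/-- convergence for one (oriented) edge or vertex -/
lemma conv (hP : S_PFIN.{u}) (h : Crit G d θ) (hμ : IsFreeIsing G θ μ) [IsProbabilityMeasure μ]
    (U : V × ℕ → I01) (J : ℕ) (I : Set (V × ℕ)) (hI : ∀ k ∈ I, k.2 < J) {u q : V}
    (huq : u = q ∨ G.Adj u q) :
    ∀ᵐ p ∂(μ.prod (lam V)), Tendsto (fun n => msg G θ n (fx U J I (XU U p)) u q)
        atTop (𝓝 (Lm G θ (fx U J I (XU U p)) u q)) ∧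
      Real.tanh (Lm G θ (fx U J I (XU U p)) u q)
        = ((μ.prod (lam V))[fun p => sp (p.1 u) | ⨆ n, sg U (Av G I u q n)]) p := by
  classical
  have key : ∀ n, (fun p => Real.tanh (msg G θ n (fx U J I (XU U p)) u q))
      =ᵐ[μ.prod (lam V)] (μ.prod (lam V))[fun p => sp (p.1 u) | sg U (Av G I u q n)] := by
    intro n
    apply eq_condExp U u (Y := fun x => Real.tanh (msg G θ n (fx U J I x) u q))
      (measurable_tmsg U J I n u q) (dep_msg h U J I huq n) (B := 1)
      (fun x => (Real.abs_tanh_lt_one _).le)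
    intro Z B hZ hB hd
    exact pfin' hP h hμ U J I hI huq n Z B hZ hB hd
  let ℱ : Filtration ℕ (inferInstance : MeasurableSpace ((V → Bool) × (V × ℕ → I01))) :=
    { seq := fun n => sg U (Av G I u q n)
      mono' := fun m n hmn => sg_mono U (Av_mono u q hmn)
      le' := fun n => sg_le U _ }
  have hL := tendsto_ae_condExp (μ := μ.prod (lam V)) (ℱ := ℱ) (fun p => sp (p.1 u))
  have hall : ∀ᵐ p ∂(μ.prod (lam V)), ∀ n, Real.tanh (msg G θ n (fx U J I (XU U p)) u q)
      = ((μ.prod (lam V))[fun p => sp (p.1 u) | sg U (Av G I u q n)]) p := ae_all_iff.2 key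
  filter_upwards [hL, hall] with p h1 h2
  have h3 : Tendsto (fun n => Real.tanh (msg G θ n (fx U J I (XU U p)) u q)) atTop
      (𝓝 (((μ.prod (lam V))[fun p => sp (p.1 u) | ⨆ n, sg U (Av G I u q n)]) p)) := by
    refine Tendsto.congr (fun n => (h2 n).symm) h1
  set l := ((μ.prod (lam V))[fun p => sp (p.1 u) | ⨆ n, sg U (Av G I u q n)]) p with hl
  have h4 : |l| ≤ Real.tanh (J * at' (1 / 2) + d * at' θ) := by
    refine le_of_tendsto h3.abs (Eventually.of_forall fun n => ?_)
    exact abs_tanh_le (bound_tmsg h U J I n u q _)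
  have h5 : |l| < 1 := h4.trans_lt (Real.tanh_lt_one _)
  have h6 : Tendsto (fun n => msg G θ n (fx U J I (XU U p)) u q) atTop (𝓝 (at' l)) := by
    have := (continuousAt_at' h5).tendsto.comp h3
    refine Tendsto.congr (fun n => ?_) this
    exact at'_tanh _
  have h7 := Lm_of_tendsto h6
  rw [h7]
  exact ⟨h6, tanh_at' h5⟩

lemma measurable_Lm (θ : ℝ) (u p : V) : Measurable fun y : V → ℝ => Lm G θ y u p := by
  unfold Lm
  have h1 : Measurable fun y : V → ℝ => limsup (fun n => msg G θ n y u p) atTop :=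
    Measurable.limsup fun n => measurable_msg θ n u p
  have h2 : Measurable fun y : V → ℝ => liminf (fun n => msg G θ n y u p) atTop :=
    Measurable.liminf fun n => measurable_msg θ n u p
  exact (h1.add h2).div_const 2

lemma measurable_Mx (U : V × ℕ → I01) (J : ℕ) (I : Set (V × ℕ)) (v : V) :
    Measurable fun x => Mm G θ (fx U J I x) v v :=
  measurable_tanh.comp ((measurable_Lm θ v v).comp (measurable_fx U J I))

lemma dep_Mx (U : V × ℕ → I01) (J : ℕ) (I : Set (V × ℕ)) (v : V) :
    Dep I fun x => Mm G θ (fx U J I x) v v := by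
  intro x x' hx
  show Mm G θ (fx U J I x) v v = Mm G θ (fx U J I x') v v
  rw [fx_congr U J I hx]

lemma abs_Mm_le (y : V → ℝ) (u p : V) : |Mm G θ y u p| ≤ 1 := (Real.abs_tanh_lt_one _).le

/-- part 2 -/
lemma part2 (hP : S_PFIN.{u}) (h : Crit G d θ) (hμ : IsFreeIsing G θ μ) [IsProbabilityMeasure μ]
    (U : V × ℕ → I01) (J : ℕ) (I : Set (V × ℕ)) (hI : ∀ k ∈ I, k.2 < J) (v : V)
    (Z : (V × ℕ → I01) → ℝ) (B : ℝ) (hZ : Measurable Z)
    (hB : ∀ x, |Z x| ≤ B) (hd : Dep I Z) :
    ∫ p, (sp (p.1 v) - Mm G θ (fx U J I (XU U p)) v v) * Z (XU U p) ∂(μ.prod (lam V)) = 0 := by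
  have h1 := conv hP h hμ U J I hI (u := v) (q := v) (Or.inl rfl)
  have hle : (⨆ n, sg U (Av G I v v n))
      ≤ (inferInstance : MeasurableSpace ((V → Bool) × (V × ℕ → I01))) :=
    iSup_le fun n => sg_le U _
  apply orth hle (W := fun p => Z (XU U p))
    (integrable_bdd (measurable_spin v) (B := 1) fun p => (abs_sp' _).le)
    (measurable_sg_iSup U (I := I) (A := Av G I v v)
      (fun k hk => ⟨G.dist v k.1, hk, le_rfl, Or.inl rfl⟩) hZ hd) (fun p => hB _)
  filter_upwards [h1] with p hp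
  exact hp.2

lemma int_expand {Ω : Type*} {m0 : MeasurableSpace Ω} {P : Measure Ω} {a b c e : Ω → ℝ}
    (ha : Integrable a P) (hb : Integrable b P) (hc : Integrable c P) (he : Integrable e P) :
    ∫ p, (a p + (b p + 2 * (c p - e p))) ∂P
      = ∫ p, a p ∂P + (∫ p, b p ∂P + 2 * (∫ p, c p ∂P - ∫ p, e p ∂P)) := by
  have h1 : Integrable (fun p => c p - e p) P := hc.sub he
  have h2 : Integrable (fun p => 2 * (c p - e p)) P := h1.const_mul 2
  have h3 : Integrable (fun p => b p + 2 * (c p - e p)) P := hb.add h2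
  rw [integral_add ha h3, integral_add hb h2, integral_const_mul, integral_sub hc he]

/-- monotonicity of the errors -/
lemma mono_err (hP : S_PFIN.{u}) (h : Crit G d θ) (hμ : IsFreeIsing G θ μ) [IsProbabilityMeasure μ]
    (U : V × ℕ → I01) (J : ℕ) {A B I : Set (V × ℕ)} (hAB : A ⊆ B) (hBI : B ⊆ I)
    (hI : ∀ k ∈ I, k.2 < J) (v : V) :
    ∫ p, (Mm G θ (fx U J I (XU U p)) v v - Mm G θ (fx U J B (XU U p)) v v) ^ 2 ∂(μ.prod (lam V))
      ≤ ∫ p, (Mm G θ (fx U J I (XU U p)) v v - Mm G θ (fx U J A (XU U p)) v v) ^ 2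
          ∂(μ.prod (lam V)) := by
  have hX := measurable_XU (V := V) U
  have mI : Measurable fun p => Mm G θ (fx U J I (XU U p)) v v := (measurable_Mx U J I v).comp hX
  have mA : Measurable fun p => Mm G θ (fx U J A (XU U p)) v v := (measurable_Mx U J A v).comp hX
  have mB : Measurable fun p => Mm G θ (fx U J B (XU U p)) v v := (measurable_Mx U J B v).comp hX
  have bI := fun p => abs_le.1 (abs_Mm_le (G := G) (θ := θ) (fx U J I (XU U p)) v v)
  have bA := fun p => abs_le.1 (abs_Mm_le (G := G) (θ := θ) (fx U J A (XU U p)) v v)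
  have bB := fun p => abs_le.1 (abs_Mm_le (G := G) (θ := θ) (fx U J B (XU U p)) v v)
  have ms := measurable_spin (V := V) v
  have bs := fun p : (V → Bool) × (V × ℕ → I01) => abs_le.1 (abs_sp' (p.1 v)).le
  have hz1 := part2 hP h hμ U J B (fun k hk => hI k (hBI hk)) v
    (fun x => Mm G θ (fx U J B x) v v - Mm G θ (fx U J A x) v v) 2
    ((measurable_Mx U J B v).sub (measurable_Mx U J A v))
    (fun x => by
      have h1 := abs_le.1 (abs_Mm_le (G := G) (θ := θ) (fx U J B x) v v)
      have h2 := abs_le.1 (abs_Mm_le (G := G) (θ := θ) (fx U J A x) v v)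
      rw [abs_le]; constructor <;> linarith [h1.1, h1.2, h2.1, h2.2])
    (fun x x' hx => by
      have h1 := dep_Mx (G := G) (θ := θ) U J B v x x' hx
      have h2 := dep_Mx (G := G) (θ := θ) U J A v x x' (fun k hk => hx k (hAB hk))
      simp only at h1 h2 ⊢
      rw [h1, h2])
  have hz2 := part2 hP h hμ U J I hI v
    (fun x => Mm G θ (fx U J B x) v v - Mm G θ (fx U J A x) v v) 2
    ((measurable_Mx U J B v).sub (measurable_Mx U J A v))
    (fun x => by
      have h1 := abs_le.1 (abs_Mm_le (G := G) (θ := θ) (fx U J B x) v v)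
      have h2 := abs_le.1 (abs_Mm_le (G := G) (θ := θ) (fx U J A x) v v)
      rw [abs_le]; constructor <;> linarith [h1.1, h1.2, h2.1, h2.2])
    (fun x x' hx => by
      have h1 := dep_Mx (G := G) (θ := θ) U J B v x x' (fun k hk => hx k (hBI hk))
      have h2 := dep_Mx (G := G) (θ := θ) U J A v x x' (fun k hk => hx k (hBI (hAB hk)))
      simp only at h1 h2 ⊢
      rw [h1, h2])
  set P := μ.prod (lam V) with hPdef
  have i1 : Integrable (fun p => (sp (p.1 v) - Mm G θ (fx U J B (XU U p)) v v)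
      * (Mm G θ (fx U J B (XU U p)) v v - Mm G θ (fx U J A (XU U p)) v v)) P :=
    integrable_bdd ((ms.sub mB).mul (mB.sub mA)) (B := 2 * 2) fun p => by
      rw [abs_mul]
      apply mul_le_mul _ _ (abs_nonneg _) (by norm_num)
      · rw [abs_le]; constructor <;> linarith [(bB p).1, (bB p).2, (bs p).1, (bs p).2]
      · rw [abs_le]; constructor <;> linarith [(bB p).1, (bB p).2, (bA p).1, (bA p).2]
  have i2 : Integrable (fun p => (sp (p.1 v) - Mm G θ (fx U J I (XU U p)) v v)
      * (Mm G θ (fx U J B (XU U p)) v v - Mm G θ (fx U J A (XU U p)) v v)) P :=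
    integrable_bdd ((ms.sub mI).mul (mB.sub mA)) (B := 2 * 2) fun p => by
      rw [abs_mul]
      apply mul_le_mul _ _ (abs_nonneg _) (by norm_num)
      · rw [abs_le]; constructor <;> linarith [(bI p).1, (bI p).2, (bs p).1, (bs p).2]
      · rw [abs_le]; constructor <;> linarith [(bB p).1, (bB p).2, (bA p).1, (bA p).2]
  have i3 : Integrable (fun p => (Mm G θ (fx U J I (XU U p)) v v
      - Mm G θ (fx U J B (XU U p)) v v) ^ 2) P :=
    integrable_bdd ((mI.sub mB).pow_const 2) (B := 4) fun p => by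
      rw [abs_of_nonneg (sq_nonneg _)]
      nlinarith [(bB p).1, (bB p).2, (bI p).1, (bI p).2]
  have i4 : Integrable (fun p => (Mm G θ (fx U J B (XU U p)) v v
      - Mm G θ (fx U J A (XU U p)) v v) ^ 2) P :=
    integrable_bdd ((mB.sub mA).pow_const 2) (B := 4) fun p => by
      rw [abs_of_nonneg (sq_nonneg _)]
      nlinarith [(bB p).1, (bB p).2, (bA p).1, (bA p).2]
  have e : ∀ p, (Mm G θ (fx U J I (XU U p)) v v - Mm G θ (fx U J A (XU U p)) v v) ^ 2
      = (Mm G θ (fx U J I (XU U p)) v v - Mm G θ (fx U J B (XU U p)) v v) ^ 2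
        + ((Mm G θ (fx U J B (XU U p)) v v - Mm G θ (fx U J A (XU U p)) v v) ^ 2
        + 2 * ((sp (p.1 v) - Mm G θ (fx U J B (XU U p)) v v)
            * (Mm G θ (fx U J B (XU U p)) v v - Mm G θ (fx U J A (XU U p)) v v)
          - (sp (p.1 v) - Mm G θ (fx U J I (XU U p)) v v)
            * (Mm G θ (fx U J B (XU U p)) v v - Mm G θ (fx U J A (XU U p)) v v))) := by
    intro p; ring
  simp only [e]
  rw [int_expand i3 i4 i1 i2, hz1, hz2]
  have : 0 ≤ ∫ p, (Mm G θ (fx U J B (XU U p)) v v
      - Mm G θ (fx U J A (XU U p)) v v) ^ 2 ∂P := integral_nonneg fun p => sq_nonneg _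
  linarith

/-- the magnetisation for a finite ball -/
lemma ae_fin (hP : S_PFIN.{u}) (h : Crit G d θ) (hμ : IsFreeIsing G θ μ) [IsProbabilityMeasure μ]
    (U : V × ℕ → I01) (J : ℕ) (I : Set (V × ℕ)) (hI : ∀ k ∈ I, k.2 < J) (v : V) (n : ℕ) :
    ∀ᵐ p ∂(μ.prod (lam V)), Mm G θ (fx U J (Av G I v v n) (XU U p)) v v
      = Real.tanh (msg G θ n (fx U J I (XU U p)) v v) := by
  have hX := measurable_XU (V := V) U
  set A := Av G I v v n with hA
  have mA : Measurable fun p => Mm G θ (fx U J A (XU U p)) v v := (measurable_Mx U J A v).comp hX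
  have mt : Measurable fun p => Real.tanh (msg G θ n (fx U J I (XU U p)) v v) :=
    (measurable_tmsg U J I n v v).comp hX
  have bA := fun p => abs_le.1 (abs_Mm_le (G := G) (θ := θ) (fx U J A (XU U p)) v v)
  have bt := fun p => abs_le.1 (Real.abs_tanh_lt_one (msg G θ n (fx U J I (XU U p)) v v)).le
  have ms := measurable_spin (V := V) v
  have bs := fun p : (V → Bool) × (V × ℕ → I01) => abs_le.1 (abs_sp' (p.1 v)).le
  have hAI : ∀ k ∈ A, k.2 < J := fun k hk => hI k hk.1
  have mZ : Measurable fun x => Mm G θ (fx U J A x) v v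
      - Real.tanh (msg G θ n (fx U J I x) v v) :=
    (measurable_Mx U J A v).sub (measurable_tmsg U J I n v v)
  have bZ : ∀ x, |Mm G θ (fx U J A x) v v - Real.tanh (msg G θ n (fx U J I x) v v)| ≤ 2 := by
    intro x
    have h1 := abs_le.1 (abs_Mm_le (G := G) (θ := θ) (fx U J A x) v v)
    have h2 := abs_le.1 (Real.abs_tanh_lt_one (msg G θ n (fx U J I x) v v)).le
    rw [abs_le]; constructor <;> linarith [h1.1, h1.2, h2.1, h2.2]
  have dZ : Dep A fun x => Mm G θ (fx U J A x) v v
      - Real.tanh (msg G θ n (fx U J I x) v v) := by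
    intro x x' hx
    have h1 := dep_Mx (G := G) (θ := θ) U J A v x x' hx
    have h2 := dep_msg h U J I (u := v) (q := v) (Or.inl rfl) n x x' hx
    simp only at h1 h2 ⊢
    rw [h1, h2]
  have hz1 := part2 hP h hμ U J A hAI v _ 2 mZ bZ dZ
  have hz2 := pfin' hP h hμ U J I hI (u := v) (q := v) (Or.inl rfl) n _ 2 mZ bZ dZ
  set P := μ.prod (lam V) with hPdef
  have i1 : Integrable (fun p => (sp (p.1 v) - Mm G θ (fx U J A (XU U p)) v v)
      * (Mm G θ (fx U J A (XU U p)) v v - Real.tanh (msg G θ n (fx U J I (XU U p)) v v))) P :=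
    integrable_bdd ((ms.sub mA).mul (mA.sub mt)) (B := 2 * 2) fun p => by
      rw [abs_mul]
      apply mul_le_mul _ _ (abs_nonneg _) (by norm_num)
      · rw [abs_le]; constructor <;> linarith [(bA p).1, (bA p).2, (bs p).1, (bs p).2]
      · exact bZ _
  have i2 : Integrable (fun p => (sp (p.1 v) - Real.tanh (msg G θ n (fx U J I (XU U p)) v v))
      * (Mm G θ (fx U J A (XU U p)) v v - Real.tanh (msg G θ n (fx U J I (XU U p)) v v))) P :=
    integrable_bdd ((ms.sub mt).mul (mA.sub mt)) (B := 2 * 2) fun p => by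
      rw [abs_mul]
      apply mul_le_mul _ _ (abs_nonneg _) (by norm_num)
      · rw [abs_le]; constructor <;> linarith [(bt p).1, (bt p).2, (bs p).1, (bs p).2]
      · exact bZ _
  have i3 : Integrable (fun p => (Mm G θ (fx U J A (XU U p)) v v
      - Real.tanh (msg G θ n (fx U J I (XU U p)) v v)) ^ 2) P :=
    integrable_bdd ((mA.sub mt).pow_const 2) (B := 4) fun p => by
      rw [abs_of_nonneg (sq_nonneg _)]
      nlinarith [(bA p).1, (bA p).2, (bt p).1, (bt p).2]
  have hz : ∫ p, (Mm G θ (fx U J A (XU U p)) v v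
      - Real.tanh (msg G θ n (fx U J I (XU U p)) v v)) ^ 2 ∂P = 0 := by
    have e : ∀ p, (Mm G θ (fx U J A (XU U p)) v v
        - Real.tanh (msg G θ n (fx U J I (XU U p)) v v)) ^ 2
        = (sp (p.1 v) - Real.tanh (msg G θ n (fx U J I (XU U p)) v v))
            * (Mm G θ (fx U J A (XU U p)) v v - Real.tanh (msg G θ n (fx U J I (XU U p)) v v))
          - (sp (p.1 v) - Mm G θ (fx U J A (XU U p)) v v)
            * (Mm G θ (fx U J A (XU U p)) v v
              - Real.tanh (msg G θ n (fx U J I (XU U p)) v v)) := by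
      intro p; ring
    simp only [e]
    rw [integral_sub i2 i1, hz1, hz2, sub_zero]
  rw [integral_eq_zero_iff_of_nonneg (fun p => sq_nonneg _) i3] at hz
  filter_upwards [hz] with p hp
  have : (Mm G θ (fx U J A (XU U p)) v v
      - Real.tanh (msg G θ n (fx U J I (XU U p)) v v)) ^ 2 = 0 := hp
  have := pow_eq_zero_iff (two_ne_zero) |>.1 this
  linarith

end Vale.Agent.P161C.PO

namespace Vale.Agent.P161C

open MeasureTheory Vale.Agent.P161 Filter Topology PO

universe u

theorem post (hP : S_PFIN.{u}) : S_POST.{u} := by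
  intro V G d θ h μ hμ U J I hI
  have hcount : Countable V := PO.Crit.countable h
  rcases isEmpty_or_nonempty V with hV | hV
  · -- impossible
    exfalso
    obtain ⟨v⟩ := h.tree.connected.nonempty
    exact hV.elim v
  have hprob : IsProbabilityMeasure μ := isProb_of_isFreeIsing hμ
  refine ⟨?_, ?_, ?_⟩
  · have h1 : ∀ᵐ p ∂(μ.prod (lam V)), ∀ u q, (u = q ∨ G.Adj u q) →
        Tendsto (fun n => msg G θ n (fx U J I (XU U p)) u q)
        atTop (𝓝 (Lm G θ (fx U J I (XU U p)) u q)) := by
      rw [ae_all_iff]; intro u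
      rw [ae_all_iff]; intro q
      by_cases huq : u = q ∨ G.Adj u q
      · filter_upwards [conv hP h hμ U J I hI huq] with p hp
        intro _
        exact hp.1
      · exact Eventually.of_forall fun p h2 => absurd h2 huq
    filter_upwards [h1] with p hp
    intro u q
    show Tendsto (fun n => msg G θ n (fx U J I (XU U p)) u q)
        atTop (𝓝 (Lm G θ (fx U J I (XU U p)) u q))
    by_cases huq : u = q ∨ G.Adj u q
    · exact hp u q huq
    · push Not at huq
      have e : ∀ n, msg G θ n (fx U J I (XU U p)) u q = msg G θ n (fx U J I (XU U p)) u u :=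
        fun n => msg_nonadj h n _ huq.2
      have e2 : Lm G θ (fx U J I (XU U p)) u q = Lm G θ (fx U J I (XU U p)) u u := by
        unfold Lm
        simp only [e]
      simp only [e, e2]
      exact hp u u (Or.inl rfl)
  · intro v Z B hZ hB hd
    exact part2 hP h hμ U J I hI v Z B hZ hB hd
  · intro v In hIn hev
    show Tendsto (fun n => ∫ p, (Mm G θ (fx U J I (XU U p)) v v
      - Mm G θ (fx U J (In n) (XU U p)) v v) ^ 2 ∂(μ.prod (lam V))) atTop (𝓝 0)
    have hX := measurable_XU (V := V) U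
    have h0 : Tendsto (fun n => ∫ p, (Mm G θ (fx U J I (XU U p)) v v
        - Real.tanh (msg G θ n (fx U J I (XU U p)) v v)) ^ 2 ∂(μ.prod (lam V))) atTop (𝓝 0) := by
      have : (0 : ℝ) = ∫ p : (V → Bool) × (V × ℕ → I01), (0 : ℝ) ∂(μ.prod (lam V)) := by simp
      rw [this]
      apply tendsto_integral_of_dominated_convergence (fun _ => 4)
      · intro n
        exact ((((measurable_Mx U J I v).comp hX).sub
          ((measurable_tmsg U J I n v v).comp hX)).pow_const 2).aestronglyMeasurable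
      · exact integrable_const _
      · intro n
        refine Eventually.of_forall fun p => ?_
        rw [Real.norm_eq_abs, abs_of_nonneg (sq_nonneg _)]
        have h1 := abs_le.1 (abs_Mm_le (G := G) (θ := θ) (fx U J I (XU U p)) v v)
        have h2 := abs_le.1 (Real.abs_tanh_lt_one (msg G θ n (fx U J I (XU U p)) v v)).le
        nlinarith [h1.1, h1.2, h2.1, h2.2]
      · filter_upwards [conv hP h hμ U J I hI (u := v) (q := v) (Or.inl rfl)] with p hp
        have h1 := (continuous_tanh.tendsto _).comp hp.1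
        have h2 : Tendsto (fun n => (Mm G θ (fx U J I (XU U p)) v v
          - Real.tanh (msg G θ n (fx U J I (XU U p)) v v)) ^ 2) atTop
            (𝓝 ((Mm G θ (fx U J I (XU U p)) v v
              - Real.tanh (Lm G θ (fx U J I (XU U p)) v v)) ^ 2)) :=
          (tendsto_const_nhds.sub h1).pow 2
        have e : (Mm G θ (fx U J I (XU U p)) v v
              - Real.tanh (Lm G θ (fx U J I (XU U p)) v v)) ^ 2 = 0 := by
          unfold Mm; ring
        rw [e] at h2
        exact h2
    have h1 : ∀ m, ∫ p, (Mm G θ (fx U J I (XU U p)) v v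
        - Mm G θ (fx U J (Av G I v v m) (XU U p)) v v) ^ 2 ∂(μ.prod (lam V))
        = ∫ p, (Mm G θ (fx U J I (XU U p)) v v
        - Real.tanh (msg G θ m (fx U J I (XU U p)) v v)) ^ 2 ∂(μ.prod (lam V)) := by
      intro m
      apply integral_congr_ae
      filter_upwards [ae_fin hP h hμ U J I hI v m] with p hp
      rw [hp]
    rw [tendsto_order]
    constructor
    · intro a ha
      exact Eventually.of_forall fun n => ha.trans_le (integral_nonneg fun p => sq_nonneg _)
    · intro a ha
      obtain ⟨m, hm⟩ := ((tendsto_order.1 h0).2 a ha).exists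
      have hfin := Av_finite h hI v v m
      have h2 : ∀ᶠ n in atTop, ∀ k ∈ Av G I v v m, k ∈ In n :=
        (Filter.eventually_all_finite hfin).2 fun k hk => hev k hk.1
      filter_upwards [h2] with n hn
      refine lt_of_le_of_lt ?_ hm
      rw [← h1 m]
      exact mono_err hP h hμ U J (A := Av G I v v m) (B := In n) (fun k hk => hn k hk) (hIn n) hI v

end Vale.Agent.P161C
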