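import Vale.Agent.P161C.Defs

/-!
# P161 critical point: quantities at the random time of an event

`lintegral_kap_le`: for a functional `F t ω` that depends only on the events before time `t`,
the integral of `g(U_k) (1 - U_k) F(κ_k, ω)` is at most the integral over `t` of `g t` times the
integral of `F(j + t, ω)`.
-/

namespace Vale.Agent.P161C.RT

open MeasureTheory Vale.Agent.P161 Filter Topology

variable {V : Type*}

open scoped Classical

/-- change the label of the event `k` -/
noncomputable def updU (ω : Om V) (k : V × ℕ) (x : I01) : Om V :=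
  (ω.1, (Function.update ω.2.1 k x, ω.2.2))

lemma updU_label (ω : Om V) (k : V × ℕ) (x : I01) : (updU ω k x).2.1 k = x := by
  simp [updU]

lemma updU_label_ne (ω : Om V) {k l : V × ℕ} (h : l ≠ k) (x : I01) :
    (updU ω k x).2.1 l = ω.2.1 l := by
  simp [updU, Function.update_of_ne h]

lemma updU_self (ω : Om V) (k : V × ℕ) : updU ω k (ω.2.1 k) = ω := by
  simp [updU]

lemma updU_updU (ω : Om V) (k : V × ℕ) (x y : I01) : updU (updU ω k x) k y = updU ω k y := by
  simp [updU]

lemma kap_updU_self (ω : Om V) (k : V × ℕ) (x : I01) : kap (updU ω k x).2.1 k = k.2 + (x : ℝ) := by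
  simp [kap, updU_label]

lemma kap_updU_ne (ω : Om V) {k l : V × ℕ} (h : l ≠ k) (x : I01) :
    kap (updU ω k x).2.1 l = kap ω.2.1 l := by
  simp [kap, updU_label_ne ω h]

lemma measurable_updU (k : V × ℕ) : Measurable fun p : Om V × I01 => updU p.1 k p.2 := by
  unfold updU
  have h : Measurable fun p : (V × ℕ → I01) × I01 => Function.update p.1 k p.2 :=
    measurable_upd k
  have h2 : Measurable fun p : Om V × I01 => (p.1.2.1, p.2) := by fun_prop
  have h3 := h.comp h2
  exact Measurable.prodMk (by fun_prop) (Measurable.prodMk h3 (by fun_prop))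

lemma measurable_updU' (k : V × ℕ) (x : I01) : Measurable fun ω : Om V => updU ω k x :=
  (measurable_updU k).comp (measurable_id.prodMk measurable_const)

lemma measurable_kap (k : V × ℕ) : Measurable fun ω : Om V => kap ω.2.1 k := by
  unfold kap
  fun_prop

variable {μ : Measure (V → Bool)} [IsProbabilityMeasure μ]

instance instPP : IsProbabilityMeasure (PP μ) := by unfold PP; infer_instance

omit [IsProbabilityMeasure μ] in
/-- resampling the label of the event `k` -/
lemma lintegral_updU (k : V × ℕ) (f : Om V → ENNReal) (hf : Measurable f) :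
    ∫⁻ ω, f ω ∂(PP μ) = ∫⁻ ω, (∫⁻ t : I01, f (updU ω k t)) ∂(PP μ) := by
  unfold PP
  rw [lintegral_prod _ hf.aemeasurable, lintegral_prod _ (by
    have : Measurable fun ω : Om V => ∫⁻ t : I01, f (updU ω k t) :=
      Measurable.lintegral_prod_right' (f := fun p : Om V × I01 => f (updU p.1 k p.2))
        (hf.comp (measurable_updU k))
    exact this.aemeasurable)]
  apply lintegral_congr
  intro σ
  have hfσ : Measurable fun q : (V × ℕ → I01) × (V × ℕ → I01) => f (σ, q) :=
    hf.comp (measurable_const.prodMk measurable_id)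
  have h1 : Measurable fun q : (V × ℕ → I01) × (V × ℕ → I01) =>
      ∫⁻ t : I01, f (updU (σ, q) k t) := by
    have h := Measurable.lintegral_prod_right' (ν := (volume : Measure I01))
      (f := fun p : ((V × ℕ → I01) × (V × ℕ → I01)) × I01 =>
      f (updU (σ, p.1) k p.2)) (hf.comp ((measurable_updU k).comp
        ((measurable_const.prodMk measurable_fst).prodMk measurable_snd)))
    exact h
  rw [lintegral_prod_symm _ hfσ.aemeasurable, lintegral_prod_symm _ h1.aemeasurable]
  apply lintegral_congr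
  intro N
  have hfN : Measurable fun U : V × ℕ → I01 => f (σ, (U, N)) :=
    hf.comp (measurable_const.prodMk (measurable_id.prodMk measurable_const))
  have h2 := lintegral_upd (ι := V × ℕ) k (fun U => f (σ, (U, N))) hfN
  rw [lam_eq, h2]
  rfl

lemma lintegral_updU_swap (k : V × ℕ) (f : Om V → ENNReal) (hf : Measurable f) :
    ∫⁻ ω, f ω ∂(PP μ) = ∫⁻ t : I01, (∫⁻ ω, f (updU ω k t) ∂(PP μ)) := by
  rw [lintegral_updU k f hf]
  exact lintegral_lintegral_swap (hf.comp (measurable_updU k)).aemeasurable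

lemma volume_Ici (t : I01) : (volume : Measure I01) (Set.Ici t) = ENNReal.ofReal (1 - t) := by
  rw [unitInterval.volume_Ici]

/-- the random-time inequality -/
theorem lintegral_kap_le (k : V × ℕ) (F : ℝ → Om V → ENNReal)
    (hF : Measurable (Function.uncurry F))
    (hdep : ∀ (t : ℝ) (ω : Om V) (x : I01), t ≤ kap ω.2.1 k → t ≤ k.2 + (x : ℝ) →
      F t (updU ω k x) = F t ω) (g : I01 → ENNReal) (hg : Measurable g) :
    ∫⁻ ω, g (ω.2.1 k) * ENNReal.ofReal (1 - (ω.2.1 k : ℝ)) * F (kap ω.2.1 k) ω ∂(PP μ)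
      ≤ ∫⁻ t : I01, g t * ∫⁻ ω, F (k.2 + (t : ℝ)) ω ∂(PP μ) := by
  have hm : Measurable fun ω : Om V => F (kap ω.2.1 k) ω :=
    hF.comp ((measurable_kap k).prodMk measurable_id)
  have hm2 : Measurable fun ω : Om V =>
      g (ω.2.1 k) * ENNReal.ofReal (1 - (ω.2.1 k : ℝ)) * F (kap ω.2.1 k) ω := by
    refine Measurable.mul (Measurable.mul (hg.comp (by fun_prop)) ?_) hm
    fun_prop
  rw [lintegral_updU_swap k _ hm2]
  apply lintegral_mono
  intro t
  dsimp only
  have hFt : Measurable (F (k.2 + (t : ℝ))) := hF.comp (measurable_const.prodMk measurable_id)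
  have hFu : Measurable fun ω : Om V => F (k.2 + (t : ℝ)) (updU ω k t) :=
    hFt.comp (measurable_updU' k t)
  have e1 : ∀ ω : Om V, g ((updU ω k t).2.1 k) * ENNReal.ofReal (1 - ((updU ω k t).2.1 k : ℝ))
      * F (kap (updU ω k t).2.1 k) (updU ω k t)
      = g t * (ENNReal.ofReal (1 - (t : ℝ)) * F (k.2 + (t : ℝ)) (updU ω k t)) := by
    intro ω
    rw [updU_label, kap_updU_self, mul_assoc]
  simp_rw [e1]
  rw [lintegral_const_mul _ (hFu.const_mul _)]
  refine mul_le_mul_right ?_ (g t)
  -- independence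
  have key : ∫⁻ ω, (Set.Ici t).indicator (fun _ => (1 : ENNReal)) (ω.2.1 k)
      * F (k.2 + (t : ℝ)) (updU ω k t) ∂(PP μ)
      = ENNReal.ofReal (1 - (t : ℝ)) * ∫⁻ ω, F (k.2 + (t : ℝ)) (updU ω k t) ∂(PP μ) := by
    have hind : Measurable fun x : I01 => (Set.Ici t).indicator (fun _ => (1 : ENNReal)) x :=
      measurable_const.indicator measurableSet_Ici
    have hind' : Measurable fun ω : Om V =>
        (Set.Ici t).indicator (fun _ => (1 : ENNReal)) (ω.2.1 k) := by
      exact hind.comp (by fun_prop)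
    have hprod : Measurable fun ω : Om V =>
        (Set.Ici t).indicator (fun _ => (1 : ENNReal)) (ω.2.1 k)
          * F (k.2 + (t : ℝ)) (updU ω k t) := hind'.mul hFu
    rw [lintegral_updU_swap k _ hprod]
    have e2 : ∀ (x : I01) (ω : Om V),
        (Set.Ici t).indicator (fun _ => (1 : ENNReal)) ((updU ω k x).2.1 k)
          * F (k.2 + (t : ℝ)) (updU (updU ω k x) k t)
        = (Set.Ici t).indicator (fun _ => (1 : ENNReal)) x
          * F (k.2 + (t : ℝ)) (updU ω k t) := by
      intro x ω
      rw [updU_label, updU_updU]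
    simp_rw [e2]
    have e3 : ∀ x : I01, ∫⁻ ω, (Set.Ici t).indicator (fun _ => (1 : ENNReal)) x
          * F (k.2 + (t : ℝ)) (updU ω k t) ∂(PP μ)
        = (Set.Ici t).indicator (fun _ => (1 : ENNReal)) x
          * ∫⁻ ω, F (k.2 + (t : ℝ)) (updU ω k t) ∂(PP μ) := fun x => lintegral_const_mul _ hFu
    simp_rw [e3]
    rw [lintegral_mul_const _ hind, lintegral_indicator measurableSet_Ici]
    simp only [lintegral_const, one_mul, Measure.restrict_apply_univ]
    rw [volume_Ici]
  have e4 : ∫⁻ ω, ENNReal.ofReal (1 - (t : ℝ)) * F (k.2 + (t : ℝ)) (updU ω k t) ∂(PP μ)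
      = ENNReal.ofReal (1 - (t : ℝ)) * ∫⁻ ω, F (k.2 + (t : ℝ)) (updU ω k t) ∂(PP μ) :=
    lintegral_const_mul _ hFu
  rw [e4, ← key]
  apply lintegral_mono
  intro ω
  dsimp only
  by_cases h : t ≤ ω.2.1 k
  · rw [Set.indicator_of_mem (Set.mem_Ici.2 h), one_mul, hdep]
    · unfold kap
      have : (t : ℝ) ≤ ω.2.1 k := h
      linarith
    · exact le_rfl
  · rw [Set.indicator_of_notMem (fun h' => h (Set.mem_Ici.1 h'))]
    simp

omit [IsProbabilityMeasure μ] in
/-- almost surely, the events have distinct times -/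
lemma ae_kap_ne {k l : V × ℕ} (h : l ≠ k) : ∀ᵐ ω ∂(PP μ), kap ω.2.1 k ≠ kap ω.2.1 l := by
  have hm : MeasurableSet {ω : Om V | kap ω.2.1 k = kap ω.2.1 l} :=
    measurableSet_eq_fun (measurable_kap k) (measurable_kap l)
  rw [ae_iff]
  simp only [ne_eq, not_not]
  have h1 : Measurable fun ω : Om V =>
      {ω : Om V | kap ω.2.1 k = kap ω.2.1 l}.indicator (fun _ => (1 : ENNReal)) ω :=
    measurable_const.indicator hm
  have h2 := lintegral_updU (μ := μ) k _ h1
  rw [lintegral_indicator hm, lintegral_const, one_mul, Measure.restrict_apply_univ] at h2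
  rw [h2]
  apply (lintegral_eq_zero_iff (by
    exact Measurable.lintegral_prod_right' (f := fun p : Om V × I01 =>
      {ω : Om V | kap ω.2.1 k = kap ω.2.1 l}.indicator (fun _ => (1 : ENNReal)) (updU p.1 k p.2))
      (h1.comp (measurable_updU k)))).2
  refine Eventually.of_forall fun ω => ?_
  have e : ∀ t : I01, {ω : Om V | kap ω.2.1 k = kap ω.2.1 l}.indicator
      (fun _ => (1 : ENNReal)) (updU ω k t)
      = {t : I01 | (k.2 : ℝ) + (t : ℝ) = kap ω.2.1 l}.indicator (fun _ => (1 : ENNReal)) t := by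
    intro t
    have : updU ω k t ∈ {ω : Om V | kap ω.2.1 k = kap ω.2.1 l} ↔
        t ∈ {t : I01 | (k.2 : ℝ) + (t : ℝ) = kap ω.2.1 l} := by
      simp only [Set.mem_ofPred_eq]
      rw [kap_updU_self, kap_updU_ne ω h]
    by_cases hh : updU ω k t ∈ {ω : Om V | kap ω.2.1 k = kap ω.2.1 l}
    · rw [Set.indicator_of_mem hh, Set.indicator_of_mem (this.1 hh)]
    · rw [Set.indicator_of_notMem hh, Set.indicator_of_notMem (fun h' => hh (this.2 h'))]
  simp_rw [e]
  have hs : {t : I01 | (k.2 : ℝ) + (t : ℝ) = kap ω.2.1 l}.Subsingleton := by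
    intro a ha b hb
    have ha' : (k.2 : ℝ) + (a : ℝ) = kap ω.2.1 l := ha
    have hb' : (k.2 : ℝ) + (b : ℝ) = kap ω.2.1 l := hb
    apply Subtype.ext
    linarith
  rw [lintegral_indicator hs.measurableSet, lintegral_const, one_mul,
    Measure.restrict_apply_univ, hs.measure_zero]
  rfl

end Vale.Agent.P161C.RT
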