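import Vale.Agent.P161C.Gp

/-!
# SIS, deterministic part
-/

namespace Vale.Agent.P161C.SIS

open MeasureTheory Vale.Agent.P161 Filter Topology Vale.Agent.P161C.Gp

universe u

variable {V : Type u} {G : SimpleGraph V} {d : ℕ} {θ : ℝ}

/-! ### pointwise inequality -/

lemma exp_sub_sq_le' {S S' : ℝ} (h : S ≤ S') :
    (Real.exp (-S) - Real.exp (-S')) ^ 2 ≤ (S - S') ^ 2 * Real.exp (-2 * S) := by
  have h1 : Real.exp (-S') = Real.exp (-S) * Real.exp (-(S' - S)) := by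
    rw [← Real.exp_add]; congr 1; ring
  have h2 : 1 - (S' - S) ≤ Real.exp (-(S' - S)) := by
    have := Real.add_one_le_exp (-(S' - S)); linarith
  have h3 : Real.exp (-(S' - S)) ≤ 1 := Real.exp_le_one_iff.2 (by linarith)
  have h4 : Real.exp (-2 * S) = Real.exp (-S) ^ 2 := by
    rw [← Real.exp_nat_mul]; congr 1; push_cast; ring
  rw [h1, h4]
  have h5 : (1 - Real.exp (-(S' - S))) ^ 2 ≤ (S - S') ^ 2 := by
    rw [sq_le_sq, abs_of_nonneg (by linarith), abs_of_nonpos (by linarith)]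
    linarith
  have h6 : (Real.exp (-S) - Real.exp (-S) * Real.exp (-(S' - S))) ^ 2
      = (1 - Real.exp (-(S' - S))) ^ 2 * Real.exp (-S) ^ 2 := by ring
  rw [h6]
  exact mul_le_mul_of_nonneg_right h5 (sq_nonneg _)

lemma exp_sub_sq_le (S S' : ℝ) : (Real.exp (-S) - Real.exp (-S')) ^ 2
    ≤ (S - S') ^ 2 * (Real.exp (-2 * S) + Real.exp (-2 * S')) := by
  have p1 := Real.exp_pos (-2 * S)
  have p2 := Real.exp_pos (-2 * S')
  have p3 := sq_nonneg (S - S')
  rcases le_total S S' with h | h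
  · have := exp_sub_sq_le' h
    nlinarith [mul_nonneg p3 p2.le]
  · have h1 := exp_sub_sq_le' h
    have e1 : (Real.exp (-S) - Real.exp (-S')) ^ 2 = (Real.exp (-S') - Real.exp (-S)) ^ 2 := by
      ring
    have e2 : (S' - S) ^ 2 = (S - S') ^ 2 := by ring
    rw [e2] at h1
    rw [e1]
    nlinarith [mul_nonneg p3 p1.le]

lemma split3 {b1 b2 c1 c2 t S S' : ℝ} (hb2 : |b2| ≤ 1) (hc1 : |c1| ≤ 1) (hc2 : |c2| ≤ 1) :
    (b1 * b2 * t * Real.exp (-S) - c1 * c2 * t * Real.exp (-S')) ^ 2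
      ≤ 3 * t ^ 2 * ((b1 - c1) ^ 2 * Real.exp (-2 * S) + (b2 - c2) ^ 2 * Real.exp (-2 * S)
        + (S - S') ^ 2 * (Real.exp (-2 * S) + Real.exp (-2 * S'))) := by
  have h4 : Real.exp (-2 * S) = Real.exp (-S) ^ 2 := by
    rw [← Real.exp_nat_mul]; congr 1; push_cast; ring
  have h5 := exp_sub_sq_le S S'
  set R := (S - S') ^ 2 * (Real.exp (-2 * S) + Real.exp (-2 * S')) with hR
  set e := Real.exp (-S)
  set e' := Real.exp (-S')
  have q1 : b2 ^ 2 ≤ 1 := by rw [← sq_abs]; exact pow_le_one₀ (abs_nonneg _) hb2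
  have q2 : c1 ^ 2 ≤ 1 := by rw [← sq_abs]; exact pow_le_one₀ (abs_nonneg _) hc1
  have q3 : c2 ^ 2 ≤ 1 := by rw [← sq_abs]; exact pow_le_one₀ (abs_nonneg _) hc2
  have e1 : b1 * b2 * t * e - c1 * c2 * t * e'
      = t * ((b1 - c1) * b2 * e + c1 * (b2 - c2) * e + c1 * c2 * (e - e')) := by ring
  rw [e1, h4]
  have x2 : ((b1 - c1) * b2 * e) ^ 2 ≤ (b1 - c1) ^ 2 * e ^ 2 := by
    have : ((b1 - c1) * b2 * e) ^ 2 = ((b1 - c1) ^ 2 * e ^ 2) * b2 ^ 2 := by ring
    rw [this]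
    exact mul_le_of_le_one_right (by positivity) q1
  have y2 : (c1 * (b2 - c2) * e) ^ 2 ≤ (b2 - c2) ^ 2 * e ^ 2 := by
    have : (c1 * (b2 - c2) * e) ^ 2 = ((b2 - c2) ^ 2 * e ^ 2) * c1 ^ 2 := by ring
    rw [this]
    exact mul_le_of_le_one_right (by positivity) q2
  have z2 : (c1 * c2 * (e - e')) ^ 2 ≤ R := by
    have : (c1 * c2 * (e - e')) ^ 2 = (e - e') ^ 2 * (c1 ^ 2 * c2 ^ 2) := by ring
    rw [this]
    refine (mul_le_of_le_one_right (by positivity) ?_).trans h5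
    exact mul_le_one₀ q2 (by positivity) q3
  have key : ∀ x y z : ℝ, (x + y + z) ^ 2 ≤ 3 * (x ^ 2 + y ^ 2 + z ^ 2) := by
    intro x y z
    nlinarith [sq_nonneg (x - y), sq_nonneg (y - z), sq_nonneg (x - z)]
  rw [mul_pow]
  have h6 := key ((b1 - c1) * b2 * e) (c1 * (b2 - c2) * e) (c1 * c2 * (e - e'))
  calc t ^ 2 * ((b1 - c1) * b2 * e + c1 * (b2 - c2) * e + c1 * c2 * (e - e')) ^ 2
      ≤ t ^ 2 * (3 * ((b1 - c1) ^ 2 * e ^ 2 + (b2 - c2) ^ 2 * e ^ 2 + R)) := by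
        apply mul_le_mul_of_nonneg_left _ (sq_nonneg _)
        linarith
    _ = _ := by ring

/-! ### the edge sums -/

lemma ell_symm (L : V → V → ℝ) (u p : V) : ell θ L u p = ell θ L p u := by
  unfold ell; rw [add_comm]

/-- sums of symmetric edge functions along the reversed geodesic -/
lemma sum_rev (hG : G.IsTree) (c : V → V → ℝ) (hc : ∀ u p, c u p = c p u) {v w : V} {k : ℕ}
    (hk : k ≤ G.dist v w) :
    ∑ i ∈ Finset.range k, c (gp G w v i) (gp G w v (i + 1))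
      = ∑ i ∈ Finset.Ico (G.dist v w - k) (G.dist v w), c (gp G v w i) (gp G v w (i + 1)) := by
  rw [Finset.sum_Ico_eq_sum_range, show G.dist v w - (G.dist v w - k) = k by omega,
    ← Finset.sum_range_reflect]
  apply Finset.sum_congr rfl
  intro i hi
  rw [Finset.mem_range] at hi
  rw [gp_rev hG (v := v) (w := w) (i := k - 1 - i) (by omega),
    gp_rev hG (v := v) (w := w) (i := k - 1 - i + 1) (by omega), hc]
  have e1 : G.dist v w - (k - 1 - i + 1) = G.dist v w - k + i := by omega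
  have e2 : G.dist v w - (k - 1 - i) = G.dist v w - k + i + 1 := by omega
  rw [e1, e2]

lemma SS_symm (hG : G.IsTree) (L : V → V → ℝ) (v w : V) : SS G θ L w v = SS G θ L v w := by
  unfold SS
  have e : G.dist w v = G.dist v w := SimpleGraph.dist_comm
  rw [e, sum_rev hG (ell θ L) (fun u p => ell_symm L u p) le_rfl, Nat.sub_self,
    Nat.Ico_zero_eq_range]

/-- the part of the sum beyond `j` -/
noncomputable def Sge (G : SimpleGraph V) (c : V → V → ℝ) (v w : V) (j : ℕ) : ℝ :=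
  ∑ i ∈ Finset.Ico j (G.dist v w), c (gp G v w i) (gp G v w (i + 1))

lemma Sge_le (c : V → V → ℝ) (hc : ∀ u p, 0 ≤ c u p) (v w : V) (j : ℕ) :
    Sge G c v w j ≤ ∑ i ∈ Finset.range (G.dist v w), c (gp G v w i) (gp G v w (i + 1)) := by
  unfold Sge
  apply Finset.sum_le_sum_of_subset_of_nonneg
  · intro i hi
    rw [Finset.mem_Ico] at hi
    exact Finset.mem_range.2 hi.2
  · intro i _ _
    exact hc _ _

/-! ### gathering the end points beyond a vertex -/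

lemma pw_factor (h : Crit G d θ) (x : ℝ) :
    0 ≤ 1 - (1 - θ ^ 2) * Real.tanh x ^ 2 ∧ 1 - (1 - θ ^ 2) * Real.tanh x ^ 2 ≤ 1 := by
  have h1 := Real.tanh_sq_lt_one x
  have h2 := sq_nonneg (Real.tanh x)
  have h3 : θ ^ 2 ≤ 1 := by
    have := theta_lt_one h; have := h.pos; nlinarith
  have h4 := sq_nonneg θ
  constructor <;> nlinarith

lemma pw_nonneg (h : Crit G d θ) (L : V → V → ℝ) (v w : V) :
    0 ≤ pw G θ (fun _ u p => Real.tanh (L u p)) v w := by
  unfold pw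
  exact Finset.prod_nonneg fun i _ => (pw_factor h _).1

lemma pw_le_one (h : Crit G d θ) (L : V → V → ℝ) (v w : V) :
    pw G θ (fun _ u p => Real.tanh (L u p)) v w ≤ 1 := by
  unfold pw
  exact Finset.prod_le_one (fun i _ => (pw_factor h _).1) (fun i _ => (pw_factor h _).2)

lemma aa_nonneg (h : Crit G d θ) (L : V → V → ℝ) (u p : V) (k : ℕ) :
    0 ≤ aa G θ (fun u p => Real.tanh (L u p)) u p k := by
  unfold aa
  have h1 : 0 ≤ θ ^ (2 * k) := by have := h.pos; positivity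
  exact mul_nonneg h1 (Finset.sum_nonneg fun w _ => pw_nonneg h L u w)

lemma aa_le_one (h : Crit G d θ) (L : V → V → ℝ) {u p : V} (hup : G.Adj u p) (k : ℕ) :
    aa G θ (fun u p => Real.tanh (L u p)) u p k ≤ 1 := by
  unfold aa
  have h1 : 0 ≤ θ ^ (2 * k) := by have := h.pos; positivity
  have h2 : ∑ w ∈ brF G u p k, pw G θ (fun _ u p => Real.tanh (L u p)) u w
      ≤ ((brF G u p k).card : ℝ) := by
    have := Finset.sum_le_card_nsmul (brF G u p k)
      (fun w => pw G θ (fun _ u p => Real.tanh (L u p)) u w) 1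
      (fun w _ => pw_le_one h L u w)
    simpa using this
  exact (mul_le_mul_of_nonneg_left h2 h1).trans (pow_mul_card_brF_le h hup k)

lemma exp_Sge_le (h : Crit G d θ) (hA : ∀ (L : V → V → ℝ) (u p : V), 0 ≤ ell θ L u p ∧
    Real.exp (-2 * ell θ L u p) ≤ 1 - (1 - θ ^ 2) * Real.tanh (L p u) ^ 2)
    (L : V → V → ℝ) {o w : V} {j : ℕ} (hj : j ≤ G.dist o w) :
    Real.exp (-2 * Sge G (ell θ L) o w j)
      ≤ pw G θ (fun _ u p => Real.tanh (L u p)) (gp G o w j) w := by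
  obtain ⟨h1, h2⟩ := gp_spec h.tree.connected o w hj
  unfold Sge pw
  rw [Finset.sum_Ico_eq_sum_range, Finset.mul_sum, Real.exp_sum]
  have e : G.dist (gp G o w j) w = G.dist o w - j := by omega
  rw [e]
  apply Finset.prod_le_prod
  · intro i _; exact (Real.exp_pos _).le
  · intro i hi
    rw [Finset.mem_range] at hi
    rw [gp_suffix h.tree (by omega), gp_suffix h.tree (by omega), ← add_assoc]
    exact (hA L _ _).2

lemma gather (h : Crit G d θ) (hA : ∀ (L : V → V → ℝ) (u p : V), 0 ≤ ell θ L u p ∧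
    Real.exp (-2 * ell θ L u p) ≤ 1 - (1 - θ ^ 2) * Real.tanh (L p u) ^ 2)
    (L : V → V → ℝ) (o : V) {j n : ℕ} (hj : 1 ≤ j) (hjn : j ≤ n) (f : V → ℝ)
    (hf : ∀ x, 0 ≤ f x) :
    θ ^ (2 * n) * ∑ w ∈ sphF G o n, f (gp G o w j) * Real.exp (-2 * Sge G (ell θ L) o w j)
      ≤ θ ^ (2 * j) * ∑ x ∈ sphF G o j,
        f x * aa G θ (fun u p => Real.tanh (L u p)) x (gp G o x (j - 1)) (n - j) := by
  classical
  have hpos := h.pos
  have hmap : ∀ w ∈ sphF G o n, gp G o w j ∈ sphF G o j := by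
    intro w hw
    rw [mem_sphF h] at hw ⊢
    exact (gp_spec h.tree.connected o w (by omega)).1
  rw [← Finset.sum_fiberwise_of_maps_to hmap]
  have e : θ ^ (2 * n) = θ ^ (2 * j) * θ ^ (2 * (n - j)) := by
    rw [← pow_add]; congr 1; omega
  rw [e, mul_assoc]
  apply mul_le_mul_of_nonneg_left _ (by positivity)
  rw [Finset.mul_sum]
  apply Finset.sum_le_sum
  intro x hx
  rw [mem_sphF h] at hx
  unfold aa
  have h1 : ∑ w ∈ sphF G o n with gp G o w j = x,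
        f (gp G o w j) * Real.exp (-2 * Sge G (ell θ L) o w j)
      ≤ ∑ w ∈ sphF G o n with gp G o w j = x,
        f x * pw G θ (fun _ u p => Real.tanh (L u p)) x w := by
    apply Finset.sum_le_sum
    intro w hw
    rw [Finset.mem_filter, mem_sphF h] at hw
    have h2 := exp_Sge_le h hA L (o := o) (w := w) (j := j) (by omega)
    rw [hw.2] at h2 ⊢
    exact mul_le_mul_of_nonneg_left h2 (hf x)
  have h3 : ∑ w ∈ sphF G o n with gp G o w j = x,
        f x * pw G θ (fun _ u p => Real.tanh (L u p)) x w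
      ≤ ∑ w ∈ brF G x (gp G o x (j - 1)) (n - j),
        f x * pw G θ (fun _ u p => Real.tanh (L u p)) x w := by
    apply Finset.sum_le_sum_of_subset_of_nonneg
    · intro w hw
      rw [Finset.mem_filter, mem_sphF h] at hw
      rw [mem_brF h]
      obtain ⟨h4, h5⟩ := gp_spec h.tree.connected o w (i := j) (by omega)
      obtain ⟨h6, h7⟩ := gp_spec h.tree.connected o w (i := j - 1) (by omega)
      have e2 : gp G o x (j - 1) = gp G o w (j - 1) := by
        rw [← hw.2, gp_prefix h.tree (by omega) (by omega)]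
      rw [e2]
      rw [hw.2] at h5
      constructor <;> omega
    · intro w _ _
      exact mul_nonneg (hf x) (pw_nonneg h L x w)
  have h8 : 0 ≤ θ ^ (2 * (n - j)) := by positivity
  calc θ ^ (2 * (n - j)) * ∑ w ∈ sphF G o n with gp G o w j = x,
        f (gp G o w j) * Real.exp (-2 * Sge G (ell θ L) o w j)
      ≤ θ ^ (2 * (n - j)) * ∑ w ∈ brF G x (gp G o x (j - 1)) (n - j),
        f x * pw G θ (fun _ u p => Real.tanh (L u p)) x w :=
        mul_le_mul_of_nonneg_left (h1.trans h3) h8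
    _ = _ := by rw [← Finset.mul_sum]; ring

/-! ### real series -/

/-- a fourth root -/
lemma exists_root {r : ℝ} (h0 : 0 < r) (h1 : r < 1) :
    ∃ ρ : ℝ, 0 < ρ ∧ ρ < 1 ∧ ρ ^ 4 = r ∧ 1 - r ≤ 4 * (1 - ρ) ∧
      ∀ n : ℕ, r ^ (n / 4) ≤ r⁻¹ * ρ ^ n := by
  have hs : 0 < √r := Real.sqrt_pos.2 h0
  have e : (√(√r)) ^ 4 = r := by
    have : (√(√r)) ^ 4 = ((√(√r)) ^ 2) ^ 2 := by ring
    rw [this, Real.sq_sqrt hs.le, Real.sq_sqrt h0.le]
  have hp : 0 < √(√r) := Real.sqrt_pos.2 hs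
  set ρ := √(√r)
  have hlt : ρ < 1 := by
    by_contra hc
    push Not at hc
    have := one_le_pow₀ hc (n := 4)
    linarith
  refine ⟨ρ, hp, hlt, e, ?_, ?_⟩
  · rw [← e]
    have : 1 - ρ ^ 4 = (1 - ρ) * (1 + ρ + ρ ^ 2 + ρ ^ 3) := by ring
    rw [this]
    have h2 : ρ ^ 2 ≤ 1 := pow_le_one₀ hp.le hlt.le
    have h3 : ρ ^ 3 ≤ 1 := pow_le_one₀ hp.le hlt.le
    have : 1 + ρ + ρ ^ 2 + ρ ^ 3 ≤ 4 := by linarith
    nlinarith
  · intro n
    have h2 : ρ ^ (n + 4) ≤ ρ ^ n * r := by rw [pow_add, e]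
    have h3 : r ^ (n / 4) * r ≤ ρ ^ n := by
      have : r ^ (n / 4) * r = ρ ^ (4 * (n / 4 + 1)) := by
        rw [pow_mul, e, pow_succ]
      rw [this]
      exact pow_le_pow_of_le_one hp.le hlt.le (by omega)
    calc r ^ (n / 4) = r⁻¹ * (r ^ (n / 4) * r) := by field_simp
      _ ≤ r⁻¹ * ρ ^ n := mul_le_mul_of_nonneg_left h3 (by positivity)

lemma sum_pow_le1 {r : ℝ} (h0 : 0 < r) (h1 : r < 1) (N M : ℕ) :
    ∑ m ∈ Finset.range M, r ^ ((N + m) / 4) ≤ r⁻¹ * (4 / (1 - r)) := by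
  obtain ⟨ρ, hp, hlt, _, h4, hr⟩ := exists_root h0 h1
  have hs := summable_geometric_of_lt_one hp.le hlt
  have h2 : ∑ m ∈ Finset.range M, ρ ^ m ≤ (1 - ρ)⁻¹ := by
    rw [← tsum_geometric_of_lt_one hp.le hlt]
    exact hs.sum_le_tsum _ (fun n _ => pow_nonneg hp.le n)
  calc ∑ m ∈ Finset.range M, r ^ ((N + m) / 4)
      ≤ ∑ m ∈ Finset.range M, r⁻¹ * ρ ^ m := by
        apply Finset.sum_le_sum
        intro m _
        refine (hr (N + m)).trans (mul_le_mul_of_nonneg_left ?_ (by positivity))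
        exact pow_le_pow_of_le_one hp.le hlt.le (by omega)
    _ = r⁻¹ * ∑ m ∈ Finset.range M, ρ ^ m := by rw [Finset.mul_sum]
    _ ≤ r⁻¹ * (4 / (1 - r)) := by
        apply mul_le_mul_of_nonneg_left _ (by positivity)
        refine h2.trans ?_
        rw [inv_eq_one_div, div_le_div_iff₀ (by linarith) (by linarith)]
        linarith

lemma sum_pow_le2 {r : ℝ} (h0 : 0 < r) (h1 : r < 1) (N M : ℕ) :
    ∑ m ∈ Finset.range M, ((N + m : ℕ) : ℝ) * r ^ ((N + m) / 4)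
      ≤ r⁻¹ * (16 / (1 - r) ^ 2) := by
  obtain ⟨ρ, hp, hlt, _, h4, hr⟩ := exists_root h0 h1
  have hn : ‖ρ‖ < 1 := by rw [Real.norm_eq_abs, abs_of_pos hp]; exact hlt
  have hs := (hasSum_coe_mul_geometric_of_norm_lt_one hn)
  have h2 : ∑ n ∈ Finset.range (N + M), (n : ℝ) * ρ ^ n ≤ ρ / (1 - ρ) ^ 2 := by
    rw [← hs.tsum_eq]
    exact hs.summable.sum_le_tsum _ (fun n _ => mul_nonneg (Nat.cast_nonneg n) (pow_nonneg hp.le n))
  have h3 : ∑ m ∈ Finset.range M, ((N + m : ℕ) : ℝ) * ρ ^ (N + m)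
      ≤ ∑ n ∈ Finset.range (N + M), (n : ℝ) * ρ ^ n := by
    rw [Finset.sum_range_add]
    have : 0 ≤ ∑ x ∈ Finset.range N, (x : ℝ) * ρ ^ x :=
      Finset.sum_nonneg fun n _ => mul_nonneg (Nat.cast_nonneg n) (pow_nonneg hp.le n)
    linarith
  calc ∑ m ∈ Finset.range M, ((N + m : ℕ) : ℝ) * r ^ ((N + m) / 4)
      ≤ ∑ m ∈ Finset.range M, r⁻¹ * (((N + m : ℕ) : ℝ) * ρ ^ (N + m)) := by
        apply Finset.sum_le_sum
        intro m _
        calc ((N + m : ℕ) : ℝ) * r ^ ((N + m) / 4)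
            ≤ ((N + m : ℕ) : ℝ) * (r⁻¹ * ρ ^ (N + m)) :=
              mul_le_mul_of_nonneg_left (hr (N + m)) (Nat.cast_nonneg _)
          _ = _ := by ring
    _ = r⁻¹ * ∑ m ∈ Finset.range M, (((N + m : ℕ) : ℝ) * ρ ^ (N + m)) := by rw [Finset.mul_sum]
    _ ≤ r⁻¹ * (16 / (1 - r) ^ 2) := by
        apply mul_le_mul_of_nonneg_left _ (by positivity)
        refine (h3.trans h2).trans ?_
        have e1 : 0 < 1 - ρ := by linarith
        have e2 : 0 < 1 - r := by linarith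
        rw [div_le_div_iff₀ (by positivity) (by positivity)]
        have e3 : (1 - r) ^ 2 ≤ 16 * (1 - ρ) ^ 2 := by
          have := pow_le_pow_left₀ e2.le h4 2
          calc (1 - r) ^ 2 ≤ (4 * (1 - ρ)) ^ 2 := this
            _ = _ := by ring
        calc ρ * (1 - r) ^ 2 ≤ 1 * (1 - r) ^ 2 :=
              mul_le_mul_of_nonneg_right hlt.le (sq_nonneg _)
          _ ≤ 16 * (1 - ρ) ^ 2 := by linarith

lemma one_lt_sqrt2 : (1 : ℝ) < √2 := by
  rw [show (1 : ℝ) = √1 by simp]; exact Real.sqrt_lt_sqrt (by norm_num) (by norm_num)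

lemma exp_le_inv_pow (k : ℕ) : Real.exp (-2 * (√2) ^ k) ≤ ((√2)⁻¹) ^ k := by
  have h5 : 0 < (√2) ^ k := pow_pos (by linarith [one_lt_sqrt2]) k
  rw [inv_pow]
  generalize (√2) ^ k = x at h5
  have h6 := Real.add_one_le_exp x
  rw [← one_div, le_div_iff₀ h5]
  have h7 : Real.exp (-2 * x) * Real.exp x ≤ 1 := by
    rw [← Real.exp_add]
    exact Real.exp_le_one_iff.2 (by linarith)
  have h8 := Real.exp_pos (-2 * x)
  nlinarith

lemma summable_aux {ρ : ℝ} (hp : 0 < ρ) (hlt : ρ < 1) (N : ℕ) (C : ℝ) :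
    Summable fun n : ℕ => C * (((n : ℝ) + N + 1) ^ 2 * ρ ^ (n + (N + 1))) := by
  have hn : ‖ρ‖ < 1 := by rw [Real.norm_eq_abs, abs_of_pos hp]; exact hlt
  have hs : Summable fun n : ℕ => ((n : ℝ) ^ 2 * ρ ^ n : ℝ) :=
    summable_pow_mul_geometric_of_norm_lt_one 2 hn
  have hs2 := (summable_nat_add_iff (f := fun n : ℕ => ((n : ℝ) ^ 2 * ρ ^ n : ℝ)) (N + 1)).2 hs
  have hs3 := hs2.mul_left C
  refine hs3.congr fun n => ?_
  push_cast
  ring

/-- summability of the error terms -/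
lemma summable_err (N : ℕ) :
    Summable fun n : ℕ => ((n : ℝ) + N + 1) ^ 2 * Real.exp (-2 * (√2) ^ ((n + N) / 4)) := by
  have h0 : 0 < (√2)⁻¹ := inv_pos.2 (by linarith [one_lt_sqrt2])
  have h1 : (√2)⁻¹ < 1 := inv_lt_one_of_one_lt₀ one_lt_sqrt2
  obtain ⟨ρ, hp, hlt, _, _, hr⟩ := exists_root h0 h1
  refine Summable.of_nonneg_of_le (fun n => by positivity) (fun n => ?_)
    (summable_aux hp hlt N (((√2)⁻¹)⁻¹ * ρ⁻¹))
  have e2 := (exp_le_inv_pow ((n + N) / 4)).trans (hr (n + N))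
  have e3 : ρ ^ (n + N) = ρ⁻¹ * ρ ^ (n + (N + 1)) := by
    rw [← add_assoc, pow_succ]; field_simp
  rw [e3] at e2
  calc ((n : ℝ) + N + 1) ^ 2 * Real.exp (-2 * (√2) ^ ((n + N) / 4))
      ≤ ((n : ℝ) + N + 1) ^ 2 * (((√2)⁻¹)⁻¹ * (ρ⁻¹ * ρ ^ (n + (N + 1)))) :=
        mul_le_mul_of_nonneg_left e2 (by positivity)
    _ = _ := by ring

lemma err_nonneg (N : ℕ) : 0 ≤ err N := by
  unfold err
  exact tsum_nonneg fun n => by positivity

lemma sum_err_le (N M : ℕ) :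
    ∑ m ∈ Finset.range M, ((N + 1 + m : ℕ) : ℝ) ^ 2 * Real.exp (-2 * (√2) ^ ((N + 1 + m) / 4))
      ≤ err N := by
  have h2 : (1 : ℝ) ≤ √2 := by
    rw [show (1 : ℝ) = √1 by simp]; exact Real.sqrt_le_sqrt (by norm_num)
  unfold err
  refine le_trans ?_ ((summable_err N).sum_le_tsum (Finset.range M) (fun n _ => by positivity))
  apply Finset.sum_le_sum
  intro m _
  have e : ((N + 1 + m : ℕ) : ℝ) = (m : ℝ) + N + 1 := by push_cast; ring
  rw [e]
  apply mul_le_mul_of_nonneg_left _ (by positivity)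
  apply Real.exp_le_exp.2
  have : (√2) ^ ((m + N) / 4) ≤ (√2) ^ ((N + 1 + m) / 4) :=
    pow_le_pow_right₀ h2 (by omega)
  linarith

lemma sum_id_le (N : ℕ) : ∑ n ∈ Finset.range (N + 1), (n : ℝ) ≤ (N : ℝ) ^ 2 := by
  induction N with
  | zero => simp
  | succ N ih =>
    rw [Finset.sum_range_succ]
    push_cast
    nlinarith [(Nat.cast_nonneg N : (0:ℝ) ≤ N)]

end Vale.Agent.P161C.SIS
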