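import Vale.Agent.P161C.SIS1
import Vale.Agent.P161C.CE

/-!
# SIS, abstract probabilistic part
-/

namespace Vale.Agent.P161C.SIS

open MeasureTheory Vale.Agent.P161 Filter Topology Vale.Agent.P161C.Gp Vale.Agent.P161C.CE

universe u v

variable {V : Type u} {G : SimpleGraph V} {d : ℕ} {θ : ℝ} {Ω : Type v}
  {𝒢 m0 : MeasurableSpace Ω} {P : Measure Ω} {L : Ω → V → V → ℝ} {A : (G ≃g G) → Ω → Ω} {mT : ℝ}

/-- the abstract setting -/
structure Ax (G : SimpleGraph V) (d : ℕ) (θ : ℝ) (𝒢 : MeasurableSpace Ω) {m0 : MeasurableSpace Ω}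
    (P : Measure Ω) (L : Ω → V → V → ℝ) (A : (G ≃g G) → Ω → Ω) (mT : ℝ) : Prop where
  h : Crit G d θ
  le : 𝒢 ≤ m0
  prob : IsProbabilityMeasure P
  meas : ∀ u p, Measurable[m0] fun ω => L ω u p
  mpos : 0 < mT
  mlt : mT < 1
  bd : ∀ ω u p, |Real.tanh (L ω u p)| ≤ mT
  alg : ∀ (L : V → V → ℝ) (u p : V), 0 ≤ ell θ L u p ∧
    Real.exp (-2 * ell θ L u p) ≤ 1 - (1 - θ ^ 2) * Real.tanh (L p u) ^ 2
  comap : ∀ g, 𝒢.comap (A g) = 𝒢
  mp : ∀ g, MeasurePreserving (A g) P P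
  equi : ∀ (g : G ≃g G) (ω : Ω) (u p : V), L (A g ω) (g u) (g p) = L ω u p
  hom : ∀ u w u' w' : V, G.dist u w = G.dist u' w' → ∃ g : G ≃g G, g u = u' ∧ g w = w'

/-- bound for the edge weights -/
noncomputable def LB (mT : ℝ) : ℝ := -Real.log (1 - mT ^ 2)

/-- edge weight -/
noncomputable def el (θ : ℝ) (L : Ω → V → V → ℝ) (u p : V) (ω : Ω) : ℝ := ell θ (L ω) u p

/-- its clamped conditional expectation -/
noncomputable def eb (θ : ℝ) (P : Measure Ω) (𝒢 : MeasurableSpace Ω) (L : Ω → V → V → ℝ) (mT : ℝ)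
    (u p : V) : Ω → ℝ := ce P 𝒢 (LB mT) (el θ L u p)

/-- clamped conditional expectation of the vertex factor -/
noncomputable def bb (P : Measure Ω) (𝒢 : MeasurableSpace Ω) (L : Ω → V → V → ℝ) (v : V) :
    Ω → ℝ := ce P 𝒢 1 (fun ω => bet (L ω) v)

/-- magnetisation -/
noncomputable def mv (L : Ω → V → V → ℝ) (v : V) (ω : Ω) : ℝ := Real.tanh (L ω v v)

/-- the vertex error -/
noncomputable def XX (P : Measure Ω) (𝒢 : MeasurableSpace Ω) (L : Ω → V → V → ℝ) (v : V)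
    (ω : Ω) : ℝ :=
  min 4 ((mv L v ω - (P[mv L v|𝒢]) ω) ^ 2) + (bet (L ω) v - bb P 𝒢 L v ω) ^ 2

/-- the edge error -/
noncomputable def ze (θ : ℝ) (P : Measure Ω) (𝒢 : MeasurableSpace Ω) (L : Ω → V → V → ℝ)
    (mT : ℝ) (u p : V) (ω : Ω) : ℝ := el θ L u p ω - eb θ P 𝒢 L mT u p ω

/-- the first `j` terms of the path error -/
noncomputable def P1 (G : SimpleGraph V) (θ : ℝ) (P : Measure Ω) (𝒢 : MeasurableSpace Ω)
    (L : Ω → V → V → ℝ) (mT : ℝ) (v w : V) (j : ℕ) (ω : Ω) : ℝ :=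
  ∑ i ∈ Finset.range j, ze θ P 𝒢 L mT (gp G v w i) (gp G v w (i + 1)) ω

/-- path sum of the conditional expectations -/
noncomputable def SB (G : SimpleGraph V) (θ : ℝ) (P : Measure Ω) (𝒢 : MeasurableSpace Ω)
    (L : Ω → V → V → ℝ) (mT : ℝ) (v w : V) (ω : Ω) : ℝ :=
  ∑ i ∈ Finset.range (G.dist v w), eb θ P 𝒢 L mT (gp G v w i) (gp G v w (i + 1)) ω

/-- the approximating covariance -/
noncomputable def AT (G : SimpleGraph V) (θ : ℝ) (P : Measure Ω) (𝒢 : MeasurableSpace Ω)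
    (L : Ω → V → V → ℝ) (mT : ℝ) (v w : V) (ω : Ω) : ℝ :=
  bb P 𝒢 L v ω * bb P 𝒢 L w ω * θ ^ (G.dist v w) * Real.exp (-SB G θ P 𝒢 L mT v w ω)

/-! ### bounds -/

lemma LB_nonneg (h0 : 0 < mT) (h1 : mT < 1) : 0 ≤ LB mT := by
  unfold LB
  have h2 : Real.log (1 - mT ^ 2) ≤ 0 := Real.log_nonpos (by nlinarith) (by nlinarith)
  linarith

lemma gg_le (h : Crit G d θ) (h0 : 0 < mT) (h1 : mT < 1) {z : ℝ} (hz0 : 0 ≤ z)
    (hz : z ≤ mT ^ 2) : gg θ z ≤ LB mT / 2 := by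
  unfold gg LB tt
  have hm : 0 < 1 - mT ^ 2 := by nlinarith
  have hθ : θ ^ 2 ≤ 1 := by
    have := theta_lt_one h; have := h.pos; nlinarith
  have hθ0 : 0 ≤ θ ^ 2 := sq_nonneg θ
  have h2 : 1 - z ≤ (1 - z) / (1 - θ ^ 2 * z) := by
    rw [le_div_iff₀ (by nlinarith)]
    have : 0 ≤ θ ^ 2 * z := mul_nonneg hθ0 hz0
    have : 0 ≤ 1 - z := by linarith
    nlinarith
  have h3 := Real.log_le_log hm ((by linarith : 1 - mT ^ 2 ≤ 1 - z).trans h2)
  linarith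

lemma sq_tanh_le (hA : Ax G d θ 𝒢 P L A mT) (ω : Ω) (u p : V) :
    Real.tanh (L ω u p) ^ 2 ≤ mT ^ 2 := by
  rw [← sq_abs]
  exact pow_le_pow_left₀ (abs_nonneg _) (hA.bd ω u p) 2

lemma el_nonneg (hA : Ax G d θ 𝒢 P L A mT) (u p : V) (ω : Ω) : 0 ≤ el θ L u p ω :=
  (hA.alg (L ω) u p).1

lemma el_le (hA : Ax G d θ 𝒢 P L A mT) (u p : V) (ω : Ω) : el θ L u p ω ≤ LB mT := by
  unfold el ell
  have h1 := gg_le hA.h hA.mpos hA.mlt (sq_nonneg _) (sq_tanh_le hA ω u p)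
  have h2 := gg_le hA.h hA.mpos hA.mlt (sq_nonneg _) (sq_tanh_le hA ω p u)
  linarith

lemma measurable_tanh' : Measurable Real.tanh := by
  have e : Real.tanh = fun x => Real.sinh x / Real.cosh x := by
    funext x; exact Real.tanh_eq_sinh_div_cosh x
  rw [e]
  exact Real.measurable_sinh.div Real.measurable_cosh

lemma measurable_gg (θ : ℝ) : Measurable (gg θ) := by
  unfold gg tt
  fun_prop

lemma el_meas (hA : Ax G d θ 𝒢 P L A mT) (u p : V) : Measurable (el θ L u p) := by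
  unfold el ell
  have h1 := (measurable_tanh'.comp (hA.meas u p)).pow_const 2
  have h2 := (measurable_tanh'.comp (hA.meas p u)).pow_const 2
  exact ((measurable_gg θ).comp h1).add ((measurable_gg θ).comp h2)

lemma mv_meas (hA : Ax G d θ 𝒢 P L A mT) (v : V) : Measurable (mv L v) :=
  measurable_tanh'.comp (hA.meas v v)

lemma mv_le (hA : Ax G d θ 𝒢 P L A mT) (v : V) (ω : Ω) : |mv L v ω| ≤ mT := hA.bd ω v v

lemma bet_meas (hA : Ax G d θ 𝒢 P L A mT) (v : V) : Measurable (fun ω => bet (L ω) v) := by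
  unfold bet
  have h1 : Measurable fun ω => 1 - Real.tanh (L ω v v) ^ 2 :=
    measurable_const.sub ((measurable_tanh'.comp (hA.meas v v)).pow_const 2)
  exact h1.sqrt

lemma bet_nonneg (L : V → V → ℝ) (v : V) : 0 ≤ bet L v := Real.sqrt_nonneg _

lemma bet_le_one (L : V → V → ℝ) (v : V) : bet L v ≤ 1 := by
  unfold bet
  rw [Real.sqrt_le_one]
  have := sq_nonneg (Real.tanh (L v v))
  linarith

lemma el_int (hA : Ax G d θ 𝒢 P L A mT) (u p : V) : Integrable (el θ L u p) P := by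
  have := hA.prob
  refine integrable_of_bdd (el_meas hA u p) (B := LB mT) fun ω => ?_
  rw [abs_of_nonneg (el_nonneg hA u p ω)]
  exact el_le hA u p ω

lemma mv_int (hA : Ax G d θ 𝒢 P L A mT) (v : V) : Integrable (mv L v) P := by
  have := hA.prob
  exact integrable_of_bdd (mv_meas hA v) (mv_le hA v)

lemma bet_int (hA : Ax G d θ 𝒢 P L A mT) (v : V) : Integrable (fun ω => bet (L ω) v) P := by
  have := hA.prob
  refine integrable_of_bdd (bet_meas hA v) (B := 1) fun ω => ?_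
  rw [abs_of_nonneg (bet_nonneg _ v)]
  exact bet_le_one _ v

lemma eb_meas (hA : Ax G d θ 𝒢 P L A mT) (u p : V) : Measurable (eb θ P 𝒢 L mT u p) :=
  (ce_meas (P := P) (𝒢 := 𝒢) _ _).mono hA.le le_rfl

lemma bb_meas (hA : Ax G d θ 𝒢 P L A mT) (v : V) : Measurable (bb P 𝒢 L v) :=
  (ce_meas (P := P) (𝒢 := 𝒢) _ _).mono hA.le le_rfl

lemma eb_nonneg (u p : V) (ω : Ω) : 0 ≤ eb θ P 𝒢 L mT u p ω := ce_nonneg _ _ _

lemma eb_le (hA : Ax G d θ 𝒢 P L A mT) (u p : V) (ω : Ω) : eb θ P 𝒢 L mT u p ω ≤ LB mT :=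
  ce_le (LB_nonneg hA.mpos hA.mlt) _ _

lemma bb_nonneg (v : V) (ω : Ω) : 0 ≤ bb P 𝒢 L v ω := ce_nonneg _ _ _

lemma bb_le (v : V) (ω : Ω) : bb P 𝒢 L v ω ≤ 1 := ce_le zero_le_one _ _

lemma eb_symm (u p : V) : eb θ P 𝒢 L mT u p = eb θ P 𝒢 L mT p u := by
  unfold eb
  have e : el θ L u p = el θ L p u := by
    funext ω; exact ell_symm _ _ _
  rw [e]

lemma ze_symm (u p : V) : ze θ P 𝒢 L mT u p = ze θ P 𝒢 L mT p u := by
  funext ω
  unfold ze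
  rw [eb_symm u p]
  congr 1
  exact ell_symm _ _ _

lemma ze_meas (hA : Ax G d θ 𝒢 P L A mT) (u p : V) : Measurable (ze θ P 𝒢 L mT u p) :=
  (el_meas hA u p).sub (eb_meas hA u p)

lemma ze_le (hA : Ax G d θ 𝒢 P L A mT) (u p : V) (ω : Ω) : |ze θ P 𝒢 L mT u p ω| ≤ LB mT := by
  unfold ze
  have h1 := el_nonneg hA u p ω
  have h2 := el_le hA u p ω
  have h3 := eb_nonneg (θ := θ) (P := P) (𝒢 := 𝒢) (L := L) (mT := mT) u p ω
  have h4 := eb_le hA u p ω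
  rw [abs_le]
  constructor <;> linarith

lemma P1_meas (hA : Ax G d θ 𝒢 P L A mT) (v w : V) (j : ℕ) :
    Measurable (P1 G θ P 𝒢 L mT v w j) := by
  unfold P1
  exact Finset.measurable_sum _ fun i _ => ze_meas hA _ _

lemma P1_sq_le (hA : Ax G d θ 𝒢 P L A mT) (v w : V) (j : ℕ) (ω : Ω) :
    P1 G θ P 𝒢 L mT v w j ω ^ 2 ≤ ((j : ℝ) * LB mT) ^ 2 := by
  have h1 : |P1 G θ P 𝒢 L mT v w j ω| ≤ (j : ℝ) * LB mT := by
    unfold P1
    refine (Finset.abs_sum_le_sum_abs _ _).trans ?_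
    have := Finset.sum_le_card_nsmul (Finset.range j)
      (fun i => |ze θ P 𝒢 L mT (gp G v w i) (gp G v w (i + 1)) ω|) (LB mT)
      (fun i _ => ze_le hA _ _ ω)
    simpa using this
  rw [← sq_abs]
  exact pow_le_pow_left₀ (abs_nonneg _) h1 2

lemma XX_nonneg (v : V) (ω : Ω) : 0 ≤ XX P 𝒢 L v ω := by
  unfold XX
  have h1 : 0 ≤ min 4 ((mv L v ω - (P[mv L v|𝒢]) ω) ^ 2) := le_min (by norm_num) (sq_nonneg _)
  have h2 := sq_nonneg (bet (L ω) v - bb P 𝒢 L v ω)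
  linarith

lemma XX_le (v : V) (ω : Ω) : XX P 𝒢 L v ω ≤ 5 := by
  unfold XX
  have h1 : min 4 ((mv L v ω - (P[mv L v|𝒢]) ω) ^ 2) ≤ 4 := min_le_left _ _
  have h2 : (bet (L ω) v - bb P 𝒢 L v ω) ^ 2 ≤ 1 := by
    have a1 := bet_nonneg (L ω) v
    have a2 := bet_le_one (L ω) v
    have a3 := bb_nonneg (P := P) (𝒢 := 𝒢) (L := L) v ω
    have a4 := bb_le (P := P) (𝒢 := 𝒢) (L := L) v ω
    nlinarith
  linarith

lemma XX_meas (hA : Ax G d θ 𝒢 P L A mT) (v : V) : Measurable (XX P 𝒢 L v) := by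
  unfold XX
  have h1 : Measurable (P[mv L v|𝒢]) := stronglyMeasurable_condExp.measurable.mono hA.le le_rfl
  exact (measurable_const.min (((mv_meas hA v).sub h1).pow_const 2)).add
    (((bet_meas hA v).sub (bb_meas hA v)).pow_const 2)

lemma SS_meas (hA : Ax G d θ 𝒢 P L A mT) (v w : V) : Measurable (fun ω => SS G θ (L ω) v w) := by
  unfold SS
  exact Finset.measurable_sum _ fun i _ => el_meas hA _ _

lemma SB_meas (hA : Ax G d θ 𝒢 P L A mT) (v w : V) : Measurable (SB G θ P 𝒢 L mT v w) := by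
  unfold SB
  exact Finset.measurable_sum _ fun i _ => eb_meas hA _ _

lemma SS_nonneg (hA : Ax G d θ 𝒢 P L A mT) (v w : V) (ω : Ω) : 0 ≤ SS G θ (L ω) v w := by
  unfold SS
  exact Finset.sum_nonneg fun i _ => el_nonneg hA _ _ ω

lemma SB_nonneg (v w : V) (ω : Ω) : 0 ≤ SB G θ P 𝒢 L mT v w ω := by
  unfold SB
  exact Finset.sum_nonneg fun i _ => eb_nonneg _ _ ω

lemma exp_neg_two_le {x : ℝ} (hx : 0 ≤ x) : Real.exp (-2 * x) ≤ 1 :=
  Real.exp_le_one_iff.2 (by linarith)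

/-! ### equivariance -/

lemma el_equi (hA : Ax G d θ 𝒢 P L A mT) (g : G ≃g G) (u p : V) (ω : Ω) :
    el θ L (g u) (g p) (A g ω) = el θ L u p ω := by
  unfold el ell
  rw [hA.equi, hA.equi]

lemma eb_equi (hA : Ax G d θ 𝒢 P L A mT) (g : G ≃g G) (u p : V) :
    ∀ᵐ ω ∂P, eb θ P 𝒢 L mT (g u) (g p) (A g ω) = eb θ P 𝒢 L mT u p ω := by
  have := hA.prob
  have h1 := ce_comp hA.le (hA.mp g) (hA.comap g) (LB mT) (el_int hA (g u) (g p))
  have e : (fun ω => el θ L (g u) (g p) (A g ω)) = el θ L u p := by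
    funext ω; exact el_equi hA g u p ω
  rw [e] at h1
  exact h1

lemma ze_equi (hA : Ax G d θ 𝒢 P L A mT) (g : G ≃g G) (u p : V) :
    ∀ᵐ ω ∂P, ze θ P 𝒢 L mT (g u) (g p) (A g ω) = ze θ P 𝒢 L mT u p ω := by
  filter_upwards [eb_equi hA g u p] with ω h1
  unfold ze
  rw [h1, el_equi hA]

lemma XX_equi (hA : Ax G d θ 𝒢 P L A mT) (g : G ≃g G) (v : V) :
    ∀ᵐ ω ∂P, XX P 𝒢 L (g v) (A g ω) = XX P 𝒢 L v ω := by
  have := hA.prob
  have h1 := ce_comp hA.le (hA.mp g) (hA.comap g) 1 (bet_int hA (g v))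
  have e1 : (fun ω => bet (L (A g ω)) (g v)) = fun ω => bet (L ω) v := by
    funext ω; unfold bet; rw [hA.equi]
  rw [e1] at h1
  have h2 := condExp_comp hA.le (hA.mp g) (hA.comap g) (mv_int hA (g v))
  have e2 : (fun ω => mv L (g v) (A g ω)) = mv L v := by
    funext ω; unfold mv; rw [hA.equi]
  rw [e2] at h2
  filter_upwards [h1, h2] with ω h1 h2
  have e3 : bet (L (A g ω)) (g v) = bet (L ω) v := congrFun e1 ω
  have e4 : mv L (g v) (A g ω) = mv L v ω := congrFun e2 ω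
  unfold XX
  rw [h2, e3, e4]
  unfold bb
  rw [h1]

lemma mh_equi (hA : Ax G d θ 𝒢 P L A mT) (g : G ≃g G) (v : V) :
    ∀ᵐ ω ∂P, (mv L (g v) (A g ω) - (P[mv L (g v)|𝒢]) (A g ω)) ^ 2
      = (mv L v ω - (P[mv L v|𝒢]) ω) ^ 2 := by
  have := hA.prob
  have h2 := condExp_comp hA.le (hA.mp g) (hA.comap g) (mv_int hA (g v))
  have e2 : (fun ω => mv L (g v) (A g ω)) = mv L v := by
    funext ω; unfold mv; rw [hA.equi]
  rw [e2] at h2
  filter_upwards [h2] with ω h2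
  have e4 : mv L (g v) (A g ω) = mv L v ω := congrFun e2 ω
  rw [h2, e4]

lemma SS_equi (hA : Ax G d θ 𝒢 P L A mT) (g : G ≃g G) (v w : V) (ω : Ω) :
    SS G θ (L (A g ω)) (g v) (g w) = SS G θ (L ω) v w := by
  unfold SS
  rw [dist_iso g hA.h.tree.connected]
  apply Finset.sum_congr rfl
  intro i _
  rw [gp_iso hA.h.tree, gp_iso hA.h.tree]
  exact el_equi hA g _ _ ω

lemma SB_equi (hA : Ax G d θ 𝒢 P L A mT) (g : G ≃g G) (v w : V) :
    ∀ᵐ ω ∂P, SB G θ P 𝒢 L mT (g v) (g w) (A g ω) = SB G θ P 𝒢 L mT v w ω := by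
  have h1 : ∀ᵐ ω ∂P, ∀ i : ℕ, eb θ P 𝒢 L mT (g (gp G v w i)) (g (gp G v w (i + 1))) (A g ω)
      = eb θ P 𝒢 L mT (gp G v w i) (gp G v w (i + 1)) ω :=
    ae_all_iff.2 fun i => eb_equi hA g _ _
  filter_upwards [h1] with ω h1
  unfold SB
  rw [dist_iso g hA.h.tree.connected]
  apply Finset.sum_congr rfl
  intro i _
  rw [gp_iso hA.h.tree, gp_iso hA.h.tree, h1 i]

lemma P1_equi (hA : Ax G d θ 𝒢 P L A mT) (g : G ≃g G) (v w : V) (j : ℕ) :
    ∀ᵐ ω ∂P, P1 G θ P 𝒢 L mT (g v) (g w) j (A g ω) = P1 G θ P 𝒢 L mT v w j ω := by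
  have h1 : ∀ᵐ ω ∂P, ∀ i : ℕ, ze θ P 𝒢 L mT (g (gp G v w i)) (g (gp G v w (i + 1))) (A g ω)
      = ze θ P 𝒢 L mT (gp G v w i) (gp G v w (i + 1)) ω :=
    ae_all_iff.2 fun i => ze_equi hA g _ _
  filter_upwards [h1] with ω h1
  unfold P1
  apply Finset.sum_congr rfl
  intro i _
  rw [gp_iso hA.h.tree, gp_iso hA.h.tree, h1 i]

/-- exchanging the two arguments -/
lemma swap (hA : Ax G d θ 𝒢 P L A mT) (F : V → V → Ω → ℝ) (hF : ∀ v w, Measurable (F v w))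
    (hE : ∀ (g : G ≃g G) (v w : V), ∀ᵐ ω ∂P, F (g v) (g w) (A g ω) = F v w ω) (v w : V) :
    ∫ ω, F v w ω ∂P = ∫ ω, F w v ω ∂P := by
  have := hA.prob
  obtain ⟨g, h1, h2⟩ := hA.hom v w w v SimpleGraph.dist_comm
  have h3 := integral_mp (hA.mp g) (hF w v).aestronglyMeasurable
  rw [← h3]
  apply integral_congr_ae
  have h4 := hE g v w
  rw [h1, h2] at h4
  filter_upwards [h4] with ω h4
  rw [h4]

lemma trans1 (hA : Ax G d θ 𝒢 P L A mT) (F : V → Ω → ℝ) (hF : ∀ v, Measurable (F v))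
    (hE : ∀ (g : G ≃g G) (v : V), ∀ᵐ ω ∂P, F (g v) (A g ω) = F v ω) (v w : V) :
    ∫ ω, F v ω ∂P = ∫ ω, F w ω ∂P := by
  have := hA.prob
  obtain ⟨g, h1, _⟩ := hA.hom v v w w (by simp)
  have h3 := integral_mp (hA.mp g) (hF w).aestronglyMeasurable
  rw [← h3]
  apply integral_congr_ae
  have h4 := hE g v
  rw [h1] at h4
  filter_upwards [h4] with ω h4
  rw [h4]

end Vale.Agent.P161C.SIS
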