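import Vale.Agent.P161C.SIS2

/-!
# SIS, expectation bounds
-/

namespace Vale.Agent.P161C.SIS

open MeasureTheory Vale.Agent.P161 Filter Topology Vale.Agent.P161C.Gp Vale.Agent.P161C.CE

universe u v

variable {V : Type u} {G : SimpleGraph V} {d : ℕ} {θ : ℝ} {Ω : Type v}
  {𝒢 m0 : MeasurableSpace Ω} {P : Measure Ω} {L : Ω → V → V → ℝ} {A : (G ≃g G) → Ω → Ω} {mT : ℝ}

lemma aa_meas (hA : Ax G d θ 𝒢 P L A mT) (x p : V) (k : ℕ) :
    Measurable fun ω => aa G θ (fun u p => Real.tanh (L ω u p)) x p k := by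
  unfold aa pw
  refine measurable_const.mul (Finset.measurable_sum _ fun w _ => ?_)
  refine Finset.measurable_prod _ fun i _ => ?_
  exact measurable_const.sub (measurable_const.mul
    ((measurable_tanh'.comp (hA.meas _ _)).pow_const 2))

/-- sum of a field of functions beyond `j` -/
lemma Sge_meas {c : V → V → Ω → ℝ} (hc : ∀ u p, Measurable (c u p)) (v w : V) (j : ℕ) :
    Measurable fun ω => Sge G (fun u p => c u p ω) v w j := by
  unfold Sge
  exact Finset.measurable_sum _ fun i _ => hc _ _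

lemma bdd_int (hA : Ax G d θ 𝒢 P L A mT) {f : Ω → ℝ} (hf : Measurable f) {B : ℝ}
    (h0 : ∀ ω, 0 ≤ f ω) (h1 : ∀ ω, f ω ≤ B) : Integrable f P := by
  have := hA.prob
  refine integrable_of_bdd hf (B := B) fun ω => ?_
  rw [abs_of_nonneg (h0 ω)]
  exact h1 ω

lemma Sge_nonneg {c : V → V → ℝ} (hc : ∀ u p, 0 ≤ c u p) (v w : V) (j : ℕ) :
    0 ≤ Sge G c v w j := by
  unfold Sge
  exact Finset.sum_nonneg fun i _ => hc _ _

lemma mul_exp_int (hA : Ax G d θ 𝒢 P L A mT) {f g : Ω → ℝ} (hf : Measurable f) {B : ℝ}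
    (h0 : ∀ ω, 0 ≤ f ω) (h1 : ∀ ω, f ω ≤ B) (hg : Measurable g) (hg0 : ∀ ω, 0 ≤ g ω) :
    Integrable (fun ω => f ω * Real.exp (-2 * g ω)) P := by
  refine bdd_int hA (hf.mul (Real.measurable_exp.comp (hg.const_mul (-2)))) (B := B)
    (fun ω => mul_nonneg (h0 ω) (Real.exp_pos _).le) (fun ω => ?_)
  exact (mul_le_of_le_one_right (h0 ω) (exp_neg_two_le (hg0 ω))).trans (h1 ω)

lemma el_Sge_meas (hA : Ax G d θ 𝒢 P L A mT) (v w : V) (j : ℕ) :
    Measurable fun ω => Sge G (ell θ (L ω)) v w j :=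
  Sge_meas (c := el θ L) (fun u p => el_meas hA u p) v w j

lemma el_Sge_nonneg (hA : Ax G d θ 𝒢 P L A mT) (v w : V) (j : ℕ) (ω : Ω) :
    0 ≤ Sge G (ell θ (L ω)) v w j := Sge_nonneg (fun u p => (hA.alg (L ω) u p).1) v w j

lemma gatherE (hA : Ax G d θ 𝒢 P L A mT) (o : V) {j n : ℕ} (hj : 1 ≤ j) (hjn : j ≤ n)
    (f : V → Ω → ℝ) (hfm : ∀ x, Measurable (f x)) (hf0 : ∀ x ω, 0 ≤ f x ω) {Bf : ℝ}
    (hfB : ∀ x ω, f x ω ≤ Bf) {C : ℝ} (hC0 : 0 ≤ C)
    (hC : ∀ x, G.dist o x = j →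
      ∫ ω, f x ω * aa G θ (fun u p => Real.tanh (L ω u p)) x (gp G o x (j - 1)) (n - j) ∂P ≤ C) :
    θ ^ (2 * n) * ∑ w ∈ sphF G o n,
        ∫ ω, f (gp G o w j) ω * Real.exp (-2 * Sge G (ell θ (L ω)) o w j) ∂P ≤ 2 * C := by
  have hp := hA.prob
  have i1 : ∀ w ∈ sphF G o n, Integrable (fun ω => f (gp G o w j) ω
      * Real.exp (-2 * Sge G (ell θ (L ω)) o w j)) P := fun w _ =>
    mul_exp_int hA (hfm _) (hf0 _) (hfB _) (el_Sge_meas hA o w j) (el_Sge_nonneg hA o w j)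
  have hadj : ∀ x ∈ sphF G o j, G.Adj x (gp G o x (j - 1)) := by
    intro x hx
    rw [mem_sphF hA.h] at hx
    have h1 := gp_adj hA.h.tree (v := o) (w := x) (i := j - 1) (by omega)
    have e : j - 1 + 1 = G.dist o x := by omega
    rw [e, gp_last hA.h.tree] at h1
    exact h1.symm
  have i2 : ∀ x ∈ sphF G o j, Integrable (fun ω => f x ω
      * aa G θ (fun u p => Real.tanh (L ω u p)) x (gp G o x (j - 1)) (n - j)) P := by
    intro x hx
    refine bdd_int hA ((hfm x).mul (aa_meas hA x _ _)) (B := Bf)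
      (fun ω => mul_nonneg (hf0 x ω) (aa_nonneg hA.h (L ω) _ _ _)) (fun ω => ?_)
    exact (mul_le_of_le_one_right (hf0 x ω) (aa_le_one hA.h (L ω) (hadj x hx) _)).trans (hfB x ω)
  rw [← integral_finsetSum _ i1, ← integral_const_mul]
  have h1 : ∫ ω, θ ^ (2 * n) * ∑ w ∈ sphF G o n, f (gp G o w j) ω
        * Real.exp (-2 * Sge G (ell θ (L ω)) o w j) ∂P
      ≤ ∫ ω, θ ^ (2 * j) * ∑ x ∈ sphF G o j, f x ω
        * aa G θ (fun u p => Real.tanh (L ω u p)) x (gp G o x (j - 1)) (n - j) ∂P := by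
    apply integral_mono ((integrable_finsetSum _ i1).const_mul _)
      ((integrable_finsetSum _ i2).const_mul _)
    intro ω
    exact gather hA.h hA.alg (L ω) o hj hjn (fun x => f x ω) (fun x => hf0 x ω)
  refine h1.trans ?_
  rw [integral_const_mul, integral_finsetSum _ i2]
  have h2 : ∑ x ∈ sphF G o j, ∫ ω, f x ω
        * aa G θ (fun u p => Real.tanh (L ω u p)) x (gp G o x (j - 1)) (n - j) ∂P
      ≤ ((sphF G o j).card : ℝ) * C := by
    have := Finset.sum_le_card_nsmul (sphF G o j) (fun x => ∫ ω, f x ω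
        * aa G θ (fun u p => Real.tanh (L ω u p)) x (gp G o x (j - 1)) (n - j) ∂P) C
      (fun x hx => hC x ((mem_sphF hA.h).1 hx))
    rw [nsmul_eq_mul] at this
    exact this
  have h3 : 0 ≤ θ ^ (2 * j) := by have := hA.h.pos; positivity
  calc θ ^ (2 * j) * ∑ x ∈ sphF G o j, ∫ ω, f x ω
        * aa G θ (fun u p => Real.tanh (L ω u p)) x (gp G o x (j - 1)) (n - j) ∂P
      ≤ θ ^ (2 * j) * (((sphF G o j).card : ℝ) * C) := mul_le_mul_of_nonneg_left h2 h3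
    _ = (θ ^ (2 * j) * ((sphF G o j).card : ℝ)) * C := by ring
    _ ≤ 2 * C := mul_le_mul_of_nonneg_right (pow_mul_card_sphF_le hA.h o hj) hC0

lemma fA_le1 (hA : Ax G d θ 𝒢 P L A mT) {x p : V} (hxp : G.Adj x p) (k : ℕ) {f : Ω → ℝ}
    (hfm : Measurable f) (hf0 : ∀ ω, 0 ≤ f ω) {Bf : ℝ} (hfB : ∀ ω, f ω ≤ Bf) :
    ∫ ω, f ω * aa G θ (fun u p => Real.tanh (L ω u p)) x p k ∂P ≤ ∫ ω, f ω ∂P := by
  apply integral_mono
  · exact bdd_int hA (hfm.mul (aa_meas hA x p k)) (B := Bf)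
      (fun ω => mul_nonneg (hf0 ω) (aa_nonneg hA.h (L ω) _ _ _))
      (fun ω => (mul_le_of_le_one_right (hf0 ω) (aa_le_one hA.h (L ω) hxp _)).trans (hfB ω))
  · exact bdd_int hA hfm hf0 hfB
  · intro ω
    exact mul_le_of_le_one_right (hf0 ω) (aa_le_one hA.h (L ω) hxp _)

lemma fA_le2 (hA : Ax G d θ 𝒢 P L A mT) {x p : V} (hxp : G.Adj x p) (k : ℕ) {f : Ω → ℝ}
    (hfm : Measurable f) (hf0 : ∀ ω, 0 ≤ f ω) {Bf : ℝ} (hfB : ∀ ω, f ω ≤ Bf) {R E : ℝ}
    (hR : 0 ≤ R)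
    (htr : P.real {ω | R < aa G θ (fun u p => Real.tanh (L ω u p)) x p k} ≤ E) :
    ∫ ω, f ω * aa G θ (fun u p => Real.tanh (L ω u p)) x p k ∂P
      ≤ R * ∫ ω, f ω ∂P + Bf * E := by
  have hp := hA.prob
  set S := {ω | R < aa G θ (fun u p => Real.tanh (L ω u p)) x p k} with hS
  have hSm : MeasurableSet S := measurableSet_lt measurable_const (aa_meas hA x p k)
  obtain ⟨ω0⟩ : Nonempty Ω := nonempty_of_isProbabilityMeasure P
  have hBf : 0 ≤ Bf := (hf0 ω0).trans (hfB ω0)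
  have i1 : Integrable f P := bdd_int hA hfm hf0 hfB
  have i2 : Integrable (S.indicator fun _ => (1 : ℝ)) P := (integrable_const (1:ℝ)).indicator hSm
  have h1 : ∫ ω, f ω * aa G θ (fun u p => Real.tanh (L ω u p)) x p k ∂P
      ≤ ∫ ω, (R * f ω + Bf * S.indicator (fun _ => (1 : ℝ)) ω) ∂P := by
    apply integral_mono
    · exact bdd_int hA (hfm.mul (aa_meas hA x p k)) (B := Bf)
        (fun ω => mul_nonneg (hf0 ω) (aa_nonneg hA.h (L ω) _ _ _))
        (fun ω => (mul_le_of_le_one_right (hf0 ω) (aa_le_one hA.h (L ω) hxp _)).trans (hfB ω))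
    · exact (i1.const_mul R).add (i2.const_mul Bf)
    · intro ω
      simp only
      by_cases hω : ω ∈ S
      · rw [Set.indicator_of_mem hω, mul_one]
        have a1 := (mul_le_of_le_one_right (hf0 ω) (aa_le_one hA.h (L ω) hxp k)).trans (hfB ω)
        have a2 := mul_nonneg hR (hf0 ω)
        linarith
      · rw [Set.indicator_of_notMem hω, mul_zero, add_zero]
        have a3 : aa G θ (fun u p => Real.tanh (L ω u p)) x p k ≤ R := by
          by_contra hc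
          push Not at hc
          exact hω hc
        rw [mul_comm R]
        exact mul_le_mul_of_nonneg_left a3 (hf0 ω)
  refine h1.trans ?_
  rw [integral_add (i1.const_mul R) (i2.const_mul Bf), integral_const_mul, integral_const_mul,
    integral_indicator hSm, setIntegral_const, smul_eq_mul, mul_one]
  have := mul_le_mul_of_nonneg_left htr hBf
  linarith

/-! ### vertex terms -/

lemma int_XX_nonneg (v : V) : 0 ≤ ∫ ω, XX P 𝒢 L v ω ∂P := integral_nonneg fun ω => XX_nonneg v ω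

lemma SS_eq_Sge (L : V → V → ℝ) (v w : V) : SS G θ L v w = Sge G (ell θ L) v w 0 := by
  unfold SS Sge
  rw [Nat.Ico_zero_eq_range]

lemma Sge_le_SS (hA : Ax G d θ 𝒢 P L A mT) (v w : V) (j : ℕ) (ω : Ω) :
    Sge G (ell θ (L ω)) v w j ≤ SS G θ (L ω) v w :=
  Sge_le (ell θ (L ω)) (fun u p => (hA.alg (L ω) u p).1) v w j

lemma vertex_le (hA : Ax G d θ 𝒢 P L A mT) (o : V) (n : ℕ) :
    θ ^ (2 * n) * ∑ w ∈ sphF G o n, ∫ ω, XX P 𝒢 L o ω * Real.exp (-2 * SS G θ (L ω) o w) ∂P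
      ≤ 2 * ∫ ω, XX P 𝒢 L o ω ∂P := by
  have hH := int_XX_nonneg (P := P) (𝒢 := 𝒢) (L := L) o
  rcases Nat.eq_zero_or_pos n with rfl | hn
  · have e : sphF G o 0 = {o} := by
      ext w
      rw [mem_sphF hA.h, Finset.mem_singleton, hA.h.tree.connected.dist_eq_zero_iff]
      exact eq_comm
    rw [e, Finset.sum_singleton, mul_zero, pow_zero, one_mul]
    have h1 : ∫ ω, XX P 𝒢 L o ω * Real.exp (-2 * SS G θ (L ω) o o) ∂P
        ≤ ∫ ω, XX P 𝒢 L o ω ∂P := by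
      apply integral_mono
        (mul_exp_int hA (XX_meas hA o) (XX_nonneg o) (XX_le o) (SS_meas hA o o) (SS_nonneg hA o o))
        (bdd_int hA (XX_meas hA o) (XX_nonneg o) (XX_le o))
      intro ω
      exact mul_le_of_le_one_right (XX_nonneg o ω) (exp_neg_two_le (SS_nonneg hA o o ω))
    linarith
  · have h1 := gatherE hA o (j := 1) (n := n) le_rfl hn (fun _ => XX P 𝒢 L o)
      (fun _ => XX_meas hA o) (fun _ => XX_nonneg o) (fun _ => XX_le o) hH
      (fun x hx => fA_le1 hA (by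
        have h1 := gp_adj hA.h.tree (v := o) (w := x) (i := 0) (by omega)
        have e : 0 + 1 = G.dist o x := by omega
        rw [e, gp_last hA.h.tree] at h1
        exact h1.symm) _ (XX_meas hA o) (XX_nonneg o) (XX_le o))
    refine le_trans ?_ h1
    apply mul_le_mul_of_nonneg_left _ (by have := hA.h.pos; positivity)
    apply Finset.sum_le_sum
    intro w _
    apply integral_mono
      (mul_exp_int hA (XX_meas hA o) (XX_nonneg o) (XX_le o) (SS_meas hA o w) (SS_nonneg hA o w))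
      (mul_exp_int hA (XX_meas hA o) (XX_nonneg o) (XX_le o) (el_Sge_meas hA o w 1)
        (el_Sge_nonneg hA o w 1))
    intro ω
    apply mul_le_mul_of_nonneg_left _ (XX_nonneg o ω)
    apply Real.exp_le_exp.2
    have := Sge_le_SS hA o w 1 ω
    linarith

lemma vertex_le2 (hA : Ax G d θ 𝒢 P L A mT) {r : ℝ} (hr : 0 ≤ r)
    (htr : ∀ (u p : V) (k : ℕ), G.Adj u p →
      P.real {ω | 4 * r ^ (k / 2) < aa G θ (fun u p => Real.tanh (L ω u p)) u p k}
        ≤ Real.exp (-2 * (√2) ^ (k / 2))) (o : V) {n : ℕ} (hn : 1 ≤ n) :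
    θ ^ (2 * n) * ∑ w ∈ sphF G o n, ∫ ω, XX P 𝒢 L o ω * Real.exp (-2 * SS G θ (L ω) o w) ∂P
      ≤ 2 * (4 * r ^ ((n - 1) / 2) * ∫ ω, XX P 𝒢 L o ω ∂P
        + 5 * Real.exp (-2 * (√2) ^ ((n - 1) / 2))) := by
  have hH := int_XX_nonneg (P := P) (𝒢 := 𝒢) (L := L) o
  have h1 := gatherE hA o (j := 1) (n := n) le_rfl hn (fun _ => XX P 𝒢 L o)
      (fun _ => XX_meas hA o) (fun _ => XX_nonneg o) (fun _ => XX_le o)
      (C := 4 * r ^ ((n - 1) / 2) * ∫ ω, XX P 𝒢 L o ω ∂P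
        + 5 * Real.exp (-2 * (√2) ^ ((n - 1) / 2))) (by positivity)
      (fun x hx => by
        have hadj : G.Adj x (gp G o x (1 - 1)) := by
          have h1 := gp_adj hA.h.tree (v := o) (w := x) (i := 0) (by omega)
          have e : 0 + 1 = G.dist o x := by omega
          rw [e, gp_last hA.h.tree] at h1
          exact h1.symm
        exact fA_le2 hA hadj _ (XX_meas hA o) (XX_nonneg o) (XX_le o) (by positivity)
          (htr x _ (n - 1) hadj))
  refine le_trans ?_ h1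
  apply mul_le_mul_of_nonneg_left _ (by have := hA.h.pos; positivity)
  apply Finset.sum_le_sum
  intro w _
  apply integral_mono
    (mul_exp_int hA (XX_meas hA o) (XX_nonneg o) (XX_le o) (SS_meas hA o w) (SS_nonneg hA o w))
    (mul_exp_int hA (XX_meas hA o) (XX_nonneg o) (XX_le o) (el_Sge_meas hA o w 1)
      (el_Sge_nonneg hA o w 1))
  intro ω
  apply mul_le_mul_of_nonneg_left _ (XX_nonneg o ω)
  apply Real.exp_le_exp.2
  have := Sge_le_SS hA o w 1 ω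
  linarith

/-! ### path terms -/

/-- square of the path error plus its conditional expectation -/
noncomputable def FX (G : SimpleGraph V) (θ : ℝ) (P : Measure Ω) (𝒢 : MeasurableSpace Ω)
    (L : Ω → V → V → ℝ) (mT : ℝ) (o x : V) (j : ℕ) (ω : Ω) : ℝ :=
  P1 G θ P 𝒢 L mT o x j ω ^ 2
    + ce P 𝒢 (((j : ℝ) * LB mT) ^ 2) (fun ω => P1 G θ P 𝒢 L mT o x j ω ^ 2) ω

lemma FX_meas (hA : Ax G d θ 𝒢 P L A mT) (o x : V) (j : ℕ) :
    Measurable (FX G θ P 𝒢 L mT o x j) := by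
  unfold FX
  exact ((P1_meas hA o x j).pow_const 2).add ((ce_meas (P := P) (𝒢 := 𝒢) _ _).mono hA.le le_rfl)

lemma FX_nonneg (o x : V) (j : ℕ) (ω : Ω) : 0 ≤ FX G θ P 𝒢 L mT o x j ω := by
  unfold FX
  have h1 := ce_nonneg (P := P) (𝒢 := 𝒢) (((j : ℝ) * LB mT) ^ 2)
    (fun ω => P1 G θ P 𝒢 L mT o x j ω ^ 2) ω
  have h2 := sq_nonneg (P1 G θ P 𝒢 L mT o x j ω)
  linarith

lemma FX_le (hA : Ax G d θ 𝒢 P L A mT) (o x : V) (j : ℕ) (ω : Ω) :
    FX G θ P 𝒢 L mT o x j ω ≤ 2 * ((j : ℝ) * LB mT) ^ 2 := by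
  unfold FX
  have h1 := ce_le (P := P) (𝒢 := 𝒢) (sq_nonneg ((j : ℝ) * LB mT))
    (fun ω => P1 G θ P 𝒢 L mT o x j ω ^ 2) ω
  have h2 := P1_sq_le hA o x j ω
  linarith

lemma P1_sq_int (hA : Ax G d θ 𝒢 P L A mT) (o x : V) (j : ℕ) :
    Integrable (fun ω => P1 G θ P 𝒢 L mT o x j ω ^ 2) P :=
  bdd_int hA ((P1_meas hA o x j).pow_const 2) (fun ω => sq_nonneg _) (P1_sq_le hA o x j)

lemma FX_int (hA : Ax G d θ 𝒢 P L A mT) (o x : V) (j : ℕ) :
    ∫ ω, FX G θ P 𝒢 L mT o x j ω ∂P = 2 * ∫ ω, P1 G θ P 𝒢 L mT o x j ω ^ 2 ∂P := by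
  have hp := hA.prob
  have h1 := ce_orth (P := P) hA.le (P1_sq_int hA o x j) (fun ω => sq_nonneg _)
    (P1_sq_le hA o x j) (g := fun _ => 1) measurable_const (C := 1) (by simp)
  simp only [mul_one] at h1
  have i2 : Integrable (ce P 𝒢 (((j : ℝ) * LB mT) ^ 2)
      (fun ω => P1 G θ P 𝒢 L mT o x j ω ^ 2)) P :=
    bdd_int hA ((ce_meas (P := P) (𝒢 := 𝒢) _ _).mono hA.le le_rfl) (ce_nonneg _ _)
      (ce_le (sq_nonneg _) _)
  rw [integral_sub (P1_sq_int hA o x j) i2] at h1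
  unfold FX
  rw [integral_add (P1_sq_int hA o x j) i2]
  linarith

lemma P1_prefix (hA : Ax G d θ 𝒢 P L A mT) {o w : V} {j : ℕ} (hj : j ≤ G.dist o w) :
    P1 G θ P 𝒢 L mT o (gp G o w j) j = P1 G θ P 𝒢 L mT o w j := by
  funext ω
  unfold P1
  apply Finset.sum_congr rfl
  intro i hi
  rw [Finset.mem_range] at hi
  rw [gp_prefix hA.h.tree (by omega) hj, gp_prefix hA.h.tree (by omega) hj]

/-- the sum of the conditional expectations beyond `j` -/
noncomputable def SgB (G : SimpleGraph V) (θ : ℝ) (P : Measure Ω) (𝒢 : MeasurableSpace Ω)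
    (L : Ω → V → V → ℝ) (mT : ℝ) (v w : V) (j : ℕ) (ω : Ω) : ℝ :=
  Sge G (fun u p => eb θ P 𝒢 L mT u p ω) v w j

lemma SgB_meas𝒢 (v w : V) (j : ℕ) : Measurable[𝒢] (SgB G θ P 𝒢 L mT v w j) := by
  unfold SgB Sge
  exact Finset.measurable_sum _ fun i _ => ce_meas (P := P) (𝒢 := 𝒢) _ _

lemma SgB_nonneg (v w : V) (j : ℕ) (ω : Ω) : 0 ≤ SgB G θ P 𝒢 L mT v w j ω :=
  Sge_nonneg (fun u p => eb_nonneg u p ω) v w j

lemma path_le (hA : Ax G d θ 𝒢 P L A mT) {o w : V} {j : ℕ} (hj : j ≤ G.dist o w) :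
    ∫ ω, P1 G θ P 𝒢 L mT o w j ω ^ 2 * (Real.exp (-2 * SS G θ (L ω) o w)
        + Real.exp (-2 * SB G θ P 𝒢 L mT o w ω)) ∂P
      ≤ ∫ ω, FX G θ P 𝒢 L mT o (gp G o w j) j ω
        * Real.exp (-2 * Sge G (ell θ (L ω)) o w j) ∂P := by
  have hp := hA.prob
  set R : Ω → ℝ := fun ω => P1 G θ P 𝒢 L mT o w j ω ^ 2 with hR
  set B2 : ℝ := ((j : ℝ) * LB mT) ^ 2 with hB2
  have hB20 : 0 ≤ B2 := sq_nonneg _
  have hRm : Measurable R := (P1_meas hA o w j).pow_const 2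
  have hR0 : ∀ ω, 0 ≤ R ω := fun ω => sq_nonneg _
  have hRB : ∀ ω, R ω ≤ B2 := P1_sq_le hA o w j
  have hRi : Integrable R P := bdd_int hA hRm hR0 hRB
  set cR := ce P 𝒢 B2 R with hcR
  have cRm : Measurable[𝒢] cR := ce_meas _ _
  have cRm' : Measurable cR := cRm.mono hA.le le_rfl
  have cR0 : ∀ ω, 0 ≤ cR ω := ce_nonneg _ _
  have cRB : ∀ ω, cR ω ≤ B2 := ce_le hB20 _
  set E : Ω → ℝ := fun ω => Sge G (ell θ (L ω)) o w j with hE
  have hEm : Measurable E := el_Sge_meas hA o w j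
  have hE0 : ∀ ω, 0 ≤ E ω := el_Sge_nonneg hA o w j
  set B : Ω → ℝ := SgB G θ P 𝒢 L mT o w j with hB
  have hBm : Measurable[𝒢] B := SgB_meas𝒢 o w j
  have hBm' : Measurable B := hBm.mono hA.le le_rfl
  have hB0 : ∀ ω, 0 ≤ B ω := SgB_nonneg o w j
  have xBm : Measurable[𝒢] fun ω => Real.exp (-2 * B ω) :=
    Real.measurable_exp.comp (hBm.const_mul (-2))
  -- step c
  have hc : ∫ ω, R ω * Real.exp (-2 * B ω) ∂P = ∫ ω, cR ω * Real.exp (-2 * B ω) ∂P := by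
    have h1 := ce_orth (P := P) hA.le hRi hR0 hRB xBm (C := 1) (fun ω => by
      rw [abs_of_pos (Real.exp_pos _)]; exact exp_neg_two_le (hB0 ω))
    have e : ∀ ω, (R ω - ce P 𝒢 B2 R ω) * Real.exp (-2 * B ω)
        = R ω * Real.exp (-2 * B ω) - cR ω * Real.exp (-2 * B ω) := fun ω => by
      rw [← hcR]; ring
    simp only [e] at h1
    rw [integral_sub (mul_exp_int hA hRm hR0 hRB hBm' hB0)
      (mul_exp_int hA cRm' cR0 cRB hBm' hB0)] at h1
    linarith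
  -- step d
  set g : Ω → ℝ := fun ω => cR ω * Real.exp (-2 * B ω) with hg
  have hgm : Measurable[𝒢] g := cRm.mul xBm
  have hg0 : ∀ ω, 0 ≤ g ω := fun ω => mul_nonneg (cR0 ω) (Real.exp_pos _).le
  have hgB : ∀ ω, |g ω| ≤ B2 := fun ω => by
    rw [abs_of_nonneg (hg0 ω)]
    exact (mul_le_of_le_one_right (cR0 ω) (exp_neg_two_le (hB0 ω))).trans (cRB ω)
  have hi : ∀ i ∈ Finset.Ico j (G.dist o w), Integrable (fun ω =>
      (el θ L (gp G o w i) (gp G o w (i + 1)) ω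
        - ce P 𝒢 (LB mT) (el θ L (gp G o w i) (gp G o w (i + 1))) ω) * g ω) P := by
    intro i _
    refine integrable_of_bdd (((el_meas hA _ _).sub (eb_meas hA _ _)).mul
      (hgm.mono hA.le le_rfl)) (B := LB mT * B2) fun ω => ?_
    rw [abs_mul]
    exact mul_le_mul (ze_le hA _ _ ω) (hgB ω) (abs_nonneg _) (LB_nonneg hA.mpos hA.mlt)
  have hz : ∫ ω, (E ω - B ω) * g ω ∂P = 0 := by
    have e : ∀ ω, (E ω - B ω) * g ω = ∑ i ∈ Finset.Ico j (G.dist o w),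
        (el θ L (gp G o w i) (gp G o w (i + 1)) ω
          - ce P 𝒢 (LB mT) (el θ L (gp G o w i) (gp G o w (i + 1))) ω) * g ω := by
      intro ω
      rw [← Finset.sum_mul, Finset.sum_sub_distrib]
      rfl
    simp only [e]
    rw [integral_finsetSum _ hi]
    apply Finset.sum_eq_zero
    intro i _
    exact ce_orth (P := P) hA.le (el_int hA _ _) (el_nonneg hA _ _) (el_le hA _ _) hgm hgB
  have i3 : Integrable (fun ω => (E ω - B ω) * g ω) P := by
    have e : (fun ω => (E ω - B ω) * g ω) = fun ω => ∑ i ∈ Finset.Ico j (G.dist o w),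
        (el θ L (gp G o w i) (gp G o w (i + 1)) ω
          - ce P 𝒢 (LB mT) (el θ L (gp G o w i) (gp G o w (i + 1))) ω) * g ω := by
      funext ω
      rw [← Finset.sum_mul, Finset.sum_sub_distrib]
      rfl
    rw [e]
    exact integrable_finsetSum _ hi
  have hd : ∫ ω, cR ω * Real.exp (-2 * B ω) ∂P ≤ ∫ ω, cR ω * Real.exp (-2 * E ω) ∂P := by
    have h1 : ∫ ω, cR ω * Real.exp (-2 * B ω) ∂P
        ≤ ∫ ω, (cR ω * Real.exp (-2 * E ω) + 2 * ((E ω - B ω) * g ω)) ∂P := by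
      apply integral_mono (mul_exp_int hA cRm' cR0 cRB hBm' hB0)
        ((mul_exp_int hA cRm' cR0 cRB hEm hE0).add (i3.const_mul 2))
      intro ω
      have t1 := Real.add_one_le_exp (-2 * (E ω - B ω))
      have t2 : Real.exp (-2 * E ω) = Real.exp (-2 * B ω) * Real.exp (-2 * (E ω - B ω)) := by
        rw [← Real.exp_add]; congr 1; ring
      have t3 : Real.exp (-2 * B ω) * (-2 * (E ω - B ω) + 1) ≤ Real.exp (-2 * E ω) := by
        rw [t2]; exact mul_le_mul_of_nonneg_left t1 (Real.exp_pos _).le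
      have t4 := mul_le_mul_of_nonneg_left t3 (cR0 ω)
      change cR ω * Real.exp (-2 * B ω) ≤ cR ω * Real.exp (-2 * E ω)
        + 2 * ((E ω - B ω) * (cR ω * Real.exp (-2 * B ω)))
      nlinarith
    rw [integral_add (mul_exp_int hA cRm' cR0 cRB hEm hE0) (i3.const_mul 2),
      integral_const_mul, hz, mul_zero, add_zero] at h1
    exact h1
  -- steps a, b
  have ha : ∀ ω, Real.exp (-2 * SS G θ (L ω) o w) ≤ Real.exp (-2 * E ω) := fun ω => by
    apply Real.exp_le_exp.2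
    have := Sge_le_SS hA o w j ω
    simp only [hE]; linarith
  have hb : ∀ ω, Real.exp (-2 * SB G θ P 𝒢 L mT o w ω) ≤ Real.exp (-2 * B ω) := fun ω => by
    apply Real.exp_le_exp.2
    have := Sge_le (G := G) (fun u p => eb θ P 𝒢 L mT u p ω) (fun u p => eb_nonneg u p ω) o w j
    have e : B ω = Sge G (fun u p => eb θ P 𝒢 L mT u p ω) o w j := rfl
    have e2 : SB G θ P 𝒢 L mT o w ω = ∑ i ∈ Finset.range (G.dist o w),
      (fun u p => eb θ P 𝒢 L mT u p ω) (gp G o w i) (gp G o w (i + 1)) := rfl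
    rw [e, e2]
    linarith
  have i4 : Integrable (fun ω => R ω * (Real.exp (-2 * SS G θ (L ω) o w)
        + Real.exp (-2 * SB G θ P 𝒢 L mT o w ω))) P := by
    simp only [mul_add]
    exact (mul_exp_int hA hRm hR0 hRB (SS_meas hA o w) (SS_nonneg hA o w)).add
      (mul_exp_int hA hRm hR0 hRB (SB_meas hA o w) (SB_nonneg o w))
  have h5 : ∫ ω, R ω * (Real.exp (-2 * SS G θ (L ω) o w)
        + Real.exp (-2 * SB G θ P 𝒢 L mT o w ω)) ∂P
      ≤ ∫ ω, (R ω * Real.exp (-2 * E ω) + R ω * Real.exp (-2 * B ω)) ∂P := by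
    apply integral_mono i4 ((mul_exp_int hA hRm hR0 hRB hEm hE0).add
      (mul_exp_int hA hRm hR0 hRB hBm' hB0))
    intro ω
    change R ω * (Real.exp (-2 * SS G θ (L ω) o w) + Real.exp (-2 * SB G θ P 𝒢 L mT o w ω))
      ≤ R ω * Real.exp (-2 * E ω) + R ω * Real.exp (-2 * B ω)
    rw [← mul_add]
    exact mul_le_mul_of_nonneg_left (add_le_add (ha ω) (hb ω)) (hR0 ω)
  refine h5.trans ?_
  rw [integral_add (mul_exp_int hA hRm hR0 hRB hEm hE0) (mul_exp_int hA hRm hR0 hRB hBm' hB0), hc]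
  have e6 : ∫ ω, FX G θ P 𝒢 L mT o (gp G o w j) j ω * Real.exp (-2 * E ω) ∂P
      = ∫ ω, R ω * Real.exp (-2 * E ω) ∂P + ∫ ω, cR ω * Real.exp (-2 * E ω) ∂P := by
    rw [← integral_add (mul_exp_int hA hRm hR0 hRB hEm hE0) (mul_exp_int hA cRm' cR0 cRB hEm hE0)]
    congr 1
    funext ω
    unfold FX
    rw [P1_prefix hA hj]
    rw [add_mul]
  rw [e6]
  linarith

end Vale.Agent.P161C.SIS
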