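import Vale.Agent.P161C.Plan
import Vale.Agent.P161C.RT

/-!
# P161 critical point: base lemmas for SUMJ (geodesics, fields, messages in finite volume)
-/

namespace Vale.Agent.P161C.SumB

open MeasureTheory Vale.Agent.P161 Filter Topology

universe u

variable {V : Type u} {G : SimpleGraph V} {d : ℕ} {θ : ℝ}

/-! ## Elementary facts -/

lemma crit_two_le (hc : Crit G d θ) : (2 : ℝ) ≤ (d : ℝ) - 1 := by
  have := hc.hd
  have h : (3 : ℝ) ≤ d := by exact_mod_cast this
  linarith

lemma crit_sq_le (hc : Crit G d θ) : θ ^ 2 ≤ 1 / 2 := by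
  have h1 := crit_two_le hc
  have h2 := hc.crit
  have h3 : 0 ≤ θ ^ 2 := sq_nonneg θ
  nlinarith

lemma crit_lt_one (hc : Crit G d θ) : θ < 1 := by
  have h1 := crit_sq_le hc
  nlinarith [hc.pos]

lemma mem_nb (hc : Crit G d θ) {u c : V} : c ∈ nb G u ↔ G.Adj u c := by
  classical
  have hfin : (G.neighborSet u).Finite :=
    neighborSet_finite (by have := hc.hd; omega) hc.reg u
  unfold nb
  rw [dif_pos hfin]
  simp

lemma mem_sphF (hc : Crit G d θ) {v w : V} {k : ℕ} : w ∈ sphF G v k ↔ G.dist v w = k := by
  classical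
  have hfin : {w | G.dist v w = k}.Finite := by
    have h := sph_finite hc.tree.connected (by have := hc.hd; omega) hc.reg v k
    refine h.subset ?_
    intro x hx
    have hx' : G.dist v x = k := hx
    change G.dist x v = k
    rw [SimpleGraph.dist_comm, hx']
  unfold sphF
  rw [dif_pos hfin]
  simp

/-- the neighbour closer to `w` is unique -/
lemma closer_unique (hG : G.IsTree) {u p c w : V} (hp : G.Adj u p) (hcc : G.Adj u c)
    (h1 : G.dist w u = G.dist w p + 1) (h2 : G.dist w u = G.dist w c + 1) : c = p := by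
  by_contra hne
  have h3 : G.dist c p = G.dist u p + 1 := by
    rcases dist_split hG hcc p with h | h
    · exact h
    · exfalso
      have h4 : G.dist u p = 1 := SimpleGraph.dist_eq_one_iff_adj.2 hp
      have h5 : G.dist c p = 0 := by omega
      exact hne ((hG.connected.dist_eq_zero_iff).1 h5)
  have h6 := dist_cross hG hcc.symm (w := w) (u := p)
    (by rw [SimpleGraph.dist_comm (u := u), SimpleGraph.dist_comm (u := c)]; omega) h3
  have h4 : G.dist u p = 1 := SimpleGraph.dist_eq_one_iff_adj.2 hp
  rw [SimpleGraph.dist_comm (u := c) (v := w)] at h6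
  omega

lemma dist_child (hG : G.IsTree) {u p c v : V} (hp : G.Adj u p) (hcc : G.Adj u c) (hne : c ≠ p)
    (h1 : G.dist v u = G.dist v p + 1) : G.dist v c = G.dist v u + 1 := by
  rcases dist_split hG hcc v with h | h
  · rw [SimpleGraph.dist_comm (u := c), SimpleGraph.dist_comm (u := u)] at h
    exact h
  · exfalso
    rw [SimpleGraph.dist_comm (u := c), SimpleGraph.dist_comm (u := u)] at h
    exact hne (closer_unique hG hp hcc h1 h)

open Classical in
/-- all the neighbours of `u` except `p` are farther from `v` -/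
def Away (G : SimpleGraph V) (v u p : V) : Prop :=
  ∀ c ∈ (nb G u).erase p, G.Adj u c ∧ G.dist v c = G.dist v u + 1

lemma away_of_adj (hc : Crit G d θ) {v u p : V} (hp : G.Adj u p)
    (h : G.dist v u = G.dist v p + 1) : Away G v u p := by
  classical
  intro c hcm
  rw [Finset.mem_erase, mem_nb hc] at hcm
  exact ⟨hcm.2, dist_child hc.tree hp hcm.2 hcm.1 h⟩

lemma away_root (hc : Crit G d θ) (v : V) : Away G v v v := by
  classical
  intro c hcm
  rw [Finset.mem_erase, mem_nb hc] at hcm
  refine ⟨hcm.2, ?_⟩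
  rw [SimpleGraph.dist_self, SimpleGraph.dist_eq_one_iff_adj.2 hcm.2]

lemma away_child (hc : Crit G d θ) {v u c : V} (hcc : G.Adj u c)
    (h : G.dist v c = G.dist v u + 1) : Away G v c u := away_of_adj hc hcc.symm h

/-! ## Geodesics -/

lemma gp_exists (hG : G.Connected) (v w : V) {i : ℕ} (hi : i ≤ G.dist v w) :
    ∃ x, G.dist v x = i ∧ G.dist v x + G.dist x w = G.dist v w := by
  induction i with
  | zero => exact ⟨v, by simp, by simp⟩
  | succ i ih =>
    obtain ⟨x, h1, h2⟩ := ih (by omega)
    have h3 : G.dist x w = (G.dist v w - i - 1) + 1 := by omega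
    obtain ⟨x', h4, h5⟩ := exists_closer hG h3
    have h6 := hG.dist_triangle (u := v) (v := x) (w := x')
    rw [SimpleGraph.dist_eq_one_iff_adj.2 h4] at h6
    have h7 := hG.dist_triangle (u := v) (v := x') (w := w)
    exact ⟨x', by omega, by omega⟩

lemma gp_spec (hG : G.Connected) (v w : V) {i : ℕ} (hi : i ≤ G.dist v w) :
    G.dist v (gp G v w i) = i ∧ G.dist v (gp G v w i) + G.dist (gp G v w i) w = G.dist v w := by
  have h := gp_exists hG v w hi
  unfold gp
  rw [dif_pos h]
  exact h.choose_spec

lemma geo_unique (hG : G.IsTree) (v w : V) : ∀ (i : ℕ) (x y : V), G.dist v x = i →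
    G.dist v x + G.dist x w = G.dist v w → G.dist v y = i →
    G.dist v y + G.dist y w = G.dist v w → x = y := by
  intro i
  induction i with
  | zero =>
    intro x y h1 _ h3 _
    rw [← (hG.connected.dist_eq_zero_iff).1 h1, ← (hG.connected.dist_eq_zero_iff).1 h3]
  | succ i ih =>
    intro x y h1 h2 h3 h4
    have hx : G.dist x v = i + 1 := by rw [SimpleGraph.dist_comm]; exact h1
    have hy : G.dist y v = i + 1 := by rw [SimpleGraph.dist_comm]; exact h3
    obtain ⟨x', ax, dx⟩ := exists_closer hG.connected hx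
    obtain ⟨y', ay, dy⟩ := exists_closer hG.connected hy
    rw [SimpleGraph.dist_comm] at dx dy
    have tx := hG.connected.dist_triangle (u := x') (v := x) (w := w)
    have ty := hG.connected.dist_triangle (u := y') (v := y) (w := w)
    rw [SimpleGraph.dist_eq_one_iff_adj.2 ax.symm] at tx
    rw [SimpleGraph.dist_eq_one_iff_adj.2 ay.symm] at ty
    have tx2 := hG.connected.dist_triangle (u := v) (v := x') (w := w)
    have ty2 := hG.connected.dist_triangle (u := v) (v := y') (w := w)
    have e : x' = y' := ih x' y' dx (by omega) dy (by omega)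
    subst e
    have ex : G.dist w x' = G.dist w x + 1 := by
      rw [SimpleGraph.dist_comm (u := w), SimpleGraph.dist_comm (u := w)]; omega
    have ey : G.dist w x' = G.dist w y + 1 := by
      rw [SimpleGraph.dist_comm (u := w), SimpleGraph.dist_comm (u := w)]; omega
    exact closer_unique hG ay.symm ax.symm ey ex

lemma gp_adj (hG : G.IsTree) (v w : V) {i : ℕ} (hi : i + 1 ≤ G.dist v w) :
    G.Adj (gp G v w (i + 1)) (gp G v w i) := by
  obtain ⟨h1, h2⟩ := gp_spec hG.connected v w hi
  obtain ⟨h3, h4⟩ := gp_spec hG.connected v w (i := i) (by omega)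
  obtain ⟨x', ax, dx⟩ := exists_closer hG.connected
    (show G.dist (gp G v w (i + 1)) v = i + 1 by rw [SimpleGraph.dist_comm]; exact h1)
  rw [SimpleGraph.dist_comm] at dx
  have tx := hG.connected.dist_triangle (u := x') (v := gp G v w (i + 1)) (w := w)
  rw [SimpleGraph.dist_eq_one_iff_adj.2 ax.symm] at tx
  have tx2 := hG.connected.dist_triangle (u := v) (v := x') (w := w)
  have e : x' = gp G v w i := geo_unique hG v w i _ _ dx (by omega) h3 h4
  rw [← e]
  exact ax

/-! ## One-dimensional functions -/

lemma tanh_at {x : ℝ} (hx : |x| < 1) : Real.tanh (at' x) = x := by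
  have h := abs_lt.1 hx
  have h1 : 0 < 1 + x := by linarith
  have h2 : 0 < 1 - x := by linarith
  have hr : 0 < (1 + x) / (1 - x) := div_pos h1 h2
  unfold at'
  rw [Real.tanh_eq_sinh_div_cosh, Real.sinh_eq, Real.cosh_eq]
  set e := Real.exp (Real.log ((1 + x) / (1 - x)) / 2) with he
  have he0 : 0 < e := Real.exp_pos _
  have hee : e ^ 2 = (1 + x) / (1 - x) := by
    rw [he, ← Real.exp_nat_mul]
    rw [show ((2 : ℕ) : ℝ) * (Real.log ((1 + x) / (1 - x)) / 2)
      = Real.log ((1 + x) / (1 - x)) by push_cast; ring, Real.exp_log hr]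
  rw [Real.exp_neg, ← he]
  have h3 : e ^ 2 * (1 - x) = 1 + x := by rw [hee]; field_simp
  have h4 : e + e⁻¹ ≠ 0 := by positivity
  rw [div_div_div_cancel_right₀ two_ne_zero, div_eq_iff h4]
  field_simp
  linarith

lemma abs_tanh_lt (x : ℝ) : |Real.tanh x| < 1 := by
  rw [abs_lt]
  exact ⟨Real.neg_one_lt_tanh x, Real.tanh_lt_one x⟩

lemma measurable_tanh : Measurable Real.tanh := by
  have : Real.tanh = fun x => Real.sinh x / Real.cosh x := by
    funext x; exact Real.tanh_eq_sinh_div_cosh x
  rw [this]
  exact Real.measurable_sinh.div Real.measurable_cosh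

lemma continuous_tanh : Continuous Real.tanh := by
  have : Real.tanh = fun x => Real.sinh x / Real.cosh x := by
    funext x; exact Real.tanh_eq_sinh_div_cosh x
  rw [this]
  exact Real.continuous_sinh.div Real.continuous_cosh (fun x => (Real.cosh_pos x).ne')

lemma measurable_at : Measurable at' := by
  unfold at'
  exact (Real.measurable_log.comp ((measurable_const.add measurable_id).div
    (measurable_const.sub measurable_id))).div_const 2

lemma measurable_ff (θ : ℝ) : Measurable (ff θ) := by
  unfold ff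
  exact measurable_at.comp (measurable_const.mul measurable_tanh)

lemma ff_zero (θ : ℝ) : ff θ 0 = 0 := by
  unfold ff at'
  simp

lemma continuous_ff (hc : Crit G d θ) : Continuous (ff θ) := by
  unfold ff
  have hθ := crit_lt_one hc
  have h0 := hc.pos
  have key : ∀ l : ℝ, |θ * Real.tanh l| < 1 := by
    intro l
    rw [abs_mul, abs_of_pos h0]
    have := (abs_tanh_lt l).le
    nlinarith [abs_nonneg (Real.tanh l)]
  unfold at'
  have h1 : Continuous fun l : ℝ => θ * Real.tanh l := continuous_const.mul continuous_tanh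
  refine Continuous.div_const (Continuous.log ?_ ?_) 2
  · refine (continuous_const.add h1).div (continuous_const.sub h1) ?_
    intro l
    have := (abs_lt.1 (key l)).2
    linarith
  · intro l
    have h3 := abs_lt.1 (key l)
    have h4 : 0 < 1 + θ * Real.tanh l := by linarith [h3.1]
    have h5 : 0 < 1 - θ * Real.tanh l := by linarith [h3.2]
    exact (div_pos h4 h5).ne'

lemma dl_nonneg (t : I01) : 0 ≤ dl t := Real.sqrt_nonneg _

lemma dl_sq (t : I01) : dl t ^ 2 = (t : ℝ) * (1 - t) := by
  unfold dl
  exact Real.sq_sqrt (mul_nonneg t.2.1 (by linarith [t.2.2]))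

lemma dl_le (t : I01) : dl t ≤ 1 / 2 := by
  have h := dl_sq t
  have h2 := dl_nonneg t
  nlinarith [sq_nonneg ((t : ℝ) - 1 / 2)]

lemma measurable_dl : Measurable dl := by
  unfold dl
  exact Real.continuous_sqrt.measurable.comp (by fun_prop)

lemma abs_ep_le (ω : Om V) (k : V × ℕ) : |ep ω k| ≤ dl (ω.2.1 k) := by
  unfold ep
  rw [abs_mul, abs_of_nonneg (dl_nonneg _)]
  have : |2 * (obs ω k : ℝ) - 1| ≤ 1 := by
    rw [abs_le]; constructor <;> linarith [(obs ω k).2.1, (obs ω k).2.2]
  nlinarith [dl_nonneg (ω.2.1 k), abs_nonneg (2 * (obs ω k : ℝ) - 1)]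

lemma tanh_at_ep (ω : Om V) (k : V × ℕ) : Real.tanh (at' (ep ω k)) = ep ω k :=
  tanh_at (by linarith [abs_ep_le ω k, dl_le (ω.2.1 k)])

/-! ## Fields -/

open Classical in
/-- fields as functions of the labels and of the observations -/
noncomputable def fx (U : V × ℕ → I01) (J : ℕ) (I : Set (V × ℕ)) (x : V × ℕ → I01) (w : V) : ℝ :=
  ∑ j ∈ Finset.range J, if (w, j) ∈ I then at' (dl (U (w, j)) * (2 * (x (w, j) : ℝ) - 1)) else 0

lemma fld_eq_fx (J : ℕ) (I : Set (V × ℕ)) (ω : Om V) : fld J I ω = fx ω.2.1 J I (obs ω) := rfl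

lemma fx_congr {U : V × ℕ → I01} {J : ℕ} {I : Set (V × ℕ)} {x x' : V × ℕ → I01}
    (h : ∀ k ∈ I, x k = x' k) : fx U J I x = fx U J I x' := by
  funext w
  unfold fx
  apply Finset.sum_congr rfl
  intro j _
  by_cases hj : (w, j) ∈ I
  · rw [if_pos hj, if_pos hj, h _ hj]
  · rw [if_neg hj, if_neg hj]

/-- rounds that contain no event of `I` may be dropped -/
lemma fld_round {J J' : ℕ} {I : Set (V × ℕ)} (hJ : J ≤ J') (hI : ∀ k ∈ I, k.2 < J) (ω : Om V) :
    fld J' I ω = fld J I ω := by
  funext w
  unfold fld
  symm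
  apply Finset.sum_subset (Finset.range_mono hJ)
  intro j _ hj
  rw [if_neg]
  intro h
  exact hj (Finset.mem_range.2 (hI _ h))

lemma Is_lt {U : V × ℕ → I01} {s : ℝ} {k : V × ℕ} (h : k ∈ Is U s) : k.2 < ⌈s⌉₊ := by
  have h' : kap U k < s := h
  unfold kap at h'
  have h0 := (U k).2.1
  rw [Nat.lt_ceil]
  linarith

lemma yt_eq (ω : Om V) (s : ℝ) {J : ℕ} (hJ : ⌈s⌉₊ ≤ J) : yt s ω = fld J (Is ω.2.1 s) ω := by
  unfold yt
  rw [fld_round hJ (fun k hk => Is_lt hk)]

open Classical in
/-- adding one event -/
lemma fld_insert {J : ℕ} {I : Set (V × ℕ)} {k : V × ℕ} (hk : k ∉ I) (hJ : k.2 < J) (ω : Om V)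
    (w : V) : fld J (insert k I) ω w = fld J I ω w + if w = k.1 then at' (ep ω k) else 0 := by
  unfold fld
  by_cases hw : w = k.1
  · rw [if_pos hw]
    have hj : k.2 ∈ Finset.range J := Finset.mem_range.2 hJ
    rw [← Finset.add_sum_erase _ _ hj, ← Finset.add_sum_erase _ _ hj]
    have e : (w, k.2) = k := by rw [hw]
    rw [if_pos (by rw [e]; exact Set.mem_insert _ _), if_neg (by rw [e]; exact hk), e]
    rw [zero_add, add_comm]
    congr 1
    apply Finset.sum_congr rfl
    intro j hj
    have hne : (w, j) ≠ k := by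
      intro h
      exact (Finset.mem_erase.1 hj).1 (by rw [← h])
    by_cases h : (w, j) ∈ I
    · rw [if_pos h, if_pos (Set.mem_insert_of_mem _ h)]
    · rw [if_neg h, if_neg]
      intro h'
      rcases Set.mem_insert_iff.1 h' with h'' | h''
      · exact hne h''
      · exact h h''
  · rw [if_neg hw, add_zero]
    apply Finset.sum_congr rfl
    intro j _
    have hne : (w, j) ≠ k := by
      intro h
      exact hw (by rw [← h])
    by_cases h : (w, j) ∈ I
    · rw [if_pos h, if_pos (Set.mem_insert_of_mem _ h)]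
    · rw [if_neg h, if_neg]
      intro h'
      rcases Set.mem_insert_iff.1 h' with h'' | h''
      · exact hne h''
      · exact h h''

lemma measurable_obs (k : V × ℕ) : Measurable fun ω : Om V => obs ω k := by
  have h1 : Measurable fun ω : Om V => Qc (dl (ω.2.1 k)) 1 (ω.2.2 k) := by
    unfold Qc
    refine continuous_projIcc.measurable.comp ?_
    have h2 : Measurable fun ω : Om V => dl (ω.2.1 k) := measurable_dl.comp (by fun_prop)
    have h3 : Measurable fun ω : Om V => (ω.2.2 k : ℝ) := by fun_prop
    refine (measurable_const.mul h3).div (((measurable_const.sub (h2.mul_const 1)).add ?_))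
    refine Real.continuous_sqrt.measurable.comp ?_
    exact (((measurable_const.sub (h2.mul_const 1)).pow_const 2)).add
      (((measurable_const.mul h2).mul_const 1).mul h3)
  unfold obs
  refine Measurable.ite ?_ h1 (unitInterval.continuous_symm.measurable.comp h1)
  have : Measurable fun ω : Om V => ω.1 k.1 := by fun_prop
  exact this (measurableSet_singleton true)

lemma measurable_ep (k : V × ℕ) : Measurable fun ω : Om V => ep ω k := by
  unfold ep
  have h2 : Measurable fun ω : Om V => dl (ω.2.1 k) := measurable_dl.comp (by fun_prop)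
  have h3 := measurable_obs (V := V) k
  exact h2.mul ((measurable_const.mul (measurable_subtype_coe.comp h3)).sub_const 1)

/-- measurability of a field with a random set of events -/
lemma measurable_fld {α : Type*} [MeasurableSpace α] (J : ℕ) (I : α → Set (V × ℕ))
    (W : α → Om V) (hW : Measurable W) (hI : ∀ k, MeasurableSet {a | k ∈ I a}) (w : V) :
    Measurable fun a => fld J (I a) (W a) w := by
  classical
  unfold fld
  apply Finset.measurable_sum
  intro j _
  exact Measurable.ite (hI _) (measurable_at.comp ((measurable_ep _).comp hW)) measurable_const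

/-! ## Messages -/

lemma measurable_msg {α : Type*} [MeasurableSpace α] (Y : α → V → ℝ)
    (hY : ∀ w, Measurable fun a => Y a w) (n : ℕ) (u p : V) :
    Measurable fun a => msg G θ n (Y a) u p := by
  classical
  induction n generalizing u p with
  | zero => exact hY u
  | succ n ih =>
    unfold msg
    refine (hY u).add ?_
    apply Finset.measurable_sum
    intro c _
    exact (measurable_ff θ).comp (ih c u)

lemma measurable_Lm {α : Type*} [MeasurableSpace α] (Y : α → V → ℝ)
    (hY : ∀ w, Measurable fun a => Y a w) (u p : V) :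
    Measurable fun a => Lm G θ (Y a) u p := by
  unfold Lm
  exact ((Measurable.limsup fun n => measurable_msg Y hY n u p).add
    (Measurable.liminf fun n => measurable_msg Y hY n u p)).div_const 2

lemma measurable_Mm {α : Type*} [MeasurableSpace α] (Y : α → V → ℝ)
    (hY : ∀ w, Measurable fun a => Y a w) (u p : V) :
    Measurable fun a => Mm G θ (Y a) u p := measurable_tanh.comp (measurable_Lm Y hY u p)

lemma abs_Mm_le (y : V → ℝ) (u p : V) : |Mm G θ y u p| ≤ 1 := (abs_tanh_lt _).le

/-- the limiting messages solve the BP equations -/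
lemma bps_of_tendsto (hc : Crit G d θ) {y : V → ℝ}
    (h : ∀ u q, Tendsto (fun n => msg G θ n y u q) atTop (𝓝 (Lm G θ y u q))) :
    BPS G θ y (Lm G θ y) := by
  classical
  intro u p
  have h1 : Tendsto (fun n => msg G θ (n + 1) y u p) atTop (𝓝 (Lm G θ y u p)) :=
    (h u p).comp (tendsto_add_atTop_nat 1)
  have h2 : Tendsto (fun n => msg G θ (n + 1) y u p) atTop
      (𝓝 (y u + ∑ c ∈ (nb G u).erase p, ff θ (Lm G θ y c u))) := by
    unfold msg
    refine tendsto_const_nhds.add ?_
    apply tendsto_finsetSum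
    intro c _
    exact ((continuous_ff hc).tendsto _).comp (h c u)
  exact tendsto_nhds_unique h1 h2

/-- messages towards `w` from vertices other than `w` do not depend on the field at `w` -/
lemma msg_congr_away (hc : Crit G d θ) {y y' : V → ℝ} {w : V} (hy : ∀ x, x ≠ w → y' x = y x)
    (n : ℕ) : ∀ u p, G.Adj u p → G.dist w u = G.dist w p + 1 →
      msg G θ n y' u p = msg G θ n y u p := by
  classical
  induction n with
  | zero =>
    intro u p _ h2
    unfold msg
    apply hy
    intro h
    rw [h, SimpleGraph.dist_self] at h2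
    omega
  | succ n ih =>
    intro u p h1 h2
    unfold msg
    have hu : u ≠ w := by
      intro h
      rw [h, SimpleGraph.dist_self] at h2
      omega
    rw [hy u hu]
    congr 1
    apply Finset.sum_congr rfl
    intro c hcm
    obtain ⟨h3, h4⟩ := away_of_adj hc h1 h2 c hcm
    rw [ih c u h3.symm h4]

lemma Lm_congr_away (hc : Crit G d θ) {y y' : V → ℝ} {w : V} (hy : ∀ x, x ≠ w → y' x = y x)
    (u p : V) (h1 : G.Adj u p) (h2 : G.dist w u = G.dist w p + 1) :
    Lm G θ y' u p = Lm G θ y u p := by
  unfold Lm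
  simp_rw [fun n => msg_congr_away hc hy n u p h1 h2]

lemma msg_zero (n : ℕ) (u p : V) : msg G θ n (fun _ => (0 : ℝ)) u p = 0 := by
  induction n generalizing u p with
  | zero => rfl
  | succ n ih =>
    unfold msg
    simp [ih, ff_zero]

lemma Lm_of_eventually {y : V → ℝ} {u p : V} {a : ℝ} {N : ℕ}
    (h : ∀ n, N ≤ n → msg G θ n y u p = a) : Lm G θ y u p = a := by
  have h1 : Tendsto (fun n => msg G θ n y u p) atTop (𝓝 a) := by
    apply tendsto_const_nhds.congr'
    filter_upwards [eventually_ge_atTop N] with n hn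
    exact (h n hn).symm
  unfold Lm
  rw [h1.limsup_eq, h1.liminf_eq]
  ring

lemma Mm_zero (u p : V) : Mm G θ (fun _ => (0 : ℝ)) u p = 0 := by
  unfold Mm
  rw [Lm_of_eventually (N := 0) (fun n _ => msg_zero n u p), Real.tanh_zero]

open Classical in
/-- restriction of a field to the ball -/
noncomputable def rs (G : SimpleGraph V) (v : V) (n : ℕ) (y : V → ℝ) : V → ℝ := fun x =>
  if G.dist v x ≤ n then y x else 0

lemma msg_out (hc : Crit G d θ) (v : V) (n : ℕ) (y : V → ℝ) (j : ℕ) : ∀ u p, Away G v u p →
    n < G.dist v u → msg G θ j (rs G v n y) u p = 0 := by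
  classical
  induction j with
  | zero =>
    intro u p _ h
    unfold msg rs
    rw [if_neg (by omega)]
  | succ j ih =>
    intro u p hA h
    unfold msg
    have h1 : rs G v n y u = 0 := by unfold rs; rw [if_neg (by omega)]
    rw [h1, zero_add]
    apply Finset.sum_eq_zero
    intro c hcm
    obtain ⟨h3, h4⟩ := hA c hcm
    rw [ih c u (away_child hc h3 h4) (by omega), ff_zero]

lemma msg_fin (hc : Crit G d θ) (v : V) (n : ℕ) (y : V → ℝ) (m : ℕ) : ∀ j u p, Away G v u p →
    G.dist v u + m = n → msg G θ (m + j) (rs G v n y) u p = msg G θ m y u p := by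
  classical
  induction m with
  | zero =>
    intro j u p hA h
    have h1 : rs G v n y u = y u := by unfold rs; rw [if_pos (by omega)]
    cases j with
    | zero => exact h1
    | succ j =>
      rw [zero_add]
      unfold msg
      rw [h1]
      rw [Finset.sum_eq_zero, add_zero]
      intro c hcm
      obtain ⟨h3, h4⟩ := hA c hcm
      rw [msg_out hc v n y j c u (away_child hc h3 h4) (by omega), ff_zero]
  | succ m ih =>
    intro j u p hA h
    have h1 : rs G v n y u = y u := by unfold rs; rw [if_pos (by omega)]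
    rw [show m + 1 + j = (m + j) + 1 by ring]
    unfold msg
    rw [h1]
    congr 1
    apply Finset.sum_congr rfl
    intro c hcm
    obtain ⟨h3, h4⟩ := hA c hcm
    rw [ih j c u (away_child hc h3 h4) (by omega)]

lemma Lm_fin (hc : Crit G d θ) (v : V) (n : ℕ) (y : V → ℝ) {u p : V} (hA : Away G v u p)
    (h : G.dist v u ≤ n) : Lm G θ (rs G v n y) u p = msg G θ (n - G.dist v u) y u p := by
  apply Lm_of_eventually (N := n - G.dist v u)
  intro m hm
  obtain ⟨j, rfl⟩ := Nat.exists_eq_add_of_le hm
  exact msg_fin hc v n y _ j u p hA (by omega)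

/-- the outward weights in finite volume -/
lemma pw_fin (hc : Crit G d θ) (v w : V) (n : ℕ) (y : V → ℝ) (h : G.dist v w ≤ n) :
    pw G θ (fun _ u p => Real.tanh (Lm G θ (rs G v n y) u p)) v w
      = pw G θ (fun j u p => Real.tanh (msg G θ (n - j) y u p)) v w := by
  unfold pw
  apply Finset.prod_congr rfl
  intro i hi
  rw [Finset.mem_range] at hi
  have h1 := gp_spec hc.tree.connected v w (i := i + 1) (by omega)
  have h2 := gp_spec hc.tree.connected v w (i := i) (by omega)
  have h3 := gp_adj hc.tree v w (i := i) (by omega)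
  dsimp only
  rw [Lm_fin hc v n y (away_of_adj hc h3 (by omega)) (by omega), h1.1]

lemma pw_nonneg_le (hc : Crit G d θ) (M : ℕ → V → V → ℝ) (hM : ∀ j u p, |M j u p| ≤ 1) (v w : V) :
    0 ≤ pw G θ M v w ∧ pw G θ M v w ≤ 1 := by
  have h2 := crit_sq_le hc
  have h3 := sq_nonneg θ
  have key : ∀ j u p, 0 ≤ 1 - (1 - θ ^ 2) * M j u p ^ 2 ∧ 1 - (1 - θ ^ 2) * M j u p ^ 2 ≤ 1 := by
    intro j u p
    have h4 : M j u p ^ 2 ≤ 1 := by
      rw [← sq_abs]
      have := hM j u p
      nlinarith [abs_nonneg (M j u p)]
    have h5 := sq_nonneg (M j u p)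
    constructor <;> nlinarith
  unfold pw
  constructor
  · exact Finset.prod_nonneg fun i _ => (key _ _ _).1
  · exact Finset.prod_le_one (fun i _ => (key _ _ _).1) (fun i _ => (key _ _ _).2)

lemma measurable_pw {α : Type*} [MeasurableSpace α] (M : α → ℕ → V → V → ℝ)
    (hM : ∀ j u p, Measurable fun a => M a j u p) (v w : V) :
    Measurable fun a => pw G θ (M a) v w := by
  unfold pw
  apply Finset.measurable_prod
  intro i _
  exact measurable_const.sub (measurable_const.mul ((hM _ _ _).pow_const 2))

end Vale.Agent.P161C.SumB
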