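import Vale.Agent.P161C.SumBase

/-!
# P161 critical point: SUMJ, statements for fixed labels
-/

namespace Vale.Agent.P161C.SumB

open MeasureTheory Vale.Agent.P161 Filter Topology

universe u

variable {V : Type u} {G : SimpleGraph V} {d : ℕ} {θ : ℝ}

/-- the jump formula for an arbitrary set of events -/
theorem jump_gen (hPOST : S_POST.{u}) (hALG2 : S_ALG2.{u}) (hc : Crit G d θ)
    {μ : Measure (V → Bool)} (hμ : IsFreeIsing G θ μ) (U : V × ℕ → I01) (J : ℕ)
    (I : Set (V × ℕ)) (hI : ∀ k ∈ I, k.2 < J) (k : V × ℕ) (hk : k ∉ I) (hkJ : k.2 < J) :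
    ∀ᵐ p ∂(μ.prod (lam V)), ∀ v,
      Mm G θ (fld J (insert k I) (p.1, (U, p.2))) v v - Mm G θ (fld J I (p.1, (U, p.2))) v v
        = cov G θ (Lm G θ (fld J I (p.1, (U, p.2)))) v k.1
          * (ep (p.1, (U, p.2)) k
            / (1 + Real.tanh (Lm G θ (fld J I (p.1, (U, p.2))) k.1 k.1)
              * ep (p.1, (U, p.2)) k)) := by
  have hI' : ∀ l ∈ insert k I, l.2 < J := by
    intro l hl
    rcases Set.mem_insert_iff.1 hl with h | h
    · rw [h]; exact hkJ
    · exact hI l h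
  have h1 := (hPOST hc hμ U J I hI).1
  have h2 := (hPOST hc hμ U J (insert k I) hI').1
  filter_upwards [h1, h2] with p hp1 hp2 v
  have b1 := bps_of_tendsto hc hp1
  have b2 := bps_of_tendsto hc hp2
  have hψ : ∀ u, fld J (insert k I) (p.1, (U, p.2)) u
      = fld J I (p.1, (U, p.2)) u
        + (open Classical in if u = k.1 then at' (ep (p.1, (U, p.2)) k) else 0) :=
    fun u => fld_insert hk hkJ _ u
  have h := hALG2 hc _ _ _ _ k.1 (at' (ep (p.1, (U, p.2)) k)) b1 b2 hψ (by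
    intro u q h3 h4
    apply Lm_congr_away hc (w := k.1) _ u q h3 h4
    intro x hx
    rw [hψ x, if_neg hx, add_zero]) v
  rw [tanh_at_ep] at h
  unfold Mm
  rw [h]
  ring

lemma frac_sq_le {δ m e : ℝ} (hd : δ ≤ 1 / 2) (hm : |m| ≤ 1) (he : |e| ≤ δ) :
    (e / (1 + m * e)) ^ 2 ≤ 4 * δ ^ 2 := by
  have h1 : |m * e| ≤ 1 / 2 := by
    rw [abs_mul]
    nlinarith [abs_nonneg m, abs_nonneg e]
  have h2 := abs_le.1 h1
  have h3 : 1 / 2 ≤ 1 + m * e := by linarith [h2.1]
  rw [div_pow, div_le_iff₀ (by positivity)]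
  have h4 : e ^ 2 ≤ δ ^ 2 := by
    rw [← sq_abs]
    exact pow_le_pow_left₀ (abs_nonneg e) he 2
  have h5 : 1 / 4 ≤ (1 + m * e) ^ 2 := by nlinarith
  have h6 := mul_le_mul_of_nonneg_left h5 (sq_nonneg δ)
  linarith

/-- bound for the square of a jump, arbitrary set of events -/
theorem jump_sq_le (hPOST : S_POST.{u}) (hALG2 : S_ALG2.{u}) (hALG3 : S_ALG3.{u})
    (hc : Crit G d θ) {μ : Measure (V → Bool)} (hμ : IsFreeIsing G θ μ) (U : V × ℕ → I01) (J : ℕ)
    (I : Set (V × ℕ)) (hI : ∀ k ∈ I, k.2 < J) (k : V × ℕ) (hk : k ∉ I) (hkJ : k.2 < J) :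
    ∀ᵐ p ∂(μ.prod (lam V)), ∀ v,
      (Mm G θ (fld J (insert k I) (p.1, (U, p.2))) v v
        - Mm G θ (fld J I (p.1, (U, p.2))) v v) ^ 2
        ≤ 4 * dl (U k) ^ 2 * (θ ^ (2 * G.dist v k.1)
          * pw G θ (fun _ u p' => Real.tanh (Lm G θ (fld J I (p.1, (U, p.2))) u p')) v k.1) := by
  filter_upwards [jump_gen hPOST hALG2 hc hμ U J I hI k hk hkJ] with p hp v
  rw [hp v, mul_pow]
  have h1 := ((hALG3 hc).2 (Lm G θ (fld J I (p.1, (U, p.2)))) v k.1).2.2
  have h2 := frac_sq_le (dl_le (U k))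
    (abs_tanh_lt (Lm G θ (fld J I (p.1, (U, p.2))) k.1 k.1)).le
    (abs_ep_le ((p.1, (U, p.2)) : Om V) k)
  rw [mul_comm (4 * dl (U k) ^ 2)]
  exact mul_le_mul h1 h2 (sq_nonneg _) ((sq_nonneg _).trans h1)

/-! ## Jumps in a restricted set of events -/

/-- the jump at `k` of the posterior mean at `v`, when only the events in `E` are observed -/
noncomputable def jE (G : SimpleGraph V) (θ : ℝ) (J : ℕ) (E : Set (V × ℕ)) (v : V) (k : V × ℕ)
    (ω : Om V) : ℝ :=
  Mm G θ (fld J (insert k (E ∩ Is ω.2.1 (kap ω.2.1 k))) ω) v v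
    - Mm G θ (fld J (E ∩ Is ω.2.1 (kap ω.2.1 k)) ω) v v

/-- the posterior mean of `v` at time `s`, when only the events in `E` are observed -/
noncomputable def mE (G : SimpleGraph V) (θ : ℝ) (J : ℕ) (E : Set (V × ℕ)) (v : V) (s : ℝ)
    (ω : Om V) : ℝ := Mm G θ (fld J (E ∩ Is ω.2.1 s) ω) v v

lemma abs_jE_le (J : ℕ) (E : Set (V × ℕ)) (v : V) (k : V × ℕ) (ω : Om V) :
    |jE G θ J E v k ω| ≤ 2 := by
  unfold jE
  have h1 := abs_Mm_le (G := G) (θ := θ) (fld J (insert k (E ∩ Is ω.2.1 (kap ω.2.1 k))) ω) v v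
  have h2 := abs_Mm_le (G := G) (θ := θ) (fld J (E ∩ Is ω.2.1 (kap ω.2.1 k)) ω) v v
  rw [abs_le] at *
  constructor <;> linarith [h1.1, h1.2, h2.1, h2.2]

lemma measurableSet_Is {s : Om V → ℝ} (hs : Measurable s) (l : V × ℕ) :
    MeasurableSet {ω : Om V | l ∈ Is ω.2.1 (s ω)} :=
  measurableSet_lt (RT.measurable_kap l) hs

lemma measurable_mE (J : ℕ) (E : Set (V × ℕ)) (v : V) (s : ℝ) :
    Measurable (mE G θ J E v s) := by
  unfold mE
  apply measurable_Mm
  intro w
  apply measurable_fld J (fun ω : Om V => E ∩ Is ω.2.1 s) (fun ω => ω) measurable_id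
  intro l
  by_cases hl : l ∈ E
  · have : {ω : Om V | l ∈ E ∩ Is ω.2.1 s} = {ω : Om V | l ∈ Is ω.2.1 s} := by
      ext ω; simp [hl]
    rw [this]
    exact measurableSet_Is measurable_const l
  · have : {ω : Om V | l ∈ E ∩ Is ω.2.1 s} = ∅ := by
      ext ω; simp [hl]
    rw [this]
    exact MeasurableSet.empty

lemma measurable_jE (J : ℕ) (E : Set (V × ℕ)) (v : V) (k : V × ℕ) :
    Measurable (jE G θ J E v k) := by
  unfold jE
  have key : ∀ l, MeasurableSet {ω : Om V | l ∈ E ∩ Is ω.2.1 (kap ω.2.1 k)} := by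
    intro l
    by_cases hl : l ∈ E
    · have : {ω : Om V | l ∈ E ∩ Is ω.2.1 (kap ω.2.1 k)}
          = {ω : Om V | l ∈ Is ω.2.1 (kap ω.2.1 k)} := by
        ext ω; simp [hl]
      rw [this]
      exact measurableSet_Is (RT.measurable_kap k) l
    · have : {ω : Om V | l ∈ E ∩ Is ω.2.1 (kap ω.2.1 k)} = ∅ := by
        ext ω; simp [hl]
      rw [this]
      exact MeasurableSet.empty
  refine (measurable_Mm _ (fun w => ?_) v v).sub (measurable_Mm _ (fun w => ?_) v v)
  · apply measurable_fld J (fun ω : Om V => insert k (E ∩ Is ω.2.1 (kap ω.2.1 k))) (fun ω => ω)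
      measurable_id
    intro l
    by_cases hl : l = k
    · have : {ω : Om V | l ∈ insert k (E ∩ Is ω.2.1 (kap ω.2.1 k))} = Set.univ := by
        ext ω; simp [hl]
      rw [this]
      exact MeasurableSet.univ
    · have : {ω : Om V | l ∈ insert k (E ∩ Is ω.2.1 (kap ω.2.1 k))}
          = {ω : Om V | l ∈ E ∩ Is ω.2.1 (kap ω.2.1 k)} := by
        ext ω; simp [hl]
      rw [this]
      exact key l
  · exact measurable_fld J (fun ω : Om V => E ∩ Is ω.2.1 (kap ω.2.1 k)) (fun ω => ω)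
      measurable_id key w

lemma measurable_fx (U : V × ℕ → I01) (J : ℕ) (I : Set (V × ℕ)) (w : V) :
    Measurable fun x : V × ℕ → I01 => fx U J I x w := by
  classical
  unfold fx
  apply Finset.measurable_sum
  intro j _
  by_cases h : (w, j) ∈ I
  · simp only [if_pos h]
    exact measurable_at.comp (by fun_prop)
  · simp only [if_neg h]
    exact measurable_const

lemma measurable_glue (U : V × ℕ → I01) :
    Measurable fun p : (V → Bool) × (V × ℕ → I01) => ((p.1, (U, p.2)) : Om V) :=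
  measurable_fst.prodMk (measurable_const.prodMk measurable_snd)

/-- orthogonality of the jumps, labels fixed -/
theorem jE_orth (hPOST : S_POST.{u}) (hc : Crit G d θ) {μ : Measure (V → Bool)}
    [IsProbabilityMeasure μ] (hμ : IsFreeIsing G θ μ) (U : V × ℕ → I01) (J : ℕ)
    (E : Set (V × ℕ)) (hE : ∀ k ∈ E, k.2 < J) (v : V) {k l : V × ℕ} (hk : k ∈ E) (hl : l ∈ E)
    (hkl : kap U k < kap U l) :
    ∫ p, jE G θ J E v k (p.1, (U, p.2)) * jE G θ J E v l (p.1, (U, p.2)) ∂(μ.prod (lam V)) = 0 := by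
  set I1 : Set (V × ℕ) := E ∩ Is U (kap U l) with hI1
  set Z : (V × ℕ → I01) → ℝ := fun x =>
    Mm G θ (fx U J (insert k (E ∩ Is U (kap U k))) x) v v
      - Mm G θ (fx U J (E ∩ Is U (kap U k)) x) v v with hZ
  have hZm : Measurable Z :=
    (measurable_Mm _ (measurable_fx U J _) v v).sub (measurable_Mm _ (measurable_fx U J _) v v)
  have hZb : ∀ x, |Z x| ≤ 2 := by
    intro x
    have h1 := abs_Mm_le (G := G) (θ := θ) (fx U J (insert k (E ∩ Is U (kap U k))) x) v v
    have h2 := abs_Mm_le (G := G) (θ := θ) (fx U J (E ∩ Is U (kap U k)) x) v v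
    rw [abs_le] at *
    constructor <;> linarith [h1.1, h1.2, h2.1, h2.2]
  have hsub : insert k (E ∩ Is U (kap U k)) ⊆ I1 := by
    intro m hm
    rcases Set.mem_insert_iff.1 hm with h | h
    · rw [h]; exact ⟨hk, hkl⟩
    · exact ⟨h.1, lt_trans (show kap U m < kap U k from h.2) hkl⟩
  have hZd : ∀ x x' : V × ℕ → I01, (∀ m ∈ I1, x m = x' m) → Z x = Z x' := by
    intro x x' h
    have e1 : fx U J (insert k (E ∩ Is U (kap U k))) x
        = fx U J (insert k (E ∩ Is U (kap U k))) x' := fx_congr fun m hm => h m (hsub hm)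
    have e2 : fx U J (E ∩ Is U (kap U k)) x = fx U J (E ∩ Is U (kap U k)) x' :=
      fx_congr fun m hm => h m (hsub (Set.mem_insert_of_mem _ hm))
    simp only [hZ, e1, e2]
  have hI1J : ∀ m ∈ I1, m.2 < J := fun m hm => hE m hm.1
  have hI2J : ∀ m ∈ insert l I1, m.2 < J := by
    intro m hm
    rcases Set.mem_insert_iff.1 hm with h | h
    · rw [h]; exact hE l hl
    · exact hI1J m h
  have h1 := (hPOST hc hμ U J I1 hI1J).2.1 v Z 2 hZm hZb hZd
  have h2 := (hPOST hc hμ U J (insert l I1) hI2J).2.1 v Z 2 hZm hZb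
    (fun x x' h => hZd x x' fun m hm => h m (Set.mem_insert_of_mem _ hm))
  have hmeasM : ∀ I : Set (V × ℕ), Measurable fun p : (V → Bool) × (V × ℕ → I01) =>
      Mm G θ (fld J I (p.1, (U, p.2))) v v := by
    intro I
    apply measurable_Mm
    intro w
    exact measurable_fld J (fun _ => I) (fun p : (V → Bool) × (V × ℕ → I01) => (p.1, (U, p.2)))
      (measurable_glue U) (fun m => by by_cases h : m ∈ I <;> simp [h]) w
  have hmeasZ : Measurable fun p : (V → Bool) × (V × ℕ → I01) => Z (obs (p.1, (U, p.2))) := by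
    apply hZm.comp
    rw [measurable_pi_iff]
    intro m
    exact (measurable_obs m).comp (measurable_glue U)
  have hmeass : Measurable fun p : (V → Bool) × (V × ℕ → I01) => sp (p.1 v) :=
    measurable_sp_comp (by fun_prop)
  have hint : ∀ I : Set (V × ℕ), Integrable (fun p : (V → Bool) × (V × ℕ → I01) =>
      (sp (p.1 v) - Mm G θ (fld J I (p.1, (U, p.2))) v v) * Z (obs (p.1, (U, p.2))))
      (μ.prod (lam V)) := by
    intro I
    apply integrable_of_bdd (B := 2 * 2) ((hmeass.sub (hmeasM I)).mul hmeasZ)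
    intro p
    rw [Pi.mul_apply, abs_mul]
    apply mul_le_mul _ (hZb _) (abs_nonneg _) (by norm_num)
    have h3 := abs_sp (p.1 v)
    have h4 := abs_Mm_le (G := G) (θ := θ) (fld J I (p.1, (U, p.2))) v v
    refine (abs_sub _ _).trans ?_
    linarith
  have h3 := integral_sub (hint I1) (hint (insert l I1))
  rw [h1, h2, sub_zero] at h3
  rw [← h3]
  apply integral_congr_ae
  refine Eventually.of_forall fun p => ?_
  show jE G θ J E v k (p.1, (U, p.2)) * jE G θ J E v l (p.1, (U, p.2))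
    = (sp (p.1 v) - Mm G θ (fld J I1 (p.1, (U, p.2))) v v) * Z (obs (p.1, (U, p.2)))
      - (sp (p.1 v) - Mm G θ (fld J (insert l I1) (p.1, (U, p.2))) v v)
        * Z (obs (p.1, (U, p.2)))
  have e1 : jE G θ J E v k (p.1, (U, p.2)) = Z (obs (p.1, (U, p.2))) := rfl
  have e2 : jE G θ J E v l (p.1, (U, p.2)) = Mm G θ (fld J (insert l I1) (p.1, (U, p.2))) v v
      - Mm G θ (fld J I1 (p.1, (U, p.2))) v v := rfl
  rw [e1, e2]
  ring

/-! ## Telescoping -/

lemma fld_empty (J : ℕ) (ω : Om V) : fld J ∅ ω = fun _ => (0 : ℝ) := by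
  classical
  funext w
  unfold fld
  apply Finset.sum_eq_zero
  intro j _
  rw [if_neg]
  simp

lemma tele_aux (J : ℕ) (v : V) (ω : Om V) (A : Finset (V × ℕ)) :
    (∀ k ∈ A, ∀ l ∈ A, kap ω.2.1 k = kap ω.2.1 l → k = l) →
    Mm G θ (fld J (A : Set (V × ℕ)) ω) v v
      = ∑ k ∈ A, (Mm G θ (fld J (insert k ((A : Set (V × ℕ)) ∩ Is ω.2.1 (kap ω.2.1 k))) ω) v v
        - Mm G θ (fld J ((A : Set (V × ℕ)) ∩ Is ω.2.1 (kap ω.2.1 k)) ω) v v) := by
  classical
  refine Finset.induction_on_max_value (fun k => kap ω.2.1 k) A ?_ ?_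
  · intro _
    rw [Finset.sum_empty, Finset.coe_empty, fld_empty, Mm_zero]
  · intro a s ha hmax ih hinj
    have hlt : ∀ x ∈ s, kap ω.2.1 x < kap ω.2.1 a := by
      intro x hx
      refine lt_of_le_of_ne (hmax x hx) ?_
      intro h
      have := hinj x (Finset.mem_insert_of_mem hx) a (Finset.mem_insert_self _ _) h
      rw [this] at hx
      exact ha hx
    have ih' := ih fun k hk l hl => hinj k (Finset.mem_insert_of_mem hk) l
      (Finset.mem_insert_of_mem hl)
    rw [Finset.sum_insert ha]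
    have e1 : ((insert a s : Finset (V × ℕ)) : Set (V × ℕ)) ∩ Is ω.2.1 (kap ω.2.1 a)
        = (s : Set (V × ℕ)) := by
      ext m
      rw [Finset.coe_insert]
      constructor
      · rintro ⟨h1, h2⟩
        rcases Set.mem_insert_iff.1 h1 with h | h
        · rw [h] at h2
          exact absurd (show kap ω.2.1 a < kap ω.2.1 a from h2) (lt_irrefl _)
        · exact h
      · intro h
        exact ⟨Set.mem_insert_of_mem _ h, hlt m (Finset.mem_coe.1 h)⟩
    have e2 : ∀ k ∈ s, ((insert a s : Finset (V × ℕ)) : Set (V × ℕ)) ∩ Is ω.2.1 (kap ω.2.1 k)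
        = (s : Set (V × ℕ)) ∩ Is ω.2.1 (kap ω.2.1 k) := by
      intro k hk
      ext m
      rw [Finset.coe_insert]
      constructor
      · rintro ⟨h1, h2⟩
        rcases Set.mem_insert_iff.1 h1 with h | h
        · rw [h] at h2
          exact absurd (lt_trans (show kap ω.2.1 a < kap ω.2.1 k from h2) (hlt k hk))
            (lt_irrefl _)
        · exact ⟨h, h2⟩
      · rintro ⟨h1, h2⟩
        exact ⟨Set.mem_insert_of_mem _ h1, h2⟩
    rw [e1]
    have e3 : ∑ k ∈ s, (Mm G θ (fld J (insert k (((insert a s : Finset (V × ℕ)) : Set (V × ℕ))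
          ∩ Is ω.2.1 (kap ω.2.1 k))) ω) v v
        - Mm G θ (fld J (((insert a s : Finset (V × ℕ)) : Set (V × ℕ))
          ∩ Is ω.2.1 (kap ω.2.1 k)) ω) v v)
        = ∑ k ∈ s, (Mm G θ (fld J (insert k ((s : Set (V × ℕ)) ∩ Is ω.2.1 (kap ω.2.1 k))) ω) v v
        - Mm G θ (fld J ((s : Set (V × ℕ)) ∩ Is ω.2.1 (kap ω.2.1 k)) ω) v v) := by
      apply Finset.sum_congr rfl
      intro k hk
      rw [e2 k hk]
    rw [e3, ← ih', Finset.coe_insert]
    ring

open Classical in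
/-- telescoping -/
theorem mE_eq_sum (J : ℕ) (v : V) (s : ℝ) (ω : Om V) (E : Finset (V × ℕ))
    (hinj : ∀ k ∈ E, ∀ l ∈ E, kap ω.2.1 k = kap ω.2.1 l → k = l) :
    mE G θ J (E : Set (V × ℕ)) v s ω
      = ∑ k ∈ E, if kap ω.2.1 k < s then jE G θ J (E : Set (V × ℕ)) v k ω else 0 := by
  unfold mE
  have e0 : (E : Set (V × ℕ)) ∩ Is ω.2.1 s
      = ((E.filter fun k => kap ω.2.1 k < s : Finset (V × ℕ)) : Set (V × ℕ)) := by
    ext m
    simp [Is]
  rw [e0, tele_aux J v ω _ (fun k hk l hl => hinj k (Finset.mem_filter.1 hk).1 l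
    (Finset.mem_filter.1 hl).1), ← Finset.sum_filter]
  apply Finset.sum_congr rfl
  intro k hk
  have hks := (Finset.mem_filter.1 hk).2
  have e1 : ((E.filter fun k => kap ω.2.1 k < s : Finset (V × ℕ)) : Set (V × ℕ))
      ∩ Is ω.2.1 (kap ω.2.1 k) = (E : Set (V × ℕ)) ∩ Is ω.2.1 (kap ω.2.1 k) := by
    ext m
    simp only [Finset.coe_filter, Set.mem_inter_iff, Set.mem_ofPred_eq, Finset.mem_coe, Is]
    constructor
    · rintro ⟨⟨h1, _⟩, h3⟩
      exact ⟨h1, h3⟩
    · rintro ⟨h1, h3⟩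
      exact ⟨⟨h1, h3.trans hks⟩, h3⟩
  unfold jE
  rw [e1]

end Vale.Agent.P161C.SumB
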