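import Vale.Agent.P161C.SumFix

/-!
# P161 critical point: SUMJ, from fixed labels to the planted space
-/

namespace Vale.Agent.P161C.SumB

open MeasureTheory Vale.Agent.P161 Filter Topology

universe u

variable {V : Type u} {G : SimpleGraph V} {d : ℕ} {θ : ℝ}

/-- reordering of the coordinates of the planted space -/
def glue (q : (V × ℕ → I01) × ((V → Bool) × (V × ℕ → I01))) : Om V := (q.2.1, (q.1, q.2.2))

lemma measurable_glue' : Measurable (glue (V := V)) := by
  unfold glue
  fun_prop

variable {μ : Measure (V → Bool)} [IsProbabilityMeasure μ]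

lemma mp_glue : MeasurePreserving (glue (V := V)) ((lam V).prod (μ.prod (lam V))) (PP μ) := by
  have h1 := (measurePreserving_prodAssoc (lam V) μ (lam V)).symm
  have h2 : MeasurePreserving (Prod.map Prod.swap id : ((V × ℕ → I01) × (V → Bool)) × (V × ℕ → I01)
      → ((V → Bool) × (V × ℕ → I01)) × (V × ℕ → I01))
      (((lam V).prod μ).prod (lam V)) ((μ.prod (lam V)).prod (lam V)) :=
    (Measure.measurePreserving_swap (μ := lam V) (ν := μ)).prod (MeasurePreserving.id (lam V))
  have h3 := measurePreserving_prodAssoc μ (lam V) (lam V)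
  exact (h3.comp h2).comp h1

/-- Fubini: integrate over the labels last -/
lemma integral_PP (f : Om V → ℝ) (hf : Measurable f) {B : ℝ} (hB : ∀ ω, |f ω| ≤ B) :
    ∫ ω, f ω ∂(PP μ) = ∫ U, (∫ p, f (p.1, (U, p.2)) ∂(μ.prod (lam V))) ∂(lam V) := by
  rw [← (mp_glue (μ := μ)).map_eq, integral_map measurable_glue'.aemeasurable
    hf.aestronglyMeasurable, integral_prod]
  · rfl
  · exact integrable_of_bdd (hf.comp measurable_glue') (fun q => hB _)

/-- almost sure statements with fixed labels -/
lemma ae_PP {P : Om V → Prop} (hP : MeasurableSet {ω | P ω})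
    (h : ∀ U, ∀ᵐ p ∂(μ.prod (lam V)), P (p.1, (U, p.2))) : ∀ᵐ ω ∂(PP μ), P ω := by
  rw [← (mp_glue (μ := μ)).map_eq, ae_map_iff measurable_glue'.aemeasurable hP]
  exact (Measure.ae_prod_iff_ae_ae (measurable_glue' hP)).2 (Eventually.of_forall h)

/-- almost sure properties of the labels -/
lemma ae_label {P : (V × ℕ → I01) → Prop} (h : ∀ᵐ ω ∂(PP μ), P ω.2.1) :
    ∀ᵐ U ∂(lam V), P U := by
  rw [← (mp_glue (μ := μ)).map_eq] at h
  have h1 := ae_of_ae_map measurable_glue'.aemeasurable h
  have h2 := Measure.ae_ae_of_ae_prod h1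
  filter_upwards [h2] with U hU
  have : ∃ p : (V → Bool) × (V × ℕ → I01), P (glue (U, p)).2.1 := by
    have := hU.frequently.exists
    exact this
  obtain ⟨p, hp⟩ := this
  exact hp

open Classical in
/-- the jump, if before time `s` -/
noncomputable def xE (G : SimpleGraph V) (θ : ℝ) (J : ℕ) (E : Set (V × ℕ)) (v : V) (s : ℝ)
    (k : V × ℕ) (ω : Om V) : ℝ := if kap ω.2.1 k < s then jE G θ J E v k ω else 0

lemma abs_xE_le (J : ℕ) (E : Set (V × ℕ)) (v : V) (s : ℝ) (k : V × ℕ) (ω : Om V) :
    |xE G θ J E v s k ω| ≤ 2 := by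
  unfold xE
  split_ifs
  · exact abs_jE_le J E v k ω
  · simp

lemma measurable_xE (J : ℕ) (E : Set (V × ℕ)) (v : V) (s : ℝ) (k : V × ℕ) :
    Measurable (xE G θ J E v s k) := by
  unfold xE
  exact Measurable.ite (measurableSet_lt (RT.measurable_kap k) measurable_const)
    (measurable_jE J E v k) measurable_const

/-- orthogonality -/
theorem xE_orth (hPOST : S_POST.{u}) (hc : Crit G d θ) (hμ : IsFreeIsing G θ μ) (J : ℕ)
    (E : Set (V × ℕ)) (hE : ∀ k ∈ E, k.2 < J) (v : V) (s : ℝ) {k l : V × ℕ} (hk : k ∈ E)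
    (hl : l ∈ E) (hkl : k ≠ l) :
    ∫ ω, xE G θ J E v s k ω * xE G θ J E v s l ω ∂(PP μ) = 0 := by
  rw [integral_PP (fun ω => xE G θ J E v s k ω * xE G θ J E v s l ω)
    ((measurable_xE J E v s k).mul (measurable_xE J E v s l)) (B := 2 * 2)
    (fun ω => by
      rw [abs_mul]
      exact mul_le_mul (abs_xE_le J E v s k ω) (abs_xE_le J E v s l ω) (abs_nonneg _)
        (by norm_num))]
  have hne : ∀ᵐ U ∂(lam V), kap U k ≠ kap U l :=
    ae_label (μ := μ) (RT.ae_kap_ne hkl.symm)
  apply integral_eq_zero_of_ae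
  filter_upwards [hne] with U hU
  show ∫ p, (xE G θ J E v s k (p.1, (U, p.2)) * xE G θ J E v s l (p.1, (U, p.2)))
    ∂(μ.prod (lam V)) = 0
  unfold xE
  dsimp only
  by_cases h1 : kap U k < s
  · by_cases h2 : kap U l < s
    · simp only [if_pos h1, if_pos h2]
      rcases lt_or_gt_of_ne hU with h | h
      · exact jE_orth hPOST hc hμ U J E hE v hk hl h
      · rw [← jE_orth hPOST hc hμ U J E hE v hl hk h]
        apply integral_congr_ae
        exact Eventually.of_forall fun p => mul_comm _ _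
    · simp only [if_neg h2, mul_zero, integral_zero]
  · simp only [if_neg h1, zero_mul, integral_zero]

/-- Pythagoras -/
lemma integral_sum_sq {ι : Type*} (P : Measure (Om V)) [IsProbabilityMeasure P] (A : Finset ι)
    (f : ι → Om V → ℝ) (hf : ∀ i, Measurable (f i)) {B : ℝ} (hB : ∀ i ω, |f i ω| ≤ B)
    (horth : ∀ i ∈ A, ∀ j ∈ A, i ≠ j → ∫ ω, f i ω * f j ω ∂P = 0) :
    ∫ ω, (∑ i ∈ A, f i ω) ^ 2 ∂P = ∑ i ∈ A, ∫ ω, f i ω ^ 2 ∂P := by
  have e : ∀ ω, (∑ i ∈ A, f i ω) ^ 2 = ∑ i ∈ A, ∑ j ∈ A, f i ω * f j ω := by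
    intro ω
    rw [sq, Finset.sum_mul_sum]
  simp_rw [e]
  have hint : ∀ i j, Integrable (fun ω => f i ω * f j ω) P := by
    intro i j
    apply integrable_of_bdd (B := B * B) ((hf i).mul (hf j))
    intro ω
    rw [Pi.mul_apply, abs_mul]
    exact mul_le_mul (hB i ω) (hB j ω) (abs_nonneg _) ((abs_nonneg _).trans (hB i ω))
  rw [integral_finsetSum _ (fun i _ => integrable_finsetSum _ fun j _ => hint i j)]
  apply Finset.sum_congr rfl
  intro i hi
  rw [integral_finsetSum _ (fun j _ => hint i j), Finset.sum_eq_single i]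
  · apply integral_congr_ae
    exact Eventually.of_forall fun ω => (sq _).symm
  · intro j hj hji
    exact horth i hi j hj (Ne.symm hji)
  · intro h
    exact absurd hi h

/-! ## Convergence as the set of observed events increases -/

/-- the events in the ball of radius `n`, rounds `< J` -/
def En (G : SimpleGraph V) (v : V) (J n : ℕ) : Set (V × ℕ) := {k | G.dist v k.1 ≤ n ∧ k.2 < J}

lemma tendsto_integral_PP (f : ℕ → Om V → ℝ) (hf : ∀ n, Measurable (f n)) {B : ℝ}
    (hB : ∀ n ω, |f n ω| ≤ B)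
    (h : ∀ U, Tendsto (fun n => ∫ p, f n (p.1, (U, p.2)) ∂(μ.prod (lam V))) atTop (𝓝 0)) :
    Tendsto (fun n => ∫ ω, f n ω ∂(PP μ)) atTop (𝓝 0) := by
  have e : ∀ n, ∫ ω, f n ω ∂(PP μ) = ∫ U, (∫ p, f n (p.1, (U, p.2)) ∂(μ.prod (lam V))) ∂(lam V) :=
    fun n => integral_PP (f n) (hf n) (hB n)
  simp_rw [e]
  have h0 : (0 : ℝ) = ∫ _U : V × ℕ → I01, (0 : ℝ) ∂(lam V) := by simp
  rw [h0]
  apply tendsto_integral_of_dominated_convergence (fun _ => B)
  · intro n
    have h1 : StronglyMeasurable fun q : (V × ℕ → I01) × ((V → Bool) × (V × ℕ → I01)) =>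
        f n (glue q) := ((hf n).comp measurable_glue').stronglyMeasurable
    exact (h1.integral_prod_right' (ν := μ.prod (lam V))).aestronglyMeasurable
  · exact integrable_const B
  · intro n
    refine Eventually.of_forall fun U => ?_
    refine (norm_integral_le_of_norm_le_const (C := B) (Eventually.of_forall fun p => ?_)).trans ?_
    · exact hB n _
    · simp
  · exact Eventually.of_forall h

theorem tendsto_mE (hPOST : S_POST.{u}) (hc : Crit G d θ) (hμ : IsFreeIsing G θ μ) (v : V)
    (s : ℝ) {J : ℕ} (hJ : ⌈s⌉₊ ≤ J) :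
    Tendsto (fun n => ∫ ω, (mE G θ J Set.univ v s ω - mE G θ J (En G v J n) v s ω) ^ 2 ∂(PP μ))
      atTop (𝓝 0) := by
  apply tendsto_integral_PP
    (fun n ω => (mE G θ J Set.univ v s ω - mE G θ J (En G v J n) v s ω) ^ 2)
    (fun n => ((measurable_mE J _ v s).sub (measurable_mE J _ v s)).pow_const 2) (B := 4)
  · intro n ω
    have h1 := abs_Mm_le (G := G) (θ := θ) (fld J (Set.univ ∩ Is ω.2.1 s) ω) v v
    have h2 := abs_Mm_le (G := G) (θ := θ) (fld J (En G v J n ∩ Is ω.2.1 s) ω) v v
    change |(Mm G θ (fld J (Set.univ ∩ Is ω.2.1 s) ω) v v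
      - Mm G θ (fld J (En G v J n ∩ Is ω.2.1 s) ω) v v) ^ 2| ≤ 4
    rw [abs_of_nonneg (sq_nonneg _)]
    rw [abs_le] at h1 h2
    nlinarith [h1.1, h1.2, h2.1, h2.2]
  · intro U
    have hI : ∀ k ∈ Is U s, k.2 < J := fun k hk => lt_of_lt_of_le (Is_lt hk) hJ
    have h := (hPOST hc hμ U J (Is U s) hI).2.2 v (fun n => En G v J n ∩ Is U s)
      (fun n => Set.inter_subset_right) (by
        intro k hk
        filter_upwards [eventually_ge_atTop (G.dist v k.1)] with n hn
        exact ⟨⟨hn, hI k hk⟩, hk⟩)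
    refine h.congr fun n => ?_
    unfold mE
    simp only [Set.univ_inter]

theorem tendsto_xE (hPOST : S_POST.{u}) (hc : Crit G d θ) (hμ : IsFreeIsing G θ μ) (v : V)
    (s : ℝ) {J : ℕ} (hJ : ⌈s⌉₊ ≤ J) (k : V × ℕ) :
    Tendsto (fun n => ∫ ω, (xE G θ J Set.univ v s k ω - xE G θ J (En G v J n) v s k ω) ^ 2
      ∂(PP μ)) atTop (𝓝 0) := by
  apply tendsto_integral_PP
    (fun n ω => (xE G θ J Set.univ v s k ω - xE G θ J (En G v J n) v s k ω) ^ 2)
    (fun n => ((measurable_xE J _ v s k).sub (measurable_xE J _ v s k)).pow_const 2) (B := 16)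
  · intro n ω
    have h1 := abs_xE_le (G := G) (θ := θ) J Set.univ v s k ω
    have h2 := abs_xE_le (G := G) (θ := θ) J (En G v J n) v s k ω
    change |(xE G θ J Set.univ v s k ω - xE G θ J (En G v J n) v s k ω) ^ 2| ≤ 16
    rw [abs_of_nonneg (sq_nonneg _)]
    rw [abs_le] at h1 h2
    nlinarith [h1.1, h1.2, h2.1, h2.2]
  · intro U
    by_cases hs : kap U k < s
    · have hkJ : k.2 < J := lt_of_lt_of_le (Is_lt (show k ∈ Is U s from hs)) hJ
      have hI : ∀ l ∈ Is U (kap U k), l.2 < J := fun l hl =>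
        lt_of_lt_of_le (Is_lt (show l ∈ Is U s from
          lt_trans (show kap U l < kap U k from hl) hs)) hJ
      have hI' : ∀ l ∈ insert k (Is U (kap U k)), l.2 < J := by
        intro l hl
        rcases Set.mem_insert_iff.1 hl with h | h
        · rw [h]; exact hkJ
        · exact hI l h
      have h1 := (hPOST hc hμ U J (Is U (kap U k)) hI).2.2 v
        (fun n => En G v J n ∩ Is U (kap U k)) (fun n => Set.inter_subset_right) (by
          intro l hl
          filter_upwards [eventually_ge_atTop (G.dist v l.1)] with n hn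
          exact ⟨⟨hn, hI l hl⟩, hl⟩)
      have h2 := (hPOST hc hμ U J (insert k (Is U (kap U k))) hI').2.2 v
        (fun n => insert k (En G v J n ∩ Is U (kap U k)))
        (fun n => Set.insert_subset_insert Set.inter_subset_right) (by
          intro l hl
          rcases Set.mem_insert_iff.1 hl with h | h
          · refine Eventually.of_forall fun n => ?_
            rw [h]
            exact Set.mem_insert _ _
          · filter_upwards [eventually_ge_atTop (G.dist v l.1)] with n hn
            exact Set.mem_insert_of_mem _ ⟨⟨hn, hI l h⟩, h⟩)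
      have h3 := (h1.const_mul 2).add (h2.const_mul 2)
      rw [mul_zero, add_zero] at h3
      refine squeeze_zero (fun n => integral_nonneg fun p => sq_nonneg _) (fun n => ?_) h3
      have hmeasM : ∀ I : Set (V × ℕ), Measurable fun p : (V → Bool) × (V × ℕ → I01) =>
          Mm G θ (fld J I (p.1, (U, p.2))) v v := by
        intro I
        apply measurable_Mm
        intro w
        exact measurable_fld J (fun _ => I)
          (fun p : (V → Bool) × (V × ℕ → I01) => (p.1, (U, p.2)))
          (measurable_glue U) (fun m => by by_cases h : m ∈ I <;> simp [h]) w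
      have hb : ∀ I I' : Set (V × ℕ), Integrable (fun p : (V → Bool) × (V × ℕ → I01) =>
          (Mm G θ (fld J I (p.1, (U, p.2))) v v - Mm G θ (fld J I' (p.1, (U, p.2))) v v) ^ 2)
          (μ.prod (lam V)) := by
        intro I I'
        apply integrable_of_bdd (B := 4) (((hmeasM I).sub (hmeasM I')).pow_const 2)
        intro p
        have h1 := abs_Mm_le (G := G) (θ := θ) (fld J I (p.1, (U, p.2))) v v
        have h2 := abs_Mm_le (G := G) (θ := θ) (fld J I' (p.1, (U, p.2))) v v
        change |(Mm G θ (fld J I (p.1, (U, p.2))) v v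
          - Mm G θ (fld J I' (p.1, (U, p.2))) v v) ^ 2| ≤ 4
        rw [abs_of_nonneg (sq_nonneg _)]
        rw [abs_le] at h1 h2
        nlinarith [h1.1, h1.2, h2.1, h2.2]
      rw [← integral_const_mul, ← integral_const_mul, ← integral_add ((hb _ _).const_mul 2)
        ((hb _ _).const_mul 2)]
      refine integral_mono_of_nonneg (Eventually.of_forall fun p => sq_nonneg _)
        (((hb _ _).const_mul 2).add ((hb _ _).const_mul 2)) (Eventually.of_forall fun p => ?_)
      dsimp only
      have e1 : xE G θ J Set.univ v s k (p.1, (U, p.2))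
          = Mm G θ (fld J (insert k (Is U (kap U k))) (p.1, (U, p.2))) v v
            - Mm G θ (fld J (Is U (kap U k)) (p.1, (U, p.2))) v v := by
        unfold xE jE
        dsimp only
        rw [if_pos hs, Set.univ_inter]
      have e2 : xE G θ J (En G v J n) v s k (p.1, (U, p.2))
          = Mm G θ (fld J (insert k (En G v J n ∩ Is U (kap U k))) (p.1, (U, p.2))) v v
            - Mm G θ (fld J (En G v J n ∩ Is U (kap U k)) (p.1, (U, p.2))) v v := by
        unfold xE jE
        dsimp only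
        rw [if_pos hs]
      rw [e1, e2]
      nlinarith [sq_nonneg ((Mm G θ (fld J (insert k (Is U (kap U k))) (p.1, (U, p.2))) v v
          - Mm G θ (fld J (insert k (En G v J n ∩ Is U (kap U k))) (p.1, (U, p.2))) v v)
        + (Mm G θ (fld J (Is U (kap U k)) (p.1, (U, p.2))) v v
          - Mm G θ (fld J (En G v J n ∩ Is U (kap U k)) (p.1, (U, p.2))) v v))]
    · have : ∀ n, ∫ p, (xE G θ J Set.univ v s k (p.1, (U, p.2))
          - xE G θ J (En G v J n) v s k (p.1, (U, p.2))) ^ 2 ∂(μ.prod (lam V)) = 0 := by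
        intro n
        unfold xE
        dsimp only
        simp only [if_neg hs, sub_self]
        simp
      simp_rw [this]
      exact tendsto_const_nhds

/-! ## The quantities of the statement -/

omit [IsProbabilityMeasure μ] in
lemma mt_eq (v : V) (s : ℝ) {J : ℕ} (hJ : ⌈s⌉₊ ≤ J) (ω : Om V) :
    mt G θ s ω v = mE G θ J Set.univ v s ω := by
  unfold mt mE
  rw [yt_eq ω s hJ, Set.univ_inter]

omit [IsProbabilityMeasure μ] in
open Classical in
lemma Jm_eq (v : V) (s : ℝ) {J : ℕ} (hJ : ⌈s⌉₊ ≤ J) (k : V × ℕ) (ω : Om V) :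
    (if kap ω.2.1 k < s then Jm G θ ω v k else 0) = xE G θ J Set.univ v s k ω := by
  unfold xE
  by_cases hs : kap ω.2.1 k < s
  · rw [if_pos hs, if_pos hs]
    have hkJ : k.2 < J := lt_of_lt_of_le (Is_lt (show k ∈ Is ω.2.1 s from hs)) hJ
    have hJ' : ⌈kap ω.2.1 k⌉₊ ≤ J := (Nat.ceil_le_ceil hs.le).trans hJ
    unfold Jm jE mt
    rw [yt_eq ω _ hJ', Set.univ_inter]
    have hk : k ∉ Is ω.2.1 (kap ω.2.1 k) := fun h =>
      lt_irrefl _ (show kap ω.2.1 k < kap ω.2.1 k from h)
    have e : (fun w => fld J (Is ω.2.1 (kap ω.2.1 k)) ω w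
        + if w = k.1 then at' (ep ω k) else 0) = fld J (insert k (Is ω.2.1 (kap ω.2.1 k))) ω := by
      funext w
      rw [fld_insert hk hkJ]
    rw [e]
  · rw [if_neg hs, if_neg hs]

end Vale.Agent.P161C.SumB
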