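import Vale.Agent.P161C.SumGlob

/-!
# P161 critical point: SUMJ, the tail estimate
-/

namespace Vale.Agent.P161C.SumB

open MeasureTheory Vale.Agent.P161 Filter Topology

universe u

variable {V : Type u} {G : SimpleGraph V} {d : ℕ} {θ : ℝ}

/-! ## Real estimates -/

lemma real1 {c t s : ℝ} (hc0 : 0 < c) (hc1 : c ≤ 1 / 2) (ht0 : 0 < t) (ht1 : t ≤ 1) (hts : t ≤ s)
    (n k : ℕ) :
    (1 - c * min s 1) ^
        ((Finset.Icc 1 k).filter fun i => 1 + 10 / min s 1 ≤ (((n - i : ℕ)) : ℝ)).card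
      ≤ (1 - c * t) ^ (min k (n - ⌈1 + 10 / t⌉₊)) := by
  have hm : t ≤ min s 1 := le_min hts ht1
  have hm1 : min s 1 ≤ 1 := min_le_right _ _
  have hm0 : 0 < min s 1 := lt_of_lt_of_le ht0 hm
  have h0 : 0 ≤ 1 - c * min s 1 := by nlinarith
  have h1 : 1 - c * min s 1 ≤ 1 := by nlinarith
  have h2 : 1 - c * min s 1 ≤ 1 - c * t := by nlinarith
  have hq : 1 + 10 / t ≤ (⌈1 + 10 / t⌉₊ : ℝ) := Nat.le_ceil _
  have hq0 : 0 < ⌈1 + 10 / t⌉₊ := Nat.ceil_pos.2 (by positivity)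
  have h3 : 10 / min s 1 ≤ 10 / t := by
    apply div_le_div_of_nonneg_left (by norm_num) ht0 hm
  have hcard : min k (n - ⌈1 + 10 / t⌉₊)
      ≤ ((Finset.Icc 1 k).filter fun i => 1 + 10 / min s 1 ≤ (((n - i : ℕ)) : ℝ)).card := by
    have hsub : Finset.Icc 1 (min k (n - ⌈1 + 10 / t⌉₊)) ⊆
        (Finset.Icc 1 k).filter fun i => 1 + 10 / min s 1 ≤ (((n - i : ℕ)) : ℝ) := by
      intro i hi
      rw [Finset.mem_Icc] at hi
      have hi1 : i ≤ k := hi.2.trans (min_le_left _ _)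
      have hi2 : i ≤ n - ⌈1 + 10 / t⌉₊ := hi.2.trans (min_le_right _ _)
      rw [Finset.mem_filter, Finset.mem_Icc]
      refine ⟨⟨hi.1, hi1⟩, ?_⟩
      have h4 : ⌈1 + 10 / t⌉₊ ≤ n - i := by omega
      have h5 : (⌈1 + 10 / t⌉₊ : ℝ) ≤ ((n - i : ℕ) : ℝ) := by exact_mod_cast h4
      linarith
    have := Finset.card_le_card hsub
    rwa [Nat.card_Icc, Nat.add_sub_cancel] at this
  calc (1 - c * min s 1) ^
        ((Finset.Icc 1 k).filter fun i => 1 + 10 / min s 1 ≤ (((n - i : ℕ)) : ℝ)).card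
      ≤ (1 - c * min s 1) ^ (min k (n - ⌈1 + 10 / t⌉₊)) := pow_le_pow_of_le_one h0 h1 hcard
    _ ≤ (1 - c * t) ^ (min k (n - ⌈1 + 10 / t⌉₊)) := pow_le_pow_left₀ h0 h2 _

lemma geom_Ioc {r : ℝ} (h0 : 0 ≤ r) (h1 : r < 1) (R n : ℕ) :
    ∑ k ∈ Finset.Ioc R n, r ^ k ≤ r ^ R / (1 - r) := by
  have h2 : 0 < 1 - r := by linarith
  have h3 : ∑ k ∈ Finset.Ioc R n, r ^ k ≤ ∑ k ∈ Finset.Ico R (n + 1), r ^ k := by
    apply Finset.sum_le_sum_of_subset_of_nonneg
    · intro k hk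
      rw [Finset.mem_Ioc] at hk
      rw [Finset.mem_Ico]
      omega
    · intro k _ _
      positivity
  refine h3.trans ?_
  rcases le_or_gt R (n + 1) with h | h
  · rw [geom_sum_Ico' (by linarith) h, div_le_div_iff_of_pos_right h2]
    have : 0 ≤ r ^ (n + 1) := by positivity
    linarith
  · rw [Finset.Ico_eq_empty (by omega)]
    simp only [Finset.sum_empty]
    positivity

lemma real2 {c t : ℝ} (hc0 : 0 < c) (hc1 : c ≤ 1 / 2) (ht0 : 0 < t) (ht1 : t ≤ 1) (R n : ℕ) :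
    ∑ k ∈ Finset.Ioc R n, t * (1 - c * t) ^ (min k (n - ⌈1 + 10 / t⌉₊))
      ≤ (1 - c * t) ^ R / c + 12 * (1 - c * t) ^ (n - ⌈1 + 10 / t⌉₊) := by
  set q := ⌈1 + 10 / t⌉₊ with hq
  set m := n - q with hm
  have hr0 : 0 ≤ 1 - c * t := by nlinarith
  have hr1 : 1 - c * t < 1 := by nlinarith [mul_pos hc0 ht0]
  set r := 1 - c * t with hr
  have hqle : (q : ℝ) ≤ 1 + 10 / t + 1 := by
    have := Nat.ceil_lt_add_one (show 0 ≤ 1 + 10 / t by positivity)
    exact this.le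
  have htq : t * q ≤ 12 := by
    have h1 : t * q ≤ t * (1 + 10 / t + 1) := mul_le_mul_of_nonneg_left hqle ht0.le
    have h2 : t * (1 + 10 / t + 1) = 2 * t + 10 := by field_simp; ring
    linarith
  have h3 : ∀ k ∈ Finset.Ioc R n, r ^ (min k m) ≤ r ^ k + if m < k then r ^ m else 0 := by
    intro k _
    rcases le_or_gt k m with h | h
    · rw [min_eq_left h, if_neg (by omega), add_zero]
    · rw [min_eq_right h.le, if_pos h]
      have : 0 ≤ r ^ k := by positivity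
      linarith
  have h4 : ∑ k ∈ Finset.Ioc R n, r ^ (min k m) ≤ r ^ R / (1 - r) + q * r ^ m := by
    refine (Finset.sum_le_sum h3).trans ?_
    rw [Finset.sum_add_distrib]
    apply add_le_add (geom_Ioc hr0 hr1 R n)
    rw [← Finset.sum_filter, Finset.sum_const, nsmul_eq_mul]
    apply mul_le_mul_of_nonneg_right _ (by positivity)
    have hsub : (Finset.Ioc R n).filter (fun k => m < k) ⊆ Finset.Ioc m n := by
      intro k hk
      rw [Finset.mem_filter, Finset.mem_Ioc] at hk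
      rw [Finset.mem_Ioc]
      exact ⟨hk.2, hk.1.2⟩
    have h5 := Finset.card_le_card hsub
    rw [Nat.card_Ioc] at h5
    have h6 : n - m ≤ q := by omega
    exact_mod_cast h5.trans h6
  rw [← Finset.mul_sum]
  have h7 : t * ∑ k ∈ Finset.Ioc R n, r ^ (min k m) ≤ t * (r ^ R / (1 - r) + q * r ^ m) :=
    mul_le_mul_of_nonneg_left h4 ht0.le
  refine h7.trans ?_
  have h8 : 1 - r = c * t := by rw [hr]; ring
  rw [mul_add, h8]
  have h9 : t * (r ^ R / (c * t)) = r ^ R / c := by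
    field_simp
  have h10 : t * (q * r ^ m) ≤ 12 * r ^ m := by
    rw [← mul_assoc]
    exact mul_le_mul_of_nonneg_right htq (by positivity)
  rw [h9]
  linarith

/-! ## The density of the squared jumps -/

/-- bound for the squared jump -/
noncomputable def FF (G : SimpleGraph V) (θ : ℝ) (J n : ℕ) (v w : V) (t : ℝ) (ω : Om V) : ℝ :=
  θ ^ (2 * G.dist v w)
    * pw G θ (fun j u p => Real.tanh (msg G θ (n - j) (fld J (Is ω.2.1 t) ω) u p)) v w

lemma measurable_FF_comp {α : Type*} [MeasurableSpace α] (J n : ℕ) (v w : V) (T : α → ℝ)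
    (W : α → Om V) (hT : Measurable T) (hW : Measurable W) :
    Measurable fun a => FF G θ J n v w (T a) (W a) := by
  unfold FF
  apply Measurable.const_mul
  apply measurable_pw (fun (a : α) j u p =>
    Real.tanh (msg G θ (n - j) (fld J (Is (W a).2.1 (T a)) (W a)) u p))
  intro j u p
  apply measurable_tanh.comp
  apply measurable_msg
  intro w'
  apply measurable_fld J (fun a : α => Is (W a).2.1 (T a)) W hW
  intro l
  exact measurableSet_lt ((RT.measurable_kap l).comp hW) hT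

lemma FF_bounds (hc : Crit G d θ) (J n : ℕ) (v w : V) (t : ℝ) (ω : Om V) :
    0 ≤ FF G θ J n v w t ω ∧ FF G θ J n v w t ω ≤ 1 := by
  unfold FF
  have h := pw_nonneg_le hc (fun j u p =>
    Real.tanh (msg G θ (n - j) (fld J (Is ω.2.1 t) ω) u p)) (fun _ _ _ => (abs_tanh_lt _).le) v w
  have h1 : 0 ≤ θ ^ (2 * G.dist v w) := pow_nonneg hc.pos.le _
  have h2 : θ ^ (2 * G.dist v w) ≤ 1 := pow_le_one₀ hc.pos.le (crit_lt_one hc).le
  exact ⟨mul_nonneg h1 h.1, mul_le_one₀ h2 h.1 h.2⟩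

lemma ep_updU (ω : Om V) {k l : V × ℕ} (h : l ≠ k) (x : I01) :
    ep (RT.updU ω k x) l = ep ω l := by
  unfold ep obs
  rw [RT.updU_label_ne ω h]
  rfl

lemma fld_updU (J : ℕ) {k : V × ℕ} {t : ℝ} (ω : Om V) (x : I01) (h1 : t ≤ kap ω.2.1 k)
    (h2 : t ≤ k.2 + (x : ℝ)) :
    fld J (Is (RT.updU ω k x).2.1 t) (RT.updU ω k x) = fld J (Is ω.2.1 t) ω := by
  funext w
  unfold fld
  apply Finset.sum_congr rfl
  intro j _
  by_cases hk : (w, j) = k
  · rw [if_neg, if_neg]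
    · intro h
      have h' : kap ω.2.1 (w, j) < t := h
      rw [hk] at h'
      linarith
    · intro h
      have h' : kap (RT.updU ω k x).2.1 (w, j) < t := h
      rw [hk, RT.kap_updU_self] at h'
      linarith
  · have e : (w, j) ∈ Is (RT.updU ω k x).2.1 t ↔ (w, j) ∈ Is ω.2.1 t := by
      show kap (RT.updU ω k x).2.1 (w, j) < t ↔ kap ω.2.1 (w, j) < t
      rw [RT.kap_updU_ne ω hk]
    rw [ep_updU ω hk]
    by_cases h : (w, j) ∈ Is ω.2.1 t
    · rw [if_pos h, if_pos (e.2 h)]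
    · rw [if_neg h, if_neg (fun h' => h (e.1 h'))]

lemma FF_dep (J n : ℕ) (v w : V) {k : V × ℕ} (t : ℝ) (ω : Om V) (x : I01)
    (h1 : t ≤ kap ω.2.1 k) (h2 : t ≤ k.2 + (x : ℝ)) :
    FF G θ J n v w t (RT.updU ω k x) = FF G θ J n v w t ω := by
  unfold FF
  rw [fld_updU J ω x h1 h2]

lemma fld_ball (J n : ℕ) (v : V) (I : Set (V × ℕ)) (ω : Om V) :
    fld J (En G v J n ∩ I) ω = rs G v n (fld J I ω) := by
  funext w
  unfold rs fld
  by_cases hw : G.dist v w ≤ n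
  · rw [if_pos hw]
    apply Finset.sum_congr rfl
    intro j hj
    have hj' := Finset.mem_range.1 hj
    by_cases h : (w, j) ∈ I
    · rw [if_pos h, if_pos ⟨⟨hw, hj'⟩, h⟩]
    · rw [if_neg h, if_neg (fun h' => h h'.2)]
  · rw [if_neg hw]
    apply Finset.sum_eq_zero
    intro j _
    rw [if_neg]
    intro h
    exact hw h.1.1

attribute [irreducible] FF

variable {μ : Measure (V → Bool)} [IsProbabilityMeasure μ]

/-- the squared jump in finite volume -/
lemma jE_sq_le (hPOST : S_POST.{u}) (hALG2 : S_ALG2.{u}) (hALG3 : S_ALG3.{u})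
    (hc : Crit G d θ) (hμ : IsFreeIsing G θ μ) (J n : ℕ) (v : V) (k : V × ℕ)
    (hk : k ∈ En G v J n) :
    ∀ᵐ ω ∂(PP μ), jE G θ J (En G v J n) v k ω ^ 2
      ≤ 4 * dl (ω.2.1 k) ^ 2 * FF G θ J n v k.1 (kap ω.2.1 k) ω := by
  apply ae_PP
  · apply measurableSet_le
    · exact (measurable_jE J _ v k).pow_const 2
    · have h1 : Measurable fun ω : Om V => dl (ω.2.1 k) := measurable_dl.comp (by fun_prop)
      have h2 : Measurable fun ω : Om V => FF G θ J n v k.1 (kap ω.2.1 k) ω :=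
        measurable_FF_comp J n v k.1 (fun ω : Om V => kap ω.2.1 k) (fun ω => ω)
          (RT.measurable_kap k) measurable_id
      exact (measurable_const.mul (h1.pow_const 2)).mul h2
  · intro U
    have hI : ∀ l ∈ En G v J n ∩ Is U (kap U k), l.2 < J := fun l hl => hl.1.2
    have hk' : k ∉ En G v J n ∩ Is U (kap U k) := fun h =>
      lt_irrefl _ (show kap U k < kap U k from h.2)
    filter_upwards [jump_sq_le hPOST hALG2 hALG3 hc hμ U J _ hI k hk' hk.2] with p hp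
    have h := hp v
    rw [fld_ball, pw_fin hc v k.1 n _ hk.1] at h
    refine le_trans (le_of_eq ?_) (h.trans (le_of_eq ?_))
    · unfold jE
      dsimp only
      rw [fld_ball]
    · unfold FF
      rfl

/-- the integral of a squared jump in finite volume -/
lemma lintegral_xE_le (hPOST : S_POST.{u}) (hALG2 : S_ALG2.{u}) (hALG3 : S_ALG3.{u})
    (hc : Crit G d θ) (hμ : IsFreeIsing G θ μ) (J n : ℕ) (v : V) (s : ℝ) (k : V × ℕ)
    (hk : k ∈ En G v J n) :
    ∫⁻ ω, ENNReal.ofReal (xE G θ J (En G v J n) v s k ω ^ 2) ∂(PP μ)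
      ≤ ∫⁻ t : I01, ENNReal.ofReal (4 * (t : ℝ))
        * ∫⁻ ω, ENNReal.ofReal (FF G θ J n v k.1 (k.2 + (t : ℝ)) ω) ∂(PP μ) := by
  have h1 := RT.lintegral_kap_le (μ := μ) k
    (fun t ω => ENNReal.ofReal (FF G θ J n v k.1 t ω))
    (ENNReal.measurable_ofReal.comp (measurable_FF_comp (G := G) (θ := θ) J n v k.1
      (fun q : ℝ × Om V => q.1) (fun q => q.2) measurable_fst measurable_snd))
    (fun t ω x h1 h2 => by rw [FF_dep J n v k.1 t ω x h1 h2])
    (fun t => ENNReal.ofReal (4 * (t : ℝ))) (by fun_prop)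
  refine le_trans ?_ h1
  apply lintegral_mono_ae
  filter_upwards [jE_sq_le hPOST hALG2 hALG3 hc hμ J n v k hk] with ω hω
  have h2 : xE G θ J (En G v J n) v s k ω ^ 2 ≤ jE G θ J (En G v J n) v k ω ^ 2 := by
    unfold xE
    split_ifs
    · exact le_rfl
    · rw [zero_pow two_ne_zero]
      exact sq_nonneg _
  have h3 := (FF_bounds hc J n v k.1 (kap ω.2.1 k) ω).1
  have hx0 := (ω.2.1 k).2.1
  have hx1 := (ω.2.1 k).2.2
  rw [← ENNReal.ofReal_mul (by linarith), ← ENNReal.ofReal_mul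
    (mul_nonneg (by linarith) (by linarith))]
  apply ENNReal.ofReal_le_ofReal
  refine h2.trans (hω.trans (le_of_eq ?_))
  rw [dl_sq]
  ring

/-- sum over a sphere, at a deterministic time -/
lemma sum_FF_le (hTRANS : S_TRANS.{u}) (hc : Crit G d θ) (J : ℕ) :
    ∃ c : ℝ, 0 < c ∧ c ≤ 1 / 2 ∧ ∀ {μ : Measure (V → Bool)}, IsProbabilityMeasure μ →
      IsFreeIsing G θ μ → ∀ (n k j : ℕ) (v : V) (t : I01), j < J → (0 : ℝ) < t →
      ∑ w ∈ sphF G v k, ∫⁻ ω, ENNReal.ofReal (FF G θ J n v w (j + (t : ℝ)) ω) ∂(PP μ)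
        ≤ ENNReal.ofReal (2 * (1 - c * t) ^ (min k (n - ⌈1 + 10 / (t : ℝ)⌉₊))) := by
  obtain ⟨c, hc0, hc1, _, _, hT⟩ := hTRANS hc J
  refine ⟨c, hc0, hc1, ?_⟩
  intro μ _ hμ n k j v t hj ht
  have ht1 : (t : ℝ) ≤ 1 := t.2.2
  have hjJ : (j : ℝ) + 1 ≤ J := by exact_mod_cast hj
  have hs0 : (0 : ℝ) < j + (t : ℝ) := by positivity
  have hsJ : (j : ℝ) + (t : ℝ) ≤ J := by linarith
  have h := (hT hμ (j + (t : ℝ)) hs0 hsJ).1 (fun i => n - i) v k
  have hts : (t : ℝ) ≤ j + (t : ℝ) := by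
    have : (0 : ℝ) ≤ j := Nat.cast_nonneg j
    linarith
  have h2 := real1 hc0 hc1 ht ht1 hts n k
  have hmeas : ∀ w, Measurable fun ω : Om V => FF G θ J n v w (j + (t : ℝ)) ω := fun w =>
    measurable_FF_comp J n v w (fun _ : Om V => j + (t : ℝ)) (fun ω => ω) measurable_const
      measurable_id
  have hint : ∀ w, Integrable (fun ω : Om V => FF G θ J n v w (j + (t : ℝ)) ω) (PP μ) := by
    intro w
    apply integrable_of_bdd (B := 1) (hmeas w)
    intro ω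
    have := FF_bounds hc J n v w (j + (t : ℝ)) ω
    rw [abs_of_nonneg this.1]
    exact this.2
  have e1 : ∀ w ∈ sphF G v k,
      ∫⁻ ω, ENNReal.ofReal (FF G θ J n v w (j + (t : ℝ)) ω) ∂(PP μ)
      = ENNReal.ofReal (∫ ω, FF G θ J n v w (j + (t : ℝ)) ω ∂(PP μ)) := by
    intro w _
    exact (ofReal_integral_eq_lintegral_ofReal (hint w)
      (Eventually.of_forall fun ω => (FF_bounds hc J n v w _ ω).1)).symm
  rw [Finset.sum_congr rfl e1, ← ENNReal.ofReal_sum_of_nonneg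
    (fun w _ => integral_nonneg fun ω => (FF_bounds hc J n v w _ ω).1)]
  apply ENNReal.ofReal_le_ofReal
  rw [← integral_finsetSum _ (fun w _ => hint w)]
  have e2 : ∫ ω, ∑ w ∈ sphF G v k, FF G θ J n v w (j + (t : ℝ)) ω ∂(PP μ)
      = ∫ ω, θ ^ (2 * k) * ∑ w ∈ sphF G v k,
          pw G θ (fun i u p => Real.tanh (msg G θ (n - i) (yt (j + (t : ℝ)) ω) u p)) v w
          ∂(PP μ) := by
    apply integral_congr_ae
    refine Eventually.of_forall fun ω => ?_
    dsimp only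
    rw [Finset.mul_sum]
    apply Finset.sum_congr rfl
    intro w hw
    have hd := (mem_sphF hc).1 hw
    unfold FF
    rw [hd, yt_eq ω (j + (t : ℝ)) (J := J) (Nat.ceil_le.2 hsJ)]
  rw [e2]
  exact h.trans (mul_le_mul_of_nonneg_left h2 (by norm_num))

/-- the tail bound, as a Lebesgue integral over the unit interval -/
lemma tail_le (hPOST : S_POST.{u}) (hALG2 : S_ALG2.{u}) (hALG3 : S_ALG3.{u})
    (hTRANS : S_TRANS.{u}) (hc : Crit G d θ) (J : ℕ) :
    ∃ c : ℝ, 0 < c ∧ c ≤ 1 / 2 ∧ ∀ {μ : Measure (V → Bool)}, IsProbabilityMeasure μ →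
      IsFreeIsing G θ μ → ∀ (R n : ℕ) (v : V) (s : ℝ) (A : Finset (V × ℕ)),
      (∀ k ∈ A, R < G.dist v k.1 ∧ G.dist v k.1 ≤ n ∧ k.2 < J) →
      ∑ k ∈ A, ∫⁻ ω, ENNReal.ofReal (xE G θ J (En G v J n) v s k ω ^ 2) ∂(PP μ)
        ≤ ∫⁻ t : I01, ENNReal.ofReal (8 * J * ((1 - c * (t : ℝ)) ^ R / c
          + 12 * (1 - c * (t : ℝ)) ^ (n - ⌈1 + 10 / (t : ℝ)⌉₊))) := by
  classical
  obtain ⟨c, hc0, hc1, hF⟩ := sum_FF_le hTRANS hc J
  refine ⟨c, hc0, hc1, ?_⟩
  intro μ _ hμ R n v s A hA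
  -- the full set of indices
  set B : Finset (V × ℕ) := ((Finset.Ioc R n).biUnion fun k => sphF G v k) ×ˢ Finset.range J
    with hB
  have hAB : A ⊆ B := by
    intro k hk
    obtain ⟨h1, h2, h3⟩ := hA k hk
    rw [hB, Finset.mem_product, Finset.mem_biUnion, Finset.mem_range]
    exact ⟨⟨G.dist v k.1, Finset.mem_Ioc.2 ⟨h1, h2⟩, (mem_sphF hc).2 rfl⟩, h3⟩
  have hBE : ∀ k ∈ B, k ∈ En G v J n := by
    intro k hk
    rw [hB, Finset.mem_product, Finset.mem_biUnion, Finset.mem_range] at hk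
    obtain ⟨⟨i, hi, hi2⟩, hj⟩ := hk
    rw [mem_sphF hc] at hi2
    exact ⟨by rw [hi2]; exact (Finset.mem_Ioc.1 hi).2, hj⟩
  set BB : V → ℕ → I01 → ENNReal := fun w j t =>
    ∫⁻ ω, ENNReal.ofReal (FF G θ J n v w (j + (t : ℝ)) ω) ∂(PP μ) with hBB
  have hBBm : ∀ w j, Measurable (BB w j) := by
    intro w j
    have h1 : Measurable fun q : I01 × Om V =>
        ENNReal.ofReal (FF G θ J n v w (j + (q.1 : ℝ)) q.2) :=
      ENNReal.measurable_ofReal.comp (measurable_FF_comp J n v w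
        (fun q : I01 × Om V => j + (q.1 : ℝ)) (fun q => q.2) (by fun_prop) measurable_snd)
    exact h1.lintegral_prod_right'
  have h1 : ∑ k ∈ A, ∫⁻ ω, ENNReal.ofReal (xE G θ J (En G v J n) v s k ω ^ 2) ∂(PP μ)
      ≤ ∑ k ∈ B, ∫⁻ t : I01, ENNReal.ofReal (4 * (t : ℝ)) * BB k.1 k.2 t := by
    refine (Finset.sum_le_sum_of_subset hAB).trans ?_
    apply Finset.sum_le_sum
    intro k hk
    exact lintegral_xE_le hPOST hALG2 hALG3 hc hμ J n v s k (hBE k hk)
  refine h1.trans ?_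
  have hm4 : Measurable fun t : I01 => ENNReal.ofReal (4 * (t : ℝ)) := by fun_prop
  have hsum : ∑ k ∈ B, ∫⁻ t : I01, ENNReal.ofReal (4 * (t : ℝ)) * BB k.1 k.2 t
      = ∫⁻ t : I01, ∑ k ∈ B, ENNReal.ofReal (4 * (t : ℝ)) * BB k.1 k.2 t :=
    (lintegral_finsetSum B (f := fun k (t : I01) => ENNReal.ofReal (4 * (t : ℝ)) * BB k.1 k.2 t)
      (fun k _ => hm4.mul (hBBm k.1 k.2))).symm
  rw [hsum]
  apply lintegral_mono_ae
  have hpos : ∀ᵐ t : I01, (0 : ℝ) < t := by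
    have h0 : ∀ᵐ t : I01, t ≠ 0 := by
      rw [ae_iff]
      simp only [ne_eq, not_not]
      exact measure_singleton (0 : I01)
    filter_upwards [h0] with t ht
    rcases lt_or_eq_of_le t.2.1 with h | h
    · exact h
    · exact absurd (Subtype.ext h.symm) ht
  filter_upwards [hpos] with t ht
  have ht1 : (t : ℝ) ≤ 1 := t.2.2
  have hr0 : 0 ≤ 1 - c * (t : ℝ) := by nlinarith
  have h2 : ∑ k ∈ B, ENNReal.ofReal (4 * (t : ℝ)) * BB k.1 k.2 t
      = ∑ i ∈ Finset.Ioc R n, ∑ j ∈ Finset.range J,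
        ENNReal.ofReal (4 * (t : ℝ)) * ∑ w ∈ sphF G v i, BB w j t := by
    rw [hB, Finset.sum_product, Finset.sum_biUnion]
    · apply Finset.sum_congr rfl
      intro i _
      rw [Finset.sum_comm]
      apply Finset.sum_congr rfl
      intro j _
      rw [Finset.mul_sum]
    · intro i _ j _ hij
      rw [Function.onFun, Finset.disjoint_left]
      intro x hx hx'
      rw [mem_sphF hc] at hx hx'
      exact hij (hx.symm.trans hx')
  rw [h2]
  have h3 : ∑ i ∈ Finset.Ioc R n, ∑ j ∈ Finset.range J,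
        ENNReal.ofReal (4 * (t : ℝ)) * ∑ w ∈ sphF G v i, BB w j t
      ≤ ∑ i ∈ Finset.Ioc R n, ∑ _j ∈ Finset.range J,
        ENNReal.ofReal (4 * (t : ℝ) * (2 * (1 - c * t) ^ (min i (n - ⌈1 + 10 / (t : ℝ)⌉₊)))) := by
    apply Finset.sum_le_sum
    intro i _
    apply Finset.sum_le_sum
    intro j hj
    rw [ENNReal.ofReal_mul (p := 4 * (t : ℝ)) (by positivity)]
    exact mul_le_mul_right (hF ‹_› hμ n i j v t (Finset.mem_range.1 hj) ht) _
  refine h3.trans ?_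
  have hnn : ∀ i, 0 ≤ 4 * (t : ℝ) * (2 * (1 - c * t) ^ (min i (n - ⌈1 + 10 / (t : ℝ)⌉₊))) := by
    intro i
    positivity
  have h4 : ∑ i ∈ Finset.Ioc R n, ∑ _j ∈ Finset.range J,
        ENNReal.ofReal (4 * (t : ℝ) * (2 * (1 - c * t) ^ (min i (n - ⌈1 + 10 / (t : ℝ)⌉₊))))
      = ENNReal.ofReal (8 * J * ∑ i ∈ Finset.Ioc R n,
        (t : ℝ) * (1 - c * t) ^ (min i (n - ⌈1 + 10 / (t : ℝ)⌉₊))) := by
    rw [Finset.mul_sum, ENNReal.ofReal_sum_of_nonneg (fun i _ => by positivity)]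
    apply Finset.sum_congr rfl
    intro i _
    rw [Finset.sum_const, Finset.card_range, nsmul_eq_mul, ← ENNReal.ofReal_natCast,
      ← ENNReal.ofReal_mul (Nat.cast_nonneg _)]
    congr 1
    ring
  rw [h4]
  apply ENNReal.ofReal_le_ofReal
  exact mul_le_mul_of_nonneg_left (real2 hc0 hc1 ht ht1 R n) (by positivity)

/-- the bound tends to zero -/
lemma tail_tendsto {c : ℝ} (hc0 : 0 < c) (hc1 : c ≤ 1 / 2) (J : ℕ) {ε : ℝ} (hε : 0 < ε) :
    ∃ R : ℕ, ∀ᶠ n : ℕ in atTop,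
      ∫⁻ t : I01, ENNReal.ofReal (8 * J * ((1 - c * (t : ℝ)) ^ R / c
          + 12 * (1 - c * (t : ℝ)) ^ (n - ⌈1 + 10 / (t : ℝ)⌉₊))) ≤ ENNReal.ofReal ε := by
  have hpos : ∀ᵐ t : I01, (0 : ℝ) < t := by
    have h0 : ∀ᵐ t : I01, t ≠ 0 := by
      rw [ae_iff]
      simp only [ne_eq, not_not]
      exact measure_singleton (0 : I01)
    filter_upwards [h0] with t ht
    rcases lt_or_eq_of_le t.2.1 with h | h
    · exact h
    · exact absurd (Subtype.ext h.symm) ht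
  have hr0 : ∀ t : I01, 0 ≤ 1 - c * (t : ℝ) := fun t => by nlinarith [t.2.1, t.2.2]
  have hr1 : ∀ t : I01, 1 - c * (t : ℝ) ≤ 1 := fun t => by nlinarith [t.2.1, t.2.2]
  have hr1' : ∀ t : I01, (0 : ℝ) < t → 1 - c * (t : ℝ) < 1 := fun t ht => by
    nlinarith [mul_pos hc0 ht]
  have m1 : Measurable fun t : I01 => 1 - c * (t : ℝ) := by fun_prop
  have mq : Measurable fun t : I01 => ⌈1 + 10 / (t : ℝ)⌉₊ := by
    apply Measurable.nat_ceil
    exact measurable_const.add (measurable_const.div measurable_subtype_coe)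
  have hmeas1 : ∀ R : ℕ, Measurable fun t : I01 => (1 - c * (t : ℝ)) ^ R := fun R =>
    m1.pow_const R
  have hmeas2 : ∀ n : ℕ, Measurable fun t : I01 =>
      (1 - c * (t : ℝ)) ^ (n - ⌈1 + 10 / (t : ℝ)⌉₊) := by
    intro n
    exact m1.pow (measurable_const.sub mq)
  have hb : ∀ (f : I01 → ℕ) (t : I01), |(1 - c * (t : ℝ)) ^ (f t)| ≤ 1 := by
    intro f t
    rw [abs_of_nonneg (pow_nonneg (hr0 t) _)]
    exact pow_le_one₀ (hr0 t) (hr1 t)
  have T1 : Tendsto (fun R : ℕ => ∫ t : I01, (1 - c * (t : ℝ)) ^ R) atTop (𝓝 0) := by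
    have h0 : (0 : ℝ) = ∫ _t : I01, (0 : ℝ) := by simp
    rw [h0]
    apply tendsto_integral_of_dominated_convergence (fun _ => 1)
    · exact fun R => (hmeas1 R).aestronglyMeasurable
    · exact integrable_const _
    · exact fun R => Eventually.of_forall fun t => hb (fun _ => R) t
    · filter_upwards [hpos] with t ht
      exact tendsto_pow_atTop_nhds_zero_of_lt_one (hr0 t) (hr1' t ht)
  have T2 : Tendsto (fun n : ℕ => ∫ t : I01, (1 - c * (t : ℝ)) ^ (n - ⌈1 + 10 / (t : ℝ)⌉₊)) atTop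
      (𝓝 0) := by
    have h0 : (0 : ℝ) = ∫ _t : I01, (0 : ℝ) := by simp
    rw [h0]
    apply tendsto_integral_of_dominated_convergence (fun _ => 1)
    · exact fun n => (hmeas2 n).aestronglyMeasurable
    · exact integrable_const _
    · exact fun n => Eventually.of_forall fun t => hb (fun t => n - ⌈1 + 10 / (t : ℝ)⌉₊) t
    · filter_upwards [hpos] with t ht
      exact (tendsto_pow_atTop_nhds_zero_of_lt_one (hr0 t) (hr1' t ht)).comp
        (tendsto_sub_atTop_nat _)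
  have T1' : Tendsto (fun R : ℕ => 8 * J / c * ∫ t : I01, (1 - c * (t : ℝ)) ^ R) atTop (𝓝 0) := by
    have := T1.const_mul (8 * J / c)
    rwa [mul_zero] at this
  have T2' : Tendsto (fun n : ℕ => 96 * J *
      ∫ t : I01, (1 - c * (t : ℝ)) ^ (n - ⌈1 + 10 / (t : ℝ)⌉₊)) atTop (𝓝 0) := by
    have := T2.const_mul (96 * J : ℝ)
    rwa [mul_zero] at this
  obtain ⟨R, hR⟩ := (T1'.eventually (gt_mem_nhds (half_pos hε))).exists
  refine ⟨R, ?_⟩
  filter_upwards [T2'.eventually (gt_mem_nhds (half_pos hε))] with n hn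
  have i1 : Integrable (fun t : I01 => (1 - c * (t : ℝ)) ^ R) volume :=
    integrable_of_bdd (hmeas1 R) (fun t => hb (fun _ => R) t)
  have i2 : Integrable (fun t : I01 => (1 - c * (t : ℝ)) ^ (n - ⌈1 + 10 / (t : ℝ)⌉₊)) volume :=
    integrable_of_bdd (hmeas2 n) (fun t => hb (fun t => n - ⌈1 + 10 / (t : ℝ)⌉₊) t)
  have e : ∀ t : I01, 8 * J * ((1 - c * (t : ℝ)) ^ R / c
      + 12 * (1 - c * (t : ℝ)) ^ (n - ⌈1 + 10 / (t : ℝ)⌉₊))
      = 8 * J / c * (1 - c * (t : ℝ)) ^ R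
        + 96 * J * (1 - c * (t : ℝ)) ^ (n - ⌈1 + 10 / (t : ℝ)⌉₊) := by
    intro t
    ring
  simp_rw [e]
  have hnn : ∀ t : I01, 0 ≤ 8 * J / c * (1 - c * (t : ℝ)) ^ R
        + 96 * J * (1 - c * (t : ℝ)) ^ (n - ⌈1 + 10 / (t : ℝ)⌉₊) := by
    intro t
    have := hr0 t
    positivity
  have i3 : Integrable (fun t : I01 => 8 * J / c * (1 - c * (t : ℝ)) ^ R
        + 96 * J * (1 - c * (t : ℝ)) ^ (n - ⌈1 + 10 / (t : ℝ)⌉₊)) volume :=
    (i1.const_mul _).add (i2.const_mul _)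
  rw [← ofReal_integral_eq_lintegral_ofReal i3 (Eventually.of_forall hnn)]
  apply ENNReal.ofReal_le_ofReal
  rw [integral_add (i1.const_mul _) (i2.const_mul _), integral_const_mul, integral_const_mul]
  linarith

end Vale.Agent.P161C.SumB
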