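import Vale.Agent.P161C.TempI

/-!
# TEMP, part 2: flip invariant functions, conditional expectations on balls
-/

namespace Vale.Agent.P161C.Temp

open MeasureTheory ProbabilityTheory Vale.Agent.P161 Filter Topology

universe u

variable {V : Type u} {G : SimpleGraph V} {d : ℕ} {θ : ℝ}

/-- normalise the spin at the root -/
def rho (o : V) (ω : Om V) : Om V := (fun v => (ω.1 v == ω.1 o), ω.2)

lemma rho_cases (o : V) (ω : Om V) : rho o ω = if ω.1 o then ω else flp ω := by
  unfold rho flp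
  cases h : ω.1 o
  · simp only [Bool.false_eq_true, if_false]
    congr 1
    funext v
    cases ω.1 v <;> rfl
  · simp only [if_true]
    rcases ω with ⟨a, b⟩
    congr 1
    funext v
    show (a v == true) = a v
    cases a v <;> rfl

/-- sigma-algebra of all the coordinates -/
noncomputable abbrev Fall (G : SimpleGraph V) : MeasurableSpace (Om V) := ⨆ i, sX G i

lemma measurable_coord (i : Ix V) : Measurable[Fall G] (X G i) := by
  have h1 : Measurable[sX G i] (X G i) := comap_measurable _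
  exact h1.mono (le_iSup (fun i => sX G i) i) le_rfl

lemma meas_sp_inv {m : MeasurableSpace (Om V)} {f : Om V → Bool}
    (hf : Measurable[m] fun ω => sp (f ω)) : Measurable[m] f := by
  have e : f ⁻¹' {true} = (fun ω => sp (f ω)) ⁻¹' {1} := by
    ext ω
    simp only [Set.mem_preimage, Set.mem_singleton_iff]
    cases h : f ω <;> norm_num [sp]
  apply @measurable_to_bool _ m
  rw [e]
  exact hf (measurableSet_singleton 1)

lemma measurable_rho (h : Crit G d θ) (o : V) : Measurable[Fall G] (rho o) := by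
  have h1 : ∀ n : ℕ, ∀ v : V, G.dist v o = n → Measurable[Fall G] fun ω : Om V => (ω.1 v == ω.1 o) := by
    intro n
    induction n with
    | zero =>
      intro v hv
      have : v = o := h.tree.connected.dist_eq_zero_iff.1 hv
      subst this
      simp only [beq_self_eq_true]
      exact measurable_const
    | succ n ih =>
      intro v hv
      obtain ⟨w, hw, hw2⟩ := exists_closer h.tree.connected hv
      have h2 := ih w hw2
      have h3 : Measurable[Fall G] fun ω : Om V => etaF G ω.1 s(v, w) := by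
        apply meas_sp_inv
        exact measurable_coord (G := G) (.inl s(v, w))
      have h4 : Measurable[Fall G] fun ω : Om V => ((ω.1 w == ω.1 o), etaF G ω.1 s(v, w)) :=
        h2.prodMk h3
      have h5 : Measurable fun p : Bool × Bool => (p.2 == p.1) := measurable_of_countable _
      have h6 := h5.comp h4
      have e : (fun ω : Om V => (ω.1 v == ω.1 o))
          = (fun p : Bool × Bool => (p.2 == p.1)) ∘
            fun ω : Om V => ((ω.1 w == ω.1 o), etaF G ω.1 s(v, w)) := by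
        funext ω
        have hedge : s(v, w) ∈ G.edgeSet := hw
        simp only [Function.comp, etaF, hedge, if_true]
        show (ω.1 v == ω.1 o) = ((ω.1 v == ω.1 w) == (ω.1 w == ω.1 o))
        cases ω.1 v <;> cases ω.1 w <;> cases ω.1 o <;> rfl
      rw [e]
      exact h6
  have hU : Measurable[Fall G] fun ω : Om V => ω.2.1 := by
    refine @measurable_pi_lambda (Om V) (V × ℕ) (fun _ => I01) (Fall G) _ _ ?_
    intro k
    have := measurable_coord (G := G) (.inr (.inl k))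
    exact Measurable.subtype_mk (f := fun ω : Om V => (ω.2.1 k : ℝ)) this
  have hN : Measurable[Fall G] fun ω : Om V => ω.2.2 := by
    refine @measurable_pi_lambda (Om V) (V × ℕ) (fun _ => I01) (Fall G) _ _ ?_
    intro k
    have := measurable_coord (G := G) (.inr (.inr k))
    exact Measurable.subtype_mk (f := fun ω : Om V => (ω.2.2 k : ℝ)) this
  have hS : Measurable[Fall G] fun ω : Om V => fun v => (ω.1 v == ω.1 o) := by
    refine @measurable_pi_lambda (Om V) V (fun _ => Bool) (Fall G) _ _ ?_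
    intro v
    exact h1 _ v rfl
  exact hS.prodMk (hU.prodMk hN)

/-- a flip invariant function is a.e. a function of the coordinates -/
lemma condExp_all (h : Crit G d θ) {μ : Measure (V → Bool)} [IsProbabilityMeasure μ] (o : V)
    {f : Om V → ℝ} (hf : Measurable f) {B : ℝ} (hB : ∀ ω, |f ω| ≤ B)
    (hflp : ∀ᵐ ω ∂(PP μ), f (flp ω) = f ω) : (PP μ)[f | Fall G] =ᵐ[PP μ] f := by
  haveI : IsProbabilityMeasure (PP μ) := by unfold PP lam; infer_instance
  have hle : Fall G ≤ (inferInstance : MeasurableSpace (Om V)) := iSup_le fun i => sX_le i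
  have h1 : f =ᵐ[PP μ] fun ω => f (rho o ω) := by
    filter_upwards [hflp] with ω hω
    rw [rho_cases]
    split_ifs
    · rfl
    · exact hω.symm
  have h2 : StronglyMeasurable[Fall G] fun ω => f (rho o ω) :=
    (hf.comp (measurable_rho h o)).stronglyMeasurable
  have h3 : Integrable (fun ω => f (rho o ω)) (PP μ) :=
    Vale.Agent.P161.integrable_of_bdd (hf.comp ((measurable_rho h o).mono hle le_rfl))
      (fun ω => hB _)
  have h4 := condExp_congr_ae (m := Fall G) h1
  have h5 := condExp_of_stronglyMeasurable hle h2 h3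
  exact h4.trans (by rw [h5]; exact h1.symm)

/-- conditional expectations and measure preserving maps -/
lemma condExp_comp' {Ω : Type*} {m1 m2 m0 : MeasurableSpace Ω} {P : Measure Ω}
    [IsProbabilityMeasure P] (h1 : m1 ≤ m0) (h2 : m2 ≤ m0) {φ : Ω → Ω}
    (hφ : MeasurePreserving φ P P)
    (hc : m1.comap φ = m2) {f : Ω → ℝ} (hf : Integrable f P) :
    (fun ω => (P[f|m1]) (φ ω)) =ᵐ[P] P[fun ω => f (φ ω)|m2] := by
  have hfi : Integrable (fun ω => f (φ ω)) P := hφ.integrable_comp_of_integrable hf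
  apply ae_eq_condExp_of_forall_setIntegral_eq h2 hfi
  · intro s _ _
    exact (hφ.integrable_comp_of_integrable integrable_condExp).integrableOn
  · intro s hs _
    have hs' : MeasurableSet[m1.comap φ] s := by rw [hc]; exact hs
    obtain ⟨t, ht, rfl⟩ := hs'
    have key : ∀ g : Ω → ℝ, Integrable g P →
        ∫ ω in φ ⁻¹' t, g (φ ω) ∂P = ∫ ω in t, g ω ∂P := by
      intro g hg
      rw [← integral_indicator (hφ.measurable (h1 t ht)), ← integral_indicator (h1 t ht)]
      have := CE.integral_mp hφ (f := t.indicator g) (hg.indicator (h1 t ht)).aestronglyMeasurable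
      rw [← this]
      rfl
    rw [key _ integrable_condExp, key _ hf, setIntegral_condExp h1 hf ht]
  · have hm : Measurable[m2, m1] φ := by
      intro t ht
      have h1 : MeasurableSet[m1.comap φ] (φ ⁻¹' t) := ⟨t, ht, rfl⟩
      rw [hc] at h1
      exact h1
    have h2 : StronglyMeasurable[m2] (fun ω => (P[f|m1]) (φ ω)) :=
      stronglyMeasurable_condExp.comp_measurable hm
    exact h2.aestronglyMeasurable

/-- a field -/
structure Fld (G : SimpleGraph V) (μ : Measure (V → Bool)) (Ξ : V → Om V → ℝ) (B : ℝ) : Prop where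
  meas : ∀ v, Measurable (Ξ v)
  bdd : ∀ v ω, |Ξ v ω| ≤ B
  inv : ∀ (g : G ≃g G) (v : V), ∀ᵐ ω ∂(PP μ), Ξ (g v) (act g.toEquiv ω) = Ξ v ω
  flip : ∀ v, ∀ᵐ ω ∂(PP μ), Ξ v (flp ω) = Ξ v ω
  zero : ∀ v, ∫ ω, Ξ v ω ∂(PP μ) = 0

/-- local approximations -/
noncomputable def Xn (G : SimpleGraph V) (μ : Measure (V → Bool)) (Ξ : V → Om V → ℝ) (n : ℕ)
    (v : V) : Om V → ℝ := (PP μ)[Ξ v | Fl G v n]

variable {μ : Measure (V → Bool)} [IsProbabilityMeasure μ] {Ξ : V → Om V → ℝ} {B : ℝ}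

instance instPP' : IsProbabilityMeasure (PP μ) := by unfold PP lam; infer_instance

lemma Xn_bdd (hΞ : Fld G μ Ξ B) (n : ℕ) (v : V) : ∀ᵐ ω ∂(PP μ), |Xn G μ Ξ n v ω| ≤ B :=
  CE.condExp_abs_le (Fl_le v n) (hΞ.meas v) (hΞ.bdd v)

lemma Xn_sm (n : ℕ) (v : V) : StronglyMeasurable[Fl G v n] (Xn G μ Ξ n v) :=
  stronglyMeasurable_condExp

lemma Xn_aesm (n : ℕ) (v : V) : AEStronglyMeasurable (Xn G μ Ξ n v) (PP μ) :=
  ((Xn_sm n v).mono (Fl_le v n)).aestronglyMeasurable

lemma Xn_inv (h : Crit G d θ) (hΞ : Fld G μ Ξ B) (n : ℕ) (g : G ≃g G)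
    (hg : MeasurePreserving (act g.toEquiv) (PP μ) (PP μ)) (v : V) :
    (fun ω => Xn G μ Ξ n (g v) (act g.toEquiv ω)) =ᵐ[PP μ] Xn G μ Ξ n v := by
  have h1 := condExp_comp' (Fl_le (g v) n) (Fl_le v n) hg (comap_Fl h g v n)
    (Vale.Agent.P161.integrable_of_bdd (hΞ.meas (g v)) (hΞ.bdd (g v)))
  refine h1.trans ?_
  exact condExp_congr_ae (hΞ.inv g v)

/-- covariances -/
noncomputable def Kn (G : SimpleGraph V) (μ : Measure (V → Bool)) (Ξ : V → Om V → ℝ) (n : ℕ)
    (u w : V) : ℝ := ∫ ω, Xn G μ Ξ n u ω * Xn G μ Ξ n w ω ∂(PP μ)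

lemma Kn_bdd (hΞ : Fld G μ Ξ B) (n : ℕ) (u w : V) : |Kn G μ Ξ n u w| ≤ B ^ 2 := by
  unfold Kn
  have h1 : ∀ᵐ ω ∂(PP μ), ‖Xn G μ Ξ n u ω * Xn G μ Ξ n w ω‖ ≤ B ^ 2 := by
    filter_upwards [Xn_bdd hΞ n u, Xn_bdd hΞ n w] with ω h1 h2
    rw [Real.norm_eq_abs, abs_mul, sq]
    exact mul_le_mul h1 h2 (abs_nonneg _) ((abs_nonneg _).trans h1)
  have := norm_integral_le_of_norm_le_const h1
  simpa [Real.norm_eq_abs] using this

lemma Kn_int (hΞ : Fld G μ Ξ B) (n : ℕ) (u w : V) :
    Integrable (fun ω => Xn G μ Ξ n u ω * Xn G μ Ξ n w ω) (PP μ) := by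
  refine Integrable.of_bound ((Xn_aesm n u).mul (Xn_aesm n w)) (B ^ 2) ?_
  filter_upwards [Xn_bdd hΞ n u, Xn_bdd hΞ n w] with ω h1 h2
  rw [Real.norm_eq_abs, abs_mul, sq]
  exact mul_le_mul h1 h2 (abs_nonneg _) ((abs_nonneg _).trans h1)

lemma Kn_inv (h : Crit G d θ) (hΞ : Fld G μ Ξ B) (n : ℕ) (g : G ≃g G)
    (hg : MeasurePreserving (act g.toEquiv) (PP μ) (PP μ)) (u w : V) :
    Kn G μ Ξ n (g u) (g w) = Kn G μ Ξ n u w := by
  unfold Kn
  rw [← CE.integral_mp hg (f := fun ω => Xn G μ Ξ n (g u) ω * Xn G μ Ξ n (g w) ω)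
    ((Xn_aesm n (g u)).mul (Xn_aesm n (g w)))]
  apply integral_congr_ae
  filter_upwards [Xn_inv h hΞ n g hg u, Xn_inv h hΞ n g hg w] with ω h1 h2
  rw [h1, h2]

lemma Kn_far (h : Crit G d θ) (hη : EtaLaw G θ μ) (hΞ : Fld G μ Ξ B) (n : ℕ) {u w : V}
    (hn : 2 * n < G.dist u w) : Kn G μ Ξ n u w = 0 := by
  unfold Kn
  rw [integral_mul_local h hη hn (Xn_sm n u).measurable (Xn_sm n w).measurable]
  have : ∫ ω, Xn G μ Ξ n u ω ∂(PP μ) = 0 := by
    unfold Xn
    rw [integral_condExp (Fl_le u n)]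
    exact hΞ.zero u
  rw [this, zero_mul]

lemma Kn_psd (hΞ : Fld G μ Ξ B) (n : ℕ) (S : Finset V) (c : V → ℝ) :
    0 ≤ ∑ u ∈ S, ∑ w ∈ S, c u * c w * Kn G μ Ξ n u w := by
  have e : ∑ u ∈ S, ∑ w ∈ S, c u * c w * Kn G μ Ξ n u w
      = ∫ ω, (∑ u ∈ S, c u * Xn G μ Ξ n u ω) ^ 2 ∂(PP μ) := by
    have e2 : ∀ ω, (∑ u ∈ S, c u * Xn G μ Ξ n u ω) ^ 2
        = ∑ u ∈ S, ∑ w ∈ S, c u * c w * (Xn G μ Ξ n u ω * Xn G μ Ξ n w ω) := by
      intro ω
      rw [sq, Finset.sum_mul_sum]
      apply Finset.sum_congr rfl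
      intro u _
      apply Finset.sum_congr rfl
      intro w _
      ring
    simp_rw [e2]
    rw [integral_finsetSum _ (fun u _ => integrable_finsetSum _ fun w _ =>
      (Kn_int hΞ n u w).const_mul _)]
    apply Finset.sum_congr rfl
    intro u _
    rw [integral_finsetSum _ (fun w _ => (Kn_int hΞ n u w).const_mul _)]
    apply Finset.sum_congr rfl
    intro w _
    rw [integral_const_mul]
    rfl
  rw [e]
  exact integral_nonneg fun ω => sq_nonneg _

lemma Kn_lim (h : Crit G d θ) (hΞ : Fld G μ Ξ B) (u w : V) :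
    Tendsto (fun n => Kn G μ Ξ n u w) atTop (𝓝 (∫ ω, Ξ u ω * Ξ w ω ∂(PP μ))) := by
  unfold Kn
  have hlim : ∀ v, ∀ᵐ ω ∂(PP μ), Tendsto (fun n => Xn G μ Ξ n v ω) atTop (𝓝 (Ξ v ω)) := by
    intro v
    have h1 := tendsto_ae_condExp (ℱ := fil G v) (μ := PP μ) (Ξ v)
    have h2 : (⨆ n, (fil G v) n) = Fall G := iSup_Fl v
    rw [h2] at h1
    have h3 := condExp_all h v (hΞ.meas v) (hΞ.bdd v) (hΞ.flip v)
    filter_upwards [h1, h3] with ω h1 h3
    rw [h3] at h1
    exact h1
  apply tendsto_integral_of_dominated_convergence (fun _ => B ^ 2)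
  · intro n
    exact (Xn_aesm n u).mul (Xn_aesm n w)
  · exact integrable_const _
  · intro n
    filter_upwards [Xn_bdd hΞ n u, Xn_bdd hΞ n w] with ω h1 h2
    rw [Real.norm_eq_abs, abs_mul, sq]
    exact mul_le_mul h1 h2 (abs_nonneg _) ((abs_nonneg _).trans h1)
  · filter_upwards [hlim u, hlim w] with ω h1 h2
    exact h1.mul h2

open Classical in
/-- radial profile of a radial kernel -/
noncomputable def rad (G : SimpleGraph V) (K : V → V → ℝ) (k : ℕ) : ℝ :=
  if hh : ∃ p : V × V, G.dist p.1 p.2 = k then K hh.choose.1 hh.choose.2 else 0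

lemma rad_eq {K : V → V → ℝ} (hK : ∀ u w u' w', G.dist u w = G.dist u' w' → K u w = K u' w')
    (u w : V) : rad G K (G.dist u w) = K u w := by
  have hh : ∃ p : V × V, G.dist p.1 p.2 = G.dist u w := ⟨(u, w), rfl⟩
  unfold rad
  rw [dif_pos hh]
  exact hK _ _ _ _ hh.choose_spec

lemma cov_bound (hHOM : S_HOM.{u}) (hPDK : S_PDK.{u}) (h : Crit G d θ) (hη : EtaLaw G θ μ)
    (hg : ∀ g : G ≃g G, MeasurePreserving (act g.toEquiv) (PP μ) (PP μ)) (hΞ : Fld G μ Ξ B)
    (u w : V) : |∫ ω, Ξ u ω * Ξ w ω ∂(PP μ)|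
      ≤ 2 * (G.dist u w + 1) * θ ^ (G.dist u w) * ∫ ω, Ξ u ω * Ξ u ω ∂(PP μ) := by
  have key : ∀ n, |Kn G μ Ξ n u w|
      ≤ 2 * (G.dist u w + 1) * θ ^ (G.dist u w) * Kn G μ Ξ n u u := by
    intro n
    have hrad : ∀ a b a' b', G.dist a b = G.dist a' b' → Kn G μ Ξ n a b = Kn G μ Ξ n a' b' := by
      intro a b a' b' hab
      obtain ⟨g, rfl, rfl⟩ := hHOM h a b a' b' hab
      exact (Kn_inv h hΞ n g (hg g) a b).symm
    have hr := rad_eq hrad
    have hth := Gp.theta_lt_one h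
    have hpos := h.pos
    have h1 := hPDK h (rad G (Kn G μ Ξ n)) (by
      intro S c
      simp_rw [hr]
      exact Kn_psd hΞ n S c) (B ^ 2 * (θ ^ (2 * n))⁻¹) (by
      intro k
      have hp : (0 : ℝ) < θ ^ (2 * n) := by positivity
      by_cases hk : k ≤ 2 * n
      · have hb : |rad G (Kn G μ Ξ n) k| ≤ B ^ 2 := by
          unfold rad
          split_ifs
          · exact Kn_bdd hΞ n _ _
          · rw [abs_zero]; positivity
        refine hb.trans ?_
        rw [mul_assoc]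
        have h3 : θ ^ (2 * n) ≤ θ ^ k := pow_le_pow_of_le_one hpos.le hth.le hk
        have h4 : 1 ≤ (θ ^ (2 * n))⁻¹ * θ ^ k := by
          rw [← div_eq_inv_mul, le_div_iff₀ hp, one_mul]
          exact h3
        nlinarith [sq_nonneg B]
      · have hb : rad G (Kn G μ Ξ n) k = 0 := by
          unfold rad
          split_ifs with hh
          · exact Kn_far h hη hΞ n (by rw [hh.choose_spec]; omega)
          · rfl
        rw [hb, abs_zero]
        positivity) (G.dist u w)
    have h2 := hr u u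
    rw [G.dist_self] at h2
    rw [hr, h2] at h1
    exact h1
  have l1 := (Kn_lim h hΞ u w).abs
  have l2 := (Kn_lim h hΞ u u).const_mul (2 * ((G.dist u w : ℝ) + 1) * θ ^ (G.dist u w))
  exact le_of_tendsto_of_tendsto' l1 l2 key

end Vale.Agent.P161C.Temp
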