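import Vale.Agent.P161C.Plan
import Vale.Agent.P161C.CE
import Vale.Agent.P161C.Gp
import Vale.Agent.P161C.Bas
import Vale.Agent.P161.IsingUniq

/-!
# TEMP, part 1: independent coordinates, local sigma-algebras
-/

namespace Vale.Agent.P161C.Temp

open MeasureTheory ProbabilityTheory Vale.Agent.P161 Filter Topology

universe u

variable {V : Type u} {G : SimpleGraph V} {d : ℕ} {θ : ℝ}

/-- index set of the coordinates: edge signs, labels, noise -/
abbrev Ix (V : Type u) := Sym2 V ⊕ ((V × ℕ) ⊕ (V × ℕ))

/-- coordinates as real functions -/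
noncomputable def X (G : SimpleGraph V) : Ix V → Om V → ℝ
  | .inl e => fun ω => sp (etaF G ω.1 e)
  | .inr (.inl k) => fun ω => (ω.2.1 k : ℝ)
  | .inr (.inr k) => fun ω => (ω.2.2 k : ℝ)

lemma measurable_sp : Measurable sp := measurable_from_top

lemma measurable_etaF (G : SimpleGraph V) : Measurable (etaF G) := by
  classical
  rw [measurable_pi_iff]
  intro e
  induction e with
  | _ a b =>
    unfold etaF
    by_cases h : s(a, b) ∈ G.edgeSet
    · simp only [h, if_true]
      have h1 : Measurable fun σ : V → Bool => (σ a, σ b) :=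
        (measurable_pi_apply a).prodMk (measurable_pi_apply b)
      have h2 : Measurable fun p : Bool × Bool => (p.1 == p.2) := measurable_of_countable _
      exact h2.comp h1
    · simp only [h, if_false]
      exact measurable_const

lemma measurable_X (i : Ix V) : Measurable (X G i) := by
  rcases i with e | k | k
  · exact measurable_sp.comp ((measurable_pi_apply e).comp ((measurable_etaF G).comp measurable_fst))
  · exact measurable_subtype_coe.comp
      ((measurable_pi_apply k).comp (measurable_fst.comp measurable_snd))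
  · exact measurable_subtype_coe.comp
      ((measurable_pi_apply k).comp (measurable_snd.comp measurable_snd))

open Classical in
/-- laws of the coordinates -/
noncomputable def pr (G : SimpleGraph V) (θ : ℝ) : Ix V → Set ℝ → ENNReal
  | .inl e => fun t => (if e ∈ G.edgeSet then bern θ else Measure.dirac true) (sp ⁻¹' t)
  | .inr _ => fun t => (volume : Measure I01) (Subtype.val ⁻¹' t)

/-- the law of the edge signs is the product law -/
def EtaLaw (G : SimpleGraph V) (θ : ℝ) (μ : Measure (V → Bool)) : Prop :=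
  μ.map (etaF G) = etaLaw G θ

lemma box (h : Crit G d θ) {μ : Measure (V → Bool)} [IsProbabilityMeasure μ]
    (hη : EtaLaw G θ μ) (S : Finset (Ix V)) (t : Ix V → Set ℝ) (ht : ∀ i, i ∈ S → MeasurableSet (t i)) :
    PP μ (⋂ i ∈ S, X G i ⁻¹' t i) = ∏ i ∈ S, pr G θ i (t i) := by
  classical
  have hp : ∀ e, IsProbabilityMeasure (if e ∈ G.edgeSet then bern θ else Measure.dirac true) := by
    intro e
    split_ifs
    · apply bern_isProb
      rw [abs_of_pos h.pos]
      exact (Gp.theta_lt_one h).le
    · infer_instance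
  set S1 := S.toLeft with hS1
  set S2 := S.toRight.toLeft with hS2
  set S3 := S.toRight.toRight with hS3
  have e : (⋂ i ∈ S, X G i ⁻¹' t i)
      = (etaF G ⁻¹' (Set.pi (S1 : Set (Sym2 V)) fun e => sp ⁻¹' t (.inl e))) ×ˢ
        ((Set.pi (S2 : Set (V × ℕ)) fun k => (Subtype.val : I01 → ℝ) ⁻¹' t (.inr (.inl k))) ×ˢ
        (Set.pi (S3 : Set (V × ℕ)) fun k => (Subtype.val : I01 → ℝ) ⁻¹' t (.inr (.inr k)))) := by
    ext ω
    simp only [Set.mem_iInter, Set.mem_preimage, Set.mem_prod, Set.mem_pi, Finset.mem_coe, hS1,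
      hS2, hS3, Finset.mem_toLeft, Finset.mem_toRight]
    constructor
    · intro H
      exact ⟨fun e he => H _ he, fun k hk => H _ hk, fun k hk => H _ hk⟩
    · rintro ⟨H1, H2, H3⟩ i hi
      rcases i with e | k | k
      · exact H1 e hi
      · exact H2 k hi
      · exact H3 k hi
  have m1 : ∀ e ∈ S1, MeasurableSet (sp ⁻¹' t (.inl e)) := fun e _ => MeasurableSet.of_discrete
  have m2 : ∀ k ∈ S2, MeasurableSet ((Subtype.val : I01 → ℝ) ⁻¹' t (.inr (.inl k))) := by
    intro k hk
    apply measurable_subtype_coe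
    apply ht
    simpa [hS2] using hk
  have m3 : ∀ k ∈ S3, MeasurableSet ((Subtype.val : I01 → ℝ) ⁻¹' t (.inr (.inr k))) := by
    intro k hk
    apply measurable_subtype_coe
    apply ht
    simpa [hS3] using hk
  rw [e]
  unfold PP
  rw [Measure.prod_prod, Measure.prod_prod]
  rw [← Measure.map_apply (measurable_etaF G)
    (MeasurableSet.pi (Finset.countable_toSet S1) (fun e he => m1 e he))]
  rw [hη]
  unfold etaLaw lam
  rw [Measure.infinitePi_pi _ m1, Measure.infinitePi_pi _ m2, Measure.infinitePi_pi _ m3]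
  rw [Finset.prod_sum_eq_prod_toLeft_mul_prod_toRight S,
    Finset.prod_sum_eq_prod_toLeft_mul_prod_toRight S.toRight]
  rfl

lemma iIndep_X (h : Crit G d θ) {μ : Measure (V → Bool)} [IsProbabilityMeasure μ]
    (hη : EtaLaw G θ μ) : iIndepFun (X G) (PP μ) := by
  rw [iIndepFun_iff_measure_inter_preimage_eq_mul]
  intro S sets H
  rw [box h hη S sets H]
  apply Finset.prod_congr rfl
  intro i hi
  have := box h hη {i} sets (fun j hj => by rw [Finset.mem_singleton] at hj; subst hj; exact H j hi)
  simp only [Finset.mem_singleton, Set.iInter_iInter_eq_left, Finset.prod_singleton] at this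
  exact this.symm

/-! ### local sigma-algebras -/

/-- the vertices of a coordinate -/
def supp : Ix V → Set V
  | .inl e => {x | x ∈ e}
  | .inr (.inl k) => {k.1}
  | .inr (.inr k) => {k.1}

lemma supp_nonempty (i : Ix V) : (supp i).Nonempty := by
  rcases i with e | k | k
  · induction e with
    | _ a b => exact ⟨a, Sym2.mem_mk_left a b⟩
  · exact ⟨k.1, rfl⟩
  · exact ⟨k.1, rfl⟩

lemma supp_bdd (G : SimpleGraph V) (v : V) (i : Ix V) : ∃ n, ∀ x ∈ supp i, G.dist v x ≤ n := by
  rcases i with e | k | k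
  · induction e with
    | _ a b =>
      refine ⟨max (G.dist v a) (G.dist v b), ?_⟩
      intro x hx
      have hx' : x ∈ s(a, b) := hx
      rw [Sym2.mem_iff] at hx'
      rcases hx' with rfl | rfl
      · exact le_max_left _ _
      · exact le_max_right _ _
  · exact ⟨G.dist v k.1, fun x hx => by rw [show x = k.1 from hx]⟩
  · exact ⟨G.dist v k.1, fun x hx => by rw [show x = k.1 from hx]⟩

/-- coordinates in the ball -/
def Inb (G : SimpleGraph V) (v : V) (n : ℕ) : Set (Ix V) := {i | ∀ x ∈ supp i, G.dist v x ≤ n}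

/-- sigma-algebra of a coordinate -/
noncomputable abbrev sX (G : SimpleGraph V) (i : Ix V) : MeasurableSpace (Om V) :=
  MeasurableSpace.comap (X G i) inferInstance

/-- local sigma-algebra -/
noncomputable abbrev Fl (G : SimpleGraph V) (v : V) (n : ℕ) : MeasurableSpace (Om V) :=
  ⨆ i ∈ Inb G v n, sX G i

lemma sX_le (i : Ix V) : sX G i ≤ (inferInstance : MeasurableSpace (Om V)) :=
  (measurable_X i).comap_le

lemma Fl_le (v : V) (n : ℕ) : Fl G v n ≤ (inferInstance : MeasurableSpace (Om V)) :=
  iSup₂_le fun i _ => sX_le i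

lemma Fl_mono (v : V) : Monotone (Fl G v) := by
  intro m n hmn
  apply biSup_mono
  intro i hi x hx
  exact (hi x hx).trans hmn

lemma iSup_Fl (v : V) : ⨆ n, Fl G v n = ⨆ i, sX G i := by
  apply le_antisymm
  · exact iSup_le fun n => iSup₂_le fun i _ => le_iSup (fun i => sX G i) i
  · apply iSup_le
    intro i
    obtain ⟨n, hn⟩ := supp_bdd G v i
    exact (le_iSup₂_of_le (f := fun i (_ : i ∈ Inb G v n) => sX G i) i hn le_rfl).trans
      (le_iSup (fun n => Fl G v n) n)

/-- the filtration of the balls -/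
noncomputable def fil (G : SimpleGraph V) (v : V) :
    Filtration ℕ (inferInstance : MeasurableSpace (Om V)) where
  seq := Fl G v
  mono' := Fl_mono v
  le' := Fl_le v

lemma disj_Inb (h : Crit G d θ) {u w : V} {n : ℕ} (hn : 2 * n < G.dist u w) :
    Disjoint (Inb G u n) (Inb G w n) := by
  rw [Set.disjoint_left]
  intro i hi hi2
  obtain ⟨x, hx⟩ := supp_nonempty i
  have h1 := hi x hx
  have h2 := hi2 x hx
  have h3 := h.tree.connected.dist_triangle (u := u) (v := x) (w := w)
  rw [G.dist_comm (u := x)] at h3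
  omega

lemma indep_Fl (h : Crit G d θ) {μ : Measure (V → Bool)} [IsProbabilityMeasure μ]
    (hη : EtaLaw G θ μ) {u w : V} {n : ℕ} (hn : 2 * n < G.dist u w) :
    Indep (Fl G u n) (Fl G w n) (PP μ) :=
  indep_iSup_of_disjoint (fun i => sX_le i) (iIndep_X h hη) (disj_Inb h hn)

/-- independence of local variables at distant vertices -/
lemma integral_mul_local (h : Crit G d θ) {μ : Measure (V → Bool)} [IsProbabilityMeasure μ]
    (hη : EtaLaw G θ μ) {u w : V} {n : ℕ} (hn : 2 * n < G.dist u w) {f g : Om V → ℝ}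
    (hf : Measurable[Fl G u n] f) (hg : Measurable[Fl G w n] g) :
    ∫ ω, f ω * g ω ∂(PP μ) = (∫ ω, f ω ∂(PP μ)) * ∫ ω, g ω ∂(PP μ) := by
  have hi : IndepFun f g (PP μ) := by
    rw [IndepFun_iff_Indep]
    exact indep_of_indep_of_le_left (indep_of_indep_of_le_right (indep_Fl h hη hn) hg.comap_le)
      hf.comap_le
  exact hi.integral_fun_mul_eq_mul_integral (hf.mono (Fl_le _ _) le_rfl).aestronglyMeasurable
    (hg.mono (Fl_le _ _) le_rfl).aestronglyMeasurable

/-- action on the coordinates -/
def gI (g : V ≃ V) : Ix V → Ix V :=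
  Sum.map (Sym2.map g) (Sum.map (fun k => (g k.1, k.2)) (fun k => (g k.1, k.2)))

lemma gI_gI_symm (g : V ≃ V) (i : Ix V) : gI g (gI g.symm i) = i := by
  rcases i with e | k | k
  · simp only [gI, Sum.map_inl]
    rw [Sym2.map_map]
    simp
  · simp [gI]
  · simp [gI]

lemma agr_map (g : V ≃ V) (σ : V → Bool) (e : Sym2 V) :
    agr (fun v => σ (g.symm v)) (Sym2.map g e) = agr σ e := by
  induction e with
  | _ a b =>
    simp [agr, Sym2.map_mk]

lemma mem_edge_map (g : G ≃g G) (e : Sym2 V) :
    Sym2.map g.toEquiv e ∈ G.edgeSet ↔ e ∈ G.edgeSet := by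
  induction e with
  | _ a b =>
    simp only [Sym2.map_mk, SimpleGraph.mem_edgeSet]
    exact g.map_rel_iff

lemma X_act (g : G ≃g G) (i : Ix V) (ω : Om V) :
    X G (gI g.toEquiv i) (act g.toEquiv ω) = X G i ω := by
  classical
  rcases i with e | k | k
  · simp only [gI, Sum.map_inl, X, act]
    unfold etaF
    simp only [mem_edge_map g, agr_map]
  · have e : g.toEquiv.symm (g.toEquiv k.1) = k.1 := Equiv.symm_apply_apply _ _
    show ((ω.2.1 (g.toEquiv.symm (g.toEquiv k.1), k.2) : I01) : ℝ) = _
    rw [e]; rfl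
  · have e : g.toEquiv.symm (g.toEquiv k.1) = k.1 := Equiv.symm_apply_apply _ _
    show ((ω.2.2 (g.toEquiv.symm (g.toEquiv k.1), k.2) : I01) : ℝ) = _
    rw [e]; rfl

lemma supp_gI (g : V ≃ V) (i : Ix V) : supp (gI g i) = g '' supp i := by
  rcases i with e | k | k
  · simp only [gI, Sum.map_inl, supp]
    ext x
    simp only [Set.mem_ofPred_eq, Sym2.mem_map, Set.mem_image]
  · simp [gI, supp]
  · simp [gI, supp]

lemma comap_Fl (h : Crit G d θ) (g : G ≃g G) (v : V) (n : ℕ) :
    (Fl G (g v) n).comap (act g.toEquiv) = Fl G v n := by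
  have e1 : ∀ i, (sX G (gI g.toEquiv i)).comap (act g.toEquiv) = sX G i := by
    intro i
    rw [MeasurableSpace.comap_comp]
    congr 1
    funext ω
    exact X_act g i ω
  have e2 : ∀ i, gI g.toEquiv i ∈ Inb G (g v) n ↔ i ∈ Inb G v n := by
    intro i
    unfold Inb
    simp only [Set.mem_ofPred_eq, supp_gI, Set.mem_image, forall_exists_index, and_imp,
      forall_apply_eq_imp_iff₂]
    constructor
    · intro H x hx
      have := H x hx
      rwa [show (g.toEquiv x) = g x from rfl, Gp.dist_iso g h.tree.connected] at this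
    · intro H x hx
      rw [show (g.toEquiv x) = g x from rfl, Gp.dist_iso g h.tree.connected]
      exact H x hx
  unfold Fl
  simp only [MeasurableSpace.comap_iSup]
  apply le_antisymm
  · apply iSup₂_le
    intro i hi
    have h1 : gI g.toEquiv (gI g.toEquiv.symm i) = i := gI_gI_symm _ i
    rw [← h1] at hi
    rw [← h1, e1]
    exact le_iSup₂_of_le (f := fun i (_ : i ∈ Inb G v n) => sX G i) _ ((e2 _).1 hi) le_rfl
  · apply iSup₂_le
    intro i hi
    rw [← e1]
    exact le_iSup₂_of_le (f := fun i (_ : i ∈ Inb G (g v) n) => (sX G i).comap (act g.toEquiv)) _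
      ((e2 _).2 hi) le_rfl

end Vale.Agent.P161C.Temp
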